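import Mathlib
import Crest.Prelude.Def_PairPotential

/-!
# Module G of the S0209/S0210 blueprint: Gaussian row sums

`g R r = (2 π R²)^(-3/2) exp (-r²/(2R²))`, the three-dimensional Gaussian density as a function of
the distance.

* `row`: for a grid of side `h`, `∑_{i<k} g R (d i k) ≤ (1/2) (1+2h/R)^3 #{(i,k) same cell}/h^3`.
* `cs`: for a configuration in `cube L`,
  `∑_{i<k} g R (d i k) ≥ (1/2) N^2 θ^6/(L+2T)^3 - (1/2) N g R 0`.
-/

set_option autoImplicit false

namespace Crest.Agent.TL.Gauss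

open Real MeasureTheory Finset
open Crest.ProbabilityR.Continuum

/-- One-dimensional Gaussian density with standard deviation `R`. -/
noncomputable def γ (R u : ℝ) : ℝ := (√(2 * π) * R)⁻¹ * exp (-u ^ 2 / (2 * R ^ 2))

/-- Three-dimensional Gaussian density, as a function of the distance. -/
noncomputable def g (R r : ℝ) : ℝ := ((√(2 * π) * R)⁻¹) ^ 3 * exp (-r ^ 2 / (2 * R ^ 2))

lemma γ_nonneg {R : ℝ} (hR : 0 < R) (u : ℝ) : 0 ≤ γ R u := by
  unfold γ; positivity

lemma γ_pos {R : ℝ} (hR : 0 < R) (u : ℝ) : 0 < γ R u := by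
  unfold γ; positivity

lemma g_nonneg {R : ℝ} (hR : 0 < R) (r : ℝ) : 0 ≤ g R r := by
  unfold g; positivity

lemma g_pos {R : ℝ} (hR : 0 < R) (r : ℝ) : 0 < g R r := by
  unfold g; positivity

lemma γ_even (R u : ℝ) : γ R (-u) = γ R u := by
  unfold γ; simp

lemma γ_abs (R u : ℝ) : γ R |u| = γ R u := by
  unfold γ; simp [sq_abs]

/-- `γ` decreases in `|u|`. -/
lemma γ_anti {R : ℝ} (hR : 0 < R) {u v : ℝ} (h : |u| ≤ |v|) : γ R v ≤ γ R u := by
  unfold γ
  have h1 : u ^ 2 ≤ v ^ 2 := sq_le_sq.mpr h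
  have h2 : 0 < 2 * R ^ 2 := by positivity
  apply mul_le_mul_of_nonneg_left _ (by positivity)
  apply Real.exp_le_exp.mpr
  apply div_le_div_of_nonneg_right _ h2.le
  linarith

lemma dist_sq_eq (x y : Pt) : dist x y ^ 2 = ∑ a : Fin 3, (x a - y a) ^ 2 := by
  rw [EuclideanSpace.dist_eq, Real.sq_sqrt (Finset.sum_nonneg fun _ _ => by positivity)]
  refine Finset.sum_congr rfl fun a _ => ?_
  rw [Real.dist_eq, sq_abs]

/-- The three dimensional Gaussian is a product of one dimensional ones. -/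
lemma g_dist_eq_prod (R : ℝ) (x y : Pt) :
    g R (dist x y) = ∏ a : Fin 3, γ R (x a - y a) := by
  unfold g γ
  rw [Finset.prod_mul_distrib, dist_sq_eq]
  simp only [Finset.prod_const, Finset.card_univ, Fintype.card_fin]
  congr 1
  rw [← Real.exp_sum]
  congr 1
  rw [Fin.sum_univ_three, Fin.sum_univ_three]
  ring

/-! ### One dimensional integrals -/

lemma integral_γ {R : ℝ} (hR : 0 < R) : ∫ u, γ R u = 1 := by
  unfold γ
  rw [integral_const_mul]
  have hb : 0 < 1 / (2 * R ^ 2) := by positivity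
  have h := integral_gaussian (1 / (2 * R ^ 2))
  have h2 : (fun u : ℝ => exp (-u ^ 2 / (2 * R ^ 2))) =
      fun u : ℝ => exp (-(1 / (2 * R ^ 2)) * u ^ 2) := by
    funext u; congr 1; field_simp
  rw [h2, h]
  have h3 : π / (1 / (2 * R ^ 2)) = (√(2 * π) * R) ^ 2 := by
    rw [mul_pow, Real.sq_sqrt (by positivity)]; field_simp
  rw [h3, Real.sqrt_sq (by positivity)]
  have : √(2 * π) * R ≠ 0 := by positivity
  field_simp

lemma integrable_γ {R : ℝ} (hR : 0 < R) : Integrable (γ R) := by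
  unfold γ
  refine Integrable.const_mul ?_ _
  have hb : 0 < 1 / (2 * R ^ 2) := by positivity
  have h := integrable_exp_neg_mul_sq hb
  refine h.congr (Filter.Eventually.of_forall fun u => ?_)
  simp only
  congr 1
  field_simp

lemma integral_γ_Ioi {R : ℝ} (hR : 0 < R) : ∫ u in Set.Ioi (0:ℝ), γ R u = 1 / 2 := by
  unfold γ
  rw [integral_const_mul]
  have h := integral_gaussian_Ioi (1 / (2 * R ^ 2))
  have h2 : (fun u : ℝ => exp (-u ^ 2 / (2 * R ^ 2))) =
      fun u : ℝ => exp (-(1 / (2 * R ^ 2)) * u ^ 2) := by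
    funext u; congr 1; field_simp
  rw [h2, h]
  have h3 : π / (1 / (2 * R ^ 2)) = (√(2 * π) * R) ^ 2 := by
    rw [mul_pow, Real.sq_sqrt (by positivity)]; field_simp
  rw [h3, Real.sqrt_sq (by positivity)]
  have : √(2 * π) * R ≠ 0 := by positivity
  field_simp

lemma intervalIntegral_γ_le {R : ℝ} (hR : 0 < R) {A : ℝ} (hA : 0 ≤ A) :
    ∫ u in (0:ℝ)..A, γ R u ≤ 1 / 2 := by
  rw [intervalIntegral.integral_of_le hA, ← integral_γ_Ioi hR]
  refine setIntegral_mono_set (integrable_γ hR).integrableOn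
    (Filter.Eventually.of_forall fun u => γ_nonneg hR u) ?_
  exact (Filter.Eventually.of_forall fun u (hu : u ∈ Set.Ioc 0 A) => hu.1)

/-- A Riemann sum of the half line is below the half mass. -/
lemma sum_γ_le {R h : ℝ} (hR : 0 < R) (hh : 0 < h) (M : ℕ) :
    ∑ i ∈ Finset.range M, γ R (h * ((i:ℝ) + 1)) ≤ 1 / (2 * h) := by
  have hanti : AntitoneOn (fun t : ℝ => γ R (h * t)) (Set.Icc (0:ℝ) ((0:ℝ) + (M:ℕ))) := by
    intro s hs t ht hst
    apply γ_anti hR
    rw [abs_of_nonneg (mul_nonneg hh.le hs.1), abs_of_nonneg (mul_nonneg hh.le ht.1)]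
    exact mul_le_mul_of_nonneg_left hst hh.le
  have := hanti.sum_le_integral
  simp only [zero_add] at this
  have h2 : ∑ i ∈ Finset.range M, γ R (h * ((i:ℝ) + 1)) =
      ∑ i ∈ Finset.range M, γ R (h * (((i + 1 : ℕ) : ℝ))) := by
    refine Finset.sum_congr rfl fun i _ => ?_
    push_cast; rfl
  rw [h2]
  refine this.trans ?_
  have h3 : ∫ x in (0:ℝ)..(M:ℝ), γ R (h * x) = h⁻¹ * ∫ x in (0:ℝ)..(h * M), γ R x := by
    have := intervalIntegral.integral_comp_mul_left (a := 0) (b := (M:ℝ)) (γ R) hh.ne'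
    rw [this]; simp [smul_eq_mul]
  rw [h3]
  have h4 := intervalIntegral_γ_le hR (A := h * M) (by positivity)
  have h5 : 0 < h⁻¹ := by positivity
  calc h⁻¹ * ∫ x in (0:ℝ)..(h * M), γ R x ≤ h⁻¹ * (1 / 2) :=
        mul_le_mul_of_nonneg_left h4 h5.le
    _ = 1 / (2 * h) := by field_simp

/-! ### Row sums -/

/-- Majorant of `γ` on a pair of cells with index difference `d`. -/
noncomputable def Γ (R h : ℝ) (d : ℤ) : ℝ := γ R (h * max ((|d| : ℝ) - 1) 0)

lemma Γ_nonneg {R : ℝ} (hR : 0 < R) (h : ℝ) (d : ℤ) : 0 ≤ Γ R h d := γ_nonneg hR _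

lemma Γ_neg (R h : ℝ) (d : ℤ) : Γ R h (-d) = Γ R h d := by
  unfold Γ; simp

lemma γ_le_Γ {R h : ℝ} (hR : 0 < R) (hh : 0 < h) (τ s t : ℝ) :
    γ R (s - t) ≤ Γ R h (⌊(s - τ) / h⌋ - ⌊(t - τ) / h⌋) := by
  unfold Γ
  apply γ_anti hR
  have hm := Int.floor_le ((s - τ) / h)
  have hm' := Int.lt_floor_add_one ((s - τ) / h)
  have hn := Int.floor_le ((t - τ) / h)
  have hn' := Int.lt_floor_add_one ((t - τ) / h)
  set m := ⌊(s - τ) / h⌋
  set n := ⌊(t - τ) / h⌋
  have hst : (s - t) / h = (s - τ) / h - (t - τ) / h := by field_simp; ring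
  rw [abs_of_nonneg (mul_nonneg hh.le (le_max_right _ _))]
  have h1 : (|((m - n : ℤ) : ℝ)|) = |(m:ℝ) - n| := by push_cast; rfl
  have key : max (|((m - n : ℤ) : ℝ)| - 1) 0 ≤ |s - t| / h := by
    apply max_le _ (by positivity)
    have e : |s - t| / h = |(s - t) / h| := by rw [abs_div, abs_of_pos hh]
    rw [h1, e, hst]
    have : |(m:ℝ) - n| ≤ |(s - τ) / h - (t - τ) / h| + 1 := by
      rcases abs_cases ((m:ℝ) - n) with ⟨e1, _⟩ | ⟨e1, _⟩ <;> rw [e1] <;>
      rcases abs_cases ((s - τ) / h - (t - τ) / h) with ⟨e2, _⟩ | ⟨e2, _⟩ <;> rw [e2] <;> linarith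
    linarith
  rw [le_div_iff₀ hh] at key
  linarith [key, mul_comm h (max (|((m - n : ℤ) : ℝ)| - 1) 0)]

lemma sum_range_Γ_le {R h : ℝ} (hR : 0 < R) (hh : 0 < h) (M : ℕ) :
    ∑ n ∈ Finset.range (M + 2), Γ R h (n : ℤ) ≤ 2 * γ R 0 + 1 / (2 * h) := by
  rw [Finset.sum_range_succ', Finset.sum_range_succ']
  have h0 : Γ R h ((0 : ℕ) : ℤ) = γ R 0 := by simp [Γ]
  have h1 : Γ R h ((0 + 1 : ℕ) : ℤ) = γ R 0 := by simp [Γ]
  rw [h0, h1]
  have h2 : ∀ k : ℕ, Γ R h ((k + 1 + 1 : ℕ) : ℤ) = γ R (h * ((k : ℝ) + 1)) := by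
    intro k
    unfold Γ
    congr 2
    have : |(((k + 1 + 1 : ℕ) : ℤ) : ℝ)| = ((k:ℝ) + 1 + 1) := by
      push_cast
      exact abs_of_nonneg (by positivity)
    rw [this, max_eq_left (by have : (0:ℝ) ≤ k := Nat.cast_nonneg k; linarith)]
    ring
  simp only [h2]
  have := sum_γ_le hR hh M
  linarith

/-- The row sum in one dimension. -/
lemma sum_Γ_le {R h : ℝ} (hR : 0 < R) (hh : 0 < h) (D : Finset ℤ) :
    ∑ d ∈ D, Γ R h d ≤ (1 + 2 * h / R) / h := by
  classical
  set M : ℕ := D.sup Int.natAbs with hM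
  set Dp : Finset ℤ := (Finset.range (M + 2)).image (fun n : ℕ => (n : ℤ))
  set Dn : Finset ℤ := (Finset.range (M + 2)).image (fun n : ℕ => -(n : ℤ))
  have hsub : D ⊆ Dp ∪ Dn := by
    intro d hd
    have hle : d.natAbs ≤ M := Finset.le_sup (f := Int.natAbs) hd
    rcases Int.natAbs_eq d with e | e
    · refine Finset.mem_union_left _ (Finset.mem_image.mpr ⟨d.natAbs, ?_, e.symm⟩)
      exact Finset.mem_range.mpr (by omega)
    · refine Finset.mem_union_right _ (Finset.mem_image.mpr ⟨d.natAbs, ?_, e.symm⟩)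
      exact Finset.mem_range.mpr (by omega)
  have h1 : ∑ d ∈ D, Γ R h d ≤ ∑ d ∈ Dp ∪ Dn, Γ R h d :=
    Finset.sum_le_sum_of_subset_of_nonneg hsub fun d _ _ => Γ_nonneg hR h d
  have h2 : ∑ d ∈ Dp ∪ Dn, Γ R h d ≤ ∑ d ∈ Dp, Γ R h d + ∑ d ∈ Dn, Γ R h d := by
    rw [← Finset.sum_union_inter]
    have : 0 ≤ ∑ d ∈ Dp ∩ Dn, Γ R h d := Finset.sum_nonneg fun d _ => Γ_nonneg hR h d
    linarith
  have h3 : ∑ d ∈ Dp, Γ R h d = ∑ n ∈ Finset.range (M + 2), Γ R h (n : ℤ) :=
    Finset.sum_image (fun a _ b _ hab => by exact_mod_cast hab)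
  have h4 : ∑ d ∈ Dn, Γ R h d = ∑ n ∈ Finset.range (M + 2), Γ R h (n : ℤ) := by
    rw [Finset.sum_image (fun a _ b _ hab => by simpa using hab)]
    exact Finset.sum_congr rfl fun n _ => Γ_neg R h n
  have h5 := sum_range_Γ_le hR hh M
  have h6 : 4 * γ R 0 ≤ 2 / R := by
    unfold γ
    simp only [ne_eq, OfNat.ofNat_ne_zero, not_false_eq_true, zero_pow, neg_zero, zero_div,
      exp_zero, mul_one]
    have h7 : (2:ℝ) ≤ √(2 * π) := by
      apply Real.le_sqrt_of_sq_le
      nlinarith [Real.pi_gt_three]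
    rw [mul_inv, ← mul_assoc, div_eq_mul_inv]
    apply mul_le_mul_of_nonneg_right _ (by positivity)
    rw [← div_eq_mul_inv, div_le_iff₀ (by positivity)]
    linarith
  have h8 : (1 + 2 * h / R) / h = 2 / R + 1 / h := by field_simp; ring
  have h9 : 1 / h = 2 * (1 / (2 * h)) := by field_simp
  rw [h8, h9]
  linarith

/-- Finite sets of `ℤ³`: the row sum of the product kernel. -/
lemma sum_prod_Γ_le {R h : ℝ} (hR : 0 < R) (hh : 0 < h) (D : Finset (Fin 3 → ℤ)) :
    ∑ d ∈ D, ∏ a, Γ R h (d a) ≤ ((1 + 2 * h / R) / h) ^ 3 := by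
  classical
  set Dp : Fin 3 → Finset ℤ := fun a => D.image (fun d => d a)
  have hsub : D ⊆ Fintype.piFinset Dp := by
    intro d hd
    rw [Fintype.mem_piFinset]
    intro a
    exact Finset.mem_image_of_mem _ hd
  have h1 : ∑ d ∈ D, ∏ a, Γ R h (d a) ≤ ∑ d ∈ Fintype.piFinset Dp, ∏ a, Γ R h (d a) :=
    Finset.sum_le_sum_of_subset_of_nonneg hsub fun d _ _ =>
      Finset.prod_nonneg fun a _ => Γ_nonneg hR h _
  have h2 : ∑ d ∈ Fintype.piFinset Dp, ∏ a, Γ R h (d a) = ∏ a, ∑ d ∈ Dp a, Γ R h d :=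
    (Finset.prod_univ_sum Dp (fun a d => Γ R h d)).symm
  rw [h2] at h1
  refine h1.trans ?_
  have h3 : ∏ a : Fin 3, ∑ d ∈ Dp a, Γ R h d ≤ ∏ _a : Fin 3, ((1 + 2 * h / R) / h) :=
    Finset.prod_le_prod (fun a _ => Finset.sum_nonneg fun d _ => Γ_nonneg hR h d)
      fun a _ => sum_Γ_le hR hh _
  calc _ ≤ ∏ _a : Fin 3, ((1 + 2 * h / R) / h) := h3
    _ = _ := by simp [div_pow]

/-- Schur test for the kernel on cells. -/
lemma schur {ι κ : Type*} [Fintype ι] [DecidableEq κ] (c : ι → κ) (K : κ → κ → ℝ)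
    (hK : ∀ u v, 0 ≤ K u v) (hsym : ∀ u v, K u v = K v u) {S : ℝ}
    (hS : ∀ (u : κ) (C : Finset κ), ∑ v ∈ C, K u v ≤ S) :
    ∑ i, ∑ k, K (c i) (c k) ≤ S * ((Finset.univ.filter (fun p : ι × ι => c p.1 = c p.2)).card : ℝ) := by
  classical
  set C : Finset κ := Finset.univ.image c
  set n : κ → ℝ := fun u => ((Finset.univ.filter (fun i => c i = u)).card : ℝ)
  have hn : ∀ u, 0 ≤ n u := fun u => by positivity
  have hsum : ∀ f : κ → ℝ, ∑ i, f (c i) = ∑ u ∈ C, n u * f u := by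
    intro f
    rw [Finset.sum_comp (s := Finset.univ) f c]
    simp [nsmul_eq_mul, C, n]
  have h1 : ∑ i, ∑ k, K (c i) (c k) = ∑ u ∈ C, ∑ v ∈ C, n u * n v * K u v := by
    calc ∑ i, ∑ k, K (c i) (c k) = ∑ i, ∑ v ∈ C, n v * K (c i) v := by
          refine Finset.sum_congr rfl fun i _ => hsum (fun v => K (c i) v)
      _ = ∑ u ∈ C, n u * ∑ v ∈ C, n v * K u v := hsum (fun u => ∑ v ∈ C, n v * K u v)
      _ = ∑ u ∈ C, ∑ v ∈ C, n u * n v * K u v := by
          refine Finset.sum_congr rfl fun u _ => ?_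
          rw [Finset.mul_sum]
          exact Finset.sum_congr rfl fun v _ => by ring
  have hcard : ((Finset.univ.filter (fun p : ι × ι => c p.1 = c p.2)).card : ℝ) =
      ∑ u ∈ C, n u ^ 2 := by
    have h3 : ((Finset.univ.filter (fun p : ι × ι => c p.1 = c p.2)).card : ℝ) =
        ∑ i, ∑ k, (if c i = c k then (1:ℝ) else 0) := by
      rw [Finset.card_filter]
      push_cast
      rw [Fintype.sum_prod_type]
    rw [h3]
    calc ∑ i, ∑ k, (if c i = c k then (1:ℝ) else 0) = ∑ i, ∑ v ∈ C, n v * (if c i = v then 1 else 0) := by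
          refine Finset.sum_congr rfl fun i _ => hsum (fun v => if c i = v then (1:ℝ) else 0)
      _ = ∑ u ∈ C, n u * ∑ v ∈ C, n v * (if u = v then 1 else 0) :=
          hsum (fun u => ∑ v ∈ C, n v * (if u = v then (1:ℝ) else 0))
      _ = ∑ u ∈ C, n u ^ 2 := by
          refine Finset.sum_congr rfl fun u hu => ?_
          rw [Finset.sum_eq_single u]
          · simp; ring
          · intro v _ hv
            simp [Ne.symm hv]
          · intro h; exact absurd hu h
  rw [h1, hcard]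
  have h4 : ∀ u ∈ C, ∀ v ∈ C, n u * n v * K u v ≤ (n u ^ 2 * K u v + n v ^ 2 * K v u) / 2 := by
    intro u _ v _
    rw [hsym v u]
    have := hK u v
    nlinarith [mul_nonneg (sq_nonneg (n u - n v)) this]
  have h5 : ∑ u ∈ C, ∑ v ∈ C, n u * n v * K u v ≤
      ∑ u ∈ C, ∑ v ∈ C, (n u ^ 2 * K u v + n v ^ 2 * K v u) / 2 :=
    Finset.sum_le_sum fun u hu => Finset.sum_le_sum fun v hv => h4 u hu v hv
  have h6 : ∑ u ∈ C, ∑ v ∈ C, (n u ^ 2 * K u v + n v ^ 2 * K v u) / 2 =
      ∑ u ∈ C, n u ^ 2 * ∑ v ∈ C, K u v := by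
    have e1 : ∑ u ∈ C, ∑ v ∈ C, n v ^ 2 * K v u = ∑ u ∈ C, ∑ v ∈ C, n u ^ 2 * K u v :=
      Finset.sum_comm
    simp only [add_div, Finset.sum_add_distrib]
    simp only [Finset.mul_sum]
    have e2 : ∑ u ∈ C, ∑ v ∈ C, n v ^ 2 * K v u / 2 = (∑ u ∈ C, ∑ v ∈ C, n v ^ 2 * K v u) / 2 := by
      simp only [Finset.sum_div]
    have e3 : ∑ u ∈ C, ∑ v ∈ C, n u ^ 2 * K u v / 2 = (∑ u ∈ C, ∑ v ∈ C, n u ^ 2 * K u v) / 2 := by
      simp only [Finset.sum_div]
    rw [e2, e3, e1]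
    ring
  rw [h6] at h5
  refine h5.trans ?_
  rw [Finset.mul_sum]
  refine Finset.sum_le_sum fun u _ => ?_
  rw [mul_comm]
  exact mul_le_mul_of_nonneg_right (hS u C) (by positivity)

/-- Energy and the ordered double sum. -/
lemma two_energy_add_diag {N : ℕ} (φ : ℝ → ℝ) (x : Fin N → Pt) :
    2 * energy φ x + N * φ 0 = ∑ i, ∑ k, φ (dist (x i) (x k)) := by
  classical
  have h1 : ∑ i, ∑ k, φ (dist (x i) (x k)) =
      ∑ p : Fin N × Fin N, φ (dist (x p.1) (x p.2)) := by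
    rw [Fintype.sum_prod_type]
  rw [h1]
  have h2 : ∑ p : Fin N × Fin N, φ (dist (x p.1) (x p.2)) =
      ∑ p ∈ Finset.univ.filter (fun p : Fin N × Fin N => p.1 < p.2), φ (dist (x p.1) (x p.2)) +
      ∑ p ∈ Finset.univ.filter (fun p : Fin N × Fin N => p.2 < p.1), φ (dist (x p.1) (x p.2)) +
      ∑ p ∈ Finset.univ.filter (fun p : Fin N × Fin N => p.1 = p.2), φ (dist (x p.1) (x p.2)) := by
    rw [← Finset.sum_union, ← Finset.sum_union]
    · apply Finset.sum_congr _ (fun _ _ => rfl)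
      ext p
      simp only [Finset.mem_union, Finset.mem_filter, Finset.mem_univ, true_and]
      rcases lt_trichotomy p.1 p.2 with h | h | h <;> simp [h]
    · rw [Finset.disjoint_left]
      intro p hp hq
      simp only [Finset.mem_union, Finset.mem_filter, Finset.mem_univ, true_and] at hp hq
      rcases hp with h | h
      · exact absurd hq (ne_of_lt h)
      · exact absurd hq.symm (ne_of_lt h)
    · rw [Finset.disjoint_left]
      intro p hp hq
      simp only [Finset.mem_filter, Finset.mem_univ, true_and] at hp hq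
      exact absurd hp (not_lt.mpr hq.le)
  have h3 : ∑ p ∈ Finset.univ.filter (fun p : Fin N × Fin N => p.1 < p.2),
      φ (dist (x p.1) (x p.2)) = energy φ x := by
    unfold energy
    rw [Finset.sum_subtype (p := fun p : Fin N × Fin N => p.1 < p.2)
      (Finset.univ.filter (fun p : Fin N × Fin N => p.1 < p.2)) (by simp)]
  have h4 : ∑ p ∈ Finset.univ.filter (fun p : Fin N × Fin N => p.2 < p.1),
      φ (dist (x p.1) (x p.2)) = energy φ x := by
    rw [← h3]
    refine Finset.sum_bij' (fun p _ => (p.2, p.1)) (fun p _ => (p.2, p.1)) ?_ ?_ ?_ ?_ ?_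
    · intro p hp; simpa using hp
    · intro p hp; simpa using hp
    · intro p _; rfl
    · intro p _; rfl
    · intro p _; simp [dist_comm]
  have h5 : ∑ p ∈ Finset.univ.filter (fun p : Fin N × Fin N => p.1 = p.2),
      φ (dist (x p.1) (x p.2)) = N * φ 0 := by
    have : ∑ p ∈ Finset.univ.filter (fun p : Fin N × Fin N => p.1 = p.2),
        φ (dist (x p.1) (x p.2)) = ∑ p ∈ Finset.univ.filter (fun p : Fin N × Fin N => p.1 = p.2),
        φ 0 := by
      refine Finset.sum_congr rfl fun p hp => ?_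
      have hp' : p.1 = p.2 := by simpa using hp
      rw [hp', dist_self]
    rw [this, Finset.sum_const, nsmul_eq_mul]
    congr 1
    have hc : (Finset.univ.filter (fun p : Fin N × Fin N => p.1 = p.2)).card = N := by
      have : Finset.univ.filter (fun p : Fin N × Fin N => p.1 = p.2) =
          Finset.univ.image (fun i : Fin N => (i, i)) := by
        ext p
        simp only [Finset.mem_filter, Finset.mem_univ, true_and, Finset.mem_image]
        constructor
        · intro h; exact ⟨p.1, by ext <;> simp [h]⟩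
        · rintro ⟨i, rfl⟩; rfl
      rw [this, Finset.card_image_of_injective _ (fun a b h => by simpa using congrArg Prod.fst h)]
      simp
    exact_mod_cast hc
  rw [h2, h3, h4, h5]
  ring

/-- The grid cell of a configuration point: `h` side, shift `τ`. -/
noncomputable def cell (h : ℝ) (τ : Fin 3 → ℝ) (y : Pt) : Fin 3 → ℤ :=
  fun a => ⌊(y a - τ a) / h⌋

/-- `#{(i,k) : same cell}`, ordered pairs including `i = k`. -/
noncomputable def sameCell {N : ℕ} (h : ℝ) (τ : Fin 3 → ℝ) (x : Fin N → Pt) : ℕ :=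
  (Finset.univ.filter (fun p : Fin N × Fin N => cell h τ (x p.1) = cell h τ (x p.2))).card

/-- **(Row)** the full ordered double sum. -/
theorem row_double {N : ℕ} {R h : ℝ} (hR : 0 < R) (hh : 0 < h) (τ : Fin 3 → ℝ) (x : Fin N → Pt) :
    ∑ i, ∑ k, g R (dist (x i) (x k)) ≤ (1 + 2 * h / R) ^ 3 * ((sameCell h τ x : ℝ) / h ^ 3) := by
  classical
  set K : (Fin 3 → ℤ) → (Fin 3 → ℤ) → ℝ := fun u v => ∏ a, Γ R h (u a - v a) with hKdef
  have hpt : ∀ i k, g R (dist (x i) (x k)) ≤ K (cell h τ (x i)) (cell h τ (x k)) := by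
    intro i k
    rw [g_dist_eq_prod]
    exact Finset.prod_le_prod (fun a _ => γ_nonneg hR _) fun a _ => γ_le_Γ hR hh _ _ _
  have hK0 : ∀ u v, 0 ≤ K u v := fun u v => Finset.prod_nonneg fun a _ => Γ_nonneg hR h _
  have hKs : ∀ u v, K u v = K v u := by
    intro u v
    refine Finset.prod_congr rfl fun a _ => ?_
    rw [← Γ_neg, neg_sub]
  have hKS : ∀ (u : Fin 3 → ℤ) (C : Finset (Fin 3 → ℤ)),
      ∑ v ∈ C, K u v ≤ ((1 + 2 * h / R) / h) ^ 3 := by
    intro u C
    have h1 : ∑ v ∈ C, K u v = ∑ d ∈ C.image (fun v a => u a - v a), ∏ a, Γ R h (d a) := by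
      rw [Finset.sum_image]
      intro v _ w _ hvw
      funext a
      have := congrFun hvw a
      simp only at this
      omega
    rw [h1]
    exact sum_prod_Γ_le hR hh _
  have hs := schur (fun i => cell h τ (x i)) K hK0 hKs hKS
  have h2 : ∑ i, ∑ k, g R (dist (x i) (x k)) ≤
      ∑ i, ∑ k, K (cell h τ (x i)) (cell h τ (x k)) :=
    Finset.sum_le_sum fun i _ => Finset.sum_le_sum fun k _ => hpt i k
  refine h2.trans (hs.trans (le_of_eq ?_))
  unfold sameCell
  rw [div_pow]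
  field_simp

/-- **(Row)** : `∑_{i<k} g R d_{ik} ≤ (1/2) (1+2h/R)^3 Q_h`. -/
theorem row {N : ℕ} {R h : ℝ} (hR : 0 < R) (hh : 0 < h) (τ : Fin 3 → ℝ) (x : Fin N → Pt) :
    energy (g R) x ≤ (1 / 2) * (1 + 2 * h / R) ^ 3 * ((sameCell h τ x : ℝ) / h ^ 3) := by
  have h1 := two_energy_add_diag (g R) x
  have h2 := row_double hR hh τ x
  have h3 : 0 ≤ (N : ℝ) * g R 0 := mul_nonneg (by positivity) (g_nonneg hR 0)
  linarith

/-! ### The Cauchy-Schwarz lower bound -/

lemma γ_half {R : ℝ} (hR : 0 < R) (u : ℝ) :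
    γ (R / √2) u = (√π * R)⁻¹ * exp (-u ^ 2 / R ^ 2) := by
  unfold γ
  have h2 : (0:ℝ) < √2 := by positivity
  have e1 : √(2 * π) * (R / √2) = √π * R := by
    rw [Real.sqrt_mul (by norm_num)]; field_simp
  have e2 : 2 * (R / √2) ^ 2 = R ^ 2 := by
    rw [div_pow, Real.sq_sqrt (by norm_num)]; field_simp
  rw [e1, e2]

lemma product_form {R : ℝ} (hR : 0 < R) (s t y : ℝ) :
    γ (R / √2) (y - s) * γ (R / √2) (y - t) =
      ((√π * R)⁻¹) ^ 2 * exp (-(s - t) ^ 2 / (2 * R ^ 2)) *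
        exp (-(2 / R ^ 2) * (y - (s + t) / 2) ^ 2) := by
  rw [γ_half hR, γ_half hR]
  have : exp (-(y - s) ^ 2 / R ^ 2) * exp (-(y - t) ^ 2 / R ^ 2) =
      exp (-(s - t) ^ 2 / (2 * R ^ 2)) * exp (-(2 / R ^ 2) * (y - (s + t) / 2) ^ 2) := by
    rw [← Real.exp_add, ← Real.exp_add]
    congr 1
    field_simp
    ring
  calc _ = ((√π * R)⁻¹) ^ 2 * (exp (-(y - s) ^ 2 / R ^ 2) * exp (-(y - t) ^ 2 / R ^ 2)) := by ring
    _ = _ := by rw [this]; ring

lemma integrable_prod_γ {R : ℝ} (hR : 0 < R) (s t : ℝ) :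
    Integrable (fun y => γ (R / √2) (y - s) * γ (R / √2) (y - t)) := by
  have hb : 0 < 2 / R ^ 2 := by positivity
  have h := ((integrable_exp_neg_mul_sq hb).comp_sub_right ((s + t) / 2)).const_mul
    (((√π * R)⁻¹) ^ 2 * exp (-(s - t) ^ 2 / (2 * R ^ 2)))
  refine h.congr (Filter.Eventually.of_forall fun y => ?_)
  simp only
  rw [product_form hR]

/-- The semigroup identity `γ_R = γ_{R/√2} * γ_{R/√2}`. -/
lemma conv_γ {R : ℝ} (hR : 0 < R) (s t : ℝ) :
    ∫ y, γ (R / √2) (y - s) * γ (R / √2) (y - t) = γ R (s - t) := by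
  simp_rw [product_form hR]
  rw [integral_const_mul]
  have h1 : ∫ y, exp (-(2 / R ^ 2) * (y - (s + t) / 2) ^ 2) = √(π / (2 / R ^ 2)) := by
    rw [integral_sub_right_eq_self (fun y => exp (-(2 / R ^ 2) * y ^ 2)) ((s + t) / 2),
      integral_gaussian]
  rw [h1]
  have h2 : √(π / (2 / R ^ 2)) = √π * R / √2 := by
    have : π / (2 / R ^ 2) = (√π * R / √2) ^ 2 := by
      rw [div_pow, mul_pow, Real.sq_sqrt (by positivity), Real.sq_sqrt (by norm_num)]
      field_simp
    rw [this, Real.sqrt_sq (by positivity)]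
  rw [h2]
  unfold γ
  have h3 : √(2 * π) = √2 * √π := Real.sqrt_mul (by norm_num) _
  rw [h3]
  have hpi : √π ≠ 0 := by positivity
  have h22 : √2 ≠ 0 := by positivity
  field_simp

/-- Indicator of the enlarged interval. -/
noncomputable def box (T L : ℝ) : ℝ → ℝ := Set.indicator (Set.Icc (-T) (L + T)) (fun _ => (1:ℝ))

lemma box_mul (T L u : ℝ) : box T L u * box T L u = box T L u := by
  unfold box
  by_cases h : u ∈ Set.Icc (-T) (L + T)
  · simp [h]
  · simp [h]

lemma integrable_box (T L : ℝ) : Integrable (box T L) := by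
  unfold box
  exact (integrable_indicator_iff measurableSet_Icc).mpr
    (integrableOn_const (by simp) )

lemma integral_box {T L : ℝ} (hT : 0 < T) (hL : 0 ≤ L) : ∫ u, box T L u = L + 2 * T := by
  unfold box
  rw [integral_indicator measurableSet_Icc]
  simp only [integral_const, smul_eq_mul, mul_one]
  have : volume.real (Set.Icc (-T) (L + T)) = (L + T) - (-T) := by
    rw [Real.volume_real_Icc]
    exact max_eq_left (by linarith)
  simp only [MeasurableSet.univ, measureReal_restrict_apply, Set.univ_inter]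
  rw [this]; ring

lemma integrable_γ_mul_box {R : ℝ} (hR : 0 < R) (T L s : ℝ) :
    Integrable (fun u => γ R (u - s) * box T L u) := by
  have h : (fun u => γ R (u - s) * box T L u) =
      Set.indicator (Set.Icc (-T) (L + T)) (fun u => γ R (u - s)) := by
    funext u
    unfold box
    by_cases hu : u ∈ Set.Icc (-T) (L + T) <;> simp [hu]
  rw [h]
  exact (integrable_indicator_iff measurableSet_Icc).mpr
    ((integrable_γ hR).comp_sub_right s).integrableOn

/-- Mass of a Gaussian of standard deviation `R/√2` in `[-T,T]`. -/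
noncomputable def θ (R T : ℝ) : ℝ := ∫ u in (-T)..T, γ (R / √2) u

lemma θ_nonneg {R T : ℝ} (hR : 0 < R) (hT : 0 ≤ T) : 0 ≤ θ R T :=
  intervalIntegral.integral_nonneg (by linarith) fun u _ => γ_nonneg (by positivity) u

lemma θ_le_mass {R T L s : ℝ} (hR : 0 < R) (hT : 0 < T) (hs0 : 0 ≤ s) (hsL : s ≤ L) :
    θ R T ≤ ∫ u, γ (R / √2) (u - s) * box T L u := by
  have hR' : 0 < R / √2 := by positivity
  have h : (fun u => γ (R / √2) (u - s) * box T L u) =
      Set.indicator (Set.Icc (-T) (L + T)) (fun u => γ (R / √2) (u - s)) := by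
    funext u
    unfold box
    by_cases hu : u ∈ Set.Icc (-T) (L + T) <;> simp [hu]
  rw [h, integral_indicator measurableSet_Icc]
  have h1 : θ R T = ∫ u in (s - T)..(s + T), γ (R / √2) (u - s) := by
    unfold θ
    rw [intervalIntegral.integral_comp_sub_right]
    congr 1 <;> ring
  rw [h1, intervalIntegral.integral_of_le (by linarith), ← integral_Icc_eq_integral_Ioc]
  refine setIntegral_mono_set ((integrable_γ hR').comp_sub_right s).integrableOn
    (Filter.Eventually.of_forall fun u => γ_nonneg hR' _) ?_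
  refine Filter.Eventually.of_forall fun u (hu : u ∈ Set.Icc (s - T) (s + T)) => ?_
  exact ⟨by linarith [hu.1], by linarith [hu.2]⟩

/-- **(CS)** ordered double sum version. -/
theorem cs_double {N : ℕ} {R T L : ℝ} (hR : 0 < R) (hT : 0 < T) (hL : 0 ≤ L) (x : Fin N → Pt)
    (hx : ∀ i, x i ∈ cube L) :
    (N : ℝ) ^ 2 * θ R T ^ 6 / (L + 2 * T) ^ 3 ≤ ∑ i, ∑ k, g R (dist (x i) (x k)) := by
  classical
  have hR' : 0 < R / √2 := by positivity
  set γ' : ℝ → ℝ := γ (R / √2) with hγ'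
  set e : ℝ → ℝ := box T L with he
  -- The three kinds of integrands
  have hI : ∀ i k, ∫ y : Fin 3 → ℝ, ∏ a, (γ' (y a - x i a) * γ' (y a - x k a)) =
      g R (dist (x i) (x k)) := by
    intro i k
    rw [g_dist_eq_prod]
    have := integral_fintype_prod_volume_eq_prod
      (fun (a : Fin 3) (u : ℝ) => γ' (u - x i a) * γ' (u - x k a))
    rw [this]
    exact Finset.prod_congr rfl fun a _ => conv_γ hR _ _
  have hIi : ∀ i k, Integrable (fun y : Fin 3 → ℝ => ∏ a, (γ' (y a - x i a) * γ' (y a - x k a))) := by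
    intro i k
    rw [volume_pi]
    exact Integrable.fintype_prod (f := fun (a : Fin 3) (u : ℝ) => γ' (u - x i a) * γ' (u - x k a))
      fun a => integrable_prod_γ hR _ _
  have hJ : ∀ i, ∫ y : Fin 3 → ℝ, ∏ a, (γ' (y a - x i a) * e (y a)) =
      ∏ a : Fin 3, ∫ u, γ' (u - x i a) * e u := by
    intro i
    exact integral_fintype_prod_volume_eq_prod (fun (a : Fin 3) (u : ℝ) => γ' (u - x i a) * e u)
  have hJi : ∀ i, Integrable (fun y : Fin 3 → ℝ => ∏ a, (γ' (y a - x i a) * e (y a))) := by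
    intro i
    rw [volume_pi]
    exact Integrable.fintype_prod (f := fun (a : Fin 3) (u : ℝ) => γ' (u - x i a) * e u)
      fun a => integrable_γ_mul_box hR' _ _ _
  have hK : ∫ y : Fin 3 → ℝ, ∏ a : Fin 3, (e (y a) * e (y a)) = (L + 2 * T) ^ 3 := by
    have := integral_fintype_prod_volume_eq_prod (fun (a : Fin 3) (u : ℝ) => e u * e u)
    rw [this]
    simp only [he, box_mul, integral_box hT hL, Finset.prod_const, Finset.card_univ,
      Fintype.card_fin]
  have hKi : Integrable (fun y : Fin 3 → ℝ => ∏ a : Fin 3, (e (y a) * e (y a))) := by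
    rw [volume_pi]
    refine Integrable.fintype_prod (f := fun (_ : Fin 3) (u : ℝ) => e u * e u) fun a => ?_
    simp only [he, box_mul]
    exact integrable_box T L
  have hθ0 := θ_nonneg hR hT.le
  set Kv : ℝ := (L + 2 * T) ^ 3 with hKv
  have hKpos : 0 < Kv := by positivity
  set m : ℝ := ∑ i, ∫ y : Fin 3 → ℝ, ∏ a, (γ' (y a - x i a) * e (y a)) with hm
  have hmθ : (N : ℝ) * θ R T ^ 3 ≤ m := by
    have : ∀ i : Fin N, θ R T ^ 3 ≤ ∫ y : Fin 3 → ℝ, ∏ a, (γ' (y a - x i a) * e (y a)) := by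
      intro i
      rw [hJ]
      have h1 : θ R T ^ 3 = ∏ _a : Fin 3, θ R T := by simp
      rw [h1]
      refine Finset.prod_le_prod (fun _ _ => hθ0) fun a _ => ?_
      exact θ_le_mass hR hT (hx i a).1 (hx i a).2
    calc (N : ℝ) * θ R T ^ 3 = ∑ _i : Fin N, θ R T ^ 3 := by simp
      _ ≤ m := Finset.sum_le_sum fun i _ => this i
  set A : ℝ := ∑ i, ∑ k, g R (dist (x i) (x k)) with hA
  set c : ℝ := (N : ℝ) * θ R T ^ 3 / Kv with hc
  have hc0 : 0 ≤ c := by positivity
  -- positivity of the square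
  have hexp : ∀ y : Fin 3 → ℝ,
      (∑ i, (∏ a, γ' (y a - x i a)) - c * ∏ a, e (y a)) ^ 2 =
      (∑ i, ∑ k, ∏ a, (γ' (y a - x i a) * γ' (y a - x k a)))
        - 2 * c * (∑ i, ∏ a, (γ' (y a - x i a) * e (y a)))
        + c ^ 2 * ∏ a : Fin 3, (e (y a) * e (y a)) := by
    intro y
    simp only [Finset.prod_mul_distrib]
    rw [sub_sq, sq (∑ i, (∏ a, γ' (y a - x i a))), Finset.sum_mul_sum, ← Finset.sum_mul]
    ring
  have hnn : 0 ≤ ∫ y : Fin 3 → ℝ, (∑ i, (∏ a, γ' (y a - x i a)) - c * ∏ a, e (y a)) ^ 2 :=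
    integral_nonneg fun y => sq_nonneg _
  simp_rw [hexp] at hnn
  have i1 : Integrable (fun y : Fin 3 → ℝ =>
      ∑ i, ∑ k, ∏ a, (γ' (y a - x i a) * γ' (y a - x k a))) :=
    integrable_finsetSum _ fun i _ => integrable_finsetSum _ fun k _ => hIi i k
  have i2 : Integrable (fun y : Fin 3 → ℝ =>
      2 * c * (∑ i, ∏ a, (γ' (y a - x i a) * e (y a)))) :=
    (integrable_finsetSum _ fun i _ => hJi i).const_mul _
  have i3 : Integrable (fun y : Fin 3 → ℝ => c ^ 2 * ∏ a : Fin 3, (e (y a) * e (y a))) :=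
    hKi.const_mul _
  have i12 : Integrable (fun y : Fin 3 → ℝ =>
      (∑ i, ∑ k, ∏ a, (γ' (y a - x i a) * γ' (y a - x k a))) -
      2 * c * (∑ i, ∏ a, (γ' (y a - x i a) * e (y a)))) := i1.sub i2
  rw [integral_add i12 i3, integral_sub i1 i2, integral_const_mul, integral_const_mul,
    integral_finsetSum _ (fun i _ => hJi i), hK,
    integral_finsetSum _ (fun i _ => integrable_finsetSum _ fun k _ => hIi i k)] at hnn
  have h1 : ∑ i, ∫ y : Fin 3 → ℝ, ∑ k, ∏ a, (γ' (y a - x i a) * γ' (y a - x k a)) = A := by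
    refine Finset.sum_congr rfl fun i _ => ?_
    rw [integral_finsetSum _ (fun k _ => hIi i k)]
    exact Finset.sum_congr rfl fun k _ => hI i k
  rw [h1] at hnn
  -- algebra
  have h2 : 2 * c * (N * θ R T ^ 3) ≤ 2 * c * m :=
    mul_le_mul_of_nonneg_left hmθ (by positivity)
  have h3 : c ^ 2 * Kv = c * (N * θ R T ^ 3) := by
    rw [hc]; field_simp
  have h4 : c * (N * θ R T ^ 3) = (N : ℝ) ^ 2 * θ R T ^ 6 / Kv := by
    rw [hc]; field_simp
  have : (N : ℝ) ^ 2 * θ R T ^ 6 / Kv ≤ A := by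
    rw [← hm] at hnn
    nlinarith
  exact this

/-- **(CS)** : for a configuration in `cube L`,
`∑_{i<k} g R (d_{ik}) ≥ (1/2) N² θ⁶/(L+2T)³ - (1/2) N g R 0`. -/
theorem cs {N : ℕ} {R T L : ℝ} (hR : 0 < R) (hT : 0 < T) (hL : 0 ≤ L) (x : Fin N → Pt)
    (hx : ∀ i, x i ∈ cube L) :
    (1 / 2) * ((N : ℝ) ^ 2 * θ R T ^ 6 / (L + 2 * T) ^ 3) - (1 / 2) * (N * g R 0) ≤
      energy (g R) x := by
  have h1 := two_energy_add_diag (g R) x
  have h2 := cs_double hR hT hL x hx
  linarith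

/-- `θ R T → 1` as `T → ∞`. -/
lemma θ_tendsto {R : ℝ} (hR : 0 < R) : Filter.Tendsto (θ R) Filter.atTop (nhds 1) := by
  have hR' : 0 < R / √2 := by positivity
  have h := intervalIntegral_tendsto_integral (integrable_γ hR') Filter.tendsto_neg_atTop_atBot
    Filter.tendsto_id
  rw [integral_γ hR'] at h
  exact h

lemma θ_le_one {R T : ℝ} (hR : 0 < R) (hT : 0 ≤ T) : θ R T ≤ 1 := by
  have hR' : 0 < R / √2 := by positivity
  unfold θ
  rw [intervalIntegral.integral_of_le (by linarith), ← integral_γ hR']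
  exact setIntegral_le_integral (integrable_γ hR') (Filter.Eventually.of_forall fun u => γ_nonneg hR' u)

lemma g_eq_rpow {R : ℝ} (hR : 0 < R) (r : ℝ) :
    g R r = (2 * π * R ^ 2) ^ (-(3 / 2 : ℝ)) * exp (-r ^ 2 / (2 * R ^ 2)) := by
  unfold g
  congr 1
  have hp : 0 < √(2 * π) * R := by positivity
  have h1 : 2 * π * R ^ 2 = (√(2 * π) * R) ^ (2:ℝ) := by
    rw [Real.rpow_two, mul_pow, Real.sq_sqrt (by positivity)]
  rw [h1, ← Real.rpow_mul hp.le, show (2:ℝ) * (-(3 / 2)) = -3 by norm_num, Real.rpow_neg hp.le,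
    inv_pow]
  norm_cast

lemma continuous_g {R : ℝ} : Continuous (g R) := by
  unfold g; fun_prop

lemma g_zero (R : ℝ) : g R 0 = ((√(2 * π) * R)⁻¹) ^ 3 := by
  unfold g; simp

lemma g_le_zero {R : ℝ} (hR : 0 < R) (r : ℝ) : g R r ≤ g R 0 := by
  unfold g
  apply mul_le_mul_of_nonneg_left _ (by positivity)
  apply Real.exp_le_exp.mpr
  simp only [ne_eq, OfNat.ofNat_ne_zero, not_false_eq_true, zero_pow, neg_zero, zero_div]
  apply div_nonpos_of_nonpos_of_nonneg _ (by positivity)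
  nlinarith [sq_nonneg r]

end Crest.Agent.TL.Gauss
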