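import Crest.Prelude.Def_PairPotential
import Crest.Agent.TL.Gauss

/-!
# Module OS: one-sided lower bound on the free energy
(S0209/S0210 blueprint, helper26.)  Generic data, independent of the skeleton.

Part A: basic integrability and positivity facts of partition functions, Hölder in the potential.
-/

set_option autoImplicit false

namespace Crest.Agent.TL.OneSided

open Crest.ProbabilityR.Continuum MeasureTheory Filter Topology

/-- The configuration domain. -/
abbrev Dom (L : ℝ) (N : ℕ) : Set (Fin N → Pt) := Set.pi Set.univ (fun _ : Fin N => cube L)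

lemma measurable_energy {φ : ℝ → ℝ} (hφ : Measurable φ) (N : ℕ) :
    Measurable (fun x : Fin N → Pt => energy φ x) := by
  unfold energy
  refine Finset.measurable_sum _ (fun p _ => hφ.comp ?_)
  exact (measurable_pi_apply p.1.1).dist (measurable_pi_apply p.1.2)

lemma measurableSet_cube (L : ℝ) : MeasurableSet (cube L) := by
  have : cube L = ⋂ k : Fin 3, {x : Pt | 0 ≤ x k ∧ x k ≤ L} := by
    ext x; simp [cube]
  rw [this]
  refine MeasurableSet.iInter (fun k => ?_)
  have hm : Measurable (fun x : Pt => x k) := by fun_prop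
  exact (measurableSet_le measurable_const hm).inter (measurableSet_le hm measurable_const)

lemma isCompact_cube (L : ℝ) : IsCompact (cube L) := by
  have hb : Bornology.IsBounded (cube L) := by
    refine (Metric.isBounded_iff_subset_closedBall (0 : Pt)).2 ⟨Real.sqrt 3 * |L|, ?_⟩
    intro x hx
    rw [mem_closedBall_zero_iff, EuclideanSpace.norm_eq]
    have h1 : ∀ k : Fin 3, ‖x k‖ ^ 2 ≤ L ^ 2 := by
      intro k
      obtain ⟨h0, h1⟩ := hx k
      rw [Real.norm_eq_abs, sq_abs]
      nlinarith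
    have h2 : ∑ k : Fin 3, ‖x k‖ ^ 2 ≤ 3 * L ^ 2 := by
      calc ∑ k : Fin 3, ‖x k‖ ^ 2 ≤ ∑ _k : Fin 3, L ^ 2 := Finset.sum_le_sum (fun k _ => h1 k)
        _ = 3 * L ^ 2 := by simp
    calc Real.sqrt (∑ k : Fin 3, ‖x k‖ ^ 2) ≤ Real.sqrt (3 * L ^ 2) := Real.sqrt_le_sqrt h2
      _ = Real.sqrt 3 * |L| := by
        rw [Real.sqrt_mul (by norm_num), Real.sqrt_sq_eq_abs]
  have hc : IsClosed (cube L) := by
    have : cube L = ⋂ k : Fin 3, {x : Pt | 0 ≤ x k ∧ x k ≤ L} := by
      ext x; simp [cube]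
    rw [this]
    refine isClosed_iInter (fun k => ?_)
    have hm : Continuous (fun x : Pt => x k) := by fun_prop
    exact (isClosed_le continuous_const hm).inter (isClosed_le hm continuous_const)
  exact Metric.isCompact_of_isClosed_isBounded hc hb

lemma volume_cube_lt_top (L : ℝ) : volume (cube L) < ⊤ := (isCompact_cube L).measure_lt_top

lemma volume_cube_pos {L : ℝ} (hL : 0 < L) : 0 < volume (cube L) := by
  have hsub : Metric.ball (EuclideanSpace.equiv (Fin 3) ℝ |>.symm (fun _ => L / 2)) (L / 2) ⊆ cube L := by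
    intro x hx k
    have h1 : |x k - L / 2| < L / 2 := by
      have hle : dist (x k) (L / 2) ≤ dist x (EuclideanSpace.equiv (Fin 3) ℝ |>.symm (fun _ => L / 2)) := by
        have := EuclideanSpace.norm_eq (x - (EuclideanSpace.equiv (Fin 3) ℝ |>.symm (fun _ => L / 2)))
        rw [dist_eq_norm, dist_eq_norm, this]
        have h3 : ‖(x - (EuclideanSpace.equiv (Fin 3) ℝ |>.symm (fun _ => L / 2))) k‖ ^ 2
            ≤ ∑ i, ‖(x - (EuclideanSpace.equiv (Fin 3) ℝ |>.symm (fun _ => L / 2))) i‖ ^ 2 :=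
          Finset.single_le_sum (f := fun i => ‖(x - (EuclideanSpace.equiv (Fin 3) ℝ |>.symm (fun _ => L / 2))) i‖ ^ 2)
            (fun _ _ => by positivity) (Finset.mem_univ k)
        refine Real.le_sqrt_of_sq_le ?_
        simpa using h3
      have := lt_of_le_of_lt hle (Metric.mem_ball.1 hx)
      rwa [Real.dist_eq] at this
    rw [abs_lt] at h1
    constructor <;> linarith [h1.1, h1.2]
  refine lt_of_lt_of_le (Metric.measure_ball_pos _ _ (by positivity)) (measure_mono hsub)

lemma volume_dom_lt_top (L : ℝ) (N : ℕ) : volume (Dom L N) < ⊤ := by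
  rw [volume_pi, Measure.pi_pi]
  exact ENNReal.prod_lt_top (fun _ _ => volume_cube_lt_top L)

lemma measurableSet_dom (L : ℝ) (N : ℕ) : MeasurableSet (Dom L N) :=
  MeasurableSet.univ_pi (fun _ => measurableSet_cube L)

lemma volume_dom_pos {L : ℝ} (hL : 0 < L) (N : ℕ) : 0 < volume (Dom L N) := by
  rw [volume_pi, Measure.pi_pi]
  exact CanonicallyOrderedAdd.prod_pos.2 (fun _ _ => volume_cube_pos hL)

/-- Integrability of the Boltzmann weight for a stable potential. -/
lemma integrableOn_boltzmann {φ : ℝ → ℝ} (hφ : Measurable φ) {β B : ℝ} (hβ : 0 ≤ β) (N : ℕ)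
    (hB : ∀ x : Fin N → Pt, B ≤ energy φ x) {S : Set (Fin N → Pt)} (hS : volume S < ⊤) :
    IntegrableOn (fun x : Fin N → Pt => Real.exp (-β * energy φ x)) S := by
  have hm : Measurable (fun x : Fin N → Pt => Real.exp (-β * energy φ x)) :=
    Real.measurable_exp.comp (measurable_const.mul (measurable_energy hφ N))
  refine Measure.integrableOn_of_bounded (M := Real.exp (-β * B)) hS.ne hm.aestronglyMeasurable ?_
  refine Eventually.of_forall (fun x => ?_)
  rw [Real.norm_of_nonneg (Real.exp_pos _).le]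
  exact Real.exp_le_exp.2 (by nlinarith [hB x])

/-- Positivity of the partition function for a stable potential. -/
lemma partitionFn_pos {φ : ℝ → ℝ} (hφ : Measurable φ) {β B L : ℝ} (hβ : 0 ≤ β) (hL : 0 < L) (N : ℕ)
    (hB : ∀ x : Fin N → Pt, B ≤ energy φ x) : 0 < partitionFn φ L N β := by
  unfold partitionFn
  refine mul_pos (by positivity) ?_
  have hint := integrableOn_boltzmann hφ hβ N hB (volume_dom_lt_top L N)
  rw [setIntegral_pos_iff_support_of_nonneg_ae (Eventually.of_forall fun x => (Real.exp_pos _).le) hint]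
  have : Function.support (fun x : Fin N → Pt => Real.exp (-β * energy φ x)) = Set.univ := by
    ext x; simp [Function.mem_support, (Real.exp_pos _).ne']
  rw [this, Set.univ_inter]
  exact volume_dom_pos hL N

/-- Hölder for Bochner integrals of nonnegative integrable functions. -/
lemma integral_rpow_mul_rpow_le {α : Type*} [MeasurableSpace α] {μ : Measure α} {f g : α → ℝ}
    (hf0 : ∀ a, 0 ≤ f a) (hg0 : ∀ a, 0 ≤ g a) (hf : Integrable f μ) (hg : Integrable g μ)
    {p q : ℝ} (hp : 0 ≤ p) (hq : 0 ≤ q) (hpq : p + q = 1) :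
    ∫ a, f a ^ p * g a ^ q ∂μ ≤ (∫ a, f a ∂μ) ^ p * (∫ a, g a ∂μ) ^ q := by
  have hI1 : 0 ≤ ∫ a, f a ∂μ := integral_nonneg hf0
  have hI2 : 0 ≤ ∫ a, g a ∂μ := integral_nonneg hg0
  have hl := ENNReal.lintegral_mul_norm_pow_le (μ := μ) (f := fun a => ENNReal.ofReal (f a))
    (g := fun a => ENNReal.ofReal (g a)) hf.aestronglyMeasurable.aemeasurable.ennreal_ofReal
    hg.aestronglyMeasurable.aemeasurable.ennreal_ofReal hp hq hpq
  have e1 : ∫⁻ a, ENNReal.ofReal (f a) ∂μ = ENNReal.ofReal (∫ a, f a ∂μ) :=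
    (ofReal_integral_eq_lintegral_ofReal hf (Eventually.of_forall hf0)).symm
  have e2 : ∫⁻ a, ENNReal.ofReal (g a) ∂μ = ENNReal.ofReal (∫ a, g a ∂μ) :=
    (ofReal_integral_eq_lintegral_ofReal hg (Eventually.of_forall hg0)).symm
  rw [e1, e2, ENNReal.ofReal_rpow_of_nonneg hI1 hp, ENNReal.ofReal_rpow_of_nonneg hI2 hq,
    ← ENNReal.ofReal_mul (by positivity)] at hl
  have e3 : ∀ a, ENNReal.ofReal (f a) ^ p * ENNReal.ofReal (g a) ^ q
      = ENNReal.ofReal (f a ^ p * g a ^ q) := by
    intro a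
    rw [ENNReal.ofReal_rpow_of_nonneg (hf0 a) hp, ENNReal.ofReal_rpow_of_nonneg (hg0 a) hq,
      ENNReal.ofReal_mul (by have := hf0 a; positivity)]
  simp_rw [e3] at hl
  rw [integral_eq_lintegral_of_nonneg_ae (Eventually.of_forall fun a => by
      have := hf0 a; have := hg0 a; positivity)
    ((by
      have hm1 : AEStronglyMeasurable (fun a => f a ^ p) μ :=
        (hf.aestronglyMeasurable.aemeasurable.pow_const p).aestronglyMeasurable
      have hm2 : AEStronglyMeasurable (fun a => g a ^ q) μ :=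
        (hg.aestronglyMeasurable.aemeasurable.pow_const q).aestronglyMeasurable
      exact hm1.mul hm2))]
  have hnn : 0 ≤ (∫ a, f a ∂μ) ^ p * (∫ a, g a ∂μ) ^ q := by positivity
  exact ENNReal.toReal_le_of_le_ofReal hnn hl

/-- **Hölder in the potential**: `log Z` is convex along convex combinations of stable potentials. -/
lemma log_partitionFn_convex {φa φb φ : ℝ → ℝ} (ha : Measurable φa) (hb : Measurable φb)
    {β L : ℝ} (hβ : 0 ≤ β) (hL : 0 < L) (N : ℕ) {Ba Bb : ℝ}
    (hBa : ∀ x : Fin N → Pt, Ba ≤ energy φa x) (hBb : ∀ x : Fin N → Pt, Bb ≤ energy φb x)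
    {p q : ℝ} (hp : 0 ≤ p) (hq : 0 ≤ q) (hpq : p + q = 1)
    (hφ : ∀ r, φ r = p * φa r + q * φb r) :
    Real.log (partitionFn φ L N β)
      ≤ p * Real.log (partitionFn φa L N β) + q * Real.log (partitionFn φb L N β) := by
  have hφm : Measurable φ := by
    have : φ = fun r => p * φa r + q * φb r := funext hφ
    rw [this]; fun_prop
  have hE : ∀ x : Fin N → Pt, energy φ x = p * energy φa x + q * energy φb x := by
    intro x
    unfold energy
    rw [Finset.mul_sum, Finset.mul_sum, ← Finset.sum_add_distrib]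
    exact Finset.sum_congr rfl (fun _ _ => hφ _)
  have hB : ∀ x : Fin N → Pt, p * Ba + q * Bb ≤ energy φ x := by
    intro x
    rw [hE]
    have := mul_le_mul_of_nonneg_left (hBa x) hp
    have := mul_le_mul_of_nonneg_left (hBb x) hq
    linarith
  have hZ := partitionFn_pos hφm hβ hL N hB
  have hZa := partitionFn_pos ha hβ hL N hBa
  have hZb := partitionFn_pos hb hβ hL N hBb
  have hia := integrableOn_boltzmann ha hβ N hBa (volume_dom_lt_top L N)
  have hib := integrableOn_boltzmann hb hβ N hBb (volume_dom_lt_top L N)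
  have hH := integral_rpow_mul_rpow_le (μ := volume.restrict (Dom L N))
    (f := fun x : Fin N → Pt => Real.exp (-β * energy φa x))
    (g := fun x : Fin N → Pt => Real.exp (-β * energy φb x))
    (fun _ => (Real.exp_pos _).le) (fun _ => (Real.exp_pos _).le) hia hib hp hq hpq
  have hpt : ∀ x : Fin N → Pt, Real.exp (-β * energy φa x) ^ p * Real.exp (-β * energy φb x) ^ q
      = Real.exp (-β * energy φ x) := by
    intro x
    rw [← Real.exp_mul, ← Real.exp_mul, ← Real.exp_add, hE]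
    congr 1; ring
  simp_rw [hpt] at hH
  have hfac : (0 : ℝ) < Nat.factorial N := by positivity
  -- rewrite everything through `partitionFn`
  have hIa : ∫ x in Dom L N, Real.exp (-β * energy φa x) = (Nat.factorial N : ℝ) * partitionFn φa L N β := by
    unfold partitionFn; field_simp
  have hIb : ∫ x in Dom L N, Real.exp (-β * energy φb x) = (Nat.factorial N : ℝ) * partitionFn φb L N β := by
    unfold partitionFn; field_simp
  have hI : ∫ x in Dom L N, Real.exp (-β * energy φ x) = (Nat.factorial N : ℝ) * partitionFn φ L N β := by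
    unfold partitionFn; field_simp
  rw [hI, hIa, hIb, Real.mul_rpow hfac.le hZa.le, Real.mul_rpow hfac.le hZb.le] at hH
  have hfp : (Nat.factorial N : ℝ) ^ p * (Nat.factorial N : ℝ) ^ q = (Nat.factorial N : ℝ) := by
    rw [← Real.rpow_add hfac, hpq, Real.rpow_one]
  have hH2 : partitionFn φ L N β ≤ partitionFn φa L N β ^ p * partitionFn φb L N β ^ q := by
    have : (Nat.factorial N : ℝ) * partitionFn φ L N β ≤
        (Nat.factorial N : ℝ) * (partitionFn φa L N β ^ p * partitionFn φb L N β ^ q) := by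
      calc _ ≤ _ := hH
        _ = ((Nat.factorial N : ℝ) ^ p * (Nat.factorial N : ℝ) ^ q) *
            (partitionFn φa L N β ^ p * partitionFn φb L N β ^ q) := by ring
        _ = _ := by rw [hfp]
    exact le_of_mul_le_mul_left this hfac
  have := Real.log_le_log hZ hH2
  rw [Real.log_mul (by positivity) (by positivity), Real.log_rpow hZa, Real.log_rpow hZb] at this
  exact this


/-! ### Part B: the tile lower bound -/

section Curry

lemma measurePreserving_curry (Q κ X : Type*) [Fintype Q] [Fintype κ] [MeasureSpace X]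
    [SigmaFinite (volume : Measure X)] :
    MeasurePreserving (MeasurableEquiv.curry Q κ X) (volume : Measure (Q × κ → X))
      (volume : Measure (Q → κ → X)) := by
  refine ⟨(MeasurableEquiv.curry Q κ X).measurable, ?_⟩
  symm
  refine Measure.pi_eq_generateFrom
    (C := fun _ => Set.pi Set.univ '' Set.pi Set.univ (fun _ : κ => {s : Set X | MeasurableSet s}))
    (fun _ => generateFrom_pi) (fun _ => isPiSystem_pi)
    (fun _ => Measure.FiniteSpanningSetsIn.pi fun _ => (volume : Measure X).toFiniteSpanningSetsIn) ?_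
  intro s hs
  choose t ht hts using hs
  have hpre : (MeasurableEquiv.curry Q κ X) ⁻¹' (Set.pi Set.univ s)
      = Set.pi Set.univ (fun p : Q × κ => t p.1 p.2) := by
    ext y
    simp only [Set.mem_preimage, Set.mem_pi, Set.mem_univ, true_implies, ← hts]
    constructor
    · intro h p
      exact h p.1 p.2
    · intro h q l
      exact h (q, l)
  have hmeas : MeasurableSet (Set.pi Set.univ s) := by
    refine MeasurableSet.univ_pi (fun q => ?_)
    rw [← hts q]
    exact MeasurableSet.univ_pi (fun l => ht q l (Set.mem_univ l))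
  rw [Measure.map_apply (MeasurableEquiv.curry Q κ X).measurable hmeas, hpre, volume_pi,
    Measure.pi_pi, Fintype.prod_prod_type]
  refine Finset.prod_congr rfl (fun q _ => ?_)
  rw [← hts q, Measure.pi_pi]

end Curry


section PairSum

open Classical in
/-- The pair energy as a symmetric double sum. -/
noncomputable def pairSum {ι : Type*} [Fintype ι] (φ : ℝ → ℝ) (y : ι → Pt) : ℝ :=
  (1 / 2) * ∑ a, ∑ b, if a = b then 0 else φ (dist (y a) (y b))

lemma pairSum_eq {ι : Type*} [Fintype ι] [DecidableEq ι] (φ : ℝ → ℝ) (y : ι → Pt) :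
    pairSum φ y = (1 / 2) * ∑ a, ∑ b, if a = b then 0 else φ (dist (y a) (y b)) := by
  unfold pairSum
  congr!

lemma energy_eq_pairSum {N : ℕ} (φ : ℝ → ℝ) (x : Fin N → Pt) : energy φ x = pairSum φ x := by
  classical
  set f : Fin N → Fin N → ℝ := fun a b => φ (dist (x a) (x b)) with hf
  have hsymm : ∀ a b, f a b = f b a := fun a b => by simp [hf, dist_comm]
  have h1 : energy φ x = ∑ p ∈ Finset.univ.filter (fun p : Fin N × Fin N => p.1 < p.2), f p.1 p.2 := by
    unfold energy
    exact (Finset.sum_subtype _ (by simp) (fun p : Fin N × Fin N => f p.1 p.2)).symm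
  have h2 : ∑ p ∈ Finset.univ.filter (fun p : Fin N × Fin N => p.2 < p.1), f p.1 p.2
      = ∑ p ∈ Finset.univ.filter (fun p : Fin N × Fin N => p.1 < p.2), f p.1 p.2 := by
    refine Finset.sum_bij' (fun p _ => p.swap) (fun p _ => p.swap) ?_ ?_ ?_ ?_ ?_
    · intro p hp; simpa using hp
    · intro p hp; simpa using hp
    · intro p _; simp
    · intro p _; simp
    · intro p _; simpa using hsymm p.1 p.2
  have h3 : ∑ a, ∑ b, (if a = b then 0 else φ (dist (x a) (x b)))
      = ∑ p : Fin N × Fin N, if p.1 = p.2 then 0 else f p.1 p.2 := by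
    rw [Fintype.sum_prod_type]
  have h4 : ∑ p : Fin N × Fin N, (if p.1 = p.2 then 0 else f p.1 p.2)
      = ∑ p ∈ Finset.univ.filter (fun p : Fin N × Fin N => p.1 < p.2), f p.1 p.2
        + ∑ p ∈ Finset.univ.filter (fun p : Fin N × Fin N => p.2 < p.1), f p.1 p.2 := by
    rw [Finset.sum_filter, Finset.sum_filter, ← Finset.sum_add_distrib]
    refine Finset.sum_congr rfl (fun p _ => ?_)
    rcases lt_trichotomy p.1 p.2 with h | h | h
    · simp [h, h.ne, not_lt.2 h.le]
    · simp [h]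
    · simp [h, h.ne', not_lt.2 h.le]
  rw [pairSum_eq, h1, h3, h4, h2]
  ring

lemma pairSum_comp_equiv {ι ι' : Type*} [Fintype ι] [Fintype ι'] (e : ι' ≃ ι) (φ : ℝ → ℝ)
    (y : ι → Pt) : pairSum φ (y ∘ e) = pairSum φ y := by
  classical
  rw [pairSum_eq, pairSum_eq]
  congr 1
  rw [← Equiv.sum_comp e (fun a => ∑ b, if a = b then 0 else φ (dist (y a) (y b)))]
  refine Finset.sum_congr rfl (fun a _ => ?_)
  rw [← Equiv.sum_comp e (fun b => if e a = b then 0 else φ (dist (y (e a)) (y b)))]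
  refine Finset.sum_congr rfl (fun b _ => ?_)
  simp [e.injective.eq_iff]

lemma energy_comp_perm {N : ℕ} (φ : ℝ → ℝ) (x : Fin N → Pt) (σ : Equiv.Perm (Fin N)) :
    energy φ (x ∘ σ) = energy φ x := by
  rw [energy_eq_pairSum, energy_eq_pairSum, pairSum_comp_equiv]

/-- Decomposition along tiles: cross terms are nonpositive. -/
lemma pairSum_prod_le {Q : Type*} [Fintype Q] {n : ℕ} (φ : ℝ → ℝ) (y : Q × Fin n → Pt)
    (hcross : ∀ q q' l l', q ≠ q' → φ (dist (y (q, l)) (y (q', l'))) ≤ 0) :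
    pairSum φ y ≤ ∑ q, energy φ (fun l => y (q, l)) := by
  classical
  simp_rw [energy_eq_pairSum, pairSum_eq]
  rw [← Finset.mul_sum]
  refine mul_le_mul_of_nonneg_left ?_ (by norm_num)
  rw [Fintype.sum_prod_type]
  refine Finset.sum_le_sum (fun q _ => ?_)
  refine Finset.sum_le_sum (fun l _ => ?_)
  rw [Fintype.sum_prod_type]
  -- split the sum over `q'`
  rw [← Finset.add_sum_erase _ _ (Finset.mem_univ q)]
  have hrest : ∑ q' ∈ Finset.univ.erase q, ∑ l', (if (q, l) = (q', l') then (0 : ℝ)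
      else φ (dist (y (q, l)) (y (q', l')))) ≤ 0 := by
    refine Finset.sum_nonpos (fun q' hq' => Finset.sum_nonpos (fun l' _ => ?_))
    have hne : q ≠ q' := (Finset.ne_of_mem_erase hq').symm
    split_ifs with h
    · exact le_rfl
    · exact hcross q q' l l' hne
  have hmain : ∑ l', (if (q, l) = (q, l') then (0 : ℝ) else φ (dist (y (q, l)) (y (q, l'))))
      = ∑ l', if l = l' then (0 : ℝ) else φ (dist (y (q, l)) (y (q, l'))) := by
    refine Finset.sum_congr rfl (fun l' _ => ?_)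
    simp only [Prod.mk.injEq, true_and]
  rw [hmain]
  linarith

end PairSum

section Counting

variable {N : ℕ} {Q : Type*} [Fintype Q] [DecidableEq Q]

open Classical in
lemma card_perm_mem_le (a0 : Fin N → Q) (S : Q → Set Pt)
    (hdisj : Pairwise (Function.onFun Disjoint S)) (x : Fin N → Pt) :
    (Finset.univ.filter (fun σ : Equiv.Perm (Fin N) =>
      x ∘ σ ∈ Set.pi Set.univ (fun i => S (a0 i)))).card
      ≤ Fintype.card {g : Equiv.Perm (Fin N) // a0 ∘ g = a0} := by
  rw [Fintype.card_subtype]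
  rcases (Finset.univ.filter (fun σ : Equiv.Perm (Fin N) =>
      x ∘ σ ∈ Set.pi Set.univ (fun i => S (a0 i)))).eq_empty_or_nonempty with h | ⟨σ0, hσ0⟩
  · rw [h]; simp
  refine Finset.card_le_card_of_injOn (fun σ => σ0⁻¹ * σ) ?_ ?_
  · intro σ hσ
    have hσ := (Finset.mem_filter.1 (Finset.mem_coe.1 hσ)).2
    have hσ0 := (Finset.mem_filter.1 hσ0).2
    refine Finset.mem_coe.2 (Finset.mem_filter.2 ⟨Finset.mem_univ _, ?_⟩)
    funext i
    have h1 : x (σ i) ∈ S (a0 i) := hσ i (Set.mem_univ i)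
    have h2 : x (σ0 ((σ0⁻¹ * σ) i)) ∈ S (a0 ((σ0⁻¹ * σ) i)) := hσ0 _ (Set.mem_univ _)
    have h3 : σ0 ((σ0⁻¹ * σ) i) = σ i := by simp
    rw [h3] at h2
    by_contra hne
    have hne' : a0 i ≠ a0 ((σ0⁻¹ * σ) i) := fun h => hne (by simp [Function.comp, h])
    exact Set.disjoint_left.1 (hdisj hne') h1 h2
  · intro σ _ τ _ h
    exact mul_left_cancel h

/-- Counting lemma in integral form. -/
lemma integral_tile_le (a0 : Fin N → Q) (S : Q → Set Pt) (D : Set Pt)
    (hS : ∀ q, MeasurableSet (S q)) (hD : MeasurableSet D) (hSD : ∀ q, S q ⊆ D)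
    (hdisj : Pairwise (Function.onFun Disjoint S))
    (F : (Fin N → Pt) → ℝ) (hF0 : ∀ x, 0 ≤ F x) (hFsymm : ∀ (σ : Equiv.Perm (Fin N)) x, F (x ∘ σ) = F x)
    (hF : IntegrableOn F (Set.pi Set.univ (fun _ => D))) :
    (Nat.factorial N : ℝ) * ∫ x in Set.pi Set.univ (fun i => S (a0 i)), F x
      ≤ (Fintype.card {g : Equiv.Perm (Fin N) // a0 ∘ g = a0} : ℝ)
        * ∫ x in Set.pi Set.univ (fun _ : Fin N => D), F x := by
  classical
  set B0 : Set (Fin N → Pt) := Set.pi Set.univ (fun i => S (a0 i)) with hB0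
  set DD : Set (Fin N → Pt) := Set.pi Set.univ (fun _ => D) with hDD
  have hB0m : MeasurableSet B0 := MeasurableSet.univ_pi (fun i => hS _)
  have hDDm : MeasurableSet DD := MeasurableSet.univ_pi (fun _ => hD)
  -- the permutation action
  let T : Equiv.Perm (Fin N) → ((Fin N → Pt) ≃ᵐ (Fin N → Pt)) := fun σ =>
    MeasurableEquiv.arrowCongr' σ.symm (MeasurableEquiv.refl Pt)
  have hTapply : ∀ σ x, T σ x = x ∘ σ := by
    intro σ x; rfl
  have hTmp : ∀ σ, MeasurePreserving (T σ) (volume : Measure (Fin N → Pt)) volume := fun σ =>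
    volume_preserving_arrowCongr' σ.symm (MeasurableEquiv.refl Pt) (MeasurePreserving.id _)
  let B : Equiv.Perm (Fin N) → Set (Fin N → Pt) := fun σ => (T σ) ⁻¹' B0
  have hBm : ∀ σ, MeasurableSet (B σ) := fun σ => (T σ).measurable hB0m
  have hBsub : ∀ σ, B σ ⊆ DD := by
    intro σ x hx i _
    have hx' : ∀ j, x (σ j) ∈ S (a0 j) := fun j => by
      have := hx j (Set.mem_univ j)
      rwa [hTapply] at this
    have := hx' (σ.symm i)
    simp only [Equiv.apply_symm_apply] at this
    exact hSD _ this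
  have hBint : ∀ σ, ∫ x in B σ, F x = ∫ x in B0, F x := by
    intro σ
    have := (hTmp σ).setIntegral_preimage_emb (T σ).measurableEmbedding F B0
    rw [← this]
    refine integral_congr_ae (Eventually.of_forall fun x => ?_)
    show F x = F (T σ x)
    rw [hTapply, hFsymm]
  have hsum : ∑ σ : Equiv.Perm (Fin N), ∫ x in B σ, F x = (Nat.factorial N : ℝ) * ∫ x in B0, F x := by
    simp_rw [hBint]
    rw [Finset.sum_const, Finset.card_univ, Fintype.card_perm, Fintype.card_fin, nsmul_eq_mul]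
  rw [← hsum]
  have hind : ∀ σ, ∫ x in B σ, F x = ∫ x in DD, (B σ).indicator F x := by
    intro σ
    rw [setIntegral_indicator (hBm σ), Set.inter_eq_right.2 (hBsub σ)]
  simp_rw [hind]
  rw [← integral_finsetSum _ (fun σ _ => hF.indicator (hBm σ))]
  rw [← integral_const_mul]
  refine integral_mono_of_nonneg (Eventually.of_forall fun x => ?_) (hF.const_mul _)
    (Eventually.of_forall fun x => ?_)
  · exact Finset.sum_nonneg (fun σ _ => Set.indicator_nonneg (fun y _ => hF0 y) x)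
  · have hc : ∑ σ : Equiv.Perm (Fin N), (B σ).indicator F x
        = ((Finset.univ.filter (fun σ : Equiv.Perm (Fin N) => x ∈ B σ)).card : ℝ) * F x := by
      simp_rw [Set.indicator_apply]
      rw [← Finset.sum_filter, Finset.sum_const, nsmul_eq_mul]
    show ∑ σ : Equiv.Perm (Fin N), (B σ).indicator F x ≤ _
    rw [hc]
    refine mul_le_mul_of_nonneg_right ?_ (hF0 x)
    have := card_perm_mem_le a0 S hdisj x
    have h' : (Finset.univ.filter (fun σ : Equiv.Perm (Fin N) => x ∈ B σ))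
        = Finset.univ.filter (fun σ : Equiv.Perm (Fin N) =>
          x ∘ σ ∈ Set.pi Set.univ (fun i => S (a0 i))) := by
      ext σ; simp [B, hTapply, B0]
    rw [h']
    exact_mod_cast this

end Counting

section Tile

/-- A set integral of a product function over a box of a finite product. -/
lemma setIntegral_pi_prod {Q E : Type*} [Fintype Q] [MeasureSpace E] [SigmaFinite (volume : Measure E)]
    (s : Q → Set E) (hs : ∀ q, MeasurableSet (s q)) (f : Q → E → ℝ) :
    ∫ y in Set.pi Set.univ s, ∏ q, f q (y q) = ∏ q, ∫ z in s q, f q z := by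
  classical
  have hm : MeasurableSet (Set.pi Set.univ s) := MeasurableSet.univ_pi hs
  rw [← integral_indicator hm]
  have h1 : (Set.pi Set.univ s).indicator (fun y : Q → E => ∏ q, f q (y q))
      = fun y => ∏ q, (s q).indicator (f q) (y q) := by
    funext y
    by_cases hy : y ∈ Set.pi Set.univ s
    · rw [Set.indicator_of_mem hy]
      refine Finset.prod_congr rfl (fun q _ => ?_)
      rw [Set.indicator_of_mem (hy q (Set.mem_univ q))]
    · rw [Set.indicator_of_notMem hy]
      simp only [Set.mem_pi, Set.mem_univ, true_implies, not_forall] at hy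
      obtain ⟨q, hq⟩ := hy
      symm
      exact Finset.prod_eq_zero (Finset.mem_univ q) (Set.indicator_of_notMem hq _)
  rw [h1, integral_fintype_prod_volume_eq_prod]
  refine Finset.prod_congr rfl (fun q _ => ?_)
  rw [integral_indicator (hs q)]

variable {Q : Type*} [Fintype Q] {n N : ℕ}

/-- Change of variables `(Fin N → Pt) ≃ (Q → Fin n → Pt)` along `e : Fin N ≃ Q × Fin n`. -/
noncomputable def Psi (e : Fin N ≃ Q × Fin n) : (Fin N → Pt) ≃ᵐ (Q → Fin n → Pt) :=
  (MeasurableEquiv.arrowCongr' e (MeasurableEquiv.refl Pt)).trans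
    (MeasurableEquiv.curry Q (Fin n) Pt)

lemma Psi_apply (e : Fin N ≃ Q × Fin n) (x : Fin N → Pt) (q : Q) (l : Fin n) :
    Psi e x q l = x (e.symm (q, l)) := rfl

lemma Psi_mp (e : Fin N ≃ Q × Fin n) :
    MeasurePreserving (Psi e) (volume : Measure (Fin N → Pt)) volume :=
  (measurePreserving_curry Q (Fin n) Pt).comp
    (volume_preserving_arrowCongr' e (MeasurableEquiv.refl Pt) (MeasurePreserving.id _))

/-- Lower bound of the integral over the tile box. -/
lemma integral_box_ge (e : Fin N ≃ Q × Fin n) (S : Q → Set Pt) (hS : ∀ q, MeasurableSet (S q))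
    {c β : ℝ} (φ1 : ℝ → ℝ) (F : (Fin N → Pt) → ℝ)
    (hφ1 : Measurable φ1) (hβ : 0 ≤ β) {B1 : ℝ} (hB1 : ∀ z : Fin n → Pt, B1 ≤ energy φ1 z)
    (hfin : ∀ q, volume (S q) < ⊤)
    (hF : IntegrableOn F (Set.pi Set.univ (fun i => S (e i).1)))
    (hpt : ∀ x ∈ Set.pi Set.univ (fun i => S (e i).1),
      c * ∏ q, Real.exp (-β * energy φ1 (Psi e x q)) ≤ F x) :
    c * ∏ q, ∫ z in Set.pi Set.univ (fun _ : Fin n => S q), Real.exp (-β * energy φ1 z)
      ≤ ∫ x in Set.pi Set.univ (fun i => S (e i).1), F x := by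
  classical
  set B0 : Set (Fin N → Pt) := Set.pi Set.univ (fun i => S (e i).1) with hB0
  have hsq : ∀ q, MeasurableSet (Set.pi Set.univ (fun _ : Fin n => S q)) := fun q =>
    MeasurableSet.univ_pi (fun _ => hS q)
  set s : Q → Set (Fin n → Pt) := fun q => Set.pi Set.univ (fun _ : Fin n => S q) with hs
  have hpre : Psi e ⁻¹' (Set.pi Set.univ s) = B0 := by
    ext x
    simp only [Set.mem_preimage, Set.mem_pi, Set.mem_univ, true_implies, hB0, hs, Psi_apply]
    constructor
    · intro h i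
      have := h (e i).1 (e i).2
      simpa using this
    · intro h q l
      have := h (e.symm (q, l))
      simpa using this
  have h1 := setIntegral_pi_prod s hsq (fun _ z => Real.exp (-β * energy φ1 z))
  have h2 := (Psi_mp e).setIntegral_preimage_emb (Psi e).measurableEmbedding
    (fun y : Q → Fin n → Pt => ∏ q, Real.exp (-β * energy φ1 (y q))) (Set.pi Set.univ s)
  rw [hpre] at h2
  rw [← h1, ← h2, ← integral_const_mul]
  have hB0m : MeasurableSet B0 := MeasurableSet.univ_pi (fun i => hS _)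
  refine setIntegral_mono_on ?_ hF hB0m hpt
  -- integrability of the lower bound
  refine Integrable.const_mul ?_ _
  have hB0fin : volume B0 < ⊤ := by
    rw [hB0, volume_pi, Measure.pi_pi]
    exact ENNReal.prod_lt_top (fun i _ => hfin _)
  have hmeas : Measurable (fun x : Fin N → Pt => ∏ q, Real.exp (-β * energy φ1 (Psi e x q))) := by
    refine Finset.measurable_prod _ (fun q _ => ?_)
    refine Real.measurable_exp.comp (measurable_const.mul ?_)
    exact (measurable_energy hφ1 n).comp ((measurable_pi_apply q).comp (Psi e).measurable)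
  refine Measure.integrableOn_of_bounded (M := ∏ _q : Q, Real.exp (-β * B1)) hB0fin.ne
    hmeas.aestronglyMeasurable (Eventually.of_forall fun x => ?_)
  rw [Real.norm_of_nonneg (Finset.prod_nonneg fun _ _ => (Real.exp_pos _).le)]
  refine Finset.prod_le_prod (fun _ _ => (Real.exp_pos _).le) (fun q _ => ?_)
  exact Real.exp_le_exp.2 (by nlinarith [hB1 (Psi e x q)])

/-- Translation invariance of the tile integral. -/
lemma setIntegral_translate {n : ℕ} (φ : ℝ → ℝ) (β : ℝ) (v : Pt) (S : Set Pt) :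
    ∫ z in Set.pi Set.univ (fun _ : Fin n => (fun x : Pt => x + v) ⁻¹' S), Real.exp (-β * energy φ z)
      = ∫ z in Set.pi Set.univ (fun _ : Fin n => S), Real.exp (-β * energy φ z) := by
  have hmp : MeasurePreserving (fun z : Fin n → Pt => z + (fun _ => v))
      (volume : Measure (Fin n → Pt)) volume := measurePreserving_add_right volume _
  have hemb : MeasurableEmbedding (fun z : Fin n → Pt => z + (fun _ => v)) :=
    (MeasurableEquiv.addRight (fun _ : Fin n => v)).measurableEmbedding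
  have h := hmp.setIntegral_preimage_emb hemb (fun z => Real.exp (-β * energy φ z))
    (Set.pi Set.univ (fun _ : Fin n => S))
  have hpre : (fun z : Fin n → Pt => z + (fun _ => v)) ⁻¹' (Set.pi Set.univ (fun _ : Fin n => S))
      = Set.pi Set.univ (fun _ : Fin n => (fun x : Pt => x + v) ⁻¹' S) := by
    ext z; simp [Set.mem_pi]
  rw [hpre] at h
  rw [← h]
  refine integral_congr_ae (Eventually.of_forall fun z => ?_)
  have hE : energy φ (z + fun _ => v) = energy φ z := by
    unfold energy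
    refine Finset.sum_congr rfl (fun p _ => ?_)
    simp [dist_add_right]
  simp only [hE]

end Tile

section Geometry

lemma abs_coord_le_dist (x y : Pt) (k : Fin 3) : |x k - y k| ≤ dist x y := by
  rw [dist_eq_norm]
  have := PiLp.norm_apply_le (x - y) k
  simpa [Real.norm_eq_abs] using this

/-- The shift of the tile `c`. -/
noncomputable def tileShift (t : ℕ) {M : ℕ} (c : Fin 3 → Fin M) : Pt :=
  WithLp.toLp 2 (fun k => -((t : ℝ) * ((c k : ℕ) : ℝ) + 1))

/-- The tile: a translate of the cube of side `ell`. -/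
def tile (t ell : ℕ) {M : ℕ} (c : Fin 3 → Fin M) : Set Pt :=
  (fun x : Pt => x + tileShift t c) ⁻¹' cube ell

lemma mem_tile {t ell M : ℕ} {c : Fin 3 → Fin M} {x : Pt} :
    x ∈ tile t ell c ↔ ∀ k, (t : ℝ) * ((c k : ℕ) : ℝ) + 1 ≤ x k ∧
      x k ≤ (t : ℝ) * ((c k : ℕ) : ℝ) + 1 + ell := by
  simp only [tile, Set.mem_preimage, cube, Set.mem_ofPred_eq, tileShift]
  refine forall_congr' (fun k => ?_)
  simp only [PiLp.add_apply]
  constructor
  · rintro ⟨h1, h2⟩; constructor <;> linarith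
  · rintro ⟨h1, h2⟩; constructor <;> linarith

lemma measurableSet_tile (t ell : ℕ) {M : ℕ} (c : Fin 3 → Fin M) : MeasurableSet (tile t ell c) :=
  (measurable_add_const _) (measurableSet_cube _)

lemma volume_tile_lt_top (t ell : ℕ) {M : ℕ} (c : Fin 3 → Fin M) : volume (tile t ell c) < ⊤ := by
  unfold tile
  rw [(measurePreserving_add_right (volume : Measure Pt) (tileShift t c)).measure_preimage
    (measurableSet_cube _).nullMeasurableSet]
  exact volume_cube_lt_top _

lemma tile_subset_cube {t ell M : ℕ} (ht : ell + 2 ≤ t) (c : Fin 3 → Fin M) :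
    tile t ell c ⊆ cube ((M : ℝ) * t) := by
  intro x hx k
  obtain ⟨h1, h2⟩ := mem_tile.1 hx k
  have hc : ((c k : ℕ) : ℝ) + 1 ≤ M := by exact_mod_cast (c k).2
  have ht' : (ell : ℝ) + 2 ≤ t := by exact_mod_cast ht
  have hc0 : (0 : ℝ) ≤ ((c k : ℕ) : ℝ) := by positivity
  have ht0 : (0 : ℝ) ≤ t := by positivity
  constructor
  · have : 0 ≤ (t : ℝ) * ((c k : ℕ) : ℝ) := by positivity
    linarith
  · have : (t : ℝ) * (((c k : ℕ) : ℝ) + 1) ≤ t * M := mul_le_mul_of_nonneg_left hc ht0
    nlinarith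

lemma dist_tile_ge {t ell M : ℕ} (ht : ell + 2 ≤ t) {c c' : Fin 3 → Fin M} (hcc : c ≠ c') {x y : Pt}
    (hx : x ∈ tile t ell c) (hy : y ∈ tile t ell c') : 2 ≤ dist x y := by
  obtain ⟨k, hk⟩ := Function.ne_iff.1 hcc
  have ht' : (ell : ℝ) + 2 ≤ t := by exact_mod_cast ht
  have ht0 : (0 : ℝ) ≤ t := by positivity
  obtain ⟨hx1, hx2⟩ := mem_tile.1 hx k
  obtain ⟨hy1, hy2⟩ := mem_tile.1 hy k
  have hle := abs_coord_le_dist x y k
  rcases lt_or_gt_of_ne (fun h => hk (Fin.ext h) : ((c k : ℕ)) ≠ (c' k : ℕ)) with h | h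
  · have h' : ((c k : ℕ) : ℝ) + 1 ≤ ((c' k : ℕ) : ℝ) := by exact_mod_cast h
    have : (t : ℝ) * (((c k : ℕ) : ℝ) + 1) ≤ t * ((c' k : ℕ) : ℝ) := mul_le_mul_of_nonneg_left h' ht0
    have h3 := neg_abs_le (x k - y k)
    have h4 := le_abs_self (x k - y k)
    nlinarith
  · have h' : ((c' k : ℕ) : ℝ) + 1 ≤ ((c k : ℕ) : ℝ) := by exact_mod_cast h
    have : (t : ℝ) * (((c' k : ℕ) : ℝ) + 1) ≤ t * ((c k : ℕ) : ℝ) := mul_le_mul_of_nonneg_left h' ht0
    have h4 := le_abs_self (x k - y k)
    nlinarith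

lemma tile_disjoint {t ell M : ℕ} (ht : ell + 2 ≤ t) :
    Pairwise (Function.onFun Disjoint (fun c : Fin 3 → Fin M => tile t ell c)) := by
  intro c c' hcc
  refine Set.disjoint_left.2 (fun x hx hx' => ?_)
  have := dist_tile_ge ht hcc hx hx'
  rw [dist_self] at this
  norm_num at this

end Geometry

section Main

lemma energy_sub_mul {N : ℕ} (φ φ1 wh : ℝ → ℝ) (A : ℝ) (h : ∀ r, φ r = φ1 r - A * wh r)
    (x : Fin N → Pt) : energy φ x = energy φ1 x - A * energy wh x := by
  unfold energy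
  rw [Finset.mul_sum, ← Finset.sum_sub_distrib]
  exact Finset.sum_congr rfl (fun _ _ => h _)

/-- **Tile lower bound.** `N = n M³` particles, `n` in each of the `M³` tiles of side `t`,
inner cubes of side `ell ≤ t - 2`.  Cross interactions of `φ1` are `≤ 0`; the long range part
`wh` is bounded from below by `CSb` on the whole big box. -/
theorem tile_lower {φ φ1 wh : ℝ → ℝ} {A β : ℝ} (hA : 0 ≤ A) (hβ : 0 ≤ β)
    (hφ1 : Measurable φ1) (hφ : Measurable φ) (hdec : ∀ r, φ r = φ1 r - A * wh r)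
    (h2 : ∀ r, 2 ≤ r → φ1 r ≤ 0) {ell t M n : ℕ} (hell : 0 < ell) (ht : ell + 2 ≤ t) (hM : 0 < M)
    {B1 B : ℝ} (hB1 : ∀ z : Fin n → Pt, B1 ≤ energy φ1 z)
    (hB : ∀ x : Fin (n * M ^ 3) → Pt, B ≤ energy φ x)
    {CSb : ℝ} (hCS : ∀ x : Fin (n * M ^ 3) → Pt, (∀ i, x i ∈ cube ((M : ℝ) * t)) → CSb ≤ energy wh x) :
    (M : ℝ) ^ 3 * Real.log (partitionFn φ1 ell n β) + β * A * CSb
      ≤ Real.log (partitionFn φ ((M : ℝ) * t) (n * M ^ 3) β) := by
  classical
  set N := n * M ^ 3 with hN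
  let Q := Fin 3 → Fin M
  have hcardQ : Fintype.card Q = M ^ 3 := by simp [Q]
  have hcard : Fintype.card (Fin N) = Fintype.card (Q × Fin n) := by
    simp only [Fintype.card_fin, Fintype.card_prod, hcardQ, hN]; ring
  let e : Fin N ≃ Q × Fin n := Fintype.equivOfCardEq hcard
  let S : Q → Set Pt := fun c => tile t ell c
  let D : Set Pt := cube ((M : ℝ) * t)
  let F : (Fin N → Pt) → ℝ := fun x => Real.exp (-β * energy φ x)
  have hLpos : (0 : ℝ) < (M : ℝ) * t := by
    have : 0 < t := by omega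
    positivity
  have hF0 : ∀ x, 0 ≤ F x := fun _ => (Real.exp_pos _).le
  have hFsymm : ∀ (σ : Equiv.Perm (Fin N)) x, F (x ∘ σ) = F x := by
    intro σ x
    simp only [F, energy_comp_perm]
  have hFint : IntegrableOn F (Set.pi Set.univ (fun _ => D)) :=
    integrableOn_boltzmann hφ hβ N hB (volume_dom_lt_top _ N)
  -- counting
  have hc1 := integral_tile_le (fun i => (e i).1) S D (fun c => measurableSet_tile t ell c)
    (measurableSet_cube _) (fun c => tile_subset_cube ht c) (tile_disjoint ht) F hF0 hFsymm hFint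
  -- the stabiliser
  have hstab : Fintype.card {g : Equiv.Perm (Fin N) // (fun i => (e i).1) ∘ g = fun i => (e i).1}
      = (Nat.factorial n) ^ (M ^ 3) := by
    rw [DomMulAct.stabilizer_card]
    have hfib : ∀ q : Q, Fintype.card {a : Fin N // (e a).1 = q} = n := by
      intro q
      have : {a : Fin N // (e a).1 = q} ≃ Fin n :=
        { toFun := fun a => (e a.1).2
          invFun := fun l => ⟨e.symm (q, l), by simp⟩
          left_inv := by
            rintro ⟨a, ha⟩
            apply Subtype.ext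
            apply e.injective
            simp [← ha]
          right_inv := by
            intro l
            simp }
      rw [Fintype.card_congr this, Fintype.card_fin]
    simp_rw [hfib]
    rw [Finset.prod_const, Finset.card_univ, hcardQ]
  rw [hstab] at hc1
  -- pointwise bound
  set c : ℝ := Real.exp (β * A * CSb) with hc
  have hcpos : 0 < c := Real.exp_pos _
  have hpt : ∀ x ∈ Set.pi Set.univ (fun i => S (e i).1),
      c * ∏ q, Real.exp (-β * energy φ1 (Psi e x q)) ≤ F x := by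
    intro x hx
    have hxD : ∀ i, x i ∈ cube ((M : ℝ) * t) := fun i =>
      tile_subset_cube ht _ (hx i (Set.mem_univ i))
    have hw := hCS x hxD
    have hE := energy_sub_mul φ φ1 wh A hdec x
    -- decomposition along tiles
    set y : Q × Fin n → Pt := x ∘ e.symm with hy
    have hy1 : ∀ q l, y (q, l) ∈ S q := by
      intro q l
      have h : x (e.symm (q, l)) ∈ S (e (e.symm (q, l))).1 := hx (e.symm (q, l)) (Set.mem_univ _)
      rw [Equiv.apply_symm_apply] at h
      exact h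
    have hcross : ∀ q q' l l', q ≠ q' → φ1 (dist (y (q, l)) (y (q', l'))) ≤ 0 := by
      intro q q' l l' hqq
      exact h2 _ (dist_tile_ge ht hqq (hy1 q l) (hy1 q' l'))
    have hdecomp := pairSum_prod_le φ1 y hcross
    have hxy : x = y ∘ e := by
      funext i; simp [hy]
    have hE1 : energy φ1 x = pairSum φ1 y := by
      rw [energy_eq_pairSum, hxy, pairSum_comp_equiv]
    have hPsi : ∀ q, (fun l => y (q, l)) = Psi e x q := by
      intro q; funext l; rfl
    simp_rw [hPsi] at hdecomp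
    rw [hc, ← Real.exp_sum, ← Real.exp_add]
    refine Real.exp_le_exp.2 ?_
    rw [hE, hE1]
    have hsum : ∑ q, -β * energy φ1 (Psi e x q) = -β * ∑ q, energy φ1 (Psi e x q) := by
      rw [Finset.mul_sum]
    rw [hsum]
    have h1 := mul_le_mul_of_nonneg_left hdecomp hβ
    have h3 := mul_le_mul_of_nonneg_left hw (mul_nonneg hβ hA)
    nlinarith
  have hc2 := integral_box_ge e S (fun q => measurableSet_tile t ell q) φ1 F hφ1 hβ hB1
    (fun q => volume_tile_lt_top t ell q)
    (hFint.mono_set (by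
      intro x hx i hi
      exact tile_subset_cube ht _ (hx i hi))) hpt
  -- the tile integrals
  have hellpos : (0 : ℝ) < (ell : ℝ) := by exact_mod_cast hell
  have hZ1 : 0 < partitionFn φ1 ell n β := partitionFn_pos hφ1 hβ hellpos n hB1
  have htile : ∀ q : Q, ∫ z in Set.pi Set.univ (fun _ : Fin n => S q), Real.exp (-β * energy φ1 z)
      = (Nat.factorial n : ℝ) * partitionFn φ1 ell n β := by
    intro q
    have := setIntegral_translate (n := n) φ1 β (tileShift t q) (cube (ell : ℝ))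
    show ∫ z in Set.pi Set.univ (fun _ : Fin n => (fun x : Pt => x + tileShift t q) ⁻¹' cube (ell : ℝ)),
      Real.exp (-β * energy φ1 z) = _
    rw [this]
    unfold partitionFn
    have hn : (Nat.factorial n : ℝ) ≠ 0 := by positivity
    field_simp
  simp_rw [htile] at hc2
  rw [Finset.prod_const, Finset.card_univ, hcardQ, mul_pow] at hc2
  -- assemble
  have hZ : 0 < partitionFn φ ((M : ℝ) * t) N β := partitionFn_pos hφ hβ hLpos N hB
  have hfinal : c * partitionFn φ1 ell n β ^ (M ^ 3) ≤ partitionFn φ ((M : ℝ) * t) N β := by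
    have hfacN : (0 : ℝ) < Nat.factorial N := by positivity
    have hfacn : (0 : ℝ) < (Nat.factorial n : ℝ) ^ (M ^ 3) := by positivity
    have hI : ∫ x in Set.pi Set.univ (fun _ : Fin N => D), F x
        = (Nat.factorial N : ℝ) * partitionFn φ ((M : ℝ) * t) N β := by
      unfold partitionFn
      rw [← mul_assoc, mul_one_div_cancel hfacN.ne', one_mul]
    rw [hI] at hc1
    push_cast at hc1
    have h5 : (Nat.factorial N : ℝ) * (c * ((Nat.factorial n : ℝ) ^ (M ^ 3) * partitionFn φ1 ell n β ^ (M ^ 3)))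
        ≤ (Nat.factorial n : ℝ) ^ (M ^ 3) * ((Nat.factorial N : ℝ) * partitionFn φ ((M : ℝ) * t) N β) :=
      le_trans (mul_le_mul_of_nonneg_left hc2 hfacN.le) hc1
    have h6 : (Nat.factorial N : ℝ) * (Nat.factorial n : ℝ) ^ (M ^ 3) * (c * partitionFn φ1 ell n β ^ (M ^ 3))
        ≤ (Nat.factorial N : ℝ) * (Nat.factorial n : ℝ) ^ (M ^ 3) * partitionFn φ ((M : ℝ) * t) N β := by
      calc _ = (Nat.factorial N : ℝ) * (c * ((Nat.factorial n : ℝ) ^ (M ^ 3) * partitionFn φ1 ell n β ^ (M ^ 3))) := by ring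
        _ ≤ _ := h5
        _ = _ := by ring
    exact le_of_mul_le_mul_left h6 (by positivity)
  have := Real.log_le_log (by positivity) hfinal
  rw [Real.log_mul hcpos.ne' (by positivity), Real.log_exp, Real.log_pow] at this
  push_cast at this
  linarith

end Main

section Limit

open Crest.Agent.TL.Gauss

/-- generic series data -/
structure SeriesData where
  a : ℕ → ℝ
  R : ℕ → ℝ
  a_nonneg : ∀ j, 0 ≤ a j
  R_pos : ∀ j, 0 < R j
  summable_a : Summable a
  summable_term : ∀ r, Summable (fun j => a j * g (R j) r)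

/-- The series. -/
noncomputable def SeriesData.w (D : SeriesData) (r : ℝ) : ℝ := ∑' j, D.a j * g (D.R j) r

lemma SeriesData.w_nonneg (D : SeriesData) (r : ℝ) : 0 ≤ D.w r :=
  tsum_nonneg (fun j => mul_nonneg (D.a_nonneg j) (g_nonneg (D.R_pos j) r))

lemma energy_nonneg_of_nonneg {φ : ℝ → ℝ} (h : ∀ r, 0 ≤ φ r) {N : ℕ} (x : Fin N → Pt) :
    0 ≤ energy φ x := Finset.sum_nonneg (fun _ _ => h _)

lemma SeriesData.energy_w (D : SeriesData) {N : ℕ} (x : Fin N → Pt) :
    HasSum (fun j => D.a j * energy (g (D.R j)) x) (energy D.w x) := by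
  unfold energy SeriesData.w
  simp_rw [Finset.mul_sum]
  exact hasSum_sum (fun p _ => (D.summable_term _).hasSum)

lemma SeriesData.energy_w_ge (D : SeriesData) {N : ℕ} (x : Fin N → Pt) {L T : ℝ} (hL : 0 ≤ L)
    (hT : 0 < T) (hx : ∀ i, x i ∈ cube L) (J : ℕ) :
    ∑ j ∈ Finset.range J, D.a j * ((1 / 2) * ((N : ℝ) ^ 2 * θ (D.R j) T ^ 6 / (L + 2 * T) ^ 3))
      - (1 / 2) * (N * D.w 0) ≤ energy D.w x := by
  have h1 : ∑ j ∈ Finset.range J, D.a j * energy (g (D.R j)) x ≤ energy D.w x :=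
    sum_le_hasSum _ (fun j _ => mul_nonneg (D.a_nonneg j)
      (energy_nonneg_of_nonneg (fun r => g_nonneg (D.R_pos j) r) x)) (D.energy_w x)
  have h2 : ∑ j ∈ Finset.range J, D.a j * g (D.R j) 0 ≤ D.w 0 :=
    (D.summable_term 0).sum_le_tsum _
      (fun j _ => mul_nonneg (D.a_nonneg j) (g_nonneg (D.R_pos j) 0))
  have h3 : ∀ j ∈ Finset.range J,
      D.a j * ((1 / 2) * ((N : ℝ) ^ 2 * θ (D.R j) T ^ 6 / (L + 2 * T) ^ 3))
        - (1 / 2) * (N * (D.a j * g (D.R j) 0)) ≤ D.a j * energy (g (D.R j)) x := by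
    intro j _
    have := mul_le_mul_of_nonneg_left (cs (D.R_pos j) hT hL x hx) (D.a_nonneg j)
    nlinarith
  have h4 := Finset.sum_le_sum h3
  rw [Finset.sum_sub_distrib, ← Finset.mul_sum, ← Finset.mul_sum] at h4
  have hN : (0 : ℝ) ≤ (1 / 2) * N := by positivity
  have h5 := mul_le_mul_of_nonneg_left h2 hN
  nlinarith

lemma tendsto_ratio {t : ℝ} (ht : 0 < t) :
    Tendsto (fun M : ℕ => ((M : ℝ) * t) / ((M : ℝ) * t + 2 * Real.sqrt M)) atTop (𝓝 1) := by
  have h1 : Tendsto (fun M : ℕ => t / (t + 2 / Real.sqrt M)) atTop (𝓝 (t / (t + 0))) := by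
    refine tendsto_const_nhds.div (tendsto_const_nhds.add ?_) (by simpa using ht.ne')
    refine Tendsto.div_atTop tendsto_const_nhds ?_
    exact Real.tendsto_sqrt_atTop.comp tendsto_natCast_atTop_atTop
  rw [add_zero, div_self ht.ne'] at h1
  refine h1.congr' ?_
  filter_upwards [eventually_gt_atTop 0] with M hM
  have hM' : (0 : ℝ) < M := by exact_mod_cast hM
  have hs : 0 < Real.sqrt M := Real.sqrt_pos.2 hM'
  have hss : Real.sqrt M * Real.sqrt M = M := Real.mul_self_sqrt hM'.le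
  set s := Real.sqrt M with hs_def
  rw [← hss]
  field_simp

/-- **OS1.** The one-sided bound: a lower bound of the thermodynamic limit `h` of `log Z / L³`
at density `y = n / t³`. -/
theorem os_limit (D : SeriesData) {φ1 φ : ℝ → ℝ} {A β B : ℝ} (hA : 0 ≤ A) (hβ : 0 ≤ β)
    (hφ1 : Measurable φ1) (hφ : Measurable φ) (hdec : ∀ r, φ r = φ1 r - A * D.w r)
    (h2 : ∀ r, 2 ≤ r → φ1 r ≤ 0) (hst : ∀ (N : ℕ) (x : Fin N → Pt), -B * N ≤ energy φ x)
    {ell t n : ℕ} (hell : 0 < ell) (ht : ell + 2 ≤ t) {h : ℝ}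
    (hlim : Tendsto (fun L : ℝ =>
      Real.log (partitionFn φ L ⌊((n : ℝ) / (t : ℝ) ^ 3) * L ^ 3⌋₊ β) / L ^ 3) atTop (𝓝 h)) :
    (1 / (t : ℝ) ^ 3) * Real.log (partitionFn φ1 ell n β)
      + β * A * ((1 / 2) * ((n : ℝ) / (t : ℝ) ^ 3) ^ 2 * (∑' j, D.a j)
        - (1 / 2) * ((n : ℝ) / (t : ℝ) ^ 3) * D.w 0) ≤ h := by
  have htpos : (0 : ℝ) < t := by
    have : 0 < t := by omega
    exact_mod_cast this
  set y : ℝ := (n : ℝ) / (t : ℝ) ^ 3 with hy
  -- stability of `φ1`
  have hB1 : ∀ z : Fin n → Pt, -B * n ≤ energy φ1 z := by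
    intro z
    have h1 := hst n z
    have h3 := energy_sub_mul φ φ1 D.w A hdec z
    have h4 : 0 ≤ energy D.w z := energy_nonneg_of_nonneg D.w_nonneg z
    have h5 : 0 ≤ A * energy D.w z := mul_nonneg hA h4
    linarith
  -- sequence along `L = M t`
  have hLM : Tendsto (fun M : ℕ => (M : ℝ) * t) atTop atTop :=
    tendsto_natCast_atTop_atTop.atTop_mul_const htpos
  have hseq := hlim.comp hLM
  -- the bound for each truncation
  have key : ∀ J : ℕ, (1 / (t : ℝ) ^ 3) * Real.log (partitionFn φ1 ell n β)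
      + β * A * (∑ j ∈ Finset.range J, D.a j * ((1 / 2) * y ^ 2) - (1 / 2) * y * D.w 0) ≤ h := by
    intro J
    -- the left side along the sequence
    have hlhs : Tendsto (fun M : ℕ => (1 / (t : ℝ) ^ 3) * Real.log (partitionFn φ1 ell n β)
        + β * A * (∑ j ∈ Finset.range J, D.a j * ((1 / 2) * (y ^ 2 * θ (D.R j) (Real.sqrt M) ^ 6
            * (((M : ℝ) * t) / ((M : ℝ) * t + 2 * Real.sqrt M)) ^ 3))
          - (1 / 2) * y * D.w 0)) atTop
        (𝓝 ((1 / (t : ℝ) ^ 3) * Real.log (partitionFn φ1 ell n β)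
          + β * A * (∑ j ∈ Finset.range J, D.a j * ((1 / 2) * y ^ 2) - (1 / 2) * y * D.w 0))) := by
      refine tendsto_const_nhds.add (tendsto_const_nhds.mul (Tendsto.sub ?_ tendsto_const_nhds))
      refine tendsto_finsetSum _ (fun j _ => tendsto_const_nhds.mul (tendsto_const_nhds.mul ?_))
      have hθ : Tendsto (fun M : ℕ => θ (D.R j) (Real.sqrt M)) atTop (𝓝 1) :=
        (θ_tendsto (D.R_pos j)).comp (Real.tendsto_sqrt_atTop.comp tendsto_natCast_atTop_atTop)
      have hr := tendsto_ratio htpos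
      have := ((tendsto_const_nhds (x := y ^ 2)).mul (hθ.pow 6)).mul (hr.pow 3)
      simpa using this
    refine le_of_tendsto_of_tendsto hlhs hseq ?_
    filter_upwards [eventually_gt_atTop 0] with M hM
    have hM' : (0 : ℝ) < M := by exact_mod_cast hM
    have hL : (0 : ℝ) < (M : ℝ) * t := by positivity
    have hT : 0 < Real.sqrt M := Real.sqrt_pos.2 hM'
    -- the floor
    have hfl : ⌊y * ((M : ℝ) * t) ^ 3⌋₊ = n * M ^ 3 := by
      have : y * ((M : ℝ) * t) ^ 3 = ((n * M ^ 3 : ℕ) : ℝ) := by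
        rw [hy]; push_cast; field_simp
      rw [this, Nat.floor_natCast]
    have hCS : ∀ x : Fin (n * M ^ 3) → Pt, (∀ i, x i ∈ cube ((M : ℝ) * t)) →
        (∑ j ∈ Finset.range J, D.a j * ((1 / 2) * (((n * M ^ 3 : ℕ) : ℝ) ^ 2
            * θ (D.R j) (Real.sqrt M) ^ 6 / ((M : ℝ) * t + 2 * Real.sqrt M) ^ 3))
          - (1 / 2) * (((n * M ^ 3 : ℕ) : ℝ) * D.w 0)) ≤ energy D.w x := fun x hx =>
      D.energy_w_ge x hL.le hT hx J
    have htl := tile_lower hA hβ hφ1 hφ hdec h2 hell ht hM hB1 (fun x => by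
      have := hst _ x; exact this) hCS
    simp only [Function.comp]
    rw [hfl]
    rw [le_div_iff₀ (by positivity)]
    refine le_trans (le_of_eq ?_) htl
    have hsum : ∀ j, D.a j * ((1 / 2) * (y ^ 2 * θ (D.R j) (Real.sqrt M) ^ 6
            * (((M : ℝ) * t) / ((M : ℝ) * t + 2 * Real.sqrt M)) ^ 3)) * ((M : ℝ) * t) ^ 3
        = D.a j * ((1 / 2) * (((n * M ^ 3 : ℕ) : ℝ) ^ 2
            * θ (D.R j) (Real.sqrt M) ^ 6 / ((M : ℝ) * t + 2 * Real.sqrt M) ^ 3)) := by
      intro j
      have hdn : (0 : ℝ) < (M : ℝ) * t + 2 * Real.sqrt M := by positivity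
      rw [hy]; push_cast; field_simp
    have hw : (1 / 2) * y * D.w 0 * ((M : ℝ) * t) ^ 3 = (1 / 2) * (((n * M ^ 3 : ℕ) : ℝ) * D.w 0) := by
      rw [hy]; push_cast; field_simp
    have hlog : (1 / (t : ℝ) ^ 3) * Real.log (partitionFn φ1 ell n β) * ((M : ℝ) * t) ^ 3
        = (M : ℝ) ^ 3 * Real.log (partitionFn φ1 ell n β) := by
      field_simp
    rw [add_mul, hlog, mul_assoc, sub_mul, Finset.sum_mul, hw]
    simp_rw [hsum]
  -- take `J → ∞`
  have hlim2 : Tendsto (fun J : ℕ => (1 / (t : ℝ) ^ 3) * Real.log (partitionFn φ1 ell n β)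
      + β * A * (∑ j ∈ Finset.range J, D.a j * ((1 / 2) * y ^ 2) - (1 / 2) * y * D.w 0)) atTop
      (𝓝 ((1 / (t : ℝ) ^ 3) * Real.log (partitionFn φ1 ell n β)
      + β * A * ((∑' j, D.a j) * ((1 / 2) * y ^ 2) - (1 / 2) * y * D.w 0))) := by
    refine tendsto_const_nhds.add (tendsto_const_nhds.mul (Tendsto.sub ?_ tendsto_const_nhds))
    simp_rw [← Finset.sum_mul]
    exact D.summable_a.hasSum.tendsto_sum_nat.mul_const _
  have := le_of_tendsto' hlim2 key
  calc _ = _ := by ring
    _ ≤ h := this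

end Limit

section Am

open Crest.Agent.TL.Gauss

/-- The tilted one-cell weight `Am(k) = exp((1/2) β A Γ k²/ℓ³) Z(u s - A w_lo, cube ℓ, k, β)`. -/
noncomputable def Am (s wl : ℝ → ℝ) (u A β Γ : ℝ) (ell k : ℕ) : ℝ :=
  Real.exp ((1 / 2) * β * A * Γ * (k : ℝ) ^ 2 / (ell : ℝ) ^ 3) *
    partitionFn (fun r => u * s r - A * wl r) ell k β

/-- **OS2.** The bound of the one-cell weight by the free energy, `λ = ℓ/(ℓ+2)`, `σ = n/ℓ³`:
`log Am(n)/ℓ³ ≤ λ⁻³ h + (1/2) β A σ² (Γ_m - λ³ Γ) + (1/2) β A σ w(0) + 4 (1-u) C10`,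
where `h = lim log Z(s - A wl - A w, L, ⌊y L³⌋, β)/L³` at `y = n/(ℓ+2)³ = σ λ³`. -/
theorem os_am (D : SeriesData) {s wl : ℝ → ℝ} {A β B u Gm C10 B2 : ℝ} (hA : 0 ≤ A) (hβ : 0 ≤ β)
    (hs : Measurable s) (hwl : Measurable wl) (hwl0 : ∀ r, 0 ≤ wl r)
    (hw : Measurable D.w) (hs2 : ∀ r, 2 ≤ r → s r ≤ 0)
    (hst : ∀ (N : ℕ) (x : Fin N → Pt), -B * N ≤ energy (fun r => s r - A * wl r - A * D.w r) x)
    {ell n : ℕ} (hell : 0 < ell)
    (hu1 : 1 / 2 ≤ u) (hu2 : u ≤ 1)
    (hstH : ∀ z : Fin n → Pt, B2 ≤ energy (fun r => (1 / 2 : ℝ) * s r - A * wl r) z)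
    (hcr1 : |Real.log (partitionFn (fun r => (1 : ℝ) * s r - A * wl r) ell n β)| ≤ C10 * (ell : ℝ) ^ 3)
    (hcrH : |Real.log (partitionFn (fun r => (1 / 2 : ℝ) * s r - A * wl r) ell n β)| ≤ C10 * (ell : ℝ) ^ 3)
    {h : ℝ}
    (hlim : Tendsto (fun L : ℝ =>
      Real.log (partitionFn (fun r => s r - A * wl r - A * D.w r) L
        ⌊((n : ℝ) / ((ell + 2 : ℕ) : ℝ) ^ 3) * L ^ 3⌋₊ β) / L ^ 3) atTop (𝓝 h)) :
    Real.log (Am s wl u A β Gm ell n) / (ell : ℝ) ^ 3
      ≤ (((ell : ℝ) + 2) / ell) ^ 3 * h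
        + (1 / 2) * β * A * ((n : ℝ) / (ell : ℝ) ^ 3) ^ 2 * (Gm - ((ell : ℝ) / ((ell : ℝ) + 2)) ^ 3 * ∑' j, D.a j)
        + (1 / 2) * β * A * ((n : ℝ) / (ell : ℝ) ^ 3) * D.w 0
        + 4 * (1 - u) * C10 := by
  have hellR : (0 : ℝ) < ell := by exact_mod_cast hell
  have hφ1 : Measurable (fun r => (1 : ℝ) * s r - A * wl r) := by fun_prop
  have hφH : Measurable (fun r => (1 / 2 : ℝ) * s r - A * wl r) := by fun_prop
  have hφ : Measurable (fun r => s r - A * wl r - A * D.w r) := by fun_prop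
  have hφu : Measurable (fun r => u * s r - A * wl r) := by fun_prop
  -- OS1 at `t = ell + 2`
  have hdec : ∀ r, (fun r => s r - A * wl r - A * D.w r) r
      = (fun r => (1 : ℝ) * s r - A * wl r) r - A * D.w r := by
    intro r; simp
  have h22 : ∀ r, 2 ≤ r → (fun r => (1 : ℝ) * s r - A * wl r) r ≤ 0 := by
    intro r hr
    have := hs2 r hr
    have := mul_nonneg hA (hwl0 r)
    simp only; linarith
  have hos := os_limit D hA hβ hφ1 hφ hdec h22 hst (t := ell + 2) hell le_rfl hlim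
  -- stability of `φ1`
  have hB1 : ∀ z : Fin n → Pt, -B * n ≤ energy (fun r => (1 : ℝ) * s r - A * wl r) z := by
    intro z
    have h1 := hst n z
    have h3 := energy_sub_mul _ _ D.w A hdec z
    have h4 : 0 ≤ energy D.w z := energy_nonneg_of_nonneg D.w_nonneg z
    have h5 : 0 ≤ A * energy D.w z := mul_nonneg hA h4
    linarith
  -- Hölder in `u`
  have hτ0 : 0 ≤ 2 * (1 - u) := by linarith
  have hτ1 : 0 ≤ 1 - 2 * (1 - u) := by linarith
  have hconv := log_partitionFn_convex (φ := fun r => u * s r - A * wl r) hφ1 hφH hβ hellR n hB1 hstH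
    hτ1 hτ0 (by ring) (by intro r; ring)
  have h1a := abs_le.1 hcr1
  have h1b := abs_le.1 hcrH
  set Z1 := Real.log (partitionFn (fun r => (1 : ℝ) * s r - A * wl r) ell n β) with hZ1
  set ZH := Real.log (partitionFn (fun r => (1 / 2 : ℝ) * s r - A * wl r) ell n β) with hZH
  set Zu := Real.log (partitionFn (fun r => u * s r - A * wl r) ell n β) with hZu
  have hZubound : Zu ≤ Z1 + 4 * (1 - u) * (C10 * (ell : ℝ) ^ 3) := by
    have : (1 - 2 * (1 - u)) * Z1 + 2 * (1 - u) * ZH ≤ Z1 + 4 * (1 - u) * (C10 * (ell : ℝ) ^ 3) := by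
      have h3 : ZH - Z1 ≤ 2 * (C10 * (ell : ℝ) ^ 3) := by linarith [h1a.1, h1b.2]
      have := mul_le_mul_of_nonneg_left h3 hτ0
      nlinarith
    linarith
  have hZpos : 0 < partitionFn (fun r => u * s r - A * wl r) ell n β := by
    have hBu : ∀ z : Fin n → Pt, (1 - 2 * (1 - u)) * (-B * n) + 2 * (1 - u) * B2
        ≤ energy (fun r => u * s r - A * wl r) z := by
      intro z
      have hE : energy (fun r => u * s r - A * wl r) z
          = (1 - 2 * (1 - u)) * energy (fun r => (1 : ℝ) * s r - A * wl r) z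
            + 2 * (1 - u) * energy (fun r => (1 / 2 : ℝ) * s r - A * wl r) z := by
        unfold energy
        rw [Finset.mul_sum, Finset.mul_sum, ← Finset.sum_add_distrib]
        refine Finset.sum_congr rfl (fun _ _ => ?_)
        ring
      rw [hE]
      have := mul_le_mul_of_nonneg_left (hB1 z) hτ1
      have := mul_le_mul_of_nonneg_left (hstH z) hτ0
      linarith
    exact partitionFn_pos hφu hβ hellR n hBu
  -- assemble
  have hAm : Real.log (Am s wl u A β Gm ell n)
      = (1 / 2) * β * A * Gm * (n : ℝ) ^ 2 / (ell : ℝ) ^ 3 + Zu := by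
    unfold Am
    rw [Real.log_mul (Real.exp_pos _).ne' hZpos.ne', Real.log_exp]
  rw [hAm]
  have hcastt : (((ell + 2 : ℕ) : ℝ)) = (ell : ℝ) + 2 := by push_cast; ring
  rw [hcastt] at hos
  have ht0 : (0 : ℝ) < (ell : ℝ) + 2 := by positivity
  -- multiply OS1 by `(ell+2)³/ell³`
  have hmul := mul_le_mul_of_nonneg_left hos
    (show (0 : ℝ) ≤ (((ell : ℝ) + 2) / ell) ^ 3 by positivity)
  have hexp : (((ell : ℝ) + 2) / ell) ^ 3 * ((1 / ((ell : ℝ) + 2) ^ 3) * Z1
      + β * A * ((1 / 2) * ((n : ℝ) / ((ell : ℝ) + 2) ^ 3) ^ 2 * (∑' j, D.a j)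
        - (1 / 2) * ((n : ℝ) / ((ell : ℝ) + 2) ^ 3) * D.w 0))
      = Z1 / (ell : ℝ) ^ 3
        + (1 / 2) * β * A * ((n : ℝ) / (ell : ℝ) ^ 3) ^ 2 * (((ell : ℝ) / ((ell : ℝ) + 2)) ^ 3 * ∑' j, D.a j)
        - (1 / 2) * β * A * ((n : ℝ) / (ell : ℝ) ^ 3) * D.w 0 := by
    field_simp
    ring
  rw [hexp] at hmul
  have hZdiv : Zu / (ell : ℝ) ^ 3 ≤ Z1 / (ell : ℝ) ^ 3 + 4 * (1 - u) * C10 := by
    rw [div_le_iff₀ (by positivity)]
    have : (Z1 / (ell : ℝ) ^ 3 + 4 * (1 - u) * C10) * (ell : ℝ) ^ 3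
        = Z1 + 4 * (1 - u) * (C10 * (ell : ℝ) ^ 3) := by
      field_simp
    rw [this]; exact hZubound
  have hgm : ((1 / 2) * β * A * Gm * (n : ℝ) ^ 2 / (ell : ℝ) ^ 3) / (ell : ℝ) ^ 3
      = (1 / 2) * β * A * ((n : ℝ) / (ell : ℝ) ^ 3) ^ 2 * Gm := by
    field_simp
  rw [add_div, hgm]
  have : (1 / 2) * β * A * ((n : ℝ) / (ell : ℝ) ^ 3) ^ 2 * (Gm - ((ell : ℝ) / ((ell : ℝ) + 2)) ^ 3 * ∑' j, D.a j)
      = (1 / 2) * β * A * ((n : ℝ) / (ell : ℝ) ^ 3) ^ 2 * Gm
        - (1 / 2) * β * A * ((n : ℝ) / (ell : ℝ) ^ 3) ^ 2 * (((ell : ℝ) / ((ell : ℝ) + 2)) ^ 3 * ∑' j, D.a j) := by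
    ring
  rw [this]
  linarith

end Am

end Crest.Agent.TL.OneSided
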