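import Mathlib

/-!
# S0209, module K: selection of the kink

Pure real analysis.  `F β A ρ` is the free energy density.  It is concave in `β` and in `A`, convex
in `ρ`.  `gap (F β A)` is the slope of `F β A` on `[t3,t4]` minus the slope on `[t1,t2]`.
The gap is positive at `(β1,A0)`, vanishes at `(β2,A0)` and at `(β,Ap)`, and satisfies a linear rate
in `A`.  Then there is `(βs,As)` at which, for every `ρ ∈ (t1,t4)`, the function `β ↦ F β As ρ` has
one-sided derivatives at `βs`, the right one strictly below the left one.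
-/

set_option autoImplicit false

open Set Filter Topology

namespace Crest.Agent.TL.Selection

/-- Slope on `[t3,t4]` minus slope on `[t1,t2]`. -/
noncomputable def gap (G : ℝ → ℝ) (t1 t2 t3 t4 : ℝ) : ℝ :=
  (G t4 - G t3) / (t4 - t3) - (G t2 - G t1) / (t2 - t1)

section convex

variable {G : ℝ → ℝ} {t1 t2 t3 t4 : ℝ}

/-- Secant slopes of a convex function increase. -/
lemma slope_le_slope (hG : ConvexOn ℝ (Icc t1 t4) G) {a b c d : ℝ}
    (ha : t1 ≤ a) (hab : a < b) (hbc : b ≤ c) (hcd : c < d) (hd : d ≤ t4) :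
    (G b - G a) / (b - a) ≤ (G d - G c) / (d - c) := by
  have hA : a ∈ Icc t1 t4 := ⟨ha, by linarith⟩
  have hB : b ∈ Icc t1 t4 := ⟨by linarith, by linarith⟩
  have hC : c ∈ Icc t1 t4 := ⟨by linarith, by linarith⟩
  have hD : d ∈ Icc t1 t4 := ⟨by linarith, hd⟩
  rcases eq_or_lt_of_le hbc with rfl | hbc'
  · exact hG.slope_mono_adjacent hA hD hab hcd
  · exact (hG.slope_mono_adjacent hA hC hab hbc').trans
      (hG.slope_mono_adjacent hB hD hbc' hcd)

lemma gap_nonneg (hG : ConvexOn ℝ (Icc t1 t4) G) (ht12 : t1 < t2) (ht23 : t2 ≤ t3) (ht34 : t3 < t4) :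
    0 ≤ gap G t1 t2 t3 t4 := by
  have := slope_le_slope hG le_rfl ht12 ht23 ht34 le_rfl
  unfold gap
  linarith

/-- If the gap vanishes, a convex function is affine on `[t1,t4]`. -/
lemma affine_of_gap_eq_zero (hG : ConvexOn ℝ (Icc t1 t4) G) (ht12 : t1 < t2) (ht23 : t2 ≤ t3)
    (ht34 : t3 < t4) (h0 : gap G t1 t2 t3 t4 = 0) :
    ∀ ρ ∈ Icc t1 t4, G ρ = G t1 + (G t2 - G t1) / (t2 - t1) * (ρ - t1) := by
  set s := (G t2 - G t1) / (t2 - t1) with hs
  have h12 : t2 - t1 > 0 := by linarith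
  have h34 : t4 - t3 > 0 := by linarith
  have hs2 : G t2 = G t1 + s * (t2 - t1) := by rw [hs]; field_simp; ring
  have hs34 : (G t4 - G t3) / (t4 - t3) = s := by
    unfold gap at h0; linarith
  have hs4' : G t4 - G t3 = s * (t4 - t3) := by
    rw [← hs34]; field_simp
  -- value at t3
  have h3 : G t3 = G t1 + s * (t3 - t1) := by
    rcases eq_or_lt_of_le ht23 with h | h23
    · rw [← h, hs2]
    · have h1 := slope_le_slope hG le_rfl ht12 le_rfl h23 (by linarith)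
      have h2 := slope_le_slope hG (by linarith) h23 le_rfl ht34 le_rfl
      rw [← hs] at h1
      rw [hs34] at h2
      have : (G t3 - G t2) / (t3 - t2) = s := le_antisymm h2 h1
      have h3' : G t3 - G t2 = s * (t3 - t2) := by
        rw [← this]; field_simp [show t3 - t2 ≠ 0 by linarith]
      rw [hs2] at h3'
      linarith
  have h4 : G t4 = G t1 + s * (t4 - t1) := by linarith
  intro ρ hρ
  have h14 : t1 < t4 := by linarith
  apply le_antisymm
  · -- upper bound: chord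
    have hlam : 0 ≤ (t4 - ρ) / (t4 - t1) := div_nonneg (by linarith [hρ.2]) (by linarith)
    have hmu : 0 ≤ (ρ - t1) / (t4 - t1) := div_nonneg (by linarith [hρ.1]) (by linarith)
    have hsum : (t4 - ρ) / (t4 - t1) + (ρ - t1) / (t4 - t1) = 1 := by
      field_simp [show t4 - t1 ≠ 0 by linarith]; ring
    have := hG.2 (left_mem_Icc.2 h14.le) (right_mem_Icc.2 h14.le) hlam hmu hsum
    simp only [smul_eq_mul] at this
    have hρ' : (t4 - ρ) / (t4 - t1) * t1 + (ρ - t1) / (t4 - t1) * t4 = ρ := by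
      field_simp [show t4 - t1 ≠ 0 by linarith]; ring
    rw [hρ', h4] at this
    have e : (t4 - ρ) / (t4 - t1) * G t1 + (ρ - t1) / (t4 - t1) * (G t1 + s * (t4 - t1))
        = G t1 + s * (ρ - t1) := by
      field_simp [show t4 - t1 ≠ 0 by linarith]; ring
    linarith
  · -- lower bound: secant extension
    rcases lt_or_ge ρ t2 with hρ2 | hρ2
    · have h2 := slope_le_slope hG hρ.1 hρ2 ht23 ht34 le_rfl
      rw [hs34] at h2
      have hd : t2 - ρ > 0 := by linarith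
      rw [div_le_iff₀ hd] at h2
      rw [hs2] at h2
      nlinarith
    · rcases eq_or_lt_of_le hρ2 with rfl | hρ2'
      · rw [hs2]
      · have h2 := slope_le_slope hG le_rfl ht12 le_rfl hρ2' hρ.2
        rw [← hs] at h2
        have hd : ρ - t2 > 0 := by linarith
        rw [le_div_iff₀ hd] at h2
        rw [hs2] at h2
        nlinarith

end convex

/-- One-sided derivatives of a concave function in the interior. -/
lemma concave_oneSided {g : ℝ → ℝ} {S : Set ℝ} {x : ℝ} (hg : ConcaveOn ℝ S g) (hx : x ∈ interior S) :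
    HasDerivWithinAt g (derivWithin g (Iio x) x) (Iio x) x ∧
      HasDerivWithinAt g (derivWithin g (Ioi x) x) (Ioi x) x ∧
      derivWithin g (Ioi x) x ≤ derivWithin g (Iio x) x := by
  have hc : ConvexOn ℝ S (-g) := hg.neg
  have h1 := hc.differentiableWithinAt_Iio_of_mem_interior hx
  have h2 := hc.differentiableWithinAt_Ioi_of_mem_interior hx
  have h1' : DifferentiableWithinAt ℝ g (Iio x) x := by
    have := h1.neg
    simpa using this
  have h2' : DifferentiableWithinAt ℝ g (Ioi x) x := by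
    have := h2.neg
    simpa using this
  refine ⟨h1'.hasDerivWithinAt, h2'.hasDerivWithinAt, ?_⟩
  have h3 := hc.leftDeriv_le_rightDeriv_of_mem_interior hx
  have e1 : derivWithin (-g) (Iio x) x = - derivWithin g (Iio x) x :=
    (h1'.hasDerivWithinAt.neg).derivWithin (uniqueDiffWithinAt_Iio x)
  have e2 : derivWithin (-g) (Ioi x) x = - derivWithin g (Ioi x) x :=
    (h2'.hasDerivWithinAt.neg).derivWithin (uniqueDiffWithinAt_Ioi x)
  rw [e1, e2] at h3
  linarith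

section main

variable (F : ℝ → ℝ → ℝ → ℝ)
  {βl β1 β2 βr Al A0 Ap Ar t1 t2 t3 t4 c0 : ℝ}

/-- **Selection of the kink.** -/
theorem exists_kink
    (hβl : βl < β1) (hβ12 : β1 < β2) (hβr : β2 < βr)
    (hAl : Al < A0) (hA0p : A0 < Ap) (hAr : Ap < Ar)
    (ht12 : t1 < t2) (ht23 : t2 ≤ t3) (ht34 : t3 < t4) (hc0 : 0 < c0)
    (hconcβ : ∀ A ∈ Icc A0 Ap, ∀ ρ ∈ Icc t1 t4, ConcaveOn ℝ (Ioo βl βr) (fun β => F β A ρ))
    (hconcA : ∀ β ∈ Icc β1 β2, ∀ ρ ∈ Icc t1 t4, ConcaveOn ℝ (Ioo Al Ar) (fun A => F β A ρ))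
    (hconvρ : ∀ β ∈ Ioo βl βr, ∀ A ∈ Icc A0 Ap, ConvexOn ℝ (Icc t1 t4) (F β A))
    (hstart : 0 < gap (F β1 A0) t1 t2 t3 t4)
    (hend : gap (F β2 A0) t1 t2 t3 t4 = 0)
    (htop : ∀ β ∈ Icc β1 β2, gap (F β Ap) t1 t2 t3 t4 = 0)
    (hrate : ∀ β ∈ Icc β1 β2, ∀ A1 ∈ Icc A0 Ap, ∀ A2 ∈ Icc A0 Ap, A1 < A2 →
      0 < gap (F β A2) t1 t2 t3 t4 → c0 * (A2 - A1) ≤ gap (F β A1) t1 t2 t3 t4) :
    ∃ βs ∈ Ioc β1 β2, ∃ As ∈ Icc A0 Ap, ∀ ρ ∈ Ioo t1 t4, ∃ Dl Dr : ℝ,
      HasDerivWithinAt (fun β => F β As ρ) Dl (Iio βs) βs ∧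
      HasDerivWithinAt (fun β => F β As ρ) Dr (Ioi βs) βs ∧ Dr < Dl := by
  classical
  have ht1 : t1 ∈ Icc t1 t4 := ⟨le_rfl, by linarith⟩
  have ht2 : t2 ∈ Icc t1 t4 := ⟨by linarith, by linarith⟩
  have ht3 : t3 ∈ Icc t1 t4 := ⟨by linarith, by linarith⟩
  have ht4 : t4 ∈ Icc t1 t4 := ⟨by linarith, le_rfl⟩
  have hIcc : Icc β1 β2 ⊆ Ioo βl βr := fun β h => ⟨by linarith [h.1], by linarith [h.2]⟩
  have hIccA : Icc A0 Ap ⊆ Ioo Al Ar := fun β h => ⟨by linarith [h.1], by linarith [h.2]⟩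
  -- abbreviations
  set d : ℝ → ℝ → ℝ := fun β A => gap (F β A) t1 t2 t3 t4 with hd
  have d_nonneg : ∀ β ∈ Ioo βl βr, ∀ A ∈ Icc A0 Ap, 0 ≤ d β A := fun β hβ A hA =>
    gap_nonneg (hconvρ β hβ A hA) ht12 ht23 ht34
  -- continuity in `A`
  have d_contA : ∀ β ∈ Icc β1 β2, ContinuousOn (fun A => d β A) (Icc A0 Ap) := by
    intro β hβ
    have hc : ∀ ρ ∈ Icc t1 t4, ContinuousOn (fun A => F β A ρ) (Icc A0 Ap) := fun ρ hρ =>
      ((hconcA β hβ ρ hρ).continuousOn isOpen_Ioo).mono hIccA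
    simp only [hd, gap]
    exact (((hc t4 ht4).sub (hc t3 ht3)).div_const _).sub (((hc t2 ht2).sub (hc t1 ht1)).div_const _)
  -- continuity in `β`
  have d_contβ : ∀ A ∈ Icc A0 Ap, ContinuousOn (fun β => d β A) (Icc β1 β2) := by
    intro A hA
    have hc : ∀ ρ ∈ Icc t1 t4, ContinuousOn (fun β => F β A ρ) (Icc β1 β2) := fun ρ hρ =>
      ((hconcβ A hA ρ hρ).continuousOn isOpen_Ioo).mono hIcc
    simp only [hd, gap]
    exact (((hc t4 ht4).sub (hc t3 ht3)).div_const _).sub (((hc t2 ht2).sub (hc t1 ht1)).div_const _)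
  -- the zero sets
  set Z : ℝ → Set ℝ := fun β => {A ∈ Icc A0 Ap | d β A = 0} with hZ
  have Z_compact : ∀ β ∈ Icc β1 β2, IsCompact (Z β) := by
    intro β hβ
    have : Z β = Icc A0 Ap ∩ (fun A => d β A) ⁻¹' {0} := rfl
    rw [this]
    exact isCompact_Icc.of_isClosed_subset
      ((d_contA β hβ).preimage_isClosed_of_isClosed isClosed_Icc isClosed_singleton)
      inter_subset_left
  have Z_ne : ∀ β ∈ Icc β1 β2, (Z β).Nonempty := fun β hβ =>
    ⟨Ap, ⟨hA0p.le, le_rfl⟩, htop β hβ⟩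
  set a : ℝ → ℝ := fun β => sInf (Z β) with ha
  have a_mem : ∀ β ∈ Icc β1 β2, a β ∈ Z β := fun β hβ => (Z_compact β hβ).sInf_mem (Z_ne β hβ)
  have a_le : ∀ β ∈ Icc β1 β2, ∀ A ∈ Z β, a β ≤ A := fun β hβ A hA =>
    csInf_le (Z_compact β hβ).bddBelow hA
  -- up-set
  have up : ∀ β ∈ Icc β1 β2, ∀ A ∈ Icc A0 Ap, a β ≤ A → d β A = 0 := by
    intro β hβ A hA haA
    by_contra hne
    have hpos : 0 < d β A := lt_of_le_of_ne (d_nonneg β (hIcc hβ) A hA) (Ne.symm hne)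
    have hlt : a β < A := by
      refine lt_of_le_of_ne haA ?_
      intro h
      exact hne (by rw [← h]; exact (a_mem β hβ).2)
    have := hrate β hβ (a β) (a_mem β hβ).1 A hA hlt hpos
    rw [show gap (F β (a β)) t1 t2 t3 t4 = d β (a β) from rfl, (a_mem β hβ).2] at this
    nlinarith
  -- lower semicontinuity
  have a_lsc : LowerSemicontinuousOn a (Icc β1 β2) := by
    rw [lowerSemicontinuousOn_iff_preimage_Iic]
    intro c
    by_cases hc1 : c < A0
    · refine ⟨∅, isClosed_empty, ?_⟩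
      ext β
      simp only [mem_inter_iff, mem_preimage, mem_Iic, mem_empty_iff_false, and_false, iff_false,
        not_and, not_le]
      intro hβ
      exact lt_of_lt_of_le hc1 (a_mem β hβ).1.1
    by_cases hc2 : Ap ≤ c
    · refine ⟨univ, isClosed_univ, ?_⟩
      ext β
      simp only [mem_inter_iff, mem_preimage, mem_Iic, mem_univ, and_true, and_iff_left_iff_imp]
      intro hβ
      exact le_trans (a_mem β hβ).1.2 hc2
    · have hc1 := not_lt.1 hc1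
      have hc2 := not_le.1 hc2
      have hcm : c ∈ Icc A0 Ap := ⟨hc1, hc2.le⟩
      refine ⟨Icc β1 β2 ∩ (fun β => d β c) ⁻¹' {0},
        (d_contβ c hcm).preimage_isClosed_of_isClosed isClosed_Icc isClosed_singleton, ?_⟩
      ext β
      simp only [mem_inter_iff, mem_preimage, mem_Iic, mem_singleton_iff]
      constructor
      · rintro ⟨hβ, h⟩
        exact ⟨hβ, hβ, up β hβ c hcm h⟩
      · rintro ⟨hβ, -, h⟩
        exact ⟨hβ, a_le β hβ c ⟨hcm, h⟩⟩
  -- the values at the ends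
  have hβ1m : β1 ∈ Icc β1 β2 := ⟨le_rfl, hβ12.le⟩
  have hβ2m : β2 ∈ Icc β1 β2 := ⟨hβ12.le, le_rfl⟩
  have hA0m : A0 ∈ Icc A0 Ap := ⟨le_rfl, hA0p.le⟩
  have a1 : A0 < a β1 := by
    refine lt_of_le_of_ne (a_mem β1 hβ1m).1.1 ?_
    intro h
    have := (a_mem β1 hβ1m).2
    rw [← h] at this
    exact absurd this (ne_of_gt hstart)
  have a2 : a β2 ≤ A0 := a_le β2 hβ2m A0 ⟨hA0m, hend⟩
  -- the penalty
  set κ : ℝ := (a β1 - A0) / (2 * (β2 - β1)) with hκ
  have hβd : 0 < β2 - β1 := by linarith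
  have hκpos : 0 < κ := div_pos (by linarith) (by linarith)
  have hκid : κ * (β2 - β1) = (a β1 - A0) / 2 := by
    rw [hκ]; field_simp
  have hcont : ContinuousOn (fun β : ℝ => κ * β) (Icc β1 β2) := by fun_prop
  have hlsc : LowerSemicontinuousOn (fun β => a β + κ * β) (Icc β1 β2) :=
    a_lsc.add hcont.lowerSemicontinuousOn
  obtain ⟨βs, hβs, hmin⟩ := hlsc.exists_isMinOn ⟨β1, hβ1m⟩ isCompact_Icc
  have hmin' : ∀ β ∈ Icc β1 β2, a βs + κ * βs ≤ a β + κ * β := fun β hβ => hmin hβ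
  have hβsne : β1 < βs := by
    refine lt_of_le_of_ne hβs.1 ?_
    intro h
    have := hmin' β2 hβ2m
    rw [← h] at this
    have h3 : κ * β2 = κ * β1 + (a β1 - A0) / 2 := by
      have : κ * β2 = κ * (β2 - β1) + κ * β1 := by ring
      rw [this, hκid]; ring
    linarith
  set As := a βs with hAs
  have hAsm : As ∈ Icc A0 Ap := (a_mem βs hβs).1
  have hds : d βs As = 0 := (a_mem βs hβs).2
  have hβsin : βs ∈ Ioo βl βr := hIcc hβs
  have hint : βs ∈ interior (Ioo βl βr) := by rwa [interior_Ioo]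
  -- linear growth of `d β As` on the left
  have hgrow : ∀ β ∈ Ico β1 βs, c0 * κ * (βs - β) ≤ d β As := by
    intro β hβ
    have hβm : β ∈ Icc β1 β2 := ⟨hβ.1, by linarith [hβ.2, hβs.2]⟩
    have h1 : As + κ * (βs - β) ≤ a β := by
      have := hmin' β hβm
      have e : κ * (βs - β) = κ * βs - κ * β := by ring
      rw [e]; linarith
    have hdpos : 0 ≤ d β As := d_nonneg β (hIcc hβm) As hAsm
    have h2 : a β ≤ As + d β As / c0 := by
      by_contra hcon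
      have hcon := not_le.1 hcon
      obtain ⟨A2, hA21, hA22⟩ := exists_between hcon
      have hgt : As < A2 := by
        have : 0 ≤ d β As / c0 := div_nonneg hdpos hc0.le
        linarith
      have hA2m : A2 ∈ Icc A0 Ap :=
        ⟨by linarith [hAsm.1], by linarith [(a_mem β hβm).1.2]⟩
      have hnz : d β A2 ≠ 0 := by
        intro h0
        have := a_le β hβm A2 ⟨hA2m, h0⟩
        linarith
      have hpos : 0 < d β A2 := lt_of_le_of_ne (d_nonneg β (hIcc hβm) A2 hA2m) (Ne.symm hnz)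
      have := hrate β hβm As hAsm A2 hA2m hgt hpos
      have h3 : c0 * (A2 - As) ≤ d β As := this
      have h4 : d β As / c0 < A2 - As := by linarith
      rw [div_lt_iff₀ hc0] at h4
      nlinarith
    have h3 : κ * (βs - β) ≤ d β As / c0 := by linarith
    rw [le_div_iff₀ hc0] at h3
    nlinarith
  -- derivative functions
  set g : ℝ → ℝ → ℝ := fun ρ β => F β As ρ with hg
  have gconc : ∀ ρ ∈ Icc t1 t4, ConcaveOn ℝ (Ioo βl βr) (g ρ) := fun ρ hρ => hconcβ As hAsm ρ hρ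
  set Dl : ℝ → ℝ := fun ρ => derivWithin (g ρ) (Iio βs) βs with hDl
  set Dr : ℝ → ℝ := fun ρ => derivWithin (g ρ) (Ioi βs) βs with hDr
  have hDlD : ∀ ρ ∈ Icc t1 t4, HasDerivWithinAt (g ρ) (Dl ρ) (Iio βs) βs := fun ρ hρ =>
    (concave_oneSided (gconc ρ hρ) hint).1
  have hDrD : ∀ ρ ∈ Icc t1 t4, HasDerivWithinAt (g ρ) (Dr ρ) (Ioi βs) βs := fun ρ hρ =>
    (concave_oneSided (gconc ρ hρ) hint).2.1
  have hDle : ∀ ρ ∈ Icc t1 t4, Dr ρ ≤ Dl ρ := fun ρ hρ =>
    (concave_oneSided (gconc ρ hρ) hint).2.2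
  -- affine at `βs`
  have haff := affine_of_gap_eq_zero (hconvρ βs hβsin As hAsm) ht12 ht23 ht34 hds
  have haff2 : ∀ a' ∈ Icc t1 t4, ∀ b' ∈ Icc t1 t4, ∀ l m : ℝ, 0 ≤ l → 0 ≤ m → l + m = 1 →
      F βs As (l * a' + m * b') = l * F βs As a' + m * F βs As b' := by
    intro a' ha' b' hb' l m hl hm hlm
    have hmem : l * a' + m * b' ∈ Icc t1 t4 := by
      have := (convex_Icc t1 t4) ha' hb' hl hm hlm
      simpa [smul_eq_mul] using this
    rw [haff _ hmem, haff _ ha', haff _ hb']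
    have : m = 1 - l := by linarith
    subst this
    ring
  -- convexity of `Dr`, concavity of `Dl`
  have hDrconv : ∀ a' ∈ Icc t1 t4, ∀ b' ∈ Icc t1 t4, ∀ l m : ℝ, 0 ≤ l → 0 ≤ m → l + m = 1 →
      Dr (l * a' + m * b') ≤ l * Dr a' + m * Dr b' := by
    intro a' ha' b' hb' l m hl hm hlm
    have hmem : l * a' + m * b' ∈ Icc t1 t4 := by
      have := (convex_Icc t1 t4) ha' hb' hl hm hlm
      simpa [smul_eq_mul] using this
    have h1 := (hasDerivWithinAt_iff_tendsto_slope' (by simp)).1 (hDrD _ hmem)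
    have h2 := (hasDerivWithinAt_iff_tendsto_slope' (by simp)).1 (hDrD _ ha')
    have h3 := (hasDerivWithinAt_iff_tendsto_slope' (by simp)).1 (hDrD _ hb')
    refine le_of_tendsto_of_tendsto h1 ((h2.const_mul l).add (h3.const_mul m)) ?_
    have hev : ∀ᶠ y in 𝓝[>] βs, y ∈ Ioo βs βr := Ioo_mem_nhdsGT hβsin.2
    filter_upwards [hev] with y hy
    have hyin : y ∈ Ioo βl βr := ⟨by linarith [hy.1, hβsin.1], hy.2⟩
    have hcv := (hconvρ y hyin As hAsm).2 ha' hb' hl hm hlm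
    simp only [smul_eq_mul] at hcv
    have hpos : 0 < y - βs := by linarith [hy.1]
    simp only [slope, vsub_eq_sub, smul_eq_mul, hg]
    rw [haff2 a' ha' b' hb' l m hl hm hlm]
    have hinv : 0 < (y - βs)⁻¹ := inv_pos.2 hpos
    have : (y - βs)⁻¹ * (F y As (l * a' + m * b') - (l * F βs As a' + m * F βs As b')) ≤
        (y - βs)⁻¹ * ((l * F y As a' + m * F y As b') - (l * F βs As a' + m * F βs As b')) :=
      mul_le_mul_of_nonneg_left (by linarith) hinv.le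
    calc _ ≤ _ := this
      _ = _ := by ring
  have hDlconc : ∀ a' ∈ Icc t1 t4, ∀ b' ∈ Icc t1 t4, ∀ l m : ℝ, 0 ≤ l → 0 ≤ m → l + m = 1 →
      l * Dl a' + m * Dl b' ≤ Dl (l * a' + m * b') := by
    intro a' ha' b' hb' l m hl hm hlm
    have hmem : l * a' + m * b' ∈ Icc t1 t4 := by
      have := (convex_Icc t1 t4) ha' hb' hl hm hlm
      simpa [smul_eq_mul] using this
    have h1 := (hasDerivWithinAt_iff_tendsto_slope' (by simp)).1 (hDlD _ hmem)
    have h2 := (hasDerivWithinAt_iff_tendsto_slope' (by simp)).1 (hDlD _ ha')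
    have h3 := (hasDerivWithinAt_iff_tendsto_slope' (by simp)).1 (hDlD _ hb')
    refine le_of_tendsto_of_tendsto ((h2.const_mul l).add (h3.const_mul m)) h1 ?_
    have hev : ∀ᶠ y in 𝓝[<] βs, y ∈ Ioo βl βs := Ioo_mem_nhdsLT hβsin.1
    filter_upwards [hev] with y hy
    have hyin : y ∈ Ioo βl βr := ⟨hy.1, by linarith [hy.2, hβsin.2]⟩
    have hcv := (hconvρ y hyin As hAsm).2 ha' hb' hl hm hlm
    simp only [smul_eq_mul] at hcv
    have hneg : y - βs < 0 := by linarith [hy.2]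
    simp only [slope, vsub_eq_sub, smul_eq_mul, hg]
    rw [haff2 a' ha' b' hb' l m hl hm hlm]
    have hinv : (y - βs)⁻¹ < 0 := inv_lt_zero.2 hneg
    have : (y - βs)⁻¹ * ((l * F y As a' + m * F y As b') - (l * F βs As a' + m * F βs As b')) ≤
        (y - βs)⁻¹ * (F y As (l * a' + m * b') - (l * F βs As a' + m * F βs As b')) :=
      mul_le_mul_of_nonpos_left (by linarith) hinv.le
    calc _ = _ := by ring
      _ ≤ _ := this
  -- derivative of `d · As`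
  have hΔL : t2 - t1 ≠ 0 := by linarith
  have hΔR : t4 - t3 ≠ 0 := by linarith
  set Sl : ℝ := (Dl t4 - Dl t3) / (t4 - t3) - (Dl t2 - Dl t1) / (t2 - t1) with hSl
  set Sr : ℝ := (Dr t4 - Dr t3) / (t4 - t3) - (Dr t2 - Dr t1) / (t2 - t1) with hSr
  have hSld : HasDerivWithinAt (fun β => d β As) Sl (Iio βs) βs :=
    (((hDlD t4 ht4).sub (hDlD t3 ht3)).div_const _).sub (((hDlD t2 ht2).sub (hDlD t1 ht1)).div_const _)
  have hSrd : HasDerivWithinAt (fun β => d β As) Sr (Ioi βs) βs :=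
    (((hDrD t4 ht4).sub (hDrD t3 ht3)).div_const _).sub (((hDrD t2 ht2).sub (hDrD t1 ht1)).div_const _)
  have hSl_le : Sl ≤ - (c0 * κ) := by
    have h1 := (hasDerivWithinAt_iff_tendsto_slope' (by simp)).1 hSld
    refine le_of_tendsto h1 ?_
    have hev : ∀ᶠ y in 𝓝[<] βs, y ∈ Ioo β1 βs := Ioo_mem_nhdsLT hβsne
    filter_upwards [hev] with y hy
    have h2 := hgrow y ⟨hy.1.le, hy.2⟩
    simp only [slope, vsub_eq_sub, smul_eq_mul]
    rw [hds, sub_zero]
    have hneg : y - βs < 0 := by linarith [hy.2]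
    have hinv : (y - βs)⁻¹ < 0 := inv_lt_zero.2 hneg
    have e : (y - βs)⁻¹ * (c0 * κ * (βs - y)) = - (c0 * κ) := by
      field_simp [ne_of_lt hneg]; ring
    rw [← e]
    exact mul_le_mul_of_nonpos_left h2 hinv.le
  have hSr_ge : 0 ≤ Sr := by
    have h1 := (hasDerivWithinAt_iff_tendsto_slope' (by simp)).1 hSrd
    refine ge_of_tendsto h1 ?_
    have hev : ∀ᶠ y in 𝓝[>] βs, y ∈ Ioo βs βr := Ioo_mem_nhdsGT hβsin.2
    filter_upwards [hev] with y hy
    have hyin : y ∈ Ioo βl βr := ⟨by linarith [hy.1, hβsin.1], hy.2⟩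
    have h2 := d_nonneg y hyin As hAsm
    simp only [slope, vsub_eq_sub, smul_eq_mul]
    rw [hds, sub_zero]
    exact mul_nonneg (inv_nonneg.2 (by linarith [hy.1])) h2
  -- the kink function
  set Γ : ℝ → ℝ := fun ρ => Dl ρ - Dr ρ with hΓ
  have Γ_nonneg : ∀ ρ ∈ Icc t1 t4, 0 ≤ Γ ρ := fun ρ hρ => sub_nonneg.2 (hDle ρ hρ)
  have Γ_conc : ∀ a' ∈ Icc t1 t4, ∀ b' ∈ Icc t1 t4, ∀ l m : ℝ, 0 ≤ l → 0 ≤ m → l + m = 1 →
      l * Γ a' + m * Γ b' ≤ Γ (l * a' + m * b') := by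
    intro a' ha' b' hb' l m hl hm hlm
    have h1 := hDrconv a' ha' b' hb' l m hl hm hlm
    have h2 := hDlconc a' ha' b' hb' l m hl hm hlm
    simp only [hΓ]
    linarith
  have hkink : 0 < Γ t2 ∨ 0 < Γ t3 := by
    by_contra hcon
    have hcon : Γ t2 ≤ 0 ∧ Γ t3 ≤ 0 := by
      rw [not_or, not_lt, not_lt] at hcon
      exact hcon
    have h2 : Γ t2 = 0 := le_antisymm hcon.1 (Γ_nonneg t2 ht2)
    have h3 : Γ t3 = 0 := le_antisymm hcon.2 (Γ_nonneg t3 ht3)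
    have h1 : 0 ≤ Γ t1 := Γ_nonneg t1 ht1
    have h4 : 0 ≤ Γ t4 := Γ_nonneg t4 ht4
    have e : Sl - Sr = (Γ t4 - Γ t3) / (t4 - t3) - (Γ t2 - Γ t1) / (t2 - t1) := by
      simp only [hSl, hSr, hΓ]
      field_simp
      ring
    rw [h2, h3] at e
    have e1 : 0 ≤ (Γ t4 - 0) / (t4 - t3) := div_nonneg (by linarith) (by linarith)
    have e2 : 0 ≤ (Γ t1) / (t2 - t1) := div_nonneg h1 (by linarith)
    have e3 : (0 - Γ t1) / (t2 - t1) = - (Γ t1 / (t2 - t1)) := by ring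
    rw [e3] at e
    have : 0 < c0 * κ := mul_pos hc0 hκpos
    linarith
  -- positivity on the open interval
  have hpos_of : ∀ τ ∈ Ioo t1 t4, 0 < Γ τ → ∀ ρ ∈ Ioo t1 t4, 0 < Γ ρ := by
    intro τ hτ hτpos ρ hρ
    rcases lt_trichotomy ρ τ with h | h | h
    · -- ρ between t1 and τ
      have hden : 0 < τ - t1 := by linarith [hτ.1]
      set m := (ρ - t1) / (τ - t1) with hm
      set l := (τ - ρ) / (τ - t1) with hl
      have hl0 : 0 ≤ l := div_nonneg (by linarith) hden.le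
      have hm0 : 0 < m := div_pos (by linarith [hρ.1]) hden
      have hlm : l + m = 1 := by
        rw [hl, hm]; field_simp; ring
      have hρe : l * t1 + m * τ = ρ := by
        rw [hl, hm]; field_simp; ring
      have := Γ_conc t1 ht1 τ ⟨hτ.1.le, hτ.2.le⟩ l m hl0 hm0.le hlm
      rw [hρe] at this
      have h1 : 0 ≤ l * Γ t1 := mul_nonneg hl0 (Γ_nonneg t1 ht1)
      have h2 : 0 < m * Γ τ := mul_pos hm0 hτpos
      linarith
    · rwa [h]
    · have hden : 0 < t4 - τ := by linarith [hτ.2]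
      set m := (ρ - τ) / (t4 - τ) with hm
      set l := (t4 - ρ) / (t4 - τ) with hl
      have hl0 : 0 < l := div_pos (by linarith [hρ.2]) hden
      have hm0 : 0 ≤ m := div_nonneg (by linarith) hden.le
      have hlm : l + m = 1 := by
        rw [hl, hm]; field_simp; ring
      have hρe : l * τ + m * t4 = ρ := by
        rw [hl, hm]; field_simp; ring
      have := Γ_conc τ ⟨hτ.1.le, hτ.2.le⟩ t4 ht4 l m hl0.le hm0 hlm
      rw [hρe] at this
      have h1 : 0 < l * Γ τ := mul_pos hl0 hτpos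
      have h2 : 0 ≤ m * Γ t4 := mul_nonneg hm0 (Γ_nonneg t4 ht4)
      linarith
  have hall : ∀ ρ ∈ Ioo t1 t4, 0 < Γ ρ := by
    rcases hkink with h | h
    · exact hpos_of t2 ⟨ht12, by linarith⟩ h
    · exact hpos_of t3 ⟨by linarith, ht34⟩ h
  refine ⟨βs, ⟨hβsne, hβs.2⟩, As, hAsm, ?_⟩
  intro ρ hρ
  have hρ' : ρ ∈ Icc t1 t4 := ⟨hρ.1.le, hρ.2.le⟩
  refine ⟨Dl ρ, Dr ρ, hDlD ρ hρ', hDrD ρ hρ', ?_⟩
  have := hall ρ hρ
  simp only [hΓ] at this
  linarith

/-- Rescaled kink: for `f b ρ = F (b * βs) As ρ / b`, one-sided derivatives at `b = 1`. -/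
theorem rescaled_kink {βs As ρ : ℝ} (hβs : 0 < βs) {Dl Dr : ℝ}
    (hl : HasDerivWithinAt (fun β => F β As ρ) Dl (Iio βs) βs)
    (hr : HasDerivWithinAt (fun β => F β As ρ) Dr (Ioi βs) βs) (hk : Dr < Dl) :
    ∃ Dl' Dr' : ℝ,
      HasDerivWithinAt (fun b => F (b * βs) As ρ / b) Dl' (Iio 1) 1 ∧
      HasDerivWithinAt (fun b => F (b * βs) As ρ / b) Dr' (Ioi 1) 1 ∧ Dr' < Dl' := by
  have hm : HasDerivAt (fun b : ℝ => b * βs) βs 1 := by
    simpa using (hasDerivAt_id (1 : ℝ)).mul_const βs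
  have e1 : (1 : ℝ) * βs = βs := one_mul βs
  have hl' : HasDerivWithinAt (fun β => F β As ρ) Dl (Iio βs) ((1 : ℝ) * βs) := by rwa [e1]
  have hr' : HasDerivWithinAt (fun β => F β As ρ) Dr (Ioi βs) ((1 : ℝ) * βs) := by rwa [e1]
  have hmapl : MapsTo (fun b : ℝ => b * βs) (Iio 1) (Iio βs) := by
    intro b hb
    simp only [mem_Iio] at hb ⊢
    nlinarith
  have hmapr : MapsTo (fun b : ℝ => b * βs) (Ioi 1) (Ioi βs) := by
    intro b hb
    simp only [mem_Ioi] at hb ⊢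
    nlinarith
  have hcl := HasDerivWithinAt.comp (1 : ℝ) hl' hm.hasDerivWithinAt hmapl
  have hcr := HasDerivWithinAt.comp (1 : ℝ) hr' hm.hasDerivWithinAt hmapr
  have hid : ∀ s : Set ℝ, HasDerivWithinAt (fun b : ℝ => b) 1 s 1 := fun s =>
    (hasDerivAt_id (1 : ℝ)).hasDerivWithinAt
  have hdl := hcl.div (hid (Iio 1)) one_ne_zero
  have hdr := hcr.div (hid (Ioi 1)) one_ne_zero
  refine ⟨_, _, hdl, hdr, ?_⟩
  simp only [Function.comp_def]
  have : Dr * βs < Dl * βs := mul_lt_mul_of_pos_right hk hβs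
  simpa using by linarith

end main

section rate

/-- Contact point: a convex function on `(0,∞)` which is affine on `[t1,t2]` and on `[t3,t4]` with
slopes `sL < μ < sR` has a supporting line of slope `μ` touching in `[t2,t3]`, strictly below the
graph to the right of the contact point. -/
theorem exists_contact {G : ℝ → ℝ} {t1 t2 t3 t4 sL sR μ : ℝ} (h0 : 0 < t1) (ht12 : t1 < t2)
    (ht23 : t2 ≤ t3) (ht34 : t3 < t4) (hG : ConvexOn ℝ (Ioi 0) G)
    (hL : ∀ σ ∈ Icc t1 t2, G σ = G t1 + sL * (σ - t1))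
    (hR : ∀ σ ∈ Icc t3 t4, G σ = G t3 + sR * (σ - t3))
    (hμL : sL < μ) (hμR : μ < sR) :
    ∃ ρ ∈ Icc t2 t3, ∃ c : ℝ, (∀ σ, 0 < σ → μ * σ + c ≤ G σ) ∧ G ρ = μ * ρ + c ∧
      ∀ σ, ρ < σ → μ * σ + c < G σ := by
  set φ : ℝ → ℝ := fun σ => G σ - μ * σ with hφ
  have hcont : ContinuousOn φ (Icc t2 t3) := by
    have h1 : ContinuousOn G (Ioi 0) := hG.continuousOn isOpen_Ioi
    have h2 : ContinuousOn G (Icc t2 t3) := h1.mono fun x hx => by
      simp only [mem_Ioi]; linarith [hx.1]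
    exact h2.sub (by fun_prop)
  have hne : (Icc t2 t3).Nonempty := ⟨t2, le_rfl, ht23⟩
  obtain ⟨ρ0, hρ0, hmin⟩ := isCompact_Icc.exists_isMinOn hne hcont
  set m := φ ρ0 with hm
  have hminIcc : ∀ σ ∈ Icc t2 t3, m ≤ φ σ := fun σ hσ => hmin hσ
  set K : Set ℝ := Icc t2 t3 ∩ φ ⁻¹' {m} with hK
  have hKcomp : IsCompact K := isCompact_Icc.of_isClosed_subset
    (hcont.preimage_isClosed_of_isClosed isClosed_Icc isClosed_singleton) inter_subset_left
  have hKne : K.Nonempty := ⟨ρ0, hρ0, rfl⟩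
  have hρmem := hKcomp.sSup_mem hKne
  set ρ := sSup K with hρdef
  have hρm : φ ρ = m := hρmem.2
  have hρI : ρ ∈ Icc t2 t3 := hρmem.1
  have hmax : ∀ σ ∈ K, σ ≤ ρ := fun σ hσ => le_csSup hKcomp.bddAbove hσ
  -- values around
  have hL2 : G t2 = G t1 + sL * (t2 - t1) := hL t2 ⟨ht12.le, le_rfl⟩
  have hR4 : G t4 = G t3 + sR * (t4 - t3) := hR t4 ⟨ht34.le, le_rfl⟩
  have ht2m : t2 ∈ Icc t2 t3 := ⟨le_rfl, ht23⟩
  have ht3m : t3 ∈ Icc t2 t3 := ⟨ht23, le_rfl⟩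
  have mem_pos : ∀ σ, 0 < σ → σ ∈ Ioi (0 : ℝ) := fun σ h => h
  have ht1pos : 0 < t1 := h0
  have ht2pos : 0 < t2 := by linarith
  have ht3pos : 0 < t3 := by linarith
  have ht4pos : 0 < t4 := by linarith
  -- left part
  have hleft : ∀ σ, 0 < σ → σ ≤ t2 → m ≤ φ σ := by
    intro σ hσ hσ2
    have hm2 : m ≤ φ t2 := hminIcc t2 ht2m
    rcases lt_or_ge σ t1 with h | h
    · have hs := hG.slope_mono_adjacent (mem_pos σ hσ) (mem_pos t2 ht2pos) h ht12
      have e : (G t2 - G t1) / (t2 - t1) = sL := by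
        rw [hL2]; field_simp [show t2 - t1 ≠ 0 by linarith]; ring
      rw [e, div_le_iff₀ (by linarith)] at hs
      simp only [hφ] at hm2 ⊢
      nlinarith
    · have e := hL σ ⟨h, hσ2⟩
      simp only [hφ] at hm2 ⊢
      nlinarith
  -- right part, strict
  have hright : ∀ σ, t3 < σ → m < φ σ := by
    intro σ hσ
    have hm3 : m ≤ φ t3 := hminIcc t3 ht3m
    rcases le_or_gt σ t4 with h | h
    · have e := hR σ ⟨hσ.le, h⟩
      simp only [hφ] at hm3 ⊢
      nlinarith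
    · have hs := hG.slope_mono_adjacent (mem_pos t3 ht3pos) (mem_pos σ (by linarith)) ht34 h
      have e : (G t4 - G t3) / (t4 - t3) = sR := by
        rw [hR4]; field_simp [show t4 - t3 ≠ 0 by linarith]; ring
      rw [e, le_div_iff₀ (by linarith)] at hs
      simp only [hφ] at hm3 ⊢
      nlinarith
  refine ⟨ρ, hρI, m, ?_, ?_, ?_⟩
  · intro σ hσ
    have : m ≤ φ σ := by
      rcases le_or_gt σ t2 with h | h
      · exact hleft σ hσ h
      · rcases le_or_gt σ t3 with h' | h'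
        · exact hminIcc σ ⟨h.le, h'⟩
        · exact (hright σ h').le
    simp only [hφ] at this
    linarith
  · simp only [hφ] at hρm
    linarith
  · intro σ hσ
    have : m < φ σ := by
      rcases le_or_gt σ t3 with h' | h'
      · have hσI : σ ∈ Icc t2 t3 := ⟨by linarith [hρI.1], h'⟩
        refine lt_of_le_of_ne (hminIcc σ hσI) ?_
        intro h
        have := hmax σ ⟨hσI, h.symm⟩
        linarith
      · exact hright σ h'
    simp only [hφ] at this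
    linarith

/-- **Module M, abstract form.** From the two bounds `F1 ≥ F2 + K (Γ σ² - w0 σ)` and, at any
contact point of a supporting line of `F2` lying in `[t2,t3]`,
`F1 ρ ≤ F2 ρ + K Γh (ρ² + e)`, we get a linear lower bound for the gap of `F1`. -/
theorem rate_abstract {F1 F2 : ℝ → ℝ} {t1 t2 t3 t4 K Γ Γh w0 e ℓ : ℝ}
    (h0 : 0 < t1) (ht12 : t1 < t2) (ht23 : t2 ≤ t3) (ht34 : t3 < t4)
    (hF1 : ConvexOn ℝ (Ioi 0) F1) (hF2 : ConvexOn ℝ (Ioi 0) F2)
    (hL2 : ∀ σ ∈ Icc t1 t2, F2 σ = F2 t1 + (F2 t2 - F2 t1) / (t2 - t1) * (σ - t1))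
    (hR2 : ∀ σ ∈ Icc t3 t4, F2 σ = F2 t3 + (F2 t4 - F2 t3) / (t4 - t3) * (σ - t3))
    (hgap : 0 < gap F2 t1 t2 t3 t4)
    (hK : 0 < K) (hΓ : Γ ≤ Γh) (hΓ0 : 0 ≤ Γ) (he : 0 ≤ e) (hw0 : 0 ≤ w0)
    (hℓ : 0 < ℓ) (hℓ1 : ℓ ≤ t2 - t1) (hℓ2 : ℓ ≤ t4 - t3)
    (hCS : ∀ σ, 0 < σ → F2 σ + K * (Γ * σ ^ 2 - w0 * σ) ≤ F1 σ)
    (hU4 : ∀ μ c ρ : ℝ, ρ ∈ Icc t2 t3 → (∀ σ, 0 < σ → μ * σ + c ≤ F2 σ) → F2 ρ = μ * ρ + c →
      (∀ σ, ρ < σ → μ * σ + c < F2 σ) → F1 ρ ≤ F2 ρ + K * (Γh * (ρ ^ 2 + e))) :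
    K * (Γ * (t4 - t1) - (((Γh - Γ) * t3 ^ 2 + Γh * e) * (2 / ℓ) + w0 * (t4 + t1) / ℓ)) ≤
      gap F1 t1 t2 t3 t4 := by
  set sL := (F2 t2 - F2 t1) / (t2 - t1) with hsL
  set sR := (F2 t4 - F2 t3) / (t4 - t3) with hsR
  have hss : sL < sR := by
    unfold gap at hgap
    linarith
  set μ := (sL + sR) / 2 with hμ
  obtain ⟨ρ, hρ, c, hsupp, htouch, hstrict⟩ :=
    exists_contact h0 ht12 ht23 ht34 hF2 hL2 hR2 (show sL < μ by rw [hμ]; linarith)
      (show μ < sR by rw [hμ]; linarith)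
  have hU := hU4 μ c ρ hρ hsupp htouch hstrict
  have ht1p : (0 : ℝ) < t1 := h0
  have ht4p : (0 : ℝ) < t4 := by linarith
  have hρp : 0 < ρ := by linarith [hρ.1]
  have hCS1 := hCS t1 ht1p
  have hCS4 := hCS t4 ht4p
  have hs1 := hsupp t1 ht1p
  have hs4 := hsupp t4 ht4p
  -- slopes
  have h1 : (F1 t4 - F1 ρ) / (t4 - ρ) ≤ (F1 t4 - F1 t3) / (t4 - t3) := by
    rcases eq_or_lt_of_le hρ.2 with h | h
    · rw [h]
    · have hI3 : t3 ∈ Ioi (0 : ℝ) := show (0:ℝ) < t3 by linarith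
      have hIρ : ρ ∈ Ioi (0 : ℝ) := hρp
      have hs := hF1.slope_mono_adjacent hIρ (show t4 ∈ Ioi (0:ℝ) from ht4p) h ht34
      -- slope[ρ,t4] is a mediant of slope[ρ,t3] and slope[t3,t4]
      rw [div_le_iff₀ (by linarith [hρ.2]), ]
      have hd1 : 0 < t3 - ρ := by linarith
      have hd2 : 0 < t4 - t3 := by linarith
      rw [div_le_iff₀ hd1] at hs
      have e1 : (F1 t4 - F1 t3) / (t4 - t3) * (t4 - ρ)
          = (F1 t4 - F1 t3) / (t4 - t3) * (t3 - ρ) + (F1 t4 - F1 t3) := by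
        field_simp [ne_of_gt hd2]; ring
      rw [e1]
      linarith
  have h2 : (F1 t2 - F1 t1) / (t2 - t1) ≤ (F1 ρ - F1 t1) / (ρ - t1) := by
    rcases eq_or_lt_of_le hρ.1 with h | h
    · rw [h]
    · have hIρ : ρ ∈ Ioi (0 : ℝ) := hρp
      have hs := hF1.slope_mono_adjacent (show t1 ∈ Ioi (0:ℝ) from ht1p) hIρ ht12 h
      have hd1 : 0 < t2 - t1 := by linarith
      have hd2 : 0 < ρ - t2 := by linarith
      rw [le_div_iff₀ (by linarith)]
      rw [le_div_iff₀ hd2] at hs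
      have e1 : (F1 t2 - F1 t1) / (t2 - t1) * (ρ - t1)
          = (F1 t2 - F1 t1) / (t2 - t1) * (ρ - t2) + (F1 t2 - F1 t1) := by
        field_simp [ne_of_gt hd1]; ring
      rw [e1]
      linarith
  have ha : ℓ ≤ t4 - ρ := by linarith [hρ.2]
  have hb : ℓ ≤ ρ - t1 := by linarith [hρ.1]
  have hapos : 0 < t4 - ρ := by linarith
  have hbpos : 0 < ρ - t1 := by linarith
  set a := t4 - ρ with ha_def
  set b := ρ - t1 with hb_def
  set E := (Γh - Γ) * ρ ^ 2 + Γh * e with hE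
  have hΓh0 : 0 ≤ Γh := le_trans hΓ0 hΓ
  have hE0 : 0 ≤ E := add_nonneg (mul_nonneg (by linarith) (sq_nonneg _)) (mul_nonneg hΓh0 he)
  -- differences of `F1`
  have hU' : F1 ρ ≤ μ * ρ + c + K * (Γh * (ρ ^ 2 + e)) := by rw [← htouch]; exact hU
  have key4 : K * (Γ * (t4 + ρ) * a - E - w0 * t4) ≤ F1 t4 - F1 ρ - μ * a := by
    have e1 : K * (Γ * (t4 + ρ) * a - E - w0 * t4)
        = K * (Γ * t4 ^ 2 - w0 * t4) - K * (Γh * (ρ ^ 2 + e)) := by
      rw [hE, ha_def]; ring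
    have e2 : μ * a = μ * t4 - μ * ρ := by rw [ha_def]; ring
    rw [e1, e2]
    linarith
  have key1 : F1 ρ - F1 t1 - μ * b ≤ K * (Γ * (ρ + t1) * b + E + w0 * t1) := by
    have e1 : K * (Γ * (ρ + t1) * b + E + w0 * t1)
        = K * (Γh * (ρ ^ 2 + e)) - K * (Γ * t1 ^ 2 - w0 * t1) := by
      rw [hE, hb_def]; ring
    have e2 : μ * b = μ * ρ - μ * t1 := by rw [hb_def]; ring
    rw [e1, e2]
    linarith
  have hX : K * (Γ * (t4 + ρ) - E / a - w0 * t4 / a) ≤ (F1 t4 - F1 ρ) / a - μ := by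
    have e1 : K * (Γ * (t4 + ρ) - E / a - w0 * t4 / a)
        = K * (Γ * (t4 + ρ) * a - E - w0 * t4) / a := by
      field_simp
    have e2 : (F1 t4 - F1 ρ) / a - μ = (F1 t4 - F1 ρ - μ * a) / a := by
      field_simp
    rw [e1, e2]
    exact div_le_div_of_nonneg_right key4 hapos.le
  have hY : (F1 ρ - F1 t1) / b - μ ≤ K * (Γ * (ρ + t1) + E / b + w0 * t1 / b) := by
    have e1 : K * (Γ * (ρ + t1) + E / b + w0 * t1 / b)
        = K * (Γ * (ρ + t1) * b + E + w0 * t1) / b := by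
      field_simp
    have e2 : (F1 ρ - F1 t1) / b - μ = (F1 ρ - F1 t1 - μ * b) / b := by
      field_simp
    rw [e1, e2]
    exact div_le_div_of_nonneg_right key1 hbpos.le
  -- size of the error terms
  have hE' : E ≤ (Γh - Γ) * t3 ^ 2 + Γh * e := by
    have : ρ ^ 2 ≤ t3 ^ 2 := by
      have h3 : ρ ≤ t3 := hρ.2
      nlinarith
    have h4 : (Γh - Γ) * ρ ^ 2 ≤ (Γh - Γ) * t3 ^ 2 :=
      mul_le_mul_of_nonneg_left this (by linarith)
    rw [hE]
    linarith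
  set E' := (Γh - Γ) * t3 ^ 2 + Γh * e with hE'def
  have hE'0 : 0 ≤ E' := le_trans hE0 hE'
  have hinva : E / a ≤ E' / ℓ :=
    div_le_div₀ hE'0 hE' hℓ ha
  have hinvb : E / b ≤ E' / ℓ :=
    div_le_div₀ hE'0 hE' hℓ hb
  have hwa : w0 * t4 / a ≤ w0 * t4 / ℓ :=
    div_le_div_of_nonneg_left (mul_nonneg hw0 ht4p.le) hℓ ha
  have hwb : w0 * t1 / b ≤ w0 * t1 / ℓ :=
    div_le_div_of_nonneg_left (mul_nonneg hw0 ht1p.le) hℓ hb
  have e3 : E' * (2 / ℓ) + w0 * (t4 + t1) / ℓ = E' / ℓ + E' / ℓ + w0 * t4 / ℓ + w0 * t1 / ℓ := by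
    field_simp; ring
  rw [e3]
  have hKmul : K * (Γ * (t4 - t1) - (E' / ℓ + E' / ℓ + w0 * t4 / ℓ + w0 * t1 / ℓ))
      ≤ K * (Γ * (t4 + ρ) - E / a - w0 * t4 / a) - K * (Γ * (ρ + t1) + E / b + w0 * t1 / b) := by
    rw [← mul_sub]
    apply mul_le_mul_of_nonneg_left _ hK.le
    have e4 : Γ * (t4 + ρ) - Γ * (ρ + t1) = Γ * (t4 - t1) := by ring
    linarith
  unfold gap
  calc K * (Γ * (t4 - t1) - (E' / ℓ + E' / ℓ + w0 * t4 / ℓ + w0 * t1 / ℓ))
      ≤ K * (Γ * (t4 + ρ) - E / a - w0 * t4 / a) - K * (Γ * (ρ + t1) + E / b + w0 * t1 / b) := hKmul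
    _ ≤ ((F1 t4 - F1 ρ) / a - μ) - ((F1 ρ - F1 t1) / b - μ) := sub_le_sub hX hY
    _ ≤ _ := by linarith

end rate

end Crest.Agent.TL.Selection
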