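import Crest.Agent.TL.AsmDefs
import Crest.Agent.TL.Selection
import Crest.Agent.TL.OneSided

/-!
# Top level assembly: S0209/S0210 from the main kink statement.
-/

set_option autoImplicit false

namespace Crest.Agent.TL.Asm

open Crest.ProbabilityR.Continuum Real Set Filter Topology
open Crest.Agent.TL.Gauss Crest.Agent.TL.Series Crest.Agent.TL.Potential
open Crest.Agent.TL.Num (A0 Ap Amax beta2 betaT g1 r2 Uof)

/-- The main statement. -/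
def MainStatement (cr : ℝ → ℝ) : Prop :=
  ∃ K0 : ℕ, 1 ≤ K0 ∧ ∃ βs ∈ Ioc (1:ℝ) beta2, ∃ As ∈ Icc A0 Ap, ∀ ρ ∈ Ioo g1 (7 / 4 * pp), ∃ Dl Dr : ℝ,
    HasDerivWithinAt (fun β => FF K0 cr β As ρ) Dl (Iio βs) βs ∧
    HasDerivWithinAt (fun β => FF K0 cr β As ρ) Dr (Ioi βs) βs ∧ Dr < Dl

/-- The final potential. -/
noncomputable def phiF (K0 : ℕ) (cr : ℝ → ℝ) (βs As r : ℝ) : ℝ := βs * phiA K0 cr As r

lemma energy_phiF {N : ℕ} (K0 : ℕ) (cr : ℝ → ℝ) (βs As : ℝ) (x : Fin N → Pt) :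
    energy (phiF K0 cr βs As) x = βs * energy (phiA K0 cr As) x :=
  energy_const_mul βs (phiA K0 cr As) x

lemma partitionFn_phiF (K0 : ℕ) (cr : ℝ → ℝ) (βs As L β : ℝ) (N : ℕ) :
    partitionFn (phiF K0 cr βs As) L N β = partitionFn (phiA K0 cr As) L N (β * βs) := by
  unfold partitionFn
  congr 1
  refine MeasureTheory.setIntegral_congr_fun
    (MeasurableSet.univ_pi fun _ => OneSided.measurableSet_cube L) fun x _ => ?_
  simp only [energy_phiF]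
  congr 1
  ring

/-- The common limit. -/
theorem tendsto_phiF {K0 : ℕ} {cr : ℝ → ℝ} (hc : CoreOK cr) (hK : 1 ≤ K0) {βs As β ρ : ℝ}
    (hβs : 0 < βs) (hAs0 : 0 ≤ As) (hAs : As ≤ Amax) (hβ : 0 < β) (hρ : 0 < ρ) :
    Tendsto (fun L : ℝ => -(1 / (β * L ^ 3)) *
        Real.log (partitionFn (phiF K0 cr βs As) L ⌊ρ * L ^ 3⌋₊ β))
      atTop (nhds (FF K0 cr (β * βs) As ρ / β)) := by
  have h := Thermo.tendsto_logZ (adm_phiA hc hK hAs0 hAs) (mul_pos hβ hβs).le hρ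
  have h2 := (h.const_mul (-(1 / β)))
  have e : FF K0 cr (β * βs) As ρ / β = -(1 / β) * Thermo.hFree (phiA K0 cr As) (β * βs) ρ := by
    unfold FF; field_simp
  rw [e]
  refine h2.congr fun L => ?_
  rw [partitionFn_phiF]
  by_cases hL : L = 0
  · subst hL; simp
  field_simp

/-- The final kink. -/
theorem kink_phiF {K0 : ℕ} {cr : ℝ → ℝ} {βs As ρ Dl Dr : ℝ} (hβs : 0 < βs)
    (hl : HasDerivWithinAt (fun β => FF K0 cr β As ρ) Dl (Iio βs) βs)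
    (hr : HasDerivWithinAt (fun β => FF K0 cr β As ρ) Dr (Ioi βs) βs) (hk : Dr < Dl) :
    ∃ Dl' Dr' : ℝ,
      HasDerivWithinAt (fun b => FF K0 cr (b * βs) As ρ / b) Dl' (Iio 1) 1 ∧
      HasDerivWithinAt (fun b => FF K0 cr (b * βs) As ρ / b) Dr' (Ioi 1) 1 ∧ Dr' < Dl' :=
  Selection.rescaled_kink (FF K0 cr) hβs hl hr hk

/-- Stability of the final potential. -/
theorem stable_phiF {K0 : ℕ} {cr : ℝ → ℝ} (hc : CoreOK cr) (hK : 1 ≤ K0) {βs As : ℝ}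
    (hβs : 0 < βs) (hAs0 : 0 ≤ As) (hAs : As ≤ Amax) (N : ℕ) (x : Fin N → Pt) :
    -(βs * (U₂ / 2)) * N ≤ energy (phiF K0 cr βs As) x := by
  rw [energy_phiF]
  have := (adm_phiA hc hK hAs0 hAs).stable N x
  have h2 := mul_le_mul_of_nonneg_left this hβs.le
  calc -(βs * (U₂ / 2)) * N = βs * (-(U₂ / 2) * N) := by ring
    _ ≤ _ := h2

lemma A0_le_Amax {A : ℝ} (hA : A ∈ Icc A0 Ap) : 0 ≤ A ∧ A ≤ Amax :=
  ⟨A0_pos.le.trans hA.1, hA.2.trans Ap_lt_Amax.le⟩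

lemma beta2_pos : (0:ℝ) < beta2 := by unfold beta2; positivity

/-- `phiF` with no core is `phiS`. -/
lemma phiF_zero (K0 : ℕ) (βs As : ℝ) :
    phiF K0 (fun _ => 0) βs As = phiS βs As Us U₂ r2 r2 K0 := by
  funext r
  unfold phiF phiA ss phiS
  simp

/-- `phiF` with core is `phiC`. -/
lemma phiF_core (K0 : ℕ) (βs As : ℝ) :
    phiF K0 (core r2) βs As = phiC βs As Us U₂ r2 r2 r2 K0 := by
  funext r
  rfl

/-- **S0209** from the main statement. -/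
theorem s0209_of_main (h : MainStatement (fun _ => 0)) :
    ∃ φ : ℝ → ℝ, Continuous φ ∧ (∃ M : ℝ, ∀ r : ℝ, |φ r| ≤ M) ∧
      (∃ B : ℝ, ∀ (N : ℕ) (x : Fin N → Crest.ProbabilityR.Continuum.Pt), -B * N ≤ Crest.ProbabilityR.Continuum.energy φ x) ∧
      (∃ C : ℝ, ∀ r : ℝ, 1 ≤ r → |φ r| ≤ C * r ^ (-(3 + 1 / 32 : ℝ))) ∧
      ∃ p η βc : ℝ, 0 < p ∧
        Filter.Tendsto (fun L : ℝ => (Crest.ProbabilityR.Continuum.packingNumber L : ℝ) / L ^ 3)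
          Filter.atTop (nhds p) ∧
        0 < η ∧ η ≤ 5 * p / 3 ∧ 7 / 8 ≤ βc ∧ βc ≤ 9 / 8 ∧
        ∃ f : ℝ → ℝ → ℝ,
          (∀ ρ : ℝ, 5 * p / 3 - η < ρ → ρ < 5 * p / 3 + η → ∀ β : ℝ, 0 < β →
            Filter.Tendsto (fun L : ℝ => -(1 / (β * L ^ 3)) *
                Real.log (Crest.ProbabilityR.Continuum.partitionFn φ L ⌊ρ * L ^ 3⌋₊ β))
              Filter.atTop (nhds (f β ρ))) ∧
          (∀ ρ : ℝ, 5 * p / 3 - η < ρ → ρ < 5 * p / 3 + η → ∃ Dl Dr : ℝ,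
            HasDerivWithinAt (fun β => f β ρ) Dl (Set.Iio βc) βc ∧
            HasDerivWithinAt (fun β => f β ρ) Dr (Set.Ioi βc) βc ∧ Dr < Dl) := by
  obtain ⟨K0, hK, βs, hβs, As, hAs, hkink⟩ := h
  have hβs0 : 0 < βs := by linarith [hβs.1]
  have hA := A0_le_Amax hAs
  have hc := coreOK_zero
  refine ⟨phiF K0 (fun _ => 0) βs As, ?_, ?_, ⟨βs * (U₂ / 2), stable_phiF hc hK hβs0 hA.1 hA.2⟩, ?_,
    pp, pp / 20, 1, pp_pos, Packing.tendsto_packingNumber, by have := pp_pos; positivity,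
    by have := pp_pos; linarith, by norm_num, by norm_num,
    fun β ρ => FF K0 (fun _ => 0) (β * βs) As ρ / β, ?_, ?_⟩
  · rw [phiF_zero]; exact continuous_phiS hK
  · rw [phiF_zero]; exact phiS_bounded hβs0.le hA.1 Us_pos.le U₂_pos.le hK
  · rw [phiF_zero]; exact phiS_decay hβs0.le hA.1 Us_pos.le U₂_pos.le hK r2_pos r2_pos r2_le_one
  · intro ρ h1 _ β hβ
    have hρ : 0 < ρ := by have := pp_pos; linarith
    exact tendsto_phiF hc hK hβs0 hA.1 hA.2 hβ hρ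
  · intro ρ h1 h2
    have hp := pp_pos
    have hg : g1 < pp / 2 := by
      have : g1 ≤ 1 / 4 := by unfold g1; norm_num
      linarith [pp_ge]
    have hρ : ρ ∈ Ioo g1 (7 / 4 * pp) := ⟨by linarith, by linarith⟩
    obtain ⟨Dl, Dr, hl, hr, hk⟩ := hkink ρ hρ
    exact kink_phiF hβs0 hl hr hk

/-- **S0210** from the main statement. -/
theorem s0210_of_main (h : MainStatement (core r2)) :
    ∃ φ : ℝ → ℝ, Measurable φ ∧
      (∀ a b : ℝ, 0 < a → a ≤ b → ∃ M : ℝ, ∀ r : ℝ, a ≤ r → r ≤ b → |φ r| ≤ M) ∧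
      Filter.Tendsto φ (nhdsWithin 0 (Set.Ioi 0)) Filter.atTop ∧
      (∃ r₁ r₂ a : ℝ, 0 < r₁ ∧ r₁ < r₂ ∧ 0 < a ∧ ∀ r : ℝ, r₁ ≤ r → r ≤ r₂ → φ r ≤ -a) ∧
      (∃ R : ℝ, 0 < R ∧ MeasureTheory.IntegrableOn (fun r : ℝ => r ^ 2 * |φ r|) (Set.Ioi R)) ∧
      Filter.Tendsto (fun r : ℝ => r ^ 3 * φ r) Filter.atTop (nhds 0) ∧
      (∃ B : ℝ, ∀ (N : ℕ) (x : Fin N → Crest.ProbabilityR.Continuum.Pt), Function.Injective x →
        -B * N ≤ Crest.ProbabilityR.Continuum.energy φ x) ∧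
      ∃ f : ℝ → ℝ → ℝ,
        (∀ ρ : ℝ, 0 < ρ → ∀ β : ℝ, 0 < β →
          Filter.Tendsto (fun L : ℝ => -(1 / (β * L ^ 3)) *
              Real.log (Crest.ProbabilityR.Continuum.partitionFn φ L ⌊ρ * L ^ 3⌋₊ β))
            Filter.atTop (nhds (f β ρ))) ∧
        ∃ ρ₁ ρ₂ βc : ℝ, 0 ≤ ρ₁ ∧ ρ₁ < ρ₂ ∧ 1 / 2 < βc ∧ βc < 3 / 2 ∧
          ∀ ρ : ℝ, ρ₁ < ρ → ρ < ρ₂ → ∃ Dl Dr : ℝ,
            HasDerivWithinAt (fun β => f β ρ) Dl (Set.Iio βc) βc ∧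
            HasDerivWithinAt (fun β => f β ρ) Dr (Set.Ioi βc) βc ∧ Dr < Dl := by
  obtain ⟨K0, hK, βs, hβs, As, hAs, hkink⟩ := h
  have hβs0 : 0 < βs := by linarith [hβs.1]
  have hA := A0_le_Amax hAs
  have hAs0 : 0 < As := lt_of_lt_of_le A0_pos hAs.1
  have hc := coreOK_core
  have hr21 := r2_le_one
  have hr20 := r2_pos
  refine ⟨phiF K0 (core r2) βs As, ?_, ?_, ?_, ?_, ?_, ?_,
    ⟨βs * (U₂ / 2), fun N x _ => stable_phiF hc hK hβs0 hA.1 hA.2 N x⟩,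
    fun β ρ => FF K0 (core r2) (β * βs) As ρ / β, ?_,
    g1, 7 / 4 * pp, 1, g1_pos.le, ?_, by norm_num, by norm_num, ?_⟩
  · rw [phiF_core]; exact measurable_phiC hK
  · intro a b ha hab
    rw [phiF_core]
    exact phiC_locally_bounded hβs0.le hA.1 Us_pos.le U₂_pos.le r2_pos hK a b ha hab
  · rw [phiF_core]; exact phiC_tendsto hβs0 hA.1 Us_pos.le U₂_pos.le hK
  · rw [phiF_core]; exact phiC_neg hβs0 hAs0 r2_pos hr21 r2_pos hr21 r2_pos hr21 hK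
  · refine ⟨2, by norm_num, ?_⟩
    rw [phiF_core]; exact phiC_integrable hβs0.le hA.1 r2_pos hr21 r2_pos hr21 r2_pos hr21 hK
  · rw [phiF_core]; exact phiC_cube r2_pos r2_pos hr21 r2_pos hr21 hK
  · intro ρ hρ β hβ
    exact tendsto_phiF hc hK hβs0 hA.1 hA.2 hβ hρ
  · have : g1 ≤ 1 / 4 := by unfold g1; norm_num
    linarith [pp_ge]
  · intro ρ h1 h2
    obtain ⟨Dl, Dr, hl, hr, hk⟩ := hkink ρ ⟨h1, h2⟩
    exact kink_phiF hβs0 hl hr hk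

end Crest.Agent.TL.Asm
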