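import Crest.Prelude.Def_UnitPacking

/-!
# Module P of the S0209 blueprint: the unit-separation packing density of cubes

`packingDensity = sup_{l ≥ 0} P(l) / (l + 1)^3`, where `P = packingNumber`.  We prove

* `1 ≤ packingDensity ≤ 8`,
* `P(L) / L^3 → packingDensity` as `L → ∞`,
* `packingDensity * L^3 ≤ P(L)` for `L > 0` and `P(L) ≤ packingDensity * (L + 1)^3` for `L ≥ 0`.

Only the Prelude and Mathlib are used.
-/

set_option autoImplicit false

namespace Crest.Agent.TL.Packing

open Crest.ProbabilityR.Continuum Filter Topology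

lemma abs_coord_le_dist (x y : Pt) (k : Fin 3) : |x k - y k| ≤ dist x y := by
  have h := PiLp.norm_apply_le (x - y) k
  simpa [dist_eq_norm, Real.norm_eq_abs] using h

lemma dist_lt_one_of_coord {x y : Pt} (h : ∀ k : Fin 3, |x k - y k| < 1 / 2) : dist x y < 1 := by
  rw [EuclideanSpace.dist_eq, Real.sqrt_lt' (by norm_num)]
  simp only [Fin.sum_univ_three, Real.dist_eq, sq_abs]
  have h0 := h 0
  have h1 := h 1
  have h2 := h 2
  have e : ∀ t : ℝ, |t| < 1 / 2 → t ^ 2 < 1 / 4 := by
    intro t ht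
    have := abs_lt.1 ht
    nlinarith
  have := e _ h0
  have := e _ h1
  have := e _ h2
  nlinarith

/-- Counting bound: at most `(2L+1)^3` points in the cube of side `L`. -/
lemma card_le_of_sep {L : ℝ} (hL : 0 ≤ L) (X : Finset Pt) (hc : ∀ x ∈ X, x ∈ cube L)
    (hs : ∀ x ∈ X, ∀ y ∈ X, x ≠ y → 1 ≤ dist x y) : (X.card : ℝ) ≤ (2 * L + 1) ^ 3 := by
  classical
  set m : ℕ := ⌊2 * L⌋₊ + 1 with hm
  have hcard : X.card ≤ m ^ 3 := by
    have := Finset.card_le_card_of_injOn
      (s := X) (t := Fintype.piFinset fun _ : Fin 3 => Finset.range m)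
      (fun x (i : Fin 3) => ⌊2 * x i⌋₊) ?_ ?_
    · simpa [Fintype.card_piFinset] using this
    · intro x hx
      simp only [Finset.mem_coe, Fintype.mem_piFinset, Finset.mem_range]
      intro i
      have hxi := (hc x (Finset.mem_coe.1 hx)) i
      have : ⌊2 * x i⌋₊ ≤ ⌊2 * L⌋₊ := Nat.floor_le_floor (by linarith [hxi.2])
      omega
    · intro x hx y hy hxy
      by_contra hne
      have hx' := Finset.mem_coe.1 hx
      have hy' := Finset.mem_coe.1 hy
      have h1 := hs x hx' y hy' hne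
      have : dist x y < 1 := by
        apply dist_lt_one_of_coord
        intro k
        have hx0 := ((hc x hx') k).1
        have hy0 := ((hc y hy') k).1
        have e : ⌊2 * x k⌋₊ = ⌊2 * y k⌋₊ := congrFun hxy k
        have a1 := Nat.floor_le (show (0 : ℝ) ≤ 2 * x k by linarith)
        have a2 := Nat.lt_floor_add_one (2 * x k)
        have b1 := Nat.floor_le (show (0 : ℝ) ≤ 2 * y k by linarith)
        have b2 := Nat.lt_floor_add_one (2 * y k)
        rw [e] at a1 a2
        rw [abs_lt]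
        constructor <;> linarith
      linarith
  have h2 : (m : ℝ) ≤ 2 * L + 1 := by
    rw [hm]; push_cast
    linarith [Nat.floor_le (show (0 : ℝ) ≤ 2 * L by linarith)]
  have h3 : ((X.card : ℕ) : ℝ) ≤ (m : ℝ) ^ 3 := by exact_mod_cast hcard
  exact h3.trans (pow_le_pow_left₀ (by positivity) h2 3)

lemma zero_mem_packingSet (L : ℝ) : 0 ∈ packingSet L :=
  ⟨∅, by simp, by simp, by simp⟩

lemma packingSet_bddAbove (L : ℝ) : BddAbove (packingSet L) := by
  classical
  refine ⟨(⌈2 * max L 0 + 1⌉₊) ^ 3, ?_⟩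
  rintro n ⟨X, rfl, hc, hs⟩
  have hL : 0 ≤ max L 0 := le_max_right _ _
  have hc' : ∀ x ∈ X, x ∈ cube (max L 0) := fun x hx k =>
    ⟨((hc x hx) k).1, ((hc x hx) k).2.trans (le_max_left _ _)⟩
  have h := card_le_of_sep hL X hc' hs
  have h2 : (2 * max L 0 + 1 : ℝ) ≤ (⌈2 * max L 0 + 1⌉₊ : ℝ) := Nat.le_ceil _
  have h3 : (X.card : ℝ) ≤ ((⌈2 * max L 0 + 1⌉₊ : ℕ) : ℝ) ^ 3 :=
    h.trans (pow_le_pow_left₀ (by positivity) h2 3)
  exact_mod_cast h3

/-- A configuration realising the packing number exists. -/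
lemma packingNumber_mem (L : ℝ) : packingNumber L ∈ packingSet L :=
  Nat.sSup_mem ⟨0, zero_mem_packingSet L⟩ (packingSet_bddAbove L)

lemma le_packingNumber {L : ℝ} {n : ℕ} (h : n ∈ packingSet L) : n ≤ packingNumber L :=
  le_csSup (packingSet_bddAbove L) h

lemma packingNumber_mono {L L' : ℝ} (h : L ≤ L') : packingNumber L ≤ packingNumber L' := by
  obtain ⟨X, hX, hc, hs⟩ := packingNumber_mem L
  exact le_packingNumber ⟨X, hX, fun x hx k => ⟨((hc x hx) k).1, ((hc x hx) k).2.trans h⟩, hs⟩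

lemma packingNumber_le (L : ℝ) (hL : 0 ≤ L) : (packingNumber L : ℝ) ≤ (2 * L + 1) ^ 3 := by
  obtain ⟨X, hX, hc, hs⟩ := packingNumber_mem L
  rw [← hX]
  exact card_le_of_sep hL X hc hs

lemma one_le_packingNumber_zero : 1 ≤ packingNumber 0 := by
  classical
  refine le_packingNumber ⟨{0}, by simp, ?_, ?_⟩
  · intro x hx k
    simp only [Finset.mem_singleton] at hx
    subst hx
    simp
  · intro x hx y hy hne
    simp only [Finset.mem_singleton] at hx hy
    subst hx; subst hy
    exact absurd rfl hne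

/-- The translation vector of the block with index `a`. -/
noncomputable def blockVec (s : ℝ) (a : Fin 3 → ℕ) : Pt :=
  WithLp.toLp 2 fun k => s * (a k : ℝ)

@[simp] lemma add_blockVec_apply (s : ℝ) (a : Fin 3 → ℕ) (x : Pt) (k : Fin 3) :
    (x + blockVec s a) k = x k + s * (a k : ℝ) := by
  simp [blockVec]

/-- Superadditivity: `k^3` translated copies of a configuration in a cube of side `l`. -/
lemma superadditive (l : ℝ) (hl : 0 ≤ l) (k : ℕ) (_hk : 1 ≤ k) :
    k ^ 3 * packingNumber l ≤ packingNumber ((k : ℝ) * (l + 1) - 1) := by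
  classical
  obtain ⟨X, hX, hc, hs⟩ := packingNumber_mem l
  -- all blocks
  let A : Finset (Fin 3 → ℕ) := Fintype.piFinset fun _ : Fin 3 => Finset.range k
  have hAcard : A.card = k ^ 3 := by simp [A, Fintype.card_piFinset]
  let f : (Fin 3 → ℕ) × Pt → Pt := fun p => p.2 + blockVec (l + 1) p.1
  have hsep : ∀ p ∈ A ×ˢ X, ∀ q ∈ A ×ˢ X, p ≠ q → 1 ≤ dist (f p) (f q) := by
    rintro ⟨a, x⟩ hp ⟨b, y⟩ hq hne
    simp only [Finset.mem_product] at hp hq
    by_cases hab : a = b
    · subst hab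
      have hxy : x ≠ y := fun h => hne (by rw [h])
      have : dist (f (a, x)) (f (a, y)) = dist x y := by simp [f, dist_add_right]
      rw [this]
      exact hs x hp.2 y hq.2 hxy
    · obtain ⟨i, hi⟩ := Function.ne_iff.1 hab
      refine le_trans ?_ (abs_coord_le_dist _ _ i)
      simp only [f, add_blockVec_apply]
      have hx := (hc x hp.2) i
      have hy := (hc y hq.2) i
      have hne' : (a i : ℝ) ≠ (b i : ℝ) := by exact_mod_cast hi
      rcases lt_or_gt_of_ne hi with h | h
      · have : (a i : ℝ) + 1 ≤ (b i : ℝ) := by exact_mod_cast h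
        rw [abs_sub_comm, le_abs]
        left
        nlinarith [hx.1, hx.2, hy.1, hy.2]
      · have : (b i : ℝ) + 1 ≤ (a i : ℝ) := by exact_mod_cast h
        rw [le_abs]
        left
        nlinarith [hx.1, hx.2, hy.1, hy.2]
  have hinj : Set.InjOn f (A ×ˢ X : Finset _) := by
    intro p hp q hq hpq
    by_contra hne
    have := hsep p hp q hq hne
    rw [hpq, dist_self] at this
    linarith
  have hcard : ((A ×ˢ X).image f).card = k ^ 3 * packingNumber l := by
    rw [Finset.card_image_of_injOn hinj, Finset.card_product, hAcard, hX]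
  rw [← hcard]
  refine le_packingNumber ⟨_, rfl, ?_, ?_⟩
  · intro z hz i
    obtain ⟨⟨a, x⟩, hp, rfl⟩ := Finset.mem_image.1 hz
    simp only [Finset.mem_product] at hp
    have hx := (hc x hp.2) i
    have ha : a i < k := by
      have := hp.1
      simp only [A, Fintype.mem_piFinset, Finset.mem_range] at this
      exact this i
    have ha' : (a i : ℝ) + 1 ≤ (k : ℝ) := by exact_mod_cast ha
    have ha0 : (0 : ℝ) ≤ (a i : ℝ) := by positivity
    simp only [f, add_blockVec_apply]
    constructor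
    · nlinarith [hx.1]
    · nlinarith [hx.2]
  · intro u hu v hv huv
    obtain ⟨p, hp, rfl⟩ := Finset.mem_image.1 hu
    obtain ⟨q, hq, rfl⟩ := Finset.mem_image.1 hv
    exact hsep p hp q hq fun h => huv (by rw [h])

/-- Subadditivity: a cube of side `m L` is covered by `m^3` cubes of side `L`. -/
lemma subadditive (L : ℝ) (hL : 0 < L) (m : ℕ) (hm : 1 ≤ m) :
    packingNumber ((m : ℝ) * L) ≤ m ^ 3 * packingNumber L := by
  classical
  obtain ⟨X, hX, hc, hs⟩ := packingNumber_mem ((m : ℝ) * L)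
  let A : Finset (Fin 3 → ℕ) := Fintype.piFinset fun _ : Fin 3 => Finset.range m
  have hAcard : A.card = m ^ 3 := by simp [A, Fintype.card_piFinset]
  let cell : Pt → (Fin 3 → ℕ) := fun x i => min ⌊x i / L⌋₊ (m - 1)
  have hcell : ∀ x ∈ X, cell x ∈ A := by
    intro x _
    simp only [A, Fintype.mem_piFinset, Finset.mem_range, cell]
    intro i
    omega
  have hcellprop : ∀ x ∈ X, ∀ i, L * (cell x i : ℝ) ≤ x i ∧ x i ≤ L * ((cell x i : ℝ) + 1) := by
    intro x hx i
    have hxi := (hc x hx) i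
    have h0 : 0 ≤ x i / L := div_nonneg hxi.1 hL.le
    have hfl := Nat.floor_le h0
    have hlt := Nat.lt_floor_add_one (x i / L)
    by_cases hmin : ⌊x i / L⌋₊ ≤ m - 1
    · have e : cell x i = ⌊x i / L⌋₊ := by simp [cell, hmin]
      rw [e]
      constructor
      · have := (le_div_iff₀ hL).1 hfl
        linarith
      · have := (div_lt_iff₀ hL).1 hlt
        nlinarith
    · have e : cell x i = m - 1 := by
        simp only [cell]; omega
      rw [e]
      have hm1 : ((m - 1 : ℕ) : ℝ) = (m : ℝ) - 1 := by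
        rw [Nat.cast_sub hm]; simp
      rw [hm1]
      have hfl2 : (m : ℝ) ≤ x i / L := by
        have : m ≤ ⌊x i / L⌋₊ := by omega
        have h3 : (m : ℝ) ≤ (⌊x i / L⌋₊ : ℝ) := by exact_mod_cast this
        linarith
      have hfl3 := (le_div_iff₀ hL).1 hfl2
      constructor
      · nlinarith
      · nlinarith [hxi.2]
  have hfib : ∀ a ∈ A, (X.filter fun x => cell x = a).card ≤ packingNumber L := by
    intro a _
    let g : Pt → Pt := fun x => x + WithLp.toLp 2 (fun k => -(L * (a k : ℝ)))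
    have hg : ∀ x, ∀ k : Fin 3, (g x) k = x k - L * (a k : ℝ) := by
      intro x k
      simp [g, sub_eq_add_neg]
    have hinj : Function.Injective g := fun x y h => add_right_cancel h
    rw [← Finset.card_image_of_injective _ hinj]
    refine le_packingNumber ⟨_, rfl, ?_, ?_⟩
    · intro z hz i
      obtain ⟨x, hx, rfl⟩ := Finset.mem_image.1 hz
      obtain ⟨hxX, hxa⟩ := Finset.mem_filter.1 hx
      have := hcellprop x hxX i
      rw [hxa] at this
      rw [hg]
      constructor
      · linarith [this.1]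
      · nlinarith [this.2]
    · intro u hu v hv huv
      obtain ⟨x, hx, rfl⟩ := Finset.mem_image.1 hu
      obtain ⟨y, hy, rfl⟩ := Finset.mem_image.1 hv
      have hxX := (Finset.mem_filter.1 hx).1
      have hyX := (Finset.mem_filter.1 hy).1
      have hne : x ≠ y := fun h => huv (by rw [h])
      have : dist (g x) (g y) = dist x y := by simp [g, dist_add_right]
      rw [this]
      exact hs x hxX y hyX hne
  calc packingNumber ((m : ℝ) * L) = X.card := hX.symm
    _ = ∑ a ∈ A, (X.filter fun x => cell x = a).card :=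
        Finset.card_eq_sum_card_fiberwise (fun x hx => hcell x hx)
    _ ≤ ∑ _a ∈ A, packingNumber L := Finset.sum_le_sum hfib
    _ = m ^ 3 * packingNumber L := by simp [hAcard]

/-- The set of all ratios `P(l) / (l+1)^3`, `l ≥ 0`. -/
def ratioSet : Set ℝ := {r | ∃ l : ℝ, 0 ≤ l ∧ r = (packingNumber l : ℝ) / (l + 1) ^ 3}

/-- The packing density of unit-separated point sets in cubes. -/
noncomputable def packingDensity : ℝ := sSup ratioSet

lemma ratioSet_bddAbove : BddAbove ratioSet := by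
  refine ⟨8, ?_⟩
  rintro r ⟨l, hl, rfl⟩
  have hpos : 0 < (l + 1) ^ 3 := by positivity
  rw [div_le_iff₀ hpos]
  have h := packingNumber_le l hl
  have : (2 * l + 1) ^ 3 ≤ 8 * (l + 1) ^ 3 := by
    have h1 : (2 * l + 1) ^ 3 ≤ (2 * (l + 1)) ^ 3 :=
      pow_le_pow_left₀ (by positivity) (by linarith) 3
    calc (2 * l + 1) ^ 3 ≤ (2 * (l + 1)) ^ 3 := h1
      _ = 8 * (l + 1) ^ 3 := by ring
  linarith

lemma ratioSet_nonempty : ratioSet.Nonempty := ⟨_, 0, le_rfl, rfl⟩

lemma packingDensity_le_eight : packingDensity ≤ 8 := by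
  refine csSup_le ratioSet_nonempty ?_
  rintro r ⟨l, hl, rfl⟩
  have hpos : 0 < (l + 1) ^ 3 := by positivity
  rw [div_le_iff₀ hpos]
  have h := packingNumber_le l hl
  have h1 : (2 * l + 1) ^ 3 ≤ (2 * (l + 1)) ^ 3 :=
    pow_le_pow_left₀ (by positivity) (by linarith) 3
  have h2 : (2 * (l + 1)) ^ 3 = 8 * (l + 1) ^ 3 := by ring
  linarith

lemma one_le_packingDensity : 1 ≤ packingDensity := by
  have h : (packingNumber 0 : ℝ) / ((0 : ℝ) + 1) ^ 3 ≤ packingDensity :=
    le_csSup ratioSet_bddAbove ⟨0, le_rfl, rfl⟩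
  have h1 : (1 : ℝ) ≤ (packingNumber 0 : ℝ) := by exact_mod_cast one_le_packingNumber_zero
  simp only [zero_add, one_pow, div_one] at h
  linarith

/-- `P(L) ≤ p (L+1)^3`. -/
lemma packingNumber_le_density (L : ℝ) (hL : 0 ≤ L) :
    (packingNumber L : ℝ) ≤ packingDensity * (L + 1) ^ 3 := by
  have h : (packingNumber L : ℝ) / (L + 1) ^ 3 ≤ packingDensity :=
    le_csSup ratioSet_bddAbove ⟨L, hL, rfl⟩
  have hpos : 0 < (L + 1) ^ 3 := by positivity
  rwa [div_le_iff₀ hpos] at h

/-- The key comparison: `(L/(l+1))^3 P(l) ≤ P(L)`. -/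
lemma ratio_mul_le (l L : ℝ) (hl : 0 ≤ l) (hL : 0 < L) :
    (packingNumber l : ℝ) / (l + 1) ^ 3 * L ^ 3 ≤ packingNumber L := by
  set a : ℝ := L / (l + 1) with ha
  have hl1 : 0 < l + 1 := by linarith
  have ha0 : 0 ≤ a := by positivity
  -- for every `m`, `⌊a m⌋^3 P(l) ≤ m^3 P(L)`
  have key : ∀ m : ℕ, 1 ≤ m →
      ((⌊a * (m : ℝ)⌋₊ : ℝ) / (m : ℝ)) ^ 3 * (packingNumber l : ℝ) ≤ (packingNumber L : ℝ) := by
    intro m hm
    have hm0 : (0 : ℝ) < m := by exact_mod_cast hm
    set k : ℕ := ⌊a * (m : ℝ)⌋₊ with hk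
    have hkle : (k : ℝ) * (l + 1) ≤ (m : ℝ) * L := by
      have h1 : (k : ℝ) ≤ a * (m : ℝ) := Nat.floor_le (by positivity)
      calc (k : ℝ) * (l + 1) ≤ a * (m : ℝ) * (l + 1) := by
            exact mul_le_mul_of_nonneg_right h1 hl1.le
        _ = (m : ℝ) * L := by rw [ha]; field_simp
    have hnat : k ^ 3 * packingNumber l ≤ m ^ 3 * packingNumber L := by
      rcases Nat.eq_zero_or_pos k with h0 | h0
      · rw [h0]; simp
      · calc k ^ 3 * packingNumber l ≤ packingNumber ((k : ℝ) * (l + 1) - 1) :=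
              superadditive l hl k h0
          _ ≤ packingNumber ((m : ℝ) * L) := packingNumber_mono (by linarith)
          _ ≤ m ^ 3 * packingNumber L := subadditive L hL m hm
    have hreal : (k : ℝ) ^ 3 * (packingNumber l : ℝ) ≤ (m : ℝ) ^ 3 * (packingNumber L : ℝ) := by
      exact_mod_cast hnat
    have hm3 : (0 : ℝ) < (m : ℝ) ^ 3 := by positivity
    rw [div_pow, div_mul_eq_mul_div, div_le_iff₀ hm3]
    linarith
  have hlim : Tendsto (fun m : ℕ => ((⌊a * (m : ℝ)⌋₊ : ℝ) / (m : ℝ)) ^ 3 * (packingNumber l : ℝ))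
      atTop (𝓝 (a ^ 3 * (packingNumber l : ℝ))) := by
    have h0 : Tendsto (fun x : ℝ => (⌊a * x⌋₊ : ℝ) / x) atTop (𝓝 a) :=
      tendsto_nat_floor_mul_div_atTop ha0
    have h1 : Tendsto (fun m : ℕ => ((⌊a * (m : ℝ)⌋₊ : ℝ) / (m : ℝ))) atTop (𝓝 a) :=
      h0.comp tendsto_natCast_atTop_atTop
    exact (h1.pow 3).mul_const _
  have hle : a ^ 3 * (packingNumber l : ℝ) ≤ (packingNumber L : ℝ) := by
    refine le_of_tendsto hlim ?_
    filter_upwards [eventually_ge_atTop 1] with m hm using key m hm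
  have e : (packingNumber l : ℝ) / (l + 1) ^ 3 * L ^ 3 = a ^ 3 * (packingNumber l : ℝ) := by
    rw [ha, div_pow]; ring
  rw [e]; exact hle

/-- `p L^3 ≤ P(L)`. -/
lemma density_mul_le_packingNumber (L : ℝ) (hL : 0 < L) :
    packingDensity * L ^ 3 ≤ packingNumber L := by
  have hpos : 0 < L ^ 3 := by positivity
  have : packingDensity ≤ (packingNumber L : ℝ) / L ^ 3 := by
    refine csSup_le ratioSet_nonempty ?_
    rintro r ⟨l, hl, rfl⟩
    rw [le_div_iff₀ hpos]
    exact ratio_mul_le l L hl hL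
  rwa [le_div_iff₀ hpos] at this

/-- The packing density exists: `P(L) / L^3 → p`. -/
theorem tendsto_packingNumber :
    Tendsto (fun L : ℝ => (packingNumber L : ℝ) / L ^ 3) atTop (𝓝 packingDensity) := by
  have hup : Tendsto (fun L : ℝ => packingDensity * (1 + L⁻¹) ^ 3) atTop (𝓝 packingDensity) := by
    have h : Tendsto (fun L : ℝ => L⁻¹) atTop (𝓝 0) := tendsto_inv_atTop_zero
    have h2 : Tendsto (fun L : ℝ => (1 + L⁻¹) ^ 3) atTop (𝓝 ((1 + 0) ^ 3)) :=
      (tendsto_const_nhds.add h).pow 3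
    simpa using h2.const_mul packingDensity
  refine tendsto_of_tendsto_of_tendsto_of_le_of_le' tendsto_const_nhds hup ?_ ?_
  · filter_upwards [eventually_gt_atTop 0] with L hL
    have hpos : 0 < L ^ 3 := by positivity
    rw [le_div_iff₀ hpos]
    exact density_mul_le_packingNumber L hL
  · filter_upwards [eventually_gt_atTop 0] with L hL
    have hpos : 0 < L ^ 3 := by positivity
    rw [div_le_iff₀ hpos]
    have h := packingNumber_le_density L hL.le
    have e : packingDensity * (1 + L⁻¹) ^ 3 * L ^ 3 = packingDensity * (L + 1) ^ 3 := by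
      field_simp
    rw [e]; exact h

/-- Summary of the module. -/
theorem exists_density :
    ∃ p : ℝ, 1 ≤ p ∧ p ≤ 8 ∧
      Tendsto (fun L : ℝ => (packingNumber L : ℝ) / L ^ 3) atTop (𝓝 p) ∧
      (∀ L : ℝ, 0 < L → p * L ^ 3 ≤ packingNumber L) ∧
      (∀ L : ℝ, 0 ≤ L → (packingNumber L : ℝ) ≤ p * (L + 1) ^ 3) :=
  ⟨packingDensity, one_le_packingDensity, packingDensity_le_eight, tendsto_packingNumber,
    density_mul_le_packingNumber, packingNumber_le_density⟩

end Crest.Agent.TL.Packing
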