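import Crest.Agent.TL.Cells
import Crest.Agent.TL.Packing
import Crest.Agent.TL.Gauss

/-!
# S0209 blueprint, module B (trial states): lower bounds for `partitionFn`

* `partitionFn_ge_of_sets`: `n` pairwise disjoint sets `S i` in the cube, energy at most `E` whenever
  the particles occupy the sets in any order: `∏ vol (S i) * exp (-β E) ≤ Z`.
  The `n!` orders cancel the `1/n!`.
* `volume_box`: the box `∏ [c k, c k + b]` has volume `b³`.
* `trial_singles`: packing points scaled by `sep`, one particle per site: `b^(3n) ≤ Z(φ, ℓ, n, β)`.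
* `trial_doubled`: two particles per site, at offset `τ` along the first axis:
  `b^(6m) * exp (-β U m) ≤ Z(φ, ℓ, 2m, β)`.
* `log` forms with the packing density.
-/

set_option autoImplicit false

namespace Crest.Agent.TL.Trial

open MeasureTheory Finset
open Crest.ProbabilityR.Continuum Crest.Agent.TL.Cells

/-- **Generic trial lower bound.** -/
theorem partitionFn_ge_of_sets {φ : ℝ → ℝ} (hφ : Measurable φ) {B : ℝ}
    (hst : ∀ (k : ℕ) (y : Fin k → Pt), -B * k ≤ energy φ y) {β : ℝ} (hβ : 0 ≤ β) {ℓ : ℝ} {n : ℕ}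
    (S : Fin n → Set Pt) (hS : ∀ i, MeasurableSet (S i)) (hsub : ∀ i, S i ⊆ cube ℓ)
    (hdisj : ∀ i j, i ≠ j → Disjoint (S i) (S j)) {E : ℝ}
    (hE : ∀ σ : Equiv.Perm (Fin n), ∀ x : Fin n → Pt, (∀ i, x i ∈ S (σ i)) → energy φ x ≤ E) :
    (∏ i, volume.real (S i)) * Real.exp (-β * E) ≤ partitionFn φ ℓ n β := by
  classical
  have hvolS : ∀ i, volume (S i) ≠ ⊤ := fun i =>
    ne_top_of_le_ne_top (volume_cube_ne_top ℓ) (measure_mono (hsub i))
  set D : Set (Fin n → Pt) := Set.pi Set.univ (fun _ : Fin n => cube ℓ) with hD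
  let A : Equiv.Perm (Fin n) → Set (Fin n → Pt) := fun σ => Set.pi Set.univ (fun i => S (σ i))
  have hAm : ∀ σ, MeasurableSet (A σ) := fun σ =>
    MeasurableSet.univ_pi fun i => hS (σ i)
  have hAsub : ∀ σ, A σ ⊆ D := fun σ x hx i _ => hsub (σ i) (hx i (Set.mem_univ i))
  have hAdisj : ∀ σ τ : Equiv.Perm (Fin n), σ ≠ τ → Disjoint (A σ) (A τ) := by
    intro σ τ hne
    obtain ⟨i, hi⟩ : ∃ i, σ i ≠ τ i := by
      by_contra h
      push Not at h
      exact hne (Equiv.ext h)
    rw [Set.disjoint_left]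
    intro x hx hx'
    exact Set.disjoint_left.mp (hdisj _ _ hi) (hx i (Set.mem_univ i)) (hx' i (Set.mem_univ i))
  have hint : IntegrableOn (fun y : Fin n → Pt => Real.exp (-β * energy φ y)) D :=
    integrableOn_gibbs hφ hst hβ (volume_cube_ne_top ℓ) n
  have hvolA : ∀ σ, volume.real (A σ) = ∏ i, volume.real (S i) := by
    intro σ
    simp only [A, Measure.real, volume_pi, Measure.pi_pi]
    rw [ENNReal.toReal_prod]
    exact Equiv.prod_comp σ (fun i => (volume (S i)).toReal)
  have hvolAfin : ∀ σ, volume (A σ) ≠ ⊤ := by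
    intro σ
    simp only [A, volume_pi, Measure.pi_pi]
    exact (ENNReal.prod_lt_top fun i _ => lt_top_iff_ne_top.2 (hvolS (σ i))).ne
  have hpiece : ∀ σ, Real.exp (-β * E) * ∏ i, volume.real (S i) ≤
      ∫ x in A σ, Real.exp (-β * energy φ x) := by
    intro σ
    rw [← hvolA σ, mul_comm, ← smul_eq_mul]
    refine setIntegral_ge_of_const_le (hAm σ) (hvolAfin σ) ?_ (hint.mono_set (hAsub σ))
    intro x hx
    apply Real.exp_le_exp.2
    have := hE σ x (fun i => hx i (Set.mem_univ i))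
    nlinarith
  have hsum : ∑ σ : Equiv.Perm (Fin n), ∫ x in A σ, Real.exp (-β * energy φ x) ≤
      ∫ x in D, Real.exp (-β * energy φ x) := by
    rw [← integral_biUnion_finset (Finset.univ) (fun σ _ => hAm σ)
      (fun σ _ τ _ hne => hAdisj σ τ hne) (fun σ _ => hint.mono_set (hAsub σ))]
    refine setIntegral_mono_set hint
      (Filter.Eventually.of_forall fun _ => (Real.exp_pos _).le) ?_
    apply LE.le.eventuallyLE
    intro x hx
    obtain ⟨σ, hxσ⟩ := Set.mem_iUnion.mp hx
    obtain ⟨_, hxσ'⟩ := Set.mem_iUnion.mp hxσ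
    exact hAsub σ hxσ'
  have hcard : ∑ _σ : Equiv.Perm (Fin n), (Real.exp (-β * E) * ∏ i, volume.real (S i)) =
      (n.factorial : ℝ) * (Real.exp (-β * E) * ∏ i, volume.real (S i)) := by
    rw [Finset.sum_const, Finset.card_univ, Fintype.card_perm, Fintype.card_fin, nsmul_eq_mul]
  have hfact : (0 : ℝ) < n.factorial := by exact_mod_cast Nat.factorial_pos n
  unfold partitionFn
  rw [one_div, ← div_eq_inv_mul, le_div_iff₀ hfact]
  calc (∏ i, volume.real (S i)) * Real.exp (-β * E) * (n.factorial : ℝ)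
      = ∑ _σ : Equiv.Perm (Fin n), (Real.exp (-β * E) * ∏ i, volume.real (S i)) := by
        rw [hcard]; ring
    _ ≤ ∑ σ : Equiv.Perm (Fin n), ∫ x in A σ, Real.exp (-β * energy φ x) :=
        Finset.sum_le_sum fun σ _ => hpiece σ
    _ ≤ _ := hsum

/-- The closed box `∏ [c k, c k + b]`. -/
def box (c : Pt) (b : ℝ) : Set Pt := {x | ∀ k : Fin 3, c k ≤ x k ∧ x k ≤ c k + b}

lemma measurableSet_box (c : Pt) (b : ℝ) : MeasurableSet (box c b) := by
  have : box c b = ⋂ k : Fin 3, ({x : Pt | c k ≤ x k} ∩ {x : Pt | x k ≤ c k + b}) := by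
    ext x; simp [box]
  rw [this]
  refine MeasurableSet.iInter fun k => ?_
  have hc : Continuous (fun x : Pt => x k) := by fun_prop
  exact (isClosed_le continuous_const hc).measurableSet.inter
    (isClosed_le hc continuous_const).measurableSet

/-- The box has volume `b³`. -/
lemma volume_box (c : Pt) {b : ℝ} (hb : 0 ≤ b) : volume.real (box c b) = b ^ 3 := by
  have hmp := EuclideanSpace.volume_preserving_symm_measurableEquiv_toLp (Fin 3)
  have hpre : box c b = (MeasurableEquiv.toLp 2 (Fin 3 → ℝ)).symm ⁻¹' Set.pi Set.univ (fun k : Fin 3 => Set.Icc (c k) (c k + b)) := by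
    ext x
    constructor
    · intro h k _
      exact h k
    · intro h k
      exact h k (Set.mem_univ k)
  have hv : volume (box c b) = volume (Set.pi Set.univ (fun k : Fin 3 => Set.Icc (c k) (c k + b))) := by
    rw [hpre]
    exact hmp.measure_preimage_equiv _
  simp only [Measure.real]
  rw [hv, volume_pi, Measure.pi_pi]
  simp only [Real.volume_Icc, add_sub_cancel_left]
  rw [ENNReal.toReal_prod]
  simp [ENNReal.toReal_ofReal hb]

/-- Points of a box are within `2 b` of the corner. -/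
lemma dist_le_of_mem_box {c x : Pt} {b : ℝ} (hb : 0 ≤ b) (hx : x ∈ box c b) : dist x c ≤ 2 * b := by
  rw [EuclideanSpace.dist_eq]
  have h1 : ∀ k : Fin 3, dist (x k) (c k) ^ 2 ≤ b ^ 2 := by
    intro k
    have := hx k
    rw [Real.dist_eq]
    have h2 : |x k - c k| ≤ b := by
      rw [abs_le]; constructor <;> linarith [this.1, this.2]
    exact pow_le_pow_left₀ (abs_nonneg _) h2 2
  have h2 : ∑ k : Fin 3, dist (x k) (c k) ^ 2 ≤ (2 * b) ^ 2 := by
    calc ∑ k : Fin 3, dist (x k) (c k) ^ 2 ≤ ∑ _k : Fin 3, b ^ 2 := Finset.sum_le_sum fun k _ => h1 k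
      _ = 3 * b ^ 2 := by simp
      _ ≤ (2 * b) ^ 2 := by nlinarith [sq_nonneg b]
  exact Real.sqrt_le_iff.2 ⟨by positivity, h2⟩

/-- Energy bound from pair bounds: if pairs in `S i`, `S j` (`i ≠ j`) contribute at most `c i j`,
then a configuration occupying the sets in the order `σ` has energy at most the half sum of `c`. -/
lemma energy_le_of_pairs {φ : ℝ → ℝ} {n : ℕ} (S : Fin n → Set Pt) (c : Fin n → Fin n → ℝ)
    (hc : ∀ i j, i ≠ j → ∀ u ∈ S i, ∀ v ∈ S j, φ (dist u v) ≤ c i j)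
    (σ : Equiv.Perm (Fin n)) (x : Fin n → Pt) (hx : ∀ i, x i ∈ S (σ i)) :
    2 * energy φ x ≤ ∑ i, ∑ j ∈ univ.erase i, c i j := by
  classical
  have h := Crest.Agent.TL.Gauss.two_energy_add_diag φ x
  have hsplit : ∀ i, ∑ k, φ (dist (x i) (x k)) =
      φ 0 + ∑ k ∈ univ.erase i, φ (dist (x i) (x k)) := by
    intro i
    rw [← Finset.add_sum_erase univ _ (Finset.mem_univ i), dist_self]
  have h2 : 2 * energy φ x = ∑ i, ∑ k ∈ univ.erase i, φ (dist (x i) (x k)) := by
    have : ∑ i, ∑ k, φ (dist (x i) (x k)) =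
        (n : ℝ) * φ 0 + ∑ i, ∑ k ∈ univ.erase i, φ (dist (x i) (x k)) := by
      simp only [hsplit, Finset.sum_add_distrib]
      simp
    linarith
  rw [h2]
  calc ∑ i, ∑ k ∈ univ.erase i, φ (dist (x i) (x k))
      ≤ ∑ i, ∑ k ∈ univ.erase i, c (σ i) (σ k) := by
        refine Finset.sum_le_sum fun i _ => Finset.sum_le_sum fun k hk => ?_
        have hne : k ≠ i := (Finset.mem_erase.mp hk).1
        exact hc (σ i) (σ k) (fun h => hne (σ.injective h).symm) _ (hx i) _ (hx k)
    _ = ∑ i, ∑ j ∈ univ.erase i, c i j := by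
        rw [← Equiv.sum_comp σ (fun i => ∑ j ∈ univ.erase i, c i j)]
        refine Finset.sum_congr rfl fun i _ => ?_
        refine Finset.sum_bij (fun k _ => σ k) ?_ ?_ ?_ ?_
        · intro k hk
          exact Finset.mem_erase.mpr ⟨fun h => (Finset.mem_erase.mp hk).1 (σ.injective h),
            Finset.mem_univ _⟩
        · intro a _ b _ h; exact σ.injective h
        · intro b hb
          refine ⟨σ.symm b, Finset.mem_erase.mpr ⟨fun h => ?_, Finset.mem_univ _⟩, by simp⟩
          apply (Finset.mem_erase.mp hb).1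
          rw [← h]; simp
        · intro _ _; rfl

/-- The point with the given coordinates. -/
noncomputable def pt (f : Fin 3 → ℝ) : Pt := WithLp.toLp 2 f

@[simp] lemma pt_apply (f : Fin 3 → ℝ) (k : Fin 3) : pt f k = f k := rfl

/-- The translation vector `(τ, 0, 0)`. -/
noncomputable def offset (τ : ℝ) : Pt := pt (fun k => if k = 0 then τ else 0)

lemma norm_offset {τ : ℝ} (hτ : 0 ≤ τ) : ‖offset τ‖ = τ := by
  rw [EuclideanSpace.norm_eq, Fin.sum_univ_three]
  simp [offset, Real.sqrt_sq_eq_abs, abs_of_nonneg hτ]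

/-- Sets from boxes at scaled packing points are far apart. -/
lemma dist_ge_of_boxes {c c' u v : Pt} {b : ℝ} (hb : 0 ≤ b) (hu : u ∈ box c b) (hv : v ∈ box c' b) :
    dist c c' - 4 * b ≤ dist u v := by
  have h1 := dist_le_of_mem_box hb hu
  have h2 := dist_le_of_mem_box hb hv
  have h3 := dist_triangle4 c u v c'
  rw [dist_comm c u] at h3
  linarith

lemma dist_le_of_boxes {c c' u v : Pt} {b : ℝ} (hb : 0 ≤ b) (hu : u ∈ box c b) (hv : v ∈ box c' b) :
    dist u v ≤ dist c c' + 4 * b := by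
  have h1 := dist_le_of_mem_box hb hu
  have h2 := dist_le_of_mem_box hb hv
  have h3 := dist_triangle4 u c c' v
  rw [dist_comm c' v] at h3
  linarith

/-- `n ≤ P L` gives `n` distinct points of a packing. -/
lemma exists_packing_points {L : ℝ} (hL : 0 ≤ L) {n : ℕ} (hn : n ≤ packingNumber L) :
    ∃ e : Fin n → Pt, (∀ i, e i ∈ cube L) ∧ ∀ i j, i ≠ j → 1 ≤ dist (e i) (e j) := by
  classical
  obtain ⟨X, hc, h1, h2⟩ := Crest.Agent.TL.Packing.packingNumber_mem L
  obtain ⟨Y, hYX, hY⟩ := Finset.exists_subset_card_eq (s := X) (n := n) (by rw [hc]; exact hn)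
  let f : Fin n ≃ Y := (Finset.equivFinOfCardEq hY).symm
  refine ⟨fun i => (f i : Pt), fun i => h1 _ (hYX (f i).2), fun i j hij => ?_⟩
  apply h2 _ (hYX (f i).2) _ (hYX (f j).2)
  intro h
  exact hij (f.injective (Subtype.ext h))

/-- **Singles**: one particle in each box around `n` scaled packing points. -/
theorem trial_singles {φ : ℝ → ℝ} (hφ : Measurable φ) {B : ℝ}
    (hst : ∀ (k : ℕ) (y : Fin k → Pt), -B * k ≤ energy φ y) {β : ℝ} (hβ : 0 ≤ β)
    {R sep b L ℓ : ℝ} {n : ℕ} (hb : 0 ≤ b) (hL : 0 ≤ L) (hR : 0 < R) (hsep : R + 4 * b ≤ sep)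
    (hfar : ∀ r, R ≤ r → φ r ≤ 0) (hn : n ≤ packingNumber L) (hℓ : sep * L + b ≤ ℓ) :
    b ^ (3 * n) ≤ partitionFn φ ℓ n β := by
  classical
  obtain ⟨e, he, hesep⟩ := exists_packing_points hL hn
  have hsep0 : 0 < sep := by linarith
  let S : Fin n → Set Pt := fun i => box (sep • e i) b
  have hfarS : ∀ i j, i ≠ j → ∀ u ∈ S i, ∀ v ∈ S j, R ≤ dist u v := by
    intro i j hij u hu v hv
    have h1 := dist_ge_of_boxes hb hu hv
    rw [dist_smul₀, Real.norm_eq_abs, abs_of_pos hsep0] at h1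
    have h2 := hesep i j hij
    nlinarith
  have h := partitionFn_ge_of_sets hφ hst hβ (ℓ := ℓ) S (fun i => measurableSet_box _ _)
    (by
      intro i x hx k
      have h1 := he i k
      have h2 := hx k
      simp only [PiLp.smul_apply, smul_eq_mul] at h2
      constructor
      · have : 0 ≤ sep * e i k := mul_nonneg hsep0.le h1.1
        linarith [h2.1]
      · have : sep * e i k ≤ sep * L := mul_le_mul_of_nonneg_left h1.2 hsep0.le
        linarith [h2.2])
    (by
      intro i j hij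
      rw [Set.disjoint_left]
      intro u hu hu'
      have := hfarS i j hij u hu u hu'
      rw [dist_self] at this
      linarith)
    (E := 0)
    (by
      intro σ x hx
      unfold energy
      refine Finset.sum_nonpos fun p _ => hfar _ ?_
      refine hfarS (σ p.1.1) (σ p.1.2) ?_ _ (hx _) _ (hx _)
      intro h
      exact absurd (σ.injective h) (ne_of_lt p.2))
  have hprod : ∏ i, volume.real (S i) = b ^ (3 * n) := by
    simp only [S, volume_box _ hb]
    simp [pow_mul]
  rwa [hprod, mul_zero, Real.exp_zero, mul_one] at h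

/-- **Doubled sites**: two particles per site at offset `τ`. -/
theorem trial_doubled {φ : ℝ → ℝ} (hφ : Measurable φ) {B : ℝ}
    (hst : ∀ (k : ℕ) (y : Fin k → Pt), -B * k ≤ energy φ y) {β : ℝ} (hβ : 0 ≤ β)
    {R sep b τ U L ℓ : ℝ} {m : ℕ} (hb : 0 ≤ b) (hL : 0 ≤ L) (hR : 0 < R) (hτ : 4 * b < τ)
    (hsep : R + τ + 4 * b ≤ sep) (hfar : ∀ r, R ≤ r → φ r ≤ 0)
    (htwin : ∀ r, τ - 4 * b ≤ r → r ≤ τ + 4 * b → φ r ≤ U) (hU : 0 ≤ U)
    (hn : m ≤ packingNumber L) (hℓ : sep * L + τ + b ≤ ℓ) :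
    b ^ (6 * m) * Real.exp (-β * (m * U)) ≤ partitionFn φ ℓ (m * 2) β := by
  classical
  obtain ⟨e, he, hesep⟩ := exists_packing_points hL hn
  have hτ0 : 0 ≤ τ := by linarith
  have hsep0 : 0 < sep := by linarith
  let I : Fin (m * 2) ≃ Fin m × Fin 2 := finProdFinEquiv.symm
  -- corners
  let cc : Fin m × Fin 2 → Pt := fun q => sep • e q.1 + ((q.2 : ℕ) : ℝ) • offset τ
  let S : Fin (m * 2) → Set Pt := fun i => box (cc (I i)) b
  have hsecond : ∀ s : Fin 2, ((s : ℕ) : ℝ) = 0 ∨ ((s : ℕ) : ℝ) = 1 := by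
    intro s
    fin_cases s <;> simp
  have hnormsec : ∀ s : Fin 2, ‖((s : ℕ) : ℝ) • offset τ‖ ≤ τ := by
    intro s
    rw [norm_smul, norm_offset hτ0, Real.norm_eq_abs]
    rcases hsecond s with h | h <;> rw [h] <;> simp
    exact hτ0
  -- different sites are far
  have hfarS : ∀ i j, (I i).1 ≠ (I j).1 → ∀ u ∈ S i, ∀ v ∈ S j, R ≤ dist u v := by
    intro i j hij u hu v hv
    have h1 := dist_ge_of_boxes hb hu hv
    have h2 := hesep _ _ hij
    have h3 : sep ≤ dist (sep • e (I i).1) (sep • e (I j).1) := by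
      rw [dist_smul₀, Real.norm_eq_abs, abs_of_pos hsep0]
      nlinarith
    have h4 : dist (sep • e (I i).1) (sep • e (I j).1) ≤ dist (cc (I i)) (cc (I j)) + τ := by
      -- only the difference of the two offsets counts
      have h7 : sep • e (I i).1 - sep • e (I j).1 =
          (cc (I i) - cc (I j)) + (((I j).2 : ℕ) - ((I i).2 : ℕ) : ℝ) • offset τ := by
        simp only [cc]
        rw [sub_smul]
        abel
      rw [dist_eq_norm, dist_eq_norm, h7]
      refine (norm_add_le _ _).trans ?_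
      have h8 : ‖(((I j).2 : ℕ) - ((I i).2 : ℕ) : ℝ) • offset τ‖ ≤ τ := by
        rw [norm_smul, norm_offset hτ0, Real.norm_eq_abs]
        have : |(((I j).2 : ℕ) - ((I i).2 : ℕ) : ℝ)| ≤ 1 := by
          rcases hsecond (I j).2 with h | h <;> rcases hsecond (I i).2 with h' | h' <;>
            rw [h, h'] <;> norm_num
        nlinarith
      linarith
    linarith
  -- same site, different bit: twin distance
  have htw : ∀ i j, i ≠ j → (I i).1 = (I j).1 → ∀ u ∈ S i, ∀ v ∈ S j,
      τ - 4 * b ≤ dist u v ∧ dist u v ≤ τ + 4 * b := by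
    intro i j hij hs u hu v hv
    have hbit : (I i).2 ≠ (I j).2 := by
      intro h
      apply hij
      apply I.injective
      exact Prod.ext hs h
    have hd : dist (cc (I i)) (cc (I j)) = τ := by
      simp only [cc]
      rw [hs, dist_add_left, dist_eq_norm, ← sub_smul, norm_smul, norm_offset hτ0, Real.norm_eq_abs]
      have : |(((I i).2 : ℕ) - ((I j).2 : ℕ) : ℝ)| = 1 := by
        have h0 : ((I i).2 : ℕ) ≠ ((I j).2 : ℕ) := fun h => hbit (Fin.ext h)
        have h1 := (I i).2.isLt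
        have h2 := (I j).2.isLt
        have : (((I i).2 : ℕ) = 0 ∧ ((I j).2 : ℕ) = 1) ∨ (((I i).2 : ℕ) = 1 ∧ ((I j).2 : ℕ) = 0) := by
          omega
        rcases this with ⟨a, c⟩ | ⟨a, c⟩ <;> rw [a, c] <;> norm_num
      rw [this, one_mul]
    have h1 := dist_ge_of_boxes hb hu hv
    have h2 := dist_le_of_boxes hb hu hv
    rw [hd] at h1 h2
    exact ⟨h1, h2⟩
  let c : Fin (m * 2) → Fin (m * 2) → ℝ := fun i j => if (I j).1 = (I i).1 then U else 0
  have hpair : ∀ i j, i ≠ j → ∀ u ∈ S i, ∀ v ∈ S j, φ (dist u v) ≤ c i j := by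
    intro i j hij u hu v hv
    simp only [c]
    split_ifs with h
    · have := htw i j hij h.symm u hu v hv
      exact htwin _ this.1 this.2
    · exact hfar _ (hfarS i j (fun h' => h h'.symm) u hu v hv)
  -- the double sum of `c`
  have hsum : ∑ i, ∑ j ∈ univ.erase i, c i j = ((m * 2 : ℕ) : ℝ) * U := by
    have hone : ∀ i : Fin (m * 2), ∑ j ∈ univ.erase i, c i j = U := by
      intro i
      have h1 : ∑ j, c i j = c i i + ∑ j ∈ univ.erase i, c i j :=
        (Finset.add_sum_erase univ _ (Finset.mem_univ i)).symm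
      have h2 : ∑ j, c i j = 2 * U := by
        simp only [c]
        rw [← Equiv.sum_comp I.symm, Fintype.sum_prod_type]
        simp only [Equiv.apply_symm_apply, Fin.sum_univ_two]
        rw [Finset.sum_eq_single (I i).1]
        · simp; ring
        · intro b _ hb; simp [hb]
        · simp
      have h3 : c i i = U := by simp [c]
      linarith
    simp [hone]
  have hE : ∀ σ : Equiv.Perm (Fin (m * 2)), ∀ x : Fin (m * 2) → Pt, (∀ i, x i ∈ S (σ i)) →
      energy φ x ≤ m * U := by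
    intro σ x hx
    have := energy_le_of_pairs S c hpair σ x hx
    rw [hsum] at this
    push_cast at this
    linarith
  have h := partitionFn_ge_of_sets hφ hst hβ (ℓ := ℓ) S (fun i => measurableSet_box _ _)
    (by
      intro i x hx k
      have h1 := he (I i).1 k
      have h2 := hx k
      have hoff : 0 ≤ (offset τ) k ∧ (offset τ) k ≤ τ := by
        simp only [offset, pt_apply]
        split_ifs
        · exact ⟨hτ0, le_rfl⟩
        · exact ⟨le_rfl, hτ0⟩
      have hcoord : cc (I i) k = sep * e (I i).1 k + (((I i).2 : ℕ) : ℝ) * (offset τ) k := by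
        simp [cc]
      rw [hcoord] at h2
      have hs0 : 0 ≤ (((I i).2 : ℕ) : ℝ) * (offset τ) k := mul_nonneg (by positivity) hoff.1
      have hs1 : (((I i).2 : ℕ) : ℝ) * (offset τ) k ≤ τ := by
        rcases hsecond (I i).2 with h | h <;> rw [h]
        · simpa using hτ0
        · simpa using hoff.2
      constructor
      · have : 0 ≤ sep * e (I i).1 k := mul_nonneg hsep0.le h1.1
        linarith [h2.1]
      · have : sep * e (I i).1 k ≤ sep * L := mul_le_mul_of_nonneg_left h1.2 hsep0.le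
        linarith [h2.2])
    (by
      intro i j hij
      rw [Set.disjoint_left]
      intro u hu hu'
      by_cases hs : (I i).1 = (I j).1
      · have := (htw i j hij hs u hu u hu').1
        rw [dist_self] at this
        linarith
      · have := hfarS i j hs u hu u hu'
        rw [dist_self] at this
        linarith)
    hE
  have hprod : ∏ i, volume.real (S i) = b ^ (6 * m) := by
    simp only [S, volume_box _ hb]
    rw [Finset.prod_const, Finset.card_univ, Fintype.card_fin, ← pow_mul]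
    congr 1
    ring
  rwa [hprod] at h

/-- Log form of `trial_singles`. -/
theorem log_trial_singles {φ : ℝ → ℝ} (hφ : Measurable φ) {B : ℝ}
    (hst : ∀ (k : ℕ) (y : Fin k → Pt), -B * k ≤ energy φ y) {β : ℝ} (hβ : 0 ≤ β)
    {R sep b L ℓ : ℝ} {n : ℕ} (hb : 0 < b) (hL : 0 ≤ L) (hR : 0 < R) (hsep : R + 4 * b ≤ sep)
    (hfar : ∀ r, R ≤ r → φ r ≤ 0) (hn : n ≤ packingNumber L) (hℓ : sep * L + b ≤ ℓ) :
    3 * (n : ℝ) * Real.log b ≤ Real.log (partitionFn φ ℓ n β) := by
  have h := trial_singles hφ hst hβ hb.le hL hR hsep hfar hn hℓ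
  have hpos : 0 < b ^ (3 * n) := by positivity
  have := Real.log_le_log hpos h
  rw [Real.log_pow] at this
  push_cast at this
  exact this

/-- Log form of `trial_doubled`. -/
theorem log_trial_doubled {φ : ℝ → ℝ} (hφ : Measurable φ) {B : ℝ}
    (hst : ∀ (k : ℕ) (y : Fin k → Pt), -B * k ≤ energy φ y) {β : ℝ} (hβ : 0 ≤ β)
    {R sep b τ U L ℓ : ℝ} {m : ℕ} (hb : 0 < b) (hL : 0 ≤ L) (hR : 0 < R) (hτ : 4 * b < τ)
    (hsep : R + τ + 4 * b ≤ sep) (hfar : ∀ r, R ≤ r → φ r ≤ 0)
    (htwin : ∀ r, τ - 4 * b ≤ r → r ≤ τ + 4 * b → φ r ≤ U) (hU : 0 ≤ U)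
    (hn : m ≤ packingNumber L) (hℓ : sep * L + τ + b ≤ ℓ) :
    3 * ((m * 2 : ℕ) : ℝ) * Real.log b - β * (m * U) ≤ Real.log (partitionFn φ ℓ (m * 2) β) := by
  have h := trial_doubled hφ hst hβ hb.le hL hR hτ hsep hfar htwin hU hn hℓ
  have hpos : 0 < b ^ (6 * m) * Real.exp (-β * (m * U)) := by positivity
  have := Real.log_le_log hpos h
  rw [Real.log_mul (by positivity) (Real.exp_pos _).ne', Real.log_pow, Real.log_exp] at this
  push_cast at this ⊢
  linarith

open Filter Topology in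
/-- Tiles for a target density `y < κ p / sep³`: for all large integers `ℓ` (cube side `ℓ`, tile
`t = ℓ + 2`) there is `m`, at most the packing number of `(ℓ - d)/sep`, with `m κ / t³` in
`[y, y + κ/t³]`. -/
theorem eventually_tile {κ : ℕ} (hκ : 0 < κ) {sep d y : ℝ} (hsep : 0 < sep) (hy0 : 0 ≤ y)
    (hy : y * sep ^ 3 < κ * Crest.Agent.TL.Packing.packingDensity) :
    ∀ᶠ ℓ : ℕ in atTop, ∃ m : ℕ, d ≤ ℓ ∧
      y ≤ (m * κ : ℝ) / ((ℓ : ℝ) + 2) ^ 3 ∧
      (m * κ : ℝ) / ((ℓ : ℝ) + 2) ^ 3 ≤ y + κ / ((ℓ : ℝ) + 2) ^ 3 ∧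
      m ≤ packingNumber (((ℓ : ℝ) - d) / sep) := by
  set p := Crest.Agent.TL.Packing.packingDensity with hp
  have hκ' : (0 : ℝ) < κ := by exact_mod_cast hκ
  let G : ℝ → ℝ := fun u => p * ((1 - d * u) / sep) ^ 3 - y * (1 + 2 * u) ^ 3 / κ - u ^ 3
  have hG : Continuous G := by
    simp only [G]
    fun_prop
  have hG0 : 0 < G 0 := by
    simp only [G]
    have h1 : y / κ < p / sep ^ 3 := by
      rw [div_lt_div_iff₀ hκ' (by positivity)]
      linarith
    have h2 : p * ((1 - d * 0) / sep) ^ 3 - y * (1 + 2 * 0) ^ 3 / κ - 0 ^ 3 = p / sep ^ 3 - y / κ := by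
      field_simp
      ring
    rw [h2]
    linarith
  have hev : ∀ᶠ u in 𝓝 (0 : ℝ), 0 < G u := hG.continuousAt.eventually (lt_mem_nhds hG0)
  have htend : Tendsto (fun ℓ : ℕ => 1 / (ℓ : ℝ)) atTop (𝓝 0) := tendsto_one_div_atTop_nhds_zero_nat
  have hev2 := htend.eventually hev
  have hevd : ∀ᶠ ℓ : ℕ in atTop, d < (ℓ : ℝ) := (tendsto_natCast_atTop_atTop).eventually_gt_atTop d
  filter_upwards [hev2, hevd, eventually_ge_atTop 1] with ℓ hℓG hℓd hℓ1
  have hx : (0 : ℝ) < ℓ := by exact_mod_cast hℓ1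
  set t : ℝ := (ℓ : ℝ) + 2 with ht
  have htpos : 0 < t := by positivity
  let m := ⌈y * t ^ 3 / κ⌉₊
  have hnn : 0 ≤ y * t ^ 3 / κ := by positivity
  have hm1 : y * t ^ 3 / κ ≤ m := Nat.le_ceil _
  have hm2 : (m : ℝ) < y * t ^ 3 / κ + 1 := Nat.ceil_lt_add_one hnn
  refine ⟨m, hℓd.le, ?_, ?_, ?_⟩
  · rw [le_div_iff₀ (by positivity)]
    have := (div_le_iff₀ hκ').mp hm1
    linarith
  · rw [div_le_iff₀ (by positivity)]
    have h3 : (y + κ / t ^ 3) * t ^ 3 = y * t ^ 3 + κ := by
      field_simp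
    rw [h3]
    have h4 : (m : ℝ) * κ < (y * t ^ 3 / κ + 1) * κ := mul_lt_mul_of_pos_right hm2 hκ'
    have h5 : (y * t ^ 3 / κ + 1) * κ = y * t ^ 3 + κ := by
      field_simp
    linarith
  · have hL : 0 < ((ℓ : ℝ) - d) / sep := div_pos (by linarith) hsep
    have h6 := Crest.Agent.TL.Packing.density_mul_le_packingNumber _ hL
    have h7 : (m : ℝ) ≤ p * (((ℓ : ℝ) - d) / sep) ^ 3 := by
      have h8 : 0 < G (1 / (ℓ : ℝ)) := hℓG
      have h9 : (ℓ : ℝ) ^ 3 * G (1 / (ℓ : ℝ)) =
          p * (((ℓ : ℝ) - d) / sep) ^ 3 - y * t ^ 3 / κ - 1 := by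
        simp only [G, ht]
        field_simp
      have h10 : 0 < (ℓ : ℝ) ^ 3 * G (1 / (ℓ : ℝ)) := by positivity
      rw [h9] at h10
      linarith
    have h11 : (m : ℝ) ≤ packingNumber (((ℓ : ℝ) - d) / sep) := h7.trans h6
    exact_mod_cast h11

end Crest.Agent.TL.Trial
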