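import Crest.Agent.TL.AsmDefs
import Crest.Agent.TL.OneSided
import Crest.Agent.TL.Trial

/-!
# S0209 blueprint, W4: the concrete trial lower bounds

`ts β A Γ w₀ y b ≤ hFree φ_A β y` at `(y,b) = (.9p,.01), (.99p,.001), (y_T,b_T)` and
`td β A Γ w₀ U y_D b_D ≤ hFree φ_A β y_D`, from the packing trials (one particle per site, two
particles per site) and the one-sided bound `os_limit`.

The boxes have side `b`, and two points of two boxes deviate from the corners' distance by at most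
`√3 b ≤ 2 b`; this sharper form of `Trial.trial_singles`, `Trial.trial_doubled` is needed for the
numbers (`b_D = r₂/4`).
-/

set_option autoImplicit false

namespace Crest.Agent.TL.Asm

open Crest.ProbabilityR.Continuum Real Set Filter Topology MeasureTheory
open Crest.Agent.TL.Gauss Crest.Agent.TL.Series Crest.Agent.TL.Potential
open Crest.Agent.TL.Cells Crest.Agent.TL.Trial
open Crest.Agent.TL.Num (A0 Ap Amax r2 ts td yD bD yT bT eta0)

namespace TrialConcrete

/-- Two points of two boxes: the deviation from the corners is at most `2 b`. -/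
lemma norm_dev_le {c c' u v : Pt} {b : ℝ} (hb : 0 ≤ b) (hu : u ∈ box c b) (hv : v ∈ box c' b) :
    ‖(u - c) - (v - c')‖ ≤ 2 * b := by
  rw [EuclideanSpace.norm_eq]
  have h1 : ∀ k : Fin 3, ‖((u - c) - (v - c')) k‖ ^ 2 ≤ b ^ 2 := by
    intro k
    have h2 := hu k
    have h3 := hv k
    rw [Real.norm_eq_abs, sq_abs]
    have h4 : ((u - c) - (v - c')) k = (u k - c k) - (v k - c' k) := by simp
    rw [h4]
    have h5 : |(u k - c k) - (v k - c' k)| ≤ b := by
      rw [abs_le]; constructor <;> linarith [h2.1, h2.2, h3.1, h3.2]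
    have := pow_le_pow_left₀ (abs_nonneg _) h5 2
    rwa [sq_abs] at this
  have h2 : ∑ k : Fin 3, ‖((u - c) - (v - c')) k‖ ^ 2 ≤ (2 * b) ^ 2 := by
    calc ∑ k : Fin 3, ‖((u - c) - (v - c')) k‖ ^ 2 ≤ ∑ _k : Fin 3, b ^ 2 :=
          Finset.sum_le_sum fun k _ => h1 k
      _ = 3 * b ^ 2 := by simp
      _ ≤ (2 * b) ^ 2 := by nlinarith [sq_nonneg b]
  exact Real.sqrt_le_iff.2 ⟨by positivity, h2⟩

lemma dist_ge_boxes {c c' u v : Pt} {b : ℝ} (hb : 0 ≤ b) (hu : u ∈ box c b) (hv : v ∈ box c' b) :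
    dist c c' - 2 * b ≤ dist u v := by
  have h1 := norm_dev_le hb hu hv
  have h2 : c - c' = (u - v) - ((u - c) - (v - c')) := by abel
  have h3 : ‖c - c'‖ ≤ ‖u - v‖ + ‖(u - c) - (v - c')‖ := by
    rw [h2]; exact norm_sub_le _ _
  rw [dist_eq_norm, dist_eq_norm]
  linarith

lemma dist_le_boxes {c c' u v : Pt} {b : ℝ} (hb : 0 ≤ b) (hu : u ∈ box c b) (hv : v ∈ box c' b) :
    dist u v ≤ dist c c' + 2 * b := by
  have h1 := norm_dev_le hb hu hv
  have h2 : u - v = (c - c') + ((u - c) - (v - c')) := by abel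
  have h3 : ‖u - v‖ ≤ ‖c - c'‖ + ‖(u - c) - (v - c')‖ := by
    rw [h2]; exact norm_add_le _ _
  rw [dist_eq_norm, dist_eq_norm]
  linarith

/-- **Singles**, sharp form. -/
theorem trial_singles' {φ : ℝ → ℝ} (hφ : Measurable φ) {B : ℝ}
    (hst : ∀ (k : ℕ) (y : Fin k → Pt), -B * k ≤ energy φ y) {β : ℝ} (hβ : 0 ≤ β)
    {R sep b L ℓ : ℝ} {n : ℕ} (hb : 0 ≤ b) (hL : 0 ≤ L) (hR : 0 < R) (hsep : R + 2 * b ≤ sep)
    (hfar : ∀ r, R ≤ r → φ r ≤ 0) (hn : n ≤ packingNumber L) (hℓ : sep * L + b ≤ ℓ) :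
    b ^ (3 * n) ≤ partitionFn φ ℓ n β := by
  classical
  obtain ⟨e, he, hesep⟩ := exists_packing_points hL hn
  have hsep0 : 0 < sep := by linarith
  let S : Fin n → Set Pt := fun i => box (sep • e i) b
  have hfarS : ∀ i j, i ≠ j → ∀ u ∈ S i, ∀ v ∈ S j, R ≤ dist u v := by
    intro i j hij u hu v hv
    have h1 := dist_ge_boxes hb hu hv
    rw [dist_smul₀, Real.norm_eq_abs, abs_of_pos hsep0] at h1
    have h2 := hesep i j hij
    nlinarith
  have h := partitionFn_ge_of_sets hφ hst hβ (ℓ := ℓ) S (fun i => measurableSet_box _ _)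
    (by
      intro i x hx k
      have h1 := he i k
      have h2 := hx k
      simp only [PiLp.smul_apply, smul_eq_mul] at h2
      constructor
      · have : 0 ≤ sep * e i k := mul_nonneg hsep0.le h1.1
        linarith [h2.1]
      · have : sep * e i k ≤ sep * L := mul_le_mul_of_nonneg_left h1.2 hsep0.le
        linarith [h2.2])
    (by
      intro i j hij
      rw [Set.disjoint_left]
      intro u hu hu'
      have := hfarS i j hij u hu u hu'
      rw [dist_self] at this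
      linarith)
    (E := 0)
    (by
      intro σ x hx
      unfold energy
      refine Finset.sum_nonpos fun p _ => hfar _ ?_
      refine hfarS (σ p.1.1) (σ p.1.2) ?_ _ (hx _) _ (hx _)
      intro h
      exact absurd (σ.injective h) (ne_of_lt p.2))
  have hprod : ∏ i, volume.real (S i) = b ^ (3 * n) := by
    simp only [S, volume_box _ hb]
    simp [pow_mul]
  rwa [hprod, mul_zero, Real.exp_zero, mul_one] at h

/-- **Doubled sites**, sharp form. -/
theorem trial_doubled' {φ : ℝ → ℝ} (hφ : Measurable φ) {B : ℝ}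
    (hst : ∀ (k : ℕ) (y : Fin k → Pt), -B * k ≤ energy φ y) {β : ℝ} (hβ : 0 ≤ β)
    {R sep b τ U L ℓ : ℝ} {m : ℕ} (hb : 0 ≤ b) (hL : 0 ≤ L) (hR : 0 < R) (hτ : 2 * b < τ)
    (hsep : R + τ + 2 * b ≤ sep) (hfar : ∀ r, R ≤ r → φ r ≤ 0)
    (htwin : ∀ r, τ - 2 * b ≤ r → r ≤ τ + 2 * b → φ r ≤ U)
    (hn : m ≤ packingNumber L) (hℓ : sep * L + τ + b ≤ ℓ) :
    b ^ (6 * m) * Real.exp (-β * (m * U)) ≤ partitionFn φ ℓ (m * 2) β := by
  classical
  obtain ⟨e, he, hesep⟩ := exists_packing_points hL hn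
  have hτ0 : 0 ≤ τ := by linarith
  have hsep0 : 0 < sep := by linarith
  let I : Fin (m * 2) ≃ Fin m × Fin 2 := finProdFinEquiv.symm
  -- corners
  let cc : Fin m × Fin 2 → Pt := fun q => sep • e q.1 + ((q.2 : ℕ) : ℝ) • offset τ
  let S : Fin (m * 2) → Set Pt := fun i => box (cc (I i)) b
  have hsecond : ∀ s : Fin 2, ((s : ℕ) : ℝ) = 0 ∨ ((s : ℕ) : ℝ) = 1 := by
    intro s
    fin_cases s <;> simp
  -- different sites are far
  have hfarS : ∀ i j, (I i).1 ≠ (I j).1 → ∀ u ∈ S i, ∀ v ∈ S j, R ≤ dist u v := by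
    intro i j hij u hu v hv
    have h1 := dist_ge_boxes hb hu hv
    have h2 := hesep _ _ hij
    have h3 : sep ≤ dist (sep • e (I i).1) (sep • e (I j).1) := by
      rw [dist_smul₀, Real.norm_eq_abs, abs_of_pos hsep0]
      nlinarith
    have h4 : dist (sep • e (I i).1) (sep • e (I j).1) ≤ dist (cc (I i)) (cc (I j)) + τ := by
      -- only the difference of the two offsets counts
      have h7 : sep • e (I i).1 - sep • e (I j).1 =
          (cc (I i) - cc (I j)) + (((I j).2 : ℕ) - ((I i).2 : ℕ) : ℝ) • offset τ := by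
        simp only [cc]
        rw [sub_smul]
        abel
      rw [dist_eq_norm, dist_eq_norm, h7]
      refine (norm_add_le _ _).trans ?_
      have h8 : ‖(((I j).2 : ℕ) - ((I i).2 : ℕ) : ℝ) • offset τ‖ ≤ τ := by
        rw [norm_smul, norm_offset hτ0, Real.norm_eq_abs]
        have : |(((I j).2 : ℕ) - ((I i).2 : ℕ) : ℝ)| ≤ 1 := by
          rcases hsecond (I j).2 with h | h <;> rcases hsecond (I i).2 with h' | h' <;>
            rw [h, h'] <;> norm_num
        nlinarith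
      linarith
    linarith
  -- same site, different bit: twin distance
  have htw : ∀ i j, i ≠ j → (I i).1 = (I j).1 → ∀ u ∈ S i, ∀ v ∈ S j,
      τ - 2 * b ≤ dist u v ∧ dist u v ≤ τ + 2 * b := by
    intro i j hij hs u hu v hv
    have hbit : (I i).2 ≠ (I j).2 := by
      intro h
      apply hij
      apply I.injective
      exact Prod.ext hs h
    have hd : dist (cc (I i)) (cc (I j)) = τ := by
      simp only [cc]
      rw [hs, dist_add_left, dist_eq_norm, ← sub_smul, norm_smul, norm_offset hτ0, Real.norm_eq_abs]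
      have : |(((I i).2 : ℕ) - ((I j).2 : ℕ) : ℝ)| = 1 := by
        have h0 : ((I i).2 : ℕ) ≠ ((I j).2 : ℕ) := fun h => hbit (Fin.ext h)
        have h1 := (I i).2.isLt
        have h2 := (I j).2.isLt
        have : (((I i).2 : ℕ) = 0 ∧ ((I j).2 : ℕ) = 1) ∨ (((I i).2 : ℕ) = 1 ∧ ((I j).2 : ℕ) = 0) := by
          omega
        rcases this with ⟨a, c⟩ | ⟨a, c⟩ <;> rw [a, c] <;> norm_num
      rw [this, one_mul]
    have h1 := dist_ge_boxes hb hu hv
    have h2 := dist_le_boxes hb hu hv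
    rw [hd] at h1 h2
    exact ⟨h1, h2⟩
  let c : Fin (m * 2) → Fin (m * 2) → ℝ := fun i j => if (I j).1 = (I i).1 then U else 0
  have hpair : ∀ i j, i ≠ j → ∀ u ∈ S i, ∀ v ∈ S j, φ (dist u v) ≤ c i j := by
    intro i j hij u hu v hv
    simp only [c]
    split_ifs with h
    · have := htw i j hij h.symm u hu v hv
      exact htwin _ this.1 this.2
    · exact hfar _ (hfarS i j (fun h' => h h'.symm) u hu v hv)
  -- the double sum of `c`
  have hsum : ∑ i, ∑ j ∈ Finset.univ.erase i, c i j = ((m * 2 : ℕ) : ℝ) * U := by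
    have hone : ∀ i : Fin (m * 2), ∑ j ∈ Finset.univ.erase i, c i j = U := by
      intro i
      have h1 : ∑ j, c i j = c i i + ∑ j ∈ Finset.univ.erase i, c i j :=
        (Finset.add_sum_erase Finset.univ _ (Finset.mem_univ i)).symm
      have h2 : ∑ j, c i j = 2 * U := by
        simp only [c]
        rw [← Equiv.sum_comp I.symm, Fintype.sum_prod_type]
        simp only [Equiv.apply_symm_apply, Fin.sum_univ_two]
        rw [Finset.sum_eq_single (I i).1]
        · simp; ring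
        · intro b _ hb; simp [hb]
        · simp
      have h3 : c i i = U := by simp [c]
      linarith
    simp [hone]
  have hE : ∀ σ : Equiv.Perm (Fin (m * 2)), ∀ x : Fin (m * 2) → Pt, (∀ i, x i ∈ S (σ i)) →
      energy φ x ≤ m * U := by
    intro σ x hx
    have := energy_le_of_pairs S c hpair σ x hx
    rw [hsum] at this
    push_cast at this
    linarith
  have h := partitionFn_ge_of_sets hφ hst hβ (ℓ := ℓ) S (fun i => measurableSet_box _ _)
    (by
      intro i x hx k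
      have h1 := he (I i).1 k
      have h2 := hx k
      have hoff : 0 ≤ (offset τ) k ∧ (offset τ) k ≤ τ := by
        simp only [offset, pt_apply]
        split_ifs
        · exact ⟨hτ0, le_rfl⟩
        · exact ⟨le_rfl, hτ0⟩
      have hcoord : cc (I i) k = sep * e (I i).1 k + (((I i).2 : ℕ) : ℝ) * (offset τ) k := by
        simp [cc]
      rw [hcoord] at h2
      have hs0 : 0 ≤ (((I i).2 : ℕ) : ℝ) * (offset τ) k := mul_nonneg (by positivity) hoff.1
      have hs1 : (((I i).2 : ℕ) : ℝ) * (offset τ) k ≤ τ := by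
        rcases hsecond (I i).2 with h | h <;> rw [h]
        · simpa using hτ0
        · simpa using hoff.2
      constructor
      · have : 0 ≤ sep * e (I i).1 k := mul_nonneg hsep0.le h1.1
        linarith [h2.1]
      · have : sep * e (I i).1 k ≤ sep * L := mul_le_mul_of_nonneg_left h1.2 hsep0.le
        linarith [h2.2])
    (by
      intro i j hij
      rw [Set.disjoint_left]
      intro u hu hu'
      by_cases hs : (I i).1 = (I j).1
      · have := (htw i j hij hs u hu u hu').1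
        rw [dist_self] at this
        linarith
      · have := hfarS i j hs u hu u hu'
        rw [dist_self] at this
        linarith)
    hE
  have hprod : ∏ i, volume.real (S i) = b ^ (6 * m) := by
    simp only [S, volume_box _ hb]
    rw [Finset.prod_const, Finset.card_univ, Fintype.card_fin, ← pow_mul]
    congr 1
    ring
  rwa [hprod] at h

/-- A limit along the tiles. -/
lemma limit_of_tile {T h : ℝ → ℝ} {y κ : ℝ} (hT : ContinuousAt T y) (hh : ContinuousAt h y)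
    (H : ∀ᶠ ℓ : ℕ in atTop, ∃ z, y ≤ z ∧ z ≤ y + κ / ((ℓ : ℝ) + 2) ^ 3 ∧ T z ≤ h z) : T y ≤ h y := by
  by_contra hlt
  push Not at hlt
  have hpos : 0 < T y - h y := by linarith
  have hev := (hT.sub hh).eventually (lt_mem_nhds hpos)
  obtain ⟨ε, hε, hball⟩ := Metric.eventually_nhds_iff.1 hev
  have htend : Tendsto (fun ℓ : ℕ => κ / ((ℓ : ℝ) + 2) ^ 3) atTop (𝓝 0) := by
    refine Tendsto.div_atTop tendsto_const_nhds ?_
    refine (tendsto_pow_atTop (by norm_num)).comp ?_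
    exact tendsto_atTop_add_const_right _ _ tendsto_natCast_atTop_atTop
  have hev2 := htend.eventually (gt_mem_nhds hε)
  obtain ⟨ℓ, hℓ1, hℓ2⟩ := (H.and hev2).exists
  obtain ⟨z, hz1, hz2, hz3⟩ := hℓ1
  have hd : dist z y < ε := by
    rw [Real.dist_eq, abs_of_nonneg (by linarith)]
    linarith
  have := hball hd
  simp only [Pi.sub_apply] at this
  linarith

variable {K0 : ℕ} {cr : ℝ → ℝ}

/-- The series data of `ww`. -/
noncomputable def serD (hK : 1 ≤ K0) : OneSided.SeriesData where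
  a := Ah K0
  R := RR K0
  a_nonneg j := (Ah_pos K0 j).le
  R_pos := RR_pos K0
  summable_a := summable_Ah hK
  summable_term := summable_term hK

lemma tsum_Ah_eq : ∑' j, Ah K0 j = Series.Gam K0 0 := by
  unfold Series.Gam; simp

/-- The one-sided bound at the concrete potentials. -/
lemma os_step (hc : CoreOK cr) (hK : 1 ≤ K0) {β A : ℝ} (hβ : 0 ≤ β) (hA : 0 ≤ A) (hA' : A ≤ Amax)
    {ell n : ℕ} (hell : 0 < ell) (hn : 1 ≤ n) :
    (1 / ((ell : ℝ) + 2) ^ 3) * Real.log (partitionFn (ss cr) ell n β)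
      + β * A * ((1 / 2) * ((n : ℝ) / ((ell : ℝ) + 2) ^ 3) ^ 2 * Series.Gam K0 0
        - (1 / 2) * ((n : ℝ) / ((ell : ℝ) + 2) ^ 3) * ww K0 0)
      ≤ Thermo.hFree (phiA K0 cr A) β ((n : ℝ) / ((ell : ℝ) + 2) ^ 3) := by
  have had := adm_phiA hc hK hA hA'
  have hn0 : (0 : ℝ) < n := by exact_mod_cast hn
  have hy : (0 : ℝ) < (n : ℝ) / (((ell + 2 : ℕ) : ℝ)) ^ 3 := by positivity
  have h := OneSided.os_limit (serD hK) (φ1 := ss cr) (φ := phiA K0 cr A) (A := A) (β := β)
    (B := U₂ / 2) hA hβ (ss_meas hc) had.meas (fun r => rfl) (fun r hr => ss_tail hc hr)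
    had.stable (ell := ell) (t := ell + 2) (n := n) hell le_rfl
    (Thermo.tendsto_logZ had hβ hy)
  have e1 : ∑' j, (serD hK).a j = Series.Gam K0 0 := tsum_Ah_eq
  have e2 : (serD hK).w 0 = ww K0 0 := rfl
  rw [e1, e2] at h
  push_cast at h
  exact h

lemma continuousAt_hFree (hc : CoreOK cr) (hK : 1 ≤ K0) {β A y : ℝ} (hβ : 0 ≤ β) (hA : 0 ≤ A)
    (hA' : A ≤ Amax) (hy : 0 < y) : ContinuousAt (Thermo.hFree (phiA K0 cr A) β) y :=
  ((Thermo.hFree_concave (adm_phiA hc hK hA hA') hβ).continuousOn isOpen_Ioi).continuousAt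
    (Ioi_mem_nhds hy)

/-- **Singles**, the concrete bound. -/
theorem ts_le (hc : CoreOK cr) (hK : 1 ≤ K0) {β A y b : ℝ} (hβ : 0 ≤ β) (hA : 0 ≤ A)
    (hA' : A ≤ Amax) (hy : 0 < y) (hb : 0 < b) (hnum : y * (1 + r2 + 2 * b) ^ 3 < pp) :
    ts β A (Series.Gam K0 0) (ww K0 0) y b ≤ Thermo.hFree (phiA K0 cr A) β y := by
  set sep : ℝ := 1 + r2 + 2 * b with hsepdef
  have hsep : 0 < sep := by have := r2_pos; positivity
  have hk := eventually_tile (κ := 1) one_pos (d := b) hsep hy.le (by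
    have : ((1 : ℕ) : ℝ) * Crest.Agent.TL.Packing.packingDensity = pp := by
      simp [pp]
    rw [this]; exact hnum)
  have hT : ContinuousAt (fun z => ts β A (Series.Gam K0 0) (ww K0 0) z b) y := by
    unfold ts
    fun_prop
  refine limit_of_tile (κ := 1) hT (continuousAt_hFree hc hK hβ hA hA' hy) ?_
  filter_upwards [hk, eventually_ge_atTop 1] with ℓ hℓ hℓ1
  obtain ⟨m, hd, h1, h2, h3⟩ := hℓ
  have ht : (0 : ℝ) < ((ℓ : ℝ) + 2) ^ 3 := by positivity
  simp only [Nat.cast_one, mul_one] at h1 h2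
  refine ⟨(m : ℝ) / ((ℓ : ℝ) + 2) ^ 3, h1, h2, ?_⟩
  have hm : 1 ≤ m := by
    by_contra hm
    have : m = 0 := by omega
    rw [this] at h1
    simp at h1
    linarith
  have hR : (0 : ℝ) < 1 + r2 := by have := r2_pos; positivity
  have hL : 0 ≤ ((ℓ : ℝ) - b) / sep := div_nonneg (by linarith) hsep.le
  have hlog : 3 * (m : ℝ) * Real.log b ≤ Real.log (partitionFn (ss cr) ℓ m β) := by
    have h4 := trial_singles' (ss_meas hc) (B := 0)
      (fun k y => by
        have := OneSided.energy_nonneg_of_nonneg (ss_nonneg hc) y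
        simpa using this) hβ (R := 1 + r2) (sep := sep) (b := b) (ℓ := ℓ) hb.le hL hR
      (by rw [hsepdef]) (fun r hr => (ss_far hc hr).le) h3
      (by
        have : sep * (((ℓ : ℝ) - b) / sep) = (ℓ : ℝ) - b := by field_simp
        rw [this]; linarith)
    have hpos : 0 < b ^ (3 * m) := by positivity
    have h5 := Real.log_le_log hpos h4
    rw [Real.log_pow] at h5
    push_cast at h5
    exact h5
  have hos := os_step hc hK hβ hA hA' (ell := ℓ) (n := m) (by omega) hm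
  have hlog2 : 3 * ((m : ℝ) / ((ℓ : ℝ) + 2) ^ 3) * Real.log b ≤
      (1 / ((ℓ : ℝ) + 2) ^ 3) * Real.log (partitionFn (ss cr) ℓ m β) := by
    have h6 := mul_le_mul_of_nonneg_left hlog (one_div_nonneg.2 ht.le)
    have e : 3 * ((m : ℝ) / ((ℓ : ℝ) + 2) ^ 3) * Real.log b =
        (1 / ((ℓ : ℝ) + 2) ^ 3) * (3 * (m : ℝ) * Real.log b) := by ring
    rw [e]; exact h6
  have e : ts β A (Series.Gam K0 0) (ww K0 0) ((m : ℝ) / ((ℓ : ℝ) + 2) ^ 3) b =
      3 * ((m : ℝ) / ((ℓ : ℝ) + 2) ^ 3) * Real.log b +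
      β * A * ((1 / 2) * ((m : ℝ) / ((ℓ : ℝ) + 2) ^ 3) ^ 2 * Series.Gam K0 0
        - (1 / 2) * ((m : ℝ) / ((ℓ : ℝ) + 2) ^ 3) * ww K0 0) := by
    unfold ts; ring
  rw [e]
  linarith

/-- **Doubled sites**, the concrete bound. -/
theorem td_le (hc : CoreOK cr) (hK : 1 ≤ K0) {β A y b τ : ℝ} (hβ : 0 ≤ β) (hA : 0 ≤ A)
    (hA' : A ≤ Amax) (hy : 0 < y) (hb : 0 < b) (hτ : 2 * b < τ) (hτ1 : r2 ≤ τ - 2 * b)
    (hτ2 : τ + 2 * b ≤ 2 * r2)
    (hnum : y * (1 + r2 + τ + 2 * b) ^ 3 < 2 * pp) :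
    td β A (Series.Gam K0 0) (ww K0 0) Us y b ≤ Thermo.hFree (phiA K0 cr A) β y := by
  set sep : ℝ := 1 + r2 + τ + 2 * b with hsepdef
  have hτ0 : 0 < τ := by linarith
  have hsep : 0 < sep := by have := r2_pos; positivity
  have hk := eventually_tile (κ := 2) two_pos (d := τ + b) hsep hy.le (by
    have : ((2 : ℕ) : ℝ) * Crest.Agent.TL.Packing.packingDensity = 2 * pp := by
      simp [pp]
    rw [this]; exact hnum)
  have hT : ContinuousAt (fun z => td β A (Series.Gam K0 0) (ww K0 0) Us z b) y := by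
    unfold td ts
    fun_prop
  refine limit_of_tile (κ := 2) hT (continuousAt_hFree hc hK hβ hA hA' hy) ?_
  filter_upwards [hk, eventually_ge_atTop 1] with ℓ hℓ hℓ1
  obtain ⟨m, hd, h1, h2, h3⟩ := hℓ
  have ht : (0 : ℝ) < ((ℓ : ℝ) + 2) ^ 3 := by positivity
  have ecast : ((m * 2 : ℕ) : ℝ) = (m : ℝ) * ((2 : ℕ) : ℝ) := by push_cast; ring
  have h2' : ((m * 2 : ℕ) : ℝ) / ((ℓ : ℝ) + 2) ^ 3 ≤ y + 2 / ((ℓ : ℝ) + 2) ^ 3 := by
    rw [ecast]; simpa using h2
  refine ⟨((m * 2 : ℕ) : ℝ) / ((ℓ : ℝ) + 2) ^ 3, by rw [ecast]; exact h1, h2', ?_⟩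
  have hm : 1 ≤ m * 2 := by
    by_contra hm
    have h0 : m = 0 := by omega
    rw [h0] at h1
    simp at h1
    linarith
  have hR : (0 : ℝ) < 1 + r2 := by have := r2_pos; positivity
  have hL : 0 ≤ ((ℓ : ℝ) - (τ + b)) / sep := div_nonneg (by linarith) hsep.le
  have hlog : 3 * ((m * 2 : ℕ) : ℝ) * Real.log b - β * (m * Us) ≤
      Real.log (partitionFn (ss cr) ℓ (m * 2) β) := by
    have h4 := trial_doubled' (ss_meas hc) (B := 0)
      (fun k y => by
        have := OneSided.energy_nonneg_of_nonneg (ss_nonneg hc) y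
        simpa using this) hβ (R := 1 + r2) (sep := sep) (b := b) (τ := τ) (U := Us) (ℓ := ℓ)
      hb.le hL hR hτ (by rw [hsepdef]) (fun r hr => (ss_far hc hr).le)
      (fun r hr1 hr2 => (ss_eq_U_mid hc (hτ1.trans hr1) (hr2.trans hτ2)).le) h3
      (by
        have : sep * (((ℓ : ℝ) - (τ + b)) / sep) = (ℓ : ℝ) - (τ + b) := by field_simp
        rw [this]; linarith)
    have hpos : 0 < b ^ (6 * m) * Real.exp (-β * (m * Us)) := by positivity
    have h5 := Real.log_le_log hpos h4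
    rw [Real.log_mul (by positivity) (Real.exp_pos _).ne', Real.log_pow, Real.log_exp] at h5
    push_cast at h5 ⊢
    linarith
  have hos := os_step hc hK hβ hA hA' (ell := ℓ) (n := m * 2) (by omega) hm
  set z : ℝ := ((m * 2 : ℕ) : ℝ) / ((ℓ : ℝ) + 2) ^ 3 with hz
  have hlog2 : 3 * z * Real.log b - (1 / 2) * β * Us * z ≤
      (1 / ((ℓ : ℝ) + 2) ^ 3) * Real.log (partitionFn (ss cr) ℓ (m * 2) β) := by
    have h6 := mul_le_mul_of_nonneg_left hlog (one_div_nonneg.2 ht.le)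
    have e : 3 * z * Real.log b - (1 / 2) * β * Us * z =
        (1 / ((ℓ : ℝ) + 2) ^ 3) * (3 * ((m * 2 : ℕ) : ℝ) * Real.log b - β * (m * Us)) := by
      rw [hz]; push_cast; ring
    rw [e]; exact h6
  have e : td β A (Series.Gam K0 0) (ww K0 0) Us z b =
      (3 * z * Real.log b - (1 / 2) * β * Us * z) +
      β * A * ((1 / 2) * z ^ 2 * Series.Gam K0 0 - (1 / 2) * z * ww K0 0) := by
    unfold td ts; ring
  rw [e]
  linarith

/-! ### The four numerical instances -/

lemma y1_pos : 0 < 0.9 * pp := by have := pp_pos; positivity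
lemma y2_pos : 0 < 0.99 * pp := by have := pp_pos; positivity
lemma y3_pos : 0 < yT pp := by
  unfold yT
  have := pp_pos
  have h : (0 : ℝ) < 1 - (2 : ℝ) ^ (-50 : ℤ) := by norm_num
  positivity
lemma y4_pos : 0 < yD pp := by
  unfold yD eta0 A0
  have := pp_ge
  have h : (2 : ℝ) ^ (-27 : ℤ) / (8 * (2 : ℝ) ^ (50 : ℕ)) < 1 := by norm_num
  linarith

lemma bT_pos : 0 < bT := by unfold bT; positivity
lemma bD_pos : 0 < bD := by unfold bD; positivity

lemma num1 : 0.9 * pp * (1 + r2 + 2 * 0.01) ^ 3 < pp := by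
  have h : (0.9 : ℝ) * (1 + r2 + 2 * 0.01) ^ 3 < 1 := by unfold r2; norm_num
  nlinarith [pp_pos]

lemma num2 : 0.99 * pp * (1 + r2 + 2 * 0.001) ^ 3 < pp := by
  have h : (0.99 : ℝ) * (1 + r2 + 2 * 0.001) ^ 3 < 1 := by unfold r2; norm_num
  nlinarith [pp_pos]

lemma num3 : yT pp * (1 + r2 + 2 * bT) ^ 3 < pp := by
  have h : (1 - (2 : ℝ) ^ (-50 : ℤ)) * (1 + r2 + 2 * bT) ^ 3 < 1 := by unfold r2 bT; norm_num
  unfold yT
  nlinarith [pp_pos]

lemma num4 : yD pp * (1 + r2 + 3 / 2 * r2 + 2 * bD) ^ 3 < 2 * pp := by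
  have hq : (1 + r2 + 3 / 2 * r2 + 2 * bD) = 1 + 3 * r2 := by
    unfold r2 bD; norm_num
  rw [hq]
  unfold yD
  set q : ℝ := (1 + 3 * r2) ^ 3 with hq'
  have h1 : 8 * (q - 1) < eta0 / (8 * A0) * q := by
    rw [hq']; unfold r2 eta0 A0; norm_num
  have h2 : 0 ≤ q - 1 := by
    rw [hq']; unfold r2; norm_num
  have h3 := pp_le
  have h4 : pp * (q - 1) ≤ 8 * (q - 1) := mul_le_mul_of_nonneg_right h3 h2
  nlinarith

/-- The four trial lower bounds (the statement `TrialSt K0 cr`, up to unfolding `Γt`, `w0`). -/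
theorem trials (hc : CoreOK cr) (hK : 1 ≤ K0) :
    (∀ β A, 0 ≤ β → 0 ≤ A → A ≤ Amax → ts β A (Series.Gam K0 0) (ww K0 0) (0.9 * pp) 0.01 ≤
      Thermo.hFree (phiA K0 cr A) β (0.9 * pp)) ∧
    (∀ β A, 0 ≤ β → 0 ≤ A → A ≤ Amax → ts β A (Series.Gam K0 0) (ww K0 0) (0.99 * pp) 0.001 ≤
      Thermo.hFree (phiA K0 cr A) β (0.99 * pp)) ∧
    (∀ β A, 0 ≤ β → 0 ≤ A → A ≤ Amax → ts β A (Series.Gam K0 0) (ww K0 0) (yT pp) bT ≤
      Thermo.hFree (phiA K0 cr A) β (yT pp)) ∧
    (∀ β A, 0 ≤ β → 0 ≤ A → A ≤ Amax → td β A (Series.Gam K0 0) (ww K0 0) Us (yD pp) bD ≤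
      Thermo.hFree (phiA K0 cr A) β (yD pp)) := by
  refine ⟨fun β A hβ hA hA' => ts_le hc hK hβ hA hA' y1_pos (by norm_num) num1,
    fun β A hβ hA hA' => ts_le hc hK hβ hA hA' y2_pos (by norm_num) num2,
    fun β A hβ hA hA' => ts_le hc hK hβ hA hA' y3_pos bT_pos num3,
    fun β A hβ hA hA' => td_le hc hK (τ := 3 / 2 * r2) hβ hA hA' y4_pos bD_pos ?_ ?_ ?_ ?_⟩
  · unfold r2 bD; norm_num
  · unfold r2 bD; norm_num
  · unfold r2 bD; norm_num
  · exact num4

end TrialConcrete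

end Crest.Agent.TL.Asm
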