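import Mathlib
import Crest.Prelude.Def_PairPotential
import Crest.Agent.TL.Gauss

/-!
# S0209/S0210, module L: the level inequality.

Cells of side `h` shifted by `τ`, the ordered same-cell count `Q`, the in-cell part and the
cross-cell part of a pair sum, the level inequality, the shift average of the cross term and the
Markov selection of good shifts.

Everything is generic in the data `Ahat`, `R`, `ell`, `s`.
-/

namespace Crest.Agent.TL.Level

open Crest.ProbabilityR.Continuum Finset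

/-- The pair index of `energy`. -/
abbrev Pair (N : ℕ) := {p : Fin N × Fin N // p.1 < p.2}

open Gauss (cell sameCell g)

/-- Ordered pairs (with diagonal) in the same cell, divided by `h^3`. -/
noncomputable def Q (h : ℝ) (τ : Fin 3 → ℝ) {N : ℕ} (x : Fin N → Pt) : ℝ :=
  (sameCell h τ x : ℝ) / h ^ 3

/-- The in-cell part of the pair sum. -/
noncomputable def cellEnergy (φ : ℝ → ℝ) (h : ℝ) (τ : Fin 3 → ℝ) {N : ℕ} (x : Fin N → Pt) : ℝ :=
  ∑ p : Pair N, if cell h τ (x p.1.1) = cell h τ (x p.1.2) then φ (dist (x p.1.1) (x p.1.2)) else 0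

/-- The cross-cell part of the pair sum. -/
noncomputable def cross (φ : ℝ → ℝ) (h : ℝ) (τ : Fin 3 → ℝ) {N : ℕ} (x : Fin N → Pt) : ℝ :=
  ∑ p : Pair N, if cell h τ (x p.1.1) = cell h τ (x p.1.2) then 0 else φ (dist (x p.1.1) (x p.1.2))

section Linear

variable {N : ℕ} (x : Fin N → Pt) (h : ℝ) (τ : Fin 3 → ℝ)

theorem energy_eq_cell_add_cross (φ : ℝ → ℝ) :
    energy φ x = cellEnergy φ h τ x + cross φ h τ x := by
  unfold energy cellEnergy cross
  rw [← Finset.sum_add_distrib]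
  refine Finset.sum_congr rfl fun p _ => ?_
  split_ifs <;> simp

theorem energy_add' (φ ψ : ℝ → ℝ) :
    energy (fun r => φ r + ψ r) x = energy φ x + energy ψ x := by
  unfold energy
  rw [← Finset.sum_add_distrib]

theorem energy_sub' (φ ψ : ℝ → ℝ) :
    energy (fun r => φ r - ψ r) x = energy φ x - energy ψ x := by
  unfold energy
  rw [← Finset.sum_sub_distrib]

theorem energy_const_mul (c : ℝ) (φ : ℝ → ℝ) :
    energy (fun r => c * φ r) x = c * energy φ x := by
  unfold energy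
  rw [Finset.mul_sum]

theorem cellEnergy_sub (φ ψ : ℝ → ℝ) :
    cellEnergy (fun r => φ r - ψ r) h τ x = cellEnergy φ h τ x - cellEnergy ψ h τ x := by
  unfold cellEnergy
  rw [← Finset.sum_sub_distrib]
  refine Finset.sum_congr rfl fun p _ => ?_
  split_ifs <;> simp

theorem cellEnergy_const_mul (c : ℝ) (φ : ℝ → ℝ) :
    cellEnergy (fun r => c * φ r) h τ x = c * cellEnergy φ h τ x := by
  unfold cellEnergy
  rw [Finset.mul_sum]
  refine Finset.sum_congr rfl fun p _ => ?_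
  split_ifs <;> simp

theorem cellEnergy_le_energy (φ : ℝ → ℝ) (hφ : ∀ r, 0 ≤ φ r) :
    cellEnergy φ h τ x ≤ energy φ x := by
  rw [energy_eq_cell_add_cross x h τ φ]
  have : 0 ≤ cross φ h τ x := by
    unfold cross
    refine Finset.sum_nonneg fun p _ => ?_
    split_ifs
    · exact le_rfl
    · exact hφ _
  linarith

theorem cross_nonneg (φ : ℝ → ℝ) (hφ : ∀ r, 0 ≤ φ r) : 0 ≤ cross φ h τ x := by
  unfold cross
  refine Finset.sum_nonneg fun p _ => ?_
  split_ifs
  · exact le_rfl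
  · exact hφ _

theorem energy_nonneg' (φ : ℝ → ℝ) (hφ : ∀ r, 0 ≤ φ r) : 0 ≤ energy φ x :=
  Finset.sum_nonneg fun _ _ => hφ _

theorem Q_nonneg (hh : 0 ≤ h) : 0 ≤ Q h τ x := by
  unfold Q; positivity

end Linear

/-- (L2) The level inequality, abstract form. -/
theorem level_ineq (s wl wg : ℝ → ℝ) (A u : ℝ) (hu0 : 0 ≤ u)
    (hs : ∀ r, 0 ≤ s r) (h : ℝ) (τ : Fin 3 → ℝ) {N : ℕ} (x : Fin N → Pt) :
    cellEnergy (fun r => u * s r - A * wl r) h τ x + (1 - u) * energy s x
        - A * cross wl h τ x - A * energy wg x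
      ≤ energy (fun r => s r - A * (wl r + wg r)) x := by
  have h1 : energy (fun r => s r - A * (wl r + wg r)) x
      = energy s x - A * (energy wl x + energy wg x) := by
    rw [energy_sub', energy_const_mul, energy_add']
  have h2 : cellEnergy (fun r => u * s r - A * wl r) h τ x
      = u * cellEnergy s h τ x - A * cellEnergy wl h τ x := by
    rw [cellEnergy_sub, cellEnergy_const_mul, cellEnergy_const_mul]
  have h3 := energy_eq_cell_add_cross x h τ wl
  have h4 := cellEnergy_le_energy x h τ s hs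
  have h5 : u * cellEnergy s h τ x ≤ u * energy s x := mul_le_mul_of_nonneg_left h4 hu0
  rw [h1, h2, h3]
  nlinarith


/-! ### (L3) shifts: the separation count -/

/-- The integer shifts. -/
def shift {T : ℕ} (τ : Fin 3 → Fin T) : Fin 3 → ℝ := fun a => ((τ a : ℕ) : ℝ)

/-- The residue count. -/
lemma card_filter_modEq (ℓ T : ℕ) (hℓ : 0 < ℓ) (hd : ℓ ∣ T) (n : ℤ) :
    (univ.filter fun t : Fin T => ((t : ℕ) : ℤ) ≡ n [ZMOD ℓ]).card = T / ℓ := by
  have hv : ∀ t : ℕ, ((t : ℤ) ≡ n [ZMOD ℓ]) ↔ t ≡ (n % ℓ).toNat [MOD ℓ] := by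
    intro t
    have h0 : 0 ≤ n % (ℓ : ℤ) := Int.emod_nonneg _ (by exact_mod_cast hℓ.ne')
    have h1 : (((n % (ℓ : ℤ)).toNat : ℕ) : ℤ) = n % ℓ := Int.toNat_of_nonneg h0
    rw [← Int.natCast_modEq_iff, h1]
    constructor
    · intro h
      exact h.trans (Int.mod_modEq n ℓ).symm
    · intro h
      exact h.trans (Int.mod_modEq n ℓ)
  have h2 : (univ.filter fun t : Fin T => ((t : ℕ) : ℤ) ≡ n [ZMOD ℓ]).card
      = ((range T).filter fun t : ℕ => t ≡ (n % ℓ).toNat [MOD ℓ]).card := by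
    rw [Finset.card_filter, Finset.card_filter,
      Fin.sum_univ_eq_sum_range (fun t : ℕ => if ((t : ℤ) ≡ n [ZMOD ℓ]) then 1 else 0) T]
    refine Finset.sum_congr rfl fun t _ => ?_
    simp only [hv t]
  rw [h2, ← Nat.count_eq_card_filter_range, Nat.count_modEq_card T hℓ]
  have : T % ℓ = 0 := Nat.mod_eq_zero_of_dvd hd
  simp [this]

/-- Separation along one axis, ordered endpoints. -/
lemma axis_sep_card_aux (ℓ T : ℕ) (hℓ : 0 < ℓ) (hd : ℓ ∣ T) (y1 y2 : ℝ) (hy : y1 ≤ y2) :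
    ((univ.filter fun t : Fin T =>
        ⌊(y1 - ((t : ℕ) : ℝ)) / (ℓ : ℝ)⌋ ≠ ⌊(y2 - ((t : ℕ) : ℝ)) / (ℓ : ℝ)⌋).card : ℝ)
      ≤ ((T : ℝ) / ℓ) * (y2 - y1 + 1) := by
  classical
  have hℓ' : (0 : ℝ) < ℓ := by exact_mod_cast hℓ
  have hsub : (univ.filter fun t : Fin T =>
        ⌊(y1 - ((t : ℕ) : ℝ)) / (ℓ : ℝ)⌋ ≠ ⌊(y2 - ((t : ℕ) : ℝ)) / (ℓ : ℝ)⌋)
      ⊆ (Finset.Ioc ⌊y1⌋ ⌊y2⌋).biUnion
          (fun n : ℤ => univ.filter fun t : Fin T => ((t : ℕ) : ℤ) ≡ n [ZMOD ℓ]) := by
    intro t ht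
    simp only [mem_filter, mem_univ, true_and] at ht
    have hmono : ⌊(y1 - ((t : ℕ) : ℝ)) / (ℓ : ℝ)⌋ ≤ ⌊(y2 - ((t : ℕ) : ℝ)) / (ℓ : ℝ)⌋ := by
      apply Int.floor_le_floor
      apply div_le_div_of_nonneg_right _ hℓ'.le
      linarith
    have hlt := lt_of_le_of_ne hmono ht
    set q := ⌊(y2 - ((t : ℕ) : ℝ)) / (ℓ : ℝ)⌋ with hq
    have h1 : (y1 - ((t : ℕ) : ℝ)) / (ℓ : ℝ) < q := Int.floor_lt.mp hlt
    have h2 : (q : ℝ) ≤ (y2 - ((t : ℕ) : ℝ)) / (ℓ : ℝ) := Int.floor_le _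
    rw [div_lt_iff₀ hℓ'] at h1
    rw [le_div_iff₀ hℓ'] at h2
    simp only [mem_biUnion, mem_filter, mem_univ, true_and, mem_Ioc]
    refine ⟨((t : ℕ) : ℤ) + q * ℓ, ⟨?_, ?_⟩, ?_⟩
    · apply Int.floor_lt.mpr
      push_cast
      linarith
    · apply Int.le_floor.mpr
      push_cast
      linarith
    · unfold Int.ModEq
      simp
  calc ((univ.filter fun t : Fin T =>
        ⌊(y1 - ((t : ℕ) : ℝ)) / (ℓ : ℝ)⌋ ≠ ⌊(y2 - ((t : ℕ) : ℝ)) / (ℓ : ℝ)⌋).card : ℝ)
      ≤ (((Finset.Ioc ⌊y1⌋ ⌊y2⌋).biUnion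
          (fun n : ℤ => univ.filter fun t : Fin T => ((t : ℕ) : ℤ) ≡ n [ZMOD ℓ])).card : ℝ) := by
        exact_mod_cast Finset.card_le_card hsub
    _ ≤ ((∑ n ∈ Finset.Ioc ⌊y1⌋ ⌊y2⌋,
          (univ.filter fun t : Fin T => ((t : ℕ) : ℤ) ≡ n [ZMOD ℓ]).card : ℕ) : ℝ) := by
        exact_mod_cast Finset.card_biUnion_le
    _ = (((Finset.Ioc ⌊y1⌋ ⌊y2⌋).card : ℕ) : ℝ) * ((T / ℓ : ℕ) : ℝ) := by
        rw [Finset.sum_congr rfl fun n _ => card_filter_modEq ℓ T hℓ hd n]
        simp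
    _ ≤ (y2 - y1 + 1) * ((T : ℝ) / ℓ) := by
        have h3 : (((Finset.Ioc ⌊y1⌋ ⌊y2⌋).card : ℕ) : ℝ) ≤ y2 - y1 + 1 := by
          rw [Int.card_Ioc]
          have h0 : 0 ≤ ⌊y2⌋ - ⌊y1⌋ := sub_nonneg.mpr (Int.floor_le_floor hy)
          have h4 : (((⌊y2⌋ - ⌊y1⌋).toNat : ℕ) : ℝ) = ((⌊y2⌋ - ⌊y1⌋ : ℤ) : ℝ) := by
            exact_mod_cast Int.toNat_of_nonneg h0
          rw [h4]
          push_cast
          have := Int.floor_le y2
          have := Int.lt_floor_add_one y1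
          linarith
        have h5 : ((T / ℓ : ℕ) : ℝ) = (T : ℝ) / ℓ := Nat.cast_div hd hℓ'.ne'
        rw [h5]
        apply mul_le_mul_of_nonneg_right h3
        positivity
    _ = ((T : ℝ) / ℓ) * (y2 - y1 + 1) := by ring

/-- Separation along one axis. -/
lemma axis_sep_card (ℓ T : ℕ) (hℓ : 0 < ℓ) (hd : ℓ ∣ T) (y1 y2 : ℝ) :
    ((univ.filter fun t : Fin T =>
        ⌊(y1 - ((t : ℕ) : ℝ)) / (ℓ : ℝ)⌋ ≠ ⌊(y2 - ((t : ℕ) : ℝ)) / (ℓ : ℝ)⌋).card : ℝ)
      ≤ ((T : ℝ) / ℓ) * (|y1 - y2| + 1) := by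
  rcases le_total y1 y2 with hy | hy
  · have := axis_sep_card_aux ℓ T hℓ hd y1 y2 hy
    rwa [abs_sub_comm, abs_of_nonneg (by linarith)]
  · have := axis_sep_card_aux ℓ T hℓ hd y2 y1 hy
    rw [abs_of_nonneg (by linarith)]
    refine le_trans (le_of_eq ?_) this
    congr 2
    ext t
    simp only [mem_filter, mem_univ, true_and, ne_comm]

/-- Number of shifts whose `a`-coordinate lies in a given set. -/
lemma card_shift_axis (T : ℕ) (a : Fin 3) (S : Finset (Fin T)) :
    (univ.filter fun τ : Fin 3 → Fin T => τ a ∈ S).card = T ^ 2 * S.card := by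
  classical
  have : (univ.filter fun τ : Fin 3 → Fin T => τ a ∈ S)
      = Fintype.piFinset (fun b => if b = a then S else univ) := by
    ext τ
    simp only [mem_filter, mem_univ, true_and, Fintype.mem_piFinset]
    constructor
    · intro h b
      split_ifs with hb
      · rw [hb]; exact h
      · exact mem_univ _
    · intro h
      simpa using h a
  rw [this, Fintype.card_piFinset, Fin.prod_univ_three]
  have key : ∀ b : Fin 3, (if b = a then S else univ : Finset (Fin T)).card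
      = if b = a then S.card else T := by
    intro b; split_ifs <;> simp
  simp only [key]
  fin_cases a
  · show (if (0 : Fin 3) = 0 then S.card else T) * (if (1 : Fin 3) = 0 then S.card else T)
        * (if (2 : Fin 3) = 0 then S.card else T) = _
    rw [if_pos rfl, if_neg (by decide), if_neg (by decide)]; ring
  · show (if (0 : Fin 3) = 1 then S.card else T) * (if (1 : Fin 3) = 1 then S.card else T)
        * (if (2 : Fin 3) = 1 then S.card else T) = _
    rw [if_neg (by decide), if_pos rfl, if_neg (by decide)]; ring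
  · show (if (0 : Fin 3) = 2 then S.card else T) * (if (1 : Fin 3) = 2 then S.card else T)
        * (if (2 : Fin 3) = 2 then S.card else T) = _
    rw [if_neg (by decide), if_neg (by decide), if_pos rfl]; ring

/-- The probability that two points are separated by the shifted grid. -/
theorem card_sep_le (ℓ T : ℕ) (hℓ : 0 < ℓ) (hd : ℓ ∣ T) (y z : Pt) :
    ((univ.filter fun τ : Fin 3 → Fin T =>
        cell (ℓ : ℝ) (shift τ) y ≠ cell (ℓ : ℝ) (shift τ) z).card : ℝ)
      ≤ (T : ℝ) ^ 3 * (3 / ℓ) * (dist y z + 1) := by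
  classical
  have hℓ' : (0 : ℝ) < ℓ := by exact_mod_cast hℓ
  have hsub : (univ.filter fun τ : Fin 3 → Fin T =>
        cell (ℓ : ℝ) (shift τ) y ≠ cell (ℓ : ℝ) (shift τ) z)
      ⊆ univ.biUnion (fun a : Fin 3 => univ.filter fun τ : Fin 3 → Fin T => τ a ∈
          (univ.filter fun t : Fin T =>
            ⌊(y a - ((t : ℕ) : ℝ)) / (ℓ : ℝ)⌋ ≠ ⌊(z a - ((t : ℕ) : ℝ)) / (ℓ : ℝ)⌋)) := by
    intro τ hτ
    simp only [mem_filter, mem_univ, true_and] at hτ
    simp only [mem_biUnion, mem_filter, mem_univ, true_and]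
    by_contra hcon
    push Not at hcon
    apply hτ
    funext a
    exact hcon a
  have hcard : ((univ.filter fun τ : Fin 3 → Fin T =>
        cell (ℓ : ℝ) (shift τ) y ≠ cell (ℓ : ℝ) (shift τ) z).card : ℝ)
      ≤ ∑ a : Fin 3, ((T ^ 2 * (univ.filter fun t : Fin T =>
            ⌊(y a - ((t : ℕ) : ℝ)) / (ℓ : ℝ)⌋ ≠ ⌊(z a - ((t : ℕ) : ℝ)) / (ℓ : ℝ)⌋).card : ℕ) : ℝ) := by
    have := (Finset.card_le_card hsub).trans Finset.card_biUnion_le
    simp only [card_shift_axis] at this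
    exact_mod_cast this
  refine hcard.trans ?_
  have hax : ∀ a : Fin 3, ((T ^ 2 * (univ.filter fun t : Fin T =>
            ⌊(y a - ((t : ℕ) : ℝ)) / (ℓ : ℝ)⌋ ≠ ⌊(z a - ((t : ℕ) : ℝ)) / (ℓ : ℝ)⌋).card : ℕ) : ℝ)
      ≤ (T : ℝ) ^ 3 * (1 / ℓ) * (dist y z + 1) := by
    intro a
    have h1 := axis_sep_card ℓ T hℓ hd (y a) (z a)
    have h2 : |y a - z a| ≤ dist y z := by
      have := PiLp.norm_apply_le (y - z) a
      rw [dist_eq_norm]
      simpa [Real.norm_eq_abs] using this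
    push_cast
    calc (T : ℝ) ^ 2 * ((univ.filter fun t : Fin T =>
            ⌊(y a - ((t : ℕ) : ℝ)) / (ℓ : ℝ)⌋ ≠ ⌊(z a - ((t : ℕ) : ℝ)) / (ℓ : ℝ)⌋).card : ℝ)
        ≤ (T : ℝ) ^ 2 * (((T : ℝ) / ℓ) * (|y a - z a| + 1)) :=
          mul_le_mul_of_nonneg_left h1 (by positivity)
      _ ≤ (T : ℝ) ^ 2 * (((T : ℝ) / ℓ) * (dist y z + 1)) := by
          apply mul_le_mul_of_nonneg_left _ (by positivity)
          apply mul_le_mul_of_nonneg_left _ (by positivity)
          linarith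
      _ = (T : ℝ) ^ 3 * (1 / ℓ) * (dist y z + 1) := by
          field_simp
  calc _ ≤ ∑ _a : Fin 3, (T : ℝ) ^ 3 * (1 / ℓ) * (dist y z + 1) :=
        Finset.sum_le_sum fun a _ => hax a
    _ = (T : ℝ) ^ 3 * (3 / ℓ) * (dist y z + 1) := by
        simp
        ring

/-- The shift sum of the cross term. -/
theorem sum_cross_le (φ : ℝ → ℝ) (hφ : ∀ r, 0 ≤ φ r) (ℓ T : ℕ) (hℓ : 0 < ℓ) (hd : ℓ ∣ T)
    {N : ℕ} (x : Fin N → Pt) :
    ∑ τ : Fin 3 → Fin T, cross φ (ℓ : ℝ) (shift τ) x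
      ≤ (T : ℝ) ^ 3 * (3 / ℓ) *
        ∑ p : Pair N, φ (dist (x p.1.1) (x p.1.2)) * (dist (x p.1.1) (x p.1.2) + 1) := by
  classical
  unfold cross
  rw [Finset.sum_comm, Finset.mul_sum]
  refine Finset.sum_le_sum fun p _ => ?_
  have h1 := card_sep_le ℓ T hℓ hd (x p.1.1) (x p.1.2)
  have h2 : ∑ τ : Fin 3 → Fin T, (if cell (ℓ : ℝ) (shift τ) (x p.1.1) = cell (ℓ : ℝ) (shift τ) (x p.1.2)
        then (0 : ℝ) else φ (dist (x p.1.1) (x p.1.2)))
      = ((univ.filter fun τ : Fin 3 → Fin T =>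
        cell (ℓ : ℝ) (shift τ) (x p.1.1) ≠ cell (ℓ : ℝ) (shift τ) (x p.1.2)).card : ℝ)
          * φ (dist (x p.1.1) (x p.1.2)) := by
    rw [← nsmul_eq_mul, ← Finset.sum_const, Finset.sum_filter]
    refine Finset.sum_congr rfl fun τ _ => ?_
    by_cases h : cell (ℓ : ℝ) (shift τ) (x p.1.1) = cell (ℓ : ℝ) (shift τ) (x p.1.2) <;> simp [h]
  rw [h2]
  have h3 := mul_le_mul_of_nonneg_right h1 (hφ (dist (x p.1.1) (x p.1.2)))
  refine h3.trans (le_of_eq ?_)
  ring


/-! ### Gaussian mixtures: the data -/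

section Data

variable (Ahat R : ℕ → ℝ) (ell : ℕ → ℕ)

/-- Gaussian components below level `m`. -/
noncomputable def wlt (m : ℕ) (r : ℝ) : ℝ := ∑ j ∈ range m, Ahat j * g (R j) r

/-- Gaussian components from level `m` on. -/
noncomputable def wge (m : ℕ) (r : ℝ) : ℝ := ∑' j, Ahat (m + j) * g (R (m + j)) r

/-- The whole mixture. -/
noncomputable def wAll (r : ℝ) : ℝ := ∑' j, Ahat j * g (R j) r

/-- `a'_m = Ahat_m (1 + 2 ell_m / R_m)^3`. -/
noncomputable def aPrime (m : ℕ) : ℝ := Ahat m * (1 + 2 * (ell m : ℝ) / R m) ^ 3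

/-- `G''_{m+1} = ∑_{j > m} Ahat_j (1 + 2 ell_{m+1} / R_j)^3`. -/
noncomputable def Gpp (m : ℕ) : ℝ :=
  ∑' j, Ahat (m + 1 + j) * (1 + 2 * (ell (m + 1) : ℝ) / R (m + 1 + j)) ^ 3

/-- `Γ_m = a'_m + G''_{m+1}`. -/
noncomputable def Gam (m : ℕ) : ℝ := aPrime Ahat R ell m + Gpp Ahat R ell m

/-- `Ξ_m = (216 / ell_m) ∑_{j<m} Ahat_j (R_j + 1)`. -/
noncomputable def Xi (m : ℕ) : ℝ := (216 / (ell m : ℝ)) * ∑ j ∈ range m, Ahat j * (R j + 1)

/-- `M_m = 2^(m+2)`. -/
noncomputable def Mm (m : ℕ) : ℝ := 2 ^ (m + 2)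

variable {Ahat R ell}

lemma wlt_add_wge (hsum : ∀ r, Summable fun j => Ahat j * g (R j) r) (m : ℕ) (r : ℝ) :
    wlt Ahat R m r + wge Ahat R m r = wAll Ahat R r := by
  unfold wlt wge wAll
  have := (hsum r).sum_add_tsum_nat_add m
  rw [← this]
  congr 1
  refine tsum_congr fun j => ?_
  rw [add_comm m j]

lemma wlt_nonneg (hA : ∀ j, 0 ≤ Ahat j) (hR : ∀ j, 0 < R j) (m : ℕ) (r : ℝ) :
    0 ≤ wlt Ahat R m r :=
  Finset.sum_nonneg fun j _ => mul_nonneg (hA j) (Gauss.g_nonneg (hR j) r)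

/-- (L1) The tail is bounded by the row sums at the two grids. -/
theorem energy_wge_le (hA : ∀ j, 0 ≤ Ahat j) (hR : ∀ j, 0 < R j)
    (hell : ∀ j, 0 < ell j)
    (hsum : ∀ r, Summable fun j => Ahat j * g (R j) r)
    (hsum2 : ∀ m, Summable fun j =>
      Ahat (m + 1 + j) * (1 + 2 * (ell (m + 1) : ℝ) / R (m + 1 + j)) ^ 3)
    (m : ℕ) (τ : Fin 3 → ℝ) {N : ℕ} (x : Fin N → Pt) :
    energy (wge Ahat R m) x ≤
      (1 / 2) * aPrime Ahat R ell m * Q (ell m) τ x
        + (1 / 2) * Gpp Ahat R ell m * Q (ell (m + 1)) τ x := by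
  classical
  have hsum' : ∀ r, Summable fun j => Ahat (m + j) * g (R (m + j)) r := by
    intro r
    have := (summable_nat_add_iff m).mpr (hsum r)
    refine this.congr fun j => ?_
    rw [add_comm j m]
  have hsum'' : ∀ r, Summable fun j => Ahat (m + 1 + j) * g (R (m + 1 + j)) r := by
    intro r
    have := (summable_nat_add_iff (m + 1)).mpr (hsum r)
    refine this.congr fun j => ?_
    rw [add_comm j (m + 1)]
  have h1 : energy (wge Ahat R m) x
      = Ahat m * energy (g (R m)) x + ∑' j, Ahat (m + 1 + j) * energy (g (R (m + 1 + j))) x := by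
    have hsplit : ∀ r, wge Ahat R m r
        = Ahat m * g (R m) r + ∑' j, Ahat (m + 1 + j) * g (R (m + 1 + j)) r := by
      intro r
      unfold wge
      rw [(hsum' r).tsum_eq_zero_add]
      simp only [add_zero]
      congr 1
      refine tsum_congr fun j => ?_
      rw [show m + (j + 1) = m + 1 + j by ring]
    unfold energy
    simp only [hsplit]
    rw [Finset.sum_add_distrib, ← Finset.mul_sum]
    congr 1
    simp only [Finset.mul_sum]
    rw [Summable.tsum_finsetSum (fun p _ => hsum'' _)]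
  have hQ : ∀ h : ℝ, 0 ≤ h → 0 ≤ Q h τ x := fun h hh => by
    unfold Q; positivity
  have hell' : ∀ j, (0 : ℝ) < ell j := fun j => by exact_mod_cast hell j
  have h2 : ∑' j, Ahat (m + 1 + j) * energy (g (R (m + 1 + j))) x
      ≤ ∑' j, Ahat (m + 1 + j) * (1 + 2 * (ell (m + 1) : ℝ) / R (m + 1 + j)) ^ 3
          * ((1 / 2) * Q (ell (m + 1)) τ x) := by
    apply Summable.tsum_le_tsum
    · intro j
      have := Gauss.row (hR (m + 1 + j)) (hell' (m + 1)) τ x
      have h3 := mul_le_mul_of_nonneg_left this (hA (m + 1 + j))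
      unfold Q
      refine h3.trans (le_of_eq ?_)
      ring
    · have : ∀ j, Ahat (m + 1 + j) * energy (g (R (m + 1 + j))) x
          = ∑ p : Pair N, Ahat (m + 1 + j) * g (R (m + 1 + j)) (dist (x p.1.1) (x p.1.2)) := by
        intro j
        unfold energy
        rw [Finset.mul_sum]
      simp only [this]
      exact summable_sum fun p _ => hsum'' _
    · exact (hsum2 m).mul_right _
  have h3 : Ahat m * energy (g (R m)) x ≤ (1 / 2) * aPrime Ahat R ell m * Q (ell m) τ x := by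
    have := Gauss.row (hR m) (hell' m) τ x
    have h3 := mul_le_mul_of_nonneg_left this (hA m)
    unfold aPrime Q
    refine h3.trans (le_of_eq ?_)
    ring
  rw [h1]
  have h4 : ∑' j, Ahat (m + 1 + j) * (1 + 2 * (ell (m + 1) : ℝ) / R (m + 1 + j)) ^ 3
          * ((1 / 2) * Q (ell (m + 1)) τ x) = (1 / 2) * Gpp Ahat R ell m * Q (ell (m + 1)) τ x := by
    rw [tsum_mul_right]
    unfold Gpp
    ring
  linarith

/-- The pointwise bound reducing the moment sum to a row sum. -/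
lemma add_one_mul_g_le {R r : ℝ} (hR : 0 < R) (_hr : 0 ≤ r) :
    g R r * (r + 1) ≤ 3 * (R + 1) * g (√2 * R) r := by
  have hs2 : √2 ^ 2 = 2 := Real.sq_sqrt (by norm_num)
  have hs2pos : 0 < √2 := by positivity
  set y := r ^ 2 / (4 * R ^ 2) with hy
  have hy0 : 0 ≤ y := by positivity
  have e1 : -r ^ 2 / (2 * R ^ 2) = 2 * (-y) := by
    rw [hy]; field_simp; ring
  have e2 : -r ^ 2 / (2 * (√2 * R) ^ 2) = -y := by
    rw [hy, mul_pow, hs2]; field_simp; ring
  have ht : Real.exp (-r ^ 2 / (2 * R ^ 2)) = Real.exp (-y) * Real.exp (-y) := by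
    rw [e1, two_mul, Real.exp_add]
  unfold g
  rw [e2, ht]
  have hc : (√(2 * Real.pi) * (√2 * R))⁻¹ = (√(2 * Real.pi) * R)⁻¹ * (√2)⁻¹ := by
    rw [← mul_inv]; congr 1; ring
  rw [hc, mul_pow]
  set c := ((√(2 * Real.pi) * R)⁻¹) ^ 3 with hcdef
  have hc0 : 0 < c := by positivity
  set t := Real.exp (-y) with htdef
  have ht0 : 0 < t := Real.exp_pos _
  have ht1 : t ≤ 1 := by
    rw [htdef]; exact Real.exp_le_one_iff.mpr (by linarith)
  have hrt : r * t ≤ R := by
    have h1 : y + 1 ≤ Real.exp y := Real.add_one_le_exp y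
    have h2 : Real.exp y * t = 1 := by
      rw [htdef, ← Real.exp_add]; simp
    have h3 : r ≤ R * (y + 1) := by
      rw [hy]
      have : R * (r ^ 2 / (4 * R ^ 2) + 1) = (r ^ 2 + 4 * R ^ 2) / (4 * R) := by
        field_simp
      rw [this, le_div_iff₀ (by positivity)]
      nlinarith [sq_nonneg (r - 2 * R)]
    calc r * t ≤ (R * (y + 1)) * t := mul_le_mul_of_nonneg_right h3 ht0.le
      _ ≤ (R * Real.exp y) * t := by
          apply mul_le_mul_of_nonneg_right _ ht0.le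
          exact mul_le_mul_of_nonneg_left h1 hR.le
      _ = R := by rw [mul_assoc, h2, mul_one]
  have hmain : (r + 1) * t ≤ R + 1 := by nlinarith
  have hinv : ((√2)⁻¹) ^ 3 = √2 / 4 := by
    field_simp
    nlinarith
  rw [hinv]
  have hs2low : (14 / 10 : ℝ) ≤ √2 := Real.le_sqrt' (by norm_num) |>.mpr (by norm_num)
  have : (r + 1) * t * t ≤ (R + 1) * t := mul_le_mul_of_nonneg_right hmain ht0.le
  have h4 : (R + 1) * t ≤ 3 * (R + 1) * (√2 / 4) * t := by
    have : (1 : ℝ) ≤ 3 * (√2 / 4) := by linarith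
    have hR1 : 0 ≤ (R + 1) * t := by positivity
    nlinarith
  calc c * (t * t) * (r + 1) = c * ((r + 1) * t * t) := by ring
    _ ≤ c * (3 * (R + 1) * (√2 / 4) * t) :=
        mul_le_mul_of_nonneg_left (this.trans h4) hc0.le
    _ = 3 * (R + 1) * (c * (√2 / 4) * t) := by ring

/-- Same cell at grid side `1/2` forces distance `< 1`. -/
lemma dist_lt_one_of_cell_eq {τ : Fin 3 → ℝ} {y z : Pt}
    (h : cell (1 / 2) τ y = cell (1 / 2) τ z) : dist y z < 1 := by
  have hax : ∀ a : Fin 3, (y a - z a) ^ 2 < 1 / 4 := by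
    intro a
    have h1 : ⌊(y a - τ a) / (1 / 2)⌋ = ⌊(z a - τ a) / (1 / 2)⌋ := congrFun h a
    have h2 := Int.abs_sub_lt_one_of_floor_eq_floor h1
    have h3 : (y a - τ a) / (1 / 2) - (z a - τ a) / (1 / 2) = 2 * (y a - z a) := by ring
    rw [h3, abs_lt] at h2
    nlinarith [h2.1, h2.2]
  have h4 : dist y z ^ 2 < 1 := by
    rw [Gauss.dist_sq_eq, Fin.sum_univ_three]
    linarith [hax 0, hax 1, hax 2]
  have h5 : 0 ≤ dist y z := dist_nonneg
  nlinarith

/-- The unit-cell count is controlled by the short-range energy. -/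
theorem sameCell_half_le (s : ℝ → ℝ) (U : ℝ) (hU : 0 < U) (hs : ∀ r, 0 ≤ s r)
    (hsU : ∀ r, 0 ≤ r → r < 1 → U ≤ s r) {N : ℕ} (x : Fin N → Pt) (τ : Fin 3 → ℝ) :
    (sameCell (1 / 2) τ x : ℝ) ≤ N + 2 * energy s x / U := by
  classical
  set ψ : ℝ → ℝ := fun r => if r < 1 then 1 else 0 with hψ
  have h1 := Gauss.two_energy_add_diag ψ x
  have h0 : ψ 0 = 1 := by simp [hψ]
  have h2 : (sameCell (1 / 2) τ x : ℝ) ≤ ∑ i, ∑ k, ψ (dist (x i) (x k)) := by
    unfold sameCell
    rw [Finset.card_filter]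
    push_cast
    rw [Fintype.sum_prod_type]
    refine Finset.sum_le_sum fun i _ => Finset.sum_le_sum fun k _ => ?_
    by_cases h : cell (1 / 2) τ (x i) = cell (1 / 2) τ (x k)
    · have := dist_lt_one_of_cell_eq h
      rw [if_pos h]
      simp only [hψ]
      rw [if_pos this]
    · simp only [h, if_false]
      simp only [hψ]
      split_ifs <;> norm_num
  have h3 : energy ψ x ≤ energy s x / U := by
    unfold energy
    rw [Finset.sum_div]
    refine Finset.sum_le_sum fun p _ => ?_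
    rw [le_div_iff₀ hU]
    simp only [hψ]
    split_ifs with h
    · simpa using hsU _ dist_nonneg h
    · simpa using hs _
  rw [h0] at h1
  have h4 : 2 * energy s x / U = 2 * (energy s x / U) := by ring
  rw [h4]
  linarith

/-- Moment sum of a Gaussian on pairs. -/
theorem sum_g_moment_le {R : ℝ} (hR : 1 ≤ R) (τ : Fin 3 → ℝ) {N : ℕ} (x : Fin N → Pt) :
    ∑ p : Pair N, g R (dist (x p.1.1) (x p.1.2)) * (dist (x p.1.1) (x p.1.2) + 1)
      ≤ 72 * (R + 1) * (sameCell (1 / 2) τ x : ℝ) := by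
  have hR0 : 0 < R := by linarith
  have hs2 : (14 / 10 : ℝ) ≤ √2 := Real.le_sqrt' (by norm_num) |>.mpr (by norm_num)
  have hR2 : 0 < √2 * R := by positivity
  have h1 : ∑ p : Pair N, g R (dist (x p.1.1) (x p.1.2)) * (dist (x p.1.1) (x p.1.2) + 1)
      ≤ 3 * (R + 1) * energy (g (√2 * R)) x := by
    unfold energy
    rw [Finset.mul_sum]
    exact Finset.sum_le_sum fun p _ => add_one_mul_g_le hR0 dist_nonneg
  have h2 := Gauss.row (R := √2 * R) (h := 1 / 2) hR2 (by norm_num) τ x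
  have h3 : (1 + 2 * (1 / 2) / (√2 * R)) ^ 3 ≤ 6 := by
    have h4 : 2 * (1 / 2) / (√2 * R) ≤ 3 / 4 := by
      rw [div_le_div_iff₀ hR2 (by norm_num)]
      nlinarith
    have h5 : 0 ≤ 2 * (1 / 2) / (√2 * R) := by positivity
    have h6 : (1 + 2 * (1 / 2) / (√2 * R)) ≤ 7 / 4 := by linarith
    have h7 : (1 + 2 * (1 / 2) / (√2 * R)) ^ 3 ≤ (7 / 4) ^ 3 :=
      pow_le_pow_left₀ (by linarith) h6 3
    norm_num at h7 ⊢
    linarith
  have hS : 0 ≤ (sameCell (1 / 2) τ x : ℝ) := by positivity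
  have h8 : energy (g (√2 * R)) x ≤ 24 * (sameCell (1 / 2) τ x : ℝ) := by
    refine h2.trans ?_
    have : (1 / 2) * (1 + 2 * (1 / 2) / (√2 * R)) ^ 3 * ((sameCell (1 / 2) τ x : ℝ) / (1 / 2) ^ 3)
        = 4 * (1 + 2 * (1 / 2) / (√2 * R)) ^ 3 * (sameCell (1 / 2) τ x : ℝ) := by
      field_simp
      ring
    rw [this]
    nlinarith
  have h9 : 0 ≤ 3 * (R + 1) := by positivity
  calc _ ≤ 3 * (R + 1) * energy (g (√2 * R)) x := h1
    _ ≤ 3 * (R + 1) * (24 * (sameCell (1 / 2) τ x : ℝ)) := mul_le_mul_of_nonneg_left h8 h9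
    _ = 72 * (R + 1) * (sameCell (1 / 2) τ x : ℝ) := by ring

/-- (L3) The shift sum of the cross terms at level `m`. -/
theorem sum_cross_wlt_le (s : ℝ → ℝ) (U : ℝ) (hU : 0 < U) (hs : ∀ r, 0 ≤ s r)
    (hsU : ∀ r, 0 ≤ r → r < 1 → U ≤ s r)
    (hA : ∀ j, 0 ≤ Ahat j) (hR : ∀ j, 1 ≤ R j) (m T : ℕ) (hm : 0 < ell m) (hd : ell m ∣ T)
    {N : ℕ} (x : Fin N → Pt) :
    ∑ τ : Fin 3 → Fin T, cross (wlt Ahat R m) (ell m) (shift τ) x
      ≤ (T : ℝ) ^ 3 * (Xi Ahat R ell m * (2 * energy s x / U + N)) := by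
  have hR0 : ∀ j, 0 < R j := fun j => by linarith [hR j]
  have h1 := sum_cross_le (wlt Ahat R m) (wlt_nonneg hA hR0 m) (ell m) T hm hd x
  refine h1.trans ?_
  set Y : ℝ := 2 * energy s x / U + N with hY
  have hS : ∀ j, ∑ p : Pair N, g (R j) (dist (x p.1.1) (x p.1.2)) * (dist (x p.1.1) (x p.1.2) + 1)
      ≤ 72 * (R j + 1) * Y := by
    intro j
    refine (sum_g_moment_le (hR j) 0 x).trans ?_
    apply mul_le_mul_of_nonneg_left _ (by linarith [hR j])
    have := sameCell_half_le s U hU hs hsU x 0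
    rw [hY]
    linarith
  have h2 : ∑ p : Pair N, wlt Ahat R m (dist (x p.1.1) (x p.1.2)) * (dist (x p.1.1) (x p.1.2) + 1)
      = ∑ j ∈ range m, Ahat j *
        ∑ p : Pair N, g (R j) (dist (x p.1.1) (x p.1.2)) * (dist (x p.1.1) (x p.1.2) + 1) := by
    unfold wlt
    simp only [Finset.sum_mul, Finset.mul_sum]
    rw [Finset.sum_comm]
    refine Finset.sum_congr rfl fun j _ => Finset.sum_congr rfl fun p _ => ?_
    ring
  have h3 : ∑ j ∈ range m, Ahat j *
        ∑ p : Pair N, g (R j) (dist (x p.1.1) (x p.1.2)) * (dist (x p.1.1) (x p.1.2) + 1)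
      ≤ ∑ j ∈ range m, Ahat j * (72 * (R j + 1) * Y) :=
    Finset.sum_le_sum fun j _ => mul_le_mul_of_nonneg_left (hS j) (hA j)
  rw [h2]
  have hell' : (0 : ℝ) < ell m := by exact_mod_cast hm
  have h4 : (T : ℝ) ^ 3 * (3 / ell m) ≥ 0 := by positivity
  refine (mul_le_mul_of_nonneg_left h3 h4).trans (le_of_eq ?_)
  unfold Xi
  have h5 : ∑ j ∈ range m, Ahat j * (72 * (R j + 1) * Y)
      = 72 * Y * ∑ j ∈ range m, Ahat j * (R j + 1) := by
    rw [Finset.mul_sum]
    refine Finset.sum_congr rfl fun j _ => ?_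
    ring
  rw [h5]
  field_simp
  ring

/-- Goodness of a shift at level `m`. -/
def Good (s : ℝ → ℝ) (U : ℝ) (Ahat R : ℕ → ℝ) (ell : ℕ → ℕ) (m : ℕ) {T : ℕ}
    (τ : Fin 3 → Fin T) {N : ℕ} (x : Fin N → Pt) : Prop :=
  cross (wlt Ahat R m) (ell m) (shift τ) x
    ≤ Mm m * (Xi Ahat R ell m * (2 * energy s x / U + N))

lemma Xi_nonneg (hA : ∀ j, 0 ≤ Ahat j) (hR : ∀ j, 1 ≤ R j) (m : ℕ) : 0 ≤ Xi Ahat R ell m := by
  unfold Xi
  apply mul_nonneg (by positivity)
  exact Finset.sum_nonneg fun j _ => mul_nonneg (hA j) (by linarith [hR j])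

open scoped Classical in
/-- Markov at one level. -/
theorem card_bad_le (s : ℝ → ℝ) (U : ℝ) (hU : 0 < U) (hs : ∀ r, 0 ≤ s r)
    (hsU : ∀ r, 0 ≤ r → r < 1 → U ≤ s r)
    (hA : ∀ j, 0 ≤ Ahat j) (hR : ∀ j, 1 ≤ R j) (m T : ℕ) (hm : 0 < ell m) (hd : ell m ∣ T)
    {N : ℕ} (x : Fin N → Pt) :
    ((univ.filter fun τ : Fin 3 → Fin T => ¬ Good s U Ahat R ell m τ x).card : ℝ)
      ≤ (T : ℝ) ^ 3 / Mm m := by
  classical
  have hR0 : ∀ j, 0 < R j := fun j => by linarith [hR j]
  have hM : 0 < Mm m := by unfold Mm; positivity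
  have hY : 0 ≤ 2 * energy s x / U + N := by
    have := energy_nonneg' x s hs
    positivity
  set c := Xi Ahat R ell m * (2 * energy s x / U + N) with hc
  have hc0 : 0 ≤ c := mul_nonneg (Xi_nonneg hA hR m) hY
  have hsum := sum_cross_wlt_le s U hU hs hsU hA hR m T hm hd x
  have hnn : ∀ τ : Fin 3 → Fin T, 0 ≤ cross (wlt Ahat R m) (ell m) (shift τ) x :=
    fun τ => cross_nonneg x _ _ _ (wlt_nonneg hA hR0 m)
  set B := univ.filter fun τ : Fin 3 → Fin T => ¬ Good s U Ahat R ell m τ x with hB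
  have h1 : ∑ τ ∈ B, cross (wlt Ahat R m) (ell m) (shift τ) x
      ≤ ∑ τ : Fin 3 → Fin T, cross (wlt Ahat R m) (ell m) (shift τ) x :=
    Finset.sum_le_sum_of_subset_of_nonneg (Finset.subset_univ _) fun τ _ _ => hnn τ
  have h2 : (B.card : ℝ) * (Mm m * c) ≤ ∑ τ ∈ B, cross (wlt Ahat R m) (ell m) (shift τ) x := by
    rw [← nsmul_eq_mul]
    apply Finset.card_nsmul_le_sum
    intro τ hτ
    simp only [hB, mem_filter, mem_univ, true_and, Good, not_le] at hτ
    exact hτ.le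
  have hT : (0 : ℝ) ≤ (T : ℝ) ^ 3 := by positivity
  rcases hc0.eq_or_lt with hc1 | hc1
  · -- `c = 0`: every cross term vanishes, no bad shift
    have hB0 : B = ∅ := by
      rw [Finset.eq_empty_iff_forall_notMem]
      intro τ hτ
      simp only [hB, mem_filter, mem_univ, true_and, Good, not_le] at hτ
      rw [← hc, ← hc1, mul_zero] at hτ
      have h3 : cross (wlt Ahat R m) (ell m) (shift τ) x
          ≤ ∑ τ : Fin 3 → Fin T, cross (wlt Ahat R m) (ell m) (shift τ) x :=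
        Finset.single_le_sum (fun τ _ => hnn τ) (Finset.mem_univ τ)
      rw [← hc, ← hc1, mul_zero] at hsum
      linarith
    rw [hB0]
    simp only [Finset.card_empty, Nat.cast_zero]
    positivity
  · rw [le_div_iff₀ hM]
    have h3 : (B.card : ℝ) * (Mm m * c) ≤ (T : ℝ) ^ 3 * c := h2.trans (h1.trans hsum)
    have h4 : (B.card : ℝ) * Mm m * c ≤ (T : ℝ) ^ 3 * c := by linarith [h3, mul_assoc (B.card : ℝ) (Mm m) c]
    exact le_of_mul_le_mul_right h4 hc1

/-- Level `0` has no cross term. -/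
lemma good_zero (s : ℝ → ℝ) (U : ℝ) {T : ℕ} (τ : Fin 3 → Fin T) {N : ℕ} (x : Fin N → Pt) :
    Good s U Ahat R ell 0 τ x := by
  unfold Good cross Xi wlt
  simp

lemma sum_inv_Mm_le (J : ℕ) : ∑ m ∈ range J, (if m = 0 then 0 else 1 / Mm m) ≤ (1 / 4 : ℝ) := by
  have key : ∀ J : ℕ, ∑ m ∈ range (J + 1), (if m = 0 then 0 else 1 / Mm m)
      = (1 / 4 : ℝ) - 1 / 2 ^ (J + 2) := by
    intro J
    induction J with
    | zero => norm_num
    | succ n ih =>
      rw [Finset.sum_range_succ, ih]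
      have : n + 1 ≠ 0 := by omega
      simp only [this, if_false]
      unfold Mm
      rw [show n + 1 + 2 = n + 3 by ring, show n + 2 = n + 2 by rfl]
      field_simp
      ring
  cases J with
  | zero => simp
  | succ n =>
    rw [key n]
    have : (0 : ℝ) < 1 / 2 ^ (n + 2) := by positivity
    linarith

open scoped Classical in
/-- (L4) For each configuration at least `3/4` of the shifts are good at all levels `< J`. -/
theorem card_good_ge (s : ℝ → ℝ) (U : ℝ) (hU : 0 < U) (hs : ∀ r, 0 ≤ s r)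
    (hsU : ∀ r, 0 ≤ r → r < 1 → U ≤ s r)
    (hA : ∀ j, 0 ≤ Ahat j) (hR : ∀ j, 1 ≤ R j) (J T : ℕ) (hT : 0 < T)
    (hm : ∀ m < J, 0 < ell m) (hd : ∀ m < J, ell m ∣ T)
    {N : ℕ} (x : Fin N → Pt) :
    (3 / 4 : ℝ) * (T : ℝ) ^ 3 ≤
      ((univ.filter fun τ : Fin 3 → Fin T => ∀ m < J, Good s U Ahat R ell m τ x).card : ℝ) := by
  classical
  set G := univ.filter fun τ : Fin 3 → Fin T => ∀ m < J, Good s U Ahat R ell m τ x with hG
  have hcompl : (Finset.univ \ G) ⊆ (range J).biUnion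
      (fun m => univ.filter fun τ : Fin 3 → Fin T => ¬ Good s U Ahat R ell m τ x) := by
    intro τ hτ
    simp only [hG, mem_sdiff, mem_univ, mem_filter, true_and, not_forall] at hτ
    obtain ⟨m, hm', hb⟩ := hτ
    simp only [mem_biUnion, mem_range, mem_filter, mem_univ, true_and]
    exact ⟨m, hm', hb⟩
  have h1 : ((Finset.univ \ G).card : ℝ) ≤ ∑ m ∈ range J,
      ((univ.filter fun τ : Fin 3 → Fin T => ¬ Good s U Ahat R ell m τ x).card : ℝ) := by
    have := (Finset.card_le_card hcompl).trans Finset.card_biUnion_le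
    exact_mod_cast this
  have h2 : ∑ m ∈ range J,
      ((univ.filter fun τ : Fin 3 → Fin T => ¬ Good s U Ahat R ell m τ x).card : ℝ)
      ≤ ∑ m ∈ range J, (T : ℝ) ^ 3 * (if m = 0 then 0 else 1 / Mm m) := by
    refine Finset.sum_le_sum fun m hm' => ?_
    have hm'' := Finset.mem_range.mp hm'
    by_cases h0 : m = 0
    · subst h0
      have : (univ.filter fun τ : Fin 3 → Fin T => ¬ Good s U Ahat R ell 0 τ x) = ∅ := by
        rw [Finset.eq_empty_iff_forall_notMem]
        intro τ hτ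
        simp only [mem_filter, mem_univ, true_and] at hτ
        exact hτ (good_zero s U τ x)
      rw [this]
      simp
    · simp only [h0, if_false]
      have := card_bad_le s U hU hs hsU hA hR m T (hm m hm'') (hd m hm'') x
      refine this.trans (le_of_eq ?_)
      ring
  rw [← Finset.mul_sum] at h2
  have h3 := sum_inv_Mm_le J
  have hTpos : (0 : ℝ) ≤ (T : ℝ) ^ 3 := by positivity
  have h4 : ((Finset.univ \ G).card : ℝ) ≤ (T : ℝ) ^ 3 * (1 / 4) :=
    h1.trans (h2.trans (mul_le_mul_of_nonneg_left h3 hTpos))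
  have h5 : ((Finset.univ \ G).card : ℝ) + (G.card : ℝ) = (T : ℝ) ^ 3 := by
    have : (Finset.univ \ G).card + G.card = (Finset.univ : Finset (Fin 3 → Fin T)).card :=
      Finset.card_sdiff_add_card_eq_card (Finset.subset_univ _)
    have h6 : (Finset.univ : Finset (Fin 3 → Fin T)).card = T ^ 3 := by
      simp
    rw [h6] at this
    exact_mod_cast this
  linarith

/-- `u_m = 1 - 2 A M_m Ξ_m / U`. -/
noncomputable def um (Ahat R : ℕ → ℝ) (ell : ℕ → ℕ) (A U : ℝ) (m : ℕ) : ℝ :=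
  1 - 2 * A * Mm m * Xi Ahat R ell m / U

/-- (L5) The level inequality at a good shift. -/
theorem level_good (s : ℝ → ℝ) (U A : ℝ) (hU : 0 < U) (hA' : 0 ≤ A) (hs : ∀ r, 0 ≤ s r)
    (hA : ∀ j, 0 ≤ Ahat j) (hR : ∀ j, 0 < R j) (hell : ∀ j, 0 < ell j)
    (hsum : ∀ r, Summable fun j => Ahat j * g (R j) r)
    (hsum2 : ∀ m, Summable fun j =>
      Ahat (m + 1 + j) * (1 + 2 * (ell (m + 1) : ℝ) / R (m + 1 + j)) ^ 3)
    (m : ℕ) (hum : 0 ≤ um Ahat R ell A U m)
    {T : ℕ} (τ : Fin 3 → Fin T) {N : ℕ} (x : Fin N → Pt)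
    (hgood : Good s U Ahat R ell m τ x) :
    cellEnergy (fun r => um Ahat R ell A U m * s r - A * wlt Ahat R m r) (ell m) (shift τ) x
        - (1 / 2) * A * Gam Ahat R ell m * Q (ell m) (shift τ) x
        + (1 / 2) * A * Gpp Ahat R ell m * (Q (ell m) (shift τ) x - Q (ell (m + 1)) (shift τ) x)
        - A * (Mm m * Xi Ahat R ell m) * N
      ≤ energy (fun r => s r - A * wAll Ahat R r) x := by
  have h1 := level_ineq s (wlt Ahat R m) (wge Ahat R m) A (um Ahat R ell A U m) hum hs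
    (ell m) (shift τ) x
  have h2 : (fun r => s r - A * (wlt Ahat R m r + wge Ahat R m r))
      = fun r => s r - A * wAll Ahat R r := by
    funext r
    rw [wlt_add_wge hsum]
  rw [h2] at h1
  have h3 := energy_wge_le hA hR hell hsum hsum2 m (shift τ) x
  have h4 := mul_le_mul_of_nonneg_left h3 hA'
  have h5 := mul_le_mul_of_nonneg_left hgood hA'
  have h6 : (1 - um Ahat R ell A U m) * energy s x
      = A * (Mm m * (Xi Ahat R ell m * (2 * energy s x / U))) := by
    unfold um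
    field_simp
    ring
  unfold Gam
  rw [h6] at h1
  have h7 : A * (Mm m * (Xi Ahat R ell m * (2 * energy s x / U + N)))
      = A * (Mm m * (Xi Ahat R ell m * (2 * energy s x / U))) + A * (Mm m * Xi Ahat R ell m) * N := by
    ring
  rw [h7] at h5
  nlinarith


end Data

/-! ### Measurability -/

section Measurable

open MeasureTheory

variable {N : ℕ} (h : ℝ) (τ : Fin 3 → ℝ)

lemma measurable_cell_coord (i : Fin N) :
    Measurable fun x : Fin N → Pt => cell h τ (x i) := by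
  refine measurable_pi_lambda _ fun a => ?_
  unfold cell
  have hc : Continuous fun x : Fin N → Pt => ((x i) a - τ a) / h := by
    fun_prop (disch := skip)
  exact Int.measurable_floor.comp hc.measurable

lemma measurableSet_sameCell (i k : Fin N) :
    MeasurableSet {x : Fin N → Pt | cell h τ (x i) = cell h τ (x k)} := by
  have h1 := (measurable_cell_coord h τ i).prodMk (measurable_cell_coord h τ k)
  have h2 : MeasurableSet {p : (Fin 3 → ℤ) × (Fin 3 → ℤ) | p.1 = p.2} :=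
    (Set.to_countable _).measurableSet
  exact h1 h2

lemma measurable_dist_pair (i k : Fin N) :
    Measurable fun x : Fin N → Pt => dist (x i) (x k) := by
  have : Continuous fun x : Fin N → Pt => dist (x i) (x k) := by fun_prop
  exact this.measurable

theorem measurable_cellEnergy {φ : ℝ → ℝ} (hφ : Measurable φ) :
    Measurable fun x : Fin N → Pt => cellEnergy φ h τ x := by
  unfold cellEnergy
  refine Finset.measurable_sum _ fun p _ => ?_
  exact Measurable.ite (measurableSet_sameCell h τ _ _)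
    (hφ.comp (measurable_dist_pair _ _)) measurable_const

theorem measurable_cross {φ : ℝ → ℝ} (hφ : Measurable φ) :
    Measurable fun x : Fin N → Pt => cross φ h τ x := by
  unfold cross
  refine Finset.measurable_sum _ fun p _ => ?_
  exact Measurable.ite (measurableSet_sameCell h τ _ _)
    measurable_const (hφ.comp (measurable_dist_pair _ _))

theorem measurable_energy {φ : ℝ → ℝ} (hφ : Measurable φ) :
    Measurable fun x : Fin N → Pt => energy φ x := by
  unfold energy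
  exact Finset.measurable_sum _ fun p _ => hφ.comp (measurable_dist_pair _ _)

theorem measurable_sameCell :
    Measurable fun x : Fin N → Pt => (sameCell h τ x : ℝ) := by
  classical
  have : (fun x : Fin N → Pt => (sameCell h τ x : ℝ))
      = fun x => ∑ p : Fin N × Fin N,
          if cell h τ (x p.1) = cell h τ (x p.2) then (1 : ℝ) else 0 := by
    funext x
    unfold sameCell
    rw [Finset.card_filter]
    push_cast
    rfl
  rw [this]
  refine Finset.measurable_sum _ fun p _ => ?_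
  exact Measurable.ite (measurableSet_sameCell h τ _ _) measurable_const measurable_const

theorem measurable_Q : Measurable fun x : Fin N → Pt => Q h τ x := by
  unfold Q
  exact (measurable_sameCell h τ).div_const _

end Measurable

section GoodMeasurable

open MeasureTheory

variable (Ahat R : ℕ → ℝ) (ell : ℕ → ℕ)

lemma measurable_wlt (m : ℕ) : Measurable (wlt Ahat R m) := by
  have : ∀ j, Measurable (g (R j)) := fun j => (Gauss.continuous_g (R := R j)).measurable
  unfold wlt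
  refine Finset.measurable_fun_sum _ fun j _ => (this j).const_mul _

theorem measurableSet_good {s : ℝ → ℝ} (hs : Measurable s) (U : ℝ) (m : ℕ)
    {T : ℕ} (τ : Fin 3 → Fin T) {N : ℕ} :
    MeasurableSet {x : Fin N → Pt | Good s U Ahat R ell m τ x} := by
  unfold Good
  refine measurableSet_le (measurable_cross _ _ (measurable_wlt Ahat R m)) ?_
  refine Measurable.const_mul ?_ _
  refine Measurable.const_mul ?_ _
  exact (((measurable_energy hs).const_mul 2).div_const U).add measurable_const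

end GoodMeasurable

end Crest.Agent.TL.Level
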