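import Crest.Agent.TL.Series
import Crest.Agent.TL.Level

/-!
# The arithmetic of `o_m` in the S0209/S0210 blueprint

`Γ_m = a'_m + G''_{m+1}`, with `a'_m = Â_m (1 + 2 ℓ_m/R_m)³` and
`G''_{m+1} = ∑_{j>m} Â_j (1 + 2 ℓ_{m+1}/R_j)³`.

Main estimates (for `e₀ + 1 ≤ K₀`):
* `GamL_sub_le` : `Γ_m - λ_m³ Γ^true_m ≤ 51 ε_m Â_{m+1}`, `λ_m = ℓ_m/(ℓ_m+2)`,
* `whi_zero_le` : `w_{≥m}(0) ≤ ε_m Â_{m+1}`,
* `Xi_le` : `∑_{j<m} Â_j (R_j+3) / ℓ_m` is at most `2^(-15 a_m + …)`.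
-/

set_option autoImplicit false

namespace Crest.Agent.TL.Rate

open Real MeasureTheory Finset Filter
open Crest.ProbabilityR.Continuum
open Crest.Agent.TL.Gauss Crest.Agent.TL.Series

/-- `a'_m = Â_m (1+2ℓ_m/R_m)³`. -/
noncomputable def ap (K0 e0 m : ℕ) : ℝ :=
  Ah K0 m * (1 + 2 * (ell K0 e0 m : ℝ) / RR K0 m) ^ 3

/-- `G''_{m+1} = ∑_{j>m} Â_j (1+2ℓ_{m+1}/R_j)³`. -/
noncomputable def Gpp (K0 e0 m : ℕ) : ℝ :=
  ∑' j, Ah K0 (m + 1 + j) * (1 + 2 * (ell K0 e0 (m + 1) : ℝ) / RR K0 (m + 1 + j)) ^ 3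

/-- `Γ_m = a'_m + G''_{m+1}`. -/
noncomputable def GamL (K0 e0 m : ℕ) : ℝ := ap K0 e0 m + Gpp K0 e0 m

/-- `Γ̂_0 = ∑_j Â_j (1+2ℓ_0/R_j)³`, the constant in `W(x) ≤ (1/2) Γ̂_0 Q_0`. -/
noncomputable def GamHat (K0 e0 : ℕ) : ℝ :=
  ∑' j, Ah K0 j * (1 + 2 * (ell K0 e0 0 : ℝ) / RR K0 j) ^ 3

/-- `λ_m = ℓ_m / (ℓ_m + 2)`. -/
noncomputable def lam (K0 e0 m : ℕ) : ℝ := (ell K0 e0 m : ℝ) / ((ell K0 e0 m : ℝ) + 2)

/-- `∑_{j<m} Â_j (R_j+3)`: the numerator of `Ξ_m`. -/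
noncomputable def XiNum (K0 m : ℕ) : ℝ := ∑ j ∈ Finset.range m, Ah K0 j * (RR K0 j + 3)

section
variable {K0 e0 : ℕ}

lemma ell_pos' (K0 e0 m : ℕ) : (0:ℝ) < ell K0 e0 m := by exact_mod_cast ell_pos K0 e0 m

lemma eps_pos (e0 m : ℕ) : 0 < eps e0 m := by unfold eps; positivity

lemma eps_le_one (e0 m : ℕ) : eps e0 m ≤ 1 := by
  unfold eps
  rw [div_le_one (by positivity)]
  exact one_le_pow₀ (by norm_num)

lemma eps_succ (e0 m : ℕ) : eps e0 (m + 1) = eps e0 m / 2 := by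
  unfold eps
  rw [show m + 1 + e0 = (m + e0) + 1 by ring, pow_succ]
  field_simp

/-- `Â_{m+1} ≤ Â_m`. -/
lemma Ah_succ_le (K0 m : ℕ) : Ah K0 (m + 1) ≤ Ah K0 m := by
  rw [Ah_succ]
  apply div_le_self (Ah_pos K0 m).le
  exact one_le_pow₀ (by norm_num)

lemma Ah_succ_le_half {K0 : ℕ} (hK : 1 ≤ K0) (m : ℕ) : Ah K0 (m + 1) ≤ Ah K0 m / 2 := by
  rw [Ah_succ]
  apply div_le_div_of_nonneg_left (Ah_pos K0 m).le (by norm_num)
  calc (2:ℝ) = 2 ^ 1 := by norm_num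
    _ ≤ _ := pow_le_pow_right₀ (by norm_num) (by have := aa_ge hK m; omega)

/-- The relative cell size `ℓ_m/R_m`. -/
lemma ell_div_RR_eq (hK : e0 + 1 ≤ K0) (m : ℕ) :
    (ell K0 e0 m : ℝ) / RR K0 m * Ah K0 m = eps e0 m * Ah K0 (m + 1) := by
  rw [ell_div_RR hK m]
  have := (Ah_pos K0 m).ne'
  field_simp

lemma ell_div_RR_le_one (hK : e0 + 1 ≤ K0) (m : ℕ) : (ell K0 e0 m : ℝ) / RR K0 m ≤ 1 := by
  rw [ell_div_RR hK m]
  have h1 : Ah K0 (m + 1) / Ah K0 m ≤ 1 := by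
    rw [div_le_one (Ah_pos K0 m)]; exact Ah_succ_le K0 m
  have h2 := eps_le_one e0 m
  have h3 : 0 ≤ Ah K0 (m + 1) / Ah K0 m := div_nonneg (Ah_pos _ _).le (Ah_pos _ _).le
  nlinarith [eps_pos e0 m]

lemma RR_mono (K0 : ℕ) {m n : ℕ} (h : m ≤ n) : RR K0 m ≤ RR K0 n := by
  unfold RR aa
  apply pow_le_pow_right₀ (by norm_num)
  have : 2 ^ m ≤ 2 ^ n := pow_le_pow_right₀ (by norm_num) h
  nlinarith [Nat.mul_le_mul_left K0 this]

lemma ell_div_RR_shift_le (_hK : e0 + 1 ≤ K0) (m j : ℕ) :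
    (ell K0 e0 m : ℝ) / RR K0 (m + j) ≤ (ell K0 e0 m : ℝ) / RR K0 m :=
  div_le_div_of_nonneg_left (ell_pos' _ _ _).le (RR_pos _ _) (RR_mono K0 (by omega))

lemma cube_sub_one_le {x : ℝ} (h0 : 0 ≤ x) (h1 : x ≤ 1) : (1 + 2 * x) ^ 3 - 1 ≤ 26 * x := by
  have h2 : x ^ 2 ≤ x := by nlinarith
  have h3 : x ^ 3 ≤ x := by nlinarith
  nlinarith

lemma one_le_cube {x : ℝ} (h0 : 0 ≤ x) : 1 ≤ (1 + 2 * x) ^ 3 :=
  one_le_pow₀ (by linarith)

lemma cube_le {x : ℝ} (h0 : 0 ≤ x) (h1 : x ≤ 1) : (1 + 2 * x) ^ 3 ≤ 27 := by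
  have h2 : (1 + 2 * x) ^ 3 ≤ 3 ^ 3 := pow_le_pow_left₀ (by linarith) (by linarith) 3
  linarith

lemma summable_Gpp (hK : e0 + 1 ≤ K0) (m : ℕ) :
    Summable (fun j => Ah K0 (m + 1 + j) *
      (1 + 2 * (ell K0 e0 (m + 1) : ℝ) / RR K0 (m + 1 + j)) ^ 3) := by
  have hK1 : 1 ≤ K0 := by omega
  refine Summable.of_nonneg_of_le (fun j => mul_nonneg (Ah_pos _ _).le (by
      have : 0 ≤ (ell K0 e0 (m + 1) : ℝ) / RR K0 (m + 1 + j) :=
        div_nonneg (ell_pos' _ _ _).le (RR_pos _ _).le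
      have e : 1 + 2 * (ell K0 e0 (m + 1) : ℝ) / RR K0 (m + 1 + j) =
        1 + 2 * ((ell K0 e0 (m + 1) : ℝ) / RR K0 (m + 1 + j)) := by ring
      rw [e]
      positivity)) (fun j => ?_) ((summable_Ah_shift hK1 (m + 1)).mul_right 27)
  apply mul_le_mul_of_nonneg_left _ (Ah_pos _ _).le
  have e : 1 + 2 * (ell K0 e0 (m + 1) : ℝ) / RR K0 (m + 1 + j) =
      1 + 2 * ((ell K0 e0 (m + 1) : ℝ) / RR K0 (m + 1 + j)) := by ring
  rw [e]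
  exact cube_le (div_nonneg (ell_pos' _ _ _).le (RR_pos _ _).le)
    ((ell_div_RR_shift_le hK (m + 1) j).trans (ell_div_RR_le_one hK (m + 1)))

/-- `κ_m` has the right size : `Â_{m+1} ≤ G''_{m+1}`. -/
lemma Ah_le_Gpp (hK : e0 + 1 ≤ K0) (m : ℕ) : Ah K0 (m + 1) ≤ Gpp K0 e0 m := by
  have hK1 : 1 ≤ K0 := by omega
  have h1 : Gam K0 (m + 1) ≤ Gpp K0 e0 m := by
    refine (summable_Ah_shift hK1 (m + 1)).tsum_le_tsum (fun j => ?_) (summable_Gpp hK m)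
    have : (1:ℝ) ≤ (1 + 2 * (ell K0 e0 (m + 1) : ℝ) / RR K0 (m + 1 + j)) ^ 3 := by
      have e : 1 + 2 * (ell K0 e0 (m + 1) : ℝ) / RR K0 (m + 1 + j) =
        1 + 2 * ((ell K0 e0 (m + 1) : ℝ) / RR K0 (m + 1 + j)) := by ring
      rw [e]
      exact one_le_cube (div_nonneg (ell_pos' _ _ _).le (RR_pos _ _).le)
    have hA := Ah_pos K0 (m + 1 + j)
    nlinarith
  have h2 : Ah K0 (m + 1) ≤ Gam K0 (m + 1) := by
    rw [Gam_eq hK1]
    linarith [Gam_pos hK1 (m + 1 + 1)]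
  linarith

/-- `a'_m - Â_m ≤ 26 ε_m Â_{m+1}`. -/
lemma ap_sub_le (hK : e0 + 1 ≤ K0) (m : ℕ) :
    ap K0 e0 m - Ah K0 m ≤ 26 * (eps e0 m * Ah K0 (m + 1)) := by
  unfold ap
  have h0 : 0 ≤ (ell K0 e0 m : ℝ) / RR K0 m := div_nonneg (ell_pos' _ _ _).le (RR_pos _ _).le
  have h1 := cube_sub_one_le h0 (ell_div_RR_le_one hK m)
  have e : 1 + 2 * (ell K0 e0 m : ℝ) / RR K0 m = 1 + 2 * ((ell K0 e0 m : ℝ) / RR K0 m) := by ring
  rw [e, ← ell_div_RR_eq hK m]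
  have hA := Ah_pos K0 m
  nlinarith

lemma Gpp_sub_le (hK : e0 + 1 ≤ K0) (m : ℕ) :
    Gpp K0 e0 m - Gam K0 (m + 1) ≤ 13 * (eps e0 m * Ah K0 (m + 1)) := by
  have hK1 : 1 ≤ K0 := by omega
  -- termwise
  set x : ℝ := (ell K0 e0 (m + 1) : ℝ) / RR K0 (m + 1) with hx
  have hx0 : 0 ≤ x := div_nonneg (ell_pos' _ _ _).le (RR_pos _ _).le
  have hterm : ∀ j, Ah K0 (m + 1 + j) * (1 + 2 * (ell K0 e0 (m + 1) : ℝ) / RR K0 (m + 1 + j)) ^ 3 ≤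
      Ah K0 (m + 1 + j) * (1 + 26 * x) := by
    intro j
    apply mul_le_mul_of_nonneg_left _ (Ah_pos _ _).le
    have h1 := ell_div_RR_shift_le hK (m + 1) j
    have h0 : 0 ≤ (ell K0 e0 (m + 1) : ℝ) / RR K0 (m + 1 + j) :=
      div_nonneg (ell_pos' _ _ _).le (RR_pos _ _).le
    have h2 := cube_sub_one_le h0 (h1.trans (ell_div_RR_le_one hK (m + 1)))
    have e : 1 + 2 * (ell K0 e0 (m + 1) : ℝ) / RR K0 (m + 1 + j) =
      1 + 2 * ((ell K0 e0 (m + 1) : ℝ) / RR K0 (m + 1 + j)) := by ring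
    rw [e]
    linarith
  have h1 : Gpp K0 e0 m ≤ Gam K0 (m + 1) * (1 + 26 * x) := by
    unfold Gam Gpp
    rw [← tsum_mul_right]
    exact (summable_Gpp hK m).tsum_le_tsum hterm ((summable_Ah_shift hK1 (m + 1)).mul_right _)
  have h2 := Gam_le hK1 (m + 1)
  have h3 : x * Ah K0 (m + 1) = eps e0 (m + 1) * Ah K0 (m + 2) := ell_div_RR_eq hK (m + 1)
  have h4 : eps e0 (m + 1) * Ah K0 (m + 2) ≤ (eps e0 m / 2) * (Ah K0 (m + 1) / 2) := by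
    rw [eps_succ]
    apply mul_le_mul_of_nonneg_left (Ah_succ_le_half hK1 (m + 1))
    have := eps_pos e0 m
    positivity
  have hG := Gam_pos hK1 (m + 1)
  have h5 : Gam K0 (m + 1) * x ≤ 2 * Ah K0 (m + 1) * x := mul_le_mul_of_nonneg_right h2 hx0
  have : Gam K0 (m + 1) * (1 + 26 * x) - Gam K0 (m + 1) = 26 * (Gam K0 (m + 1) * x) := by ring
  nlinarith

/-- `1/ℓ_m ≤ ε_m 2^(-a_m)`. -/
lemma one_div_ell_le (hK : e0 + 1 ≤ K0) (m : ℕ) :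
    1 / (ell K0 e0 m : ℝ) ≤ eps e0 m / 2 ^ aa K0 m := by
  unfold ell eps
  push_cast
  rw [div_div, div_le_div_iff₀ (by positivity) (by positivity), one_mul, one_mul, ← pow_add]
  apply pow_le_pow_right₀ (by norm_num)
  have h1 := ell_exp_ok hK m
  have h2 := aa_ge (K0 := K0) (by omega) m
  have h3 : K0 ≤ aa K0 m := by
    unfold aa
    exact Nat.le_mul_of_pos_right _ (by positivity)
  omega

lemma lam_bound (m : ℕ) : 1 - lam K0 e0 m ^ 3 ≤ 6 / (ell K0 e0 m : ℝ) := by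
  unfold lam
  have hl := ell_pos' K0 e0 m
  set l : ℝ := (ell K0 e0 m : ℝ)
  have h0 : 0 ≤ l / (l + 2) := by positivity
  have h1 : l / (l + 2) ≤ 1 := by
    rw [div_le_one (by positivity)]; linarith
  have h2 : 1 - l / (l + 2) = 2 / (l + 2) := by field_simp; ring
  have h3 : 2 / (l + 2) ≤ 2 / l := div_le_div_of_nonneg_left (by norm_num) hl (by linarith)
  have h4 : 6 / l = 3 * (2 / l) := by ring
  rw [h4]
  set t := l / (l + 2)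
  have h5 : 1 - t ^ 3 = (1 - t) * (1 + t + t ^ 2) := by ring
  have h6 : 1 + t + t ^ 2 ≤ 3 := by nlinarith
  have h7 : 0 ≤ 1 - t := by linarith
  rw [h5]
  calc (1 - t) * (1 + t + t ^ 2) ≤ (1 - t) * 3 := mul_le_mul_of_nonneg_left h6 h7
    _ = 3 * (1 - t) := by ring
    _ ≤ 3 * (2 / l) := by rw [h2]; linarith

lemma lam_nonneg (m : ℕ) : 0 ≤ lam K0 e0 m := by
  unfold lam
  have := ell_pos' K0 e0 m
  positivity

lemma lam_le_one (m : ℕ) : lam K0 e0 m ≤ 1 := by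
  unfold lam
  have := ell_pos' K0 e0 m
  rw [div_le_one (by positivity)]
  linarith

/-- **Main term of `o_m`**: `Γ_m - λ_m³ Γ^true_m ≤ 51 ε_m Â_{m+1}`. -/
theorem GamL_sub_le (hK : e0 + 1 ≤ K0) (m : ℕ) :
    GamL K0 e0 m - lam K0 e0 m ^ 3 * Gam K0 m ≤ 51 * (eps e0 m * Ah K0 (m + 1)) := by
  have hK1 : 1 ≤ K0 := by omega
  have h1 := ap_sub_le hK m
  have h2 := Gpp_sub_le hK m
  have h3 := Gam_eq hK1 m
  have h4 := Gam_le hK1 m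
  have h5 : (1 - lam K0 e0 m ^ 3) * Gam K0 m ≤ 12 * (eps e0 m * Ah K0 (m + 1)) := by
    have h6 := lam_bound (K0 := K0) (e0 := e0) m
    have hG := Gam_pos hK1 m
    have h7 : 1 - lam K0 e0 m ^ 3 ≥ 0 := by
      have : lam K0 e0 m ^ 3 ≤ 1 := pow_le_one₀ (lam_nonneg m) (lam_le_one m)
      linarith
    have h8 : (1 - lam K0 e0 m ^ 3) * Gam K0 m ≤ (6 / (ell K0 e0 m : ℝ)) * (2 * Ah K0 m) :=
      mul_le_mul h6 h4 hG.le (by have := ell_pos' K0 e0 m; positivity)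
    refine h8.trans ?_
    have h9 := one_div_ell_le hK m
    have h10 : 6 / (ell K0 e0 m : ℝ) = 6 * (1 / (ell K0 e0 m : ℝ)) := by ring
    rw [h10, Ah_succ]
    have hA := Ah_pos K0 m
    have h11 : eps e0 m * (Ah K0 m / 2 ^ aa K0 m) = (eps e0 m / 2 ^ aa K0 m) * Ah K0 m := by ring
    rw [h11]
    nlinarith
  unfold GamL
  nlinarith

/-- `Γ^true_m ≤ Γ_m`, hence the penalty `κ` is non negative etc. -/
lemma Gam_le_GamL (hK : e0 + 1 ≤ K0) (m : ℕ) : Gam K0 m ≤ GamL K0 e0 m := by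
  have hK1 : 1 ≤ K0 := by omega
  have h1 : Ah K0 m ≤ ap K0 e0 m := by
    unfold ap
    have e : 1 + 2 * (ell K0 e0 m : ℝ) / RR K0 m = 1 + 2 * ((ell K0 e0 m : ℝ) / RR K0 m) := by ring
    rw [e]
    have := one_le_cube (div_nonneg (ell_pos' K0 e0 m).le (RR_pos K0 m).le)
    nlinarith [Ah_pos K0 m]
  have h2 : Gam K0 (m + 1) ≤ Gpp K0 e0 m := by
    refine (summable_Ah_shift hK1 (m + 1)).tsum_le_tsum (fun j => ?_) (summable_Gpp hK m)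
    have : (1:ℝ) ≤ (1 + 2 * (ell K0 e0 (m + 1) : ℝ) / RR K0 (m + 1 + j)) ^ 3 := by
      have e : 1 + 2 * (ell K0 e0 (m + 1) : ℝ) / RR K0 (m + 1 + j) =
        1 + 2 * ((ell K0 e0 (m + 1) : ℝ) / RR K0 (m + 1 + j)) := by ring
      rw [e]
      exact one_le_cube (div_nonneg (ell_pos' _ _ _).le (RR_pos _ _).le)
    have hA := Ah_pos K0 (m + 1 + j)
    nlinarith
  rw [Gam_eq hK1 m]
  unfold GamL
  linarith

/-- `g R_m 0 ≤ R_m^(-3)`. -/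
lemma g_zero_le {R : ℝ} (hR : 0 < R) : g R 0 ≤ (R ^ 3)⁻¹ := by
  rw [g_zero, inv_pow]
  apply inv_anti₀ (by positivity)
  have h2 : (1:ℝ) ≤ √(2 * π) := by
    apply Real.le_sqrt_of_sq_le
    nlinarith [Real.pi_gt_three]
  have h3 : R ^ 3 ≤ (√(2 * π) * R) ^ 3 :=
    pow_le_pow_left₀ hR.le (by nlinarith) 3
  exact h3

/-- `w_{≥m}(0) ≤ ε_m Â_{m+1}`: the self energy is negligible. -/
theorem whi_zero_le (hK : e0 + 1 ≤ K0) (m : ℕ) :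
    whi K0 m 0 ≤ eps e0 m * Ah K0 (m + 1) := by
  have hK1 : 1 ≤ K0 := by omega
  have hterm : ∀ j, Ah K0 (m + j) * g (RR K0 (m + j)) 0 ≤ Ah K0 (m + j) * ((RR K0 m) ^ 3)⁻¹ := by
    intro j
    apply mul_le_mul_of_nonneg_left _ (Ah_pos _ _).le
    refine (g_zero_le (RR_pos _ _)).trans ?_
    apply inv_anti₀ (pow_pos (RR_pos _ _) 3)
    exact pow_le_pow_left₀ (RR_pos _ _).le (RR_mono K0 (by omega)) 3
  have h1 : whi K0 m 0 ≤ Gam K0 m * ((RR K0 m) ^ 3)⁻¹ := by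
    unfold whi Gam
    rw [← tsum_mul_right]
    exact (summable_term_shift hK1 m 0).tsum_le_tsum hterm ((summable_Ah_shift hK1 m).mul_right _)
  have h2 := Gam_le hK1 m
  have h3 : ((RR K0 m) ^ 3)⁻¹ * 2 ≤ eps e0 m / 2 ^ aa K0 m := by
    unfold RR eps
    rw [← pow_mul, inv_mul_eq_div, div_div, div_le_div_iff₀ (by positivity) (by positivity),
      one_mul, ← pow_add, ← pow_succ']
    apply pow_le_pow_right₀ (by norm_num)
    have h5 := ell_exp_ok hK m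
    have h6 := aa_ge (K0 := K0) hK1 m
    omega
  have hA := Ah_pos K0 m
  have hI : 0 < ((RR K0 m) ^ 3)⁻¹ := by have := RR_pos K0 m; positivity
  rw [Ah_succ]
  have h11 : eps e0 m * (Ah K0 m / 2 ^ aa K0 m) = (eps e0 m / 2 ^ aa K0 m) * Ah K0 m := by ring
  rw [h11]
  calc whi K0 m 0 ≤ Gam K0 m * ((RR K0 m) ^ 3)⁻¹ := h1
    _ ≤ 2 * Ah K0 m * ((RR K0 m) ^ 3)⁻¹ := mul_le_mul_of_nonneg_right h2 hI.le
    _ = (((RR K0 m) ^ 3)⁻¹ * 2) * Ah K0 m := by ring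
    _ ≤ _ := mul_le_mul_of_nonneg_right h3 hA.le

/-- `∑_{j<m} Â_j (R_j+3) ≤ 8 · 2^K₀ R_{m-1}`, stated through `R_m^{1/2}`. -/
lemma XiNum_le {K0 : ℕ} (hK : 1 ≤ K0) (m : ℕ) :
    XiNum K0 (m + 1) ≤ 8 * 2 ^ (32 * aa K0 m) := by
  unfold XiNum
  have h1 : ∀ j ∈ Finset.range (m + 1), Ah K0 j * (RR K0 j + 3) ≤ Ah K0 j * (4 * RR K0 m) := by
    intro j hj
    apply mul_le_mul_of_nonneg_left _ (Ah_pos _ _).le
    have h2 : RR K0 j ≤ RR K0 m := RR_mono K0 (by simpa [Nat.lt_succ_iff] using hj)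
    have h3 := one_le_RR K0 m
    linarith
  refine (Finset.sum_le_sum h1).trans ?_
  rw [← Finset.sum_mul]
  have h4 : ∑ j ∈ Finset.range (m + 1), Ah K0 j ≤ 2 := by
    have h5 := (summable_Ah hK).sum_le_tsum (Finset.range (m + 1)) (fun j _ => (Ah_pos K0 j).le)
    have h6 := Gam_le hK 0
    have h7 : Gam K0 0 = ∑' j, Ah K0 j := by
      unfold Gam; simp
    rw [h7, Ah_zero] at h6
    linarith
  have h8 : RR K0 m = 2 ^ (32 * aa K0 m) := rfl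
  rw [← h8]
  have := RR_pos K0 m
  nlinarith

/-- `Ξ` is negligible: for every constant `Kc`, if `Kc ≤ 2^(K₀ - 2 e₀ - 8)` then
`2^(m+2) Kc XiNum_m / ℓ_m ≤ ε_m Â_{m+1}`. -/
theorem XiNum_div_ell_le {Kc : ℝ} (hK : e0 + 1 ≤ K0) (hKc0 : 0 ≤ Kc)
    (hKc : Kc * 2 ^ (2 * e0 + 8) ≤ 2 ^ K0) (m : ℕ) :
    2 ^ (m + 2) * Kc * (XiNum K0 m / (ell K0 e0 m : ℝ)) ≤ eps e0 m * Ah K0 (m + 1) := by
  have hK1 : 1 ≤ K0 := by omega
  rcases m with _ | m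
  · have : XiNum K0 0 = 0 := by simp [XiNum]
    rw [this]
    simp only [zero_div, mul_zero]
    exact mul_nonneg (eps_pos _ _).le (Ah_pos _ _).le
  · have h1 := XiNum_le hK1 m
    set a := aa K0 (m + 1) with ha
    have ham : aa K0 (m + 1) = 2 * aa K0 m := aa_succ K0 m
    have hexp := ell_exp_ok hK (m + 1)
    have h2 := aa_ge (K0 := K0) hK1 (m + 1)
    -- rewriting everything as powers of 2
    have hell : ((ell K0 e0 (m + 1) : ℕ) : ℝ) = 2 ^ (31 * a - (m + 1) - e0) := by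
      unfold ell; push_cast; rfl
    have hAh : Ah K0 (m + 1 + 1) = 2 ^ K0 / 2 ^ (2 * a) := by
      unfold Ah; rw [aa_succ K0 (m + 1)]
    have heps : eps e0 (m + 1) = 1 / 2 ^ (m + 1 + e0) := rfl
    rw [hell, hAh, heps]
    have h3 : XiNum K0 (m + 1) / 2 ^ (31 * a - (m + 1) - e0) ≤
        8 * 2 ^ (16 * a) / 2 ^ (31 * a - (m + 1) - e0) := by
      apply div_le_div_of_nonneg_right _ (by positivity)
      have : 32 * aa K0 m = 16 * a := by omega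
      rw [this] at h1
      exact h1
    have h3' : 0 ≤ 2 ^ (m + 1 + 2) * Kc := by positivity
    refine (mul_le_mul_of_nonneg_left h3 h3').trans ?_
    -- final comparison
    have hfinal : (2:ℝ) ^ (m + 1 + 2) * (8 * 2 ^ (16 * a)) * 2 ^ (m + 1 + e0) * 2 ^ (2 * a) ≤
        2 ^ (2 * e0 + 8 + 13 * 0) * 2 ^ (31 * a - (m + 1) - e0) := by
      have e1 : (2:ℝ) ^ (m + 1 + 2) * (8 * 2 ^ (16 * a)) * 2 ^ (m + 1 + e0) * 2 ^ (2 * a) =
          2 ^ (m + 1 + 2 + 3 + 16 * a + (m + 1 + e0) + 2 * a) := by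
        rw [pow_add, pow_add, pow_add, pow_add]
        norm_num
        ring
      rw [e1, ← pow_add]
      apply pow_le_pow_right₀ (by norm_num)
      have h31 : 31 * a - (m + 1) - e0 + (m + 1) + e0 = 31 * a := by omega
      have h4 : K0 ≤ a := by
        rw [ha]; unfold aa
        exact Nat.le_mul_of_pos_right _ (by positivity)
      omega
    have hpow : (0:ℝ) < 2 ^ (31 * a - (m + 1) - e0) := by positivity
    have hp2 : (0:ℝ) < 2 ^ (m + 1 + e0) := by positivity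
    have hp3 : (0:ℝ) < 2 ^ (2 * a) := by positivity
    -- LHS·(denominators) ≤ RHS·(denominators)
    have hgoal : (2:ℝ) ^ (m + 1 + 2) * Kc * (8 * 2 ^ (16 * a)) * (2 ^ (m + 1 + e0) * 2 ^ (2 * a)) ≤
        2 ^ K0 * 2 ^ (31 * a - (m + 1) - e0) := by
      have e2 : (2:ℝ) ^ (m + 1 + 2) * Kc * (8 * 2 ^ (16 * a)) * (2 ^ (m + 1 + e0) * 2 ^ (2 * a)) =
          Kc * ((2:ℝ) ^ (m + 1 + 2) * (8 * 2 ^ (16 * a)) * 2 ^ (m + 1 + e0) * 2 ^ (2 * a)) := by ring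
      rw [e2]
      have h5 := mul_le_mul_of_nonneg_left hfinal hKc0
      refine h5.trans ?_
      simp only [mul_zero, add_zero]
      calc Kc * (2 ^ (2 * e0 + 8) * 2 ^ (31 * a - (m + 1) - e0))
          = (Kc * 2 ^ (2 * e0 + 8)) * 2 ^ (31 * a - (m + 1) - e0) := by ring
        _ ≤ _ := mul_le_mul_of_nonneg_right hKc hpow.le
    have e3 : (2:ℝ) ^ (m + 1 + 2) * Kc * (8 * 2 ^ (16 * a) / 2 ^ (31 * a - (m + 1) - e0)) =
        ((2:ℝ) ^ (m + 1 + 2) * Kc * (8 * 2 ^ (16 * a))) / 2 ^ (31 * a - (m + 1) - e0) := by ring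
    have e4 : 1 / (2:ℝ) ^ (m + 1 + e0) * (2 ^ K0 / 2 ^ (2 * a)) =
        2 ^ K0 / (2 ^ (m + 1 + e0) * 2 ^ (2 * a)) := by
      field_simp
    rw [e3, e4, div_le_div_iff₀ hpow (by positivity)]
    exact hgoal

lemma Ah_one (K0 : ℕ) : Ah K0 1 = 1 / 2 ^ K0 := by
  unfold Ah aa
  rw [pow_one, mul_comm, two_mul, pow_add]
  have : (2:ℝ) ^ K0 ≠ 0 := by positivity
  field_simp

/-- `Γ_0` is close to `1`. -/
theorem GamL_zero_le (hK : e0 + 1 ≤ K0) : GamL K0 e0 0 ≤ 1 + 53 / 2 ^ K0 := by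
  have hK1 : 1 ≤ K0 := by omega
  have h1 := GamL_sub_le hK 0
  have h2 : Gam K0 0 = 1 + Gam K0 1 := by
    rw [Gam_eq hK1 0, Ah_zero]
  have h3 := Gam_le hK1 1
  have h4 : lam K0 e0 0 ^ 3 * Gam K0 0 ≤ Gam K0 0 := by
    have : lam K0 e0 0 ^ 3 ≤ 1 := pow_le_one₀ (lam_nonneg 0) (lam_le_one 0)
    have hG := Gam_pos hK1 0
    nlinarith
  have h5 := eps_le_one e0 0
  have h6 := Ah_pos K0 1
  have h7 : eps e0 0 * Ah K0 1 ≤ Ah K0 1 := by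
    nlinarith [eps_pos e0 0]
  simp only [zero_add] at h1
  rw [Ah_one] at h1 h3 h7
  have e : (53:ℝ) / 2 ^ K0 = 53 * (1 / 2 ^ K0) := by ring
  rw [e]
  linarith

/-- `1 ≤ Γ^true_0 ≤ Γ_0`. -/
lemma one_le_GamL_zero (hK : e0 + 1 ≤ K0) : 1 ≤ GamL K0 e0 0 := by
  have hK1 : 1 ≤ K0 := by omega
  have h1 := Gam_le_GamL hK 0
  have h2 := Gam_eq hK1 0
  have h3 := Gam_pos hK1 1
  rw [Ah_zero] at h2
  simp only [zero_add] at h2
  linarith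

lemma one_le_Gam_zero {K0 : ℕ} (hK1 : 1 ≤ K0) : 1 ≤ Gam K0 0 := by
  have h2 := Gam_eq hK1 0
  have h3 := Gam_pos hK1 1
  rw [Ah_zero] at h2
  simp only [zero_add] at h2
  linarith

lemma Gam_zero_le {K0 : ℕ} (hK1 : 1 ≤ K0) : Gam K0 0 ≤ 2 := by
  have := Gam_le hK1 0
  rwa [Ah_zero, mul_one] at this

lemma summable_GamHat (hK : e0 + 1 ≤ K0) :
    Summable (fun j => Ah K0 j * (1 + 2 * (ell K0 e0 0 : ℝ) / RR K0 j) ^ 3) := by
  have hK1 : 1 ≤ K0 := by omega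
  refine Summable.of_nonneg_of_le (fun j => mul_nonneg (Ah_pos _ _).le (by
      have : 0 ≤ (ell K0 e0 0 : ℝ) / RR K0 j := div_nonneg (ell_pos' _ _ _).le (RR_pos _ _).le
      have e : 1 + 2 * (ell K0 e0 0 : ℝ) / RR K0 j = 1 + 2 * ((ell K0 e0 0 : ℝ) / RR K0 j) := by
        ring
      rw [e]
      positivity)) (fun j => ?_) ((summable_Ah hK1).mul_right 27)
  apply mul_le_mul_of_nonneg_left _ (Ah_pos _ _).le
  have e : 1 + 2 * (ell K0 e0 0 : ℝ) / RR K0 j = 1 + 2 * ((ell K0 e0 0 : ℝ) / RR K0 j) := by ring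
  rw [e]
  have h := ell_div_RR_shift_le hK 0 j
  rw [zero_add] at h
  exact cube_le (div_nonneg (ell_pos' _ _ _).le (RR_pos _ _).le)
    (h.trans (ell_div_RR_le_one hK 0))

/-- `Γ̂_0 ≤ Gam_0 (1 + 26 ε_0 Â_1)`, close to `1`. -/
theorem GamHat_le (hK : e0 + 1 ≤ K0) : GamHat K0 e0 ≤ 1 + 56 / 2 ^ K0 := by
  have hK1 : 1 ≤ K0 := by omega
  set x : ℝ := (ell K0 e0 0 : ℝ) / RR K0 0 with hx
  have hx0 : 0 ≤ x := div_nonneg (ell_pos' _ _ _).le (RR_pos _ _).le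
  have hterm : ∀ j, Ah K0 j * (1 + 2 * (ell K0 e0 0 : ℝ) / RR K0 j) ^ 3 ≤ Ah K0 j * (1 + 26 * x) := by
    intro j
    apply mul_le_mul_of_nonneg_left _ (Ah_pos _ _).le
    have h1 := ell_div_RR_shift_le hK 0 j
    rw [zero_add] at h1
    have h0 : 0 ≤ (ell K0 e0 0 : ℝ) / RR K0 j := div_nonneg (ell_pos' _ _ _).le (RR_pos _ _).le
    have h2 := cube_sub_one_le h0 (h1.trans (ell_div_RR_le_one hK 0))
    have e : 1 + 2 * (ell K0 e0 0 : ℝ) / RR K0 j = 1 + 2 * ((ell K0 e0 0 : ℝ) / RR K0 j) := by ring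
    rw [e]
    linarith
  have h1 : GamHat K0 e0 ≤ Gam K0 0 * (1 + 26 * x) := by
    have h7 : Gam K0 0 = ∑' j, Ah K0 j := by
      unfold Gam; simp
    rw [h7]
    unfold GamHat
    rw [← tsum_mul_right]
    exact (summable_GamHat hK).tsum_le_tsum hterm ((summable_Ah hK1).mul_right _)
  have h2 : x = eps e0 0 * Ah K0 1 := by
    have := ell_div_RR_eq hK 0
    rw [Ah_zero, mul_one, zero_add] at this
    exact this
  have h3 : Gam K0 0 = 1 + Gam K0 1 := by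
    rw [Gam_eq hK1 0, Ah_zero]
  have h4 := Gam_le hK1 1
  have h5 := Gam_zero_le hK1
  have h6 := eps_le_one e0 0
  have h7 : x ≤ Ah K0 1 := by
    rw [h2]
    nlinarith [eps_pos e0 0, Ah_pos K0 1]
  rw [Ah_one] at h4 h7
  have e : (56:ℝ) / 2 ^ K0 = 56 * (1 / 2 ^ K0) := by ring
  rw [e]
  have hp := one_le_Gam_zero hK1
  nlinarith

/-! ### Bridge to `Crest.Agent.TL.Level` -/

lemma Level_Gam_eq (K0 e0 m : ℕ) :
    Level.Gam (Ah K0) (RR K0) (ell K0 e0) m = GamL K0 e0 m := rfl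

lemma Level_Gpp_eq (K0 e0 m : ℕ) :
    Level.Gpp (Ah K0) (RR K0) (ell K0 e0) m = Gpp K0 e0 m := rfl

lemma Level_wlt_eq (K0 m : ℕ) : Level.wlt (Ah K0) (RR K0) m = wlo K0 m := rfl

lemma Level_wge_eq (K0 m : ℕ) : Level.wge (Ah K0) (RR K0) m = whi K0 m := rfl

lemma Level_wAll_eq (K0 : ℕ) : Level.wAll (Ah K0) (RR K0) = ww K0 := rfl

lemma Level_Xi_le (K0 e0 m : ℕ) :
    Level.Xi (Ah K0) (RR K0) (ell K0 e0) m ≤ 216 * (XiNum K0 m / (ell K0 e0 m : ℝ)) := by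
  unfold Level.Xi XiNum
  have hl := ell_pos' K0 e0 m
  have h1 : ∑ j ∈ Finset.range m, Ah K0 j * (RR K0 j + 1) ≤
      ∑ j ∈ Finset.range m, Ah K0 j * (RR K0 j + 3) :=
    Finset.sum_le_sum fun j _ => mul_le_mul_of_nonneg_left (by linarith) (Ah_pos K0 j).le
  calc 216 / (ell K0 e0 m : ℝ) * ∑ j ∈ Finset.range m, Ah K0 j * (RR K0 j + 1)
      ≤ 216 / (ell K0 e0 m : ℝ) * ∑ j ∈ Finset.range m, Ah K0 j * (RR K0 j + 3) :=
        mul_le_mul_of_nonneg_left h1 (by positivity)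
    _ = _ := by ring

/-- `M_m Ξ_m Kc ≤ ε_m Â_{m+1}` if `K₀` is large compared with `Kc` and `e₀`. -/
theorem Mm_Xi_le {Kc : ℝ} (hK : e0 + 1 ≤ K0) (hKc0 : 0 ≤ Kc)
    (hKc : Kc * 2 ^ (2 * e0 + 16) ≤ 2 ^ K0) (m : ℕ) :
    Level.Mm m * Kc * Level.Xi (Ah K0) (RR K0) (ell K0 e0) m ≤ eps e0 m * Ah K0 (m + 1) := by
  have h1 := Level_Xi_le K0 e0 m
  have hKc' : (Kc * 216) * 2 ^ (2 * e0 + 8) ≤ 2 ^ K0 := by
    have : (Kc * 216) * 2 ^ (2 * e0 + 8) ≤ Kc * 2 ^ (2 * e0 + 16) := by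
      have e : (2:ℝ) ^ (2 * e0 + 16) = 2 ^ (2 * e0 + 8) * 256 := by
        rw [show 2 * e0 + 16 = (2 * e0 + 8) + 8 by ring, pow_add (2:ℝ) (2 * e0 + 8) 8]
        norm_num
      rw [e]
      have hX : 0 ≤ Kc * (2:ℝ) ^ (2 * e0 + 8) := by positivity
      nlinarith
    linarith
  have h2 := XiNum_div_ell_le hK (by positivity) hKc' m
  have hM : 0 ≤ Level.Mm m * Kc := by unfold Level.Mm; positivity
  calc Level.Mm m * Kc * Level.Xi (Ah K0) (RR K0) (ell K0 e0) m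
      ≤ Level.Mm m * Kc * (216 * (XiNum K0 m / (ell K0 e0 m : ℝ))) :=
        mul_le_mul_of_nonneg_left h1 hM
    _ = 2 ^ (m + 2) * (Kc * 216) * (XiNum K0 m / (ell K0 e0 m : ℝ)) := by
        unfold Level.Mm; ring
    _ ≤ _ := h2

/-- The whole `o_m`: with `Kρ = (1/2) β A ρ²` etc. This is the summable bound. -/
theorem oM_le {K1 K2 K3 : ℝ} (hK : e0 + 1 ≤ K0) (h1 : 0 ≤ K1) (h2 : 0 ≤ K2) (h3 : 0 ≤ K3)
    (hKc : K3 * 2 ^ (2 * e0 + 16) ≤ 2 ^ K0) (m : ℕ) :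
    K1 * (GamL K0 e0 m - lam K0 e0 m ^ 3 * Gam K0 m) + K2 * whi K0 m 0
        + K3 * (Level.Mm m * Level.Xi (Ah K0) (RR K0) (ell K0 e0) m)
      ≤ (51 * K1 + K2 + 1) * (eps e0 m * Ah K0 (m + 1)) := by
  have a1 := mul_le_mul_of_nonneg_left (GamL_sub_le hK m) h1
  have a2 := mul_le_mul_of_nonneg_left (whi_zero_le hK m) h2
  have a3 := Mm_Xi_le hK h3 hKc m
  have e : K3 * (Level.Mm m * Level.Xi (Ah K0) (RR K0) (ell K0 e0) m) =
      Level.Mm m * K3 * Level.Xi (Ah K0) (RR K0) (ell K0 e0) m := by ring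
  rw [e]
  nlinarith

/-- Sum of the `ε_m`. -/
lemma sum_eps_le (e0 n : ℕ) : ∑ m ∈ Finset.range n, eps e0 m ≤ 2 / 2 ^ e0 := by
  have h : ∀ n, ∑ m ∈ Finset.range n, eps e0 m = (2 / 2 ^ e0) * (1 - (1 / 2) ^ n) := by
    intro n
    induction n with
    | zero => simp
    | succ n ih =>
      rw [Finset.sum_range_succ, ih]
      unfold eps
      rw [pow_add, pow_succ]
      have : (2:ℝ) ^ e0 ≠ 0 := by positivity
      have h2 : (1 / 2 : ℝ) ^ n = 1 / 2 ^ n := by simp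
      rw [h2]
      field_simp
      ring
  rw [h]
  have h1 : (0:ℝ) ≤ (1 / 2) ^ n := by positivity
  have h2 : (0:ℝ) < 2 / 2 ^ e0 := by positivity
  nlinarith

lemma summable_eps (e0 : ℕ) : Summable (eps e0) :=
  summable_of_sum_range_le (fun m => (eps_pos e0 m).le) (sum_eps_le e0)

lemma tsum_eps_le (e0 : ℕ) : ∑' m, eps e0 m ≤ 2 / 2 ^ e0 :=
  (summable_eps e0).tsum_le_of_sum_range_le (sum_eps_le e0)

end

end Crest.Agent.TL.Rate
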