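import Crest.Agent.TL.Crude
import Crest.Agent.TL.Rate

/-!
# The field `hOS` of `Concentration.Conc`, for the concrete series of the blueprint

`ψ_m = u s - A w_{<m}`, `φ = s - A w`, `F = -hFree φ β`, `a_m = (1/2) β A Γ_m`, `lam3 = (ℓ/(ℓ+2))³`:

`a_m (j²/ℓ³) + log Z(ψ_m, ℓ, j, β) ≤ ℓ³ (hFree φ β (j/ℓ³ · lam3) / lam3 + oOS)`,

for `j ≤ ρ ℓ³` and `1/2 ≤ u ≤ 1`; and `oOS` is estimated by `Rate.oM_le` at `u = u_m`.
-/

set_option autoImplicit false

namespace Crest.Agent.TL.OSConcrete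

open Crest.ProbabilityR.Continuum MeasureTheory Filter Topology
open Crest.Agent.TL.Gauss (g g_nonneg)
open Crest.Agent.TL.Series
open Crest.Agent.TL.OneSided (SeriesData Am os_am)

/-- The series of the components from level `m` on. -/
noncomputable def hiData {K0 : ℕ} (hK : 1 ≤ K0) (m : ℕ) : SeriesData where
  a := fun j => Ah K0 (m + j)
  R := fun j => RR K0 (m + j)
  a_nonneg := fun _ => (Ah_pos K0 _).le
  R_pos := fun _ => RR_pos K0 _
  summable_a := summable_Ah_shift hK m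
  summable_term := fun r => summable_term_shift hK m r

lemma hiData_w {K0 : ℕ} (hK : 1 ≤ K0) (m : ℕ) : (hiData hK m).w = whi K0 m := rfl

lemma hiData_tsum {K0 : ℕ} (hK : 1 ≤ K0) (m : ℕ) : ∑' j, (hiData hK m).a j = Gam K0 m := rfl

/-- The error term of the one-sided bound. -/
noncomputable def oOS (K0 e0 : ℕ) (A β ρ C10 u : ℝ) (m : ℕ) : ℝ :=
  (1 / 2) * β * A * ρ ^ 2 * (Rate.GamL K0 e0 m - Rate.lam K0 e0 m ^ 3 * Gam K0 m)
    + (1 / 2) * β * A * ρ * whi K0 m 0 + 4 * (1 - u) * C10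

/-- **`hOS`**: the bound of `Conc.hOS` for the concrete series. `hst`: stability of the full
potential; `hstab`: stability of the truncated potentials (uniform `B`, from `Stability`). -/
theorem hOS_of {K0 e0 : ℕ} (hK : e0 + 1 ≤ K0) {s : ℝ → ℝ} (hs : Measurable s) (hs0 : ∀ r, 0 ≤ s r)
    (hs2 : ∀ r, 2 ≤ r → s r ≤ 0) {Kg : ℕ} {S : ℝ} (hKg : 0 < Kg) (hS : 0 ≤ S)
    (hsS : ∀ r, 1 / (2 * (Kg : ℝ)) ≤ r → s r ≤ S)
    {A β βm B B' ρ u : ℝ} (hA : 0 ≤ A) (hβ : 0 ≤ β) (hβm : β ≤ βm) (hB : 0 ≤ B) (hρ : 0 ≤ ρ)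
    (hρK : ρ ≤ (Kg : ℝ) ^ 3) (m : ℕ)
    (hstab : ∀ v : ℝ, 1 / 2 ≤ v → v ≤ 1 → ∀ (N : ℕ) (x : Fin N → Pt),
      -B * N ≤ energy (fun r => v * s r - A * wlo K0 m r) x)
    (hst : ∀ (N : ℕ) (x : Fin N → Pt), -B' * N ≤ energy (fun r => s r - A * ww K0 r) x)
    (hu1 : 1 / 2 ≤ u) (hu2 : u ≤ 1) {j : ℕ} (hj : 1 ≤ j)
    (hjρ : (j : ℝ) ≤ ρ * (ell K0 e0 m : ℝ) ^ 3) :
    ((1 / 2) * β * A * Rate.GamL K0 e0 m) * ((j : ℝ) ^ 2 / (ell K0 e0 m : ℝ) ^ 3)
        + Real.log (partitionFn (fun r => u * s r - A * wlo K0 m r) (ell K0 e0 m : ℝ) j β)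
      ≤ (ell K0 e0 m : ℝ) ^ 3 *
        (Thermo.hFree (fun r => s r - A * ww K0 r) β
            ((j : ℝ) / (ell K0 e0 m : ℝ) ^ 3 * Rate.lam K0 e0 m ^ 3) / Rate.lam K0 e0 m ^ 3
          + oOS K0 e0 A β ρ (Crude.C10 ρ βm B S Kg) u m) := by
  have hK1 : 1 ≤ K0 := by omega
  set D := hiData hK1 m with hD
  set ell' : ℕ := ell K0 e0 m with hell'
  have hell : 0 < ell' := ell_pos K0 e0 m
  have hellR : (0 : ℝ) < (ell' : ℝ) := by exact_mod_cast hell
  have hL3 : (0 : ℝ) < (ell' : ℝ) ^ 3 := by positivity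
  have hwl : Measurable (wlo K0 m) := (continuous_wlo K0 m).measurable
  have hww : Measurable (ww K0) := (continuous_ww hK1).measurable
  have hφ_eq : (fun r => s r - A * wlo K0 m r - A * D.w r) = fun r => s r - A * ww K0 r := by
    funext r
    rw [hD, hiData_w, ww_eq_add hK1 m r]
    ring
  have hφm : Measurable (fun r => s r - A * ww K0 r) := by fun_prop
  have hAdm : Thermo.Adm (fun r => s r - A * ww K0 r) B' :=
    ⟨hφm, hst, fun r hr => by
      have h1 := mul_nonneg hA (ww_nonneg (K0 := K0) (r := r))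
      have h2 := hs2 r hr
      linarith⟩
  -- the limit
  set y : ℝ := (j : ℝ) / (((ell' + 2 : ℕ) : ℝ)) ^ 3 with hy
  have hjR : (0 : ℝ) < j := by exact_mod_cast hj
  have hypos : 0 < y := by rw [hy]; positivity
  have hlim := Thermo.tendsto_logZ hAdm hβ hypos
  have hlim' : Tendsto (fun L : ℝ =>
      Real.log (partitionFn (fun r => s r - A * wlo K0 m r - A * D.w r) L
        ⌊((j : ℝ) / ((ell' + 2 : ℕ) : ℝ) ^ 3) * L ^ 3⌋₊ β) / L ^ 3) atTop
      (𝓝 (Thermo.hFree (fun r => s r - A * ww K0 r) β y)) := by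
    rw [hφ_eq]; exact hlim
  -- the crude bounds
  have hjρ' : (j : ℝ) ≤ ρ * (ell' : ℝ) ^ 3 := hjρ
  have hcr1 := Crude.crude_abs (s := s) (wl := wlo K0 m) hs hwl hs0 (wlo_nonneg K0 m) hKg hell hS hβ hβm hA
    (u := 1) (by norm_num) le_rfl hB hρ hρK hsS hs2 hjρ' (hstab 1 (by norm_num) le_rfl)
  have hcrH := Crude.crude_abs (s := s) (wl := wlo K0 m) hs hwl hs0 (wlo_nonneg K0 m) hKg hell hS hβ hβm hA
    (u := 1 / 2) (by norm_num) (by norm_num) hB hρ hρK hsS hs2 hjρ'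
    (hstab (1 / 2) le_rfl (by norm_num))
  have hos := os_am D (s := s) (wl := wlo K0 m) (A := A) (β := β) (B := B') (u := u)
    (Gm := Rate.GamL K0 e0 m) (C10 := Crude.C10 ρ βm B S Kg) (B2 := -B * j) hA hβ hs hwl
    (wlo_nonneg K0 m) (by rw [hD, hiData_w]; exact (continuous_whi hK1 m).measurable) hs2
    (by rw [hφ_eq]; exact hst) hell hu1 hu2 (hstab (1 / 2) le_rfl (by norm_num) j) hcr1 hcrH hlim'
  -- rewrite
  have hZ : 0 < partitionFn (fun r => u * s r - A * wlo K0 m r) (ell' : ℝ) j β := by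
    have hm : Measurable (fun r => u * s r - A * wlo K0 m r) := by fun_prop
    exact OneSided.partitionFn_pos hm hβ hellR j (hstab u hu1 hu2 j)
  have hAm : Real.log (Am s (wlo K0 m) u A β (Rate.GamL K0 e0 m) ell' j)
      = ((1 / 2) * β * A * Rate.GamL K0 e0 m) * ((j : ℝ) ^ 2 / (ell' : ℝ) ^ 3)
        + Real.log (partitionFn (fun r => u * s r - A * wlo K0 m r) (ell' : ℝ) j β) := by
    unfold Am
    rw [Real.log_mul (Real.exp_pos _).ne' hZ.ne', Real.log_exp]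
    ring
  rw [← hAm]
  -- the density
  have hlamdef : Rate.lam K0 e0 m = (ell' : ℝ) / ((ell' : ℝ) + 2) := rfl
  have hlampos : 0 < Rate.lam K0 e0 m := by rw [hlamdef]; positivity
  have hl3pos : 0 < Rate.lam K0 e0 m ^ 3 := by positivity
  have hy2 : (j : ℝ) / (ell' : ℝ) ^ 3 * Rate.lam K0 e0 m ^ 3 = y := by
    rw [hy, hlamdef]
    push_cast
    field_simp
  rw [hy2]
  have hinv : ((ell' : ℝ) + 2) / ell' = 1 / Rate.lam K0 e0 m := by
    rw [hlamdef]; field_simp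
  rw [hinv, ← hlamdef] at hos
  have hdiv := hos
  rw [hD, hiData_tsum, hiData_w] at hdiv
  -- bound the error terms
  set σ : ℝ := (j : ℝ) / (ell' : ℝ) ^ 3 with hσ
  have hσ0 : 0 ≤ σ := by positivity
  have hσρ : σ ≤ ρ := by
    rw [hσ, div_le_iff₀ hL3]; exact hjρ'
  have hgam : 0 ≤ Rate.GamL K0 e0 m - Rate.lam K0 e0 m ^ 3 * Gam K0 m := by
    have h1 := Rate.Gam_le_GamL hK m
    have h2 : Rate.lam K0 e0 m ^ 3 ≤ 1 := pow_le_one₀ (Rate.lam_nonneg m) (Rate.lam_le_one m)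
    have h3 : 0 < Gam K0 m := Gam_pos hK1 m
    nlinarith
  have hbA : 0 ≤ (1 / 2) * β * A := by positivity
  have e1 : (1 / 2) * β * A * σ ^ 2 * (Rate.GamL K0 e0 m - Rate.lam K0 e0 m ^ 3 * Gam K0 m)
      ≤ (1 / 2) * β * A * ρ ^ 2 * (Rate.GamL K0 e0 m - Rate.lam K0 e0 m ^ 3 * Gam K0 m) := by
    have : σ ^ 2 ≤ ρ ^ 2 := pow_le_pow_left₀ hσ0 hσρ 2
    have h4 := mul_le_mul_of_nonneg_left this hbA
    exact mul_le_mul_of_nonneg_right h4 hgam
  have e2 : (1 / 2) * β * A * σ * whi K0 m 0 ≤ (1 / 2) * β * A * ρ * whi K0 m 0 := by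
    have h4 := mul_le_mul_of_nonneg_left hσρ hbA
    exact mul_le_mul_of_nonneg_right h4 (whi_nonneg K0 m 0)
  have hfinal : Real.log (Am s (wlo K0 m) u A β (Rate.GamL K0 e0 m) ell' j) / (ell' : ℝ) ^ 3
      ≤ Thermo.hFree (fun r => s r - A * ww K0 r) β y / Rate.lam K0 e0 m ^ 3
        + oOS K0 e0 A β ρ (Crude.C10 ρ βm B S Kg) u m := by
    have h5 : (1 / Rate.lam K0 e0 m) ^ 3 * Thermo.hFree (fun r => s r - A * ww K0 r) β y
        = Thermo.hFree (fun r => s r - A * ww K0 r) β y / Rate.lam K0 e0 m ^ 3 := by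
      field_simp
    rw [h5] at hdiv
    unfold oOS
    linarith
  have := mul_le_mul_of_nonneg_left hfinal hL3.le
  rwa [mul_div_cancel₀ _ hL3.ne'] at this

/-- The concrete `o_m`: at `u = u_m` everything is summable with the design weights. -/
theorem oOS_le {K0 e0 : ℕ} (hK : e0 + 1 ≤ K0) {A β ρ C10 U : ℝ} (hA : 0 ≤ A) (hβ : 0 ≤ β) (hρ : 0 ≤ ρ)
    (hC : 0 ≤ C10) (hU : 0 < U) (hKc : (8 * A * C10 / U) * 2 ^ (2 * e0 + 16) ≤ 2 ^ K0) (m : ℕ) :
    oOS K0 e0 A β ρ C10 (Level.um (Ah K0) (RR K0) (ell K0 e0) A U m) m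
      ≤ (51 * ((1 / 2) * β * A * ρ ^ 2) + (1 / 2) * β * A * ρ + 1) * (eps e0 m * Ah K0 (m + 1)) := by
  have h := Rate.oM_le (K1 := (1 / 2) * β * A * ρ ^ 2) (K2 := (1 / 2) * β * A * ρ)
    (K3 := 8 * A * C10 / U) hK (by positivity) (by positivity) (by positivity) hKc m
  refine le_trans (le_of_eq ?_) h
  unfold oOS Level.um
  field_simp
  ring

/-- `u_m ∈ [1/2, 1]`. -/
theorem um_mem {K0 e0 : ℕ} (hK : e0 + 1 ≤ K0) {A U : ℝ} (hA : 0 ≤ A) (hU : 0 < U)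
    (hKc : (4 * A / U) * 2 ^ (2 * e0 + 16) ≤ 2 ^ K0) (m : ℕ) :
    1 / 2 ≤ Level.um (Ah K0) (RR K0) (ell K0 e0) A U m ∧
      Level.um (Ah K0) (RR K0) (ell K0 e0) A U m ≤ 1 := by
  have h := Rate.Mm_Xi_le (Kc := 4 * A / U) hK (by positivity) hKc m
  have hXi : 0 ≤ Level.Xi (Ah K0) (RR K0) (ell K0 e0) m := by
    unfold Level.Xi
    have h1 : (0 : ℝ) ≤ (ell K0 e0 m : ℝ) := by positivity
    refine mul_nonneg (by positivity) (Finset.sum_nonneg fun j _ => ?_)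
    have := Ah_pos K0 j
    have := RR_pos K0 j
    positivity
  have hM : 0 ≤ Level.Mm m := by unfold Level.Mm; positivity
  have hval : eps e0 m * Ah K0 (m + 1) ≤ 1 := by
    have h1 := Rate.eps_le_one e0 m
    have h2 : Ah K0 (m + 1) ≤ 1 := by
      have h3 : ∀ n, Ah K0 (n + 1) ≤ 1 := by
        intro n
        induction n with
        | zero =>
          rw [Rate.Ah_one]
          rw [div_le_one (by positivity)]
          exact one_le_pow₀ (by norm_num)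
        | succ k ih => exact (Rate.Ah_succ_le K0 (k + 1)).trans ih
      exact h3 m
    have h4 := Rate.eps_pos e0 m
    have h5 := Ah_pos K0 (m + 1)
    nlinarith
  unfold Level.um
  constructor
  · have e : 2 * A * Level.Mm m * Level.Xi (Ah K0) (RR K0) (ell K0 e0) m / U
        = (1 / 2) * (Level.Mm m * (4 * A / U) * Level.Xi (Ah K0) (RR K0) (ell K0 e0) m) := by
      field_simp
      ring
    rw [e]
    linarith
  · have : 0 ≤ 2 * A * Level.Mm m * Level.Xi (Ah K0) (RR K0) (ell K0 e0) m / U := by positivity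
    linarith

end Crest.Agent.TL.OSConcrete
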