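import Mathlib
import Crest.Prelude.Def_PairPotential

/-!
# Thermodynamic limit for stable pair potentials (module T of the S0209/S0210 blueprint)

For a measurable potential `φ`, stable for all configurations, with `φ ≤ 0` on `r ≥ 2`, and `β > 0`,
`log Z(φ, L, ⌊σ L³⌋, β) / L³` converges as the real `L → ∞` to a concave function of `σ > 0`.
-/

set_option linter.unusedSectionVars false

namespace Crest.Agent.TL.Thermo

open MeasureTheory Filter Topology Set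
open Crest.ProbabilityR.Continuum

section Energy

variable {ι κ : Type*} [Fintype ι] [Fintype κ] [DecidableEq ι] [DecidableEq κ]

/-- Twice the energy, as a symmetric double sum over an arbitrary finite index type. -/
noncomputable def en2 (φ : ℝ → ℝ) (x : ι → Pt) : ℝ :=
  ∑ i, ∑ j, if i = j then 0 else φ (dist (x i) (x j))

lemma energy_eq_en2 (φ : ℝ → ℝ) {N : ℕ} (x : Fin N → Pt) : energy φ x = en2 φ x / 2 := by
  classical
  set g : Fin N × Fin N → ℝ := fun p => φ (dist (x p.1) (x p.2)) with hg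
  have h1 : energy φ x = ∑ p ∈ Finset.univ.filter (fun p : Fin N × Fin N => p.1 < p.2), g p := by
    unfold energy
    exact (Finset.sum_subtype _ (by simp) g).symm
  have h2 : en2 φ x = ∑ p : Fin N × Fin N, if p.1 = p.2 then 0 else g p := by
    unfold en2
    rw [← Finset.univ_product_univ, Finset.sum_product]
  have h3 : ∀ p : Fin N × Fin N, (if p.1 = p.2 then 0 else g p)
      = (if p.1 < p.2 then g p else 0) + (if p.2 < p.1 then g p else 0) := by
    intro p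
    rcases lt_trichotomy p.1 p.2 with h | h | h
    · simp [h, h.ne, not_lt_of_gt h]
    · simp [h]
    · simp [h, h.ne', not_lt_of_gt h]
  have h4 : (∑ p : Fin N × Fin N, if p.2 < p.1 then g p else 0)
      = ∑ p : Fin N × Fin N, if p.1 < p.2 then g p else 0 := by
    refine Fintype.sum_equiv (Equiv.prodComm _ _) _ _ ?_
    intro p
    simp only [Equiv.prodComm_apply, Prod.fst_swap, Prod.snd_swap]
    by_cases h : p.2 < p.1
    · simp [h, hg, dist_comm]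
    · simp [h]
  rw [h1, h2]
  rw [Finset.sum_congr rfl (fun p _ => h3 p), Finset.sum_add_distrib, h4, Finset.sum_filter]
  ring

lemma en2_comp_equiv (φ : ℝ → ℝ) (e : κ ≃ ι) (x : ι → Pt) : en2 φ (x ∘ e) = en2 φ x := by
  unfold en2
  refine Fintype.sum_equiv e _ _ (fun i => ?_)
  refine Fintype.sum_equiv e _ _ (fun j => ?_)
  simp [e.apply_eq_iff_eq]

lemma measurable_en2 {φ : ℝ → ℝ} (hφ : Measurable φ) :
    Measurable (en2 φ : (ι → Pt) → ℝ) := by
  unfold en2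
  refine Finset.measurable_sum _ (fun i _ => Finset.measurable_sum _ (fun j _ => ?_))
  by_cases h : i = j
  · simp [h]
  · simp only [h, if_false]
    exact hφ.comp ((measurable_pi_apply i).dist (measurable_pi_apply j))

/-- `en2` splits along a predicate, up to the (nonpositive) cross terms. -/
lemma en2_le_split {φ : ℝ → ℝ} (p : ι → Prop) [DecidablePred p] (x : ι → Pt)
    (hcross : ∀ i j, p i → ¬ p j → φ (dist (x i) (x j)) ≤ 0 ∧ φ (dist (x j) (x i)) ≤ 0) :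
    en2 φ x ≤ en2 φ (fun i : {i // p i} => x i) + en2 φ (fun i : {i // ¬ p i} => x i) := by
  unfold en2
  set t : ι → ι → ℝ := fun i j => if i = j then 0 else φ (dist (x i) (x j)) with ht
  have e1 : ∀ i, ∑ j, t i j = ∑ j : {j // p j}, t i j + ∑ j : {j // ¬ p j}, t i j := fun i =>
    (Fintype.sum_subtype_add_sum_subtype p (t i)).symm
  have e0 : ∑ i, ∑ j, t i j = ∑ i : {i // p i}, ∑ j, t i j + ∑ i : {i // ¬ p i}, ∑ j, t i j :=
    (Fintype.sum_subtype_add_sum_subtype p (fun i => ∑ j, t i j)).symm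
  have hA : ∑ i : {i // p i}, ∑ j, t i j ≤
      ∑ i : {i // p i}, ∑ j : {j // p j}, if i = j then 0 else φ (dist (x i) (x j)) := by
    refine Finset.sum_le_sum (fun i _ => ?_)
    rw [e1]
    have : ∑ j : {j // ¬ p j}, t i j ≤ 0 := by
      refine Finset.sum_nonpos (fun j _ => ?_)
      have hne : (i : ι) ≠ j := fun h => j.2 (h ▸ i.2)
      simp only [ht, hne, if_false]
      exact (hcross i j i.2 j.2).1
    have h2 : ∑ j : {j // p j}, t i j =
        ∑ j : {j // p j}, if i = j then 0 else φ (dist (x i) (x j)) := by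
      refine Finset.sum_congr rfl (fun j _ => ?_)
      simp [ht, Subtype.ext_iff]
    linarith
  have hB : ∑ i : {i // ¬ p i}, ∑ j, t i j ≤
      ∑ i : {i // ¬ p i}, ∑ j : {j // ¬ p j}, if i = j then 0 else φ (dist (x i) (x j)) := by
    refine Finset.sum_le_sum (fun i _ => ?_)
    rw [e1]
    have : ∑ j : {j // p j}, t i j ≤ 0 := by
      refine Finset.sum_nonpos (fun j _ => ?_)
      have hne : (i : ι) ≠ j := fun h => i.2 (h ▸ j.2)
      simp only [ht, hne, if_false]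
      exact (hcross j i j.2 i.2).2
    have h2 : ∑ j : {j // ¬ p j}, t i j =
        ∑ j : {j // ¬ p j}, if i = j then 0 else φ (dist (x i) (x j)) := by
      refine Finset.sum_congr rfl (fun j _ => ?_)
      simp [ht, Subtype.ext_iff]
    linarith
  rw [e0]
  exact add_le_add hA hB

end Energy

/-- Hypotheses on the potential. -/
structure Adm (φ : ℝ → ℝ) (B : ℝ) : Prop where
  meas : Measurable φ
  stable : ∀ (N : ℕ) (x : Fin N → Pt), -B * N ≤ energy φ x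
  tail : ∀ r, 2 ≤ r → φ r ≤ 0

section Integral

variable {ι κ : Type*} [Fintype ι] [Fintype κ] [DecidableEq ι] [DecidableEq κ]

/-- The integral over `D^ι` of `exp(-β E)`. -/
noncomputable def IZ (φ : ℝ → ℝ) (β : ℝ) (ι : Type*) [Fintype ι] [DecidableEq ι] (D : Set Pt) : ℝ :=
  ∫ x in Set.pi Set.univ (fun _ : ι => D), Real.exp (-(β / 2) * en2 φ x)

lemma partitionFn_eq (φ : ℝ → ℝ) (L : ℝ) (N : ℕ) (β : ℝ) :
    partitionFn φ L N β = (1 / (N.factorial : ℝ)) * IZ φ β (Fin N) (cube L) := by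
  unfold partitionFn IZ
  congr 2
  funext x
  rw [energy_eq_en2]
  congr 1
  ring

lemma Adm.en2_lower {φ : ℝ → ℝ} {B : ℝ} (h : Adm φ B) (x : ι → Pt) :
    -(2 * B * Fintype.card ι) ≤ en2 φ x := by
  have h1 := h.stable (Fintype.card ι) (x ∘ (Fintype.equivFin ι).symm)
  rw [energy_eq_en2, en2_comp_equiv] at h1
  linarith

lemma Adm.integrand_le {φ : ℝ → ℝ} {B : ℝ} (h : Adm φ B) {β : ℝ} (hβ : 0 ≤ β) (x : ι → Pt) :
    Real.exp (-(β / 2) * en2 φ x) ≤ Real.exp (β * B * Fintype.card ι) := by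
  apply Real.exp_le_exp.mpr
  have := h.en2_lower x
  nlinarith

lemma volume_pi_const_ne_top {D : Set Pt} (hD : volume D ≠ ⊤) :
    volume (Set.pi Set.univ (fun _ : ι => D)) ≠ ⊤ := by
  rw [volume_pi_pi]
  exact (ENNReal.prod_lt_top (fun _ _ => hD.lt_top)).ne

lemma Adm.integrableOn {φ : ℝ → ℝ} {B : ℝ} (h : Adm φ B) {β : ℝ} (hβ : 0 ≤ β) {S : Set (ι → Pt)}
    (hS : volume S ≠ ⊤) : IntegrableOn (fun x : ι → Pt => Real.exp (-(β / 2) * en2 φ x)) S := by
  refine Measure.integrableOn_of_bounded (M := Real.exp (β * B * Fintype.card ι)) hS ?_ ?_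
  · exact (Real.measurable_exp.comp ((measurable_en2 h.meas).const_mul _)).aestronglyMeasurable
  · refine Eventually.of_forall (fun x => ?_)
    rw [Real.norm_eq_abs, abs_of_pos (Real.exp_pos _)]
    exact h.integrand_le hβ x

lemma IZ_nonneg (φ : ℝ → ℝ) (β : ℝ) (D : Set Pt) : 0 ≤ IZ φ β ι D :=
  integral_nonneg (fun _ => (Real.exp_pos _).le)

lemma IZ_mono {φ : ℝ → ℝ} {B : ℝ} (h : Adm φ B) {β : ℝ} (hβ : 0 ≤ β) {D D' : Set Pt}
    (hD : D ⊆ D') (hD' : volume D' ≠ ⊤) : IZ φ β ι D ≤ IZ φ β ι D' := by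
  refine setIntegral_mono_set (h.integrableOn hβ (volume_pi_const_ne_top hD')) ?_ ?_
  · exact Eventually.of_forall (fun _ => (Real.exp_pos _).le)
  · exact (LE.le.eventuallyLE (Set.pi_mono (fun _ _ => hD)))

/-- Reindexing. -/
lemma IZ_reindex (φ : ℝ → ℝ) (β : ℝ) {D : Set Pt} (hD : MeasurableSet D) (e : κ ≃ ι) :
    IZ φ β κ D = IZ φ β ι D := by
  unfold IZ
  have hmp := volume_measurePreserving_piCongrLeft (fun _ : ι => Pt) e
  have hpre : (MeasurableEquiv.piCongrLeft (fun _ : ι => Pt) e) ⁻¹' (Set.pi Set.univ (fun _ : ι => D))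
      = Set.pi Set.univ (fun _ : κ => D) := by
    ext x
    simp only [Set.mem_preimage, Set.mem_pi, Set.mem_univ, true_implies]
    constructor
    · intro hx i
      have := hx (e i)
      simpa [MeasurableEquiv.coe_piCongrLeft, Equiv.piCongrLeft_apply_apply] using this
    · intro hx i
      obtain ⟨k, rfl⟩ := e.surjective i
      simpa [MeasurableEquiv.coe_piCongrLeft, Equiv.piCongrLeft_apply_apply] using hx k
  rw [← hpre, ← hmp.setIntegral_preimage_emb (MeasurableEquiv.measurableEmbedding _)]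
  refine integral_congr_ae (Eventually.of_forall (fun x => ?_))
  simp only
  have : x = (MeasurableEquiv.piCongrLeft (fun _ : ι => Pt) e x) ∘ e := by
    funext i
    simp [MeasurableEquiv.coe_piCongrLeft, Equiv.piCongrLeft_apply_apply]
  conv_lhs => rw [this]
  rw [en2_comp_equiv]

lemma IZ_fin_of_card (φ : ℝ → ℝ) (β : ℝ) {D : Set Pt} (hD : MeasurableSet D) {n : ℕ}
    (hc : Fintype.card κ = n) : IZ φ β κ D = IZ φ β (Fin n) D :=
  IZ_reindex φ β hD (Fintype.equivFinOfCardEq hc)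

/-- A product of two integrals is a lower bound for the integral over the pieces determined by `p`. -/
lemma integral_split_ge {φ : ℝ → ℝ} {B : ℝ} (h : Adm φ B) {β : ℝ} (hβ : 0 ≤ β) {D1 D2 : Set Pt}
    (hm1 : MeasurableSet D1) (hm2 : MeasurableSet D2) (hv1 : volume D1 ≠ ⊤) (hv2 : volume D2 ≠ ⊤)
    (hsep : ∀ a ∈ D1, ∀ b ∈ D2, 2 ≤ dist a b) (p : ι → Prop) [DecidablePred p] :
    IZ φ β {i // p i} D1 * IZ φ β {i // ¬ p i} D2 ≤
      ∫ x in Set.pi Set.univ (fun i : ι => if p i then D1 else D2), Real.exp (-(β / 2) * en2 φ x) := by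
  classical
  set F := MeasurableEquiv.piEquivPiSubtypeProd (fun _ : ι => Pt) p with hF
  have hmp : MeasurePreserving F volume volume := volume_preserving_piEquivPiSubtypeProd _ p
  set T : Set (({i // p i} → Pt) × ({i // ¬ p i} → Pt)) :=
    (Set.pi Set.univ (fun _ => D1)) ×ˢ (Set.pi Set.univ (fun _ => D2)) with hT
  have hpre : F ⁻¹' T = Set.pi Set.univ (fun i : ι => if p i then D1 else D2) := by
    ext x
    simp only [hT, Set.mem_preimage, Set.mem_prod, Set.mem_pi, Set.mem_univ, true_implies, hF]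
    constructor
    · rintro ⟨h1, h2⟩ i
      by_cases hi : p i
      · simpa [hi] using h1 ⟨i, hi⟩
      · simpa [hi] using h2 ⟨i, hi⟩
    · intro hx
      constructor
      · intro i
        have := hx i
        simpa [i.2] using this
      · intro i
        have := hx i
        simpa [i.2] using this
  have hprod : IZ φ β {i // p i} D1 * IZ φ β {i // ¬ p i} D2 =
      ∫ z in T, Real.exp (-(β / 2) * en2 φ z.1) * Real.exp (-(β / 2) * en2 φ z.2) := by
    unfold IZ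
    rw [hT]
    exact (setIntegral_prod_mul (μ := volume) (ν := volume) _ _ _ _).symm
  rw [hprod, ← hmp.setIntegral_preimage_emb (MeasurableEquiv.measurableEmbedding _), hpre]
  have hmeas : MeasurableSet (Set.pi Set.univ (fun i : ι => if p i then D1 else D2)) := by
    refine MeasurableSet.univ_pi (fun i => ?_)
    split_ifs
    · exact hm1
    · exact hm2
  have hfin : volume (Set.pi Set.univ (fun i : ι => if p i then D1 else D2)) ≠ ⊤ := by
    rw [volume_pi_pi]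
    refine (ENNReal.prod_lt_top (fun i _ => ?_)).ne
    split_ifs
    · exact hv1.lt_top
    · exact hv2.lt_top
  refine setIntegral_mono_on ?_ (h.integrableOn hβ hfin) hmeas ?_
  · -- integrability of the product
    refine Measure.integrableOn_of_bounded
      (M := Real.exp (β * B * Fintype.card {i // p i}) * Real.exp (β * B * Fintype.card {i // ¬ p i}))
      hfin ?_ ?_
    · refine Measurable.aestronglyMeasurable ?_
      refine Measurable.mul ?_ ?_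
      · refine Real.measurable_exp.comp ((measurable_en2 h.meas).const_mul _ |>.comp ?_)
        exact measurable_fst.comp F.measurable
      · refine Real.measurable_exp.comp ((measurable_en2 h.meas).const_mul _ |>.comp ?_)
        exact measurable_snd.comp F.measurable
    · refine Eventually.of_forall (fun x => ?_)
      rw [Real.norm_eq_abs, abs_of_pos (mul_pos (Real.exp_pos _) (Real.exp_pos _))]
      exact mul_le_mul (h.integrand_le hβ _) (h.integrand_le hβ _) (Real.exp_pos _).le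
        (Real.exp_pos _).le
  · intro x hx
    rw [← Real.exp_add]
    apply Real.exp_le_exp.mpr
    have hle := en2_le_split (φ := φ) p x (by
      intro i j hi hj
      have hxi : x i ∈ D1 := by simpa [hi] using hx i (Set.mem_univ _)
      have hxj : x j ∈ D2 := by simpa [hj] using hx j (Set.mem_univ _)
      have hd := hsep _ hxi _ hxj
      exact ⟨h.tail _ hd, h.tail _ (by rwa [dist_comm])⟩)
    have hF1 : (F x).1 = fun i : {i // p i} => x i := rfl
    have hF2 : (F x).2 = fun i : {i // ¬ p i} => x i := rfl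
    rw [hF1, hF2]
    nlinarith

end Integral

/-! ### Abstract thermodynamic limit -/

section Abstract

/-- The abstract input for the thermodynamic limit. `y L n` stands for `log Z(L, n)`. -/
structure TLHyp (y : ℝ → ℕ → ℝ) : Prop where
  mono : ∀ L L' n, 0 < L → L ≤ L' → y L n ≤ y L' n
  mix : ∀ (L : ℝ) (m A B n1 n2 : ℕ), 0 < L → 1 ≤ m → A + B ≤ m ^ 3 →
    A * y L n1 + B * y L n2 ≤ y (m * (L + 2) - 2) (A * n1 + B * n2)
  upper : ∃ C : ℝ, ∀ (L : ℝ) (n : ℕ), 0 < L → 1 ≤ n → y L n ≤ n * (C - Real.log (n / L ^ 3))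

variable {y : ℝ → ℕ → ℝ}

/-- Free energies per particle of tiles of density above `σ`. -/
def tileVals (y : ℝ → ℕ → ℝ) (σ : ℝ) : Set ℝ :=
  {a | ∃ ℓ n : ℕ, 3 ≤ ℓ ∧ 1 ≤ n ∧ σ * (ℓ : ℝ) ^ 3 < n ∧ a = y ((ℓ : ℝ) - 2) n / n}

/-- The best free energy per particle. -/
noncomputable def pSup (y : ℝ → ℕ → ℝ) (σ : ℝ) : ℝ := sSup (tileVals y σ)

/-- The limit function. -/
noncomputable def hLim (y : ℝ → ℕ → ℝ) (σ : ℝ) : ℝ := σ * pSup y σ

lemma tileVals_nonempty (y : ℝ → ℕ → ℝ) (σ : ℝ) : (tileVals y σ).Nonempty := by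
  refine ⟨_, 3, ⌈σ * ((3 : ℕ) : ℝ) ^ 3⌉₊ + 1, le_refl _, by omega, ?_, rfl⟩
  push_cast
  have := Nat.le_ceil (σ * (3 : ℝ) ^ 3)
  linarith

lemma tileVals_bddAbove (h : TLHyp y) {σ : ℝ} (hσ : 0 < σ) : BddAbove (tileVals y σ) := by
  obtain ⟨C, hC⟩ := h.upper
  refine ⟨C - Real.log σ, ?_⟩
  rintro a ⟨ℓ, n, hℓ, hn, hd, rfl⟩
  have hℓ3 : (3 : ℝ) ≤ ℓ := by exact_mod_cast hℓ
  have hL : 0 < (ℓ : ℝ) - 2 := by linarith
  have hn' : (0 : ℝ) < n := by exact_mod_cast hn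
  have h1 := hC ((ℓ : ℝ) - 2) n hL hn
  rw [div_le_iff₀ hn']
  have hσle : σ ≤ n / ((ℓ : ℝ) - 2) ^ 3 := by
    rw [le_div_iff₀ (by positivity)]
    have hpow : ((ℓ : ℝ) - 2) ^ 3 ≤ (ℓ : ℝ) ^ 3 := by
      apply pow_le_pow_left₀ hL.le; linarith
    nlinarith
  have hlog : Real.log σ ≤ Real.log (n / ((ℓ : ℝ) - 2) ^ 3) := Real.log_le_log hσ hσle
  nlinarith

lemma tileVals_anti {σ σ' : ℝ} (hσ : 0 ≤ σ) (hle : σ ≤ σ') : tileVals y σ' ⊆ tileVals y σ := by
  rintro a ⟨ℓ, n, hℓ, hn, hd, rfl⟩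
  refine ⟨ℓ, n, hℓ, hn, lt_of_le_of_lt ?_ hd, rfl⟩
  have : (0 : ℝ) ≤ (ℓ : ℝ) ^ 3 := by positivity
  nlinarith

lemma pSup_anti (h : TLHyp y) {σ σ' : ℝ} (hσ : 0 < σ) (hle : σ ≤ σ') : pSup y σ' ≤ pSup y σ :=
  csSup_le_csSup (tileVals_bddAbove h hσ) (tileVals_nonempty y σ') (tileVals_anti hσ.le hle)

lemma le_pSup (h : TLHyp y) {σ : ℝ} (hσ : 0 < σ) {ℓ n : ℕ} (hℓ : 3 ≤ ℓ) (hn : 1 ≤ n)
    (hd : σ * (ℓ : ℝ) ^ 3 < n) : y ((ℓ : ℝ) - 2) n / n ≤ pSup y σ :=
  le_csSup (tileVals_bddAbove h hσ) ⟨ℓ, n, hℓ, hn, hd, rfl⟩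

/-- Tile with integer side: the `mix` inequality with integer sides. -/
lemma mix_int (h : TLHyp y) {ℓ : ℕ} (hℓ : 3 ≤ ℓ) {m A B n1 n2 : ℕ} (hm : 1 ≤ m)
    (hAB : A + B ≤ m ^ 3) :
    A * y ((ℓ : ℝ) - 2) n1 + B * y ((ℓ : ℝ) - 2) n2
      ≤ y (((m * ℓ : ℕ) : ℝ) - 2) (A * n1 + B * n2) := by
  have hℓ3 : (3 : ℝ) ≤ ℓ := by exact_mod_cast hℓ
  have := h.mix ((ℓ : ℝ) - 2) m A B n1 n2 (by linarith) hm hAB
  have e : (m : ℝ) * ((ℓ : ℝ) - 2 + 2) - 2 = ((m * ℓ : ℕ) : ℝ) - 2 := by push_cast; ring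
  rwa [e] at this

/-- The mixture bound: the limit of tiles with `A` copies of `N1` and `B` copies of `N2`. -/
lemma mixture_bound (h : TLHyp y) {σ : ℝ} (hσ : 0 < σ) {ℓ N1 N2 : ℕ} (hℓ : 3 ≤ ℓ) {a1 a2 c1 c2 : ℝ}
    (hz1 : (N1 : ℝ) * a1 ≤ y ((ℓ : ℝ) - 2) N1) (hz2 : (N2 : ℝ) * a2 ≤ y ((ℓ : ℝ) - 2) N2)
    (hN1R : (0 : ℝ) < N1) (hN2R : (0 : ℝ) < N2) (hc1 : 0 < c1) (hc2 : 0 < c2) (hσeq : σ = c1 + c2)
    (hθlt : c1 * (ℓ : ℝ) ^ 3 / N1 + c2 * (ℓ : ℝ) ^ 3 / N2 < 1) :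
    c1 * a1 + c2 * a2 ≤ σ * pSup y σ := by
  have hℓR : (0 : ℝ) < (ℓ : ℝ) := by exact_mod_cast (by omega : 0 < ℓ)
  obtain ⟨P, hP⟩ : ∃ P : ℝ, P = (ℓ : ℝ) ^ 3 := ⟨_, rfl⟩
  have hPpos : 0 < P := by rw [hP]; positivity
  rw [← hP] at hθlt
  obtain ⟨θ, hθ⟩ : ∃ θ : ℝ, θ = c1 * P / N1 + c2 * P / N2 := ⟨_, rfl⟩
  rw [← hθ] at hθlt
  have hθpos : 0 < θ := by rw [hθ]; positivity
  obtain ⟨κ, hκ⟩ : ∃ κ : ℝ, κ = (1 + θ) / (2 * θ) := ⟨_, rfl⟩
  have hκ1 : 1 < κ := by rw [hκ, lt_div_iff₀ (by positivity)]; linarith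
  have hκθ : κ * θ = (1 + θ) / 2 := by rw [hκ]; field_simp
  obtain ⟨α, hα⟩ : ∃ α : ℝ, α = κ * (c1 * P / N1) := ⟨_, rfl⟩
  obtain ⟨γ, hγ⟩ : ∃ γ : ℝ, γ = κ * (c2 * P / N2) := ⟨_, rfl⟩
  have hαpos : 0 < α := by rw [hα]; positivity
  have hγpos : 0 < γ := by rw [hγ]; positivity
  have hαγ : α + γ < 1 := by
    have : α + γ = κ * θ := by rw [hα, hγ, hθ]; ring
    rw [this, hκθ]; linarith
  have e1 : α * N1 = κ * c1 * P := by rw [hα]; field_simp
  have e2 : γ * N2 = κ * c2 * P := by rw [hγ]; field_simp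
  have hden : α * N1 + γ * N2 = κ * σ * P := by rw [e1, e2, hσeq]; ring
  let A : ℕ → ℕ := fun m => ⌈α * ((m : ℝ) ^ 3)⌉₊
  let B : ℕ → ℕ := fun m => ⌈γ * ((m : ℝ) ^ 3)⌉₊
  have hcube : Tendsto (fun m : ℕ => (m : ℝ) ^ 3) atTop atTop :=
    (tendsto_pow_atTop (by norm_num)).comp tendsto_natCast_atTop_atTop
  have hAlim : Tendsto (fun m : ℕ => (A m : ℝ) / (m : ℝ) ^ 3) atTop (𝓝 α) :=
    (tendsto_nat_ceil_mul_div_atTop (R := ℝ) hαpos.le).comp hcube
  have hBlim : Tendsto (fun m : ℕ => (B m : ℝ) / (m : ℝ) ^ 3) atTop (𝓝 γ) :=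
    (tendsto_nat_ceil_mul_div_atTop (R := ℝ) hγpos.le).comp hcube
  have hfit : ∀ᶠ m : ℕ in atTop, A m + B m ≤ m ^ 3 := by
    have hlim : Tendsto (fun m : ℕ => (A m : ℝ) / (m : ℝ) ^ 3 + (B m : ℝ) / (m : ℝ) ^ 3) atTop
        (𝓝 (α + γ)) := hAlim.add hBlim
    filter_upwards [hlim.eventually (gt_mem_nhds hαγ), eventually_ge_atTop 1] with m hm hm1
    have hmR : (0 : ℝ) < (m : ℝ) ^ 3 := by
      have : (1 : ℝ) ≤ m := by exact_mod_cast hm1
      positivity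
    rw [← add_div, div_lt_one hmR] at hm
    exact_mod_cast hm.le
  have hval : ∀ᶠ m : ℕ in atTop,
      ((A m : ℝ) / (m : ℝ) ^ 3 * N1 * a1 + (B m : ℝ) / (m : ℝ) ^ 3 * N2 * a2) /
        ((A m : ℝ) / (m : ℝ) ^ 3 * N1 + (B m : ℝ) / (m : ℝ) ^ 3 * N2) ≤ pSup y σ := by
    filter_upwards [hfit, eventually_ge_atTop 1] with m hm hm1
    have hmR1 : (1 : ℝ) ≤ m := by exact_mod_cast hm1
    have hmR : (0 : ℝ) < (m : ℝ) ^ 3 := by positivity
    have hAge : α * (m : ℝ) ^ 3 ≤ A m := Nat.le_ceil _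
    have hBge : γ * (m : ℝ) ^ 3 ≤ B m := Nat.le_ceil _
    have hApos : (0 : ℝ) < A m := lt_of_lt_of_le (by positivity) hAge
    have hBpos : (0 : ℝ) < B m := lt_of_lt_of_le (by positivity) hBge
    have hnR : (((A m * N1 + B m * N2 : ℕ)) : ℝ) = A m * N1 + B m * N2 := by push_cast; ring
    have hnpos : (0 : ℝ) < ((A m * N1 + B m * N2 : ℕ) : ℝ) := by rw [hnR]; positivity
    have hn1 : 1 ≤ A m * N1 + B m * N2 := by exact_mod_cast hnpos
    have hside : 3 ≤ m * ℓ := by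
      calc 3 ≤ ℓ := hℓ
        _ = 1 * ℓ := (one_mul _).symm
        _ ≤ m * ℓ := Nat.mul_le_mul_right _ hm1
    have hdens : σ * ((m * ℓ : ℕ) : ℝ) ^ 3 < ((A m * N1 + B m * N2 : ℕ) : ℝ) := by
      rw [hnR]; push_cast
      have h1 : α * (m : ℝ) ^ 3 * N1 ≤ A m * N1 := mul_le_mul_of_nonneg_right hAge hN1R.le
      have h2 : γ * (m : ℝ) ^ 3 * N2 ≤ B m * N2 := mul_le_mul_of_nonneg_right hBge hN2R.le
      have h3 : σ * ((m : ℝ) * ℓ) ^ 3 = σ * P * (m : ℝ) ^ 3 := by rw [mul_pow, hP]; ring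
      have h4 : α * (m : ℝ) ^ 3 * N1 + γ * (m : ℝ) ^ 3 * N2 = κ * (σ * P * (m : ℝ) ^ 3) := by
        have : α * (m : ℝ) ^ 3 * N1 + γ * (m : ℝ) ^ 3 * N2 = (α * N1 + γ * N2) * (m : ℝ) ^ 3 := by
          ring
        rw [this, hden]; ring
      have hp : 0 < σ * P * (m : ℝ) ^ 3 := by positivity
      have h5 : σ * P * (m : ℝ) ^ 3 < κ * (σ * P * (m : ℝ) ^ 3) := by
        exact lt_mul_of_one_lt_left hp hκ1
      rw [h3]
      linarith
    have hle := le_pSup h hσ hside hn1 hdens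
    have hmix := mix_int h hℓ hm1 hm (n1 := N1) (n2 := N2)
    have hnum : (A m : ℝ) * N1 * a1 + B m * N2 * a2 ≤
        y (((m * ℓ : ℕ) : ℝ) - 2) (A m * N1 + B m * N2) := by
      refine le_trans ?_ hmix
      have h1 := mul_le_mul_of_nonneg_left hz1 hApos.le
      have h2 := mul_le_mul_of_nonneg_left hz2 hBpos.le
      have e1 : (A m : ℝ) * N1 * a1 = (A m : ℝ) * (N1 * a1) := by ring
      have e2 : (B m : ℝ) * N2 * a2 = (B m : ℝ) * (N2 * a2) := by ring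
      rw [e1, e2]
      exact add_le_add h1 h2
    refine le_trans ?_ hle
    have e : ((A m : ℝ) / (m : ℝ) ^ 3 * N1 * a1 + (B m : ℝ) / (m : ℝ) ^ 3 * N2 * a2) /
        ((A m : ℝ) / (m : ℝ) ^ 3 * N1 + (B m : ℝ) / (m : ℝ) ^ 3 * N2) =
        ((A m : ℝ) * N1 * a1 + B m * N2 * a2) / ((A m * N1 + B m * N2 : ℕ) : ℝ) := by
      rw [hnR]; field_simp
    rw [e]
    exact div_le_div_of_nonneg_right hnum hnpos.le
  have hlim : Tendsto (fun m : ℕ =>
      ((A m : ℝ) / (m : ℝ) ^ 3 * N1 * a1 + (B m : ℝ) / (m : ℝ) ^ 3 * N2 * a2) /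
        ((A m : ℝ) / (m : ℝ) ^ 3 * N1 + (B m : ℝ) / (m : ℝ) ^ 3 * N2)) atTop
      (𝓝 ((α * N1 * a1 + γ * N2 * a2) / (α * N1 + γ * N2))) := by
    refine Tendsto.div ?_ ?_ ?_
    · exact ((hAlim.mul_const _).mul_const _).add ((hBlim.mul_const _).mul_const _)
    · exact (hAlim.mul_const _).add (hBlim.mul_const _)
    · rw [hden]; positivity
  have hfinal := le_of_tendsto hlim hval
  have e : (α * N1 * a1 + γ * N2 * a2) / (α * N1 + γ * N2) = (c1 * a1 + c2 * a2) / σ := by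
    rw [hden, e1, e2]
    have : κ ≠ 0 := by positivity
    have : P ≠ 0 := hPpos.ne'
    have : σ ≠ 0 := hσ.ne'
    field_simp
  rw [e, div_le_iff₀ hσ] at hfinal
  linarith

/-- Concavity of the limit function. -/
theorem hLim_concave (h : TLHyp y) : ConcaveOn ℝ (Ioi (0 : ℝ)) (hLim y) := by
  refine ⟨convex_Ioi 0, ?_⟩
  intro s1 hs1 s2 hs2 a b ha hb hab
  rw [mem_Ioi] at hs1 hs2
  rcases ha.eq_or_lt with rfl | ha'
  · have : b = 1 := by linarith
    subst this; simp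
  rcases hb.eq_or_lt with rfl | hb'
  · have : a = 1 := by linarith
    subst this; simp
  have hσ : 0 < a * s1 + b * s2 := by positivity
  simp only [smul_eq_mul]
  unfold hLim
  have hc1 : 0 < a * s1 := by positivity
  have hc2 : 0 < b * s2 := by positivity
  suffices key : ∀ a1 ∈ tileVals y s1, ∀ a2 ∈ tileVals y s2,
      a * s1 * a1 + b * s2 * a2 ≤ (a * s1 + b * s2) * pSup y (a * s1 + b * s2) by
    have step1 : ∀ a2 ∈ tileVals y s2, pSup y s1 ≤
        ((a * s1 + b * s2) * pSup y (a * s1 + b * s2) - b * s2 * a2) / (a * s1) := by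
      intro a2 ha2
      refine csSup_le (tileVals_nonempty y s1) (fun a1 ha1 => ?_)
      rw [le_div_iff₀ hc1]
      have := key a1 ha1 a2 ha2
      linarith
    have step2 : pSup y s2 ≤
        ((a * s1 + b * s2) * pSup y (a * s1 + b * s2) - a * s1 * pSup y s1) / (b * s2) := by
      refine csSup_le (tileVals_nonempty y s2) (fun a2 ha2 => ?_)
      rw [le_div_iff₀ hc2]
      have := step1 a2 ha2
      rw [le_div_iff₀ hc1] at this
      linarith
    rw [le_div_iff₀ hc2] at step2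
    linarith
  rintro a1 ⟨ℓ1, n1, hℓ1, hn1, hd1, rfl⟩ a2 ⟨ℓ2, n2, hℓ2, hn2, hd2, rfl⟩
  have hℓ1R : (3 : ℝ) ≤ ℓ1 := by exact_mod_cast hℓ1
  have hℓ2R : (3 : ℝ) ≤ ℓ2 := by exact_mod_cast hℓ2
  have hn1R : (1 : ℝ) ≤ n1 := by exact_mod_cast hn1
  have hn2R : (1 : ℝ) ≤ n2 := by exact_mod_cast hn2
  have hℓ : 3 ≤ ℓ2 * ℓ1 := by
    calc 3 ≤ ℓ1 := hℓ1
      _ = 1 * ℓ1 := (one_mul _).symm
      _ ≤ ℓ2 * ℓ1 := Nat.mul_le_mul_right _ (by omega)
  have hN1R : (0 : ℝ) < ((ℓ2 ^ 3 * n1 : ℕ) : ℝ) := by push_cast; positivity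
  have hN2R : (0 : ℝ) < ((ℓ1 ^ 3 * n2 : ℕ) : ℝ) := by push_cast; positivity
  have hz1 : ((ℓ2 ^ 3 * n1 : ℕ) : ℝ) * (y ((ℓ1 : ℝ) - 2) n1 / n1) ≤
      y (((ℓ2 * ℓ1 : ℕ) : ℝ) - 2) (ℓ2 ^ 3 * n1) := by
    have := mix_int h hℓ1 (m := ℓ2) (A := ℓ2 ^ 3) (B := 0) (n1 := n1) (n2 := 0) (by omega) (by simp)
    simp only [Nat.cast_zero, zero_mul, add_zero, mul_zero] at this
    have e : ((ℓ2 ^ 3 * n1 : ℕ) : ℝ) * (y ((ℓ1 : ℝ) - 2) n1 / n1)
        = ((ℓ2 ^ 3 : ℕ) : ℝ) * y ((ℓ1 : ℝ) - 2) n1 := by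
      push_cast; field_simp
    rw [e]
    exact this
  have hz2 : ((ℓ1 ^ 3 * n2 : ℕ) : ℝ) * (y ((ℓ2 : ℝ) - 2) n2 / n2) ≤
      y (((ℓ2 * ℓ1 : ℕ) : ℝ) - 2) (ℓ1 ^ 3 * n2) := by
    have := mix_int h hℓ2 (m := ℓ1) (A := ℓ1 ^ 3) (B := 0) (n1 := n2) (n2 := 0) (by omega) (by simp)
    simp only [Nat.cast_zero, zero_mul, add_zero, mul_zero] at this
    have e : ((ℓ1 ^ 3 * n2 : ℕ) : ℝ) * (y ((ℓ2 : ℝ) - 2) n2 / n2)
        = ((ℓ1 ^ 3 : ℕ) : ℝ) * y ((ℓ2 : ℝ) - 2) n2 := by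
      push_cast; field_simp
    rw [e, mul_comm ℓ2 ℓ1]
    exact this
  have hℓ3 : (0 : ℝ) < ((ℓ2 * ℓ1 : ℕ) : ℝ) ^ 3 := by push_cast; positivity
  refine mixture_bound h hσ hℓ hz1 hz2 hN1R hN2R hc1 hc2 rfl ?_
  have e1 : s1 * ((ℓ2 * ℓ1 : ℕ) : ℝ) ^ 3 / ((ℓ2 ^ 3 * n1 : ℕ) : ℝ) < 1 := by
    rw [div_lt_one hN1R]; push_cast
    have hp : (0 : ℝ) < (ℓ2 : ℝ) ^ 3 := by positivity
    have := mul_lt_mul_of_pos_left hd1 hp
    calc s1 * ((ℓ2 : ℝ) * ℓ1) ^ 3 = (ℓ2 : ℝ) ^ 3 * (s1 * (ℓ1 : ℝ) ^ 3) := by ring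
      _ < _ := this
  have e2 : s2 * ((ℓ2 * ℓ1 : ℕ) : ℝ) ^ 3 / ((ℓ1 ^ 3 * n2 : ℕ) : ℝ) < 1 := by
    rw [div_lt_one hN2R]; push_cast
    have hp : (0 : ℝ) < (ℓ1 : ℝ) ^ 3 := by positivity
    have := mul_lt_mul_of_pos_left hd2 hp
    calc s2 * ((ℓ2 : ℝ) * ℓ1) ^ 3 = (ℓ1 : ℝ) ^ 3 * (s2 * (ℓ2 : ℝ) ^ 3) := by ring
      _ < _ := this
  have e3 : a * s1 * ((ℓ2 * ℓ1 : ℕ) : ℝ) ^ 3 / ((ℓ2 ^ 3 * n1 : ℕ) : ℝ) +
      b * s2 * ((ℓ2 * ℓ1 : ℕ) : ℝ) ^ 3 / ((ℓ1 ^ 3 * n2 : ℕ) : ℝ) =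
      a * (s1 * ((ℓ2 * ℓ1 : ℕ) : ℝ) ^ 3 / ((ℓ2 ^ 3 * n1 : ℕ) : ℝ)) +
      b * (s2 * ((ℓ2 * ℓ1 : ℕ) : ℝ) ^ 3 / ((ℓ1 ^ 3 * n2 : ℕ) : ℝ)) := by ring
  rw [e3]
  have h1 := mul_lt_mul_of_pos_left e1 ha'
  have h2 := mul_lt_mul_of_pos_left e2 hb'
  linarith

lemma tendsto_cube_atTop : Tendsto (fun L : ℝ => L ^ 3) atTop atTop :=
  tendsto_pow_atTop (by norm_num)

lemma tendsto_floor_div_cube {σ : ℝ} (hσ : 0 ≤ σ) :
    Tendsto (fun L : ℝ => ((⌊σ * L ^ 3⌋₊ : ℕ) : ℝ) / L ^ 3) atTop (𝓝 σ) :=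
  (tendsto_nat_floor_mul_div_atTop (R := ℝ) hσ).comp tendsto_cube_atTop

lemma tendsto_const_div_cube (c : ℝ) : Tendsto (fun L : ℝ => c / L ^ 3) atTop (𝓝 0) :=
  tendsto_cube_atTop.const_div_atTop c

/-- `q / L³ → σ / n` where `q = ⌊σ L³⌋ / n` (natural division). -/
lemma tendsto_quot_div_cube {σ : ℝ} (hσ : 0 ≤ σ) {n : ℕ} (hn : 1 ≤ n) :
    Tendsto (fun L : ℝ => ((⌊σ * L ^ 3⌋₊ / n : ℕ) : ℝ) / L ^ 3) atTop (𝓝 (σ / n)) := by
  have hnR : (0 : ℝ) < n := by exact_mod_cast hn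
  have hup : Tendsto (fun L : ℝ => ((⌊σ * L ^ 3⌋₊ : ℕ) : ℝ) / L ^ 3 / n) atTop (𝓝 (σ / n)) :=
    (tendsto_floor_div_cube hσ).div_const _
  have hlo : Tendsto (fun L : ℝ => ((⌊σ * L ^ 3⌋₊ : ℕ) : ℝ) / L ^ 3 / n - 1 / L ^ 3) atTop
      (𝓝 (σ / n)) := by
    simpa using hup.sub (tendsto_const_div_cube 1)
  refine tendsto_of_tendsto_of_tendsto_of_le_of_le' hlo hup ?_ ?_
  · filter_upwards [eventually_gt_atTop 0] with L hL
    have hL3 : 0 < L ^ 3 := by positivity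
    set N := ⌊σ * L ^ 3⌋₊
    have h1 : (N : ℝ) < ((N / n : ℕ) + 1 : ℕ) * n := by
      have := Nat.lt_succ_iff.mpr (le_refl (N / n))
      have h2 : N < (N / n + 1) * n := by
        rw [← Nat.div_lt_iff_lt_mul (by omega)]
        omega
      exact_mod_cast h2
    push_cast at h1
    have e : (N : ℝ) / L ^ 3 / n - 1 / L ^ 3 = ((N : ℝ) / n - 1) / L ^ 3 := by field_simp
    rw [e]
    apply div_le_div_of_nonneg_right _ hL3.le
    rw [sub_le_iff_le_add, div_le_iff₀ hnR]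
    exact h1.le
  · filter_upwards [eventually_gt_atTop 0] with L hL
    have hL3 : 0 < L ^ 3 := by positivity
    set N := ⌊σ * L ^ 3⌋₊
    have e : (N : ℝ) / L ^ 3 / n = ((N : ℝ) / n) / L ^ 3 := by field_simp
    rw [e]
    apply div_le_div_of_nonneg_right _ hL3.le
    exact Nat.cast_div_le

/-- Lower bound for the limit from one tile. -/
lemma tile_lower (h : TLHyp y) {σ : ℝ} (hσ : 0 < σ) {ℓ n : ℕ} (hℓ : 3 ≤ ℓ) (hn : 1 ≤ n)
    (hd : σ * (ℓ : ℝ) ^ 3 < n) {a : ℝ} (ha : a < σ * (y ((ℓ : ℝ) - 2) n / n)) :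
    ∀ᶠ L : ℝ in atTop, a < y L ⌊σ * L ^ 3⌋₊ / L ^ 3 := by
  classical
  have hnR : (0 : ℝ) < n := by exact_mod_cast hn
  have hℓR : (3 : ℝ) ≤ ℓ := by exact_mod_cast hℓ
  set z := y ((ℓ : ℝ) - 2) with hz
  -- the remainder constant
  set c : ℝ := ∑ r ∈ Finset.range n, min (z r) 0 with hc
  have hcle : ∀ r, r < n → c ≤ z r := by
    intro r hr
    have h1 : c ≤ min (z r) 0 := by
      rw [hc]
      have hmem : r ∈ Finset.range n := Finset.mem_range.mpr hr
      rw [← Finset.add_sum_erase _ _ hmem]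
      have : ∑ x ∈ (Finset.range n).erase r, min (z x) 0 ≤ 0 :=
        Finset.sum_nonpos (fun _ _ => min_le_right _ _)
      linarith
    exact h1.trans (min_le_left _ _)
  -- the lower function
  have hlim : Tendsto (fun L : ℝ => ((⌊σ * L ^ 3⌋₊ / n : ℕ) : ℝ) / L ^ 3 * z n + c / L ^ 3) atTop
      (𝓝 (σ * (z n / n))) := by
    have := ((tendsto_quot_div_cube hσ.le hn).mul_const (z n)).add (tendsto_const_div_cube c)
    have e : σ / n * z n + 0 = σ * (z n / n) := by ring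
    rwa [e] at this
  -- the tile count
  have hmlim : Tendsto (fun L : ℝ => (((⌊(1 / (ℓ : ℝ)) * L⌋₊ : ℕ) : ℝ) / L) ^ 3) atTop
      (𝓝 ((1 / (ℓ : ℝ)) ^ 3)) :=
    (tendsto_nat_floor_mul_div_atTop (R := ℝ) (a := 1 / (ℓ : ℝ)) (by positivity)).pow 3
  have hqlim : Tendsto (fun L : ℝ => ((⌊σ * L ^ 3⌋₊ / n : ℕ) : ℝ) / L ^ 3 + 1 / L ^ 3) atTop
      (𝓝 (σ / n)) := by
    simpa using (tendsto_quot_div_cube hσ.le hn).add (tendsto_const_div_cube 1)
  have hlt : σ / n < (1 / (ℓ : ℝ)) ^ 3 := by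
    rw [div_lt_iff₀ hnR, div_pow, one_pow, div_mul_eq_mul_div, one_mul,
      lt_div_iff₀ (by positivity)]
    exact hd
  have hm1 : Tendsto (fun L : ℝ => ⌊(1 / (ℓ : ℝ)) * L⌋₊) atTop atTop :=
    tendsto_nat_floor_atTop.comp (tendsto_id.const_mul_atTop (by positivity))
  filter_upwards [hlim.eventually (lt_mem_nhds ha), hqlim.eventually_lt hmlim hlt,
    hm1.eventually_ge_atTop 1, eventually_gt_atTop 0] with L hL1 hL2 hL3 hL
  set N := ⌊σ * L ^ 3⌋₊ with hN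
  set q := N / n with hq
  set r := N % n with hr
  set m := ⌊(1 / (ℓ : ℝ)) * L⌋₊ with hm
  have hL3pos : 0 < L ^ 3 := by positivity
  have hfit : q + 1 ≤ m ^ 3 := by
    rw [← add_div, div_pow, div_lt_div_iff_of_pos_right hL3pos] at hL2
    exact_mod_cast hL2.le
  have hrlt : r < n := Nat.mod_lt _ (by omega)
  have hmix := mix_int h hℓ (m := m) (A := q) (B := 1) (n1 := n) (n2 := r) hL3 hfit
  have hNeq : q * n + 1 * r = N := by
    rw [one_mul, hq, hr, mul_comm]; exact Nat.div_add_mod N n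
  rw [hNeq] at hmix
  have hmℓ : ((m * ℓ : ℕ) : ℝ) ≤ L := by
    have h1 : (m : ℝ) ≤ (1 / (ℓ : ℝ)) * L := Nat.floor_le (by positivity)
    push_cast
    have : (m : ℝ) * ℓ ≤ (1 / (ℓ : ℝ)) * L * ℓ := mul_le_mul_of_nonneg_right h1 (by positivity)
    have e : (1 / (ℓ : ℝ)) * L * ℓ = L := by field_simp
    linarith
  have hmℓ3 : (3 : ℝ) ≤ ((m * ℓ : ℕ) : ℝ) := by
    have : 3 ≤ m * ℓ := by
      calc 3 ≤ ℓ := hℓ
        _ = 1 * ℓ := (one_mul _).symm
        _ ≤ m * ℓ := Nat.mul_le_mul_right _ hL3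
    exact_mod_cast this
  have hmono := h.mono (((m * ℓ : ℕ) : ℝ) - 2) L N (by linarith) (by linarith)
  have hfinal : (q : ℝ) * z n + c ≤ y L N := by
    have h1 := hcle r hrlt
    have h2 : (q : ℝ) * z n + ((1 : ℕ) : ℝ) * z r ≤ y L N := le_trans hmix hmono
    push_cast at h2
    linarith
  refine lt_of_lt_of_le hL1 ?_
  rw [le_div_iff₀ hL3pos]
  have e : ((q : ℝ) / L ^ 3 * z n + c / L ^ 3) * L ^ 3 = (q : ℝ) * z n + c := by field_simp
  rw [e]
  exact hfinal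

/-- Upper bound for the limit from the supremum at smaller density. -/
lemma upper_from_pSup (h : TLHyp y) {σ σ' : ℝ} (hσ' : 0 < σ') (hlt : σ' < σ) :
    ∀ᶠ L : ℝ in atTop, y L ⌊σ * L ^ 3⌋₊ / L ^ 3 ≤
      ((⌊σ * L ^ 3⌋₊ : ℕ) : ℝ) / L ^ 3 * pSup y σ' := by
  have hσ : 0 < σ := hσ'.trans hlt
  have hlim : Tendsto (fun L : ℝ => σ' * (1 + 3 / L) ^ 3 + 2 / L ^ 3) atTop (𝓝 σ') := by
    have h3 : Tendsto (fun L : ℝ => 3 / L) atTop (𝓝 0) := tendsto_const_nhds.div_atTop tendsto_id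
    have h4 : Tendsto (fun L : ℝ => (1 + 3 / L) ^ 3) atTop (𝓝 ((1 + 0) ^ 3)) :=
      (tendsto_const_nhds.add h3).pow 3
    have := (h4.const_mul σ').add (tendsto_const_div_cube 2)
    simpa using this
  filter_upwards [hlim.eventually (gt_mem_nhds hlt), eventually_gt_atTop 0] with L hL1 hL
  have hL3pos : 0 < L ^ 3 := by positivity
  set N := ⌊σ * L ^ 3⌋₊ with hN
  have hNlo : σ * L ^ 3 - 1 < N := by
    have := Nat.lt_floor_add_one (σ * L ^ 3)
    linarith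
  have hineq : σ' * (L + 3) ^ 3 + 2 < σ * L ^ 3 := by
    have e : (σ' * (1 + 3 / L) ^ 3 + 2 / L ^ 3) * L ^ 3 = σ' * (L + 3) ^ 3 + 2 := by
      field_simp
    have := mul_lt_mul_of_pos_right hL1 hL3pos
    rwa [e] at this
  have hNge : (1 : ℝ) ≤ N := by
    have : 0 ≤ σ' * (L + 3) ^ 3 := by positivity
    linarith
  have hN1 : 1 ≤ N := by exact_mod_cast hNge
  set ℓ := ⌈L⌉₊ + 2 with hℓ
  have hceil : 1 ≤ ⌈L⌉₊ := Nat.one_le_ceil_iff.mpr hL
  have hℓ3 : 3 ≤ ℓ := by omega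
  have hℓR : (ℓ : ℝ) - 2 = (⌈L⌉₊ : ℝ) := by rw [hℓ]; push_cast; ring
  have hLle : L ≤ (ℓ : ℝ) - 2 := by rw [hℓR]; exact Nat.le_ceil L
  have hℓup : (ℓ : ℝ) ≤ L + 3 := by
    have := Nat.ceil_lt_add_one hL.le
    rw [hℓ]; push_cast; linarith
  have hd : σ' * (ℓ : ℝ) ^ 3 < N := by
    have hpow : (ℓ : ℝ) ^ 3 ≤ (L + 3) ^ 3 := pow_le_pow_left₀ (by positivity) hℓup 3
    have : σ' * (ℓ : ℝ) ^ 3 ≤ σ' * (L + 3) ^ 3 := mul_le_mul_of_nonneg_left hpow hσ'.le
    linarith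
  have hle := le_pSup h hσ' hℓ3 hN1 hd
  have hNR : (0 : ℝ) < N := by linarith
  rw [div_le_iff₀ hNR] at hle
  have hmono := h.mono L ((ℓ : ℝ) - 2) N hL hLle
  rw [div_le_iff₀ hL3pos]
  have e : (N : ℝ) / L ^ 3 * pSup y σ' * L ^ 3 = pSup y σ' * N := by field_simp
  rw [e]
  exact hmono.trans hle

/-- The thermodynamic limit. -/
theorem tendsto_hLim (h : TLHyp y) {σ : ℝ} (hσ : 0 < σ) :
    Tendsto (fun L : ℝ => y L ⌊σ * L ^ 3⌋₊ / L ^ 3) atTop (𝓝 (hLim y σ)) := by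
  refine tendsto_order.2 ⟨fun a ha => ?_, fun b hb => ?_⟩
  · -- lower bound
    unfold hLim at ha
    have ha' : a / σ < pSup y σ := by rwa [div_lt_iff₀ hσ, mul_comm]
    obtain ⟨v, ⟨ℓ, n, hℓ, hn, hd, rfl⟩, hv⟩ := exists_lt_of_lt_csSup (tileVals_nonempty y σ) ha'
    refine tile_lower h hσ hℓ hn hd ?_
    rw [div_lt_iff₀ hσ] at hv
    linarith
  · -- upper bound
    have hcont : ContinuousAt (hLim y) σ :=
      ((hLim_concave h).continuousOn isOpen_Ioi).continuousAt (Ioi_mem_nhds hσ)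
    have hcont2 : ContinuousAt (fun s => σ * (hLim y s / s)) σ :=
      continuousAt_const.mul (hcont.div continuousAt_id hσ.ne')
    have hval : σ * (hLim y σ / σ) = hLim y σ := by field_simp
    have hev : ∀ᶠ s in 𝓝 σ, σ * (hLim y s / s) < b :=
      hcont2.eventually (gt_mem_nhds (by show σ * (hLim y σ / σ) < b; rwa [hval]))
    have hev2 : ∀ᶠ s in 𝓝[<] σ, 0 < s ∧ s < σ ∧ σ * (hLim y s / s) < b := by
      have h0 : ∀ᶠ s in 𝓝[<] σ, 0 < s :=
        (mem_nhdsWithin_of_mem_nhds (Ioi_mem_nhds hσ))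
      have h1 : ∀ᶠ s in 𝓝[<] σ, s < σ := self_mem_nhdsWithin
      have h2 : ∀ᶠ s in 𝓝[<] σ, σ * (hLim y s / s) < b := nhdsWithin_le_nhds hev
      filter_upwards [h0, h1, h2] with s a1 a2 a3 using ⟨a1, a2, a3⟩
    obtain ⟨s, hs0, hsσ, hsb⟩ := hev2.exists
    have e : hLim y s / s = pSup y s := by unfold hLim; field_simp
    rw [e] at hsb
    have hlim2 : Tendsto (fun L : ℝ => ((⌊σ * L ^ 3⌋₊ : ℕ) : ℝ) / L ^ 3 * pSup y s) atTop
        (𝓝 (σ * pSup y s)) := (tendsto_floor_div_cube hσ.le).mul_const _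
    filter_upwards [upper_from_pSup h hs0 hsσ, hlim2.eventually (gt_mem_nhds hsb)] with L h1 h2
    exact lt_of_le_of_lt h1 h2

end Abstract

/-! ### Concrete partition functions -/

section Concrete

/-- Partition function on a general domain. -/
noncomputable def ZD (φ : ℝ → ℝ) (β : ℝ) (D : Set Pt) (N : ℕ) : ℝ :=
  (1 / (N.factorial : ℝ)) * IZ φ β (Fin N) D

lemma partitionFn_eq_ZD (φ : ℝ → ℝ) (L : ℝ) (N : ℕ) (β : ℝ) :
    partitionFn φ L N β = ZD φ β (cube L) N := partitionFn_eq φ L N β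

lemma ZD_nonneg (φ : ℝ → ℝ) (β : ℝ) (D : Set Pt) (N : ℕ) : 0 ≤ ZD φ β D N :=
  mul_nonneg (by positivity) (IZ_nonneg φ β D)

lemma ZD_mono {φ : ℝ → ℝ} {B : ℝ} (h : Adm φ B) {β : ℝ} (hβ : 0 ≤ β) {D D' : Set Pt}
    (hD : D ⊆ D') (hD' : volume D' ≠ ⊤) (N : ℕ) : ZD φ β D N ≤ ZD φ β D' N :=
  mul_le_mul_of_nonneg_left (IZ_mono h hβ hD hD') (by positivity)

/-- Superadditivity for two separated domains (including the multinomial bookkeeping). -/
theorem ZD_union_ge {φ : ℝ → ℝ} {B : ℝ} (h : Adm φ B) {β : ℝ} (hβ : 0 ≤ β) {D1 D2 : Set Pt}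
    (hm1 : MeasurableSet D1) (hm2 : MeasurableSet D2) (hv1 : volume D1 ≠ ⊤) (hv2 : volume D2 ≠ ⊤)
    (hsep : ∀ a ∈ D1, ∀ b ∈ D2, 2 ≤ dist a b) (n1 n2 : ℕ) :
    ZD φ β D1 n1 * ZD φ β D2 n2 ≤ ZD φ β (D1 ∪ D2) (n1 + n2) := by
  classical
  set ι := Fin (n1 + n2)
  have hvU : volume (D1 ∪ D2) ≠ ⊤ :=
    ((measure_union_le D1 D2).trans_lt (ENNReal.add_lt_top.mpr ⟨hv1.lt_top, hv2.lt_top⟩)).ne
  let 𝒮 : Finset (Finset ι) := Finset.powersetCard n1 Finset.univ
  let A : Finset ι → Set (ι → Pt) := fun S =>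
    Set.pi Set.univ (fun i : ι => if i ∈ S then D1 else D2)
  have hAm : ∀ S, MeasurableSet (A S) := fun S =>
    MeasurableSet.univ_pi (fun i => by
      by_cases hi : i ∈ S
      · simpa [hi] using hm1
      · simpa [hi] using hm2)
  have hAsub : ∀ S, A S ⊆ Set.pi Set.univ (fun _ : ι => D1 ∪ D2) := by
    intro S x hx i hi
    have := hx i hi
    by_cases hiS : i ∈ S
    · left; simpa [hiS] using this
    · right; simpa [hiS] using this
  have hdisj : ∀ S T, S ≠ T → Disjoint (A S) (A T) := by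
    intro S T hST
    rw [Set.disjoint_left]
    intro x hxS hxT
    obtain ⟨i, hi⟩ : ∃ i, ¬ (i ∈ S ↔ i ∈ T) := by
      by_contra hcon
      push Not at hcon
      exact hST (Finset.ext hcon)
    have h1 := hxS i (Set.mem_univ _)
    have h2 := hxT i (Set.mem_univ _)
    by_cases his : i ∈ S
    · have hit : i ∉ T := fun hit => hi ⟨fun _ => hit, fun _ => his⟩
      simp only [his, hit, if_true, if_false] at h1 h2
      have := hsep _ h1 _ h2
      simp at this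
      linarith
    · have hit : i ∈ T := by
        by_contra hit
        exact hi ⟨fun hs => absurd hs his, fun ht => absurd ht hit⟩
      simp only [his, hit, if_true, if_false] at h1 h2
      have := hsep _ h2 _ h1
      simp at this
      linarith
  have hfinU := volume_pi_const_ne_top (ι := ι) hvU
  have hsum : ∑ S ∈ 𝒮, ∫ x in A S, Real.exp (-(β / 2) * en2 φ x) ≤ IZ φ β ι (D1 ∪ D2) := by
    rw [← integral_biUnion_finset 𝒮 (fun S _ => hAm S)
      (fun S _ T _ hST => hdisj S T hST)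
      (fun S _ => (h.integrableOn hβ hfinU).mono_set (hAsub S))]
    refine setIntegral_mono_set (h.integrableOn hβ hfinU) ?_ ?_
    · exact Eventually.of_forall (fun _ => (Real.exp_pos _).le)
    · refine LE.le.eventuallyLE ?_
      refine Set.iUnion₂_subset (fun S _ => hAsub S)
  have hterm : ∀ S ∈ 𝒮, IZ φ β (Fin n1) D1 * IZ φ β (Fin n2) D2 ≤
      ∫ x in A S, Real.exp (-(β / 2) * en2 φ x) := by
    intro S hS
    have hcard : S.card = n1 := (Finset.mem_powersetCard.mp hS).2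
    have hc2 : Fintype.card {i // ¬ (i ∈ S)} = n2 := by
      rw [Fintype.card_subtype_compl, Fintype.card_fin]
      simp [hcard]
    have key := integral_split_ge h hβ hm1 hm2 hv1 hv2 hsep (fun i => i ∈ S)
    have e1 : IZ φ β {i // i ∈ S} D1 = IZ φ β (Fin n1) D1 :=
      IZ_fin_of_card φ β hm1 (by simp [hcard])
    have e2 : IZ φ β {i // ¬ (i ∈ S)} D2 = IZ φ β (Fin n2) D2 := IZ_fin_of_card φ β hm2 hc2
    rw [← e1, ← e2]
    convert key using 3
  have hcount : ((n1 + n2).choose n1 : ℝ) * (IZ φ β (Fin n1) D1 * IZ φ β (Fin n2) D2) ≤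
      IZ φ β ι (D1 ∪ D2) := by
    refine le_trans ?_ hsum
    have := Finset.card_nsmul_le_sum 𝒮 _ _ hterm
    have hcard : 𝒮.card = (n1 + n2).choose n1 := by
      simp [𝒮, Finset.card_powersetCard, ι]
    rw [hcard, nsmul_eq_mul] at this
    exact this
  unfold ZD
  have hfac : ((n1 + n2).factorial : ℝ) = ((n1 + n2).choose n1 : ℝ) * n1.factorial * n2.factorial := by
    have := Nat.add_choose_mul_factorial_mul_factorial n2 n1
    rw [add_comm n2 n1] at this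
    rw [← this]
    push_cast
    ring
  have hf1 : (0 : ℝ) < n1.factorial := by positivity
  have hf2 : (0 : ℝ) < n2.factorial := by positivity
  have hf3 : (0 : ℝ) < (n1 + n2).factorial := by positivity
  have hf4 : (0 : ℝ) < ((n1 + n2).choose n1 : ℝ) := by
    have : 0 < (n1 + n2).choose n1 := Nat.choose_pos (by omega)
    exact_mod_cast this
  calc 1 / (n1.factorial : ℝ) * IZ φ β (Fin n1) D1 * (1 / (n2.factorial : ℝ) * IZ φ β (Fin n2) D2)
      = 1 / ((n1 + n2).factorial : ℝ) *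
          (((n1 + n2).choose n1 : ℝ) * (IZ φ β (Fin n1) D1 * IZ φ β (Fin n2) D2)) := by
        rw [hfac]; field_simp
    _ ≤ 1 / ((n1 + n2).factorial : ℝ) * IZ φ β ι (D1 ∪ D2) :=
        mul_le_mul_of_nonneg_left hcount (by positivity)

/-- Translated domain. -/
def shift (a : Pt) (D : Set Pt) : Set Pt := (fun x => x - a) ⁻¹' D

lemma measurableSet_shift {a : Pt} {D : Set Pt} (hD : MeasurableSet D) :
    MeasurableSet (shift a D) := (measurable_id.sub_const a) hD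

lemma volume_shift (a : Pt) {D : Set Pt} (hD : MeasurableSet D) :
    volume (shift a D) = volume D :=
  (measurePreserving_sub_right volume a).measure_preimage hD.nullMeasurableSet

lemma en2_sub_const (φ : ℝ → ℝ) {ι : Type*} [Fintype ι] [DecidableEq ι] (x : ι → Pt) (a : Pt) :
    en2 φ (x - fun _ => a) = en2 φ x := by
  unfold en2
  simp

lemma ZD_shift (φ : ℝ → ℝ) (β : ℝ) (a : Pt) {D : Set Pt} (N : ℕ) :
    ZD φ β (shift a D) N = ZD φ β D N := by
  unfold ZD IZ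
  congr 1
  have hmp := measurePreserving_sub_right (volume : Measure (Fin N → Pt)) (fun _ => a)
  have hemb : MeasurableEmbedding (fun x : Fin N → Pt => x - fun _ => a) :=
    (MeasurableEquiv.subRight (fun _ : Fin N => a)).measurableEmbedding
  have hpre : (fun x : Fin N → Pt => x - fun _ => a) ⁻¹' (Set.pi Set.univ (fun _ : Fin N => D)) =
      Set.pi Set.univ (fun _ : Fin N => shift a D) := by
    ext x
    simp [shift, Set.mem_pi]
  have key := hmp.setIntegral_preimage_emb hemb (fun x => Real.exp (-(β / 2) * en2 φ x))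
    (Set.pi Set.univ (fun _ : Fin N => D))
  rw [← hpre, ← key]
  refine integral_congr_ae (Eventually.of_forall (fun x => ?_))
  simp only
  rw [en2_sub_const]

end Concrete

/-! ### Cubes and tiles -/

section Tiles

lemma cube_eq_preimage (L : ℝ) :
    cube L = (WithLp.ofLp : Pt → (Fin 3 → ℝ)) ⁻¹' Set.Icc 0 (fun _ => L) := by
  ext x
  simp only [cube, Set.mem_ofPred_eq, Set.mem_preimage, Set.mem_Icc, Pi.le_def, Pi.zero_apply]
  exact ⟨fun h => ⟨fun k => (h k).1, fun k => (h k).2⟩, fun h k => ⟨h.1 k, h.2 k⟩⟩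

lemma measurableSet_cube (L : ℝ) : MeasurableSet (cube L) := by
  rw [cube_eq_preimage]
  exact (PiLp.volume_preserving_ofLp (Fin 3)).measurable measurableSet_Icc

/-- The volume of the cube. -/
lemma volume_cube (L : ℝ) : volume (cube L) = ENNReal.ofReal L ^ 3 := by
  rw [cube_eq_preimage, (PiLp.volume_preserving_ofLp (Fin 3)).measure_preimage
    measurableSet_Icc.nullMeasurableSet, Real.volume_Icc_pi]
  simp

lemma volume_cube_ne_top (L : ℝ) : volume (cube L) ≠ ⊤ := by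
  rw [volume_cube]
  exact ENNReal.pow_ne_top ENNReal.ofReal_ne_top

lemma volume_cube_pos {L : ℝ} (hL : 0 < L) : 0 < volume (cube L) := by
  rw [volume_cube]
  exact ENNReal.pow_pos (ENNReal.ofReal_pos.mpr hL) 3

/-- The offset of the tile with index `K`. -/
noncomputable def offs (ℓ : ℝ) (K : Fin 3 → ℕ) : Pt := WithLp.toLp 2 (fun c => ℓ * (K c : ℝ))

/-- The tile with index `K`: a cube of side `L` with pitch `L + 2`. -/
def box (L : ℝ) (K : Fin 3 → ℕ) : Set Pt := shift (offs (L + 2) K) (cube L)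

lemma mem_box {L : ℝ} {K : Fin 3 → ℕ} {x : Pt} :
    x ∈ box L K ↔ ∀ c, 0 ≤ x c - (L + 2) * (K c : ℝ) ∧ x c - (L + 2) * (K c : ℝ) ≤ L := by
  simp [box, shift, cube, offs]

lemma dist_ge_of_coord {x y : Pt} {c : Fin 3} {d : ℝ} (h : d ≤ |x c - y c|) : d ≤ dist x y := by
  refine h.trans ?_
  rw [dist_eq_norm, ← Real.norm_eq_abs]
  exact PiLp.norm_apply_le (x - y) c

lemma box_sep {L : ℝ} (hL : 0 ≤ L) {K K' : Fin 3 → ℕ} (hK : K ≠ K') {x y : Pt}
    (hx : x ∈ box L K) (hy : y ∈ box L K') : 2 ≤ dist x y := by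
  obtain ⟨c, hc⟩ := Function.ne_iff.mp hK
  have h1 := mem_box.mp hx c
  have h2 := mem_box.mp hy c
  refine dist_ge_of_coord (c := c) ?_
  rcases lt_or_gt_of_ne hc with hlt | hlt
  · have hle : ((K c : ℝ)) + 1 ≤ K' c := by exact_mod_cast hlt
    have hp : (L + 2) * ((K c : ℝ) + 1) ≤ (L + 2) * (K' c : ℝ) :=
      mul_le_mul_of_nonneg_left hle (by linarith)
    rw [abs_sub_comm]
    refine le_trans ?_ (le_abs_self _)
    nlinarith [h1.1, h1.2, h2.1, h2.2]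
  · have hle : ((K' c : ℝ)) + 1 ≤ K c := by exact_mod_cast hlt
    have hp : (L + 2) * ((K' c : ℝ) + 1) ≤ (L + 2) * (K c : ℝ) :=
      mul_le_mul_of_nonneg_left hle (by linarith)
    refine le_trans ?_ (le_abs_self _)
    nlinarith [h1.1, h1.2, h2.1, h2.2]

lemma box_subset_cube {L : ℝ} (hL : 0 ≤ L) {m : ℕ} {K : Fin 3 → ℕ} (hK : ∀ c, K c < m) :
    box L K ⊆ cube ((m : ℝ) * (L + 2) - 2) := by
  intro x hx c
  have h1 := mem_box.mp hx c
  have hK' : (K c : ℝ) + 1 ≤ m := by exact_mod_cast hK c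
  have hp : (L + 2) * ((K c : ℝ) + 1) ≤ (L + 2) * (m : ℝ) :=
    mul_le_mul_of_nonneg_left hK' (by linarith)
  have hp0 : 0 ≤ (L + 2) * (K c : ℝ) := by positivity
  constructor
  · linarith [h1.1]
  · nlinarith [h1.2]

lemma IZ_fin_zero (φ : ℝ → ℝ) (β : ℝ) (D : Set Pt) : IZ φ β (Fin 0) D = 1 := by
  unfold IZ
  have hpi : Set.pi Set.univ (fun _ : Fin 0 => D) = Set.univ := by
    ext x; simp
  rw [hpi, Measure.restrict_univ]
  have hen : ∀ x : Fin 0 → Pt, en2 φ x = 0 := fun x => by simp [en2]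
  simp only [hen, mul_zero, Real.exp_zero]
  have hvol : (volume : Measure (Fin 0 → Pt)) = Measure.dirac (fun i => i.elim0) := by
    rw [volume_pi, Measure.pi_of_empty]
    congr 1
  rw [hvol]
  simp

lemma ZD_zero (φ : ℝ → ℝ) (β : ℝ) (D : Set Pt) : ZD φ β D 0 = 1 := by
  simp [ZD, IZ_fin_zero]

lemma measurableSet_box (L : ℝ) (K : Fin 3 → ℕ) : MeasurableSet (box L K) :=
  measurableSet_shift (measurableSet_cube L)

lemma volume_box_ne_top (L : ℝ) (K : Fin 3 → ℕ) : volume (box L K) ≠ ⊤ := by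
  rw [box, volume_shift _ (measurableSet_cube L)]
  exact volume_cube_ne_top L

/-- The product bound over a finite family of tiles. -/
theorem ZD_tiles {φ : ℝ → ℝ} {B : ℝ} (h : Adm φ B) {β : ℝ} (hβ : 0 ≤ β) {L : ℝ} (hL : 0 ≤ L)
    (s : Finset (Fin 3 → ℕ)) (n : (Fin 3 → ℕ) → ℕ) :
    ∏ K ∈ s, ZD φ β (cube L) (n K) ≤ ZD φ β (⋃ K ∈ s, box L K) (∑ K ∈ s, n K) := by
  classical
  induction s using Finset.induction_on with
  | empty =>
    simp [ZD_zero]
  | insert K s hK ih =>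
    rw [Finset.prod_insert hK, Finset.sum_insert hK, Finset.set_biUnion_insert]
    have hmU : MeasurableSet (⋃ K ∈ s, box L K) :=
      Finset.measurableSet_biUnion _ (fun K _ => measurableSet_box L K)
    have hvU : volume (⋃ K ∈ s, box L K) ≠ ⊤ :=
      ((measure_biUnion_finset_le s _).trans_lt
        (ENNReal.sum_lt_top.mpr (fun K _ => (volume_box_ne_top L K).lt_top))).ne
    have hsep : ∀ a ∈ box L K, ∀ b ∈ ⋃ K ∈ s, box L K, 2 ≤ dist a b := by
      intro a ha b hb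
      simp only [Set.mem_iUnion, exists_prop] at hb
      obtain ⟨K', hK', hb⟩ := hb
      have hne : K ≠ K' := fun e => hK (by rw [e]; exact hK')
      exact box_sep hL hne ha hb
    have hu := ZD_union_ge h hβ (measurableSet_box L K) hmU (volume_box_ne_top L K) hvU hsep
      (n K) (∑ K ∈ s, n K)
    have hshift : ZD φ β (box L K) (n K) = ZD φ β (cube L) (n K) := ZD_shift φ β _ _
    rw [hshift] at hu
    refine le_trans (mul_le_mul_of_nonneg_left ih (ZD_nonneg _ _ _ _)) hu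

/-- The mixture inequality for partition functions. -/
theorem ZD_mix {φ : ℝ → ℝ} {B : ℝ} (h : Adm φ B) {β : ℝ} (hβ : 0 ≤ β) {L : ℝ} (hL : 0 ≤ L)
    {m A C n1 n2 : ℕ} (hfit : A + C ≤ m ^ 3) :
    ZD φ β (cube L) n1 ^ A * ZD φ β (cube L) n2 ^ C ≤
      ZD φ β (cube ((m : ℝ) * (L + 2) - 2)) (A * n1 + C * n2) := by
  classical
  let grid : Finset (Fin 3 → ℕ) := Fintype.piFinset (fun _ => Finset.range m)
  have hcard : grid.card = m ^ 3 := by
    simp [grid, Fintype.card_piFinset]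
  obtain ⟨s, hsgrid, hscard⟩ := Finset.exists_subset_card_eq (s := grid) (n := A + C)
    (by rw [hcard]; exact hfit)
  obtain ⟨s1, hs1s, hs1card⟩ := Finset.exists_subset_card_eq (s := s) (n := A)
    (by rw [hscard]; omega)
  have hs2card : (s \ s1).card = C := by
    rw [Finset.card_sdiff_of_subset hs1s, hscard, hs1card]; omega
  let n : (Fin 3 → ℕ) → ℕ := fun K => if K ∈ s1 then n1 else n2
  have hmain := ZD_tiles h hβ hL s n
  have hprod : ∏ K ∈ s, ZD φ β (cube L) (n K) = ZD φ β (cube L) n1 ^ A * ZD φ β (cube L) n2 ^ C := by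
    rw [← Finset.prod_sdiff hs1s, mul_comm]
    congr 1
    · rw [Finset.prod_congr rfl (g := fun _ => ZD φ β (cube L) n1), Finset.prod_const, hs1card]
      intro K hK
      simp [n, hK]
    · rw [Finset.prod_congr rfl (g := fun _ => ZD φ β (cube L) n2), Finset.prod_const, hs2card]
      intro K hK
      simp [n, (Finset.mem_sdiff.mp hK).2]
  have hsum : ∑ K ∈ s, n K = A * n1 + C * n2 := by
    rw [← Finset.sum_sdiff hs1s, add_comm]
    congr 1
    · rw [Finset.sum_congr rfl (g := fun _ => n1), Finset.sum_const, hs1card, smul_eq_mul]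
      intro K hK
      simp [n, hK]
    · rw [Finset.sum_congr rfl (g := fun _ => n2), Finset.sum_const, hs2card, smul_eq_mul]
      intro K hK
      simp [n, (Finset.mem_sdiff.mp hK).2]
  rw [hprod, hsum] at hmain
  refine hmain.trans (ZD_mono h hβ ?_ (volume_cube_ne_top _) _)
  refine Set.iUnion₂_subset (fun K hK => box_subset_cube hL ?_)
  intro c
  have := hsgrid hK
  simp only [grid, Fintype.mem_piFinset, Finset.mem_range] at this
  exact this c

lemma cube_mono {L L' : ℝ} (h : L ≤ L') : cube L ⊆ cube L' := fun _ hx k =>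
  ⟨(hx k).1, (hx k).2.trans h⟩

lemma Adm.IZ_pos {φ : ℝ → ℝ} {B : ℝ} (h : Adm φ B) {β : ℝ} (hβ : 0 ≤ β) {D : Set Pt}
    (hm : MeasurableSet D) (hv : volume D ≠ ⊤) (hp : 0 < volume D) (n : ℕ) :
    0 < IZ φ β (Fin n) D := by
  unfold IZ
  rw [setIntegral_pos_iff_support_of_nonneg_ae (Eventually.of_forall
    (fun _ => (Real.exp_pos _).le)) (h.integrableOn hβ (volume_pi_const_ne_top hv))]
  have hsupp : Function.support (fun x : Fin n → Pt => Real.exp (-(β / 2) * en2 φ x)) = Set.univ := by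
    ext x; simp [Real.exp_ne_zero]
  rw [hsupp, Set.univ_inter, volume_pi_pi]
  rw [pos_iff_ne_zero, Finset.prod_ne_zero_iff]
  exact fun _ _ => hp.ne'

lemma Adm.ZD_cube_pos {φ : ℝ → ℝ} {B : ℝ} (h : Adm φ B) {β : ℝ} (hβ : 0 ≤ β) {L : ℝ} (hL : 0 < L)
    (n : ℕ) : 0 < ZD φ β (cube L) n :=
  mul_pos (by positivity)
    (h.IZ_pos hβ (measurableSet_cube L) (volume_cube_ne_top L) (volume_cube_pos hL) n)

/-- Upper bound for the integral. -/
lemma Adm.IZ_le {φ : ℝ → ℝ} {B : ℝ} (h : Adm φ B) {β : ℝ} (hβ : 0 ≤ β) {L : ℝ} (hL : 0 ≤ L)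
    (n : ℕ) : IZ φ β (Fin n) (cube L) ≤ Real.exp (β * B * n) * (L ^ 3) ^ n := by
  unfold IZ
  have hv := volume_pi_const_ne_top (ι := Fin n) (volume_cube_ne_top L)
  have hc : IntegrableOn (fun _ : Fin n → Pt => Real.exp (β * B * n))
      (Set.pi Set.univ (fun _ : Fin n => cube L)) := integrableOn_const hv
  refine (setIntegral_mono_on (h.integrableOn hβ hv) hc
    (MeasurableSet.univ_pi (fun _ => measurableSet_cube L)) (fun x _ => ?_)).trans ?_
  · simpa using h.integrand_le hβ x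
  · rw [setIntegral_const, smul_eq_mul, mul_comm]
    refine mul_le_mul_of_nonneg_left (le_of_eq ?_) (Real.exp_pos _).le
    rw [Measure.real, volume_pi_pi]
    simp only [volume_cube, Finset.prod_const, Finset.card_univ, Fintype.card_fin]
    rw [ENNReal.toReal_pow, ENNReal.toReal_pow, ENNReal.toReal_ofReal hL]

/-- The upper bound for `log Z`. -/
lemma Adm.log_ZD_le {φ : ℝ → ℝ} {B : ℝ} (h : Adm φ B) {β : ℝ} (hβ : 0 ≤ β) {L : ℝ} (hL : 0 < L)
    {n : ℕ} (hn : 1 ≤ n) :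
    Real.log (ZD φ β (cube L) n) ≤ n * ((1 + β * B) - Real.log (n / L ^ 3)) := by
  have hnR : (0 : ℝ) < n := by exact_mod_cast hn
  have hL3 : 0 < L ^ 3 := by positivity
  have hpos := h.ZD_cube_pos hβ hL n
  have hfac : (0 : ℝ) < n.factorial := by positivity
  have hle : ZD φ β (cube L) n ≤ 1 / (n.factorial : ℝ) * (Real.exp (β * B * n) * (L ^ 3) ^ n) :=
    mul_le_mul_of_nonneg_left (h.IZ_le hβ hL.le n) (by positivity)
  have hstir : (n : ℝ) ^ n / (n.factorial : ℝ) ≤ Real.exp n := Real.pow_div_factorial_le_exp _ hnR.le n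
  have hlogfac : (n : ℝ) * Real.log n - n ≤ Real.log (n.factorial : ℝ) := by
    have h1 := Real.log_le_log (by positivity) hstir
    rw [Real.log_exp, Real.log_div (by positivity) hfac.ne', Real.log_pow] at h1
    linarith
  have h2 := Real.log_le_log hpos hle
  have h3 : Real.log (1 / (n.factorial : ℝ) * (Real.exp (β * B * n) * (L ^ 3) ^ n)) =
      - Real.log (n.factorial : ℝ) + β * B * n + n * Real.log (L ^ 3) := by
    rw [Real.log_mul (by positivity) (by positivity), Real.log_mul (by positivity) (by positivity),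
      one_div, Real.log_inv, Real.log_exp, Real.log_pow]
    ring
  rw [h3] at h2
  rw [Real.log_div hnR.ne' hL3.ne']
  nlinarith

end Tiles

/-! ### The main theorems -/

section Main

/-- `log Z` for the potential. -/
noncomputable def logZ (φ : ℝ → ℝ) (β : ℝ) (L : ℝ) (n : ℕ) : ℝ := Real.log (partitionFn φ L n β)

theorem tlHyp {φ : ℝ → ℝ} {B : ℝ} (h : Adm φ B) {β : ℝ} (hβ : 0 ≤ β) : TLHyp (logZ φ β) where
  mono := by
    intro L L' n hL hLL
    unfold logZ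
    rw [partitionFn_eq_ZD, partitionFn_eq_ZD]
    exact Real.log_le_log (h.ZD_cube_pos hβ hL n)
      (ZD_mono h hβ (cube_mono hLL) (volume_cube_ne_top _) n)
  mix := by
    intro L m A C n1 n2 hL hm hfit
    unfold logZ
    rw [partitionFn_eq_ZD, partitionFn_eq_ZD, partitionFn_eq_ZD]
    have hmix := ZD_mix h hβ hL.le (m := m) (A := A) (C := C) (n1 := n1) (n2 := n2) hfit
    have hp1 := h.ZD_cube_pos hβ hL n1
    have hp2 := h.ZD_cube_pos hβ hL n2
    have := Real.log_le_log (by positivity) hmix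
    rw [Real.log_mul (by positivity) (by positivity), Real.log_pow, Real.log_pow] at this
    exact this
  upper := by
    refine ⟨1 + β * B, fun L n hL hn => ?_⟩
    unfold logZ
    rw [partitionFn_eq_ZD]
    exact h.log_ZD_le hβ hL hn

/-- The limit density of `log Z`. -/
noncomputable def hFree (φ : ℝ → ℝ) (β : ℝ) (σ : ℝ) : ℝ := hLim (logZ φ β) σ

/-- **Thermodynamic limit.** -/
theorem tendsto_logZ {φ : ℝ → ℝ} {B : ℝ} (h : Adm φ B) {β : ℝ} (hβ : 0 ≤ β) {σ : ℝ} (hσ : 0 < σ) :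
    Tendsto (fun L : ℝ => Real.log (partitionFn φ L ⌊σ * L ^ 3⌋₊ β) / L ^ 3) atTop
      (𝓝 (hFree φ β σ)) :=
  tendsto_hLim (tlHyp h hβ) hσ

/-- **Concavity in the density.** -/
theorem hFree_concave {φ : ℝ → ℝ} {B : ℝ} (h : Adm φ B) {β : ℝ} (hβ : 0 ≤ β) :
    ConcaveOn ℝ (Ioi (0 : ℝ)) (hFree φ β) :=
  hLim_concave (tlHyp h hβ)

end Main


end Crest.Agent.TL.Thermo
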