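import Crest.Agent.TL.SplitZ
import Crest.Agent.TL.Thermo

/-!
# S0209/S0210: the upper barrier at level `0`

`log Z(φ, cube L, n, β) ≤ n (1 - log (n / L^3)) - β E₀` whenever `E₀` bounds the energy from below
on the cube, and the Turan lower bounds for the energy of the short range part.
-/

set_option autoImplicit false

namespace Crest.Agent.TL.BarrierUp

open Finset MeasureTheory Crest.ProbabilityR.Continuum
open Crest.Agent.TL.Splitting Crest.Agent.TL.Thermo

/-- The generic bound: a pointwise energy bound on the cube bounds `log Z`. -/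
theorem log_partitionFn_le {φ : ℝ → ℝ} {B : ℝ} (h : Adm φ B) {β : ℝ} (hβ : 0 ≤ β) {L : ℝ}
    (hL : 0 < L) {n : ℕ} (hn : 1 ≤ n) (E₀ : ℝ)
    (hE : ∀ x : Fin n → Pt, (∀ i, x i ∈ cube L) → E₀ ≤ energy φ x) :
    Real.log (partitionFn φ L n β) ≤ n * (1 - Real.log (n / L ^ 3)) - β * E₀ := by
  have hnR : (0 : ℝ) < n := by exact_mod_cast hn
  have hL3 : 0 < L ^ 3 := by positivity
  have hpos : 0 < partitionFn φ L n β := by
    rw [partitionFn_eq_ZD]; exact h.ZD_cube_pos hβ hL n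
  have hfac : (0 : ℝ) < n.factorial := by positivity
  have hvol : (volume (Set.pi Set.univ (fun _ : Fin n => cube L))).toReal = (L ^ 3) ^ n := by
    rw [volume_pi_pi]
    simp only [volume_cube, Finset.prod_const, Finset.card_univ, Fintype.card_fin]
    rw [ENNReal.toReal_pow, ENNReal.toReal_pow, ENNReal.toReal_ofReal hL.le]
  have hvt : volume (Set.pi Set.univ (fun _ : Fin n => cube L)) < ⊤ := by
    exact (volume_pi_const_ne_top (volume_cube_ne_top L)).lt_top
  have hint : ∫ x in Set.pi Set.univ (fun _ : Fin n => cube L), Real.exp (-β * energy φ x)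
      ≤ Real.exp (-β * E₀) * (L ^ 3) ^ n := by
    have h1 := norm_setIntegral_le_of_norm_le_const (μ := volume)
      (s := Set.pi Set.univ (fun _ : Fin n => cube L))
      (f := fun x : Fin n → Pt => Real.exp (-β * energy φ x)) (C := Real.exp (-β * E₀)) hvt
      (by
        intro x hx
        rw [Real.norm_eq_abs, abs_of_pos (Real.exp_pos _)]
        apply Real.exp_le_exp.mpr
        have := hE x (fun i => hx i (Set.mem_univ i))
        nlinarith)
    rw [Measure.real, hvol] at h1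
    exact (le_abs_self _).trans h1
  have hle : partitionFn φ L n β ≤ 1 / (n.factorial : ℝ) * (Real.exp (-β * E₀) * (L ^ 3) ^ n) := by
    unfold partitionFn
    exact mul_le_mul_of_nonneg_left hint (by positivity)
  have hstir : (n : ℝ) ^ n / (n.factorial : ℝ) ≤ Real.exp n :=
    Real.pow_div_factorial_le_exp _ hnR.le n
  have hlogfac : (n : ℝ) * Real.log n - n ≤ Real.log (n.factorial : ℝ) := by
    have h1 := Real.log_le_log (by positivity) hstir
    rw [Real.log_exp, Real.log_div (by positivity) hfac.ne', Real.log_pow] at h1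
    linarith
  have h2 := Real.log_le_log hpos hle
  have h3 : Real.log (1 / (n.factorial : ℝ) * (Real.exp (-β * E₀) * (L ^ 3) ^ n)) =
      - Real.log (n.factorial : ℝ) + (-β * E₀) + n * Real.log (L ^ 3) := by
    rw [Real.log_mul (by positivity) (by positivity), Real.log_mul (by positivity) (by positivity),
      one_div, Real.log_inv, Real.log_exp, Real.log_pow]
    ring
  rw [h3] at h2
  rw [Real.log_div hnR.ne' hL3.ne']
  nlinarith

variable {N : ℕ}

/-- Count of the pairs of a symmetric relation as a sum over `Pair`. -/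
lemma cnt_eq_sum (G : Fin N → Fin N → Prop) [DecidableRel G] :
    (cnt G (fun _ _ => True) univ : ℕ) =
      ∑ p : {p : Fin N × Fin N // p.1 < p.2}, (if G p.1.1 p.1.2 then 1 else 0) := by
  classical
  unfold cnt
  rw [← Finset.card_filter]
  symm
  refine Finset.card_bij (fun p _ => p.1) ?_ ?_ ?_
  · intro p hp
    simp only [mem_filter, mem_univ, true_and] at hp
    simp only [mem_filter, mem_product, mem_univ, true_and, and_true]
    exact ⟨p.2, hp⟩
  · intro a _ b _ h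
    exact Subtype.ext h
  · intro p hp
    simp only [mem_filter, mem_product, mem_univ, true_and, and_true] at hp
    exact ⟨⟨p, hp.1⟩, by simp [hp.2], rfl⟩

/-- Real form of the Turan layers. -/
lemma turan_real (G : Fin N → Fin N → Prop) [DecidableRel G] (hs : ∀ a b, G a b → G b a)
    (P : ℕ) (hP : ∀ I : Finset (Fin N), (∀ a ∈ I, ∀ b ∈ I, a ≠ b → ¬ G a b) → #I ≤ P) (k : ℕ) :
    (k : ℝ) * N - (P : ℝ) * (k * (k + 1)) / 2 ≤
      ∑ p : {p : Fin N × Fin N // p.1 < p.2}, (if G p.1.1 p.1.2 then (1 : ℝ) else 0) := by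
  have h1 := turan_layers G hs P hP k univ
  rw [cnt_eq_sum, Finset.card_univ, Fintype.card_fin] at h1
  have h2 : (2 * (k : ℝ) * N) ≤ 2 * ∑ p : {p : Fin N × Fin N // p.1 < p.2},
      (if G p.1.1 p.1.2 then (1 : ℝ) else 0) + P * (k * (k + 1)) := by
    have := (Nat.cast_le (α := ℝ)).mpr h1
    push_cast at this
    exact this
  linarith

/-- The Turan lower bound for the number of pairs at distance `< 1` in the cube. -/
theorem turan_close (L : ℝ) (x : Fin N → Pt) (hx : ∀ i, x i ∈ cube L) (k : ℕ) :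
    (k : ℝ) * N - (packingNumber L : ℝ) * (k * (k + 1)) / 2 ≤
      ∑ p : {p : Fin N × Fin N // p.1 < p.2},
        (if dist (x p.1.1) (x p.1.2) < 1 then (1 : ℝ) else 0) := by
  classical
  refine turan_real (fun a b => dist (x a) (x b) < 1) (fun a b h => by rwa [dist_comm]) _ ?_ k
  intro I hI
  exact indep_le_of_packing L _
    (fun X hX hsep => Crest.Agent.TL.Packing.le_packingNumber ⟨X, rfl, hX, hsep⟩) x hx I hI

/-- The Turan lower bound for the graph `H₂`. -/
theorem turan_chi2 (r₂ : ℝ) (hr₂ : 0 < r₂) (L : ℝ) (x : Fin N → Pt) (hx : ∀ i, x i ∈ cube L)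
    (k : ℕ) :
    (k : ℝ) * N - ((2197 * packingNumber L : ℕ) : ℝ) * (k * (k + 1)) / 2 ≤
      ∑ p : {p : Fin N × Fin N // p.1 < p.2},
        (if dist (x p.1.1) (x p.1.2) ≤ r₂ / 2 ∨
            (3 * r₂ ≤ dist (x p.1.1) (x p.1.2) ∧ dist (x p.1.1) (x p.1.2) ≤ 1)
          then (1 : ℝ) else 0) := by
  classical
  refine turan_real
    (fun a b => dist (x a) (x b) ≤ r₂ / 2 ∨ (3 * r₂ ≤ dist (x a) (x b) ∧ dist (x a) (x b) ≤ 1))
    (fun a b h => by rwa [dist_comm]) _ ?_ k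
  intro I hI
  exact indep_chi2_card_le r₂ hr₂ (cube L) _
    (fun X hX hsep => Crest.Agent.TL.Packing.le_packingNumber ⟨X, rfl, hX, hsep⟩) x I (fun i _ => hx i) hI

/-- The energy lower bound: two Turan layers. -/
theorem energy_ge_turan (s : ℝ → ℝ) (U U₂ r₂ : ℝ) (hU : 0 ≤ U) (hU₂ : 0 ≤ U₂) (hr₂ : 0 < r₂)
    (hs : ∀ r, 0 ≤ r → U * (if r < 1 then 1 else 0)
        + U₂ * (if r ≤ r₂ / 2 ∨ (3 * r₂ ≤ r ∧ r ≤ 1) then 1 else 0) ≤ s r)
    (L : ℝ) (x : Fin N → Pt) (hx : ∀ i, x i ∈ cube L) (k₁ k₂ : ℕ) :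
    U * ((k₁ : ℝ) * N - (packingNumber L : ℝ) * (k₁ * (k₁ + 1)) / 2)
      + U₂ * ((k₂ : ℝ) * N - ((2197 * packingNumber L : ℕ) : ℝ) * (k₂ * (k₂ + 1)) / 2)
      ≤ energy s x := by
  have h1 := mul_le_mul_of_nonneg_left (turan_close L x hx k₁) hU
  have h2 := mul_le_mul_of_nonneg_left (turan_chi2 r₂ hr₂ L x hx k₂) hU₂
  refine (add_le_add h1 h2).trans ?_
  unfold energy
  rw [Finset.mul_sum, Finset.mul_sum, ← Finset.sum_add_distrib]
  exact Finset.sum_le_sum fun p _ => hs _ dist_nonneg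

/-- **The upper barrier**: `log Z(u s, cube L, n, β)`, for any two layer counts. -/
theorem log_Z_barrier (s : ℝ → ℝ) (U U₂ r₂ : ℝ) (hm : Measurable s) (hU : 0 ≤ U) (hU₂ : 0 ≤ U₂)
    (hr₂ : 0 < r₂) (hs0 : ∀ r, 0 ≤ s r) (htail : ∀ r, 2 ≤ r → s r ≤ 0)
    (hs : ∀ r, 0 ≤ r → U * (if r < 1 then 1 else 0)
        + U₂ * (if r ≤ r₂ / 2 ∨ (3 * r₂ ≤ r ∧ r ≤ 1) then 1 else 0) ≤ s r)
    {u β L : ℝ} (hu : 0 ≤ u) (hβ : 0 ≤ β) (hL : 0 < L) {n : ℕ} (hn : 1 ≤ n) (k₁ k₂ : ℕ) :
    Real.log (partitionFn (fun r => u * s r) L n β)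
      ≤ n * (1 - Real.log (n / L ^ 3))
        - β * (u * (U * ((k₁ : ℝ) * n - (packingNumber L : ℝ) * (k₁ * (k₁ + 1)) / 2)
            + U₂ * ((k₂ : ℝ) * n - ((2197 * packingNumber L : ℕ) : ℝ) * (k₂ * (k₂ + 1)) / 2))) := by
  have hen : ∀ {M : ℕ} (x : Fin M → Pt), energy (fun r => u * s r) x = u * energy s x := by
    intro M x
    unfold energy
    rw [Finset.mul_sum]
  have hadm : Adm (fun r => u * s r) 0 := by
    refine ⟨hm.const_mul u, ?_, ?_⟩
    · intro M x
      rw [hen]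
      have : 0 ≤ energy s x := Finset.sum_nonneg fun _ _ => hs0 _
      have := mul_nonneg hu this
      simpa using this
    · intro r hr
      have h1 := htail r hr
      have h2 := hs0 r
      have h3 : s r = 0 := le_antisymm h1 h2
      simp [h3]
  refine log_partitionFn_le hadm hβ hL hn _ ?_
  intro x hx
  rw [hen]
  exact mul_le_mul_of_nonneg_left (energy_ge_turan s U U₂ r₂ hU hU₂ hr₂ hs L x hx k₁ k₂) hu

/-- The same, per volume, with `σ = n / L^3`, `π = P / L^3`. -/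
theorem log_Z_barrier_density (s : ℝ → ℝ) (U U₂ r₂ : ℝ) (hm : Measurable s) (hU : 0 ≤ U)
    (hU₂ : 0 ≤ U₂)
    (hr₂ : 0 < r₂) (hs0 : ∀ r, 0 ≤ s r) (htail : ∀ r, 2 ≤ r → s r ≤ 0)
    (hs : ∀ r, 0 ≤ r → U * (if r < 1 then 1 else 0)
        + U₂ * (if r ≤ r₂ / 2 ∨ (3 * r₂ ≤ r ∧ r ≤ 1) then 1 else 0) ≤ s r)
    {u β L : ℝ} (hu : 0 ≤ u) (hβ : 0 ≤ β) (hL : 0 < L) {n : ℕ} (hn : 1 ≤ n) (k₁ k₂ : ℕ) :
    Real.log (partitionFn (fun r => u * s r) L n β) / L ^ 3
      ≤ ((n : ℝ) / L ^ 3) * (1 - Real.log ((n : ℝ) / L ^ 3))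
        - β * (u * (U * ((k₁ : ℝ) * ((n : ℝ) / L ^ 3)
              - ((packingNumber L : ℝ) / L ^ 3) * (k₁ * (k₁ + 1)) / 2)
            + U₂ * ((k₂ : ℝ) * ((n : ℝ) / L ^ 3)
              - (2197 * ((packingNumber L : ℝ) / L ^ 3)) * (k₂ * (k₂ + 1)) / 2))) := by
  have h := log_Z_barrier s U U₂ r₂ hm hU hU₂ hr₂ hs0 htail hs hu hβ hL hn k₁ k₂
  have hL3 : 0 < L ^ 3 := by positivity
  rw [div_le_iff₀ hL3]
  refine h.trans (le_of_eq ?_)
  push_cast
  field_simp

end Crest.Agent.TL.BarrierUp
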