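import Crest.Agent.TL.AsmDefs
import Crest.Agent.TL.BarrierUp

/-!
# The field `hTail` of `Concentration.Conc`, for the concrete objects

Above the density `ρm` the stability margin beats everything:
`(a_m + χ) j²/ℓ³ + μ j + (c/lam3) ℓ³ + log Z(ψ_m, ℓ, j, β) ≤ -j`, with `a_m = (1/2) β A Γ_m`,
`χ = β A₊/16`, `ψ_m = u s - A w_{<m}`.
-/

set_option autoImplicit false

namespace Crest.Agent.TL.Asm

open Crest.ProbabilityR.Continuum Real Set Filter Topology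
open Crest.Agent.TL.Gauss Crest.Agent.TL.Series Crest.Agent.TL.Potential
open Crest.Agent.TL.Num (A0 Ap Amax r2)

section tail

variable {K0 e0 : ℕ} {cr : ℝ → ℝ}

/-- `Γ_m ≤ 55/2`. -/
lemma GamL_le (hK : e0 + 1 ≤ K0) (m : ℕ) : Rate.GamL K0 e0 m ≤ 55 / 2 := by
  have hK1 : 1 ≤ K0 := by omega
  have h1 := Rate.GamL_sub_le hK m
  have h2 := Series.Gam_le hK1 m
  have hG := Series.Gam_pos hK1 m
  have hAhm : Ah K0 m ≤ 1 := by
    unfold Ah
    rw [div_le_one (by positivity)]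
    apply pow_le_pow_right₀ (by norm_num)
    unfold aa
    exact Nat.le_mul_of_pos_right _ (by positivity)
  have h3 := Rate.Ah_succ_le_half hK1 m
  have h4 := Rate.eps_le_one e0 m
  have h5 := Rate.eps_pos e0 m
  have h6 := Ah_pos K0 (m + 1)
  have h7 : eps e0 m * Ah K0 (m + 1) ≤ 1 / 2 := by
    have : eps e0 m * Ah K0 (m + 1) ≤ 1 * Ah K0 (m + 1) :=
      mul_le_mul_of_nonneg_right h4 h6.le
    linarith
  have h8 : Rate.lam K0 e0 m ^ 3 * Gam K0 m ≤ 1 * Gam K0 m := by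
    apply mul_le_mul_of_nonneg_right _ hG.le
    exact pow_le_one₀ (Rate.lam_nonneg m) (Rate.lam_le_one m)
  linarith

lemma GamL_nonneg (hK : e0 + 1 ≤ K0) (m : ℕ) : 0 ≤ Rate.GamL K0 e0 m :=
  (Gam_pos (by omega) m).le.trans (Rate.Gam_le_GamL hK m)

/-- `∑_{j<m}`-energies against the unit cell count. -/
lemma energy_wlo_le (hK : 1 ≤ K0) (m : ℕ) {N : ℕ} (x : Fin N → Pt) :
    energy (wlo K0 m) x ≤ 4 * 16 * (sameCell (1 / 2) (0 : Fin 3 → ℝ) x : ℝ) := by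
  have hQ : (0 : ℝ) ≤ (sameCell (1 / 2) (0 : Fin 3 → ℝ) x : ℝ) := Nat.cast_nonneg _
  have e : energy (wlo K0 m) x = ∑ j ∈ Finset.range m, Ah K0 j * energy (g (RR K0 j)) x := by
    unfold energy wlo
    simp only [Finset.mul_sum]
    rw [Finset.sum_comm]
  rw [e]
  have h1 := Splitting.gauss_sum_le_sameCell (N := N) (Finset.range m) (Ah K0) (RR K0)
    (fun j _ => (Ah_pos K0 j).le) (fun j _ => RR_pos K0 j) (0 : Fin 3 → ℝ) x
  refine h1.trans ?_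
  apply mul_le_mul_of_nonneg_right _ hQ
  apply mul_le_mul_of_nonneg_left _ (by norm_num)
  have h2 : ∑ j ∈ Finset.range m, Ah K0 j * (1 + 1 / RR K0 j) ^ 3 ≤
      ∑ j ∈ Finset.range m, Ah K0 j * 8 := by
    refine Finset.sum_le_sum fun j _ => mul_le_mul_of_nonneg_left ?_ (Ah_pos K0 j).le
    have h3 : 1 / RR K0 j ≤ 1 := by
      rw [div_le_one (RR_pos K0 j)]; exact one_le_RR K0 j
    have h4 : 0 ≤ 1 / RR K0 j := (div_pos one_pos (RR_pos K0 j)).le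
    calc (1 + 1 / RR K0 j) ^ 3 ≤ (1 + 1) ^ 3 := by gcongr
      _ = 8 := by norm_num
  have h5 : ∑ j ∈ Finset.range m, Ah K0 j ≤ 2 := by
    have h6 := (summable_Ah hK).sum_le_tsum (Finset.range m) (fun j _ => (Ah_pos K0 j).le)
    have h7 := Series.Gam_le hK 0
    have h8 : Series.Gam K0 0 = ∑' j, Ah K0 j := by
      unfold Series.Gam; simp
    rw [h8, Ah_zero] at h7
    linarith
  rw [← Finset.sum_mul] at h2
  linarith

lemma wlo_le_ww (hK : 1 ≤ K0) (m : ℕ) (r : ℝ) : wlo K0 m r ≤ ww K0 r := by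
  rw [ww_eq_add hK m r]
  linarith [whi_nonneg K0 m r]

lemma energy_wlo_le_ww (hK : 1 ≤ K0) (m : ℕ) {N : ℕ} (x : Fin N → Pt) :
    energy (wlo K0 m) x ≤ energy (ww K0) x :=
  energy_mono (wlo_le_ww hK m) x

/-- The truncated potentials are admissible. -/
theorem adm_psi (hc : CoreOK cr) (hK : 1 ≤ K0) {A u : ℝ} (hA : 0 ≤ A) (hA' : A ≤ Amax)
    (hu : 1 / 2 ≤ u) (hu1 : u ≤ 1) (m : ℕ) :
    Thermo.Adm (fun r => u * ss cr r - A * wlo K0 m r) (U₂ / 2) := by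
  refine ⟨((ss_meas hc).const_mul u).sub ((continuous_wlo K0 m).measurable.const_mul A),
    fun N x => ?_, fun r hr => ?_⟩
  · have h := stable_u hc hK hA hA' hu hu1 x (energy_wlo_le_ww hK m x)
    have e : energy (fun r => u * ss cr r - A * wlo K0 m r) x =
        u * energy (ss cr) x - A * energy (wlo K0 m) x := by
      rw [energy_sub (fun r => u * ss cr r) (fun r => A * wlo K0 m r), energy_const_mul,
        energy_const_mul]
    rw [e]
    linarith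
  · have h1 := ss_tail hc hr
    have h2 : 0 ≤ A * wlo K0 m r := mul_nonneg hA (wlo_nonneg K0 m r)
    have h3 : u * ss cr r ≤ 0 := mul_nonpos_of_nonneg_of_nonpos (by linarith) h1
    linarith

lemma ell_ge_four (hK : e0 + 1 ≤ K0) (m : ℕ) : (4 : ℝ) ≤ ell K0 e0 m := by
  have h1 := ell_exp_ok hK m
  have h2 := aa_ge (K0 := K0) (by omega) m
  have h3 : K0 ≤ aa K0 m := by
    unfold aa
    exact Nat.le_mul_of_pos_right _ (by positivity)
  have h4 : 2 ≤ 31 * aa K0 m - m - e0 := by omega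
  have h5 : 2 ^ 2 ≤ ell K0 e0 m := by
    unfold ell
    exact Nat.pow_le_pow_right (by norm_num) h4
  have h6 : ((2 ^ 2 : ℕ) : ℝ) ≤ (ell K0 e0 m : ℝ) := Nat.cast_le.mpr h5
  have h7 : ((2 ^ 2 : ℕ) : ℝ) = 4 := by norm_num
  rw [h7] at h6
  exact h6

/-- **`hTail`**. -/
theorem hTail_of (hK : e0 + 1 ≤ K0) (hc : CoreOK cr) {u β A μ c lam3 ρm : ℝ}
    (hu : 1 / 2 ≤ u) (hu1 : u ≤ 1) (hβ : 0 < β) (hA : 0 ≤ A) (hA' : A ≤ Ap) (hc0 : c ≤ 0)
    (hlam : 0 < lam3) (hρ1 : 1 ≤ ρm) (hρ2 : 16 * (|μ| + 2 + β * U₂ / 2) ≤ β * Ap * ρm)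
    (m j : ℕ) (hj : ρm * (ell K0 e0 m : ℝ) ^ 3 < j) :
    ((1 / 2) * β * A * Rate.GamL K0 e0 m + β * Ap / 16) * ((j : ℝ) ^ 2 / (ell K0 e0 m : ℝ) ^ 3)
        + μ * j + c / lam3 * (ell K0 e0 m : ℝ) ^ 3
        + Real.log (partitionFn (fun r => u * ss cr r - A * wlo K0 m r) (ell K0 e0 m : ℝ) j β)
      ≤ -(j : ℝ) := by
  have hK1 : 1 ≤ K0 := by omega
  set l : ℝ := (ell K0 e0 m : ℝ) with hl
  have hl4 : 4 ≤ l := ell_ge_four hK m
  have hl0 : 0 < l := by linarith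
  have hl3 : 0 < l ^ 3 := by positivity
  have hAp := Ap_pos
  have hAmax : A ≤ Amax := by linarith [Ap_lt_Amax]
  have hjpos : (0:ℝ) < j := lt_trans (by positivity) hj
  have hj1 : 1 ≤ j := by
    have : 0 < j := by exact_mod_cast hjpos
    omega
  -- the energy bound on the cube
  set Γ : ℝ := Rate.GamL K0 e0 m with hΓ
  have hΓ0 : 0 ≤ Γ := GamL_nonneg hK m
  have hΓ1 : Γ ≤ 55 / 2 := GamL_le hK m
  set E₀ : ℝ := Ap * ((j : ℝ) ^ 2 / (l + 1) ^ 3) - U₂ / 2 * j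
    + 1 / 2 * A * Γ * ((j : ℝ) ^ 2 / l ^ 3) with hE₀
  have hE : ∀ x : Fin j → Pt, (∀ i, x i ∈ cube l) →
      E₀ ≤ energy (fun r => u * ss cr r - A * wlo K0 m r) x := by
    intro x hx
    have hU : 4 * 2197 * ((4 * (16:ℝ) + 27 / 2 * Γ + 8) * Ap) ≤ U₂ := by
      have h1 : U₂ = 1024 * 2197 * (2 * Ap) := rfl
      rw [h1]
      have h2 : (4 * (16:ℝ) + 27 / 2 * Γ + 8) ≤ 512 := by linarith
      have h3 : (4 * (16:ℝ) + 27 / 2 * Γ + 8) * Ap ≤ 512 * Ap :=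
        mul_le_mul_of_nonneg_right h2 hAp.le
      linarith
    have h := Splitting.stability (ss cr) U₂ r2 l u A Ap 16 Γ (energy (wlo K0 m) x) r2_pos
      (ss_nonneg hc) (fun r hr => ss_ge_U₂ hc hr) (by linarith) hu hu1 hA hA' (by norm_num) hΓ0 hU x hx
      (energy_wlo_le hK1 m x)
    have e : energy (fun r => u * ss cr r - A * wlo K0 m r) x =
        u * energy (ss cr) x - A * energy (wlo K0 m) x := by
      rw [energy_sub (fun r => u * ss cr r) (fun r => A * wlo K0 m r), energy_const_mul,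
        energy_const_mul]
    rw [e, hE₀]
    linarith
  have hZ := BarrierUp.log_partitionFn_le (adm_psi hc hK1 hA hAmax hu hu1 m) hβ.le hl0 hj1 E₀ hE
  -- `log (j/ℓ³) ≥ 0`
  have hdens : 1 ≤ (j : ℝ) / l ^ 3 := by
    rw [le_div_iff₀ hl3]
    nlinarith
  have hlog : 0 ≤ Real.log ((j : ℝ) / l ^ 3) := Real.log_nonneg hdens
  have hρj : ρm ≤ (j : ℝ) / l ^ 3 := by
    rw [le_div_iff₀ hl3]; exact hj.le
  -- `(ℓ+1)³ ≤ 2 ℓ³`
  have hl1 : (l + 1) ^ 3 ≤ 2 * l ^ 3 := by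
    have h1 : l + 1 ≤ (5 / 4) * l := by linarith
    have h2 : (l + 1) ^ 3 ≤ ((5 / 4) * l) ^ 3 := pow_le_pow_left₀ (by linarith) h1 3
    have h3 : ((5 / 4) * l) ^ 3 = (125 / 64) * l ^ 3 := by ring
    rw [h3] at h2
    linarith
  have hj2 : (j : ℝ) ^ 2 / (2 * l ^ 3) ≤ (j : ℝ) ^ 2 / (l + 1) ^ 3 :=
    div_le_div_of_nonneg_left (by positivity) (by positivity) hl1
  set D : ℝ := (j : ℝ) ^ 2 / l ^ 3 with hD
  have hD2 : (j : ℝ) ^ 2 / (2 * l ^ 3) = D / 2 := by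
    rw [hD]; field_simp
  have hDj : D = ((j : ℝ) / l ^ 3) * j := by
    rw [hD]; field_simp
  have hDρ : ρm * j ≤ D := by
    rw [hDj]
    exact mul_le_mul_of_nonneg_right hρj hjpos.le
  -- the line terms
  have hμ : μ * j ≤ |μ| * j := mul_le_mul_of_nonneg_right (le_abs_self μ) hjpos.le
  have hc1 : c / lam3 * l ^ 3 ≤ 0 :=
    mul_nonpos_of_nonpos_of_nonneg (div_nonpos_of_nonpos_of_nonneg hc0 hlam.le) hl3.le
  have hEβ : β * (Ap * (D / 2)) ≤ β * (Ap * ((j : ℝ) ^ 2 / (l + 1) ^ 3)) := by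
    apply mul_le_mul_of_nonneg_left _ hβ.le
    apply mul_le_mul_of_nonneg_left _ hAp.le
    linarith
  have hmargin : (|μ| + 2 + β * U₂ / 2) * j ≤ β * Ap / 16 * D := by
    have h1 : (|μ| + 2 + β * U₂ / 2) * j ≤ (β * Ap * ρm / 16) * j :=
      mul_le_mul_of_nonneg_right (by linarith) hjpos.le
    have h2 : (β * Ap * ρm / 16) * j = β * Ap / 16 * (ρm * j) := by ring
    have h3 : β * Ap / 16 * (ρm * j) ≤ β * Ap / 16 * D :=
      mul_le_mul_of_nonneg_left hDρ (by positivity)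
    linarith
  have hZ2 : (j : ℝ) * (1 - Real.log ((j : ℝ) / l ^ 3)) ≤ j := by
    have : 0 ≤ (j : ℝ) * Real.log ((j : ℝ) / l ^ 3) := mul_nonneg hjpos.le hlog
    linarith
  have hβE : β * E₀ = β * (Ap * ((j : ℝ) ^ 2 / (l + 1) ^ 3)) - β * (U₂ / 2 * j)
      + (1 / 2 * β * A * Γ) * D := by
    rw [hE₀]; ring
  have hDpos : 0 ≤ β * Ap * D := by positivity
  have hExpand : ((1 / 2) * β * A * Γ + β * Ap / 16) * D = (1 / 2 * β * A * Γ) * D + β * Ap / 16 * D := by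
    ring
  have hU₂' : β * (U₂ / 2 * j) = (β * U₂ / 2) * j := by ring
  have hsplit : (|μ| + 2 + β * U₂ / 2) * j = |μ| * j + 2 * j + (β * U₂ / 2) * j := by ring
  have hAD : β * (Ap * (D / 2)) = β * Ap * D / 2 := by ring
  have hAD2 : β * Ap / 16 * D = β * Ap * D / 16 := by ring
  linarith

end tail

end Crest.Agent.TL.Asm
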