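import Crest.Agent.TL.AsmChain
import Crest.Agent.TL.OSConcrete
import Crest.Agent.TL.TailWire

/-!
# Budget: the margins `hmargin`, `hmarginlim` of `Concentration.Conc`, and the choice of `K₀, e₀`

With `o m = oOS …`, `ℓ m = ell K0 e0 m`, `lam3 m = (lam m)³`, `κ m = (1/2) β A Gpp m`,
`ξ m = β A (Mm m * Xi m)`, `v m = Cv ε_m`, `Cv = 51 ρ² + ρ + 9`:

`o m + log(ρ ℓ³+3)/ℓ³ + c - c/lam3 + ξ ρ₀ ≤ Co ε_m Â_{m+1} < κ m v m`.

Also the tolerances (`Tol`) for `K₀ ≥ 410`.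
-/

set_option autoImplicit false

namespace Crest.Agent.TL.Asm

open Crest.ProbabilityR.Continuum Real Set Filter Topology
open Crest.Agent.TL.Gauss Crest.Agent.TL.Series Crest.Agent.TL.Potential
open Crest.Agent.TL.Num (A0 Ap Amax beta2 betaT g1 r2 Uof Tol tolE)
open Crest.Agent.TL.OSConcrete (oOS oOS_le)

section margin

variable {K0 e0 : ℕ}

/-- The reciprocal of `ℓ_m` beats `ε_m Â_{m+1}` by `2^K₀`. -/
lemma div_ell_le (hK : e0 + 1 ≤ K0) {K : ℝ} (h : K ≤ 2 ^ K0) (m : ℕ) :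
    K / (ell K0 e0 m : ℝ) ≤ eps e0 m * Ah K0 (m + 1) := by
  have hl := Rate.ell_pos' K0 e0 m
  have h1 : K / (ell K0 e0 m : ℝ) ≤ 2 ^ K0 / (ell K0 e0 m : ℝ) :=
    div_le_div_of_nonneg_right h hl.le
  refine h1.trans ?_
  have h2 := ell_exp_ok hK m
  have h3 := aa_ge (K0 := K0) (by omega) m
  have h4 : K0 ≤ aa K0 m := by
    unfold aa
    exact Nat.le_mul_of_pos_right _ (by positivity)
  unfold Ah eps ell
  rw [aa_succ]
  push_cast
  rw [one_div_mul_eq_div, div_div, div_le_div_iff₀ (by positivity) (by positivity)]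
  apply mul_le_mul_of_nonneg_left _ (by positivity)
  rw [← pow_add]
  apply pow_le_pow_right₀ (by norm_num)
  omega

/-- The entropy term. -/
lemma log_term_le {ρ l : ℝ} (hρ : 0 ≤ ρ) (hl : 1 ≤ l) :
    Real.log (ρ * l ^ 3 + 3) / l ^ 3 ≤ (Real.log (ρ + 3) + 3) / l := by
  have hl0 : 0 < l := by linarith
  have hl3 : 0 < l ^ 3 := by positivity
  have h13 : 1 ≤ l ^ 3 := one_le_pow₀ hl
  have h1 : ρ * l ^ 3 + 3 ≤ (ρ + 3) * l ^ 3 := by nlinarith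
  have h2 : Real.log (ρ * l ^ 3 + 3) ≤ Real.log ((ρ + 3) * l ^ 3) :=
    Real.log_le_log (by positivity) h1
  have h3 : Real.log ((ρ + 3) * l ^ 3) = Real.log (ρ + 3) + 3 * Real.log l := by
    rw [Real.log_mul (by positivity) (by positivity), Real.log_pow]
    norm_num
  have h4 : Real.log l ≤ l := (Real.log_le_sub_one_of_pos hl0).trans (by linarith)
  have h5 : 0 ≤ Real.log (ρ + 3) := Real.log_nonneg (by linarith)
  rw [div_le_div_iff₀ hl3 hl0]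
  have h6 : (Real.log (ρ + 3) + 3 * l) * l ≤ (Real.log (ρ + 3) + 3) * l ^ 3 := by
    have h7 : l ≤ l ^ 3 := by nlinarith [sq_nonneg l, mul_self_nonneg (l - 1)]
    have h8 : l ^ 2 ≤ l ^ 3 := by nlinarith [sq_nonneg l]
    nlinarith
  have h9 : Real.log (ρ * l ^ 3 + 3) * l ≤ (Real.log (ρ + 3) + 3 * l) * l := by
    apply mul_le_mul_of_nonneg_right _ hl0.le
    linarith
  linarith

lemma log_term_nonneg {ρ l : ℝ} (hρ : 0 ≤ ρ) (hl : 0 < l) :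
    0 ≤ Real.log (ρ * l ^ 3 + 3) / l ^ 3 := by
  apply div_nonneg _ (by positivity)
  apply Real.log_nonneg
  have : 0 ≤ ρ * l ^ 3 := by positivity
  linarith

/-- `λ_m ≥ 1/2` -/
lemma lam_ge_half (hK : e0 + 1 ≤ K0) (m : ℕ) : 1 / 2 ≤ Rate.lam K0 e0 m := by
  unfold Rate.lam
  have := ell_ge_four hK m
  rw [le_div_iff₀ (by linarith)]
  linarith

lemma lam3_pos (hK : e0 + 1 ≤ K0) (m : ℕ) : 0 < Rate.lam K0 e0 m ^ 3 := by
  have := lam_ge_half hK m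
  have h2 : 0 < Rate.lam K0 e0 m := by linarith
  positivity

lemma lam3_le_one (m : ℕ) : Rate.lam K0 e0 m ^ 3 ≤ 1 :=
  pow_le_one₀ (Rate.lam_nonneg m) (Rate.lam_le_one m)

/-- The term coming from the intercept. -/
lemma c_term_le (hK : e0 + 1 ≤ K0) {c cbar : ℝ} (hc0 : c ≤ 0) (hc : -cbar ≤ c) (m : ℕ) :
    c - c / Rate.lam K0 e0 m ^ 3 ≤ 48 * cbar / (ell K0 e0 m : ℝ) := by
  have hl := Rate.ell_pos' K0 e0 m
  have h1 := lam_ge_half hK m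
  have h2 := lam3_pos hK m
  have h3 : (1 / 2) ^ 3 ≤ Rate.lam K0 e0 m ^ 3 := pow_le_pow_left₀ (by norm_num) h1 3
  have h4 := Rate.lam_bound (K0 := K0) (e0 := e0) m
  have hcbar : 0 ≤ cbar := by linarith
  set t := Rate.lam K0 e0 m ^ 3
  have e : c - c / t = (-c) * ((1 - t) / t) := by
    field_simp
    ring
  rw [e]
  have h5 : (1 - t) / t ≤ (6 / (ell K0 e0 m : ℝ)) * 8 := by
    rw [div_le_iff₀ h2]
    have h6 : 0 ≤ 1 - t := by
      have := lam3_le_one (K0 := K0) (e0 := e0) m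
      linarith
    have h7 : 0 < 6 / (ell K0 e0 m : ℝ) := by positivity
    have h8 : 1 ≤ 8 * t := by
      norm_num at h3
      linarith
    calc 1 - t ≤ 6 / (ell K0 e0 m : ℝ) := h4
      _ = 6 / (ell K0 e0 m : ℝ) * 1 := by ring
      _ ≤ 6 / (ell K0 e0 m : ℝ) * (8 * t) := mul_le_mul_of_nonneg_left h8 h7.le
      _ = _ := by ring
  have h9 : 0 ≤ (1 - t) / t := by
    have := lam3_le_one (K0 := K0) (e0 := e0) m
    exact div_nonneg (by linarith) h2.le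
  have h10 : (-c) * ((1 - t) / t) ≤ cbar * ((6 / (ell K0 e0 m : ℝ)) * 8) :=
    mul_le_mul (by linarith) h5 h9 hcbar
  refine h10.trans (le_of_eq ?_)
  ring

lemma c_term_nonneg (hK : e0 + 1 ≤ K0) {c : ℝ} (hc0 : c ≤ 0) (m : ℕ) :
    0 ≤ c - c / Rate.lam K0 e0 m ^ 3 := by
  have h2 := lam3_pos hK m
  have h3 := lam3_le_one (K0 := K0) (e0 := e0) m
  have : c / Rate.lam K0 e0 m ^ 3 ≤ c := by
    rw [div_le_iff₀ h2]
    nlinarith
  linarith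

lemma oOS_nonneg (hK : e0 + 1 ≤ K0) {A β ρ C10 u : ℝ} (hA : 0 ≤ A) (hβ : 0 ≤ β) (hρ : 0 ≤ ρ)
    (hC : 0 ≤ C10) (hu : u ≤ 1) (m : ℕ) : 0 ≤ oOS K0 e0 A β ρ C10 u m := by
  unfold oOS
  have h1 : 0 ≤ Rate.GamL K0 e0 m - Rate.lam K0 e0 m ^ 3 * Gam K0 m := by
    have h2 := Rate.Gam_le_GamL hK m
    have h3 := Gam_pos (K0 := K0) (by omega) m
    have h4 := lam3_le_one (K0 := K0) (e0 := e0) m
    nlinarith
  have h5 := whi_nonneg K0 m 0
  have h6 : 0 ≤ 4 * (1 - u) * C10 := mul_nonneg (by linarith) hC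
  have h7 : 0 ≤ (1 / 2) * β * A * ρ ^ 2 * (Rate.GamL K0 e0 m - Rate.lam K0 e0 m ^ 3 * Gam K0 m) := by
    positivity
  have h8 : 0 ≤ (1 / 2) * β * A * ρ * whi K0 m 0 := by positivity
  linarith

/-- The error constant. -/
noncomputable def CoB (β A ρ : ℝ) : ℝ :=
  51 * ((1 / 2) * β * A * ρ ^ 2) + (1 / 2) * β * A * ρ + 1 + 3

/-- The weight in the margin. -/
noncomputable def Cv (ρ : ℝ) : ℝ := 51 * ρ ^ 2 + ρ + 9

/-- The whole error at level `m`. -/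
noncomputable def OmB (K0 e0 : ℕ) (A β ρm ρ₀ c C10 U : ℝ) (m : ℕ) : ℝ :=
  oOS K0 e0 A β ρm C10 (Level.um (Ah K0) (RR K0) (ell K0 e0) A U m) m
    + Real.log (ρm * (ell K0 e0 m : ℝ) ^ 3 + 3) / (ell K0 e0 m : ℝ) ^ 3
    + c - c / Rate.lam K0 e0 m ^ 3
    + (β * A * (Level.Mm m * Level.Xi (Ah K0) (RR K0) (ell K0 e0) m)) * ρ₀

/-- The smallness conditions on `K₀` for fixed parameters. -/
structure Small (K0 e0 : ℕ) (A β ρm ρ₀ cbar C10 U : ℝ) : Prop where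
  hK : e0 + 1 ≤ K0
  hA : 0 ≤ A
  hβ : 0 ≤ β
  hρm : 0 ≤ ρm
  hρ₀ : 0 ≤ ρ₀
  hC : 0 ≤ C10
  hU : 0 < U
  ha : (8 * A * C10 / U) * 2 ^ (2 * e0 + 16) ≤ 2 ^ K0
  hb : Real.log (ρm + 3) + 3 ≤ 2 ^ K0
  hc : 48 * cbar ≤ 2 ^ K0
  hd : (β * A * ρ₀) * 2 ^ (2 * e0 + 16) ≤ 2 ^ K0

variable {A β ρm ρ₀ cbar C10 U c : ℝ}

/-- The bound of the error at level `m`. -/
theorem OmB_le (S : Small K0 e0 A β ρm ρ₀ cbar C10 U) (hc0 : c ≤ 0) (hc : -cbar ≤ c) (m : ℕ) :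
    OmB K0 e0 A β ρm ρ₀ c C10 U m ≤ CoB β A ρm * (eps e0 m * Ah K0 (m + 1)) := by
  have hK := S.hK
  have h1 := oOS_le hK S.hA S.hβ S.hρm S.hC S.hU S.ha m
  have hl4 := ell_ge_four hK m
  have h2 : Real.log (ρm * (ell K0 e0 m : ℝ) ^ 3 + 3) / (ell K0 e0 m : ℝ) ^ 3 ≤
      eps e0 m * Ah K0 (m + 1) :=
    (log_term_le S.hρm (by linarith)).trans (div_ell_le hK S.hb m)
  have h3 : c - c / Rate.lam K0 e0 m ^ 3 ≤ eps e0 m * Ah K0 (m + 1) :=
    (c_term_le hK hc0 hc m).trans (div_ell_le hK S.hc m)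
  have h4 := Rate.Mm_Xi_le (Kc := β * A * ρ₀) hK (by have := S.hA; have := S.hβ; have := S.hρ₀; positivity)
    S.hd m
  have e : (β * A * (Level.Mm m * Level.Xi (Ah K0) (RR K0) (ell K0 e0) m)) * ρ₀ =
      Level.Mm m * (β * A * ρ₀) * Level.Xi (Ah K0) (RR K0) (ell K0 e0) m := by ring
  unfold OmB CoB
  rw [e]
  have e2 : (51 * ((1 / 2) * β * A * ρm ^ 2) + (1 / 2) * β * A * ρm + 1 + 3) * (eps e0 m * Ah K0 (m + 1))
      = (51 * ((1 / 2) * β * A * ρm ^ 2) + (1 / 2) * β * A * ρm + 1) * (eps e0 m * Ah K0 (m + 1))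
        + 3 * (eps e0 m * Ah K0 (m + 1)) := by ring
  rw [e2]
  linarith

theorem OmB_nonneg (S : Small K0 e0 A β ρm ρ₀ cbar C10 U) (hc0 : c ≤ 0)
    (hu : ∀ m, Level.um (Ah K0) (RR K0) (ell K0 e0) A U m ≤ 1) (m : ℕ) :
    0 ≤ OmB K0 e0 A β ρm ρ₀ c C10 U m := by
  have hK := S.hK
  have h1 := oOS_nonneg hK S.hA S.hβ S.hρm S.hC (hu m) m
  have h2 := log_term_nonneg S.hρm (Rate.ell_pos' K0 e0 m)
  have h3 := c_term_nonneg hK hc0 m
  have hXi : 0 ≤ Level.Xi (Ah K0) (RR K0) (ell K0 e0) m := by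
    unfold Level.Xi
    have h5 := Rate.ell_pos' K0 e0 m
    refine mul_nonneg (by positivity) (Finset.sum_nonneg fun j _ => ?_)
    have := Ah_pos K0 j
    have := RR_pos K0 j
    positivity
  have hM : 0 ≤ Level.Mm m := by unfold Level.Mm; positivity
  have h4 : 0 ≤ (β * A * (Level.Mm m * Level.Xi (Ah K0) (RR K0) (ell K0 e0) m)) * ρ₀ := by
    have := S.hA; have := S.hβ; have := S.hρ₀
    positivity
  unfold OmB
  linarith

/-- **`hmargin`**: `Om m < κ_m v_m`. -/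
theorem margin_lt (S : Small K0 e0 A β ρm ρ₀ cbar C10 U) (hc0 : c ≤ 0) (hc : -cbar ≤ c)
    (hβA : 1 ≤ β * A) (m : ℕ) :
    OmB K0 e0 A β ρm ρ₀ c C10 U m <
      ((1 / 2) * β * A * Rate.Gpp K0 e0 m) * (Cv ρm * eps e0 m) := by
  have h1 := OmB_le S hc0 hc m
  have hK := S.hK
  have h2 := Rate.Ah_le_Gpp hK m
  have hε := Rate.eps_pos e0 m
  have hAh := Ah_pos K0 (m + 1)
  have hCv : 0 < Cv ρm := by
    unfold Cv
    have := S.hρm
    positivity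
  have h3 : ((1 / 2) * β * A * Ah K0 (m + 1)) * (Cv ρm * eps e0 m) ≤
      ((1 / 2) * β * A * Rate.Gpp K0 e0 m) * (Cv ρm * eps e0 m) := by
    apply mul_le_mul_of_nonneg_right _ (by positivity)
    apply mul_le_mul_of_nonneg_left h2
    linarith
  have h4 : CoB β A ρm < (1 / 2) * (β * A) * Cv ρm := by
    unfold CoB Cv
    nlinarith
  have h5 : CoB β A ρm * (eps e0 m * Ah K0 (m + 1)) <
      ((1 / 2) * (β * A) * Cv ρm) * (eps e0 m * Ah K0 (m + 1)) :=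
    mul_lt_mul_of_pos_right h4 (by positivity)
  have e : ((1 / 2) * β * A * Ah K0 (m + 1)) * (Cv ρm * eps e0 m) =
      ((1 / 2) * (β * A) * Cv ρm) * (eps e0 m * Ah K0 (m + 1)) := by ring
  linarith

/-- **`hmarginlim`**. -/
theorem margin_tendsto (S : Small K0 e0 A β ρm ρ₀ cbar C10 U) (hc0 : c ≤ 0) (hc : -cbar ≤ c)
    (hu : ∀ m, Level.um (Ah K0) (RR K0) (ell K0 e0) A U m ≤ 1) :
    Tendsto (fun m => OmB K0 e0 A β ρm ρ₀ c C10 U m) atTop (𝓝 0) := by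
  have hCo : 0 ≤ CoB β A ρm := by
    unfold CoB
    have := S.hA; have := S.hβ; have := S.hρm
    positivity
  have hK1 : 1 ≤ K0 := by have := S.hK; omega
  have hAh1 : ∀ m, Ah K0 (m + 1) ≤ 1 := by
    intro m
    unfold Ah
    rw [div_le_one (by positivity)]
    apply pow_le_pow_right₀ (by norm_num)
    unfold aa
    exact Nat.le_mul_of_pos_right _ (by positivity)
  have heps : Tendsto (fun m => eps e0 m) atTop (𝓝 0) := (Rate.summable_eps e0).tendsto_atTop_zero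
  have h1 : Tendsto (fun m => CoB β A ρm * eps e0 m) atTop (𝓝 0) := by
    simpa using heps.const_mul (CoB β A ρm)
  refine squeeze_zero (fun m => OmB_nonneg S hc0 hu m) (fun m => ?_) h1
  refine (OmB_le S hc0 hc m).trans ?_
  apply mul_le_mul_of_nonneg_left _ hCo
  have h2 := Rate.eps_pos e0 m
  have h3 := hAh1 m
  nlinarith

/-- `v_m` sums to `V₀ = Cv·2/2^e₀`. -/
lemma sum_v_le (hρ : 0 ≤ ρm) (J : ℕ) :
    ∑ m ∈ Finset.range J, Cv ρm * eps e0 m ≤ Cv ρm * (2 / 2 ^ e0) := by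
  rw [← Finset.mul_sum]
  apply mul_le_mul_of_nonneg_left (Rate.sum_eps_le e0 J)
  unfold Cv
  positivity

/-- The error at level `0` is tiny. -/
theorem OmB_zero_lt (S : Small K0 e0 A β ρm ρ₀ cbar C10 U) (hc0 : c ≤ 0) (hc : -cbar ≤ c)
    (hK' : CoB β A ρm * 2 ^ 104 ≤ 2 ^ K0) : OmB K0 e0 A β ρm ρ₀ c C10 U 0 < g1 / 8 := by
  have h1 := OmB_le S hc0 hc 0
  simp only [zero_add] at h1
  rw [Rate.Ah_one] at h1
  have hCo : 0 ≤ CoB β A ρm := by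
    unfold CoB
    have := S.hA; have := S.hβ; have := S.hρm
    positivity
  have h2 : CoB β A ρm * (eps e0 0 * (1 / 2 ^ K0)) ≤ CoB β A ρm * (1 * (1 / 2 ^ K0)) := by
    apply mul_le_mul_of_nonneg_left _ hCo
    apply mul_le_mul_of_nonneg_right (Rate.eps_le_one e0 0) (by positivity)
  have h3 : CoB β A ρm * (1 * (1 / 2 ^ K0)) ≤ 1 / 2 ^ 104 := by
    rw [one_mul, mul_one_div, div_le_div_iff₀ (by positivity) (by positivity), one_mul]
    exact hK'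
  have h4 : (1:ℝ) / 2 ^ 104 < g1 / 8 := by
    unfold g1
    rw [zpow_neg]
    norm_num
  linarith

end margin

/-! ### Tolerances -/

section tol

variable {K0 e0 : ℕ}

lemma tolE_eq' : tolE = 1 / 2 ^ 400 := Num.tolE_eq

lemma small_pow {K : ℕ} (hK : 410 ≤ K) : (1:ℝ) / 2 ^ K ≤ 1 / 2 ^ 410 := by
  apply one_div_le_one_div_of_le (by positivity)
  exact pow_le_pow_right₀ (by norm_num) hK

lemma pow410_le {C : ℝ} (hC : C ≤ 1024) : C * (1 / 2 ^ 410) ≤ 1 / 2 ^ 400 := by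
  have e : (2:ℝ) ^ 410 = 2 ^ 400 * 2 ^ 10 := by rw [← pow_add]
  rw [e]
  have hX : (0:ℝ) < 2 ^ 400 := by positivity
  generalize (2:ℝ) ^ 400 = X at *
  have h10 : (2:ℝ) ^ 10 = 1024 := by norm_num
  rw [h10]
  rw [mul_one_div, div_le_div_iff₀ (by positivity) hX]
  have := mul_le_mul_of_nonneg_right hC hX.le
  linarith

lemma cube_succ_le' {l : ℝ} (h : 1 ≤ l) : (l + 1) ^ 3 ≤ l ^ 3 + 7 * l ^ 2 := by
  have h1 : l ≤ l ^ 2 := by nlinarith
  have h2 : 1 ≤ l ^ 2 := by nlinarith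
  have e : (l + 1) ^ 3 = l ^ 3 + 3 * l ^ 2 + 3 * l + 1 := by ring
  rw [e]
  linarith

lemma Γt_bounds (hK : 410 ≤ K0) : 1 ≤ Γt K0 ∧ Γt K0 ≤ 1 + tolE := by
  have hK1 : 1 ≤ K0 := by omega
  constructor
  · exact Rate.one_le_Gam_zero hK1
  · have h1 := Gam_eq hK1 0
    have h2 := Gam_le hK1 1
    rw [Ah_zero] at h1
    simp only [zero_add] at h1
    rw [Rate.Ah_one] at h2
    unfold Γt
    rw [h1, tolE_eq']
    have h3 := small_pow hK
    have h4 : (2:ℝ) * (1 / 2 ^ 410) ≤ 1 / 2 ^ 400 := pow410_le (by norm_num)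
    linarith

lemma Γ0_bounds (hK : 410 ≤ K0) (he : e0 + 1 ≤ K0) : 1 ≤ Γ0 K0 e0 ∧ Γ0 K0 e0 ≤ 1 + tolE := by
  constructor
  · exact Rate.one_le_GamL_zero he
  · have h1 := Rate.GamL_zero_le he
    unfold Γ0
    refine h1.trans ?_
    rw [tolE_eq']
    have h3 := small_pow hK
    have e : (53:ℝ) / 2 ^ K0 = 53 * (1 / 2 ^ K0) := by ring
    rw [e]
    have h4 : (53:ℝ) * (1 / 2 ^ 410) ≤ 1 / 2 ^ 400 := pow410_le (by norm_num)
    linarith

theorem GamHat_bound (hK : 410 ≤ K0) (he : e0 + 1 ≤ K0) : Rate.GamHat K0 e0 ≤ 1 + tolE := by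
  have h1 := Rate.GamHat_le he
  refine h1.trans ?_
  rw [tolE_eq']
  have h3 := small_pow hK
  have e : (56:ℝ) / 2 ^ K0 = 56 * (1 / 2 ^ K0) := by ring
  rw [e]
  have h4 : (56:ℝ) * (1 / 2 ^ 410) ≤ 1 / 2 ^ 400 := pow410_le (by norm_num)
  linarith

theorem Γt_le_GamHat (he : e0 + 1 ≤ K0) : Γt K0 ≤ Rate.GamHat K0 e0 := by
  have hK1 : 1 ≤ K0 := by omega
  have h7 : Gam K0 0 = ∑' j, Ah K0 j := by
    unfold Gam; simp
  unfold Γt
  rw [h7]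
  refine (summable_Ah hK1).tsum_le_tsum (fun j => ?_) (Rate.summable_GamHat he)
  have e : 1 + 2 * (ell K0 e0 0 : ℝ) / RR K0 j = 1 + 2 * ((ell K0 e0 0 : ℝ) / RR K0 j) := by ring
  rw [e]
  have := Rate.one_le_cube (div_nonneg (Rate.ell_pos' K0 e0 0).le (RR_pos K0 j).le)
  have hA := Ah_pos K0 j
  nlinarith

lemma w0_bounds (hK : 410 ≤ K0) : 0 ≤ w0 K0 ∧ w0 K0 ≤ tolE := by
  have hK1 : 1 ≤ K0 := by omega
  constructor
  · exact ww_nonneg 0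
  · -- `w(0) ≤ Γ R_0^{-3}`
    have hterm : ∀ j, Ah K0 j * g (RR K0 j) 0 ≤ Ah K0 j * ((RR K0 0) ^ 3)⁻¹ := by
      intro j
      apply mul_le_mul_of_nonneg_left _ (Ah_pos _ _).le
      refine (Rate.g_zero_le (RR_pos _ _)).trans ?_
      apply inv_anti₀ (pow_pos (RR_pos _ _) 3)
      exact pow_le_pow_left₀ (RR_pos _ _).le (Rate.RR_mono K0 (by omega)) 3
    have h1 : w0 K0 ≤ (∑' j, Ah K0 j) * ((RR K0 0) ^ 3)⁻¹ := by
      unfold w0 ww
      rw [← tsum_mul_right]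
      exact (summable_term hK1 0).tsum_le_tsum hterm ((summable_Ah hK1).mul_right _)
    have h2 : ∑' j, Ah K0 j ≤ 2 := by
      have h7 : Gam K0 0 = ∑' j, Ah K0 j := by
        unfold Gam; simp
      rw [← h7]
      exact Rate.Gam_zero_le hK1
    have h3 : ((RR K0 0) ^ 3)⁻¹ ≤ 1 / 2 ^ 410 := by
      rw [inv_eq_one_div]
      apply one_div_le_one_div_of_le (by positivity)
      unfold RR aa
      rw [← pow_mul]
      apply pow_le_pow_right₀ (by norm_num)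
      simp only [pow_zero, mul_one]
      omega
    have h4 : 0 ≤ ((RR K0 0) ^ 3)⁻¹ := by have := RR_pos K0 0; positivity
    rw [tolE_eq']
    have h5 : (2:ℝ) * (1 / 2 ^ 410) ≤ 1 / 2 ^ 400 := pow410_le (by norm_num)
    have h6 : (∑' j, Ah K0 j) * ((RR K0 0) ^ 3)⁻¹ ≤ 2 * ((RR K0 0) ^ 3)⁻¹ :=
      mul_le_mul_of_nonneg_right h2 h4
    linarith

lemma ell0_ge (hK : 410 ≤ K0) (he : e0 + 1 ≤ K0) : (2:ℝ) ^ 410 ≤ ℓ0 K0 e0 := by
  unfold ℓ0 ell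
  push_cast
  apply pow_le_pow_right₀ (by norm_num)
  unfold aa
  simp only [pow_zero, mul_one]
  omega

lemma ptil_bounds (hK : 410 ≤ K0) (he : e0 + 1 ≤ K0) :
    pp ≤ ptil K0 e0 ∧ ptil K0 e0 ≤ pp * (1 + tolE) := by
  have hl := ell0_ge hK he
  set l := ℓ0 K0 e0 with hldef
  have hl0 : 0 < l := lt_of_lt_of_le (by positivity) hl
  have hl3 : 0 < l ^ 3 := by positivity
  have hp := pp_pos
  constructor
  · unfold ptil
    rw [le_div_iff₀ hl3]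
    exact Packing.density_mul_le_packingNumber l hl0
  · unfold ptil
    rw [div_le_iff₀ hl3]
    refine (Packing.packingNumber_le_density l hl0.le).trans ?_
    change pp * (l + 1) ^ 3 ≤ _
    rw [mul_assoc]
    apply mul_le_mul_of_nonneg_left _ hp.le
    have hinv : 1 ≤ l * (1 / 2 ^ 410) := by
      have h1 : (2:ℝ) ^ 410 * (1 / 2 ^ 410) ≤ l * (1 / 2 ^ 410) :=
        mul_le_mul_of_nonneg_right hl (by positivity)
      have h2 : (2:ℝ) ^ 410 * (1 / 2 ^ 410) = 1 := by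
        rw [mul_one_div, div_self (by positivity)]
      linarith
    have hl1 : 1 ≤ l := (one_le_pow₀ (by norm_num)).trans hl
    -- `(l+1)³ ≤ l³ + 7 l²`, and `7 l² ≤ tolE l³`
    have h3 : (l + 1) ^ 3 ≤ l ^ 3 + 7 * l ^ 2 := cube_succ_le' hl1
    have h4 : 7 * l ^ 2 ≤ tolE * l ^ 3 := by
      rw [tolE_eq']
      have h5 : (7:ℝ) ≤ (1 / 2 ^ 400) * l := by
        have h6 : (7:ℝ) * (l * (1 / 2 ^ 410)) ≤ (1 / 2 ^ 400) * l := by
          have e : (7:ℝ) * (l * (1 / 2 ^ 410)) = ((7:ℝ) * (1 / 2 ^ 410)) * l := by ring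
          rw [e]
          exact mul_le_mul_of_nonneg_right (pow410_le (by norm_num)) hl0.le
        linarith
      have h7 : 0 ≤ l ^ 2 := by positivity
      calc 7 * l ^ 2 ≤ ((1 / 2 ^ 400) * l) * l ^ 2 := mul_le_mul_of_nonneg_right h5 h7
        _ = _ := by ring
    have e : (1 + tolE) * l ^ 3 = l ^ 3 + tolE * l ^ 3 := by ring
    rw [e]
    linarith

/-- **All the tolerances** at `K₀ ≥ 410`. -/
theorem tol_of_large (hK : 410 ≤ K0) (he : e0 + 1 ≤ K0) :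
    Tol pp (ptil K0 e0) (Γt K0) (Γ0 K0 e0) (w0 K0) := by
  obtain ⟨h1, h2⟩ := ptil_bounds hK he
  obtain ⟨h3, h4⟩ := Γt_bounds hK
  obtain ⟨h5, h6⟩ := Γ0_bounds hK he
  obtain ⟨h7, h8⟩ := w0_bounds hK
  exact ⟨pp_ge, pp_le, h1, h2, h3, h4, h5, h6, h7, h8⟩

end tol

/-! ### The choice of `K₀` and `e₀` -/

/-- Every requirement on `K₀`, `e₀`, for a constant `Kd` (depending only on the earlier parameters)
and a target `Vb` for `V₀`. -/
structure GoodParams (K0 e0 : ℕ) (Kd Cvm Vb : ℝ) : Prop where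
  large : 410 ≤ K0
  he : e0 + 1 ≤ K0
  hKd : Kd * 2 ^ (2 * e0 + 16) ≤ 2 ^ K0
  hV : Cvm * (2 / 2 ^ e0) ≤ Vb

theorem exists_good (Kd Cvm Vb : ℝ) (hVb : 0 < Vb) : ∃ K0 e0 : ℕ, GoodParams K0 e0 Kd Cvm Vb := by
  -- choose `e₀`
  have h1 : Tendsto (fun e : ℕ => Cvm * (2 * (1 / 2 : ℝ) ^ e)) atTop (𝓝 (Cvm * (2 * 0))) :=
    ((tendsto_pow_atTop_nhds_zero_of_lt_one (by norm_num) (by norm_num)).const_mul 2).const_mul Cvm
  have h2 : ∀ᶠ e : ℕ in atTop, Cvm * (2 * (1 / 2 : ℝ) ^ e) < Vb := by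
    apply h1.eventually_lt_const
    simpa using hVb
  obtain ⟨e0, he0⟩ := h2.exists
  -- choose `K₀`
  obtain ⟨n, hn⟩ := pow_unbounded_of_one_lt (Kd * 2 ^ (2 * e0 + 16)) (by norm_num : (1:ℝ) < 2)
  refine ⟨max (max n 410) (e0 + 1), e0, ?_, ?_, ?_, ?_⟩
  · exact (le_max_right _ _).trans (le_max_left _ _)
  · exact le_max_right _ _
  · refine hn.le.trans ?_
    apply pow_le_pow_right₀ (by norm_num)
    exact (le_max_left _ _).trans (le_max_left _ _)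
  · have e : Cvm * (2 / 2 ^ e0) = Cvm * (2 * (1 / 2 : ℝ) ^ e0) := by
      congr 1
      rw [one_div, inv_pow]
      ring
    rw [e]
    exact he0.le

/-- From the single constant `Kd` to the conditions of `Small`. -/
theorem Small_of_good {K0 e0 : ℕ} {Kd Cvm Vb A β ρm ρ₀ cbar C10 U : ℝ}
    (G : GoodParams K0 e0 Kd Cvm Vb) (hA : 0 ≤ A) (hβ : 0 ≤ β) (hρm : 0 ≤ ρm) (hρ₀ : 0 ≤ ρ₀)
    (hC : 0 ≤ C10) (hU : 0 < U)
    (h1 : 8 * A * C10 / U ≤ Kd) (h2 : Real.log (ρm + 3) + 3 ≤ Kd) (h3 : 48 * cbar ≤ Kd)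
    (h4 : β * A * ρ₀ ≤ Kd) : Small K0 e0 A β ρm ρ₀ cbar C10 U := by
  have hp : (1:ℝ) ≤ 2 ^ (2 * e0 + 16) := one_le_pow₀ (by norm_num)
  have hKd : 0 ≤ Kd := by
    have : 0 ≤ β * A * ρ₀ := by positivity
    linarith
  have hKd2 : Kd ≤ 2 ^ K0 := by
    have : Kd * 1 ≤ Kd * 2 ^ (2 * e0 + 16) := mul_le_mul_of_nonneg_left hp hKd
    linarith [G.hKd]
  refine ⟨G.he, hA, hβ, hρm, hρ₀, hC, hU, ?_, ?_, ?_, ?_⟩
  · exact (mul_le_mul_of_nonneg_right h1 (by positivity)).trans G.hKd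
  · exact h2.trans hKd2
  · exact h3.trans hKd2
  · exact (mul_le_mul_of_nonneg_right h4 (by positivity)).trans G.hKd

end Crest.Agent.TL.Asm
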