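import Crest.Agent.TL.AsmDefs
import Crest.Agent.TL.BarrierUp

/-!
# S0209/S0210: the bridge between level `0` and the numeric barrier functions

`log (exp ((1/2) β A Γ₀ n²/ℓ³) Z(ss cr, ℓ, n, β)) / ℓ³ ≤ Num.Psi β A Γ₀ Us ptil σ k`, any `k`,
and the quadratic form with `U₂`, for `σ = n/ℓ³`, `ptil = P(ℓ)/ℓ³`.
-/

set_option autoImplicit false

namespace Crest.Agent.TL.Asm

open Crest.ProbabilityR.Continuum Real Finset
open Crest.Agent.TL.Potential Crest.Agent.TL.BarrierUp Crest.Agent.TL.Splitting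
open Crest.Agent.TL.Thermo
open Crest.Agent.TL.Num (r2)

section
variable {cr : ℝ → ℝ}

/-- `ss cr` is admissible with stability constant `0`. -/
lemma adm_ss (hc : CoreOK cr) : Adm (ss cr) 0 := by
  refine ⟨ss_meas hc, ?_, fun r hr => ss_tail hc hr⟩
  intro N x
  have : 0 ≤ energy (ss cr) x := Finset.sum_nonneg fun _ _ => ss_nonneg hc _
  simpa using this

lemma partitionFn_ss_pos (hc : CoreOK cr) {β ℓ : ℝ} (hβ : 0 ≤ β) (hℓ : 0 < ℓ) (n : ℕ) :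
    0 < partitionFn (ss cr) ℓ n β := by
  rw [partitionFn_eq_ZD]
  exact (adm_ss hc).ZD_cube_pos hβ hℓ n

/-- The tilt separates. -/
lemma log_tilt_eq (hc : CoreOK cr) {β ℓ : ℝ} (hβ : 0 ≤ β) (hℓ : 0 < ℓ) (n : ℕ) (X : ℝ) :
    Real.log (Real.exp X * partitionFn (ss cr) ℓ n β) / ℓ ^ 3
      = X / ℓ ^ 3 + Real.log (partitionFn (ss cr) ℓ n β) / ℓ ^ 3 := by
  rw [Real.log_mul (Real.exp_pos X).ne' (partitionFn_ss_pos hc hβ hℓ n).ne', Real.log_exp, add_div]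

/-- `X/ℓ³` is the quadratic term of `Psi`. -/
lemma tilt_div (β A Γ₀ ℓ : ℝ) (hℓ : 0 < ℓ) (n : ℕ) :
    ((1 / 2) * β * A * Γ₀ * (n : ℝ) ^ 2 / ℓ ^ 3) / ℓ ^ 3
      = (1 / 2) * β * A * Γ₀ * ((n : ℝ) / ℓ ^ 3) ^ 2 := by
  field_simp

/-- **Level 0 vs `Psi`**, any number of layers. -/
theorem level0_le_Psi (hc : CoreOK cr) {β ℓ : ℝ} (A Γ₀ : ℝ) (hβ : 0 ≤ β) (hℓ : 0 < ℓ) {n : ℕ}
    (hn : 1 ≤ n) (k : ℕ) :
    Real.log (Real.exp ((1 / 2) * β * A * Γ₀ * (n : ℝ) ^ 2 / ℓ ^ 3) * partitionFn (ss cr) ℓ n β)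
        / ℓ ^ 3
      ≤ Num.Psi β A Γ₀ Us ((packingNumber ℓ : ℝ) / ℓ ^ 3) ((n : ℝ) / ℓ ^ 3) k := by
  rw [log_tilt_eq hc hβ hℓ, tilt_div β A Γ₀ ℓ hℓ]
  have hs : ∀ r, 0 ≤ r → Us * (if r < 1 then 1 else 0)
      + 0 * (if r ≤ r2 / 2 ∨ (3 * r2 ≤ r ∧ r ≤ 1) then 1 else 0) ≤ ss cr r := by
    intro r _
    rw [zero_mul, add_zero]
    split_ifs with h
    · simpa using ss_ge_U hc h.le
    · simpa using ss_nonneg hc r
  have h := log_Z_barrier_density (ss cr) Us 0 r2 (ss_meas hc) Us_pos.le le_rfl r2_pos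
    (ss_nonneg hc) (fun r hr => ss_tail hc hr) hs (u := 1) (β := β) (L := ℓ) zero_le_one hβ hℓ hn
    k 0
  have e : (fun r => (1 : ℝ) * ss cr r) = ss cr := by
    funext r; ring
  rw [e] at h
  unfold Num.Psi
  refine (add_le_add_right h _).trans (le_of_eq ?_)
  push_cast
  ring

/-- `packingNumber ℓ ≥ 1` for `ℓ ≥ 0`. -/
lemma one_le_packing {ℓ : ℝ} (hℓ : 0 ≤ ℓ) : 1 ≤ packingNumber ℓ :=
  Packing.one_le_packingNumber_zero.trans (Packing.packingNumber_mono hℓ)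

/-- The energy is at least the convex Turan bound for `H₂`. -/
theorem energy_ge_convex (hc : CoreOK cr) {ℓ : ℝ} (hℓ : 0 ≤ ℓ) {N : ℕ} (x : Fin N → Pt)
    (hx : ∀ i, x i ∈ cube ℓ) :
    U₂ * ((N : ℝ) ^ 2 / (2 * ((2197 * packingNumber ℓ : ℕ) : ℝ)) - (N : ℝ) / 2) ≤ energy (ss cr) x := by
  classical
  have hP0 : 0 < 2197 * packingNumber ℓ := by
    have := one_le_packing hℓ
    omega
  have hT := turan_convex
    (fun a b => dist (x a) (x b) ≤ r2 / 2 ∨ (3 * r2 ≤ dist (x a) (x b) ∧ dist (x a) (x b) ≤ 1))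
    (fun a b h => by rwa [dist_comm]) (2197 * packingNumber ℓ) hP0
    (fun I hI => indep_chi2_card_le r2 r2_pos (cube ℓ) _
      (fun X hX hsep => Crest.Agent.TL.Packing.le_packingNumber ⟨X, rfl, hX, hsep⟩) x I (fun i _ => hx i) hI) univ
  rw [cnt_eq_sum, Finset.card_univ, Fintype.card_fin] at hT
  have h1 := mul_le_mul_of_nonneg_left hT U₂_pos.le
  refine h1.trans ?_
  unfold energy
  push_cast
  rw [Finset.mul_sum]
  refine Finset.sum_le_sum fun p _ => ?_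
  split_ifs with h
  · simpa using ss_ge_U₂ hc h
  · simpa using ss_nonneg hc _

/-- **Level 0, the quadratic `U₂` bound.** -/
theorem level0_le_S3 (hc : CoreOK cr) {β ℓ : ℝ} (A Γ₀ : ℝ) (hβ : 0 ≤ β) (hℓ : 0 < ℓ) {n : ℕ}
    (hn : 1 ≤ n) :
    Real.log (Real.exp ((1 / 2) * β * A * Γ₀ * (n : ℝ) ^ 2 / ℓ ^ 3) * partitionFn (ss cr) ℓ n β)
        / ℓ ^ 3
      ≤ (1 / 2) * β * A * Γ₀ * ((n : ℝ) / ℓ ^ 3) ^ 2
          + ((n : ℝ) / ℓ ^ 3) * (1 - Real.log ((n : ℝ) / ℓ ^ 3))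
          - β * U₂ * (((n : ℝ) / ℓ ^ 3) ^ 2 / (2 * (2197 * ((packingNumber ℓ : ℝ) / ℓ ^ 3)))
              - ((n : ℝ) / ℓ ^ 3) / 2) := by
  rw [log_tilt_eq hc hβ hℓ, tilt_div β A Γ₀ ℓ hℓ]
  have hL3 : 0 < ℓ ^ 3 := by positivity
  have hP : (1 : ℝ) ≤ packingNumber ℓ := by exact_mod_cast one_le_packing hℓ.le
  have h := log_partitionFn_le (adm_ss hc) hβ hℓ hn
    (U₂ * ((n : ℝ) ^ 2 / (2 * ((2197 * packingNumber ℓ : ℕ) : ℝ)) - (n : ℝ) / 2))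
    (fun x hx => energy_ge_convex hc hℓ.le x hx)
  have h2 : Real.log (partitionFn (ss cr) ℓ n β) / ℓ ^ 3 ≤
      ((n : ℝ) * (1 - Real.log ((n : ℝ) / ℓ ^ 3)) -
        β * (U₂ * ((n : ℝ) ^ 2 / (2 * ((2197 * packingNumber ℓ : ℕ) : ℝ)) - (n : ℝ) / 2))) / ℓ ^ 3 :=
    div_le_div_of_nonneg_right h hL3.le
  have e : ((n : ℝ) * (1 - Real.log ((n : ℝ) / ℓ ^ 3)) -
        β * (U₂ * ((n : ℝ) ^ 2 / (2 * ((2197 * packingNumber ℓ : ℕ) : ℝ)) - (n : ℝ) / 2))) / ℓ ^ 3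
      = ((n : ℝ) / ℓ ^ 3) * (1 - Real.log ((n : ℝ) / ℓ ^ 3))
          - β * U₂ * (((n : ℝ) / ℓ ^ 3) ^ 2 / (2 * (2197 * ((packingNumber ℓ : ℝ) / ℓ ^ 3)))
              - ((n : ℝ) / ℓ ^ 3) / 2) := by
    push_cast
    field_simp
  rw [e] at h2
  linarith

end

end Crest.Agent.TL.Asm
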