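import Crest.Agent.TL.ConcWire
import Crest.Agent.TL.Budget
import Crest.Agent.TL.Level0Bridge

/-!
# Top level assembly: existence of the scales `K₀, e₀`: `Wire` and most of `Inputs`.
-/

set_option autoImplicit false
set_option linter.unusedSectionVars false

namespace Crest.Agent.TL.Asm

open Crest.ProbabilityR.Continuum Real Set Filter Topology
open Crest.Agent.TL.Gauss Crest.Agent.TL.Series Crest.Agent.TL.Potential
open Crest.Agent.TL.Num (A0 Ap Amax beta2 betaT g1 r2 Uof Tol ts td Psi yD bD yT bT tolE)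

/-- The side of the grid of the crude bound. -/
noncomputable def Kgrid : ℕ := ⌈ρmax⌉₊ + 1

lemma ρmax_pos : 0 < ρmax := Real.exp_pos _

lemma Kgrid_pos : 0 < Kgrid := by unfold Kgrid; omega

lemma ρmax_le_Kgrid : ρmax ≤ (Kgrid : ℝ) ^ 3 := by
  have h1 : ρmax ≤ (⌈ρmax⌉₊ : ℝ) := Nat.le_ceil _
  have h2 : (1:ℝ) ≤ (Kgrid : ℝ) := by
    have : 1 ≤ Kgrid := Kgrid_pos
    exact_mod_cast this
  have h3 : (⌈ρmax⌉₊ : ℝ) ≤ Kgrid := by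
    unfold Kgrid; push_cast; linarith
  have h4 : (Kgrid : ℝ) ≤ (Kgrid : ℝ) ^ 3 := by nlinarith [sq_nonneg ((Kgrid : ℝ)), mul_self_nonneg ((Kgrid:ℝ) - 1)]
  linarith

/-- The combined constant. -/
noncomputable def Kdof (S : ℝ) : ℝ :=
  8 * Ap * (Crude.C10 ρmax beta2 (U₂ / 2) S Kgrid) / Us + (Real.log (ρmax + 3) + 3) + 48 * cbar
    + beta2 * Ap * ρmax + CoB beta2 Ap ρmax * 2 ^ 104 + 4 * Ap / Us

lemma beta2_pos' : (0:ℝ) < beta2 := beta2_pos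
lemma beta2_ge : (1:ℝ) ≤ beta2 := by unfold beta2; norm_num

lemma C10_nonneg' {S : ℝ} (hS : 0 ≤ S) : 0 ≤ Crude.C10 ρmax beta2 (U₂ / 2) S Kgrid := by
  unfold Crude.C10
  have h1 := ρmax_pos
  have h2 := beta2_pos'
  have h3 := U₂_pos
  have h4 : (1:ℝ) ≤ Kgrid := by
    have : 1 ≤ Kgrid := Kgrid_pos
    exact_mod_cast this
  have h5 : 0 ≤ Real.log (2 * (Kgrid : ℝ)) := Real.log_nonneg (by linarith)
  positivity

lemma CoB_nonneg : 0 ≤ CoB beta2 Ap ρmax := by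
  unfold CoB
  have h1 := ρmax_pos
  have h2 := beta2_pos'
  have h3 := Ap_pos
  positivity

lemma CoB_mono {β A : ℝ} (h0 : 0 ≤ β) (hβ : β ≤ beta2) (hA0 : 0 ≤ A) (hA : A ≤ Ap) :
    CoB β A ρmax ≤ CoB beta2 Ap ρmax := by
  have h1 := ρmax_pos
  have h2 := beta2_pos'
  have h3 := Ap_pos
  have h4 : β * A ≤ beta2 * Ap := mul_le_mul hβ hA hA0 h2.le
  unfold CoB
  have h5 : (1 / 2) * β * A * ρmax ^ 2 ≤ (1 / 2) * beta2 * Ap * ρmax ^ 2 := by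
    have : (1 / 2) * (β * A) * ρmax ^ 2 ≤ (1 / 2) * (beta2 * Ap) * ρmax ^ 2 := by gcongr
    linarith
  have h6 : (1 / 2) * β * A * ρmax ≤ (1 / 2) * beta2 * Ap * ρmax := by
    have : (1 / 2) * (β * A) * ρmax ≤ (1 / 2) * (beta2 * Ap) * ρmax := by gcongr
    linarith
  linarith

/-- The comparison of `Kdof` with its parts. -/
lemma Kdof_parts {S : ℝ} (hS : 0 ≤ S) :
    8 * Ap * (Crude.C10 ρmax beta2 (U₂ / 2) S Kgrid) / Us ≤ Kdof S ∧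
    Real.log (ρmax + 3) + 3 ≤ Kdof S ∧ 48 * cbar ≤ Kdof S ∧ beta2 * Ap * ρmax ≤ Kdof S ∧
    CoB beta2 Ap ρmax * 2 ^ 104 ≤ Kdof S ∧ 4 * Ap / Us ≤ Kdof S := by
  have hU := Us_pos
  have hA := Ap_pos
  have hC := C10_nonneg' hS
  have hρ := ρmax_pos
  have hb := beta2_pos'
  have hcb := cbar_pos
  have hCo := CoB_nonneg
  have e1 : 0 ≤ 8 * Ap * (Crude.C10 ρmax beta2 (U₂ / 2) S Kgrid) / Us :=
    div_nonneg (mul_nonneg (mul_nonneg (by norm_num) hA.le) hC) hU.le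
  have e2 : 0 ≤ Real.log (ρmax + 3) + 3 := by
    have : 0 ≤ Real.log (ρmax + 3) := Real.log_nonneg (by linarith)
    linarith
  have e3 : 0 ≤ 48 * cbar := mul_nonneg (by norm_num) hcb.le
  have e4 : 0 ≤ beta2 * Ap * ρmax := mul_nonneg (mul_nonneg hb.le hA.le) hρ.le
  have e5 : 0 ≤ CoB beta2 Ap ρmax * 2 ^ 104 := mul_nonneg hCo (by norm_num)
  have e6 : 0 ≤ 4 * Ap / Us := div_nonneg (mul_nonneg (by norm_num) hA.le) hU.le
  unfold Kdof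
  refine ⟨?_, ?_, ?_, ?_, ?_, ?_⟩ <;> linarith

lemma Kdof_nonneg {S : ℝ} (hS : 0 ≤ S) : 0 ≤ Kdof S := by
  have h := (Kdof_parts hS).2.2.2.2.2
  have hU := Us_pos
  have hA := Ap_pos
  have e6 : 0 ≤ 4 * Ap / Us := div_nonneg (mul_nonneg (by norm_num) hA.le) hU.le
  linarith

/-- The target `V₀` bound. -/
noncomputable def Vb : ℝ := g1 ^ 2 / 64
/-- The `e` of `U4`. -/
noncomputable def eEv : ℝ := g1 ^ 2 / 32

lemma Vb_pos : 0 < Vb := by unfold Vb; have := g1_pos; positivity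
lemma Vb_lt : Vb < eEv := by
  unfold Vb eEv
  have := g1_pos
  have : 0 < g1 ^ 2 := by positivity
  linarith
lemma eEv_nonneg : 0 ≤ eEv := by unfold eEv; positivity
lemma eEv_le : eEv ≤ 1 / 64 := by
  unfold eEv g1; norm_num

/-- The scales are chosen. -/
theorem exists_scales (S : ℝ) : ∃ K0 e0 : ℕ, GoodParams K0 e0 (Kdof S) (Cv ρmax) Vb :=
  exists_good _ _ _ Vb_pos

section wire

variable {K0 e0 : ℕ} {cr : ℝ → ℝ} {S : ℝ}

lemma le_two_pow_of (hS : 0 ≤ S) (G : GoodParams K0 e0 (Kdof S) (Cv ρmax) Vb) {X : ℝ} (hX : X ≤ Kdof S) :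
    X * 2 ^ (2 * e0 + 16) ≤ 2 ^ K0 := by
  have hp : (0:ℝ) < 2 ^ (2 * e0 + 16) := by positivity
  exact (mul_le_mul_of_nonneg_right hX hp.le).trans G.hKd

lemma le_two_pow_of' (hS : 0 ≤ S) (G : GoodParams K0 e0 (Kdof S) (Cv ρmax) Vb) {X : ℝ} (hX : X ≤ Kdof S) :
    X ≤ 2 ^ K0 := by
  have hp : (1:ℝ) ≤ 2 ^ (2 * e0 + 16) := one_le_pow₀ (by norm_num)
  have h := G.hKd
  have h0 := Kdof_nonneg hS
  have : Kdof S * 1 ≤ Kdof S * 2 ^ (2 * e0 + 16) := mul_le_mul_of_nonneg_left hp h0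
  linarith

/-- The `Small` package. -/
lemma small_of (hS : 0 ≤ S) (G : GoodParams K0 e0 (Kdof S) (Cv ρmax) Vb) {β A ρ₀ : ℝ} (h1 : 1 ≤ β) (h2 : β ≤ beta2)
    (h3 : A0 ≤ A) (h4 : A ≤ Ap) (h5 : 0 < ρ₀) (h6 : ρ₀ ≤ ρmax) :
    Small K0 e0 A β ρmax ρ₀ cbar (Crude.C10 ρmax beta2 (U₂ / 2) S Kgrid) Us := by
  obtain ⟨p1, p2, p3, p4, p5, p6⟩ := Kdof_parts hS
  have hA0 : 0 ≤ A := A0_pos.le.trans h3
  have hβ0 : 0 ≤ β := by linarith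
  have hU := Us_pos
  have hC := C10_nonneg' hS
  have hA := Ap_pos
  refine Small_of_good G hA0 hβ0 ρmax_pos.le h5.le hC hU ?_ p2 p3 ?_
  · refine le_trans ?_ p1
    apply div_le_div_of_nonneg_right _ hU.le
    gcongr
  · refine le_trans ?_ p4
    have : β * A ≤ beta2 * Ap := mul_le_mul h2 h4 hA0 beta2_pos'.le
    exact mul_le_mul this h6 h5.le (mul_nonneg beta2_pos'.le hA.le)

/-- The `Wire` package. -/
theorem wire_of (hc : CoreOK cr) (hS : 0 ≤ S) (hsS : ∀ r, 1 / (2 * (Kgrid : ℝ)) ≤ r → ss cr r ≤ S)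
    (G : GoodParams K0 e0 (Kdof S) (Cv ρmax) Vb) : Wire K0 e0 cr eEv Kgrid S (Cv ρmax) := by
  obtain ⟨p1, p2, p3, p4, p5, p6⟩ := Kdof_parts hS
  have hum : ∀ A, A0 ≤ A → A ≤ Ap → (4 * A / Us) * 2 ^ (2 * e0 + 16) ≤ 2 ^ K0 := by
    intro A h1 h2
    refine le_two_pow_of hS G (le_trans ?_ p6)
    apply div_le_div_of_nonneg_right _ Us_pos.le
    linarith
  have hβA : ∀ β A, 1 ≤ β → A0 ≤ A → 1 ≤ β * A := by
    intro β A h1 h2
    have : (1:ℝ) ≤ A := le_trans (by unfold A0; norm_num) h2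
    nlinarith
  refine ⟨G.he, hc, Kgrid_pos, hS, hsS, ρmax_le_Kgrid, hum, ?_, ?_, ?_, ?_, ?_, ?_,
    hTail_field G.he hc hum⟩
  · unfold Cv
    have := ρmax_pos
    positivity
  · have h := G.hV
    have h2 : Vb ≤ g1 ^ 2 / 32 := by
      unfold Vb
      have : 0 ≤ g1 ^ 2 := by positivity
      linarith
    linarith
  · exact lt_of_le_of_lt G.hV Vb_lt
  · intro β A c ρ₀ h1 h2 h3 h4 h5 h6 h7 h8 m
    exact margin_lt (small_of hS G h1 h2 h3 h4 h7 h8) h6 h5 (hβA β A h1 h3) m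
  · intro β A c ρ₀ h1 h2 h3 h4 h5 h6 h7 h8
    refine margin_tendsto (small_of hS G h1 h2 h3 h4 h7 h8) h6 h5 fun m => ?_
    exact (OSConcrete.um_mem G.he (A0_pos.le.trans h3) Us_pos (hum A h3 h4) m).2
  · intro β A c ρ₀ h1 h2 h3 h4 h5 h6 h7 h8
    refine OmB_zero_lt (small_of hS G h1 h2 h3 h4 h7 h8) h6 h5 ?_
    refine le_two_pow_of' hS G (le_trans ?_ p5)
    have := CoB_mono (by linarith) h2 (A0_pos.le.trans h3) h4
    gcongr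

/-- The level zero bound in the form of `Inputs`. -/
theorem psi_of (hc : CoreOK cr) (hK : 1 ≤ K0) {β A : ℝ} (hβ : 0 ≤ β) (hA : 0 ≤ A) {n : ℕ} (hn : 1 ≤ n) (k : ℕ) :
    Lev0 K0 e0 cr β A n / ℓ0 K0 e0 ^ 3 ≤ Psi β A (Γ0 K0 e0) Us (ptil K0 e0) (sg0 K0 e0 n) k := by
  have hℓ : 0 < ℓ0 K0 e0 := by
    unfold ℓ0
    exact_mod_cast ell_pos K0 e0 0
  have h := level0_le_Psi hc (β := β) (ℓ := ℓ0 K0 e0) A (Γ0 K0 e0) hβ hℓ hn k
  rw [log_tilt_eq hc hβ hℓ] at h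
  have e : Lev0 K0 e0 cr β A n / ℓ0 K0 e0 ^ 3 = (1 / 2) * β * A * Γ0 K0 e0 * (n : ℝ) ^ 2 / ℓ0 K0 e0 ^ 3 / ℓ0 K0 e0 ^ 3
      + Real.log (partitionFn (ss cr) (ℓ0 K0 e0) n β) / ℓ0 K0 e0 ^ 3 := by
    unfold Lev0
    ring
  have hℓ3 : 0 < ℓ0 K0 e0 ^ 3 := by positivity
  rw [e]
  refine le_trans (le_of_eq ?_) h
  rw [Γ0]

end wire

/-- The trial lower bounds, as a statement. -/
def TrialSt (K0 : ℕ) (cr : ℝ → ℝ) : Prop :=
  (∀ β A, 0 ≤ β → 0 ≤ A → A ≤ Amax → ts β A (Γt K0) (w0 K0) (0.9 * pp) 0.01 ≤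
    Thermo.hFree (phiA K0 cr A) β (0.9 * pp)) ∧
  (∀ β A, 0 ≤ β → 0 ≤ A → A ≤ Amax → ts β A (Γt K0) (w0 K0) (0.99 * pp) 0.001 ≤
    Thermo.hFree (phiA K0 cr A) β (0.99 * pp)) ∧
  (∀ β A, 0 ≤ β → 0 ≤ A → A ≤ Amax → ts β A (Γt K0) (w0 K0) (yT pp) bT ≤
    Thermo.hFree (phiA K0 cr A) β (yT pp)) ∧
  (∀ β A, 0 ≤ β → 0 ≤ A → A ≤ Amax → td β A (Γt K0) (w0 K0) Us (yD pp) bD ≤
    Thermo.hFree (phiA K0 cr A) β (yD pp))

/-- The window, as a statement. -/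
def WindowSt (K0 e0 : ℕ) (cr : ℝ → ℝ) : Prop :=
  ∀ μ c ρ₀, Contact K0 cr 1 A0 μ c ρ₀ → c ≤ 0 → -(1 / 2 ^ 20) ≤ c → μ ≤ 0 →
    |μ| ≤ Mμ → ts 1 A0 (Γt K0) (w0 K0) (yT pp) bT ≤ -(μ * yT pp + c) →
    ∀ k : ℕ, 1.7 * pp ≤ sg0 K0 e0 k →
      Lev0 K0 e0 cr 1 A0 k ≤ ℓ0 K0 e0 ^ 3 * (-(μ * sg0 K0 e0 k + c) - 1 / 4)

/-- Everything but the trials and the window. -/
theorem main_of {cr : ℝ → ℝ} (hc : CoreOK cr) (ht : ∀ K0, 1 ≤ K0 → TrialSt K0 cr)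
    (hw : ∀ K0 e0 S, 0 ≤ S → (∀ r, 1 / (2 * (Kgrid : ℝ)) ≤ r → ss cr r ≤ S) →
      GoodParams K0 e0 (Kdof S) (Cv ρmax) Vb → WindowSt K0 e0 cr) :
    MainStatement cr := by
  have hKg : (0:ℝ) < Kgrid := by exact_mod_cast Kgrid_pos
  obtain ⟨S, hS, hsS⟩ := ss_le hc (a := 1 / (2 * (Kgrid : ℝ))) (by positivity)
  obtain ⟨K0, e0, G⟩ := exists_scales S
  have W := wire_of hc hS hsS G
  have hK1 : 1 ≤ K0 := by have := G.large; omega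
  obtain ⟨t1, t2, t3, t4⟩ := ht K0 hK1
  have hℓ : 0 < ℓ0 K0 e0 := by
    unfold ℓ0
    exact_mod_cast ell_pos K0 e0 0
  have H : Inputs K0 e0 cr eEv :=
    { hc := hc
      hK := hK1
      tol := tol_of_large G.large G.he
      hatle := GamHat_bound G.large G.he
      Γt_le_hat := Γt_le_GamHat G.he
      eE_nonneg := eEv_nonneg
      eE_le := eEv_le
      trial1 := t1
      trial2 := t2
      trial3 := t3
      trialD := t4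
      psi := fun β A hβ hA n hn k => psi_of hc hK1 hβ hA hn k
      ℓ0_pos := hℓ
      nc := W.nc
      u4c := W.u4c
      window := hw K0 e0 S hS hsS G }
  exact H.main

end Crest.Agent.TL.Asm
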