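import Crest.Agent.TL.Window
import Crest.Agent.TL.AsmTop

/-!
# `WindowSt`: the window statement for the chosen scales

The hypothesis `hOS` of `window_core` is the one sided bound at level `0` (`OSConcrete.hOS_of` at `m = 0`,
`ψ₀ = ss cr`) plus the supporting line, with error `mLHS ... 0 < g₁/8` from `Wire.hm0`.
-/

set_option autoImplicit false

namespace Crest.Agent.TL.Asm

open Crest.ProbabilityR.Continuum Real Set Filter Topology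
open Crest.Agent.TL.Gauss Crest.Agent.TL.Series Crest.Agent.TL.Potential
open Crest.Agent.TL.Num (A0 Ap Amax beta2 betaT g1 r2 Uof Tol ts td Psi yD bD yT bT tolE wW rhoC)
open Crest.Agent.TL.OSConcrete (oOS)

section

variable {K0 e0 : ℕ} {cr : ℝ → ℝ} {eE S Cw : ℝ} {Kg : ℕ}

lemma wf_rhoC_add_one_le : rhoC pp + 1 ≤ ρmax := by
  have h := ρmax_big
  have hp := pp_le
  have : rhoC pp = 2512 * pp + 1 := rfl
  rw [this]
  have h2 : (2512 : ℝ) * 8 + 1 + 1 ≤ 2 ^ 200 := by norm_num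
  nlinarith

/-- The pieces of the margin at level `0`, at `(1, A₀)`. -/
lemma wf_margin_zero (W : Wire K0 e0 cr eE Kg S Cw) {c : ℝ} (hc1 : -cbar ≤ c) (hc0 : c ≤ 0) :
    oOS K0 e0 A0 1 ρmax (Crude.C10 ρmax beta2 (U₂ / 2) S Kg) (uu K0 e0 A0 0) 0 + (c - c / Rate.lam K0 e0 0 ^ 3)
        < g1 / 8 ∧
      Real.log (ρmax * (ell K0 e0 0 : ℝ) ^ 3 + 3) / (ell K0 e0 0 : ℝ) ^ 3 < g1 / 8 := by
  have hbeta : (1 : ℝ) ≤ beta2 := by unfold beta2; norm_num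
  have hρ : (0 : ℝ) < ρmax := Real.exp_pos _
  have h := W.hm0 1 A0 c ρmax le_rfl hbeta le_rfl A0_lt_Ap.le hc1 hc0 hρ le_rfl
  unfold mLHS at h
  have h1 := W.oOS_nonneg (β := 1) zero_le_one le_rfl A0_lt_Ap.le 0
  have hl : 0 < (ell K0 e0 0 : ℝ) := by exact_mod_cast ell_pos K0 e0 0
  have hl3 : 0 < (ell K0 e0 0 : ℝ) ^ 3 := by positivity
  have hl4 : (1 : ℝ) ≤ ρmax * (ell K0 e0 0 : ℝ) ^ 3 + 3 := by
    have : 0 < ρmax * (ell K0 e0 0 : ℝ) ^ 3 := by positivity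
    linarith
  have h2 : 0 ≤ Real.log (ρmax * (ell K0 e0 0 : ℝ) ^ 3 + 3) / (ell K0 e0 0 : ℝ) ^ 3 :=
    div_nonneg (Real.log_nonneg hl4) hl3.le
  have h3 := c_term_nonneg W.hK hc0 0
  have h4 : 0 ≤ (1 * A0 * (Level.Mm 0 * Level.Xi (Ah K0) (RR K0) (ell K0 e0) 0)) * ρmax := by
    have e : Level.Xi (Ah K0) (RR K0) (ell K0 e0) 0 = 0 := by simp [Level.Xi]
    rw [e]
    simp
  constructor <;> linarith

/-- The one-sided bound at level `0`. -/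
lemma wf_window_os (W : Wire K0 e0 cr eE Kg S Cw) {μ c : ℝ}
    (hsupp : ∀ σ, 0 < σ → μ * σ + c ≤ FF K0 cr 1 A0 σ) (hc1 : -cbar ≤ c) (hc0 : c ≤ 0)
    (q : ℕ) (hq : 1 ≤ q) (hqρ : (q : ℝ) / ℓ0 K0 e0 ^ 3 ≤ ρmax) :
    (1 / 2) * 1 * A0 * Γ0 K0 e0 * ((q : ℝ) ^ 2 / ℓ0 K0 e0 ^ 3) +
        Real.log (partitionFn (ss cr) (ℓ0 K0 e0) q 1)
      ≤ ℓ0 K0 e0 ^ 3 * (-(μ * ((q : ℝ) / ℓ0 K0 e0 ^ 3) + c) + g1 / 8) := by
  have hbeta : (1 : ℝ) ≤ beta2 := by unfold beta2; norm_num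
  have hl : 0 < ℓ0 K0 e0 := by unfold ℓ0; exact_mod_cast ell_pos K0 e0 0
  have hl3 : 0 < ℓ0 K0 e0 ^ 3 := by positivity
  have hjm : (q : ℝ) ≤ ρmax * (ell K0 e0 0 : ℝ) ^ 3 := by
    have := (div_le_iff₀ hl3).1 hqρ
    exact this
  have h3 : A0 ≤ A0 := le_rfl
  have h4 : A0 ≤ Ap := A0_lt_Ap.le
  have h := OSConcrete.hOS_of W.hK (ss_meas W.hc) (ss_nonneg W.hc) (fun r hr => ss_tail W.hc hr)
      W.hKg W.hS W.hsS (A := A0) (β := 1) (βm := beta2) (B := U₂ / 2) (B' := U₂ / 2) (ρ := ρmax)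
      (u := uu K0 e0 A0 0) (A0_pos.le) zero_le_one hbeta (by have := U₂_pos; positivity)
      (Real.exp_pos _).le W.hρK 0
      (fun v hv hv1 N x => stable_trunc W.hc W.hK1 (A0_pos.le) (h4.trans Ap_lt_Amax.le)
        hv hv1 0 x)
      (adm_phiA W.hc W.hK1 (A0_pos.le) (h4.trans Ap_lt_Amax.le)).stable
      (W.um_mem h3 h4 0).1 (W.um_mem h3 h4 0).2 hq hjm
  have e1 : (fun r => uu K0 e0 A0 0 * ss cr r - A0 * wlo K0 0 r) = ss cr := psiM_zero K0 e0 cr A0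
  rw [e1] at h
  have hm := (wf_margin_zero W hc1 hc0).1
  set lam3 : ℝ := Rate.lam K0 e0 0 ^ 3 with hlam3
  have hlam0 : 0 < lam3 := pow_pos (lam_pos K0 e0 0) 3
  set σ : ℝ := (q : ℝ) / ℓ0 K0 e0 ^ 3 with hσ
  have hσ0 : 0 < σ := by
    have : (0 : ℝ) < q := by exact_mod_cast hq
    positivity
  have hs := hsupp (σ * lam3) (mul_pos hσ0 hlam0)
  have hF : Thermo.hFree (fun r => ss cr r - A0 * ww K0 r) 1 (σ * lam3) ≤ -(μ * (σ * lam3) + c) := by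
    have e : FF K0 cr 1 A0 (σ * lam3) = - Thermo.hFree (fun r => ss cr r - A0 * ww K0 r) 1 (σ * lam3) := rfl
    rw [e] at hs
    linarith
  have hF2 : Thermo.hFree (fun r => ss cr r - A0 * ww K0 r) 1 (σ * lam3) / lam3 ≤ -(μ * σ) - c / lam3 := by
    rw [div_le_iff₀ hlam0]
    have e : (-(μ * σ) - c / lam3) * lam3 = -(μ * (σ * lam3) + c) := by
      field_simp
      ring
    rw [e]
    exact hF
  refine h.trans ?_
  apply mul_le_mul_of_nonneg_left _ hl3.le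
  have e2 : ((q : ℝ) / (ell K0 e0 0 : ℝ) ^ 3 * Rate.lam K0 e0 0 ^ 3) = σ * lam3 := rfl
  rw [e2]
  linarith

/-- **The window statement.** -/
theorem windowSt_of (W : Wire K0 e0 cr eE Kg S Cw) (T : Tol pp (ptil K0 e0) (Γt K0) (Γ0 K0 e0) (w0 K0)) :
    WindowSt K0 e0 cr := by
  intro μ c ρ₀ hC hc0 hc1 hμ0 _ hμ k hk
  have hl : 0 < ℓ0 K0 e0 := by unfold ℓ0; exact_mod_cast ell_pos K0 e0 0
  have hl3 : 0 < ℓ0 K0 e0 ^ 3 := by positivity
  have hg : g1 = (2 : ℝ) ^ (-100 : ℤ) := rfl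
  have hg1 : 2512 * (g1 / 8) ≤ 1 / 16 := by
    rw [hg]
    norm_num
  have hc2 : -cbar ≤ c := by
    have h1 : (0 : ℝ) < cbar := cbar_pos
    have h2 : (1 : ℝ) ≤ cbar := by
      unfold cbar Fm
      have h3 : 0 ≤ Mμ := by
        unfold Mμ Fm
        have := g1_pos
        positivity
      norm_num
      linarith
    have h4 : (1 : ℝ) / 2 ^ 20 ≤ 1 := by norm_num
    linarith
  have hR := wf_rhoC_add_one_le
  refine window_core W.hc hl T hc0 hc1 hμ0 hμ hg1 (by have := g1_pos; positivity) ?_ ?_ hk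
  · intro q hq
    have hm := (wf_margin_zero W hc2 hc0).2
    have h1 : (q : ℝ) ≤ ρmax * ℓ0 K0 e0 ^ 3 := by
      have := (div_le_iff₀ hl3).1 (hq.trans hR)
      exact this
    have h2 : Real.log ((q : ℝ) + 1) / ℓ0 K0 e0 ^ 3 ≤
        Real.log (ρmax * (ell K0 e0 0 : ℝ) ^ 3 + 3) / (ell K0 e0 0 : ℝ) ^ 3 := by
      apply div_le_div_of_nonneg_right _ hl3.le
      apply Real.log_le_log (by positivity)
      have : ℓ0 K0 e0 = (ell K0 e0 0 : ℝ) := rfl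
      rw [← this]
      linarith
    have h3 : Real.log ((q : ℝ) + 1) / ℓ0 K0 e0 ^ 3 ≤ g1 / 8 := by linarith
    have h4 : 2512 * (Real.log ((q : ℝ) + 1) / ℓ0 K0 e0 ^ 3) ≤ 2512 * (g1 / 8) := by linarith
    exact h4.trans hg1
  · intro q hq hqρ
    exact wf_window_os W hC.supp hc2 hc0 q hq (hqρ.trans hR)

/-- The form needed by `main_of`. -/
theorem windowSt_of_good (hc : CoreOK cr) (K0 e0 : ℕ) (S : ℝ) (hS : 0 ≤ S)
    (hsS : ∀ r, 1 / (2 * (Kgrid : ℝ)) ≤ r → ss cr r ≤ S)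
    (G : GoodParams K0 e0 (Kdof S) (Cv ρmax) Vb) : WindowSt K0 e0 cr :=
  windowSt_of (wire_of hc hS hsS G) (tol_of_large G.large G.he)

end

end Crest.Agent.TL.Asm
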