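import Crest.Agent.TL.AsmTop
import Crest.Agent.TL.TrialConcrete
import Crest.Agent.TL.WindowFinal

/-!
# Top level assembly: the main statement, for every admissible core.
-/

set_option autoImplicit false

namespace Crest.Agent.TL.Asm

/-- **The main statement.** -/
theorem main_complete {cr : ℝ → ℝ} (hc : CoreOK cr) : MainStatement cr :=
  main_of hc (fun _ hK => TrialConcrete.trials hc hK) (windowSt_of_good hc)

end Crest.Agent.TL.Asm
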