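/-
TL/SelectFull (helper76; was briefly at TL/Selection): purely real-analytic part (no physics).
* exists_exposed_line, exists_right_end, affine_of_no_exposed: convex functions of one variable.
* chord bounds.
* selection: argmin of a(β)+κβ.
* kink: non-differentiability at one density ⇒ one-sided derivatives differ at all densities of an affine stretch.
* abstract_main: everything combined.
-/
import Mathlib
import Crest.Agent.TL.Select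

set_option autoImplicit false
namespace Crest.Agent.TL
open Filter Topology Set

/-- Affine on a closed interval. -/
def AffineOnI (F : ℝ → ℝ) (a b : ℝ) : Prop := ∃ μ c : ℝ, ∀ σ ∈ Icc a b, F σ = μ * σ + c

/-- Slope. -/
noncomputable def slopeF (F : ℝ → ℝ) (a b : ℝ) : ℝ := (F b - F a) / (b - a)

/-- Rightmost minimiser of a continuous function on a closed interval. -/
theorem exists_rightmost_min {G : ℝ → ℝ} {a b : ℝ} (hab : a ≤ b) (hG : ContinuousOn G (Icc a b)) :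
    ∃ ρ ∈ Icc a b, (∀ x ∈ Icc a b, G ρ ≤ G x) ∧ ∀ x ∈ Icc a b, ρ < x → G ρ < G x := by
  obtain ⟨x₀, hx₀, hmin⟩ := isCompact_Icc.exists_isMinOn ⟨a, left_mem_Icc.2 hab⟩ hG
  have hS : IsCompact (Icc a b ∩ G ⁻¹' {G x₀}) :=
    isCompact_Icc.of_isClosed_subset
      (hG.preimage_isClosed_of_isClosed isClosed_Icc isClosed_singleton) inter_subset_left
  obtain ⟨ρ, hρ, hρmax⟩ := hS.exists_isMaxOn ⟨x₀, hx₀, rfl⟩ continuous_id.continuousOn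
  have hρv : G ρ = G x₀ := hρ.2
  have hle : ∀ x ∈ Icc a b, G ρ ≤ G x := fun x hx => by rw [hρv]; exact hmin hx
  refine ⟨ρ, hρ.1, hle, fun x hx hlt => lt_of_le_of_ne (hle x hx) fun h => ?_⟩
  have hmem : x ∈ Icc a b ∩ G ⁻¹' {G x₀} :=
    ⟨hx, by simp only [mem_preimage, mem_singleton_iff]; rw [← h, hρv]⟩
  have h2 : x ≤ ρ := hρmax hmem
  linarith

theorem slopeF_eq_of_affine {F : ℝ → ℝ} {a b μ c : ℝ} (hab : a < b)
    (h : ∀ σ ∈ Icc a b, F σ = μ * σ + c) : slopeF F a b = μ := by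
  unfold slopeF
  rw [h a (left_mem_Icc.2 hab.le), h b (right_mem_Icc.2 hab.le)]
  have hne : b - a ≠ 0 := sub_ne_zero.2 hab.ne'
  field_simp
  ring

theorem slopeF_eq_of_affine' {F : ℝ → ℝ} {a b x y μ c : ℝ} (hxy : x < y) (hx : a ≤ x) (hy : y ≤ b)
    (h : ∀ σ ∈ Icc a b, F σ = μ * σ + c) : slopeF F x y = μ :=
  slopeF_eq_of_affine hxy fun σ hσ => h σ ⟨by linarith [hσ.1], by linarith [hσ.2]⟩

/-- Adjacent slopes. -/
theorem convex_adj {F : ℝ → ℝ} (hF : ConvexOn ℝ (Ioi 0) F) {x y z : ℝ} (hx : 0 < x) (hxy : x < y)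
    (hyz : y < z) : (F y - F x) / (y - x) ≤ (F z - F y) / (z - y) :=
  hF.slope_mono_adjacent hx (by simp only [mem_Ioi]; linarith) hxy hyz

/-- To the right of an interval where the slope is `s`, `F` grows at least at rate `s`. -/
theorem right_growth {F : ℝ → ℝ} (hF : ConvexOn ℝ (Ioi 0) F) {a b s : ℝ} (ha : 0 < a) (hab : a < b)
    (hs : F b - F a = s * (b - a)) {x : ℝ} (hx : b < x) : s * (x - b) ≤ F x - F b := by
  have h := convex_adj hF ha hab hx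
  have hd : 0 < b - a := by linarith
  have hd' : 0 < x - b := by linarith
  rw [hs, mul_div_assoc, div_self hd.ne', mul_one, le_div_iff₀ hd'] at h
  exact h

/-- To the left of an interval where the slope is `s`, `F` decreases at rate at most `s`. -/
theorem left_growth {F : ℝ → ℝ} (hF : ConvexOn ℝ (Ioi 0) F) {a b s : ℝ} (hab : a < b)
    (hs : F b - F a = s * (b - a)) {x : ℝ} (hx0 : 0 < x) (hx : x < a) :
    F a - F x ≤ s * (a - x) := by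
  have h := convex_adj hF hx0 hx hab
  have hd : 0 < b - a := by linarith
  have hd' : 0 < a - x := by linarith
  rw [hs, mul_div_assoc, div_self hd.ne', mul_one, div_le_iff₀ hd'] at h
  exact h

/-- `F - line` is convex. -/
theorem convexOn_sub_line {F : ℝ → ℝ} (hF : ConvexOn ℝ (Ioi 0) F) (μ : ℝ) :
    ConvexOn ℝ (Ioi 0) (fun σ => F σ - μ * σ) := by
  refine ⟨convex_Ioi 0, fun x hx y hy a b ha hb hab => ?_⟩
  have h := hF.2 hx hy ha hb hab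
  simp only [smul_eq_mul] at h ⊢
  have e : a * (F x - μ * x) + b * (F y - μ * y) = a * F x + b * F y - μ * (a * x + b * y) := by
    ring
  rw [e]
  linarith

theorem continuousOn_sub_line {F : ℝ → ℝ} (hF : ConvexOn ℝ (Ioi 0) F) (μ : ℝ) {a b : ℝ}
    (ha : 0 < a) : ContinuousOn (fun σ => F σ - μ * σ) (Icc a b) := by
  have h1 : ContinuousOn F (Ioi 0) := hF.continuousOn isOpen_Ioi
  have h2 : ContinuousOn F (Icc a b) := h1.mono fun x hx => lt_of_lt_of_le ha hx.1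
  exact h2.sub (by fun_prop)

/-- Core: a rightmost minimiser on `[a,b]` strictly below both end values gives an exposed
supporting line. -/
theorem exposed_core {F : ℝ → ℝ} (hF : ConvexOn ℝ (Ioi 0) F) {a b ρ μ : ℝ} (ha : 0 < a)
    (hρ : ρ ∈ Icc a b)
    (hmin : ∀ x ∈ Icc a b, F ρ - μ * ρ ≤ F x - μ * x)
    (hright : ∀ x ∈ Icc a b, ρ < x → F ρ - μ * ρ < F x - μ * x)
    (hA : F ρ - μ * ρ < F a - μ * a) (hB : F ρ - μ * ρ < F b - μ * b) :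
    (∀ σ, 0 < σ → μ * σ + (F ρ - μ * ρ) ≤ F σ) ∧ F ρ = μ * ρ + (F ρ - μ * ρ) ∧
      ∀ σ, ρ < σ → μ * σ + (F ρ - μ * ρ) < F σ := by
  have hG := convexOn_sub_line hF μ
  have hρpos : 0 < ρ := lt_of_lt_of_le ha hρ.1
  have hbpos : 0 < b := lt_of_lt_of_le hρpos hρ.2
  have hleft' : ∀ σ, 0 < σ → σ < a → F ρ - μ * ρ < F σ - μ * σ := by
    intro σ hσ hσa
    have h := hG.le_max_of_mem_Icc (x := σ) (y := ρ) (z := a) hσ hρpos ⟨hσa.le, hρ.1⟩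
    rcases le_max_iff.1 h with h | h
    · linarith
    · linarith
  have hright' : ∀ σ, b < σ → F ρ - μ * ρ < F σ - μ * σ := by
    intro σ hσ
    have h := hG.le_max_of_mem_Icc (x := ρ) (y := σ) (z := b) hρpos (by simp only [mem_Ioi]; linarith)
      ⟨hρ.2, hσ.le⟩
    rcases le_max_iff.1 h with h | h
    · linarith
    · linarith
  refine ⟨fun σ hσ => ?_, by ring, fun σ hσ => ?_⟩
  · rcases lt_or_ge σ a with h | h
    · have := hleft' σ hσ h; linarith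
    · rcases le_or_gt σ b with h' | h'
      · have := hmin σ ⟨h, h'⟩; linarith
      · have := hright' σ h'; linarith
  · rcases le_or_gt σ b with h' | h'
    · have := hright σ ⟨by linarith [hρ.1], h'⟩ hσ; linarith
    · have := hright' σ h'; linarith

/-- Given a strict slope increase at `σ₂` there is a supporting line touching in `(σ₁,σ₃)` with the part of `F` to the right of the contact
point strictly above the line. -/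
theorem exists_exposed_line {F : ℝ → ℝ} (hF : ConvexOn ℝ (Ioi 0) F) {σ₁ σ₂ σ₃ : ℝ} (h0 : 0 < σ₁)
    (h12 : σ₁ < σ₂) (h23 : σ₂ < σ₃) {μ : ℝ} (hμ1 : slopeF F σ₁ σ₂ < μ) (hμ2 : μ < slopeF F σ₂ σ₃) :
    ∃ c ρ₀ : ℝ, σ₁ < ρ₀ ∧ ρ₀ < σ₃ ∧ (∀ σ, 0 < σ → μ * σ + c ≤ F σ) ∧ F ρ₀ = μ * ρ₀ + c ∧
      ∀ σ, ρ₀ < σ → μ * σ + c < F σ := by
  have hd12 : 0 < σ₂ - σ₁ := by linarith
  have hd23 : 0 < σ₃ - σ₂ := by linarith
  have hG12 : F σ₂ - μ * σ₂ < F σ₁ - μ * σ₁ := by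
    have : (F σ₂ - F σ₁) / (σ₂ - σ₁) < μ := hμ1
    rw [div_lt_iff₀ hd12] at this
    nlinarith
  have hG23 : F σ₂ - μ * σ₂ < F σ₃ - μ * σ₃ := by
    have : μ < (F σ₃ - F σ₂) / (σ₃ - σ₂) := hμ2
    rw [lt_div_iff₀ hd23] at this
    nlinarith
  obtain ⟨ρ, hρ, hmin, hright⟩ :=
    exists_rightmost_min (by linarith : σ₁ ≤ σ₃) (continuousOn_sub_line hF μ h0)
  have hρ2 := hmin σ₂ ⟨h12.le, h23.le⟩
  have hA : F ρ - μ * ρ < F σ₁ - μ * σ₁ := by linarith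
  have hB : F ρ - μ * ρ < F σ₃ - μ * σ₃ := by linarith
  have hρ1 : σ₁ < ρ := by
    refine lt_of_le_of_ne hρ.1 fun h => ?_
    rw [← h] at hA
    linarith
  have hρ3 : ρ < σ₃ := by
    refine lt_of_le_of_ne hρ.2 fun h => ?_
    rw [h] at hB
    linarith
  obtain ⟨h1, h2, h3⟩ := exposed_core hF h0 hρ hmin hright hA hB
  exact ⟨F ρ - μ * ρ, ρ, hρ1, hρ3, h1, h2, h3⟩

/-- Right end of the contact set. -/
theorem exists_right_end {F : ℝ → ℝ} (hF : ConvexOn ℝ (Ioi 0) F) {μ c σ₀ T : ℝ} (hσ₀ : 0 < σ₀)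
    (hsupp : ∀ σ, 0 < σ → μ * σ + c ≤ F σ) (hc : F σ₀ = μ * σ₀ + c)
    (hT : ∀ σ, T ≤ σ → μ * σ + c < F σ) :
    ∃ ρ₀ : ℝ, σ₀ ≤ ρ₀ ∧ ρ₀ < max T (σ₀ + 1) ∧ F ρ₀ = μ * ρ₀ + c ∧ ∀ σ, ρ₀ < σ → μ * σ + c < F σ := by
  set b : ℝ := max T (σ₀ + 1) with hb
  have hσb : σ₀ < b := lt_of_lt_of_le (by linarith) (le_max_right _ _)
  obtain ⟨ρ, hρ, hmin, hright⟩ :=
    exists_rightmost_min hσb.le (continuousOn_sub_line hF μ hσ₀)
  have hρpos : 0 < ρ := lt_of_lt_of_le hσ₀ hρ.1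
  have h0 := hmin σ₀ (left_mem_Icc.2 hσb.le)
  have hsρ := hsupp ρ hρpos
  have hval : F ρ = μ * ρ + c := by
    have : F σ₀ - μ * σ₀ = c := by rw [hc]; ring
    linarith
  have hρb : ρ < b := by
    refine lt_of_le_of_ne hρ.2 fun h => ?_
    have := hT ρ (by rw [h]; exact le_max_left _ _)
    linarith
  refine ⟨ρ, hρ.1, hρb, hval, fun σ hσ => ?_⟩
  rcases le_or_gt σ b with h' | h'
  · have := hright σ ⟨by linarith [hρ.1], h'⟩ hσ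
    linarith
  · exact hT σ (le_trans (le_max_left _ _) h'.le)

/-- Between two affine stretches with slopes `μ_L < μ < μ_R`: a supporting line of slope `μ`, exposed to the right, touching in `[g₂,g₃]`. -/
theorem exists_exposed_between {F : ℝ → ℝ} (hF : ConvexOn ℝ (Ioi 0) F) {g₁ g₂ g₃ g₄ μ : ℝ}
    (h0 : 0 < g₁) (h12 : g₁ < g₂) (h23 : g₂ ≤ g₃) (h34 : g₃ < g₄) (hL : AffineOnI F g₁ g₂)
    (hR : AffineOnI F g₃ g₄) (hμ1 : slopeF F g₁ g₂ < μ) (hμ2 : μ < slopeF F g₃ g₄) :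
    ∃ c ρ₀ : ℝ, g₂ ≤ ρ₀ ∧ ρ₀ ≤ g₃ ∧ (∀ σ, 0 < σ → μ * σ + c ≤ F σ) ∧ F ρ₀ = μ * ρ₀ + c ∧
      ∀ σ, ρ₀ < σ → μ * σ + c < F σ := by
  obtain ⟨μL, cL, hL⟩ := hL
  obtain ⟨μR, cR, hR⟩ := hR
  have hsL : slopeF F g₁ g₂ = μL := slopeF_eq_of_affine h12 hL
  have hsR : slopeF F g₃ g₄ = μR := slopeF_eq_of_affine h34 hR
  rw [hsL] at hμ1
  rw [hsR] at hμ2
  have hg14 : g₁ ≤ g₄ := by linarith
  obtain ⟨ρ, hρ, hmin, hright⟩ := exists_rightmost_min hg14 (continuousOn_sub_line hF μ h0)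
  -- on the left stretch, `G` is strictly decreasing
  have hρ2 : g₂ ≤ ρ := by
    by_contra hlt
    push Not at hlt
    have h1 := hL ρ ⟨hρ.1, hlt.le⟩
    have h2 := hL g₂ ⟨h12.le, le_rfl⟩
    have h3 := hmin g₂ ⟨h12.le, by linarith⟩
    rw [h1, h2] at h3
    nlinarith
  have hρ3 : ρ ≤ g₃ := by
    by_contra hlt
    push Not at hlt
    have h1 := hR ρ ⟨hlt.le, hρ.2⟩
    have h2 := hR g₃ ⟨le_rfl, h34.le⟩
    have h3 := hmin g₃ ⟨by linarith, h34.le⟩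
    rw [h1, h2] at h3
    nlinarith
  have hA : F ρ - μ * ρ < F g₁ - μ * g₁ := by
    have h1 := hL g₁ ⟨le_rfl, h12.le⟩
    have h2 := hL g₂ ⟨h12.le, le_rfl⟩
    have h3 := hmin g₂ ⟨h12.le, by linarith⟩
    rw [h2] at h3
    rw [h1]
    nlinarith
  have hB : F ρ - μ * ρ < F g₄ - μ * g₄ := by
    have h1 := hR g₄ ⟨h34.le, le_rfl⟩
    have h2 := hR g₃ ⟨le_rfl, h34.le⟩
    have h3 := hmin g₃ ⟨by linarith, h34.le⟩
    rw [h2] at h3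
    rw [h1]
    nlinarith
  obtain ⟨h1, h2, h3⟩ := exposed_core hF h0 hρ hmin hright hA hB
  exact ⟨F ρ - μ * ρ, ρ, hρ2, hρ3, h1, h2, h3⟩

/-- A convex function that is not affine on `[a,b]` has a strict slope increase inside: a contact point with slope between. -/
theorem not_affine_slope {F : ℝ → ℝ} (hF : ConvexOn ℝ (Ioi 0) F) {a b : ℝ} (ha : 0 < a) (hab : a < b)
    (hna : ¬ AffineOnI F a b) :
    ∃ σ₁ σ₂ σ₃ : ℝ, a ≤ σ₁ ∧ σ₁ < σ₂ ∧ σ₂ < σ₃ ∧ σ₃ ≤ b ∧ slopeF F σ₁ σ₂ < slopeF F σ₂ σ₃ := by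
  by_contra hno
  push Not at hno
  apply hna
  have hd : 0 < b - a := by linarith
  set μ : ℝ := (F b - F a) / (b - a) with hμ
  refine ⟨μ, F a - μ * a, fun σ hσ => ?_⟩
  have hμe : F b - F a = μ * (b - a) := by rw [hμ]; field_simp
  rcases eq_or_lt_of_le hσ.1 with rfl | h1
  · ring
  rcases eq_or_lt_of_le hσ.2 with rfl | h2
  · linarith
  have h3 := hno a σ b le_rfl h1 h2 le_rfl
  have h4 := convex_adj hF ha h1 h2
  have h5 : slopeF F a σ = slopeF F σ b := le_antisymm h4 h3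
  unfold slopeF at h5
  have hd1 : 0 < σ - a := by linarith
  have hd2 : 0 < b - σ := by linarith
  rw [div_eq_div_iff hd1.ne' hd2.ne'] at h5
  -- `(Fσ - Fa)(b - σ) = (Fb - Fσ)(σ - a)`
  have h6 : (F σ - F a) * (b - a) = (F b - F a) * (σ - a) := by linarith
  rw [hμe] at h6
  have h7 : (F σ - F a - μ * (σ - a)) * (b - a) = 0 := by linarith
  have h8 : F σ - F a - μ * (σ - a) = 0 := by
    rcases mul_eq_zero.1 h7 with h | h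
    · exact h
    · exact absurd h hd.ne'
  linarith

/-- Two affine stretches of a convex function with equal slopes: affine over the whole interval. -/
theorem affine_of_two {F : ℝ → ℝ} (hF : ConvexOn ℝ (Ioi 0) F) {g₁ g₂ g₃ g₄ : ℝ} (h0 : 0 < g₁)
    (h12 : g₁ < g₂) (h23 : g₂ ≤ g₃) (h34 : g₃ < g₄) (hL : AffineOnI F g₁ g₂) (hR : AffineOnI F g₃ g₄)
    (hd : slopeF F g₃ g₄ = slopeF F g₁ g₂) : AffineOnI F g₁ g₄ := by
  obtain ⟨μL, cL, hL⟩ := hL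
  obtain ⟨μR, cR, hR⟩ := hR
  have hsL : slopeF F g₁ g₂ = μL := slopeF_eq_of_affine h12 hL
  have hsR : slopeF F g₃ g₄ = μR := slopeF_eq_of_affine h34 hR
  rw [hsL, hsR] at hd
  subst hd
  refine ⟨μR, F g₁ - μR * g₁, fun σ hσ => ?_⟩
  have hkey := Select.affine_on_hull hF (ρ₁ := g₁) (ρ₂ := g₂) (ρ₃ := g₃) (ρ₄ := g₄) (μ := μR)
    (ρ := σ) h0 (by simp only [mem_Ioi]; linarith) h12 h23 h34
    (by rw [hL g₁ ⟨le_rfl, h12.le⟩, hL g₂ ⟨h12.le, le_rfl⟩]; ring)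
    (by rw [hR g₃ ⟨le_rfl, h34.le⟩, hR g₄ ⟨h34.le, le_rfl⟩]; ring) hσ.1 hσ.2
  rw [hkey]; ring

/-- A supporting line of a convex function on the interval where it is affine. -/
theorem affine_supporting {F : ℝ → ℝ} (hF : ConvexOn ℝ (Ioi 0) F) {a b μ c : ℝ} (ha : 0 < a)
    (hab : a < b) (h : ∀ σ ∈ Icc a b, F σ = μ * σ + c) : ∀ σ, 0 < σ → μ * σ + c ≤ F σ := by
  intro σ hσ
  have hAa := h a ⟨le_rfl, hab.le⟩
  have hAb := h b ⟨hab.le, le_rfl⟩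
  have hs : F b - F a = μ * (b - a) := by rw [hAa, hAb]; ring
  rcases lt_or_ge σ a with h1 | h1
  · have := left_growth hF hab hs hσ h1
    rw [hAa] at this
    nlinarith
  rcases le_or_gt σ b with h2 | h2
  · exact le_of_eq (h σ ⟨h1, h2⟩).symm
  · have := right_growth hF ha hab hs h2
    rw [hAb] at this
    nlinarith

/-- Slopes of a convex function: `slopeF g₁ g₂ ≤ slopeF g₃ g₄`. -/
theorem slopeF_mono {F : ℝ → ℝ} (hF : ConvexOn ℝ (Ioi 0) F) {g₁ g₂ g₃ g₄ : ℝ} (h0 : 0 < g₁)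
    (h12 : g₁ < g₂) (h23 : g₂ ≤ g₃) (h34 : g₃ < g₄) : slopeF F g₁ g₂ ≤ slopeF F g₃ g₄ := by
  rcases eq_or_lt_of_le h23 with rfl | hlt
  · exact convex_adj hF h0 h12 h34
  · have h1 := convex_adj hF h0 h12 hlt
    have h2 := convex_adj hF (by linarith : 0 < g₂) hlt h34
    exact le_trans h1 h2

/-- Selection. -/
theorem selection (d : ℝ → ℝ → ℝ) {β₁ β₂ βt A₀ Ap c₀ : ℝ} (hc₀ : 0 < c₀) (h12 : β₁ < β₂)
    (h2t : β₂ < βt) (hA : A₀ < Ap)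
    (hcont : ContinuousOn (fun p : ℝ × ℝ => d p.1 p.2) (Icc β₁ βt ×ˢ Icc A₀ Ap))
    (hb1 : 0 < d β₁ A₀) (hb2 : d β₂ A₀ = 0) (hb3 : ∀ β ∈ Icc β₁ βt, d β Ap = 0)
    (hnn : ∀ β ∈ Icc β₁ βt, ∀ A ∈ Icc A₀ Ap, 0 ≤ d β A)
    (hrate : ∀ β ∈ Icc β₁ βt, ∀ A₁ ∈ Icc A₀ Ap, ∀ A₂ ∈ Icc A₀ Ap, A₁ < A₂ → 0 < d β A₂ →
      c₀ * (A₂ - A₁) ≤ d β A₁) :
    ∃ βs ∈ Ioc β₁ β₂, ∃ As ∈ Icc A₀ Ap, ∃ κ > 0, d βs As = 0 ∧
      ∀ β ∈ Ico β₁ βs, κ * (βs - β) ≤ d β As := by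
  have hsub : ∀ β ∈ Icc β₁ β₂, β ∈ Icc β₁ βt := fun β hβ => ⟨hβ.1, by linarith [hβ.2]⟩
  obtain ⟨bs, hbs, As, hAs, hzero, c, hc, hlow⟩ := Select.exists_selection d h12 hA.le hc₀
    (hcont.mono (prod_mono (fun β hβ => hsub β hβ) subset_rfl))
    (fun b hb A hAm => hnn b (hsub b hb) A hAm) (fun b hb => hb3 b (hsub b hb))
    (fun b hb A₁ h₁ A₂ h₂ hlt hp => hrate b (hsub b hb) A₁ h₁ A₂ h₂ hlt hp) hb1 hb2
  exact ⟨bs, hbs, As, hAs, c, hc, hzero, hlow⟩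

/-- Kink lemma. -/
theorem kink (Φ : ℝ → ℝ → ℝ) {βa βb βs g₁ g₄ : ℝ} (hs1 : βa < βs) (hs2 : βs < βb)
    (hconc : ∀ σ ∈ Ioo g₁ g₄, ConcaveOn ℝ (Ioo βa βb) fun β => Φ β σ)
    (hconv : ∀ β ∈ Ioo βa βb, ConvexOn ℝ (Ioo g₁ g₄) (Φ β))
    (haff : ∃ μ c : ℝ, ∀ σ ∈ Ioo g₁ g₄, Φ βs σ = μ * σ + c)
    (hne : ∃ σ₀ ∈ Ioo g₁ g₄, ¬ DifferentiableAt ℝ (fun β => Φ β σ₀) βs) :
    ∀ ρ ∈ Ioo g₁ g₄, ∃ Dl Dr : ℝ,
      HasDerivWithinAt (fun β => Φ β ρ) Dl (Iio βs) βs ∧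
      HasDerivWithinAt (fun β => Φ β ρ) Dr (Ioi βs) βs ∧ Dr < Dl := by
  intro ρ hρ
  have hint : βs ∈ interior (Ioo βa βb) := by
    rw [interior_Ioo]; exact ⟨hs1, hs2⟩
  obtain ⟨σ₀, hσ₀, hnd⟩ := hne
  have hk := Select.ConcaveOn.kink_of_not_differentiableAt (hconc σ₀ hσ₀) hint hnd
  obtain ⟨μ, c, hμ⟩ := haff
  have hres := Select.kink_propagates (F := Φ) (I := Ioo βa βb) (J := Ioo g₁ g₄) (b := βs)
    hint isOpen_Ioo hconc hconv ?_ hσ₀ hk hρ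
  · exact hres
  intro x hx y hy t ht
  have hcomb : (1 - t) * x + t * y ∈ Ioo g₁ g₄ := by
    have := (convex_Ioo g₁ g₄) hx hy (by linarith [ht.2] : 0 ≤ 1 - t) ht.1 (by ring)
    simpa using this
  rw [hμ _ hcomb, hμ x hx, hμ y hy]
  ring

/-- **Abstract main theorem.** `Φ β A σ`: rectangle `[β₁,βt] × [A₀,Ap]`, test points `σ₁<σ₂` in `(g₁,g₂)`, `σ₃<σ₄` in `(g₃,g₄)`. -/
theorem abstract_main (Φ : ℝ → ℝ → ℝ → ℝ) {β₁ β₂ βt A₀ Ap c₀ g₁ g₂ g₃ g₄ : ℝ} (hc₀ : 0 < c₀)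
    (h0 : 0 < β₁) (h12 : β₁ < β₂) (h2t : β₂ < βt) (hA : A₀ < Ap) (hg0 : 0 < g₁) (hg12 : g₁ < g₂)
    (hg23 : g₂ ≤ g₃) (hg34 : g₃ < g₄)
    (hconc : ∀ A ∈ Icc A₀ Ap, ∀ σ ∈ Ioo g₁ g₄, ConcaveOn ℝ (Ioi 0) fun β => Φ β A σ)
    (hconv : ∀ β, 0 < β → ∀ A ∈ Icc A₀ Ap, ConvexOn ℝ (Ioi 0) (Φ β A))
    (hcont : ∀ σ ∈ Ioo g₁ g₄,
      ContinuousOn (fun p : ℝ × ℝ => Φ p.1 p.2 σ) (Icc β₁ βt ×ˢ Icc A₀ Ap))
    (haffL : ∀ β ∈ Icc β₁ βt, ∀ A ∈ Icc A₀ Ap, AffineOnI (Φ β A) g₁ g₂)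
    (haffR : ∀ β ∈ Icc β₁ βt, ∀ A ∈ Icc A₀ Ap, AffineOnI (Φ β A) g₃ g₄)
    (hb1 : ¬ AffineOnI (Φ β₁ A₀) g₁ g₄)
    (hb2 : AffineOnI (Φ β₂ A₀) g₁ g₄)
    (hb3 : ∀ β ∈ Icc β₁ βt, AffineOnI (Φ β Ap) g₁ g₄)
    (hrate : ∀ β ∈ Icc β₁ βt, ∀ A₁ ∈ Icc A₀ Ap, ∀ A₂ ∈ Icc A₀ Ap, A₁ < A₂ →
      ¬ AffineOnI (Φ β A₂) g₁ g₄ →
      c₀ * (A₂ - A₁) ≤ slopeF (Φ β A₁) g₃ g₄ - slopeF (Φ β A₁) g₁ g₂) :
    ∃ βs ∈ Ioc β₁ β₂, ∃ As ∈ Icc A₀ Ap, ∀ ρ ∈ Ioo g₁ g₄, ∃ Dl Dr : ℝ,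
      HasDerivWithinAt (fun β => Φ β As ρ) Dl (Iio βs) βs ∧
      HasDerivWithinAt (fun β => Φ β As ρ) Dr (Ioi βs) βs ∧ Dr < Dl := by
  -- four test points
  obtain ⟨σ₁, hσ₁a, hσ₁b⟩ := exists_between hg12
  obtain ⟨σ₂, hσ₂a, hσ₂b⟩ := exists_between hσ₁b
  obtain ⟨σ₃, hσ₃a, hσ₃b⟩ := exists_between hg34
  obtain ⟨σ₄, hσ₄a, hσ₄b⟩ := exists_between hσ₃b
  have hm1 : σ₁ ∈ Ioo g₁ g₄ := ⟨hσ₁a, by linarith⟩
  have hm2 : σ₂ ∈ Ioo g₁ g₄ := ⟨by linarith, by linarith⟩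
  have hm3 : σ₃ ∈ Ioo g₁ g₄ := ⟨by linarith, by linarith⟩
  have hm4 : σ₄ ∈ Ioo g₁ g₄ := ⟨by linarith, by linarith⟩
  set d : ℝ → ℝ → ℝ := fun β A => slopeF (Φ β A) σ₃ σ₄ - slopeF (Φ β A) σ₁ σ₂ with hd
  have hβI : ∀ β ∈ Icc β₁ βt, 0 < β := fun β hβ => lt_of_lt_of_le h0 hβ.1
  -- the slopes at the test points agree with the slopes at the ends
  have hsL : ∀ β ∈ Icc β₁ βt, ∀ A ∈ Icc A₀ Ap,
      slopeF (Φ β A) σ₁ σ₂ = slopeF (Φ β A) g₁ g₂ := by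
    intro β hβ A hAm
    obtain ⟨μ, c, h⟩ := haffL β hβ A hAm
    rw [slopeF_eq_of_affine' hσ₂a hσ₁a.le hσ₂b.le h, slopeF_eq_of_affine hg12 h]
  have hsR : ∀ β ∈ Icc β₁ βt, ∀ A ∈ Icc A₀ Ap,
      slopeF (Φ β A) σ₃ σ₄ = slopeF (Φ β A) g₃ g₄ := by
    intro β hβ A hAm
    obtain ⟨μ, c, h⟩ := haffR β hβ A hAm
    rw [slopeF_eq_of_affine' hσ₄a hσ₃a.le hσ₄b.le h, slopeF_eq_of_affine hg34 h]
  have hdeq : ∀ β ∈ Icc β₁ βt, ∀ A ∈ Icc A₀ Ap,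
      d β A = slopeF (Φ β A) g₃ g₄ - slopeF (Φ β A) g₁ g₂ := by
    intro β hβ A hAm
    simp only [hd]
    rw [hsL β hβ A hAm, hsR β hβ A hAm]
  -- d ≥ 0
  have hnn : ∀ β ∈ Icc β₁ βt, ∀ A ∈ Icc A₀ Ap, 0 ≤ d β A := by
    intro β hβ A hAm
    rw [hdeq β hβ A hAm]
    have := slopeF_mono (hconv β (hβI β hβ) A hAm) hg0 hg12 hg23 hg34
    linarith
  -- d = 0 ↔ affine
  have hzero_of_aff : ∀ β ∈ Icc β₁ βt, ∀ A ∈ Icc A₀ Ap, AffineOnI (Φ β A) g₁ g₄ → d β A = 0 := by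
    intro β hβ A hAm h
    rw [hdeq β hβ A hAm]
    obtain ⟨μ, c, h⟩ := h
    rw [slopeF_eq_of_affine' hg34 (by linarith) le_rfl h, slopeF_eq_of_affine' hg12 le_rfl (by linarith) h]
    ring
  have haff_of_zero : ∀ β ∈ Icc β₁ βt, ∀ A ∈ Icc A₀ Ap, d β A = 0 → AffineOnI (Φ β A) g₁ g₄ := by
    intro β hβ A hAm h
    rw [hdeq β hβ A hAm] at h
    exact affine_of_two (hconv β (hβI β hβ) A hAm) hg0 hg12 hg23 hg34 (haffL β hβ A hAm)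
      (haffR β hβ A hAm) (by linarith)
  have hβ₁I : β₁ ∈ Icc β₁ βt := ⟨le_rfl, by linarith⟩
  have hβ₂I : β₂ ∈ Icc β₁ βt := ⟨h12.le, h2t.le⟩
  have hA₀I : A₀ ∈ Icc A₀ Ap := ⟨le_rfl, hA.le⟩
  have hApI : Ap ∈ Icc A₀ Ap := ⟨hA.le, le_rfl⟩
  -- continuity of d
  have hdcont : ContinuousOn (fun p : ℝ × ℝ => d p.1 p.2) (Icc β₁ βt ×ˢ Icc A₀ Ap) := by
    simp only [hd, slopeF]
    exact (((hcont σ₄ hm4).sub (hcont σ₃ hm3)).div_const _).sub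
      (((hcont σ₂ hm2).sub (hcont σ₁ hm1)).div_const _)
  obtain ⟨βs, hβs, As, hAs, κ, hκ, hzero, hlow⟩ := selection d hc₀ h12 h2t hA hdcont
    (lt_of_le_of_ne (hnn β₁ hβ₁I A₀ hA₀I) fun h => hb1 (haff_of_zero β₁ hβ₁I A₀ hA₀I h.symm))
    (hzero_of_aff β₂ hβ₂I A₀ hA₀I hb2)
    (fun β hβ => hzero_of_aff β hβ Ap hApI (hb3 β hβ)) hnn
    (fun β hβ A₁ h₁ A₂ h₂ hlt hp => by
      have hna : ¬ AffineOnI (Φ β A₂) g₁ g₄ := fun h => by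
        rw [hzero_of_aff β hβ A₂ h₂ h] at hp
        exact lt_irrefl _ hp
      rw [hdeq β hβ A₁ h₁]
      exact hrate β hβ A₁ h₁ A₂ h₂ hlt hna)
  have hβsI : βs ∈ Icc β₁ βt := ⟨hβs.1.le, by linarith [hβs.2]⟩
  have hβst : βs < βt := by linarith [hβs.2]
  have hsubI : Ioo β₁ βt ⊆ Ioi 0 := fun β hβ => lt_trans h0 hβ.1
  -- some test point has a non-differentiable free energy
  have hnd : ∃ σ₀ ∈ Ioo g₁ g₄, ¬ DifferentiableAt ℝ (fun β => Φ β As σ₀) βs := by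
    by_contra hno
    push Not at hno
    have hdiff : DifferentiableAt ℝ (fun β => d β As) βs := by
      simp only [hd, slopeF]
      exact (((hno σ₄ hm4).sub (hno σ₃ hm3)).div_const _).sub
        (((hno σ₂ hm2).sub (hno σ₁ hm1)).div_const _)
    refine Select.not_differentiableAt_of_kink hκ hβs.1 hβst hzero (fun β hβ => ?_) (fun β hβ => ?_) hdiff
    · exact hlow β ⟨hβ.1.le, hβ.2⟩
    · exact hnn β ⟨by linarith [hβ.1, hβs.1], hβ.2.le⟩ As hAs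
  refine ⟨βs, hβs, As, hAs, fun ρ hρ => ?_⟩
  refine kink (fun β σ => Φ β As σ) hβs.1 hβst
    (fun σ hσ => (hconc As hAs σ hσ).subset hsubI (convex_Ioo _ _))
    (fun β hβ => (hconv β (hsubI hβ) As hAs).subset
      (fun x hx => lt_trans hg0 hx.1) (convex_Ioo _ _))
    ?_ hnd ρ hρ
  obtain ⟨μ, c, h⟩ := haff_of_zero βs hβsI As hAs hzero
  exact ⟨μ, c, fun σ hσ => h σ ⟨hσ.1.le, hσ.2.le⟩⟩

end Crest.Agent.TL
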