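import Crest.Prelude.Def_PairPotential

/-!
# The master multinomial identity for configuration integrals

`fib a q`, `emb a q`: the fibres of a labeling `a : Fin N → Q`, enumerated increasingly.
`split a`: a configuration `x : Fin N → α` is the same as a family of configurations of the fibres,
and this is measure preserving.  Consequences:

* `integral_label`: for one labeling, the integral of a product over the fibres is the product of
  the integrals;
* `sum_label_eq`: grouping labelings by their occupation numbers (multinomial count);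
* `master`: the sum over all labelings, divided by `N!`;
* `integral_cells`: the cell decomposition of a configuration integral.
-/

set_option autoImplicit false
set_option linter.unusedSectionVars false
set_option linter.unusedVariables false

namespace Crest.Agent.TL.Cells

open MeasureTheory Finset

section Labeling

variable {Q : Type*} [Fintype Q] [DecidableEq Q] {N : ℕ}

/-- Size of the fibre of the labeling `a` over `q`. -/
def fib (a : Fin N → Q) (q : Q) : ℕ := (univ.filter (fun i => a i = q)).card

/-- Increasing enumeration of the fibre of the labeling `a` over `q`. -/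
noncomputable def emb (a : Fin N → Q) (q : Q) : Fin (fib a q) ↪o Fin N :=
  (univ.filter (fun i => a i = q)).orderEmbOfFin rfl

omit [Fintype Q] in
lemma label_emb (a : Fin N → Q) (q : Q) (j : Fin (fib a q)) : a (emb a q j) = q := by
  exact (Finset.mem_filter.1 (Finset.orderEmbOfFin_mem (univ.filter (fun i => a i = q)) rfl j)).2

omit [Fintype Q] in
lemma exists_emb_eq (a : Fin N → Q) (i : Fin N) : ∃ j, emb a (a i) j = i := by
  have h : i ∈ (univ.filter (fun k => a k = a i)) := by simp
  have h2 : (i : Fin N) ∈ Set.range ((univ.filter (fun k => a k = a i)).orderEmbOfFin rfl) := by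
    rw [Finset.range_orderEmbOfFin]; exact_mod_cast h
  obtain ⟨j, hj⟩ := h2
  exact ⟨j, hj⟩

omit [Fintype Q] in
lemma exists_emb_eq' (a : Fin N → Q) (q : Q) (i : Fin N) (h : a i = q) : ∃ j, emb a q j = i := by
  subst h; exact exists_emb_eq a i

omit [Fintype Q] in
lemma emb_eq_iff {a : Fin N → Q} {q q' : Q} {j : Fin (fib a q)} {j' : Fin (fib a q')}
    (h : emb a q j = emb a q' j') : (⟨q, j⟩ : Σ q, Fin (fib a q)) = ⟨q', j'⟩ := by
  have hq : q = q' := by
    have h1 := label_emb a q j
    rw [h] at h1
    exact h1.symm.trans (label_emb a q' j')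
  subst hq
  have := (emb a q).injective h
  rw [this]

/-- The disjoint union of the fibres is `Fin N`. -/
noncomputable def sigmaEquiv (a : Fin N → Q) : (Σ q, Fin (fib a q)) ≃ Fin N :=
  Equiv.ofBijective (fun p => emb a p.1 p.2)
    ⟨fun _ _ h => emb_eq_iff h, fun i => by
      obtain ⟨j, hj⟩ := exists_emb_eq a i
      exact ⟨⟨a i, j⟩, hj⟩⟩

@[simp] lemma sigmaEquiv_apply (a : Fin N → Q) (p : Σ q, Fin (fib a q)) :
    sigmaEquiv a p = emb a p.1 p.2 := rfl

lemma sum_fib (a : Fin N → Q) : ∑ q, fib a q = N := by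
  have := Fintype.card_congr (sigmaEquiv a)
  simpa [Fintype.card_sigma] using this

variable {α : Type*} [MeasureSpace α] [SigmaFinite (volume : Measure α)]

/-- Splitting a configuration along a labeling. -/
noncomputable def split (a : Fin N → Q) : (Fin N → α) ≃ᵐ (∀ q, Fin (fib a q) → α) where
  toFun x q j := x (emb a q j)
  invFun y i := y ((sigmaEquiv a).symm i).1 ((sigmaEquiv a).symm i).2
  left_inv x := by
    funext i
    have : emb a ((sigmaEquiv a).symm i).1 ((sigmaEquiv a).symm i).2 = i :=
      (sigmaEquiv a).apply_symm_apply i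
    simp only [this]
  right_inv y := by
    funext q j
    have : (sigmaEquiv a).symm (emb a q j) = ⟨q, j⟩ := by
      rw [Equiv.symm_apply_eq]; rfl
    change (fun p : (Σ q, Fin (fib a q)) => y p.1 p.2) ((sigmaEquiv a).symm (emb a q j)) = y q j
    rw [this]
  measurable_toFun := by
    refine measurable_pi_lambda _ fun q => measurable_pi_lambda _ fun j => ?_
    exact measurable_pi_apply _
  measurable_invFun := by
    refine measurable_pi_lambda _ fun i => ?_
    exact (measurable_pi_apply ((sigmaEquiv a).symm i).2).comp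
      (measurable_pi_apply ((sigmaEquiv a).symm i).1)

omit [SigmaFinite (volume : Measure α)] in
@[simp] lemma split_apply (a : Fin N → Q) (x : Fin N → α) (q : Q) (j : Fin (fib a q)) :
    split a x q j = x (emb a q j) := rfl

omit [SigmaFinite (volume : Measure α)] in
lemma split_symm_emb (a : Fin N → Q) (y : ∀ q, Fin (fib a q) → α) (q : Q) (j : Fin (fib a q)) :
    (split a).symm y (emb a q j) = y q j := by
  have : split a ((split a).symm y) q j = y q j := by
    rw [MeasurableEquiv.apply_symm_apply]
  exact this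

lemma measurePreserving_split_symm (a : Fin N → Q) :
    MeasurePreserving (split (α := α) a).symm volume volume := by
  refine ⟨(split a).symm.measurable, ?_⟩
  symm
  refine Measure.pi_eq fun s hs => ?_
  rw [Measure.map_apply (split a).symm.measurable (MeasurableSet.univ_pi hs)]
  have hpre : (split a).symm ⁻¹' Set.pi Set.univ s =
      Set.pi Set.univ (fun q => Set.pi Set.univ (fun j : Fin (fib a q) => s (emb a q j))) := by
    ext y
    simp only [Set.mem_preimage, Set.mem_pi, Set.mem_univ, forall_true_left]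
    constructor
    · intro h q j
      have := h (emb a q j)
      rwa [split_symm_emb] at this
    · intro h i
      obtain ⟨j, hj⟩ := exists_emb_eq a i
      have := h (a i) j
      rw [← split_symm_emb a y] at this
      rwa [hj] at this
  rw [hpre]
  have h1 : (volume : Measure (∀ q, Fin (fib a q) → α))
      (Set.pi Set.univ (fun q => Set.pi Set.univ (fun j : Fin (fib a q) => s (emb a q j)))) =
      ∏ q, (volume : Measure (Fin (fib a q) → α))
        (Set.pi Set.univ (fun j : Fin (fib a q) => s (emb a q j))) := by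
    rw [volume_pi]; exact Measure.pi_pi _ _
  rw [h1]
  have h2 : ∀ q, (volume : Measure (Fin (fib a q) → α))
        (Set.pi Set.univ (fun j : Fin (fib a q) => s (emb a q j))) =
      ∏ j : Fin (fib a q), (volume : Measure α) (s (emb a q j)) := by
    intro q; rw [volume_pi]; exact Measure.pi_pi _ _
  simp_rw [h2]
  calc ∏ q, ∏ j : Fin (fib a q), (volume : Measure α) (s (emb a q j))
      = ∏ p : (Σ q, Fin (fib a q)), (volume : Measure α) (s (sigmaEquiv a p)) :=
        (Fintype.prod_sigma (fun p : (Σ q, Fin (fib a q)) =>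
          (volume : Measure α) (s (sigmaEquiv a p)))).symm
    _ = ∏ i, (volume : Measure α) (s i) :=
        (sigmaEquiv a).prod_comp (fun i => (volume : Measure α) (s i))

/-- For one labeling: the integral of a product over the fibres is the product of the integrals. -/
theorem integral_label (a : Fin N → Q) (F : ∀ q, (Fin (fib a q) → α) → ℝ) :
    ∫ x : Fin N → α, ∏ q, F q (fun j => x (emb a q j)) = ∏ q, ∫ y, F q y := by
  have h := (measurePreserving_split_symm (α := α) a).integral_comp'
    (g := fun x : Fin N → α => ∏ q, F q (fun j => x (emb a q j)))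
  rw [← h]
  simp only [split_symm_emb]
  have := integral_fintype_prod_eq_prod (ι := Q) (E := fun q => Fin (fib a q) → α) (𝕜 := ℝ)
    (μ := fun _ => volume) F
  exact this

/-- Restricted version: particles `i` lying in `S (a i)`. -/
theorem setIntegral_label (a : Fin N → Q) (S : Q → Set α) (hS : ∀ q, MeasurableSet (S q))
    (F : ∀ q, (Fin (fib a q) → α) → ℝ) :
    ∫ x in Set.pi Set.univ (fun i => S (a i)), ∏ q, F q (fun j => x (emb a q j)) =
      ∏ q, ∫ y in Set.pi Set.univ (fun _ : Fin (fib a q) => S q), F q y := by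
  have hm1 : MeasurableSet (Set.pi Set.univ (fun i => S (a i))) :=
    MeasurableSet.univ_pi fun i => hS _
  have hm2 : ∀ q, MeasurableSet (Set.pi Set.univ (fun _ : Fin (fib a q) => S q)) :=
    fun q => MeasurableSet.univ_pi fun _ => hS _
  simp_rw [← integral_indicator hm1, ← integral_indicator (hm2 _)]
  rw [← integral_label a]
  congr 1
  funext x
  by_cases hx : x ∈ Set.pi Set.univ (fun i => S (a i))
  · rw [Set.indicator_of_mem hx]
    refine Finset.prod_congr rfl fun q _ => ?_
    rw [Set.indicator_of_mem]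
    intro j _
    have h := hx (emb a q j) (Set.mem_univ _)
    change x (emb a q j) ∈ S (a (emb a q j)) at h
    rw [label_emb a q j] at h
    exact h
  · rw [Set.indicator_of_notMem hx]
    have : ∃ i, x i ∉ S (a i) := by
      by_contra hcon
      push Not at hcon
      exact hx fun i _ => hcon i
    obtain ⟨i, hi⟩ := this
    obtain ⟨j, hj⟩ := exists_emb_eq a i
    symm
    refine Finset.prod_eq_zero (Finset.mem_univ (a i)) ?_
    rw [Set.indicator_of_notMem]
    intro hmem
    apply hi
    have := hmem j (Set.mem_univ _)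
    simpa [hj] using this

end Labeling

section Count

variable {Q : Type*} [Fintype Q] [DecidableEq Q]

/-- Multinomial count of labelings, in generating polynomial form. -/
theorem sum_label_eq (I : Q → ℕ → ℝ) (N : ℕ) :
    ∑ a : Fin N → Q, ∏ q, I q (fib a q) =
      ∑ k ∈ piAntidiag (univ : Finset Q) N, (Nat.multinomial univ k : ℝ) * ∏ q, I q (k q) := by
  classical
  -- the linear functional on polynomials
  let L : MvPolynomial Q ℝ →ₗ[ℝ] ℝ :=
    (MvPolynomial.basisMonomials Q ℝ).constr ℝ (fun m : Q →₀ ℕ => ∏ q, I q (m q))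
  have hL : ∀ k : Q → ℕ, L (∏ q, MvPolynomial.X q ^ k q) = ∏ q, I q (k q) := by
    intro k
    have h1 : (∏ q, (MvPolynomial.X q : MvPolynomial Q ℝ) ^ k q) =
        MvPolynomial.basisMonomials Q ℝ (Finsupp.equivFunOnFinite.symm k) := by
      rw [MvPolynomial.coe_basisMonomials]
      change _ = MvPolynomial.monomial (Finsupp.equivFunOnFinite.symm k) (1 : ℝ)
      rw [← MvPolynomial.prod_X_pow_eq_monomial]
      simp only [Finsupp.equivFunOnFinite_symm_apply_apply]
      symm
      apply Finset.prod_subset (Finset.subset_univ _)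
      intro q _ hq
      simp only [Finsupp.mem_support_iff, ne_eq, not_not] at hq
      have : k q = 0 := by simpa using hq
      simp [this]
    rw [h1]
    simp only [L, Module.Basis.constr_basis]
    simp
  have hpow : ((∑ q, (MvPolynomial.X q : MvPolynomial Q ℝ)) ^ N) =
      ∑ a : Fin N → Q, ∏ q, (MvPolynomial.X q : MvPolynomial Q ℝ) ^ fib a q := by
    have h1 : (∑ q, (MvPolynomial.X q : MvPolynomial Q ℝ)) ^ N =
        ∏ _i : Fin N, ∑ q, (MvPolynomial.X q : MvPolynomial Q ℝ) := by simp
    rw [h1, Finset.prod_univ_sum]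
    simp only [Fintype.piFinset_univ]
    refine Finset.sum_congr rfl fun a _ => ?_
    have h2 := Finset.prod_comp (s := (univ : Finset (Fin N)))
      (f := fun q => (MvPolynomial.X q : MvPolynomial Q ℝ)) (g := a)
    rw [h2]
    apply Finset.prod_subset (Finset.subset_univ _)
    intro q _ hq
    have : (univ.filter (fun i => a i = q)) = ∅ := by
      apply Finset.filter_eq_empty_iff.2
      intro i _ hi
      exact hq (by simp [← hi])
    simp [this]
  have hmult := Finset.sum_pow_eq_sum_piAntidiag (univ : Finset Q)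
    (fun q => (MvPolynomial.X q : MvPolynomial Q ℝ)) N
  have := congrArg L (hpow.symm.trans hmult)
  simp only [map_sum, hL] at this
  rw [this]
  refine Finset.sum_congr rfl fun k _ => ?_
  have h3 : ((Nat.multinomial univ k : ℕ) : MvPolynomial Q ℝ) *
      ∏ q, (MvPolynomial.X q : MvPolynomial Q ℝ) ^ k q =
      (Nat.multinomial univ k : ℝ) • ∏ q, (MvPolynomial.X q : MvPolynomial Q ℝ) ^ k q := by
    rw [Nat.cast_smul_eq_nsmul, nsmul_eq_mul]
  rw [h3, map_smul, hL, smul_eq_mul]

omit [DecidableEq Q] in
/-- `N!⁻¹ · multinomial = ∏ (k q)!⁻¹` when `∑ k q = N`. -/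
lemma inv_factorial_mul_multinomial (k : Q → ℕ) (N : ℕ) (hk : ∑ q, k q = N) :
    (1 / (N.factorial : ℝ)) * (Nat.multinomial univ k : ℝ) =
      ∏ q, (1 / ((k q).factorial : ℝ)) := by
  have hspec := Nat.multinomial_spec (univ : Finset Q) k
  rw [hk] at hspec
  have hN : ((N.factorial : ℕ) : ℝ) ≠ 0 := by positivity
  have hP : ((∏ q, (k q).factorial : ℕ) : ℝ) ≠ 0 := by
    rw [Nat.cast_prod]
    exact Finset.prod_ne_zero_iff.2 fun q _ => by positivity
  have h : ((∏ q, (k q).factorial : ℕ) : ℝ) * (Nat.multinomial univ k : ℝ) = N.factorial := by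
    exact_mod_cast hspec
  rw [Finset.prod_div_distrib]
  simp only [Finset.prod_const_one]
  rw [← Nat.cast_prod]
  field_simp
  linarith

end Count

section Master

variable {Q : Type*} [Fintype Q] [DecidableEq Q] {N : ℕ}
variable {α : Type*} [MeasureSpace α] [SigmaFinite (volume : Measure α)]

/-- **Master identity.** `S q` are measurable (not necessarily disjoint) sets, `H q k` arbitrary
functions of configurations of `k` particles. The sum over all labelings of the integral of the
product over the fibres, with the particles labelled `q` in `S q`, is the multinomial sum of the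
products of the integrals, all with the Gibbs factor `1/N!`. -/
theorem master (S : Q → Set α) (hS : ∀ q, MeasurableSet (S q))
    (H : ∀ (_ : Q) (k : ℕ), (Fin k → α) → ℝ) :
    (1 / (N.factorial : ℝ)) * ∑ a : Fin N → Q,
        ∫ x in Set.pi Set.univ (fun i => S (a i)), ∏ q, H q (fib a q) (fun j => x (emb a q j)) =
      ∑ k ∈ piAntidiag (univ : Finset Q) N,
        ∏ q, ((1 / ((k q).factorial : ℝ)) *
          ∫ y in Set.pi Set.univ (fun _ : Fin (k q) => S q), H q (k q) y) := by
  have h1 : ∀ a : Fin N → Q,
      ∫ x in Set.pi Set.univ (fun i => S (a i)), ∏ q, H q (fib a q) (fun j => x (emb a q j)) =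
      ∏ q, (fun q k => ∫ y in Set.pi Set.univ (fun _ : Fin k => S q), H q k y) q (fib a q) :=
    fun a => setIntegral_label a S hS (fun q => H q (fib a q))
  simp_rw [h1]
  rw [sum_label_eq (fun q k => ∫ y in Set.pi Set.univ (fun _ : Fin k => S q), H q k y),
    Finset.mul_sum]
  refine Finset.sum_congr rfl fun k hk => ?_
  have hk' : ∑ q, k q = N := (Finset.mem_piAntidiag.1 hk).1
  rw [← mul_assoc, inv_factorial_mul_multinomial k N hk', Finset.prod_mul_distrib]

end Master

section CellDecomp

variable {Q : Type*} [Fintype Q] [DecidableEq Q] {N : ℕ}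
variable {α : Type*} [MeasureSpace α] [SigmaFinite (volume : Measure α)]

/-- The set of configurations in `D` whose cell labels are exactly `a`. -/
def box (D : Set α) (c : α → Q) (a : Fin N → Q) : Set (Fin N → α) :=
  Set.pi Set.univ (fun i => D ∩ c ⁻¹' {a i})

omit [Fintype Q] [DecidableEq Q] [SigmaFinite (volume : Measure α)] in
lemma mem_box_iff {D : Set α} {c : α → Q} {a : Fin N → Q} {x : Fin N → α} :
    x ∈ box D c a ↔ (∀ i, x i ∈ D) ∧ (fun i => c (x i)) = a := by
  simp only [box, Set.mem_pi, Set.mem_univ, forall_true_left, Set.mem_inter_iff, Set.mem_preimage,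
    Set.mem_singleton_iff, funext_iff]
  exact forall_and

omit [Fintype Q] [DecidableEq Q] [SigmaFinite (volume : Measure α)] in
lemma measurableSet_box {D : Set α} (hD : MeasurableSet D) {c : α → Q}
    (hc : ∀ q, MeasurableSet (c ⁻¹' {q})) (a : Fin N → Q) : MeasurableSet (box D c a) :=
  MeasurableSet.univ_pi fun i => hD.inter (hc _)

omit [DecidableEq Q] [SigmaFinite (volume : Measure α)] in
lemma iUnion_box (D : Set α) (c : α → Q) :
    (⋃ a : Fin N → Q, box D c a) = Set.pi Set.univ (fun _ : Fin N => D) := by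
  ext x
  simp only [Set.mem_iUnion, mem_box_iff, Set.mem_pi, Set.mem_univ, forall_true_left]
  exact ⟨fun ⟨_, h, _⟩ => h, fun h => ⟨_, h, rfl⟩⟩

omit [Fintype Q] [DecidableEq Q] [SigmaFinite (volume : Measure α)] in
lemma pairwise_disjoint_box (D : Set α) (c : α → Q) :
    Pairwise (Function.onFun Disjoint (box D c : (Fin N → Q) → Set (Fin N → α))) := by
  intro a b hab
  refine Set.disjoint_left.2 fun x hxa hxb => hab ?_
  rw [mem_box_iff] at hxa hxb
  exact hxa.2.symm.trans hxb.2

/-- Integrability over a box of a product along the labeling. -/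
theorem integrableOn_box (a : Fin N → Q) (S : Q → Set α) (hS : ∀ q, MeasurableSet (S q))
    (F : ∀ q, (Fin (fib a q) → α) → ℝ)
    (hF : ∀ q, IntegrableOn (F q) (Set.pi Set.univ (fun _ : Fin (fib a q) => S q))) :
    IntegrableOn (fun x : Fin N → α => ∏ q, F q (fun j => x (emb a q j)))
      (Set.pi Set.univ (fun i => S (a i))) := by
  have hm1 : MeasurableSet (Set.pi Set.univ (fun i => S (a i))) :=
    MeasurableSet.univ_pi fun i => hS _
  have hm2 : ∀ q, MeasurableSet (Set.pi Set.univ (fun _ : Fin (fib a q) => S q)) :=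
    fun q => MeasurableSet.univ_pi fun _ => hS _
  rw [← integrable_indicator_iff hm1]
  have h1 : Integrable (fun y : ∀ q, Fin (fib a q) → α => ∏ q,
      (Set.pi Set.univ (fun _ : Fin (fib a q) => S q)).indicator (F q) (y q))
      (Measure.pi fun _ => volume) :=
    Integrable.fintype_prod_dep (fun q => (integrable_indicator_iff (hm2 q)).2 (hF q))
  have h2 : MeasurePreserving (split (α := α) a) volume volume :=
    (measurePreserving_split_symm (α := α) a).symm (split a).symm
  have h3 := (h2.integrable_comp_emb (split a).measurableEmbedding).2 h1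
  refine h3.congr (Filter.Eventually.of_forall fun x => ?_)
  simp only [Function.comp]
  by_cases hx : x ∈ Set.pi Set.univ (fun i => S (a i))
  · rw [Set.indicator_of_mem hx]
    refine Finset.prod_congr rfl fun q _ => ?_
    rw [Set.indicator_of_mem]
    · rfl
    intro j _
    have h := hx (emb a q j) (Set.mem_univ _)
    change x (emb a q j) ∈ S (a (emb a q j)) at h
    rw [label_emb a q j] at h
    exact h
  · rw [Set.indicator_of_notMem hx]
    have : ∃ i, x i ∉ S (a i) := by
      by_contra hcon
      push Not at hcon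
      exact hx fun i _ => hcon i
    obtain ⟨i, hi⟩ := this
    obtain ⟨j, hj⟩ := exists_emb_eq a i
    refine Finset.prod_eq_zero (Finset.mem_univ (a i)) ?_
    rw [Set.indicator_of_notMem]
    intro hmem
    apply hi
    have := hmem j (Set.mem_univ _)
    simpa [← hj, split_apply] using this

/-- **Cell decomposition.** `c : α → Q` assigns a cell to each point. If the integrand `G` agrees on
the configurations with cell labels `a` with the product along the fibres of `a` of functions
`H q k`, then the integral of `G` over `D^N` with Gibbs factor is the multinomial sum. -/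
theorem integral_cells (D : Set α) (hD : MeasurableSet D) (c : α → Q)
    (hc : ∀ q, MeasurableSet (c ⁻¹' {q}))
    (H : ∀ (_ : Q) (k : ℕ), (Fin k → α) → ℝ)
    (hH : ∀ q k, IntegrableOn (H q k) (Set.pi Set.univ (fun _ : Fin k => D ∩ c ⁻¹' {q})))
    (G : (Fin N → α) → ℝ)
    (hG : ∀ a : Fin N → Q, ∀ x ∈ box D c a, G x = ∏ q, H q (fib a q) (fun j => x (emb a q j))) :
    IntegrableOn G (Set.pi Set.univ (fun _ : Fin N => D)) ∧
    (1 / (N.factorial : ℝ)) * ∫ x in Set.pi Set.univ (fun _ : Fin N => D), G x =
      ∑ k ∈ piAntidiag (univ : Finset Q) N,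
        ∏ q, ((1 / ((k q).factorial : ℝ)) *
          ∫ y in Set.pi Set.univ (fun _ : Fin (k q) => D ∩ c ⁻¹' {q}), H q (k q) y) := by
  have hmS : ∀ q, MeasurableSet (D ∩ c ⁻¹' {q}) := fun q => hD.inter (hc q)
  have hint : ∀ a : Fin N → Q, IntegrableOn G (box D c a) := by
    intro a
    have h1 := integrableOn_box a (fun q => D ∩ c ⁻¹' {q}) hmS (fun q => H q (fib a q))
      (fun q => hH q (fib a q))
    exact h1.congr_fun (fun x hx => (hG a x hx).symm) (measurableSet_box hD hc a)
  have hU := iUnion_box (N := N) D c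
  constructor
  · rw [← hU]
    exact integrableOn_finite_iUnion.2 hint
  · rw [← hU, integral_iUnion_fintype (measurableSet_box hD hc) (pairwise_disjoint_box D c) hint,
      ← master (fun q => D ∩ c ⁻¹' {q}) hmS H]
    congr 1
    refine Finset.sum_congr rfl fun a _ => ?_
    exact setIntegral_congr_fun (measurableSet_box hD hc a) (fun x hx => hG a x hx)

end CellDecomp

section Gibbs

open Crest.ProbabilityR.Continuum

variable {Q : Type*} [Fintype Q] [DecidableEq Q] {N : ℕ}

/-- Interaction energy of the pairs with equal labels. -/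
noncomputable def sameEnergy (φ : ℝ → ℝ) (a : Fin N → Q) (x : Fin N → Pt) : ℝ :=
  ∑ p : {p : Fin N × Fin N // p.1 < p.2},
    if a p.1.1 = a p.1.2 then φ (dist (x p.1.1) (x p.1.2)) else 0

/-- Interaction energy of the pairs with different labels. -/
noncomputable def crossEnergy (φ : ℝ → ℝ) (a : Fin N → Q) (x : Fin N → Pt) : ℝ :=
  ∑ p : {p : Fin N × Fin N // p.1 < p.2},
    if a p.1.1 = a p.1.2 then 0 else φ (dist (x p.1.1) (x p.1.2))

omit [Fintype Q] in
lemma energy_eq_same_add_cross (φ : ℝ → ℝ) (a : Fin N → Q) (x : Fin N → Pt) :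
    energy φ x = sameEnergy φ a x + crossEnergy φ a x := by
  simp only [energy, sameEnergy, crossEnergy, ← Finset.sum_add_distrib]
  refine Finset.sum_congr rfl fun p _ => ?_
  split_ifs <;> simp

/-- The energy of the equal-label pairs is the sum of the energies of the fibres. -/
theorem sum_energy_fibre (φ : ℝ → ℝ) (a : Fin N → Q) (x : Fin N → Pt) :
    ∑ q, energy φ (fun j => x (emb a q j)) = sameEnergy φ a x := by
  classical
  -- left side: sum over the sigma type of triples `(q, j<j')`
  simp only [energy, sameEnergy]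
  rw [← Fintype.sum_sigma' (fun (q : Q) (p : {p : Fin (fib a q) × Fin (fib a q) // p.1 < p.2}) =>
    φ (dist (x (emb a q p.1.1)) (x (emb a q p.1.2))))]
  -- right side: only pairs with equal labels
  have hR : (∑ p : {p : Fin N × Fin N // p.1 < p.2},
      if a p.1.1 = a p.1.2 then φ (dist (x p.1.1) (x p.1.2)) else 0) =
      ∑ p : {p : {p : Fin N × Fin N // p.1 < p.2} // a p.1.1 = a p.1.2},
        φ (dist (x p.1.1.1) (x p.1.1.2)) := by
    rw [← Finset.sum_filter]
    exact Finset.sum_subtype _ (by simp) _
  rw [hR]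
  refine Fintype.sum_bijective
    (fun t : (Σ q, {p : Fin (fib a q) × Fin (fib a q) // p.1 < p.2}) =>
      (⟨⟨(emb a t.1 t.2.1.1, emb a t.1 t.2.1.2),
          (emb a t.1).strictMono t.2.2⟩,
        by simp only [label_emb]⟩ :
        {p : {p : Fin N × Fin N // p.1 < p.2} // a p.1.1 = a p.1.2})) ?_ _ _ (fun t => rfl)
  constructor
  · rintro ⟨q, ⟨⟨j1, j2⟩, h⟩⟩ ⟨q', ⟨⟨j1', j2'⟩, h'⟩⟩ heq
    simp only [Subtype.mk.injEq, Prod.mk.injEq] at heq
    have h1 := emb_eq_iff heq.1
    have hq : q = q' := congrArg Sigma.fst h1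
    subst hq
    have hj1 : j1 = j1' := (emb a q).injective heq.1
    have hj2 : j2 = j2' := (emb a q).injective heq.2
    subst hj1; subst hj2
    rfl
  · rintro ⟨⟨⟨i1, i2⟩, hlt⟩, hlab⟩
    simp only at hlab hlt
    obtain ⟨j1, hj1⟩ := exists_emb_eq a i1
    obtain ⟨j2, hj2⟩ := exists_emb_eq' a (a i1) i2 hlab.symm
    have hj : j1 < j2 := by
      rw [← (emb a (a i1)).lt_iff_lt, hj1, hj2]
      exact hlt
    refine ⟨⟨a i1, ⟨(j1, j2), hj⟩⟩, ?_⟩
    simp only [hj1, hj2]

/-- Generalised partition function on a set `S`. -/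
noncomputable def partitionOn (φ : ℝ → ℝ) (S : Set Pt) (k : ℕ) (β : ℝ) : ℝ :=
  (1 / (Nat.factorial k : ℝ)) *
    ∫ y in Set.pi Set.univ (fun _ : Fin k => S), Real.exp (-β * energy φ y)

lemma partitionOn_cube (φ : ℝ → ℝ) (L : ℝ) (k : ℕ) (β : ℝ) :
    partitionOn φ (cube L) k β = partitionFn φ L k β := rfl

lemma partitionOn_nonneg (φ : ℝ → ℝ) (S : Set Pt) (k : ℕ) (β : ℝ) :
    0 ≤ partitionOn φ S k β :=
  mul_nonneg (by positivity) (integral_nonneg fun _ => (Real.exp_pos _).le)

lemma measurable_energy {φ : ℝ → ℝ} (hφ : Measurable φ) (k : ℕ) :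
    Measurable (fun y : Fin k → Pt => energy φ y) := by
  unfold energy
  refine Finset.measurable_sum _ fun p _ => hφ.comp ?_
  exact (measurable_pi_apply _).dist (measurable_pi_apply _)

/-- Boltzmann factors of a measurable stable potential are integrable on sets of finite measure. -/
lemma integrableOn_gibbs {φ : ℝ → ℝ} (hφ : Measurable φ) {B : ℝ}
    (hst : ∀ (k : ℕ) (y : Fin k → Pt), -B * k ≤ energy φ y) {β : ℝ} (hβ : 0 ≤ β)
    {S : Set Pt} (hS : volume S ≠ ⊤) (k : ℕ) :
    IntegrableOn (fun y : Fin k → Pt => Real.exp (-β * energy φ y))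
      (Set.pi Set.univ (fun _ : Fin k => S)) := by
  have hfin : volume (Set.pi Set.univ (fun _ : Fin k => S)) < ⊤ := by
    rw [volume_pi, Measure.pi_pi]
    exact ENNReal.prod_lt_top fun _ _ => lt_top_iff_ne_top.2 hS
  refine Measure.integrableOn_of_bounded (M := Real.exp (β * (B * k))) hfin.ne ?_ ?_
  · exact (Real.measurable_exp.comp ((measurable_energy hφ k).const_mul (-β))).aestronglyMeasurable
  · refine Filter.Eventually.of_forall fun y => ?_
    rw [Real.norm_eq_abs, abs_of_pos (Real.exp_pos _)]
    apply Real.exp_le_exp.2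
    have := hst k y
    nlinarith

/-- **Tilted cell decomposition**, exact form. -/
theorem tilt_eq {φ : ℝ → ℝ} (hφ : Measurable φ) {B : ℝ}
    (hst : ∀ (k : ℕ) (y : Fin k → Pt), -B * k ≤ energy φ y) {β : ℝ} (hβ : 0 ≤ β)
    {D : Set Pt} (hD : MeasurableSet D) (hDf : volume D ≠ ⊤) (c : Pt → Q)
    (hc : ∀ q, MeasurableSet (c ⁻¹' {q})) (t : Q → ℕ → ℝ) :
    (1 / (N.factorial : ℝ)) * ∫ x in Set.pi Set.univ (fun _ : Fin N => D),
        Real.exp (-β * sameEnergy φ (fun i => c (x i)) x +
          ∑ q, t q (fib (fun i => c (x i)) q)) =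
      ∑ k ∈ piAntidiag (univ : Finset Q) N,
        ∏ q, (Real.exp (t q (k q)) * partitionOn φ (D ∩ c ⁻¹' {q}) (k q) β) := by
  have hH : ∀ q k, IntegrableOn (fun y : Fin k → Pt => Real.exp (t q k) * Real.exp (-β * energy φ y))
      (Set.pi Set.univ (fun _ : Fin k => D ∩ c ⁻¹' {q})) := fun q k =>
    (integrableOn_gibbs hφ hst hβ
      (ne_top_of_le_ne_top hDf (measure_mono Set.inter_subset_left)) k).const_mul _
  have h := (integral_cells (N := N) D hD c hc
    (fun q k y => Real.exp (t q k) * Real.exp (-β * energy φ y)) hH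
    (fun x => Real.exp (-β * sameEnergy φ (fun i => c (x i)) x +
          ∑ q, t q (fib (fun i => c (x i)) q))) ?_).2
  · rw [h]
    refine Finset.sum_congr rfl fun k _ => Finset.prod_congr rfl fun q _ => ?_
    rw [integral_const_mul, partitionOn]
    ring
  · intro a x hx
    have hca : (fun i => c (x i)) = a := (mem_box_iff.1 hx).2
    rw [hca, ← sum_energy_fibre, Finset.mul_sum, ← Finset.sum_add_distrib, Real.exp_sum,
      ]
    refine Finset.prod_congr rfl fun q _ => ?_
    rw [← Real.exp_add]
    ring_nf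

omit [DecidableEq Q] in
/-- Crude bound of the sum over occupation numbers by the product of the sums. -/
lemma sum_piAntidiag_le_prod (b : Q → ℕ → ℝ) (hb : ∀ q j, 0 ≤ b q j) (N : ℕ) [DecidableEq Q] :
    ∑ k ∈ piAntidiag (univ : Finset Q) N, ∏ q, b q (k q) ≤
      ∏ q, ∑ j ∈ Finset.range (N + 1), b q j := by
  rw [Finset.prod_univ_sum]
  refine Finset.sum_le_sum_of_subset_of_nonneg ?_ fun k _ _ => Finset.prod_nonneg fun q _ => hb q _
  intro k hk
  rw [Fintype.mem_piFinset]
  intro q
  have h1 : ∑ q, k q = N := (Finset.mem_piAntidiag.1 hk).1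
  have h2 : k q ≤ ∑ q, k q := Finset.single_le_sum (fun _ _ => Nat.zero_le _) (Finset.mem_univ q)
  exact Finset.mem_range.2 (by omega)

lemma energy_add_const (φ : ℝ → ℝ) {k : ℕ} (y : Fin k → Pt) (v : Pt) :
    energy φ (fun i => y i + v) = energy φ y := by
  simp [energy, dist_add_right]

lemma partitionOn_translate (φ : ℝ → ℝ) (S : Set Pt) (hS : MeasurableSet S) (v : Pt) (k : ℕ)
    (β : ℝ) : partitionOn φ ((fun x => x + v) ⁻¹' S) k β = partitionOn φ S k β := by
  unfold partitionOn
  congr 1
  have hmp : MeasurePreserving (fun y : Fin k → Pt => y + (fun _ => v)) volume volume :=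
    measurePreserving_add_right _ _
  have hemb : MeasurableEmbedding (fun y : Fin k → Pt => y + (fun _ => v)) :=
    (MeasurableEquiv.addRight (fun _ : Fin k => v)).measurableEmbedding
  have h := hmp.setIntegral_preimage_emb hemb
    (fun y : Fin k → Pt => Real.exp (-β * energy φ y)) (Set.pi Set.univ (fun _ : Fin k => S))
  rw [← h]
  have hpre : (fun y : Fin k → Pt => y + (fun _ => v)) ⁻¹' (Set.pi Set.univ (fun _ : Fin k => S)) =
      Set.pi Set.univ (fun _ : Fin k => (fun x => x + v) ⁻¹' S) := by
    ext y; simp [Set.mem_pi]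
  rw [hpre]
  refine setIntegral_congr_fun (MeasurableSet.univ_pi fun _ => hS.preimage (measurable_add_const v))
    fun y _ => ?_
  have : energy φ (y + fun _ => v) = energy φ y := energy_add_const φ y v
  simp only [this]

lemma partitionOn_mono {φ : ℝ → ℝ} (hφ : Measurable φ) {B : ℝ}
    (hst : ∀ (k : ℕ) (y : Fin k → Pt), -B * k ≤ energy φ y) {β : ℝ} (hβ : 0 ≤ β)
    {S T : Set Pt} (hST : S ⊆ T) (hT : MeasurableSet T) (hTf : volume T ≠ ⊤) (k : ℕ) :
    partitionOn φ S k β ≤ partitionOn φ T k β := by
  unfold partitionOn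
  refine mul_le_mul_of_nonneg_left ?_ (by positivity)
  refine setIntegral_mono_set (integrableOn_gibbs hφ hst hβ hTf k)
    (Filter.Eventually.of_forall fun _ => (Real.exp_pos _).le) ?_
  exact (Set.pi_mono fun _ _ => hST).eventuallyLE

lemma measurableSet_cube (L : ℝ) : MeasurableSet (cube L) := by
  have : cube L = ⋂ k : Fin 3, ({x : Pt | 0 ≤ x k} ∩ {x : Pt | x k ≤ L}) := by
    ext x; simp [cube]
  rw [this]
  refine MeasurableSet.iInter fun k => ?_
  have hc : Continuous (fun x : Pt => x k) := by fun_prop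
  exact (isClosed_le continuous_const hc).measurableSet.inter
    (isClosed_le hc continuous_const).measurableSet

lemma volume_cube_ne_top (L : ℝ) : volume (cube L) ≠ ⊤ := by
  have hb : Bornology.IsBounded (cube L) := by
    refine (Metric.isBounded_closedBall (x := (0 : Pt)) (r := 2 * |L|)).subset fun x hx => ?_
    rw [mem_closedBall_zero_iff, EuclideanSpace.norm_eq]
    have h1 : ∀ k : Fin 3, ‖x k‖ ^ 2 ≤ L ^ 2 := by
      intro k
      rw [Real.norm_eq_abs, sq_abs]
      have := hx k
      nlinarith [this.1, this.2]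
    have h2 : ∑ k : Fin 3, ‖x k‖ ^ 2 ≤ (2 * |L|) ^ 2 := by
      calc ∑ k : Fin 3, ‖x k‖ ^ 2 ≤ ∑ _k : Fin 3, L ^ 2 := Finset.sum_le_sum fun k _ => h1 k
        _ = 3 * L ^ 2 := by simp
        _ ≤ (2 * |L|) ^ 2 := by rw [mul_pow, sq_abs]; nlinarith [sq_nonneg L]
    exact Real.sqrt_le_iff.2 ⟨by positivity, h2⟩
  exact hb.measure_lt_top.ne

/-- A partition function on a measurable subset of a translate of the cube is at most the partition
function of the cube. -/
lemma partitionOn_le_partitionFn {φ : ℝ → ℝ} (hφ : Measurable φ) {B : ℝ}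
    (hst : ∀ (k : ℕ) (y : Fin k → Pt), -B * k ≤ energy φ y) {β : ℝ} (hβ : 0 ≤ β)
    {S : Set Pt} (hS : MeasurableSet S) {v : Pt} {ℓ : ℝ} (hv : ∀ x ∈ S, x + v ∈ cube ℓ) (k : ℕ) :
    partitionOn φ S k β ≤ partitionFn φ ℓ k β := by
  have h1 : S ⊆ (fun x => x + v) ⁻¹' cube ℓ := fun x hx => hv x hx
  have hm : MeasurableSet ((fun x : Pt => x + v) ⁻¹' cube ℓ) :=
    (measurableSet_cube ℓ).preimage (measurable_add_const v)
  have hvol : volume ((fun x : Pt => x + v) ⁻¹' cube ℓ) ≠ ⊤ := by
    rw [measure_preimage_add_right]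
    exact volume_cube_ne_top ℓ
  calc partitionOn φ S k β ≤ partitionOn φ ((fun x => x + v) ⁻¹' cube ℓ) k β :=
        partitionOn_mono hφ hst hβ h1 hm hvol k
    _ = partitionFn φ ℓ k β := by
        rw [partitionOn_translate φ _ (measurableSet_cube ℓ), partitionOn_cube]

/-- **Tilt lemma.** If every cell lies in a translate of the cube of side `ℓ`, the tilted integral
is at most the `|Q|`-th power of the one-cell tilted sum. -/
theorem tilt_le_pow {φ : ℝ → ℝ} (hφ : Measurable φ) {B : ℝ}
    (hst : ∀ (k : ℕ) (y : Fin k → Pt), -B * k ≤ energy φ y) {β : ℝ} (hβ : 0 ≤ β)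
    {D : Set Pt} (hD : MeasurableSet D) (hDf : volume D ≠ ⊤) (c : Pt → Q)
    (hc : ∀ q, MeasurableSet (c ⁻¹' {q})) {ℓ : ℝ}
    (hcell : ∀ q, ∃ v : Pt, ∀ x ∈ D ∩ c ⁻¹' {q}, x + v ∈ cube ℓ) (t : ℕ → ℝ) :
    (1 / (N.factorial : ℝ)) * ∫ x in Set.pi Set.univ (fun _ : Fin N => D),
        Real.exp (-β * sameEnergy φ (fun i => c (x i)) x +
          ∑ q, t (fib (fun i => c (x i)) q)) ≤
      (∑ j ∈ Finset.range (N + 1), Real.exp (t j) * partitionFn φ ℓ j β) ^ Fintype.card Q := by
  rw [tilt_eq hφ hst hβ hD hDf c hc (fun _ => t)]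
  calc _ ≤ ∏ q : Q, ∑ j ∈ Finset.range (N + 1),
          Real.exp (t j) * partitionOn φ (D ∩ c ⁻¹' {q}) j β :=
        sum_piAntidiag_le_prod (fun q j => Real.exp (t j) * partitionOn φ (D ∩ c ⁻¹' {q}) j β)
          (fun q j => mul_nonneg (Real.exp_pos _).le (partitionOn_nonneg _ _ _ _)) N
    _ ≤ ∏ _q : Q, ∑ j ∈ Finset.range (N + 1), Real.exp (t j) * partitionFn φ ℓ j β := by
        refine Finset.prod_le_prod
          (fun q _ => Finset.sum_nonneg fun j _ =>
            mul_nonneg (Real.exp_pos _).le (partitionOn_nonneg _ _ _ _)) fun q _ => ?_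
        obtain ⟨v, hv⟩ := hcell q
        refine Finset.sum_le_sum fun j _ => mul_le_mul_of_nonneg_left ?_ (Real.exp_pos _).le
        exact partitionOn_le_partitionFn hφ hst hβ (hD.inter (hc q)) hv j
    _ = _ := by simp [Finset.card_univ]

end Gibbs

end Crest.Agent.TL.Cells
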