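import Crest.Agent.TL.Gauss
import Crest.Agent.TL.Cells

/-!
# Module U4 of the S0209/S0210 blueprint: comparison of `A₁ < A₂`

`w = ∑_j a_j g(R_j, ·)`, `φ_A = s - A w`.  Free energies `F_A(σ) = -lim log Z(φ_A, L, ⌊σL³⌋, β)/L³`:

* (`u4a`, `hCS`) `F_{A₁}(σ) ≥ F_{A₂}(σ) + (1/2)β(A₂-A₁)(Γσ²-w(0)σ)`, from the Cauchy-Schwarz bound of `Gauss`;
* (`u4b`, `hU4`) if, under `φ_{A₂}`, a measurable set of configurations with few pairs in the same cell of a
  grid carries at least half of the partition function, then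
  `F_{A₁}(ρ) ≤ F_{A₂}(ρ) + (1/2)β(A₂-A₁)Γ̂(ρ²+e)`, from the row bound of `Gauss`.
-/

set_option autoImplicit false

namespace Crest.Agent.TL.U4

open Real MeasureTheory Filter Topology
open Crest.ProbabilityR.Continuum Crest.Agent.TL.Gauss Crest.Agent.TL.Cells

/-- Coefficients of a Gaussian series. -/
structure Series (a R : ℕ → ℝ) (R0 : ℝ) : Prop where
  R0_pos : 0 < R0
  a_nonneg : ∀ j, 0 ≤ a j
  summable : Summable a
  R_ge : ∀ j, R0 ≤ R j

/-- The series `w = ∑_j a_j g(R_j, ·)`. -/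
noncomputable def w (a R : ℕ → ℝ) (r : ℝ) : ℝ := ∑' j, a j * g (R j) r

/-- `φ_A = s - A w`. -/
noncomputable def phi (s : ℝ → ℝ) (a R : ℕ → ℝ) (A : ℝ) (r : ℝ) : ℝ := s r - A * w a R r

/-- `Γ = ∑_j a_j`. -/
noncomputable def Gam (a : ℕ → ℝ) : ℝ := ∑' j, a j

/-- `Γ̂ = ∑_j a_j (1+2h/R_j)³`. -/
noncomputable def GamHat (a R : ℕ → ℝ) (h : ℝ) : ℝ := ∑' j, a j * (1 + 2 * h / R j) ^ 3

/-- `Γ_T = ∑_j a_j θ(R_j,T)⁶`. -/
noncomputable def GamT (a R : ℕ → ℝ) (T : ℝ) : ℝ := ∑' j, a j * θ (R j) T ^ 6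

variable {a R : ℕ → ℝ} {R0 : ℝ}

namespace Series

lemma R_pos (H : Series a R R0) (j : ℕ) : 0 < R j := lt_of_lt_of_le H.R0_pos (H.R_ge j)

/-- A bound for all the Gaussians. -/
lemma g_le (H : Series a R R0) (j : ℕ) (r : ℝ) : g (R j) r ≤ ((√(2 * π) * R0)⁻¹) ^ 3 := by
  refine (g_le_zero (H.R_pos j) r).trans ?_
  rw [g_zero]
  have h0 : 0 < √(2 * π) * R0 := mul_pos (by positivity) H.R0_pos
  have h1 : √(2 * π) * R0 ≤ √(2 * π) * R j :=
    mul_le_mul_of_nonneg_left (H.R_ge j) (by positivity)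
  have h2 : 0 < √(2 * π) * R j := mul_pos (by positivity) (H.R_pos j)
  exact pow_le_pow_left₀ (inv_pos.2 h2).le (inv_anti₀ h0 h1) 3

lemma summable_term (H : Series a R R0) (r : ℝ) : Summable fun j => a j * g (R j) r := by
  refine Summable.of_nonneg_of_le (fun j => mul_nonneg (H.a_nonneg j) (g_nonneg (H.R_pos j) r))
    (fun j => mul_le_mul_of_nonneg_left (H.g_le j r) (H.a_nonneg j))
    (H.summable.mul_right _)

lemma w_nonneg (H : Series a R R0) (r : ℝ) : 0 ≤ w a R r :=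
  tsum_nonneg fun j => mul_nonneg (H.a_nonneg j) (g_nonneg (H.R_pos j) r)

lemma measurable_w (H : Series a R R0) : Measurable (w a R) := by
  unfold w
  -- a pointwise limit of measurable functions
  have hlim : ∀ r, Tendsto (fun n : ℕ => ∑ j ∈ Finset.range n, a j * g (R j) r) atTop
      (𝓝 (∑' j, a j * g (R j) r)) := fun r => (H.summable_term r).hasSum.tendsto_sum_nat
  refine measurable_of_tendsto_metrizable (f := fun n r => ∑ j ∈ Finset.range n, a j * g (R j) r)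
    (fun n => ?_) (tendsto_pi_nhds.2 hlim)
  exact Finset.measurable_sum _ fun j _ => (continuous_g.measurable).const_mul _

lemma summable_hat (H : Series a R R0) {h : ℝ} (hh : 0 ≤ h) :
    Summable fun j => a j * (1 + 2 * h / R j) ^ 3 := by
  refine Summable.of_nonneg_of_le
    (fun j => mul_nonneg (H.a_nonneg j) (by have := H.R_pos j; positivity))
    (fun j => mul_le_mul_of_nonneg_left ?_ (H.a_nonneg j))
    (H.summable.mul_right ((1 + 2 * h / R0) ^ 3))
  have hj := H.R_pos j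
  have h1 : 2 * h / R j ≤ 2 * h / R0 :=
    div_le_div_of_nonneg_left (by positivity) H.R0_pos (H.R_ge j)
  exact pow_le_pow_left₀ (by positivity) (by linarith) 3

lemma summable_theta (H : Series a R R0) {T : ℝ} (hT : 0 ≤ T) :
    Summable fun j => a j * θ (R j) T ^ 6 := by
  refine Summable.of_nonneg_of_le
    (fun j => mul_nonneg (H.a_nonneg j) (pow_nonneg (θ_nonneg (H.R_pos j) hT) 6))
    (fun j => ?_) H.summable
  have h1 := pow_le_one₀ (n := 6) (θ_nonneg (H.R_pos j) hT) (θ_le_one (H.R_pos j) hT)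
  have h2 := H.a_nonneg j
  nlinarith

/-- `Γ_T → Γ`. -/
lemma tendsto_GamT (H : Series a R R0) : Tendsto (GamT a R) atTop (𝓝 (Gam a)) := by
  unfold GamT Gam
  refine tendsto_tsum_of_dominated_convergence (bound := a) H.summable ?_ ?_
  · intro j
    have h := ((θ_tendsto (H.R_pos j)).pow 6).const_mul (a j)
    simpa using h
  · filter_upwards [eventually_ge_atTop (0 : ℝ)] with T hT j
    have h0 := θ_nonneg (H.R_pos j) hT
    have h1 := pow_le_one₀ (n := 6) h0 (θ_le_one (H.R_pos j) hT)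
    rw [Real.norm_eq_abs, abs_of_nonneg (mul_nonneg (H.a_nonneg j) (pow_nonneg h0 6))]
    have h2 := H.a_nonneg j
    nlinarith

/-- The energy of the series is the series of the energies. -/
lemma energy_w (H : Series a R R0) {N : ℕ} (x : Fin N → Pt) :
    energy (w a R) x = ∑' j, a j * energy (g (R j)) x := by
  unfold energy w
  rw [← Summable.tsum_finsetSum (fun p _ => H.summable_term _)]
  refine tsum_congr fun j => ?_
  rw [Finset.mul_sum]

lemma summable_energy (H : Series a R R0) {N : ℕ} (x : Fin N → Pt) :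
    Summable fun j => a j * energy (g (R j)) x := by
  unfold energy
  have : ∀ j, a j * ∑ p : {p : Fin N × Fin N // p.1 < p.2}, g (R j) (dist (x p.1.1) (x p.1.2)) =
      ∑ p : {p : Fin N × Fin N // p.1 < p.2}, a j * g (R j) (dist (x p.1.1) (x p.1.2)) :=
    fun j => Finset.mul_sum _ _ _
  simp only [this]
  exact summable_sum fun p _ => H.summable_term _

/-- Lower bound for the energy of the series. -/
theorem energy_w_ge (H : Series a R R0) {N : ℕ} {T L : ℝ} (hT : 0 < T) (hL : 0 ≤ L)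
    (x : Fin N → Pt) (hx : ∀ i, x i ∈ cube L) :
    (1 / 2) * ((N : ℝ) ^ 2 * GamT a R T / (L + 2 * T) ^ 3) - (1 / 2) * (N * w a R 0) ≤
      energy (w a R) x := by
  rw [H.energy_w]
  have hsum1 := H.summable_theta (T := T) hT.le
  have hsum2 := H.summable_term 0
  have key : (1 / 2) * ((N : ℝ) ^ 2 * GamT a R T / (L + 2 * T) ^ 3) - (1 / 2) * (N * w a R 0) =
      ∑' j, a j * ((1 / 2) * ((N : ℝ) ^ 2 * θ (R j) T ^ 6 / (L + 2 * T) ^ 3) -
        (1 / 2) * (N * g (R j) 0)) := by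
    have e : ∀ j, a j * ((1 / 2) * ((N : ℝ) ^ 2 * θ (R j) T ^ 6 / (L + 2 * T) ^ 3) -
        (1 / 2) * (N * g (R j) 0)) =
        ((1 / 2) * ((N : ℝ) ^ 2 / (L + 2 * T) ^ 3)) * (a j * θ (R j) T ^ 6) -
          ((1 / 2) * N) * (a j * g (R j) 0) := fun j => by ring
    simp only [e]
    rw [(hsum1.mul_left _).tsum_sub (hsum2.mul_left _), tsum_mul_left, tsum_mul_left]
    unfold GamT w
    ring
  rw [key]
  refine Summable.tsum_le_tsum (fun j => mul_le_mul_of_nonneg_left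
    (cs (H.R_pos j) hT hL x hx) (H.a_nonneg j)) ?_ (H.summable_energy x)
  have e : ∀ j, a j * ((1 / 2) * ((N : ℝ) ^ 2 * θ (R j) T ^ 6 / (L + 2 * T) ^ 3) -
      (1 / 2) * (N * g (R j) 0)) =
      ((1 / 2) * ((N : ℝ) ^ 2 / (L + 2 * T) ^ 3)) * (a j * θ (R j) T ^ 6) -
        ((1 / 2) * N) * (a j * g (R j) 0) := fun j => by ring
  simp only [e]
  exact (hsum1.mul_left _).sub (hsum2.mul_left _)

/-- Upper bound for the energy of the series. -/
theorem energy_w_le (H : Series a R R0) {N : ℕ} {h : ℝ} (hh : 0 < h) (τ : Fin 3 → ℝ)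
    (x : Fin N → Pt) :
    energy (w a R) x ≤ (1 / 2) * GamHat a R h * ((sameCell h τ x : ℝ) / h ^ 3) := by
  rw [H.energy_w]
  have hs := H.summable_hat hh.le
  have e : (1 / 2) * GamHat a R h * ((sameCell h τ x : ℝ) / h ^ 3) =
      ∑' j, a j * ((1 / 2) * (1 + 2 * h / R j) ^ 3 * ((sameCell h τ x : ℝ) / h ^ 3)) := by
    unfold GamHat
    rw [← tsum_mul_left, ← tsum_mul_right]
    refine tsum_congr fun j => ?_
    ring
  rw [e]
  refine Summable.tsum_le_tsum (fun j => mul_le_mul_of_nonneg_left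
    (row (H.R_pos j) hh τ x) (H.a_nonneg j)) (H.summable_energy x) ?_
  have e2 : ∀ j, a j * ((1 / 2) * (1 + 2 * h / R j) ^ 3 * ((sameCell h τ x : ℝ) / h ^ 3)) =
      (a j * (1 + 2 * h / R j) ^ 3) * ((1 / 2) * ((sameCell h τ x : ℝ) / h ^ 3)) := fun j => by ring
  simp only [e2]
  exact hs.mul_right _

end Series

/-! ### Energy of `φ_A` -/

lemma energy_phi (s : ℝ → ℝ) (a R : ℕ → ℝ) (A : ℝ) {N : ℕ} (x : Fin N → Pt) :
    energy (phi s a R A) x = energy s x - A * energy (w a R) x := by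
  unfold energy phi
  rw [Finset.sum_sub_distrib, Finset.mul_sum]

lemma energy_w_nonneg (H : Series a R R0) {N : ℕ} (x : Fin N → Pt) : 0 ≤ energy (w a R) x :=
  Finset.sum_nonneg fun _ _ => H.w_nonneg _

lemma measurable_phi (H : Series a R R0) {s : ℝ → ℝ} (hs : Measurable s) (A : ℝ) :
    Measurable (phi s a R A) :=
  hs.sub (H.measurable_w.const_mul A)

/-- Stability passes from `A₂` to `A₁ ≤ A₂`. -/
lemma stable_anti (H : Series a R R0) {s : ℝ → ℝ} {A1 A2 B : ℝ} (hA : A1 ≤ A2)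
    (hst : ∀ (k : ℕ) (y : Fin k → Pt), -B * k ≤ energy (phi s a R A2) y)
    (k : ℕ) (y : Fin k → Pt) : -B * k ≤ energy (phi s a R A1) y := by
  have h := hst k y
  rw [energy_phi] at h ⊢
  have := energy_w_nonneg H y
  nlinarith

/-! ### Positivity of the partition function -/

lemma volume_cube_pos {L : ℝ} (hL : 0 < L) : 0 < volume (cube L) := by
  have hball : Metric.ball (WithLp.toLp 2 (fun _ : Fin 3 => L / 2) : Pt) (L / 2) ⊆ cube L := by
    intro y hy k
    have hy' : dist y (WithLp.toLp 2 (fun _ : Fin 3 => L / 2) : Pt) < L / 2 := hy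
    have h1 : |y k - L / 2| ≤ dist y (WithLp.toLp 2 (fun _ : Fin 3 => L / 2) : Pt) := by
      have h := PiLp.norm_apply_le (y - (WithLp.toLp 2 (fun _ : Fin 3 => L / 2) : Pt)) k
      simpa [dist_eq_norm, Real.norm_eq_abs] using h
    have h2 := abs_lt.1 (lt_of_le_of_lt h1 hy')
    constructor <;> linarith [h2.1, h2.2]
  exact lt_of_lt_of_le (Metric.measure_ball_pos volume _ (by positivity)) (measure_mono hball)

/-- Partition functions of measurable stable potentials are positive. -/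
theorem partitionFn_pos {φ : ℝ → ℝ} (hφ : Measurable φ) {B : ℝ}
    (hst : ∀ (k : ℕ) (y : Fin k → Pt), -B * k ≤ energy φ y) {β : ℝ} (hβ : 0 ≤ β)
    {L : ℝ} (hL : 0 < L) (N : ℕ) : 0 < partitionFn φ L N β := by
  unfold partitionFn
  refine mul_pos (by positivity) ?_
  have hint := integrableOn_gibbs hφ hst hβ (volume_cube_ne_top L) N
  rw [setIntegral_pos_iff_support_of_nonneg_ae
    (Eventually.of_forall fun _ => (Real.exp_pos _).le) hint]
  have hsupp : Function.support (fun x : Fin N → Pt => Real.exp (-β * energy φ x)) = Set.univ := by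
    ext x; simp [Function.mem_support, (Real.exp_pos _).ne']
  rw [hsupp, Set.univ_inter, volume_pi, Measure.pi_pi]
  exact CanonicallyOrderedAdd.prod_pos.2 fun _ _ => volume_cube_pos hL

/-! ### Comparison of partition functions -/

/-- If `E₂ + c ≤ E₁` on the box, then `Z₁ ≤ e^{-βc} Z₂`. -/
lemma partitionFn_le {φ1 φ2 : ℝ → ℝ} (hφ1 : Measurable φ1) (hφ2 : Measurable φ2) {B : ℝ}
    (hst1 : ∀ (k : ℕ) (y : Fin k → Pt), -B * k ≤ energy φ1 y)
    (hst2 : ∀ (k : ℕ) (y : Fin k → Pt), -B * k ≤ energy φ2 y) {β : ℝ} (hβ : 0 ≤ β)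
    (L : ℝ) (N : ℕ) (c : ℝ)
    (h : ∀ x : Fin N → Pt, (∀ i, x i ∈ cube L) → energy φ2 x + c ≤ energy φ1 x) :
    partitionFn φ1 L N β ≤ Real.exp (-β * c) * partitionFn φ2 L N β := by
  unfold partitionFn
  rw [mul_left_comm]
  refine mul_le_mul_of_nonneg_left ?_ (by positivity)
  rw [← integral_const_mul]
  have hm : MeasurableSet (Set.pi Set.univ fun _ : Fin N => cube L) :=
    MeasurableSet.univ_pi fun _ => measurableSet_cube L
  refine setIntegral_mono_on (integrableOn_gibbs hφ1 hst1 hβ (volume_cube_ne_top L) N)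
    ((integrableOn_gibbs hφ2 hst2 hβ (volume_cube_ne_top L) N).const_mul _) hm ?_
  intro x hx
  rw [← Real.exp_add]
  apply Real.exp_le_exp.2
  have := h x fun i => (Set.mem_univ_pi.1 hx) i
  nlinarith

/-- Restriction to a good set: if `E₁ ≤ E₂ + c` on `G`, then `e^{-βc} (1/N!) ∫_{box∩G} e^{-βE₂} ≤ Z₁`. -/
lemma le_partitionFn_of_good {φ1 φ2 : ℝ → ℝ} (hφ1 : Measurable φ1) (hφ2 : Measurable φ2) {B : ℝ}
    (hst1 : ∀ (k : ℕ) (y : Fin k → Pt), -B * k ≤ energy φ1 y)
    (hst2 : ∀ (k : ℕ) (y : Fin k → Pt), -B * k ≤ energy φ2 y) {β : ℝ} (hβ : 0 ≤ β)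
    (L : ℝ) (N : ℕ) (c : ℝ) {G : Set (Fin N → Pt)} (hG : MeasurableSet G)
    (h : ∀ x ∈ G, energy φ1 x ≤ energy φ2 x + c) :
    Real.exp (-β * c) * ((1 / (N.factorial : ℝ)) *
        ∫ x in (Set.pi Set.univ fun _ : Fin N => cube L) ∩ G, Real.exp (-β * energy φ2 x)) ≤
      partitionFn φ1 L N β := by
  unfold partitionFn
  rw [mul_left_comm]
  refine mul_le_mul_of_nonneg_left ?_ (by positivity)
  rw [← integral_const_mul]
  have hm : MeasurableSet (Set.pi Set.univ fun _ : Fin N => cube L) :=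
    MeasurableSet.univ_pi fun _ => measurableSet_cube L
  have hi1 := integrableOn_gibbs hφ1 hst1 hβ (volume_cube_ne_top L) N
  have hi2 := integrableOn_gibbs hφ2 hst2 hβ (volume_cube_ne_top L) N
  calc ∫ x in (Set.pi Set.univ fun _ : Fin N => cube L) ∩ G,
        Real.exp (-β * c) * Real.exp (-β * energy φ2 x)
      ≤ ∫ x in (Set.pi Set.univ fun _ : Fin N => cube L) ∩ G, Real.exp (-β * energy φ1 x) := by
        have hi2' : IntegrableOn (fun x : Fin N → Pt =>
            Real.exp (-β * c) * Real.exp (-β * energy φ2 x))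
            (Set.pi Set.univ fun _ : Fin N => cube L) := hi2.const_mul _
        refine setIntegral_mono_on (hi2'.mono_set Set.inter_subset_left)
          (hi1.mono_set Set.inter_subset_left) (hm.inter hG) ?_
        intro x hx
        rw [← Real.exp_add]
        apply Real.exp_le_exp.2
        have := h x hx.2
        nlinarith
    _ ≤ ∫ x in Set.pi Set.univ fun _ : Fin N => cube L, Real.exp (-β * energy φ1 x) :=
        setIntegral_mono_set hi1 (Eventually.of_forall fun _ => (Real.exp_pos _).le)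
          (Set.inter_subset_left (s := Set.pi Set.univ fun _ : Fin N => cube L) (t := G)).eventuallyLE

/-! ### `N/L³ → σ` -/

lemma tendsto_floor_div {σ : ℝ} (hσ : 0 ≤ σ) :
    Tendsto (fun L : ℝ => (⌊σ * L ^ 3⌋₊ : ℝ) / L ^ 3) atTop (𝓝 σ) := by
  have h3 : Tendsto (fun L : ℝ => L ^ 3) atTop atTop := tendsto_pow_atTop (by norm_num)
  have h := tendsto_nat_floor_mul_div_atTop (R := ℝ) (a := σ) hσ
  exact h.comp h3

lemma tendsto_ratio (T : ℝ) : Tendsto (fun L : ℝ => (L / (L + 2 * T)) ^ 3) atTop (𝓝 1) := by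
  have h1 : Tendsto (fun L : ℝ => L / (L + 2 * T)) atTop (𝓝 1) := by
    have h2 : Tendsto (fun L : ℝ => (1 + 2 * T * L⁻¹)⁻¹) atTop (𝓝 ((1 + 2 * T * 0)⁻¹)) := by
      refine Tendsto.inv₀ ?_ (by norm_num)
      exact tendsto_const_nhds.add (tendsto_inv_atTop_zero.const_mul _)
    have e : (1 + 2 * T * (0 : ℝ))⁻¹ = 1 := by norm_num
    rw [e] at h2
    refine h2.congr' ?_
    filter_upwards [eventually_gt_atTop (0 : ℝ), eventually_gt_atTop (-(2 * T))] with L hL hL2
    have : L + 2 * T ≠ 0 := by linarith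
    field_simp
  simpa using h1.pow 3

/-! ### The two comparison theorems -/

/-- **(U4a = hCS)**  In terms of `H = lim log Z/L³ = -F`:
`H₁ + (1/2)β(A₂-A₁)(Γσ²-w(0)σ) ≤ H₂`. -/
theorem u4a (H : Series a R R0) {s : ℝ → ℝ} (hs : Measurable s) {A1 A2 β σ B H1 H2 : ℝ}
    (hA : A1 ≤ A2) (hβ : 0 ≤ β) (hσ : 0 ≤ σ)
    (hst : ∀ (k : ℕ) (y : Fin k → Pt), -B * k ≤ energy (phi s a R A2) y)
    (h1 : Tendsto (fun L : ℝ => Real.log (partitionFn (phi s a R A1) L ⌊σ * L ^ 3⌋₊ β) / L ^ 3)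
      atTop (𝓝 H1))
    (h2 : Tendsto (fun L : ℝ => Real.log (partitionFn (phi s a R A2) L ⌊σ * L ^ 3⌋₊ β) / L ^ 3)
      atTop (𝓝 H2)) :
    H1 + (1 / 2) * β * (A2 - A1) * (Gam a * σ ^ 2 - w a R 0 * σ) ≤ H2 := by
  have hst1 := stable_anti H hA hst
  have hm1 := measurable_phi H hs A1
  have hm2 := measurable_phi H hs A2
  have hK : 0 ≤ β * (A2 - A1) := mul_nonneg hβ (by linarith)
  -- fixed `T`
  have key : ∀ T : ℝ, 0 < T →
      H1 + β * (A2 - A1) * ((1 / 2) * (σ ^ 2 * GamT a R T) - (1 / 2) * (σ * w a R 0)) ≤ H2 := by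
    intro T hT
    set K := β * (A2 - A1) with hKdef
    have hfl := tendsto_floor_div hσ
    have hlim : Tendsto (fun L : ℝ => Real.log (partitionFn (phi s a R A1) L ⌊σ * L ^ 3⌋₊ β) / L ^ 3
        + K * ((1 / 2) * ((((⌊σ * L ^ 3⌋₊ : ℝ) / L ^ 3) ^ 2 * GamT a R T) * (L / (L + 2 * T)) ^ 3)
          - (1 / 2) * (((⌊σ * L ^ 3⌋₊ : ℝ) / L ^ 3) * w a R 0))) atTop
        (𝓝 (H1 + K * ((1 / 2) * ((σ ^ 2 * GamT a R T) * 1) - (1 / 2) * (σ * w a R 0)))) := by
      refine h1.add (Tendsto.const_mul _ (Tendsto.sub (Tendsto.const_mul _ ?_)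
        (Tendsto.const_mul _ (hfl.mul_const _))))
      exact ((hfl.pow 2).mul_const _).mul (tendsto_ratio T)
    have hle : H1 + K * ((1 / 2) * ((σ ^ 2 * GamT a R T) * 1) - (1 / 2) * (σ * w a R 0)) ≤ H2 := by
      refine le_of_tendsto_of_tendsto hlim h2 ?_
      filter_upwards [eventually_gt_atTop (0 : ℝ)] with L hL
      set N := ⌊σ * L ^ 3⌋₊ with hN
      have hL3 : 0 < L ^ 3 := by positivity
      have hLT : 0 < L + 2 * T := by linarith
      have hZ1 := partitionFn_pos hm1 hst1 hβ hL N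
      have hZ2 := partitionFn_pos hm2 hst hβ hL N
      have hcmp := partitionFn_le hm1 hm2 hst1 hst hβ L N
        ((A2 - A1) * ((1 / 2) * ((N : ℝ) ^ 2 * GamT a R T / (L + 2 * T) ^ 3)
          - (1 / 2) * (N * w a R 0))) (by
            intro x hx
            have h3 := H.energy_w_ge hT hL.le x hx
            have e1 := energy_phi s a R A1 x
            have e2 := energy_phi s a R A2 x
            have hA' : 0 ≤ A2 - A1 := by linarith
            have := mul_le_mul_of_nonneg_left h3 hA'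
            rw [e1, e2]
            nlinarith)
      have hlog := Real.log_le_log hZ1 hcmp
      rw [Real.log_mul (Real.exp_pos _).ne' hZ2.ne', Real.log_exp] at hlog
      have e : (K * ((1 / 2) * ((((N : ℝ) / L ^ 3) ^ 2 * GamT a R T) * (L / (L + 2 * T)) ^ 3)
            - (1 / 2) * (((N : ℝ) / L ^ 3) * w a R 0))) =
          K * ((1 / 2) * ((N : ℝ) ^ 2 * GamT a R T / (L + 2 * T) ^ 3)
            - (1 / 2) * (N * w a R 0)) / L ^ 3 := by
        field_simp
      rw [e, ← add_div]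
      refine div_le_div_of_nonneg_right ?_ hL3.le
      rw [hKdef]
      nlinarith
    simpa using hle
  -- `T → ∞`
  have hlim : Tendsto (fun T : ℝ => H1 + β * (A2 - A1) *
      ((1 / 2) * (σ ^ 2 * GamT a R T) - (1 / 2) * (σ * w a R 0))) atTop
      (𝓝 (H1 + β * (A2 - A1) * ((1 / 2) * (σ ^ 2 * Gam a) - (1 / 2) * (σ * w a R 0)))) := by
    refine tendsto_const_nhds.add (Tendsto.const_mul _ (Tendsto.sub ?_ tendsto_const_nhds))
    exact Tendsto.const_mul _ (Tendsto.const_mul _ H.tendsto_GamT)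
  have hfin : H1 + β * (A2 - A1) * ((1 / 2) * (σ ^ 2 * Gam a) - (1 / 2) * (σ * w a R 0)) ≤ H2 := by
    refine le_of_tendsto hlim ?_
    filter_upwards [eventually_gt_atTop (0 : ℝ)] with T hT using key T hT
  calc H1 + (1 / 2) * β * (A2 - A1) * (Gam a * σ ^ 2 - w a R 0 * σ)
      = H1 + β * (A2 - A1) * ((1 / 2) * (σ ^ 2 * Gam a) - (1 / 2) * (σ * w a R 0)) := by ring
    _ ≤ H2 := hfin

/-- **(U4b = hU4)**  Suppose that for arbitrarily large `L` there is a measurable set `G` of configurations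
on which some grid of side `h` has at most `L³(ρ²+e)` normalised same-cell pairs, carrying half of the
partition function at `A₂`. Then `H₂ ≤ H₁ + (1/2)β(A₂-A₁)Γ̂(ρ²+e)`, that is
`F₁ ≤ F₂ + (1/2)β(A₂-A₁)Γ̂(ρ²+e)`. -/
theorem u4b (H : Series a R R0) {s : ℝ → ℝ} (hs : Measurable s) {A1 A2 β ρ e h B H1 H2 : ℝ}
    (hA : A1 ≤ A2) (hβ : 0 ≤ β) (hh : 0 < h)
    (hst : ∀ (k : ℕ) (y : Fin k → Pt), -B * k ≤ energy (phi s a R A2) y)
    (h1 : Tendsto (fun L : ℝ => Real.log (partitionFn (phi s a R A1) L ⌊ρ * L ^ 3⌋₊ β) / L ^ 3)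
      atTop (𝓝 H1))
    (h2 : Tendsto (fun L : ℝ => Real.log (partitionFn (phi s a R A2) L ⌊ρ * L ^ 3⌋₊ β) / L ^ 3)
      atTop (𝓝 H2))
    (hC : ∃ᶠ L : ℝ in atTop, ∃ G : Set (Fin ⌊ρ * L ^ 3⌋₊ → Pt), MeasurableSet G ∧
      (∀ x ∈ G, ∃ τ : Fin 3 → ℝ, (sameCell h τ x : ℝ) / h ^ 3 ≤ L ^ 3 * (ρ ^ 2 + e)) ∧
      partitionFn (phi s a R A2) L ⌊ρ * L ^ 3⌋₊ β / 2 ≤
        (1 / ((⌊ρ * L ^ 3⌋₊).factorial : ℝ)) *
          ∫ x in (Set.pi Set.univ fun _ : Fin ⌊ρ * L ^ 3⌋₊ => cube L) ∩ G,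
            Real.exp (-β * energy (phi s a R A2) x)) :
    H2 ≤ H1 + (1 / 2) * β * (A2 - A1) * (GamHat a R h * (ρ ^ 2 + e)) := by
  have hst1 := stable_anti H hA hst
  have hm1 := measurable_phi H hs A1
  have hm2 := measurable_phi H hs A2
  have hA' : 0 ≤ A2 - A1 := by linarith
  have hΓ : 0 ≤ GamHat a R h :=
    tsum_nonneg fun j => mul_nonneg (H.a_nonneg j) (by have := H.R_pos j; positivity)
  set K := (1 / 2) * β * (A2 - A1) * (GamHat a R h * (ρ ^ 2 + e)) with hK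
  have hl2 : Tendsto (fun L : ℝ => Real.log 2 / L ^ 3) atTop (𝓝 0) :=
    (tendsto_pow_atTop (by norm_num)).const_div_atTop _
  have hlim : Tendsto (fun L : ℝ => Real.log (partitionFn (phi s a R A2) L ⌊ρ * L ^ 3⌋₊ β) / L ^ 3
      - Real.log 2 / L ^ 3) atTop (𝓝 (H2 - 0)) := h2.sub hl2
  have hfreq : ∃ᶠ L : ℝ in atTop,
      Real.log (partitionFn (phi s a R A2) L ⌊ρ * L ^ 3⌋₊ β) / L ^ 3 - Real.log 2 / L ^ 3 ≤
        Real.log (partitionFn (phi s a R A1) L ⌊ρ * L ^ 3⌋₊ β) / L ^ 3 + K := by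
    refine (hC.and_eventually (eventually_gt_atTop (0 : ℝ))).mono ?_
    rintro L ⟨⟨G, hG, hcell, hhalf⟩, hL⟩
    set N := ⌊ρ * L ^ 3⌋₊ with hN
    have hL3 : 0 < L ^ 3 := by positivity
    have hZ1 := partitionFn_pos hm1 hst1 hβ hL N
    have hZ2 := partitionFn_pos hm2 hst hβ hL N
    set c : ℝ := (A2 - A1) * ((1 / 2) * GamHat a R h * (L ^ 3 * (ρ ^ 2 + e))) with hc
    have hgood := le_partitionFn_of_good hm1 hm2 hst1 hst hβ L N c hG (by
      intro x hx
      obtain ⟨τ, hτ⟩ := hcell x hx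
      have h3 := H.energy_w_le hh τ x
      have h4 : (1 / 2) * GamHat a R h * ((sameCell h τ x : ℝ) / h ^ 3) ≤
          (1 / 2) * GamHat a R h * (L ^ 3 * (ρ ^ 2 + e)) :=
        mul_le_mul_of_nonneg_left hτ (by positivity)
      have h5 := mul_le_mul_of_nonneg_left (h3.trans h4) hA'
      rw [energy_phi, energy_phi, hc]
      nlinarith)
    have hbd : Real.exp (-β * c) * (partitionFn (phi s a R A2) L N β / 2) ≤
        partitionFn (phi s a R A1) L N β :=
      (mul_le_mul_of_nonneg_left hhalf (Real.exp_pos _).le).trans hgood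
    have hlog := Real.log_le_log (mul_pos (Real.exp_pos _) (by positivity)) hbd
    rw [Real.log_mul (Real.exp_pos _).ne' (by positivity), Real.log_exp,
      Real.log_div hZ2.ne' (by norm_num)] at hlog
    have e1 : K = β * c / L ^ 3 := by
      rw [hK, hc]; field_simp
    rw [e1, ← sub_div, ← add_div]
    refine div_le_div_of_nonneg_right ?_ hL3.le
    nlinarith
  have h3 : H2 - 0 ≤ H1 + K := by
    have hR : Tendsto (fun L : ℝ =>
        Real.log (partitionFn (phi s a R A1) L ⌊ρ * L ^ 3⌋₊ β) / L ^ 3 + K) atTop (𝓝 (H1 + K)) :=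
      h1.add_const K
    exact le_of_tendsto_of_tendsto_of_frequently hlim hR hfreq
  simpa using h3

end Crest.Agent.TL.U4
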