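import Crest.Agent.TL.AsmFinal
import Crest.Agent.TL.SelectFull
import Crest.Agent.TL.U4

/-!
# Top level assembly: the chain, from named inputs to `MainStatement`.

`Inputs K0 e0 cr` bundles: the tolerances, the trial lower bounds, the level-0 upper bound (`Psi`),
the no-contact lemma and the concentration bound (`U4`), the B-c window.
-/

set_option autoImplicit false
set_option exponentiation.threshold 2000

namespace Crest.Agent.TL.Asm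

open Crest.ProbabilityR.Continuum Real Set Filter Topology
open Crest.Agent.TL.Gauss Crest.Agent.TL.Series Crest.Agent.TL.Potential
open Crest.Agent.TL.Num (A0 Ap Amax beta2 betaT g1 r2 Uof Tol ts td Psi yD bD yT bT tolE wW rhoC)
open Crest.Agent.TL.Selection (gap)

/-- Side of the level 0 cells. -/
noncomputable def ℓ0 (K0 e0 : ℕ) : ℝ := (ell K0 e0 0 : ℝ)
/-- `p̃`. -/
noncomputable def ptil (K0 e0 : ℕ) : ℝ := (packingNumber (ℓ0 K0 e0) : ℝ) / ℓ0 K0 e0 ^ 3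
/-- `Γ`. -/
noncomputable def Γt (K0 : ℕ) : ℝ := Series.Gam K0 0
/-- `Γ₀`. -/
noncomputable def Γ0 (K0 e0 : ℕ) : ℝ := Rate.GamL K0 e0 0
/-- `w(0)`. -/
noncomputable def w0 (K0 : ℕ) : ℝ := ww K0 0
/-- Density grid at level 0. -/
noncomputable def sg0 (K0 e0 : ℕ) (k : ℕ) : ℝ := (k : ℝ) / ℓ0 K0 e0 ^ 3

/-- The level 0 weight `a₀ k²/ℓ³ + log Z(s, cube ℓ, k, β)`. -/
noncomputable def Lev0 (K0 e0 : ℕ) (cr : ℝ → ℝ) (β A : ℝ) (k : ℕ) : ℝ :=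
  (1 / 2) * β * A * Γ0 K0 e0 * ((k : ℝ) ^ 2 / ℓ0 K0 e0 ^ 3) +
    Real.log (partitionFn (ss cr) (ℓ0 K0 e0) k β)

/-- Contact data of a line with `F(β,A,·)` at `ρ₀`, exposed on the right. -/
structure Contact (K0 : ℕ) (cr : ℝ → ℝ) (β A μ c ρ₀ : ℝ) : Prop where
  supp : ∀ σ, 0 < σ → μ * σ + c ≤ FF K0 cr β A σ
  touch : FF K0 cr β A ρ₀ = μ * ρ₀ + c
  right : ∀ σ, ρ₀ < σ → μ * σ + c < FF K0 cr β A σ

/-- The constants: an upper bound of `|F|` near the density window. -/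
noncomputable def Fm : ℝ := 2 ^ 120
/-- slope bound -/
noncomputable def Mμ : ℝ := 4 * Fm / g1
/-- intercept bound -/
noncomputable def cbar : ℝ := Fm + 16 * Mμ
/-- The maximal density: beyond it `F` is above every admissible line. -/
noncomputable def ρmax : ℝ := Real.exp (Mμ + 4 + beta2 * (U₂ / 2))

/-- The named inputs. -/
structure Inputs (K0 e0 : ℕ) (cr : ℝ → ℝ) (eE : ℝ) : Prop where
  hc : CoreOK cr
  hK : 1 ≤ K0
  tol : Tol pp (ptil K0 e0) (Γt K0) (Γ0 K0 e0) (w0 K0)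
  hatle : Rate.GamHat K0 e0 ≤ 1 + tolE
  Γt_le_hat : Γt K0 ≤ Rate.GamHat K0 e0
  eE_nonneg : 0 ≤ eE
  eE_le : eE ≤ 1 / 64
  /-- Trial lower bounds. -/
  trial1 : ∀ β A, 0 ≤ β → 0 ≤ A → A ≤ Amax → ts β A (Γt K0) (w0 K0) (0.9 * pp) 0.01 ≤
    Thermo.hFree (phiA K0 cr A) β (0.9 * pp)
  trial2 : ∀ β A, 0 ≤ β → 0 ≤ A → A ≤ Amax → ts β A (Γt K0) (w0 K0) (0.99 * pp) 0.001 ≤
    Thermo.hFree (phiA K0 cr A) β (0.99 * pp)
  trial3 : ∀ β A, 0 ≤ β → 0 ≤ A → A ≤ Amax → ts β A (Γt K0) (w0 K0) (yT pp) bT ≤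
    Thermo.hFree (phiA K0 cr A) β (yT pp)
  trialD : ∀ β A, 0 ≤ β → 0 ≤ A → A ≤ Amax → td β A (Γt K0) (w0 K0) Us (yD pp) bD ≤
    Thermo.hFree (phiA K0 cr A) β (yD pp)
  /-- Level 0 upper bound. -/
  psi : ∀ β A, 0 ≤ β → 0 ≤ A → ∀ n : ℕ, 1 ≤ n → ∀ k : ℕ,
    Lev0 K0 e0 cr β A n / ℓ0 K0 e0 ^ 3 ≤ Psi β A (Γ0 K0 e0) Us (ptil K0 e0) (sg0 K0 e0 n) k
  ℓ0_pos : 0 < ℓ0 K0 e0
  /-- No contact. -/
  nc : ∀ β A μ c ρ₀ b, 1 ≤ β → β ≤ beta2 → A0 ≤ A → A ≤ Ap → Contact K0 cr β A μ c ρ₀ →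
    g1 ≤ ρ₀ → ρ₀ + g1 ≤ ρmax → |μ| ≤ Mμ → -cbar ≤ c → c ≤ 0 → g1 / 2 ≤ b →
    (∀ k : ℕ, |sg0 K0 e0 k - ρ₀| < g1 / 2 →
      Lev0 K0 e0 cr β A k ≤ ℓ0 K0 e0 ^ 3 * (-(μ * sg0 K0 e0 k + c) - b)) → False
  /-- Concentration + row bound (`U4`). -/
  u4c : ∀ β A₁ A₂ μ c ρ₀, 1 ≤ β → β ≤ beta2 → A0 ≤ A₁ → A₁ < A₂ → A₂ ≤ Ap →
    Contact K0 cr β A₂ μ c ρ₀ → g1 ≤ ρ₀ → ρ₀ + g1 ≤ ρmax → |μ| ≤ Mμ → -cbar ≤ c → c ≤ 0 →
    FF K0 cr β A₁ ρ₀ ≤ FF K0 cr β A₂ ρ₀ +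
      (1 / 2) * β * (A₂ - A₁) * (Rate.GamHat K0 e0 * (ρ₀ ^ 2 + eE))
  /-- The B-c window. -/
  window : ∀ μ c ρ₀, Contact K0 cr 1 A0 μ c ρ₀ → c ≤ 0 → -(1 / 2 ^ 20) ≤ c → μ ≤ 0 →
    |μ| ≤ Mμ → ts 1 A0 (Γt K0) (w0 K0) (yT pp) bT ≤ -(μ * yT pp + c) →
    ∀ k : ℕ, 1.7 * pp ≤ sg0 K0 e0 k →
      Lev0 K0 e0 cr 1 A0 k ≤ ℓ0 K0 e0 ^ 3 * (-(μ * sg0 K0 e0 k + c) - 1 / 4)

section chain

variable {K0 e0 : ℕ} {cr : ℝ → ℝ} {eE : ℝ} (H : Inputs K0 e0 cr eE)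
include H

lemma Inputs.adm {A : ℝ} (hA : 0 ≤ A) (hA' : A ≤ Amax) : Thermo.Adm (phiA K0 cr A) (U₂ / 2) :=
  adm_phiA H.hc H.hK hA hA'

lemma Inputs.convex {β A : ℝ} (hβ : 0 ≤ β) (hA : 0 ≤ A) (hA' : A ≤ Amax) :
    ConvexOn ℝ (Ioi 0) (FF K0 cr β A) := by
  have := Thermo.hFree_concave (H.adm hA hA') hβ
  exact this.neg

lemma Inputs.c_nonpos {β A μ c : ℝ} (hβ : 0 ≤ β) (hA : 0 ≤ A) (hA' : A ≤ Amax)
    (hs : ∀ σ, 0 < σ → μ * σ + c ≤ FF K0 cr β A σ) : c ≤ 0 :=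
  Thermo.intercept_nonpos (H.adm hA hA') hβ hs


lemma Inputs.tol' : Tol pp (ptil K0 e0) (Γt K0) (Γ0 K0 e0) (w0 K0) := H.tol

end chain

/-! ### elementary facts -/

lemma pp_bounds : 1 ≤ pp ∧ pp ≤ 8 := ⟨pp_ge, pp_le⟩

lemma g1_le : g1 ≤ 1 / 2 ^ 90 := by unfold g1; norm_num

lemma yD_eq_bounds : 1.99 * pp ≤ yD pp ∧ yD pp ≤ 2 * pp := by
  have h1 := pp_ge
  unfold yD Num.eta0 A0
  have h2 : (2:ℝ) ^ (-27 : ℤ) / (8 * 2 ^ 50) ≤ 1 / 2 ^ 70 := by norm_num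
  have h3 : (0:ℝ) ≤ (2:ℝ) ^ (-27 : ℤ) / (8 * 2 ^ 50) := by positivity
  have h4 : (1:ℝ) / 2 ^ 70 ≤ 1 / 1000 := by norm_num
  constructor <;> nlinarith

lemma yT_bounds : 0.99 * pp ≤ yT pp ∧ yT pp ≤ pp := by
  have h1 := pp_ge
  unfold yT
  have h2 : (2:ℝ) ^ (-50 : ℤ) ≤ 1 / 1000 := by norm_num
  have h3 : (0:ℝ) ≤ (2:ℝ) ^ (-50 : ℤ) := by positivity
  constructor <;> nlinarith

/-- A line below a trial value at `y` lies below the chord from the origin, if `c ≤ 0`. -/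
lemma line_chord {μ c σ y t : ℝ} (hc : c ≤ 0) (hσ : 0 ≤ σ) (hσy : σ ≤ y) (hy : 0 < y)
    (h : μ * y + c ≤ -t) : (σ / y) * t ≤ -(μ * σ + c) := by
  have h1 : 0 ≤ σ / y := div_nonneg hσ hy.le
  have h2 : σ / y ≤ 1 := (div_le_one hy).2 hσy
  have h3 : μ * σ + c = (σ / y) * (μ * y + c) + (1 - σ / y) * c := by
    field_simp; ring
  have h4 : (σ / y) * (μ * y + c) ≤ (σ / y) * (-t) := mul_le_mul_of_nonneg_left h h1
  have h5 : (1 - σ / y) * c ≤ 0 := mul_nonpos_of_nonneg_of_nonpos (by linarith) hc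
  rw [h3]
  nlinarith

/-- A line below two trial values lies below their chord. -/
lemma line_chord2 {μ c σ y1 y2 t1 t2 : ℝ} (h12 : y1 < y2) (hσ1 : y1 ≤ σ) (hσ2 : σ ≤ y2)
    (h1 : μ * y1 + c ≤ -t1) (h2 : μ * y2 + c ≤ -t2) :
    t1 + (σ - y1) / (y2 - y1) * (t2 - t1) ≤ -(μ * σ + c) := by
  have hd : 0 < y2 - y1 := by linarith
  set a := (σ - y1) / (y2 - y1) with ha
  have ha0 : 0 ≤ a := div_nonneg (by linarith) hd.le
  have ha1 : a ≤ 1 := (div_le_one hd).2 (by linarith)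
  have e : σ = y1 + a * (y2 - y1) := by rw [ha]; field_simp; ring
  have h3 : (1 - a) * (μ * y1 + c) ≤ (1 - a) * (-t1) := mul_le_mul_of_nonneg_left h1 (by linarith)
  have h4 : a * (μ * y2 + c) ≤ a * (-t2) := mul_le_mul_of_nonneg_left h2 ha0
  rw [e]
  nlinarith

/-- Concave through the origin. -/
lemma hFree_chord {φ : ℝ → ℝ} {B β σ y : ℝ} (h : Thermo.Adm φ B) (hβ : 0 ≤ β) (hσ : 0 < σ)
    (hσy : σ ≤ y) : (σ / y) * Thermo.hFree φ β y ≤ Thermo.hFree φ β σ := by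
  have hy : 0 < y := by linarith
  rcases eq_or_lt_of_le hσy with rfl | hlt
  · rw [div_self hy.ne', one_mul]
  have hc := Thermo.hFree_concave h hβ
  have h0 := Thermo.tendsto_hFree_zero h hβ
  -- the lower bound at `ε`
  have key : ∀ ε, 0 < ε → ε < σ →
      (1 - (σ - ε) / (y - ε)) * Thermo.hFree φ β ε + ((σ - ε) / (y - ε)) * Thermo.hFree φ β y
        ≤ Thermo.hFree φ β σ := by
    intro ε h1 h2
    have hd : 0 < y - ε := by linarith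
    have ht0 : 0 ≤ (σ - ε) / (y - ε) := div_nonneg (by linarith) hd.le
    have ht1 : (σ - ε) / (y - ε) ≤ 1 := (div_le_one hd).2 (by linarith)
    have := hc.2 (show ε ∈ Ioi (0:ℝ) from h1) (show y ∈ Ioi (0:ℝ) from hy)
      (show 0 ≤ 1 - (σ - ε) / (y - ε) by linarith) ht0 (by ring)
    simp only [smul_eq_mul] at this
    have e : (1 - (σ - ε) / (y - ε)) * ε + (σ - ε) / (y - ε) * y = σ := by field_simp; ring
    rwa [e] at this
  have hlim1 : Tendsto (fun ε : ℝ => (σ - ε) / (y - ε)) (𝓝[>] 0) (𝓝 (σ / y)) := by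
    have : ContinuousAt (fun ε : ℝ => (σ - ε) / (y - ε)) 0 := by
      apply ContinuousAt.div (by fun_prop) (by fun_prop)
      simpa using hy.ne'
    have := this.tendsto
    simp only [sub_zero] at this
    exact this.mono_left nhdsWithin_le_nhds
  have hlim : Tendsto (fun ε : ℝ => (1 - (σ - ε) / (y - ε)) * Thermo.hFree φ β ε
      + ((σ - ε) / (y - ε)) * Thermo.hFree φ β y) (𝓝[>] 0) (𝓝 ((1 - σ / y) * 0 + (σ / y) * Thermo.hFree φ β y)) :=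
    ((tendsto_const_nhds.sub hlim1).mul h0).add (hlim1.mul tendsto_const_nhds)
  simp only [mul_zero, zero_add] at hlim
  refine le_of_tendsto hlim ?_
  filter_upwards [Ioo_mem_nhdsGT hσ] with ε hε
  exact key ε hε.1 hε.2


section bounds

lemma beta2_eq : beta2 = 2 ^ 40 := rfl
lemma U₂_half_le : U₂ / 2 ≤ 2 ^ 72 := by
  unfold U₂ Amax Ap A0; norm_num
lemma Us_le : Us ≤ 2 ^ 53 := by
  have h1 := pp_le
  have h2 : Us = A0 * pp - Num.eta0 := rfl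
  have h3 : (0:ℝ) ≤ Num.eta0 := by unfold Num.eta0; positivity
  have h4 : A0 = 2 ^ 50 := rfl
  rw [h2, h4]
  nlinarith
lemma Fm_eq : Fm = 2 ^ 120 := rfl
lemma Fm_pos : 0 < Fm := by rw [Fm_eq]; positivity
lemma Mμ_pos : 0 < Mμ := by unfold Mμ; have := Fm_pos; have := g1_pos; positivity
lemma cbar_pos : 0 < cbar := by unfold cbar; have := Fm_pos; have := Mμ_pos; positivity
lemma Mμ_big : 2 ^ 200 ≤ Mμ := by
  unfold Mμ g1; rw [Fm_eq]; norm_num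

variable {K0 e0 : ℕ} {cr : ℝ → ℝ} {eE : ℝ} (H : Inputs K0 e0 cr eE)
include H

/-- Lower bound of `F` (stability). -/
lemma Inputs.F_lower {β A σ : ℝ} (hβ : 1 ≤ β) (hβ' : β ≤ beta2) (hA : 0 ≤ A) (hA' : A ≤ Amax)
    (hσ : g1 / 2 ≤ σ) (hσ' : σ ≤ 16) : -Fm ≤ FF K0 cr β A σ := by
  have hσ0 : 0 < σ := lt_of_lt_of_le (by have := g1_pos; positivity) hσ
  have h1 := Thermo.hFree_le (H.adm hA hA') (by linarith : 0 ≤ β) hσ0
  have h2 : -Real.log σ ≤ 101 := by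
    have h3 : (2:ℝ) ^ (-101 : ℤ) ≤ σ := by
      refine le_trans (le_of_eq ?_) hσ
      unfold g1; norm_num
    have h4 := Real.log_le_log (by positivity) h3
    rw [Real.log_zpow] at h4
    have h5 := Real.log_two_lt_d9
    push_cast at h4
    linarith
  have hU := U₂_half_le
  have hU0 : 0 < U₂ / 2 := by have := U₂_pos; positivity
  have h6 : β * (U₂ / 2) ≤ 2 ^ 40 * 2 ^ 72 :=
    mul_le_mul (hβ'.trans_eq beta2_eq) hU hU0.le (by positivity)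
  have h7 : 1 + β * (U₂ / 2) - Real.log σ ≤ 1 + 2 ^ 40 * 2 ^ 72 + 101 := by linarith
  have h8 : 0 ≤ 1 + 2 ^ 40 * 2 ^ 72 + (101 : ℝ) := by positivity
  have h9 : σ * (1 + β * (U₂ / 2) - Real.log σ) ≤ 16 * (1 + 2 ^ 40 * 2 ^ 72 + 101) := by
    calc _ ≤ σ * (1 + 2 ^ 40 * 2 ^ 72 + 101) := mul_le_mul_of_nonneg_left h7 hσ0.le
      _ ≤ _ := mul_le_mul_of_nonneg_right hσ' h8
  unfold FF
  rw [Fm_eq]
  norm_num at h9 ⊢
  linarith

/-- Upper bound of `F` (doubled trial + concavity). -/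
lemma Inputs.F_upper {β A σ : ℝ} (hβ : 1 ≤ β) (hβ' : β ≤ beta2) (hA : 0 ≤ A) (hA' : A ≤ Ap)
    (hσ : 0 < σ) (hσ' : σ ≤ yD pp) : FF K0 cr β A σ ≤ Fm := by
  have hAm : A ≤ Amax := hA'.trans Ap_lt_Amax.le
  have hy := yD_eq_bounds
  have hp := pp_bounds
  have hy0 : 0 < yD pp := by nlinarith
  have hy16 : yD pp ≤ 16 := by linarith
  have h1 := hFree_chord (H.adm hA hAm) (by linarith : 0 ≤ β) hσ hσ'
  have h2 := H.trialD β A (by linarith) hA hAm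
  have T := H.tol
  -- the numeric lower bound of the doubled trial
  have h3 : -(2 : ℝ) ^ 100 ≤ td β A (Γt K0) (w0 K0) Us (yD pp) bD := by
    unfold td ts
    have hlog : -92 ≤ Real.log bD := by
      unfold bD
      rw [Real.log_zpow]
      have h5 := Real.log_two_lt_d9
      push_cast
      linarith
    have e1 : 0 ≤ (1 / 2) * β * A * yD pp ^ 2 * Γt K0 := by
      have : 0 ≤ Γt K0 := by linarith [T.Γ1]
      have : 0 ≤ β := by linarith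
      positivity
    have e2 : -(3 * 16 * 92) ≤ 3 * yD pp * Real.log bD := by
      nlinarith
    have hAle : A ≤ 2 ^ 51 := by
      refine hA'.trans ?_
      unfold Ap A0; norm_num
    have hβ2 : β ≤ 2 ^ 40 := hβ'.trans_eq beta2_eq
    have e3 : (1 / 2) * β * A * yD pp * w0 K0 ≤ 1 := by
      have hw0 := T.w0
      have hw1 := T.w1
      have h10 : w0 K0 ≤ (2:ℝ) ^ (-400 : ℤ) := hw1
      have h11 : (1 / 2) * β * A * yD pp ≤ (1 / 2) * 2 ^ 40 * 2 ^ 51 * 16 := by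
        have : (1 / 2) * β * A ≤ (1 / 2) * 2 ^ 40 * 2 ^ 51 := by
          have h12 : β * A ≤ 2 ^ 40 * 2 ^ 51 := mul_le_mul hβ2 hAle hA (by positivity)
          linarith
        exact mul_le_mul this hy16 hy0.le (by positivity)
      have h13 : 0 ≤ (1 / 2) * β * A * yD pp := by
        have : 0 ≤ β := by linarith
        positivity
      calc (1 / 2) * β * A * yD pp * w0 K0
          ≤ ((1 / 2) * 2 ^ 40 * 2 ^ 51 * 16) * (2:ℝ) ^ (-400 : ℤ) :=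
            mul_le_mul h11 h10 hw0 (by positivity)
        _ ≤ 1 := by norm_num
    have e4 : (1 / 2) * β * Us * yD pp ≤ 2 ^ 99 := by
      have hUs := Us_le
      have hUs0 := Us_pos
      have : β * Us ≤ 2 ^ 40 * 2 ^ 53 := mul_le_mul hβ2 hUs hUs0.le (by positivity)
      have h14 : (1 / 2) * β * Us ≤ (1 / 2) * (2 ^ 40 * 2 ^ 53) := by linarith
      calc (1 / 2) * β * Us * yD pp ≤ ((1 / 2) * (2 ^ 40 * 2 ^ 53)) * 16 :=
            mul_le_mul h14 hy16 hy0.le (by positivity)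
        _ ≤ 2 ^ 99 := by norm_num
    norm_num at e2 e4 ⊢
    linarith
  have hr0 : 0 < σ / yD pp := div_pos hσ hy0
  have hr1 : σ / yD pp ≤ 1 := (div_le_one hy0).2 hσ'
  have h4 : -(2:ℝ) ^ 100 ≤ Thermo.hFree (phiA K0 cr A) β σ := by
    have h5 : -(2:ℝ) ^ 100 ≤ Thermo.hFree (phiA K0 cr A) β (yD pp) := h3.trans h2
    have h6 : (σ / yD pp) * (-(2:ℝ) ^ 100) ≤ (σ / yD pp) * Thermo.hFree (phiA K0 cr A) β (yD pp) :=
      mul_le_mul_of_nonneg_left h5 hr0.le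
    have h7 : -(2:ℝ) ^ 100 ≤ (σ / yD pp) * (-(2:ℝ) ^ 100) := by
      have : (0:ℝ) < 2 ^ 100 := by positivity
      nlinarith
    linarith
  unfold FF
  rw [Fm_eq]
  have : (2:ℝ) ^ 100 ≤ 2 ^ 120 := by norm_num
  linarith

/-- Bounds for a line touching `F` in the window. -/
lemma Inputs.line_bounds {β A μ c ρ₀ : ℝ} (hβ : 1 ≤ β) (hβ' : β ≤ beta2) (hA : 0 ≤ A) (hA' : A ≤ Ap)
    (hs : ∀ σ, 0 < σ → μ * σ + c ≤ FF K0 cr β A σ) (ht : FF K0 cr β A ρ₀ = μ * ρ₀ + c)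
    (hρ : g1 ≤ ρ₀) (hρ' : ρ₀ ≤ 7 / 4 * pp) : |μ| ≤ Mμ ∧ -cbar ≤ c := by
  have hAm : A ≤ Amax := hA'.trans Ap_lt_Amax.le
  have hg := g1_pos
  have hg' : g1 ≤ 1 / 2 ^ 90 := g1_le
  have hp := pp_bounds
  have hy := yD_eq_bounds
  have hρ14 : ρ₀ ≤ 14 := by linarith
  have hρ0 : 0 < ρ₀ := by linarith
  have hg2 : g1 / 2 ≤ 1 / 100 := by
    have : (1:ℝ) / 2 ^ 90 ≤ 1 / 100 := by norm_num
    linarith
  have h1 := H.F_lower hβ hβ' hA hAm (σ := ρ₀ - g1 / 2) (by linarith) (by linarith)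
  have h2 := H.F_lower hβ hβ' hA hAm (σ := ρ₀) (by linarith) (by linarith)
  have h3 := H.F_upper hβ hβ' hA hA' (σ := ρ₀) hρ0 (by nlinarith)
  have h4 := H.F_upper hβ hβ' hA hA' (σ := ρ₀ + g1 / 2) (by linarith) (by nlinarith)
  have h5 := H.F_lower hβ hβ' hA hAm (σ := ρ₀ + g1 / 2) (by linarith) (by linarith)
  have h6 := H.F_upper hβ hβ' hA hA' (σ := ρ₀ - g1 / 2) (by linarith) (by nlinarith)
  have s1 := hs (ρ₀ + g1 / 2) (by linarith)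
  have s2 := hs (ρ₀ - g1 / 2) (by linarith)
  have hM : Mμ * (g1 / 2) = 2 * Fm := by
    unfold Mμ; field_simp; ring
  have hμ1 : μ ≤ Mμ := by
    have : μ * (g1 / 2) ≤ Mμ * (g1 / 2) := by rw [hM]; nlinarith
    exact le_of_mul_le_mul_right this (by positivity)
  have hμ2 : -Mμ ≤ μ := by
    have : (-Mμ) * (g1 / 2) ≤ μ * (g1 / 2) := by
      have e : (-Mμ) * (g1 / 2) = -(Mμ * (g1 / 2)) := by ring
      rw [e, hM]; nlinarith
    exact le_of_mul_le_mul_right this (by positivity)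
  refine ⟨abs_le.2 ⟨hμ2, hμ1⟩, ?_⟩
  have hc : c = FF K0 cr β A ρ₀ - μ * ρ₀ := by linarith
  have hMpos := Mμ_pos
  have h7 : μ * ρ₀ ≤ Mμ * 14 := by
    calc μ * ρ₀ ≤ Mμ * ρ₀ := mul_le_mul_of_nonneg_right hμ1 hρ0.le
      _ ≤ Mμ * 14 := mul_le_mul_of_nonneg_left hρ14 hMpos.le
  unfold cbar
  rw [hc]
  nlinarith

/-- `F` is above every admissible line, at very large densities. -/
lemma Inputs.above_line {β A μ c σ : ℝ} (hβ : 1 ≤ β) (hβ' : β ≤ beta2) (hA : 0 ≤ A) (hA' : A ≤ Amax)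
    (hμ : |μ| ≤ Mμ) (hc : c ≤ 0) (hσ : Real.exp (Mμ + 2 + beta2 * (U₂ / 2)) ≤ σ) :
    μ * σ + c < FF K0 cr β A σ := by
  have hσ0 : 0 < σ := lt_of_lt_of_le (Real.exp_pos _) hσ
  have h1 := Thermo.hFree_le (H.adm hA hA') (by linarith : 0 ≤ β) hσ0
  have h2 : Mμ + 2 + beta2 * (U₂ / 2) ≤ Real.log σ := (Real.le_log_iff_exp_le hσ0).2 hσ
  have h3 : β * (U₂ / 2) ≤ beta2 * (U₂ / 2) :=
    mul_le_mul_of_nonneg_right hβ' (by have := U₂_pos; positivity)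
  have h4 : 1 + β * (U₂ / 2) - Real.log σ ≤ -(Mμ + 1) := by linarith
  have h5 : σ * (1 + β * (U₂ / 2) - Real.log σ) ≤ σ * (-(Mμ + 1)) :=
    mul_le_mul_of_nonneg_left h4 hσ0.le
  have h6 : μ * σ ≤ Mμ * σ := mul_le_mul_of_nonneg_right (abs_le.1 hμ).2 hσ0.le
  unfold FF
  nlinarith

end bounds


section affine

/-- Conversion of `AffineOnI` to the slope form used by `Selection`. -/
lemma affine_slope_form {G : ℝ → ℝ} {a b : ℝ} (hab : a < b) (h : AffineOnI G a b) :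
    ∀ σ ∈ Icc a b, G σ = G a + (G b - G a) / (b - a) * (σ - a) := by
  obtain ⟨μ, c, h⟩ := h
  intro σ hσ
  rw [h σ hσ, h a ⟨le_rfl, hab.le⟩, h b ⟨hab.le, le_rfl⟩]
  have hd : b - a ≠ 0 := (sub_pos.2 hab).ne'
  have e : (μ * b + c - (μ * a + c)) / (b - a) = μ := by
    field_simp; ring
  rw [e]; ring


lemma ρmax_big : (2:ℝ) ^ 200 ≤ ρmax := by
  unfold ρmax
  have h1 := Real.add_one_le_exp (Mμ + 4 + beta2 * (U₂ / 2))
  have h2 := Mμ_big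
  have h3 : 0 ≤ beta2 * (U₂ / 2) := by
    have : 0 < beta2 := beta2_pos
    have := U₂_pos
    positivity
  linarith


variable {K0 e0 : ℕ} {cr : ℝ → ℝ} {eE : ℝ} (H : Inputs K0 e0 cr eE)
include H

/-- Reduction of the no-contact lemma to the `Psi` level. -/
lemma Inputs.nc_of_psi {β A μ c ρ₀ b : ℝ} (hβ : 1 ≤ β) (hβ' : β ≤ beta2) (hA : A0 ≤ A) (hA' : A ≤ Ap)
    (hC : Contact K0 cr β A μ c ρ₀) (hρ : g1 ≤ ρ₀) (hρ' : ρ₀ ≤ 7 / 4 * pp) (hb : g1 / 2 ≤ b)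
    (hbar : ∀ σ, |σ - ρ₀| < g1 / 2 → ∃ k : ℕ, Psi β A (Γ0 K0 e0) Us (ptil K0 e0) σ k ≤ -(μ * σ + c) - b) :
    False := by
  have hA0 : 0 ≤ A := A0_pos.le.trans hA
  have hAm : A ≤ Amax := hA'.trans Ap_lt_Amax.le
  obtain ⟨hμ, hcb⟩ := H.line_bounds hβ hβ' hA0 hA' hC.supp hC.touch hρ hρ'
  have hc0 : c ≤ 0 := H.c_nonpos (by linarith) hA0 hAm hC.supp
  have hp := pp_bounds
  have hbig : ρ₀ + g1 ≤ ρmax := by
    have h1 := (ρmax_big)
    have h2 : g1 ≤ 1 := by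
      have := g1_le
      have h3 : (1:ℝ) / 2 ^ 90 ≤ 1 := by norm_num
      linarith
    have h4 : (16:ℝ) ≤ 2 ^ 200 := by norm_num
    linarith
  refine H.nc β A μ c ρ₀ b hβ hβ' hA hA' hC hρ hbig hμ hcb hc0 hb fun k hk => ?_
  have hℓ := H.ℓ0_pos
  have hℓ3 : 0 < ℓ0 K0 e0 ^ 3 := by positivity
  have hk0 : 0 < sg0 K0 e0 k := by
    have := (abs_lt.1 hk).1
    have hg := g1_pos
    linarith
  have hk1 : 1 ≤ k := by
    rcases Nat.eq_zero_or_pos k with rfl | h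
    · simp [sg0] at hk0
    · exact h
  obtain ⟨k', hk'⟩ := hbar _ hk
  have h1 := H.psi β A (by linarith) hA0 k hk1 k'
  have h2 : Lev0 K0 e0 cr β A k / ℓ0 K0 e0 ^ 3 ≤ -(μ * sg0 K0 e0 k + c) - b := h1.trans hk'
  rw [div_le_iff₀ hℓ3] at h2
  linarith [mul_comm (ℓ0 K0 e0 ^ 3) (-(μ * sg0 K0 e0 k + c) - b)]

/-- Trial values bound `F` from above. -/
lemma Inputs.line_le_trial1 {β A μ c : ℝ} (hβ : 0 ≤ β) (hA : 0 ≤ A) (hA' : A ≤ Amax)
    (hs : ∀ σ, 0 < σ → μ * σ + c ≤ FF K0 cr β A σ) :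
    μ * (0.9 * pp) + c ≤ -ts β A (Γt K0) (w0 K0) (0.9 * pp) 0.01 := by
  have h1 := hs (0.9 * pp) (by have := pp_pos; positivity)
  have h2 := H.trial1 β A hβ hA hA'
  unfold FF at h1
  linarith

lemma Inputs.line_le_trial2 {β A μ c : ℝ} (hβ : 0 ≤ β) (hA : 0 ≤ A) (hA' : A ≤ Amax)
    (hs : ∀ σ, 0 < σ → μ * σ + c ≤ FF K0 cr β A σ) :
    μ * (0.99 * pp) + c ≤ -ts β A (Γt K0) (w0 K0) (0.99 * pp) 0.001 := by
  have h1 := hs (0.99 * pp) (by have := pp_pos; positivity)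
  have h2 := H.trial2 β A hβ hA hA'
  unfold FF at h1
  linarith

lemma Inputs.line_le_trial3 {β A μ c : ℝ} (hβ : 0 ≤ β) (hA : 0 ≤ A) (hA' : A ≤ Amax)
    (hs : ∀ σ, 0 < σ → μ * σ + c ≤ FF K0 cr β A σ) :
    μ * yT pp + c ≤ -ts β A (Γt K0) (w0 K0) (yT pp) bT := by
  have h0 := yT_bounds
  have h1 := hs (yT pp) (by have := pp_ge; nlinarith)
  have h2 := H.trial3 β A hβ hA hA'
  unfold FF at h1
  linarith

lemma Inputs.line_le_trialD {β A μ c : ℝ} (hβ : 0 ≤ β) (hA : 0 ≤ A) (hA' : A ≤ Amax)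
    (hs : ∀ σ, 0 < σ → μ * σ + c ≤ FF K0 cr β A σ) :
    μ * yD pp + c ≤ -td β A (Γt K0) (w0 K0) Us (yD pp) bD := by
  have h0 := yD_eq_bounds
  have h1 := hs (yD pp) (by have := pp_ge; nlinarith)
  have h2 := H.trialD β A hβ hA hA'
  unfold FF at h1
  linarith

/-- From a non-affine stretch to an exposed contact point. -/
lemma Inputs.exposed_of_not_affine {β A a b : ℝ} (hβ : 0 ≤ β) (hA : 0 ≤ A) (hA' : A ≤ Amax)
    (ha : 0 < a) (hab : a < b) (hna : ¬ AffineOnI (FF K0 cr β A) a b) :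
    ∃ μ c ρ₀, a < ρ₀ ∧ ρ₀ < b ∧ Contact K0 cr β A μ c ρ₀ := by
  have hF := H.convex hβ hA hA'
  obtain ⟨σ₁, σ₂, σ₃, h1, h2, h3, h4, hs⟩ := not_affine_slope hF ha hab hna
  obtain ⟨c, ρ₀, hρ1, hρ2, hsupp, htouch, hright⟩ := exists_exposed_line hF (by linarith) h2 h3
    (μ := (slopeF (FF K0 cr β A) σ₁ σ₂ + slopeF (FF K0 cr β A) σ₂ σ₃) / 2) (by linarith) (by linarith)
  exact ⟨_, c, ρ₀, by linarith, by linarith, ⟨hsupp, htouch, hright⟩⟩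

/-- **Affine on `[g₁, p/2]`.** -/
theorem Inputs.affine_L {β A : ℝ} (hβ : 1 ≤ β) (hβ' : β ≤ beta2) (hA : A0 ≤ A) (hA' : A ≤ Ap) :
    AffineOnI (FF K0 cr β A) g1 (pp / 2) := by
  have hA0 : 0 ≤ A := A0_pos.le.trans hA
  have hAm : A ≤ Amax := hA'.trans Ap_lt_Amax.le
  have hp := pp_bounds
  have hg := g1_pos
  have hg' : g1 ≤ 1 / 2 ^ 90 := g1_le
  have hg100 : g1 ≤ 1 / 1000 := by
    have : (1:ℝ) / 2 ^ 90 ≤ 1 / 1000 := by norm_num
    linarith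
  by_contra hna
  obtain ⟨μ, c, ρ₀, h1, h2, hC⟩ := H.exposed_of_not_affine (by linarith) hA0 hAm hg (by linarith) hna
  have hc0 : c ≤ 0 := H.c_nonpos (by linarith) hA0 hAm hC.supp
  refine H.nc_of_psi hβ hβ' hA hA' hC h1.le (by linarith) (b := g1 / 2) le_rfl fun σ hσ => ⟨0, ?_⟩
  obtain ⟨h3, h4⟩ := abs_lt.1 hσ
  have hσ1 : g1 / 2 ≤ σ := by linarith
  have hσ2 : σ ≤ 0.51 * pp := by linarith
  have hb := Num.barrier_L (β := β) (A := A) (σ := σ) H.tol hβ hA hσ1 hσ2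
  have hch := line_chord hc0 (σ := σ) (y := 0.9 * pp) (by linarith) (by linarith) (by linarith)
    (H.line_le_trial1 (by linarith) hA0 hAm hC.supp)
  exact hb.trans (by linarith)

/-- **Affine on `[5p/4, 7p/4]`.** -/
theorem Inputs.affine_R {β A : ℝ} (hβ : 1 ≤ β) (hβ' : β ≤ beta2) (hA : A0 ≤ A) (hA' : A ≤ Ap) :
    AffineOnI (FF K0 cr β A) (5 / 4 * pp) (7 / 4 * pp) := by
  have hA0 : 0 ≤ A := A0_pos.le.trans hA
  have hAm : A ≤ Amax := hA'.trans Ap_lt_Amax.le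
  have hp := pp_bounds
  have hg := g1_pos
  have hg' : g1 ≤ 1 / 2 ^ 90 := g1_le
  have hg100 : g1 ≤ 1 / 1000 := by
    have : (1:ℝ) / 2 ^ 90 ≤ 1 / 1000 := by norm_num
    linarith
  have hy := yD_eq_bounds
  by_contra hna
  obtain ⟨μ, c, ρ₀, h1, h2, hC⟩ := H.exposed_of_not_affine (by linarith) hA0 hAm (by linarith)
    (by linarith) hna
  refine H.nc_of_psi hβ hβ' hA hA' hC (by linarith) h2.le (b := 1) (by linarith) fun σ hσ => ⟨1, ?_⟩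
  obtain ⟨h3, h4⟩ := abs_lt.1 hσ
  have hσ1 : 1.24 * pp ≤ σ := by linarith
  have hσ2 : σ ≤ 1.76 * pp := by linarith
  have hb : Psi β A (Γ0 K0 e0) Us (ptil K0 e0) σ 1 ≤ ts β A (Γt K0) (w0 K0) (0.99 * pp) 0.001 +
      (σ - 0.99 * pp) / (yD pp - 0.99 * pp) *
        (td β A (Γt K0) (w0 K0) Us (yD pp) bD - ts β A (Γt K0) (w0 K0) (0.99 * pp) 0.001) - 1 :=
    Num.barrier_R (β := β) (A := A) (σ := σ) H.tol hβ hA hA' hσ1 hσ2
  have hch := line_chord2 (μ := μ) (c := c) (σ := σ) (y1 := 0.99 * pp) (y2 := yD pp)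
    (t1 := ts β A (Γt K0) (w0 K0) (0.99 * pp) 0.001)
    (t2 := td β A (Γt K0) (w0 K0) Us (yD pp) bD) (by linarith) (by linarith) (by linarith)
    (H.line_le_trial2 (by linarith) hA0 hAm hC.supp) (H.line_le_trialD (by linarith) hA0 hAm hC.supp)
  exact hb.trans (by linarith)


/-- The gap vanishes when there is a barrier between the two affine stretches. -/
theorem Inputs.gap_zero_of_barrier {β A : ℝ} (hβ : 1 ≤ β) (hβ' : β ≤ beta2) (hA : A0 ≤ A) (hA' : A ≤ Ap)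
    (hbar : ∀ μ c σ : ℝ, c ≤ 0 → μ * yD pp + c ≤ -td β A (Γt K0) (w0 K0) Us (yD pp) bD →
      0.49 * pp ≤ σ → σ ≤ 1.26 * pp → ∃ k : ℕ,
        Psi β A (Γ0 K0 e0) Us (ptil K0 e0) σ k ≤ -(μ * σ + c) - 1) :
    gap (FF K0 cr β A) g1 (pp / 2) (5 / 4 * pp) (7 / 4 * pp) = 0 := by
  have hA0 : 0 ≤ A := A0_pos.le.trans hA
  have hAm : A ≤ Amax := hA'.trans Ap_lt_Amax.le
  have hp := pp_bounds
  have hg := g1_pos
  have hg' : g1 ≤ 1 / 2 ^ 90 := g1_le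
  have hg100 : g1 ≤ 1 / 1000 := by
    have : (1:ℝ) / 2 ^ 90 ≤ 1 / 1000 := by norm_num
    linarith
  have hF := H.convex (β := β) (A := A) (by linarith) hA0 hAm
  have hF' : ConvexOn ℝ (Icc g1 (7 / 4 * pp)) (FF K0 cr β A) :=
    hF.subset (fun x hx => lt_of_lt_of_le hg hx.1) (convex_Icc _ _)
  have h12 : g1 < pp / 2 := by linarith
  have h23 : pp / 2 ≤ 5 / 4 * pp := by linarith
  have h34 : 5 / 4 * pp < 7 / 4 * pp := by linarith
  refine le_antisymm ?_ (Selection.gap_nonneg hF' h12 h23 h34)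
  by_contra hpos
  push Not at hpos
  have hL := affine_slope_form h12 (H.affine_L hβ hβ' hA hA')
  have hR := affine_slope_form h34 (H.affine_R hβ hβ' hA hA')
  unfold gap at hpos
  obtain ⟨ρ, hρ, c, hs, ht, hr⟩ := Selection.exists_contact hg h12 h23 h34 hF hL hR
    (μ := ((FF K0 cr β A (pp / 2) - FF K0 cr β A g1) / (pp / 2 - g1) +
      (FF K0 cr β A (7 / 4 * pp) - FF K0 cr β A (5 / 4 * pp)) / (7 / 4 * pp - 5 / 4 * pp)) / 2)
    (by linarith) (by linarith)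
  set μ := ((FF K0 cr β A (pp / 2) - FF K0 cr β A g1) / (pp / 2 - g1) +
      (FF K0 cr β A (7 / 4 * pp) - FF K0 cr β A (5 / 4 * pp)) / (7 / 4 * pp - 5 / 4 * pp)) / 2 with hμdef
  have hC : Contact K0 cr β A μ c ρ := ⟨hs, ht, hr⟩
  have hc0 : c ≤ 0 := H.c_nonpos (by linarith) hA0 hAm hC.supp
  refine H.nc_of_psi hβ hβ' hA hA' hC (by linarith [hρ.1]) (by linarith [hρ.2]) (b := 1) (by linarith)
    fun σ hσ => ?_
  obtain ⟨h3, h4⟩ := abs_lt.1 hσ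
  exact hbar μ c σ hc0 (H.line_le_trialD (by linarith) hA0 hAm hC.supp)
    (by linarith [hρ.1]) (by linarith [hρ.2])

/-- `d(β₂,A₀)=0`. -/
theorem Inputs.gap_end : gap (FF K0 cr beta2 A0) g1 (pp / 2) (5 / 4 * pp) (7 / 4 * pp) = 0 := by
  have hβ : (1:ℝ) ≤ beta2 := by unfold beta2; norm_num
  refine H.gap_zero_of_barrier hβ le_rfl le_rfl A0_lt_Ap.le fun μ c σ hc hμ h1 h2 => ?_
  have hy := yD_eq_bounds
  have hp := pp_bounds
  have hy0 : 0 < yD pp := by nlinarith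
  have hch := line_chord hc (σ := σ) (y := yD pp) (by nlinarith) (by nlinarith) hy0 hμ
  have T := H.tol
  rcases le_total σ (ptil K0 e0) with h3 | h3
  · have hm : Psi beta2 A0 (Γ0 K0 e0) Us (ptil K0 e0) σ 0 ≤
        (σ / yD pp) * td beta2 A0 (Γt K0) (w0 K0) Us (yD pp) bD - 1 := Num.barrier_M1_low T h1 h3
    exact ⟨0, hm.trans (by linarith)⟩
  · have hm : Psi beta2 A0 (Γ0 K0 e0) Us (ptil K0 e0) σ 1 ≤
        (σ / yD pp) * td beta2 A0 (Γt K0) (w0 K0) Us (yD pp) bD - 1 := Num.barrier_M1_high T h3 h2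
    exact ⟨1, hm.trans (by linarith)⟩

/-- `d(β,A₊)=0`. -/
theorem Inputs.gap_top {β : ℝ} (hβ : 1 ≤ β) (hβ' : β ≤ beta2) :
    gap (FF K0 cr β Ap) g1 (pp / 2) (5 / 4 * pp) (7 / 4 * pp) = 0 := by
  refine H.gap_zero_of_barrier hβ hβ' A0_lt_Ap.le le_rfl fun μ c σ hc hμ h1 h2 => ?_
  have hy := yD_eq_bounds
  have hp := pp_bounds
  have hy0 : 0 < yD pp := by nlinarith
  have hch := line_chord hc (σ := σ) (y := yD pp) (by nlinarith) (by nlinarith) hy0 hμ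
  have T := H.tol
  rcases le_total σ (ptil K0 e0) with h3 | h3
  · have hm : Psi β Ap (Γ0 K0 e0) Us (ptil K0 e0) σ 0 ≤
        (σ / yD pp) * td β Ap (Γt K0) (w0 K0) Us (yD pp) bD - 1 := Num.barrier_M2_low T hβ h1 h3
    exact ⟨0, hm.trans (by linarith)⟩
  · have hm : Psi β Ap (Γ0 K0 e0) Us (ptil K0 e0) σ 1 ≤
        (σ / yD pp) * td β Ap (Γt K0) (w0 K0) Us (yD pp) bD - 1 := Num.barrier_M2_high T hβ h3 h2
    exact ⟨1, hm.trans (by linarith)⟩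


/-- The near-close-packed trial value is large. -/
lemma Inputs.ts_yT_big : (2:ℝ) ^ 40 ≤ ts 1 A0 (Γt K0) (w0 K0) (yT pp) bT := by
  have T := H.tol
  have hy := yT_bounds
  have hp := pp_bounds
  have hy1 : (0.99:ℝ) ≤ yT pp := by nlinarith
  have hy8 : yT pp ≤ 8 := by linarith
  have hA : A0 = 2 ^ 50 := rfl
  unfold ts
  rw [hA]
  have hlog : -55 ≤ Real.log bT := by
    unfold bT
    rw [Real.log_zpow]
    have h5 := Real.log_two_lt_d9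
    push_cast
    linarith
  have e1 : (1 / 2) * 1 * (2:ℝ) ^ 50 * (0.99 * 0.99) * 1 ≤ (1 / 2) * 1 * 2 ^ 50 * yT pp ^ 2 * Γt K0 := by
    have h1 : (0.99 * 0.99 : ℝ) ≤ yT pp ^ 2 := by nlinarith
    have h2 := T.Γ1
    have h3 : (0.99 * 0.99 : ℝ) * 1 ≤ yT pp ^ 2 * Γt K0 := mul_le_mul h1 h2 (by norm_num) (by positivity)
    nlinarith
  have e2 : -(3 * 8 * 55) ≤ 3 * yT pp * Real.log bT := by nlinarith
  have e3 : (1 / 2) * 1 * (2:ℝ) ^ 50 * yT pp * w0 K0 ≤ 1 := by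
    have h10 : w0 K0 ≤ (2:ℝ) ^ (-400 : ℤ) := T.w1
    have hw0 := T.w0
    calc (1 / 2) * 1 * (2:ℝ) ^ 50 * yT pp * w0 K0
        ≤ ((1 / 2) * 1 * (2:ℝ) ^ 50 * 8) * (2:ℝ) ^ (-400 : ℤ) :=
          mul_le_mul (mul_le_mul_of_nonneg_left hy8 (by positivity)) h10 hw0 (by positivity)
      _ ≤ 1 := by norm_num
  norm_num at e1 e2 e3 ⊢
  linarith

/-- The gas phase bound at `g₁`. -/
lemma Inputs.F_g1_ge : -((1:ℝ) / 2 ^ 27) ≤ FF K0 cr 1 A0 g1 := by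
  have h1 := Thermo.hFree_le (H.adm A0_pos.le (A0_lt_Ap.le.trans Ap_lt_Amax.le))
    (β := 1) (by norm_num) g1_pos
  have h2 : -Real.log g1 ≤ 70 := by
    unfold g1
    rw [Real.log_zpow]
    have h5 := Real.log_two_lt_d9
    push_cast
    linarith
  have hU := U₂_half_le
  have h3 : 1 + 1 * (U₂ / 2) - Real.log g1 ≤ 71 + 2 ^ 72 := by linarith
  have hg := g1_pos
  have h4 : g1 * (1 + 1 * (U₂ / 2) - Real.log g1) ≤ g1 * (71 + 2 ^ 72) :=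
    mul_le_mul_of_nonneg_left h3 hg.le
  have h5 : g1 * (71 + 2 ^ 72) ≤ 1 / 2 ^ 27 := by
    unfold g1; norm_num
  unfold FF
  linarith

/-- **`d(1,A₀) > 0`.** -/
theorem Inputs.gap_start : 0 < gap (FF K0 cr 1 A0) g1 (pp / 2) (5 / 4 * pp) (7 / 4 * pp) := by
  have hA0 : (0:ℝ) ≤ A0 := A0_pos.le
  have hAp : A0 ≤ Ap := A0_lt_Ap.le
  have hAm : A0 ≤ Amax := hAp.trans Ap_lt_Amax.le
  have hp := pp_bounds
  have hg := g1_pos
  have hg' : g1 ≤ 1 / 2 ^ 90 := g1_le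
  have hg100 : g1 ≤ 1 / 1000 := by
    have : (1:ℝ) / 2 ^ 90 ≤ 1 / 1000 := by norm_num
    linarith
  have hy := yT_bounds
  have hF := H.convex (β := 1) (A := A0) (by norm_num) hA0 hAm
  have hF' : ConvexOn ℝ (Icc g1 (7 / 4 * pp)) (FF K0 cr 1 A0) :=
    hF.subset (fun x hx => lt_of_lt_of_le hg hx.1) (convex_Icc _ _)
  have h12 : g1 < pp / 2 := by linarith
  have h23 : pp / 2 ≤ 5 / 4 * pp := by linarith
  have h34 : 5 / 4 * pp < 7 / 4 * pp := by linarith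
  have hnn := Selection.gap_nonneg hF' h12 h23 h34
  refine lt_of_le_of_ne hnn fun h0 => ?_
  have haff := Selection.affine_of_gap_eq_zero hF' h12 h23 h34 h0.symm
  set μ := (FF K0 cr 1 A0 (pp / 2) - FF K0 cr 1 A0 g1) / (pp / 2 - g1) with hμdef
  set c := FF K0 cr 1 A0 g1 - μ * g1 with hcdef
  have hline : ∀ σ ∈ Icc g1 (7 / 4 * pp), FF K0 cr 1 A0 σ = μ * σ + c := by
    intro σ hσ
    rw [haff σ hσ, hcdef]; ring
  have hsupp := affine_supporting hF hg (by linarith : g1 < 7 / 4 * pp) hline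
  have hc0 : c ≤ 0 := H.c_nonpos (by norm_num) hA0 hAm hsupp
  -- `μ ≤ 0`
  have hyT : yT pp ∈ Icc g1 (7 / 4 * pp) := ⟨by nlinarith, by linarith [hy.2]⟩
  have htr := H.line_le_trial3 (by norm_num) hA0 hAm hsupp
  have hbig := H.ts_yT_big
  have hgas := H.F_g1_ge
  have hg1eq : FF K0 cr 1 A0 g1 = μ * g1 + c := by rw [hcdef]; ring
  have hμ0 : μ ≤ 0 := by
    by_contra hpos
    push Not at hpos
    have h1 : μ * g1 ≤ μ * yT pp := mul_le_mul_of_nonneg_left hyT.1 hpos.le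
    have h2 : (1:ℝ) / 2 ^ 27 ≤ 1 := by norm_num
    have h3 : (1:ℝ) ≤ 2 ^ 40 := by norm_num
    linarith
  have hcge : -((1:ℝ) / 2 ^ 20) ≤ c := by
    have h1 : μ * g1 ≤ 0 := mul_nonpos_of_nonpos_of_nonneg hμ0 hg.le
    have h2 : (1:ℝ) / 2 ^ 27 ≤ 1 / 2 ^ 20 := by norm_num
    linarith
  have h4mem : (7 / 4 * pp) ∈ Icc g1 (7 / 4 * pp) := ⟨by linarith, le_rfl⟩
  obtain ⟨hμ, hcb⟩ := H.line_bounds (β := 1) le_rfl (by unfold beta2; norm_num) hA0 hAp hsupp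
    (hline _ h4mem) (by linarith) le_rfl
  -- right end of the contact set
  set T := Real.exp (Mμ + 2 + beta2 * (U₂ / 2)) with hT
  have hTabove : ∀ σ, T ≤ σ → μ * σ + c < FF K0 cr 1 A0 σ := fun σ hσ =>
    H.above_line le_rfl (by unfold beta2; norm_num) hA0 hAm hμ hc0 hσ
  obtain ⟨ρ₀, h1, h2, h3, h4⟩ := exists_right_end hF (σ₀ := 7 / 4 * pp) (by linarith) hsupp
    (hline _ h4mem) hTabove
  have hC : Contact K0 cr 1 A0 μ c ρ₀ := ⟨hsupp, h3, h4⟩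
  have hTbig : (2:ℝ) ^ 100 ≤ T := by
    have e1 := Real.add_one_le_exp (Mμ + 2 + beta2 * (U₂ / 2))
    have e2 := Mμ_big
    have e3 : 0 ≤ beta2 * (U₂ / 2) := by
      have : 0 < beta2 := beta2_pos
      have := U₂_pos
      positivity
    have e4 : (2:ℝ) ^ 100 ≤ 2 ^ 200 := by norm_num
    rw [hT]
    linarith
  have hmax : ρ₀ < T := by
    have : max T (7 / 4 * pp + 1) = T := max_eq_left (by
      have : (16:ℝ) ≤ 2 ^ 100 := by norm_num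
      linarith)
    rwa [this] at h2
  have hρmax : ρ₀ + g1 ≤ ρmax := by
    have e1 : ρmax = T * Real.exp 2 := by
      unfold ρmax
      rw [hT, ← Real.exp_add]
      congr 1; ring
    have e2 : (2:ℝ) ≤ Real.exp 2 := by
      have := Real.add_one_le_exp (2:ℝ)
      linarith
    have e3 : T * 2 ≤ T * Real.exp 2 := mul_le_mul_of_nonneg_left e2 (Real.exp_pos _).le
    have e4 : g1 ≤ 2 ^ 100 := by
      have : (1:ℝ) / 1000 ≤ 2 ^ 100 := by norm_num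
      linarith
    rw [e1]
    linarith
  refine H.nc 1 A0 μ c ρ₀ (1 / 4) le_rfl (by unfold beta2; norm_num) le_rfl hAp hC (by linarith)
    hρmax hμ (by
      have : (1:ℝ) / 2 ^ 20 ≤ cbar := by
        have e1 := cbar_pos
        unfold cbar
        have e2 := Fm_eq
        have e3 := Mμ_pos
        rw [e2]
        have : (1:ℝ) / 2 ^ 20 ≤ 2 ^ 120 := by norm_num
        linarith
      linarith) hc0 (by linarith) fun k hk => ?_
  obtain ⟨e1, e2⟩ := abs_lt.1 hk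
  exact H.window μ c ρ₀ hC hc0 hcge hμ0 hμ (by linarith) k (by linarith)

/-- The rate. -/
theorem Inputs.rate {β A1 A2 : ℝ} (hβ : 1 ≤ β) (hβ' : β ≤ beta2) (hA1 : A0 ≤ A1) (hA12 : A1 < A2)
    (hA2 : A2 ≤ Ap) (hgap : 0 < gap (FF K0 cr β A2) g1 (pp / 2) (5 / 4 * pp) (7 / 4 * pp)) :
    (1 / 2) * (A2 - A1) ≤ gap (FF K0 cr β A1) g1 (pp / 2) (5 / 4 * pp) (7 / 4 * pp) := by
  have hA10 : 0 ≤ A1 := A0_pos.le.trans hA1
  have hA20 : 0 ≤ A2 := by linarith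
  have hA1m : A1 ≤ Amax := by linarith [Ap_lt_Amax]
  have hA2m : A2 ≤ Amax := by linarith [Ap_lt_Amax]
  have hβ0 : 0 ≤ β := by linarith
  have hp := pp_bounds
  have hg := g1_pos
  have hg' : g1 ≤ 1 / 2 ^ 90 := g1_le
  have hg100 : g1 ≤ 1 / 1000 := by
    have : (1:ℝ) / 2 ^ 90 ≤ 1 / 1000 := by norm_num
    linarith
  have hF1 := H.convex (β := β) (A := A1) hβ0 hA10 hA1m
  have hF2 := H.convex (β := β) (A := A2) hβ0 hA20 hA2m
  have h12 : g1 < pp / 2 := by linarith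
  have h23 : pp / 2 ≤ 5 / 4 * pp := by linarith
  have h34 : 5 / 4 * pp < 7 / 4 * pp := by linarith
  have hL := affine_slope_form h12 (H.affine_L hβ hβ' (by linarith) hA2)
  have hR := affine_slope_form h34 (H.affine_R hβ hβ' (by linarith) hA2)
  have T := H.tol
  have hΓ1 := T.Γ1
  have hw0 := T.w0
  have hw1 := T.w1
  have hhat := H.hatle
  have hhat2 := H.Γt_le_hat
  have he0 := H.eE_nonneg
  have he1 := H.eE_le
  have hSer : U4.Series (Ah K0) (RR K0) 1 :=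
    ⟨by norm_num, fun j => (Ah_pos K0 j).le, summable_Ah H.hK, fun j => one_le_RR K0 j⟩
  have hφ : ∀ A, phiA K0 cr A = U4.phi (ss cr) (Ah K0) (RR K0) A := fun A => rfl
  have hK : 0 < (1 / 2) * β * (A2 - A1) := by
    have : 0 < A2 - A1 := by linarith
    positivity
  have hCS : ∀ σ, 0 < σ → FF K0 cr β A2 σ + (1 / 2) * β * (A2 - A1) *
      (Γt K0 * σ ^ 2 - w0 K0 * σ) ≤ FF K0 cr β A1 σ := by
    intro σ hσ
    have h1 := Thermo.tendsto_logZ (H.adm hA10 hA1m) hβ0 hσ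
    have h2 := Thermo.tendsto_logZ (H.adm hA20 hA2m) hβ0 hσ
    have h3 := U4.u4a hSer (ss_meas H.hc) (A1 := A1) (A2 := A2) (β := β) (σ := σ) (B := U₂ / 2)
      hA12.le hβ0 hσ.le (H.adm hA20 hA2m).stable h1 h2
    have e1 : U4.Gam (Ah K0) = Γt K0 := by
      unfold U4.Gam Γt Series.Gam; simp
    have e2 : U4.w (Ah K0) (RR K0) 0 = w0 K0 := rfl
    rw [e1, e2] at h3
    unfold FF
    linarith
  have hU4 : ∀ μ c ρ : ℝ, ρ ∈ Icc (pp / 2) (5 / 4 * pp) →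
      (∀ σ, 0 < σ → μ * σ + c ≤ FF K0 cr β A2 σ) → FF K0 cr β A2 ρ = μ * ρ + c →
      (∀ σ, ρ < σ → μ * σ + c < FF K0 cr β A2 σ) →
      FF K0 cr β A1 ρ ≤ FF K0 cr β A2 ρ + (1 / 2) * β * (A2 - A1) *
        (Rate.GamHat K0 e0 * (ρ ^ 2 + eE)) := by
    intro μ c ρ hρ hs ht hr
    obtain ⟨hμ, hcb⟩ := H.line_bounds hβ hβ' hA20 hA2 hs ht (by linarith [hρ.1]) (by linarith [hρ.2])
    have hc0 : c ≤ 0 := H.c_nonpos hβ0 hA20 hA2m hs
    have hbig : ρ + g1 ≤ ρmax := by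
      have h1 := ρmax_big
      have h4 : (21:ℝ) ≤ 2 ^ 200 := by norm_num
      linarith [hρ.2]
    exact H.u4c β A1 A2 μ c ρ hβ hβ' hA1 hA12 hA2 ⟨hs, ht, hr⟩ (by linarith [hρ.1]) hbig hμ hcb hc0
  have hmain := Selection.rate_abstract (Γ := Γt K0) (Γh := Rate.GamHat K0 e0) (w0 := w0 K0)
    (e := eE) (ℓ := pp / 4) hg h12 h23 h34 hF1 hF2 hL hR hgap hK hhat2 (by linarith) he0 hw0
    (by linarith) (by linarith) (by linarith) hCS hU4
  refine le_trans ?_ hmain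
  -- the bracket is at least one
  have htol : tolE ≤ 1 / 2 ^ 300 := by unfold tolE; norm_num
  have hb1 : ((Rate.GamHat K0 e0 - Γt K0) * (5 / 4 * pp) ^ 2 + Rate.GamHat K0 e0 * eE) * (2 / (pp / 4))
      ≤ 1 / 2 := by
    have e1 : 2 / (pp / 4) = 8 / pp := by field_simp; ring
    rw [e1]
    have hpos : 0 < pp := by linarith
    have e2 : (Rate.GamHat K0 e0 - Γt K0) * (5 / 4 * pp) ^ 2 ≤ 1 / 2 ^ 200 := by
      have h1 : Rate.GamHat K0 e0 - Γt K0 ≤ 1 / 2 ^ 300 := by linarith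
      have h2 : (5 / 4 * pp) ^ 2 ≤ 100 := by nlinarith
      have h3 : 0 ≤ Rate.GamHat K0 e0 - Γt K0 := by linarith
      calc (Rate.GamHat K0 e0 - Γt K0) * (5 / 4 * pp) ^ 2 ≤ (1 / 2 ^ 300) * 100 :=
            mul_le_mul h1 h2 (by positivity) (by positivity)
        _ ≤ 1 / 2 ^ 200 := by norm_num
    have e3 : Rate.GamHat K0 e0 * eE ≤ 2 * (1 / 64) := by
      have h1 : Rate.GamHat K0 e0 ≤ 2 := by
        have : (1:ℝ) / 2 ^ 300 ≤ 1 := by norm_num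
        linarith
      exact mul_le_mul h1 he1 he0 (by norm_num)
    have e4 : (1:ℝ) / 2 ^ 200 + 2 * (1 / 64) ≤ 1 / 16 := by norm_num
    have e5 : 8 / pp ≤ 8 := by
      rw [div_le_iff₀ hpos]; nlinarith
    have e6 : 0 ≤ 8 / pp := by positivity
    calc _ ≤ (1 / 16) * (8 / pp) := mul_le_mul_of_nonneg_right (by linarith) e6
      _ ≤ (1 / 16) * 8 := mul_le_mul_of_nonneg_left e5 (by norm_num)
      _ = 1 / 2 := by norm_num
  have hb2 : w0 K0 * (7 / 4 * pp + g1) / (pp / 4) ≤ 1 / 8 := by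
    have hpos : 0 < pp := by linarith
    have e1 : w0 K0 ≤ 1 / 2 ^ 300 := by linarith
    rw [div_le_iff₀ (by positivity)]
    have e2 : 7 / 4 * pp + g1 ≤ 15 := by linarith
    have e3 : w0 K0 * (7 / 4 * pp + g1) ≤ (1 / 2 ^ 300) * 15 :=
      mul_le_mul e1 e2 (by linarith) (by positivity)
    have e4 : (1:ℝ) / 2 ^ 300 * 15 ≤ 1 / 8 * (1 / 4) := by norm_num
    have e5 : (1:ℝ) / 8 * (1 / 4) ≤ 1 / 8 * (pp / 4) := by
      have := hp.1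
      linarith
    linarith
  have hb3 : 1.7 ≤ Γt K0 * (7 / 4 * pp - g1) := by
    have h1 : (1.7:ℝ) ≤ 7 / 4 * pp - g1 := by
      have h2 := hp.1
      norm_num at hg100 ⊢
      linarith
    calc (1.7:ℝ) = 1 * 1.7 := by norm_num
      _ ≤ Γt K0 * (7 / 4 * pp - g1) := mul_le_mul hΓ1 h1 (by norm_num) (by linarith)
  have hK2 : (1 / 2) * (A2 - A1) ≤ (1 / 2) * β * (A2 - A1) := by
    have h0 : 0 ≤ A2 - A1 := by linarith
    exact mul_le_mul_of_nonneg_right (by linarith) h0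
  have hbr : 1 ≤ Γt K0 * (7 / 4 * pp - g1) - (((Rate.GamHat K0 e0 - Γt K0) * (5 / 4 * pp) ^ 2
      + Rate.GamHat K0 e0 * eE) * (2 / (pp / 4)) + w0 K0 * (7 / 4 * pp + g1) / (pp / 4)) := by
    norm_num at hb3 ⊢
    linarith
  calc (1 / 2) * (A2 - A1) ≤ (1 / 2) * β * (A2 - A1) := hK2
    _ = (1 / 2) * β * (A2 - A1) * 1 := by ring
    _ ≤ _ := mul_le_mul_of_nonneg_left hbr hK.le

/-- **The main statement.** -/
theorem Inputs.main : MainStatement cr := by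
  have hp := pp_bounds
  have hg := g1_pos
  have hg' : g1 ≤ 1 / 2 ^ 90 := g1_le
  have hg100 : g1 ≤ 1 / 1000 := by
    have : (1:ℝ) / 2 ^ 90 ≤ 1 / 1000 := by norm_num
    linarith
  have hβ2 : (1:ℝ) < beta2 := by unfold beta2; norm_num
  have hmemA : ∀ A ∈ Icc A0 Ap, 0 ≤ A ∧ A ≤ Amax := fun A hA => A0_le_Amax hA
  have hρ0 : ∀ ρ ∈ Icc g1 (7 / 4 * pp), 0 < ρ := fun ρ hρ => lt_of_lt_of_le hg hρ.1
  obtain ⟨βs, hβs, As, hAs, hkink⟩ := Selection.exists_kink (FF K0 cr)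
    (βl := 1 / 2) (β1 := 1) (β2 := beta2) (βr := beta2 + 1) (Al := 0) (A0 := A0) (Ap := Ap)
    (Ar := Amax) (t1 := g1) (t2 := pp / 2) (t3 := 5 / 4 * pp) (t4 := 7 / 4 * pp) (c0 := 1 / 2)
    (by norm_num) hβ2 (by linarith) A0_pos A0_lt_Ap Ap_lt_Amax (by linarith) (by linarith)
    (by linarith) (by norm_num)
    (fun A hA ρ hρ => by
      have h := (Thermo.hFree_convex_beta (H.adm (hmemA A hA).1 (hmemA A hA).2) (hρ0 ρ hρ)).neg
      exact h.subset (fun x hx => le_of_lt (lt_trans (by norm_num) hx.1)) (convex_Ioo _ _))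
    (fun β hβ ρ hρ => by
      have h := (Thermo.hFree_convex_param (s := ss cr) (w := ww K0) (I := Ioo 0 Amax)
        (convex_Ioo _ _) (fun A hA => ⟨U₂ / 2, H.adm hA.1.le hA.2.le⟩) (β := β) (σ := ρ)
        (by linarith [hβ.1]) (hρ0 ρ hρ)).neg
      exact h)
    (fun β hβ A hA => by
      have hβ0 : 0 ≤ β := by linarith [hβ.1]
      exact (H.convex hβ0 (hmemA A hA).1 (hmemA A hA).2).subset
        (fun x hx => lt_of_lt_of_le hg hx.1) (convex_Icc _ _))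
    H.gap_start H.gap_end
    (fun β hβ => H.gap_top hβ.1 hβ.2)
    (fun β hβ A1 hA1 A2 hA2 h12 hgap => H.rate hβ.1 hβ.2 hA1.1 h12 hA2.2 hgap)
  exact ⟨K0, H.hK, βs, hβs, As, hAs, hkink⟩

end affine

end Crest.Agent.TL.Asm
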