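import Crest.Agent.TL.Series

/-!
# The concrete potential of the S0209/S0210 blueprint

`s = U χ₁ + U₂ χ₂ (+ core)`; `χ₁ = 1` on `[0,1]`, linear to `0` at `1+δ`;
`χ₂ = 1` on `[0,r₂/2]`, down to `0` at `r₂`, `0` on `[r₂,2r₂]`, up to `1` at `3r₂`, `1` on `[3r₂,1]`,
down to `0` at `1+δ`. The core is `(1/r - 1/r₃)₊`.

The final potentials are `φ = β (s - A w)`, and this file proves all the clauses of the statements
of S0209 and S0210 that concern only the shape of the potential (no thermodynamics).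
-/

set_option autoImplicit false

namespace Crest.Agent.TL.Potential

open Real MeasureTheory Filter Set
open Crest.ProbabilityR.Continuum
open Crest.Agent.TL.Gauss Crest.Agent.TL.Series

/-- `χ₁`. -/
noncomputable def chi1 (δ r : ℝ) : ℝ := max 0 (min 1 ((1 + δ - r) / δ))

/-- The low bump of `χ₂`. -/
noncomputable def bumpLow (r2 r : ℝ) : ℝ := max 0 (min 1 ((r2 - r) / (r2 / 2)))

/-- The high bump of `χ₂`. -/
noncomputable def bumpHigh (r2 δ r : ℝ) : ℝ :=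
  max 0 (min (min 1 ((r - 2 * r2) / r2)) ((1 + δ - r) / δ))

/-- `χ₂`. -/
noncomputable def chi2 (r2 δ r : ℝ) : ℝ := max (bumpLow r2 r) (bumpHigh r2 δ r)

/-- The short range part `U χ₁ + U₂ χ₂` -/
noncomputable def sr (U U2 r2 δ r : ℝ) : ℝ := U * chi1 δ r + U2 * chi2 r2 δ r

/-- The core `(1/r - 1/r₃)₊` (with `core 0 = 0` by Lean's convention `1/0 = 0`). -/
noncomputable def core (r3 r : ℝ) : ℝ := max 0 (r⁻¹ - r3⁻¹)

section basic

variable {U U2 r2 δ r3 r : ℝ}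

lemma continuous_chi1 : Continuous (chi1 δ) := by
  unfold chi1; fun_prop

lemma continuous_bumpLow : Continuous (bumpLow r2) := by
  unfold bumpLow; fun_prop

lemma continuous_bumpHigh : Continuous (bumpHigh r2 δ) := by
  unfold bumpHigh; fun_prop

lemma continuous_chi2 : Continuous (chi2 r2 δ) :=
  continuous_bumpLow.max continuous_bumpHigh

lemma continuous_sr : Continuous (sr U U2 r2 δ) := by
  unfold sr
  exact (continuous_const.mul continuous_chi1).add (continuous_const.mul continuous_chi2)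

lemma chi1_nonneg : 0 ≤ chi1 δ r := le_max_left _ _

lemma chi1_le_one : chi1 δ r ≤ 1 := max_le zero_le_one (min_le_left _ _)

lemma chi1_eq_one (hδ : 0 < δ) (hr : r ≤ 1) : chi1 δ r = 1 := by
  unfold chi1
  have : 1 ≤ (1 + δ - r) / δ := by
    rw [le_div_iff₀ hδ]; linarith
  rw [min_eq_left this]
  exact max_eq_right zero_le_one

lemma chi1_eq_zero (hδ : 0 < δ) (hr : 1 + δ ≤ r) : chi1 δ r = 0 := by
  unfold chi1
  have : (1 + δ - r) / δ ≤ 0 := div_nonpos_of_nonpos_of_nonneg (by linarith) hδ.le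
  exact max_eq_left ((min_le_right _ _).trans this)

lemma bumpLow_nonneg : 0 ≤ bumpLow r2 r := le_max_left _ _

lemma bumpLow_le_one : bumpLow r2 r ≤ 1 := max_le zero_le_one (min_le_left _ _)

lemma bumpHigh_nonneg : 0 ≤ bumpHigh r2 δ r := le_max_left _ _

lemma bumpHigh_le_one : bumpHigh r2 δ r ≤ 1 :=
  max_le zero_le_one ((min_le_left _ _).trans (min_le_left _ _))

lemma chi2_nonneg : 0 ≤ chi2 r2 δ r := bumpLow_nonneg.trans (le_max_left _ _)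

lemma chi2_le_one : chi2 r2 δ r ≤ 1 := max_le bumpLow_le_one bumpHigh_le_one

lemma chi2_eq_one_low (hr2 : 0 < r2) (hr : r ≤ r2 / 2) : chi2 r2 δ r = 1 := by
  apply le_antisymm chi2_le_one
  apply le_trans _ (le_max_left _ _)
  unfold bumpLow
  apply le_trans _ (le_max_right _ _)
  apply le_min le_rfl
  rw [le_div_iff₀ (by positivity)]
  linarith

lemma chi2_eq_one_high (hr2 : 0 < r2) (hδ : 0 < δ) (h1 : 3 * r2 ≤ r) (h2 : r ≤ 1) :
    chi2 r2 δ r = 1 := by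
  apply le_antisymm chi2_le_one
  apply le_trans _ (le_max_right _ _)
  unfold bumpHigh
  apply le_trans _ (le_max_right _ _)
  apply le_min (le_min le_rfl _)
  · rw [le_div_iff₀ hδ]; linarith
  · rw [le_div_iff₀ hr2]; linarith

lemma chi2_eq_zero_mid (hr2 : 0 < r2) (h1 : r2 ≤ r) (h2 : r ≤ 2 * r2) : chi2 r2 δ r = 0 := by
  unfold chi2 bumpLow bumpHigh
  have h3 : (r2 - r) / (r2 / 2) ≤ 0 :=
    div_nonpos_of_nonpos_of_nonneg (by linarith) (by positivity)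
  have h4 : (r - 2 * r2) / r2 ≤ 0 := div_nonpos_of_nonpos_of_nonneg (by linarith) hr2.le
  rw [max_eq_left ((min_le_right _ _).trans h3),
    max_eq_left (((min_le_left _ _).trans (min_le_right _ _)).trans h4)]
  exact max_self 0

lemma chi2_eq_zero_far (hr2 : 0 < r2) (hδ : 0 < δ) (h1 : r2 ≤ r) (h2 : 1 + δ ≤ r) :
    chi2 r2 δ r = 0 := by
  unfold chi2 bumpLow bumpHigh
  have h3 : (r2 - r) / (r2 / 2) ≤ 0 :=
    div_nonpos_of_nonpos_of_nonneg (by linarith) (by positivity)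
  have h4 : (1 + δ - r) / δ ≤ 0 := div_nonpos_of_nonpos_of_nonneg (by linarith) hδ.le
  rw [max_eq_left ((min_le_right _ _).trans h3), max_eq_left ((min_le_right _ _).trans h4)]
  exact max_self 0

lemma sr_nonneg (hU : 0 ≤ U) (hU2 : 0 ≤ U2) (r : ℝ) : 0 ≤ sr U U2 r2 δ r :=
  add_nonneg (mul_nonneg hU chi1_nonneg) (mul_nonneg hU2 chi2_nonneg)

lemma sr_le (hU : 0 ≤ U) (hU2 : 0 ≤ U2) (r : ℝ) : sr U U2 r2 δ r ≤ U + U2 := by
  unfold sr
  have h1 : U * chi1 δ r ≤ U * 1 := mul_le_mul_of_nonneg_left chi1_le_one hU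
  have h2 : U2 * chi2 r2 δ r ≤ U2 * 1 := mul_le_mul_of_nonneg_left chi2_le_one hU2
  linarith

lemma sr_ge_U (hU2 : 0 ≤ U2) (hδ : 0 < δ) (hr : r ≤ 1) : U ≤ sr U U2 r2 δ r := by
  unfold sr
  rw [chi1_eq_one hδ hr, mul_one]
  have := mul_nonneg hU2 (chi2_nonneg (r2 := r2) (δ := δ) (r := r))
  linarith

lemma sr_ge_U2 (hU : 0 ≤ U) (hr2 : 0 < r2) (hδ : 0 < δ)
    (hr : r ≤ r2 / 2 ∨ (3 * r2 ≤ r ∧ r ≤ 1)) : U2 ≤ sr U U2 r2 δ r := by
  unfold sr
  have h1 : chi2 r2 δ r = 1 := by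
    rcases hr with h | ⟨h1, h2⟩
    · exact chi2_eq_one_low hr2 h
    · exact chi2_eq_one_high hr2 hδ h1 h2
  rw [h1, mul_one]
  have := mul_nonneg hU (chi1_nonneg (δ := δ) (r := r))
  linarith

lemma sr_eq_zero (hr2 : r2 ≤ 1) (hδ : 0 < δ) (hr2' : 0 < r2) (hr : 1 + δ ≤ r) :
    sr U U2 r2 δ r = 0 := by
  unfold sr
  rw [chi1_eq_zero hδ hr, chi2_eq_zero_far hr2' hδ (by linarith) hr]
  ring

/-- Distances in `[r₂,2r₂]` cost exactly `U` (this is what the doubled sites use). -/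
lemma sr_eq_U_mid (hr2 : 0 < r2) (hδ : 0 < δ) (h1 : r2 ≤ r) (h2 : r ≤ 2 * r2) (h3 : r ≤ 1) :
    sr U U2 r2 δ r = U := by
  unfold sr
  rw [chi1_eq_one hδ h3, chi2_eq_zero_mid hr2 h1 h2]
  ring

lemma core_nonneg : 0 ≤ core r3 r := le_max_left _ _

lemma core_eq_zero (hr3 : 0 < r3) (hr : r3 ≤ r) : core r3 r = 0 := by
  unfold core
  have : r⁻¹ ≤ r3⁻¹ := inv_anti₀ hr3 hr
  exact max_eq_left (by linarith)

lemma measurable_core : Measurable (core r3) := by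
  unfold core
  fun_prop

lemma core_le_of_ge (hr3 : 0 < r3) {a : ℝ} (ha : 0 < a) (hr : a ≤ r) : core r3 r ≤ a⁻¹ := by
  unfold core
  apply max_le (by positivity)
  have : r⁻¹ ≤ a⁻¹ := inv_anti₀ ha hr
  have : 0 < r3⁻¹ := by positivity
  linarith

lemma tendsto_core (r3 : ℝ) : Tendsto (core r3) (nhdsWithin 0 (Ioi 0)) atTop := by
  have h1 : Tendsto (fun r : ℝ => r⁻¹ - r3⁻¹) (nhdsWithin 0 (Ioi 0)) atTop :=
    tendsto_atTop_add_const_right _ _ tendsto_inv_nhdsGT_zero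
  exact tendsto_atTop_mono (fun r => le_max_right _ _) h1

end basic

/-! ### S0209: the smooth potential -/

/-- The potential `β (s - A w)` of S0209. -/
noncomputable def phiS (β A U U2 r2 δ : ℝ) (K0 : ℕ) (r : ℝ) : ℝ :=
  β * (sr U U2 r2 δ r - A * ww K0 r)

section S0209

variable {β A U U2 r2 δ : ℝ} {K0 : ℕ}

lemma continuous_phiS (hK : 1 ≤ K0) : Continuous (phiS β A U U2 r2 δ K0) := by
  unfold phiS
  exact continuous_const.mul (continuous_sr.sub (continuous_const.mul (continuous_ww hK)))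

lemma abs_sr_sub_le (hA : 0 ≤ A) (hU : 0 ≤ U) (hU2 : 0 ≤ U2) (hK : 1 ≤ K0) (r : ℝ) :
    |sr U U2 r2 δ r - A * ww K0 r| ≤ U + U2 + A * ww K0 0 := by
  have h1 := sr_nonneg (r2 := r2) (δ := δ) hU hU2 r
  have h2 := sr_le (r2 := r2) (δ := δ) hU hU2 r
  have h3 := ww_nonneg (K0 := K0) r
  have h4 := ww_le_zero hK r
  have h5 : A * ww K0 r ≤ A * ww K0 0 := mul_le_mul_of_nonneg_left h4 hA
  have h6 : 0 ≤ A * ww K0 r := mul_nonneg hA h3
  rw [abs_le]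
  constructor <;> linarith

lemma phiS_bounded (hβ : 0 ≤ β) (hA : 0 ≤ A) (hU : 0 ≤ U) (hU2 : 0 ≤ U2) (hK : 1 ≤ K0) :
    ∃ M : ℝ, ∀ r : ℝ, |phiS β A U U2 r2 δ K0 r| ≤ M := by
  refine ⟨β * (U + U2 + A * ww K0 0), fun r => ?_⟩
  unfold phiS
  rw [abs_mul, abs_of_nonneg hβ]
  exact mul_le_mul_of_nonneg_left (abs_sr_sub_le hA hU hU2 hK r) hβ

/-- The decay clause of S0209. -/
theorem phiS_decay (hβ : 0 ≤ β) (hA : 0 ≤ A) (hU : 0 ≤ U) (hU2 : 0 ≤ U2) (hK : 1 ≤ K0)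
    (hδ : 0 < δ) (hr2 : 0 < r2) (hr21 : r2 ≤ 1) :
    ∃ C : ℝ, ∀ r : ℝ, 1 ≤ r → |phiS β A U U2 r2 δ K0 r| ≤ C * r ^ (-(3 + 1 / 32 : ℝ)) := by
  refine ⟨β * ((U + U2) * (1 + δ) ^ (3 + 1 / 32 : ℝ) + A * Cdecay K0), fun r hr => ?_⟩
  have hr0 : 0 < r := by linarith
  have hα : 0 < r ^ (-(3 + 1 / 32 : ℝ)) := by positivity
  unfold phiS
  rw [abs_mul, abs_of_nonneg hβ, mul_assoc]
  apply mul_le_mul_of_nonneg_left _ hβ
  have hw : ww K0 r ≤ Cdecay K0 * r ^ (-(3 + 1 / 32 : ℝ)) := ww_decay hK hr0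
  have hw0 := ww_nonneg (K0 := K0) r
  have hs0 := sr_nonneg (r2 := r2) (δ := δ) hU hU2 r
  -- the short range part
  have hs : sr U U2 r2 δ r ≤ (U + U2) * (1 + δ) ^ (3 + 1 / 32 : ℝ) * r ^ (-(3 + 1 / 32 : ℝ)) := by
    rcases le_total (1 + δ) r with h | h
    · rw [sr_eq_zero hr21 hδ hr2 h]
      positivity
    · have h1 : 1 ≤ (1 + δ) ^ (3 + 1 / 32 : ℝ) * r ^ (-(3 + 1 / 32 : ℝ)) := by
        rw [Real.rpow_neg hr0.le, ← div_eq_mul_inv, one_le_div (by positivity)]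
        exact Real.rpow_le_rpow hr0.le h (by norm_num)
      have h2 := sr_le (r2 := r2) (δ := δ) hU hU2 r
      have h3 : 0 ≤ U + U2 := by linarith
      calc sr U U2 r2 δ r ≤ (U + U2) * 1 := by linarith
        _ ≤ (U + U2) * ((1 + δ) ^ (3 + 1 / 32 : ℝ) * r ^ (-(3 + 1 / 32 : ℝ))) :=
            mul_le_mul_of_nonneg_left h1 h3
        _ = _ := by ring
  have hAw : 0 ≤ A * ww K0 r := mul_nonneg hA hw0
  have hAw2 : A * ww K0 r ≤ A * (Cdecay K0 * r ^ (-(3 + 1 / 32 : ℝ))) :=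
    mul_le_mul_of_nonneg_left hw hA
  have hle : |sr U U2 r2 δ r - A * ww K0 r| ≤ sr U U2 r2 δ r + A * ww K0 r := by
    rw [abs_le]; constructor <;> linarith
  refine hle.trans ?_
  calc sr U U2 r2 δ r + A * ww K0 r ≤ (U + U2) * (1 + δ) ^ (3 + 1 / 32 : ℝ) * r ^ (-(3 + 1 / 32 : ℝ))
        + A * (Cdecay K0 * r ^ (-(3 + 1 / 32 : ℝ))) := add_le_add hs hAw2
    _ = _ := by ring

end S0209

/-! ### S0210: the potential with a core -/

/-- The potential `β (s + core - A w)` of S0210. -/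
noncomputable def phiC (β A U U2 r2 δ r3 : ℝ) (K0 : ℕ) (r : ℝ) : ℝ :=
  β * (sr U U2 r2 δ r + core r3 r - A * ww K0 r)

section S0210

variable {β A U U2 r2 δ r3 : ℝ} {K0 : ℕ}

lemma measurable_phiC (hK : 1 ≤ K0) : Measurable (phiC β A U U2 r2 δ r3 K0) := by
  unfold phiC
  refine Measurable.const_mul ?_ _
  exact (continuous_sr.measurable.add measurable_core).sub
    ((continuous_ww hK).measurable.const_mul _)

/-- Bounded on compact subsets of `(0, ∞)`. -/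
theorem phiC_locally_bounded (hβ : 0 ≤ β) (hA : 0 ≤ A) (hU : 0 ≤ U) (hU2 : 0 ≤ U2) (hr3 : 0 < r3)
    (hK : 1 ≤ K0) (a b : ℝ) (ha : 0 < a) (_hab : a ≤ b) :
    ∃ M : ℝ, ∀ r : ℝ, a ≤ r → r ≤ b → |phiC β A U U2 r2 δ r3 K0 r| ≤ M := by
  refine ⟨β * (U + U2 + a⁻¹ + A * ww K0 0), fun r h1 _ => ?_⟩
  unfold phiC
  rw [abs_mul, abs_of_nonneg hβ]
  apply mul_le_mul_of_nonneg_left _ hβ
  have e1 := sr_nonneg (r2 := r2) (δ := δ) hU hU2 r
  have e2 := sr_le (r2 := r2) (δ := δ) hU hU2 r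
  have e3 := core_nonneg (r3 := r3) (r := r)
  have e4 := core_le_of_ge hr3 ha h1
  have e5 := mul_le_mul_of_nonneg_left (ww_le_zero hK r) hA
  have e6 := mul_nonneg hA (ww_nonneg (K0 := K0) r)
  rw [abs_le]
  constructor <;> linarith

/-- `φ → +∞` at `0⁺`. -/
theorem phiC_tendsto (hβ : 0 < β) (hA : 0 ≤ A) (hU : 0 ≤ U) (hU2 : 0 ≤ U2) (hK : 1 ≤ K0) :
    Tendsto (phiC β A U U2 r2 δ r3 K0) (nhdsWithin 0 (Ioi 0)) atTop := by
  have h1 : Tendsto (fun r => core r3 r - A * ww K0 0) (nhdsWithin 0 (Ioi 0)) atTop :=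
    tendsto_atTop_add_const_right _ _ (tendsto_core r3)
  have h2 : Tendsto (fun r => β * (core r3 r - A * ww K0 0)) (nhdsWithin 0 (Ioi 0)) atTop :=
    h1.const_mul_atTop hβ
  refine tendsto_atTop_mono (fun r => ?_) h2
  unfold phiC
  apply mul_le_mul_of_nonneg_left _ hβ.le
  have e1 := sr_nonneg (r2 := r2) (δ := δ) hU hU2 r
  have e5 := mul_le_mul_of_nonneg_left (ww_le_zero hK r) hA
  linarith

/-- Far away the potential is pure `- β A w`. -/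
lemma phiC_far (hδ : 0 < δ) (hr2 : 0 < r2) (hr21 : r2 ≤ 1) (hr3 : 0 < r3) (hr31 : r3 ≤ 1) {r : ℝ}
    (hr : 1 + δ ≤ r) : phiC β A U U2 r2 δ r3 K0 r = -(β * A) * ww K0 r := by
  unfold phiC
  rw [sr_eq_zero hr21 hδ hr2 hr, core_eq_zero hr3 (by linarith)]
  ring

lemma phiS_far (hδ : 0 < δ) (hr2 : 0 < r2) (hr21 : r2 ≤ 1) {r : ℝ}
    (hr : 1 + δ ≤ r) : phiS β A U U2 r2 δ K0 r = -(β * A) * ww K0 r := by
  unfold phiS
  rw [sr_eq_zero hr21 hδ hr2 hr]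
  ring

/-- `φ ≤ -a` on an interval. -/
theorem phiC_neg (hβ : 0 < β) (hA : 0 < A) (hδ : 0 < δ) (hδ1 : δ ≤ 1) (hr2 : 0 < r2)
    (hr21 : r2 ≤ 1) (hr3 : 0 < r3) (hr31 : r3 ≤ 1) (hK : 1 ≤ K0) :
    ∃ r₁ r₂ a : ℝ, 0 < r₁ ∧ r₁ < r₂ ∧ 0 < a ∧
      ∀ r : ℝ, r₁ ≤ r → r ≤ r₂ → phiC β A U U2 r2 δ r3 K0 r ≤ -a := by
  refine ⟨2, 3, β * A * g (RR K0 0) 3, by norm_num, by norm_num, ?_, fun r h1 h2 => ?_⟩
  · have := g_pos (RR_pos K0 0) 3
    positivity
  · rw [phiC_far hδ hr2 hr21 hr3 hr31 (by linarith)]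
    have e1 : g (RR K0 0) 3 ≤ ww K0 r := by
      have h3 : g (RR K0 0) 3 ≤ g (RR K0 0) r := by
        unfold g
        apply mul_le_mul_of_nonneg_left _ (by have := RR_pos K0 0; positivity)
        apply Real.exp_le_exp.mpr
        have hR := RR_pos K0 0
        apply div_le_div_of_nonneg_right _ (by positivity)
        nlinarith
      have h4 : Ah K0 0 * g (RR K0 0) r ≤ ww K0 r :=
        (summable_term hK r).le_tsum 0 fun j _ =>
          mul_nonneg (Ah_pos K0 j).le (g_nonneg (RR_pos K0 j) r)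
      rw [Ah_zero, one_mul] at h4
      linarith
    have hb : 0 < β * A := by positivity
    nlinarith

/-- `r² |φ|` is integrable at infinity. -/
theorem phiC_integrable (hβ : 0 ≤ β) (hA : 0 ≤ A) (hδ : 0 < δ) (hδ1 : δ ≤ 1) (hr2 : 0 < r2)
    (hr21 : r2 ≤ 1) (hr3 : 0 < r3) (hr31 : r3 ≤ 1) (hK : 1 ≤ K0) :
    IntegrableOn (fun r : ℝ => r ^ 2 * |phiC β A U U2 r2 δ r3 K0 r|) (Ioi 2) := by
  have h1 : IntegrableOn (fun r : ℝ => β * A * (r ^ 2 * |ww K0 r|)) (Ioi 2) :=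
    (integrableOn_sq_ww hK (R0 := 2) (by norm_num)).const_mul (β * A)
  refine IntegrableOn.congr_fun h1 (fun r hr => ?_) measurableSet_Ioi
  have hr' : (2:ℝ) < r := hr
  rw [phiC_far hδ hr2 hr21 hr3 hr31 (by linarith), abs_mul, abs_neg,
    abs_of_nonneg (mul_nonneg hβ hA)]
  ring

/-- `r³ φ → 0`. -/
theorem phiC_cube (hδ : 0 < δ) (hr2 : 0 < r2)
    (hr21 : r2 ≤ 1) (hr3 : 0 < r3) (hr31 : r3 ≤ 1) (hK : 1 ≤ K0) :
    Tendsto (fun r : ℝ => r ^ 3 * phiC β A U U2 r2 δ r3 K0 r) atTop (nhds 0) := by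
  have h1 := (tendsto_cube_ww hK).const_mul (-(β * A))
  rw [mul_zero] at h1
  refine h1.congr' ?_
  filter_upwards [eventually_ge_atTop (1 + δ)] with r hr
  rw [phiC_far hδ hr2 hr21 hr3 hr31 hr]
  ring

end S0210

end Crest.Agent.TL.Potential
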