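import Crest.Agent.TL.Splitting
import Crest.Agent.TL.Gauss
import Crest.Agent.TL.Packing

/-!
# Stability on unit cells (module S of the S0209/S0210 blueprint)

Grid of side `1/2` (`Q = sameCell (1/2) τ x`, cells of diameter `< 1`):

* `energy_ge_sameCell`: `U₂ (Q / (2·2197) - N / 2) ≤ E_sr(x)` if `s ≥ 0` and `s ≥ U₂` on `H₂`;
* `sq_le_sameCell`: `N² ≤ (2ℓ+1)³ Q` on `cube ℓ`, `τ = 0`;
* `gauss_sum_le_sameCell`: `∑ a_j E(g R_j) ≤ 4 (∑ a_j (1+1/R_j)³) Q`;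
* `stability`: the final wrapper.
-/

set_option autoImplicit false

namespace Crest.Agent.TL.Splitting

open Finset MeasureTheory Crest.ProbabilityR.Continuum Crest.Agent.TL.Gauss

variable {N : ℕ}

/-- Two points in one grid cell of side `1/2` are at distance `< 1`. -/
lemma dist_lt_one_of_cell {τ : Fin 3 → ℝ} {y z : Pt} (h : cell (1 / 2) τ y = cell (1 / 2) τ z) :
    dist y z < 1 := by
  apply Crest.Agent.TL.Packing.dist_lt_one_of_coord
  intro k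
  have hk := congrFun h k
  simp only [cell] at hk
  have e : ∀ a : ℝ, a / (1 / 2) = 2 * a := fun a => by ring
  have h1 := Int.floor_le ((y k - τ k) / (1 / 2))
  have h2 := Int.lt_floor_add_one ((y k - τ k) / (1 / 2))
  have h3 := Int.floor_le ((z k - τ k) / (1 / 2))
  have h4 := Int.lt_floor_add_one ((z k - τ k) / (1 / 2))
  rw [hk] at h1 h2
  simp only [e] at h1 h2 h3 h4
  rw [abs_lt]
  constructor <;> linarith

/-- The energy is at least `U` per pair of `G'`. -/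
lemma energy_ge_cnt (s : ℝ → ℝ) (U : ℝ) (hs0 : ∀ r, 0 ≤ s r) (x : Fin N → Pt)
    (G' : Fin N → Fin N → Prop) [DecidableRel G'] (hG : ∀ a b, G' a b → U ≤ s (dist (x a) (x b))) :
    U * (cnt G' (fun _ _ => True) univ : ℕ) ≤ energy s x := by
  classical
  have hcnt : (cnt G' (fun _ _ => True) univ : ℕ) =
      ∑ p : {p : Fin N × Fin N // p.1 < p.2}, (if G' p.1.1 p.1.2 then 1 else 0) := by
    unfold cnt
    rw [← Finset.card_filter]
    symm
    refine Finset.card_bij (fun p _ => p.1) ?_ ?_ ?_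
    · intro p hp
      simp only [mem_filter, mem_univ, true_and] at hp
      simp only [mem_filter, mem_product, mem_univ, true_and, and_true]
      exact ⟨p.2, hp⟩
    · intro a _ b _ h
      exact Subtype.ext h
    · intro p hp
      simp only [mem_filter, mem_product, mem_univ, true_and, and_true] at hp
      exact ⟨⟨p, hp.1⟩, by simp [hp.2], rfl⟩
  unfold energy
  rw [hcnt]
  push_cast
  rw [Finset.mul_sum]
  apply Finset.sum_le_sum
  intro p _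
  by_cases h : G' p.1.1 p.1.2
  · simp [h, hG _ _ h]
  · simp [h, hs0]

/-- **Stability from the Turan bound on cells of side `1/2`.** -/
theorem energy_ge_sameCell (s : ℝ → ℝ) (U₂ r₂ : ℝ) (hr₂ : 0 < r₂) (hU₂ : 0 ≤ U₂) (hs0 : ∀ r, 0 ≤ s r)
    (hs2 : ∀ r, (r ≤ r₂ / 2 ∨ (3 * r₂ ≤ r ∧ r ≤ 1)) → U₂ ≤ s r) (τ : Fin 3 → ℝ) (x : Fin N → Pt) :
    U₂ * ((sameCell (1 / 2) τ x : ℝ) / (2 * 2197) - N / 2) ≤ energy s x := by
  classical
  set c : Fin N → (Fin 3 → ℤ) := fun i => cell (1 / 2) τ (x i) with hc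
  set H : Fin N → Fin N → Prop := fun a b =>
    dist (x a) (x b) ≤ r₂ / 2 ∨ (3 * r₂ ≤ dist (x a) (x b) ∧ dist (x a) (x b) ≤ 1) with hH
  -- the graph on all indices
  set G : Fin N → Fin N → Prop := fun a b => H a b ∨ c a ≠ c b with hG
  have hGs : ∀ a b, G a b → G b a := by
    intro a b h
    simp only [hG, hH] at h ⊢
    rw [dist_comm (x b) (x a)]
    rcases h with h | h
    · exact Or.inl h
    · exact Or.inr (Ne.symm h)
  have hGI : ∀ I : Finset (Fin N), (∀ a ∈ I, ∀ b ∈ I, a ≠ b → ¬ G a b) → #I ≤ 2197 := by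
    intro I hI
    by_cases hne : I.Nonempty
    · obtain ⟨a0, ha0⟩ := hne
      have hsame : ∀ a ∈ I, c a = c a0 := by
        intro a ha
        by_cases h : a = a0
        · rw [h]
        · have := hI a ha a0 ha0 h
          simp only [hG, not_or, not_not] at this
          exact this.2
      have := indep_chi2_card_le r₂ hr₂ {y | cell (1 / 2) τ y = c a0} 1
        (by
          intro X hX hsep
          rw [Finset.card_le_one]
          intro y hy z hz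
          by_contra hyz
          have h1 := hsep y hy z hz hyz
          have h2 : dist y z < 1 := dist_lt_one_of_cell ((hX y hy).trans (hX z hz).symm)
          linarith)
        x I (fun a ha => hsame a ha)
        (by
          intro a ha b hb hab
          have := hI a ha b hb hab
          simp only [hG, not_or] at this
          exact this.1)
      simpa using this
    · rw [Finset.not_nonempty_iff_eq_empty.1 hne]; simp
  -- the Turan bound for every cell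
  set C : Finset (Fin 3 → ℤ) := univ.image c with hCdef
  set S : (Fin 3 → ℤ) → Finset (Fin N) := fun q => univ.filter (fun i => c i = q) with hS
  have hT : ∀ q ∈ C, ((#(S q) : ℝ) ^ 2 / (2 * 2197) - #(S q) / 2) ≤
      (cnt G (fun _ _ => True) (S q) : ℕ) := by
    intro q _
    have := turan_convex G hGs 2197 (by norm_num) hGI (S q)
    simpa using this
  -- total number of particles
  have hNsum : ∑ q ∈ C, (#(S q) : ℝ) = N := by
    have h := Finset.card_eq_sum_card_fiberwise (s := (univ : Finset (Fin N))) (t := C) (f := c)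
      (fun i _ => Finset.mem_image_of_mem c (mem_univ i))
    have h' : (N : ℕ) = ∑ q ∈ C, #(S q) := by simpa using h
    have h'' : (N : ℝ) = ((∑ q ∈ C, #(S q) : ℕ) : ℝ) := by exact_mod_cast h'
    rw [h'']; push_cast; rfl
  -- the same-cell count
  have hQ : ((sameCell (1 / 2) τ x : ℕ) : ℝ) = ∑ q ∈ C, (#(S q) : ℝ) ^ 2 := by
    have h := Finset.card_eq_sum_card_fiberwise
      (s := univ.filter (fun p : Fin N × Fin N => c p.1 = c p.2)) (t := C) (f := fun p => c p.1)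
      (fun p _ => Finset.mem_image_of_mem c (mem_univ p.1))
    have h2 : ∀ q ∈ C, #(({p ∈ univ.filter (fun p : Fin N × Fin N => c p.1 = c p.2) | c p.1 = q})) =
        #(S q) ^ 2 := by
      intro q _
      rw [sq, ← Finset.card_product]
      congr 1
      ext p
      simp only [hS, mem_filter, mem_univ, true_and, mem_product]
      constructor
      · rintro ⟨h1, h2⟩; exact ⟨h2, h1 ▸ h2⟩
      · rintro ⟨h1, h2⟩; exact ⟨h1.trans h2.symm, h1⟩
    rw [Finset.sum_congr rfl h2] at h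
    unfold sameCell
    have h' : #(univ.filter (fun p : Fin N × Fin N => cell (1 / 2) τ (x p.1) = cell (1 / 2) τ (x p.2)))
        = ∑ q ∈ C, #(S q) ^ 2 := h
    rw [h']; push_cast; rfl
  -- the sum over cells of the cell counts is the number of monochromatic `H`-pairs
  set G' : Fin N → Fin N → Prop := fun a b => H a b ∧ c a = c b with hG'
  have hsum : ∑ q ∈ C, cnt G (fun _ _ => True) (S q) ≤ cnt G' (fun _ _ => True) univ := by
    unfold cnt
    rw [← Finset.card_biUnion]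
    · apply Finset.card_le_card
      intro p hp
      obtain ⟨q, _, hq⟩ := mem_biUnion.1 hp
      simp only [hS, mem_filter, mem_product, mem_univ, true_and, and_true] at hq ⊢
      obtain ⟨⟨h1, h2⟩, h3, h4⟩ := hq
      have h12 : c p.1 = c p.2 := h1.trans h2.symm
      refine ⟨h3, ?_, h12⟩
      rcases h4 with h4 | h4
      · exact h4
      · exact absurd h12 h4
    · intro q _ q' _ hqq'
      rw [Function.onFun, Finset.disjoint_left]
      intro p hp hp'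
      simp only [hS, mem_filter, mem_product, mem_univ, true_and] at hp hp'
      exact hqq' (hp.1.1.symm.trans hp'.1.1)
  have hE := energy_ge_cnt s U₂ hs0 x G' (fun a b h => hs2 _ h.1)
  have hfinal : ((sameCell (1 / 2) τ x : ℝ) / (2 * 2197) - N / 2) ≤
      (cnt G' (fun _ _ => True) univ : ℕ) := by
    calc ((sameCell (1 / 2) τ x : ℝ) / (2 * 2197) - N / 2)
        = ∑ q ∈ C, ((#(S q) : ℝ) ^ 2 / (2 * 2197) - #(S q) / 2) := by
          rw [Finset.sum_sub_distrib, ← Finset.sum_div, ← Finset.sum_div, hQ, hNsum]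
      _ ≤ ∑ q ∈ C, ((cnt G (fun _ _ => True) (S q) : ℕ) : ℝ) := Finset.sum_le_sum hT
      _ = ((∑ q ∈ C, cnt G (fun _ _ => True) (S q) : ℕ) : ℝ) := by push_cast; rfl
      _ ≤ _ := by exact_mod_cast hsum
  calc U₂ * ((sameCell (1 / 2) τ x : ℝ) / (2 * 2197) - N / 2)
      ≤ U₂ * (cnt G' (fun _ _ => True) univ : ℕ) := mul_le_mul_of_nonneg_left hfinal hU₂
    _ ≤ _ := hE

/-- Cauchy-Schwarz on the cells of the cube. -/
theorem sq_le_sameCell (ℓ : ℝ) (hℓ : 0 ≤ ℓ) (x : Fin N → Pt) (hx : ∀ i, x i ∈ cube ℓ) :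
    (N : ℝ) ^ 2 ≤ (2 * ℓ + 1) ^ 3 * (sameCell (1 / 2) (0 : Fin 3 → ℝ) x : ℝ) := by
  classical
  set c : Fin N → (Fin 3 → ℤ) := fun i => cell (1 / 2) (0 : Fin 3 → ℝ) (x i) with hc
  set Cb : Finset (Fin 3 → ℤ) := Fintype.piFinset (fun _ => Finset.Icc 0 ⌊2 * ℓ⌋) with hCb
  have hmem : ∀ i, c i ∈ Cb := by
    intro i
    simp only [hCb, Fintype.mem_piFinset, Finset.mem_Icc]
    intro a
    have h := hx i a
    simp only [hc, cell, Pi.zero_apply, sub_zero]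
    have e : (x i a) / (1 / 2) = 2 * x i a := by ring
    rw [e]
    constructor
    · exact Int.floor_nonneg.2 (by linarith [h.1])
    · exact Int.floor_le_floor (by linarith [h.2])
  set S : (Fin 3 → ℤ) → Finset (Fin N) := fun q => univ.filter (fun i => c i = q) with hS
  have hNsum : ∑ q ∈ Cb, (#(S q) : ℝ) = N := by
    have h := Finset.card_eq_sum_card_fiberwise (s := (univ : Finset (Fin N))) (t := Cb) (f := c)
      (fun i _ => hmem i)
    have h' : (N : ℕ) = ∑ q ∈ Cb, #(S q) := by simpa using h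
    have h'' : (N : ℝ) = ((∑ q ∈ Cb, #(S q) : ℕ) : ℝ) := by exact_mod_cast h'
    rw [h'']; push_cast; rfl
  have hQ : ((sameCell (1 / 2) (0 : Fin 3 → ℝ) x : ℕ) : ℝ) = ∑ q ∈ Cb, (#(S q) : ℝ) ^ 2 := by
    have h := Finset.card_eq_sum_card_fiberwise
      (s := univ.filter (fun p : Fin N × Fin N => c p.1 = c p.2)) (t := Cb) (f := fun p => c p.1)
      (fun p _ => hmem p.1)
    have h2 : ∀ q ∈ Cb, #(({p ∈ univ.filter (fun p : Fin N × Fin N => c p.1 = c p.2) | c p.1 = q})) =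
        #(S q) ^ 2 := by
      intro q _
      rw [sq, ← Finset.card_product]
      congr 1
      ext p
      simp only [hS, mem_filter, mem_univ, true_and, mem_product]
      constructor
      · rintro ⟨h1, h2⟩; exact ⟨h2, h1 ▸ h2⟩
      · rintro ⟨h1, h2⟩; exact ⟨h1.trans h2.symm, h1⟩
    rw [Finset.sum_congr rfl h2] at h
    unfold sameCell
    have h' : #(univ.filter (fun p : Fin N × Fin N =>
        cell (1 / 2) (0 : Fin 3 → ℝ) (x p.1) = cell (1 / 2) (0 : Fin 3 → ℝ) (x p.2)))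
        = ∑ q ∈ Cb, #(S q) ^ 2 := h
    rw [h']; push_cast; rfl
  have hcard : (#Cb : ℝ) ≤ (2 * ℓ + 1) ^ 3 := by
    have h1 : #Cb = (⌊2 * ℓ⌋ + 1).toNat ^ 3 := by
      simp [hCb, Fintype.card_piFinset, Int.card_Icc]
    have h0 : 0 ≤ ⌊2 * ℓ⌋ := Int.floor_nonneg.2 (by linarith)
    have h2 : ((⌊2 * ℓ⌋ + 1).toNat : ℝ) = (⌊2 * ℓ⌋ : ℝ) + 1 := by
      have hn : ((⌊2 * ℓ⌋ + 1).toNat : ℤ) = ⌊2 * ℓ⌋ + 1 := Int.toNat_of_nonneg (by omega)
      have : (((⌊2 * ℓ⌋ + 1).toNat : ℤ) : ℝ) = ((⌊2 * ℓ⌋ + 1 : ℤ) : ℝ) := by rw [hn]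
      rw [Int.cast_natCast] at this
      push_cast at this
      exact this
    rw [h1]
    push_cast
    rw [h2]
    have h3 : (⌊2 * ℓ⌋ : ℝ) ≤ 2 * ℓ := Int.floor_le _
    have h4 : (0 : ℝ) ≤ (⌊2 * ℓ⌋ : ℝ) + 1 := by
      have : (0 : ℝ) ≤ (⌊2 * ℓ⌋ : ℝ) := by exact_mod_cast h0
      linarith
    exact pow_le_pow_left₀ h4 (by linarith) 3
  have hCS : (∑ q ∈ Cb, (#(S q) : ℝ)) ^ 2 ≤ #Cb * ∑ q ∈ Cb, (#(S q) : ℝ) ^ 2 :=
    sq_sum_le_card_mul_sum_sq
  rw [hNsum, ← hQ] at hCS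
  calc (N : ℝ) ^ 2 ≤ _ := hCS
    _ ≤ _ := mul_le_mul_of_nonneg_right hcard (by positivity)

/-- Gaussian mixture and the `1/2`-grid count. -/
theorem gauss_sum_le_sameCell {ι : Type*} (J : Finset ι) (a R : ι → ℝ) (ha : ∀ j ∈ J, 0 ≤ a j)
    (hR : ∀ j ∈ J, 0 < R j) (τ : Fin 3 → ℝ) (x : Fin N → Pt) :
    ∑ j ∈ J, a j * energy (g (R j)) x ≤
      4 * (∑ j ∈ J, a j * (1 + 1 / R j) ^ 3) * (sameCell (1 / 2) τ x : ℝ) := by
  rw [Finset.mul_sum, Finset.sum_mul]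
  apply Finset.sum_le_sum
  intro j hj
  have h := row (N := N) (hR j hj) (by norm_num : (0 : ℝ) < 1 / 2) τ x
  have e : (1 / 2 : ℝ) * (1 + 2 * (1 / 2) / R j) ^ 3 * ((sameCell (1 / 2) τ x : ℝ) / (1 / 2) ^ 3) =
      4 * (1 + 1 / R j) ^ 3 * (sameCell (1 / 2) τ x : ℝ) := by
    ring
  rw [e] at h
  calc a j * energy (g (R j)) x ≤ a j * (4 * (1 + 1 / R j) ^ 3 * (sameCell (1 / 2) τ x : ℝ)) :=
        mul_le_mul_of_nonneg_left h (ha j hj)
    _ = _ := by ring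

/-- **STABILITY wrapper.** Configurations in `cube ℓ`, `ℓ ≥ 1`, `1/2 ≤ u ≤ 1`, `0 ≤ A ≤ A₊`,
`W ≤ 4 Γ₁ Q`, with `U₂ ≥ 4·2197·(4 Γ₁ + 27/2 Γ + 8) A₊`:
`u E_sr - A W - (1/2) A Γ N²/ℓ³ ≥ A₊ N²/(ℓ+1)³ - (U₂/2) N`. -/
theorem stability (s : ℝ → ℝ) (U₂ r₂ ℓ u A Aplus Γ₁ Γ W : ℝ) (hr₂ : 0 < r₂) (hs0 : ∀ r, 0 ≤ s r)
    (hs2 : ∀ r, (r ≤ r₂ / 2 ∨ (3 * r₂ ≤ r ∧ r ≤ 1)) → U₂ ≤ s r) (hℓ : 1 ≤ ℓ)
    (hu1 : 1 / 2 ≤ u) (hu2 : u ≤ 1) (hA : 0 ≤ A) (hAp : A ≤ Aplus) (hΓ₁ : 0 ≤ Γ₁) (hΓ : 0 ≤ Γ)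
    (hU₂ : 4 * 2197 * ((4 * Γ₁ + 27 / 2 * Γ + 8) * Aplus) ≤ U₂) (x : Fin N → Pt)
    (hx : ∀ i, x i ∈ cube ℓ)
    (hW : W ≤ 4 * Γ₁ * (sameCell (1 / 2) (0 : Fin 3 → ℝ) x : ℝ)) :
    Aplus * ((N : ℝ) ^ 2 / (ℓ + 1) ^ 3) - U₂ / 2 * N ≤
      u * energy s x - A * W - 1 / 2 * A * Γ * ((N : ℝ) ^ 2 / ℓ ^ 3) := by
  set Q : ℝ := (sameCell (1 / 2) (0 : Fin 3 → ℝ) x : ℝ) with hQ
  have hQ0 : 0 ≤ Q := by positivity
  have hAplus : 0 ≤ Aplus := hA.trans hAp
  have hU0 : 0 ≤ U₂ := le_trans (by positivity) hU₂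
  have hE := energy_ge_sameCell s U₂ r₂ hr₂ hU0 hs0 hs2 (0 : Fin 3 → ℝ) x
  have hsq := sq_le_sameCell ℓ (by linarith) x hx
  have hN0 : (0 : ℝ) ≤ N := by positivity
  have hℓ0 : (0 : ℝ) < ℓ := by linarith
  -- `N² / ℓ³ ≤ 27 Q`, `N² / (ℓ+1)³ ≤ 8 Q`
  have h27 : (N : ℝ) ^ 2 / ℓ ^ 3 ≤ 27 * Q := by
    rw [div_le_iff₀ (by positivity)]
    have h1 : (2 * ℓ + 1) ^ 3 ≤ 27 * ℓ ^ 3 := by
      have : 2 * ℓ + 1 ≤ 3 * ℓ := by linarith
      calc (2 * ℓ + 1) ^ 3 ≤ (3 * ℓ) ^ 3 := pow_le_pow_left₀ (by linarith) this 3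
        _ = _ := by ring
    nlinarith
  have h8 : (N : ℝ) ^ 2 / (ℓ + 1) ^ 3 ≤ 8 * Q := by
    rw [div_le_iff₀ (by positivity)]
    have h1 : (2 * ℓ + 1) ^ 3 ≤ 8 * (ℓ + 1) ^ 3 := by
      have : 2 * ℓ + 1 ≤ 2 * (ℓ + 1) := by linarith
      calc (2 * ℓ + 1) ^ 3 ≤ (2 * (ℓ + 1)) ^ 3 := pow_le_pow_left₀ (by linarith) this 3
        _ = _ := by ring
    nlinarith
  have hE1 : u * energy s x ≥ U₂ * (Q / (4 * 2197)) - U₂ / 2 * N := by
    have h1 : u * (U₂ * (Q / (2 * 2197) - N / 2)) ≤ u * energy s x :=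
      mul_le_mul_of_nonneg_left hE (by linarith)
    have h2 : U₂ * (Q / (4 * 2197)) ≤ u * (U₂ * (Q / (2 * 2197))) := by
      have : U₂ * (Q / (4 * 2197)) = (1 / 2) * (U₂ * (Q / (2 * 2197))) := by ring
      rw [this]
      exact mul_le_mul_of_nonneg_right hu1 (by positivity)
    have h3 : u * (U₂ * (N / 2)) ≤ U₂ / 2 * N := by
      have : U₂ / 2 * N = 1 * (U₂ * (N / 2)) := by ring
      rw [this]
      exact mul_le_mul_of_nonneg_right hu2 (by positivity)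
    nlinarith
  have hW2 : A * W ≤ Aplus * (4 * Γ₁ * Q) := by
    calc A * W ≤ A * (4 * Γ₁ * Q) := mul_le_mul_of_nonneg_left hW hA
      _ ≤ _ := mul_le_mul_of_nonneg_right hAp (by positivity)
  have hG : 1 / 2 * A * Γ * ((N : ℝ) ^ 2 / ℓ ^ 3) ≤ Aplus * (27 / 2 * Γ * Q) := by
    calc 1 / 2 * A * Γ * ((N : ℝ) ^ 2 / ℓ ^ 3) ≤ 1 / 2 * A * Γ * (27 * Q) :=
          mul_le_mul_of_nonneg_left h27 (by positivity)
      _ = A * (27 / 2 * Γ * Q) := by ring
      _ ≤ _ := mul_le_mul_of_nonneg_right hAp (by positivity)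
  have hP : Aplus * ((N : ℝ) ^ 2 / (ℓ + 1) ^ 3) ≤ Aplus * (8 * Q) :=
    mul_le_mul_of_nonneg_left h8 hAplus
  have hU3 : (4 * Γ₁ + 27 / 2 * Γ + 8) * Aplus * Q ≤ U₂ * (Q / (4 * 2197)) := by
    have : (4 * Γ₁ + 27 / 2 * Γ + 8) * Aplus ≤ U₂ / (4 * 2197) := by
      rw [le_div_iff₀ (by norm_num)]
      linarith
    calc _ ≤ U₂ / (4 * 2197) * Q := mul_le_mul_of_nonneg_right this hQ0
      _ = _ := by ring
  nlinarith

end Crest.Agent.TL.Splitting
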