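import Crest.Agent.TL.Thermo

/-!
# Convexity of the limit in the parameters (Hölder) and crude bounds

Continuation of `Crest.Agent.TL.Thermo`.
-/

set_option linter.unusedSectionVars false

namespace Crest.Agent.TL.Thermo

open MeasureTheory Filter Topology Set
open Crest.ProbabilityR.Continuum

section Holder

variable {ι : Type*} [Fintype ι] [DecidableEq ι]

/-- `en2` is linear in the potential. -/
lemma en2_lin {φ φ0 φ1 : ℝ → ℝ} {β β0 β1 t : ℝ}
    (hlin : ∀ r, β * φ r = (1 - t) * (β0 * φ0 r) + t * (β1 * φ1 r)) (x : ι → Pt) :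
    β * en2 φ x = (1 - t) * (β0 * en2 φ0 x) + t * (β1 * en2 φ1 x) := by
  unfold en2
  simp only [Finset.mul_sum]
  rw [← Finset.sum_add_distrib]
  refine Finset.sum_congr rfl (fun i _ => ?_)
  rw [← Finset.sum_add_distrib]
  refine Finset.sum_congr rfl (fun j _ => ?_)
  by_cases h : i = j
  · simp [h]
  · simp only [h, if_false]
    exact hlin _

/-- Hölder inequality for the integrals. -/
lemma IZ_holder {φ φ0 φ1 : ℝ → ℝ} {B0 B1 : ℝ} (h0 : Adm φ0 B0) (h1 : Adm φ1 B1)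
    {β β0 β1 t : ℝ} (hβ0 : 0 ≤ β0) (hβ1 : 0 ≤ β1) (ht0 : 0 < t) (ht1 : t < 1)
    (hlin : ∀ r, β * φ r = (1 - t) * (β0 * φ0 r) + t * (β1 * φ1 r))
    {D : Set Pt} (hm : MeasurableSet D) (hv : volume D ≠ ⊤) :
    IZ φ β ι D ≤ IZ φ0 β0 ι D ^ (1 - t) * IZ φ1 β1 ι D ^ t := by
  classical
  set S := Set.pi Set.univ (fun _ : ι => D) with hS
  have hSv : volume S ≠ ⊤ := volume_pi_const_ne_top hv
  set μ := (volume : Measure (ι → Pt)).restrict S with hμ
  set f0 : (ι → Pt) → ℝ := fun x => Real.exp (-(β0 / 2) * en2 φ0 x) with hf0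
  set f1 : (ι → Pt) → ℝ := fun x => Real.exp (-(β1 / 2) * en2 φ1 x) with hf1
  have hf0m : Measurable f0 := Real.measurable_exp.comp ((measurable_en2 h0.meas).const_mul _)
  have hf1m : Measurable f1 := Real.measurable_exp.comp ((measurable_en2 h1.meas).const_mul _)
  have hf0pos : ∀ x, 0 < f0 x := fun x => Real.exp_pos _
  have hf1pos : ∀ x, 0 < f1 x := fun x => Real.exp_pos _
  have hp : (1 / (1 - t)).HolderConjugate (1 / t) := by
    rw [Real.holderConjugate_iff]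
    constructor
    · rw [lt_div_iff₀ (by linarith)]; linarith
    · simp
  have hfinμ : IsFiniteMeasure μ := ⟨by rw [hμ, Measure.restrict_apply_univ]; exact hSv.lt_top⟩
  have hmem0 : MemLp (fun x => f0 x ^ (1 - t)) (ENNReal.ofReal (1 / (1 - t))) μ := by
    refine MemLp.of_bound (hf0m.pow_const _).aestronglyMeasurable
      (Real.exp (β0 * B0 * Fintype.card ι) ^ (1 - t)) (Eventually.of_forall (fun x => ?_))
    rw [Real.norm_eq_abs, abs_of_nonneg (Real.rpow_nonneg (hf0pos x).le _)]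
    exact Real.rpow_le_rpow (hf0pos x).le (h0.integrand_le hβ0 x) (by linarith)
  have hmem1 : MemLp (fun x => f1 x ^ t) (ENNReal.ofReal (1 / t)) μ := by
    refine MemLp.of_bound (hf1m.pow_const _).aestronglyMeasurable
      (Real.exp (β1 * B1 * Fintype.card ι) ^ t) (Eventually.of_forall (fun x => ?_))
    rw [Real.norm_eq_abs, abs_of_nonneg (Real.rpow_nonneg (hf1pos x).le _)]
    exact Real.rpow_le_rpow (hf1pos x).le (h1.integrand_le hβ1 x) (by linarith)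
  have hH := integral_mul_le_Lp_mul_Lq_of_nonneg (μ := μ) hp
    (f := fun x => f0 x ^ (1 - t)) (g := fun x => f1 x ^ t)
    (Eventually.of_forall (fun x => Real.rpow_nonneg (hf0pos x).le _))
    (Eventually.of_forall (fun x => Real.rpow_nonneg (hf1pos x).le _)) hmem0 hmem1
  have h1t : (1 : ℝ) - t ≠ 0 := by linarith
  have e1 : ∀ x, (f0 x ^ (1 - t)) ^ (1 / (1 - t)) = f0 x := fun x => by
    rw [← Real.rpow_mul (hf0pos x).le, mul_one_div_cancel h1t, Real.rpow_one]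
  have e2 : ∀ x, (f1 x ^ t) ^ (1 / t) = f1 x := fun x => by
    rw [← Real.rpow_mul (hf1pos x).le, mul_one_div_cancel ht0.ne', Real.rpow_one]
  have e3 : ∀ x, f0 x ^ (1 - t) * f1 x ^ t = Real.exp (-(β / 2) * en2 φ x) := fun x => by
    rw [hf0, hf1, ← Real.exp_mul, ← Real.exp_mul, ← Real.exp_add]
    congr 1
    have := en2_lin hlin x
    linarith
  simp only [e1, e2, e3, one_div_one_div] at hH
  exact hH

/-- Hölder for `log Z`. -/
lemma logZ_holder {φ φ0 φ1 : ℝ → ℝ} {B B0 B1 : ℝ} (h : Adm φ B) (h0 : Adm φ0 B0) (h1 : Adm φ1 B1)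
    {β β0 β1 t : ℝ} (hβ : 0 ≤ β) (hβ0 : 0 ≤ β0) (hβ1 : 0 ≤ β1) (ht0 : 0 < t) (ht1 : t < 1)
    (hlin : ∀ r, β * φ r = (1 - t) * (β0 * φ0 r) + t * (β1 * φ1 r))
    {L : ℝ} (hL : 0 < L) (n : ℕ) :
    logZ φ β L n ≤ (1 - t) * logZ φ0 β0 L n + t * logZ φ1 β1 L n := by
  unfold logZ
  rw [partitionFn_eq_ZD, partitionFn_eq_ZD, partitionFn_eq_ZD]
  have hp := h.ZD_cube_pos hβ hL n
  have hp0 := h0.ZD_cube_pos hβ0 hL n
  have hp1 := h1.ZD_cube_pos hβ1 hL n
  have hI := IZ_holder (ι := Fin n) h0 h1 hβ0 hβ1 ht0 ht1 hlin (measurableSet_cube L)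
    (volume_cube_ne_top L)
  have hc : (0 : ℝ) < 1 / (n.factorial : ℝ) := by positivity
  have hI0 : 0 ≤ IZ φ0 β0 (Fin n) (cube L) := IZ_nonneg _ _ _
  have hI1 : 0 ≤ IZ φ1 β1 (Fin n) (cube L) := IZ_nonneg _ _ _
  have hmain : ZD φ β (cube L) n ≤ ZD φ0 β0 (cube L) n ^ (1 - t) * ZD φ1 β1 (cube L) n ^ t := by
    unfold ZD
    rw [Real.mul_rpow hc.le hI0, Real.mul_rpow hc.le hI1]
    have e : (1 / (n.factorial : ℝ)) ^ (1 - t) * IZ φ0 β0 (Fin n) (cube L) ^ (1 - t) *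
        ((1 / (n.factorial : ℝ)) ^ t * IZ φ1 β1 (Fin n) (cube L) ^ t) =
        (1 / (n.factorial : ℝ)) * (IZ φ0 β0 (Fin n) (cube L) ^ (1 - t) *
          IZ φ1 β1 (Fin n) (cube L) ^ t) := by
      have : (1 / (n.factorial : ℝ)) ^ (1 - t) * (1 / (n.factorial : ℝ)) ^ t =
          1 / (n.factorial : ℝ) := by
        rw [← Real.rpow_add hc]; simp
      calc _ = ((1 / (n.factorial : ℝ)) ^ (1 - t) * (1 / (n.factorial : ℝ)) ^ t) *
          (IZ φ0 β0 (Fin n) (cube L) ^ (1 - t) * IZ φ1 β1 (Fin n) (cube L) ^ t) := by ring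
        _ = _ := by rw [this]
    rw [e]
    exact mul_le_mul_of_nonneg_left hI hc.le
  have := Real.log_le_log hp hmain
  rw [Real.log_mul (by positivity) (by positivity), Real.log_rpow hp0, Real.log_rpow hp1] at this
  exact this

/-- **Hölder in the limit.** -/
theorem hFree_holder {φ φ0 φ1 : ℝ → ℝ} {B B0 B1 : ℝ} (h : Adm φ B) (h0 : Adm φ0 B0)
    (h1 : Adm φ1 B1) {β β0 β1 t : ℝ} (hβ : 0 ≤ β) (hβ0 : 0 ≤ β0) (hβ1 : 0 ≤ β1) (ht0 : 0 < t)
    (ht1 : t < 1) (hlin : ∀ r, β * φ r = (1 - t) * (β0 * φ0 r) + t * (β1 * φ1 r))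
    {σ : ℝ} (hσ : 0 < σ) :
    hFree φ β σ ≤ (1 - t) * hFree φ0 β0 σ + t * hFree φ1 β1 σ := by
  have hl := tendsto_logZ h hβ hσ
  have hl0 := (tendsto_logZ h0 hβ0 hσ).const_mul (1 - t)
  have hl1 := (tendsto_logZ h1 hβ1 hσ).const_mul t
  refine le_of_tendsto_of_tendsto hl (hl0.add hl1) ?_
  filter_upwards [eventually_gt_atTop 0] with L hL
  have hL3 : 0 < L ^ 3 := by positivity
  have := logZ_holder h h0 h1 hβ hβ0 hβ1 ht0 ht1 hlin hL ⌊σ * L ^ 3⌋₊
  unfold logZ at this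
  rw [← mul_div_assoc, ← mul_div_assoc, ← add_div]
  exact div_le_div_of_nonneg_right this hL3.le

/-- Turn the strict-parameter Hölder statement into `ConvexOn` (the endpoints are trivial). -/
lemma convexOn_of_holder {I : Set ℝ} (hI : Convex ℝ I) {f : ℝ → ℝ}
    (hf : ∀ a ∈ I, ∀ b ∈ I, ∀ t : ℝ, 0 < t → t < 1 →
      f ((1 - t) * a + t * b) ≤ (1 - t) * f a + t * f b) : ConvexOn ℝ I f := by
  refine ⟨hI, fun a ha b hb u v hu hv huv => ?_⟩
  rcases hv.eq_or_lt with rfl | hv'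
  · have : u = 1 := by linarith
    subst this; simp
  rcases hu.eq_or_lt with rfl | hu'
  · have : v = 1 := by linarith
    subst this; simp
  have hu1 : u = 1 - v := by linarith
  subst hu1
  simpa [smul_eq_mul] using hf a ha b hb v hv' (by linarith)

/-- Convexity in the inverse temperature. -/
theorem hFree_convex_beta {φ : ℝ → ℝ} {B : ℝ} (h : Adm φ B) {σ : ℝ} (hσ : 0 < σ) :
    ConvexOn ℝ (Ici (0 : ℝ)) (fun β => hFree φ β σ) := by
  refine convexOn_of_holder (convex_Ici 0) (fun a ha b hb t ht0 ht1 => ?_)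
  have ha' : (0 : ℝ) ≤ a := ha
  have hb' : (0 : ℝ) ≤ b := hb
  have hc : 0 ≤ (1 - t) * a + t * b := by
    have : 0 ≤ 1 - t := by linarith
    positivity
  exact hFree_holder h h h hc ha' hb' ht0 ht1 (fun r => by ring) hσ

/-- Convexity in a linear parameter of the potential: `φ_A = s - A w`, `A` in a convex set where
all the potentials are admissible. -/
theorem hFree_convex_param {s w : ℝ → ℝ} {I : Set ℝ} (hI : Convex ℝ I)
    (hadm : ∀ A ∈ I, ∃ B, Adm (fun r => s r - A * w r) B) {β σ : ℝ} (hβ : 0 ≤ β) (hσ : 0 < σ) :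
    ConvexOn ℝ I (fun A => hFree (fun r => s r - A * w r) β σ) := by
  refine convexOn_of_holder hI (fun a ha b hb t ht0 ht1 => ?_)
  have hmem : (1 - t) * a + t * b ∈ I := by
    have := hI ha hb (by linarith : 0 ≤ 1 - t) ht0.le (by ring)
    simpa [smul_eq_mul] using this
  obtain ⟨B, hB⟩ := hadm _ hmem
  obtain ⟨B0, hB0⟩ := hadm _ ha
  obtain ⟨B1, hB1⟩ := hadm _ hb
  exact hFree_holder hB hB0 hB1 hβ hβ hβ ht0 ht1 (fun r => by ring) hσ

/-- Mixed convexity: jointly in `(β, βA)`. -/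
theorem hFree_convex_joint {s w : ℝ → ℝ} {B B0 B1 : ℝ} {β β0 β1 A A0 A1 t σ : ℝ}
    (h : Adm (fun r => s r - A * w r) B) (h0 : Adm (fun r => s r - A0 * w r) B0)
    (h1 : Adm (fun r => s r - A1 * w r) B1) (hβ : 0 ≤ β) (hβ0 : 0 ≤ β0) (hβ1 : 0 ≤ β1)
    (ht0 : 0 < t) (ht1 : t < 1) (hb : β = (1 - t) * β0 + t * β1)
    (hba : β * A = (1 - t) * (β0 * A0) + t * (β1 * A1)) (hσ : 0 < σ) :
    hFree (fun r => s r - A * w r) β σ ≤
      (1 - t) * hFree (fun r => s r - A0 * w r) β0 σ +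
        t * hFree (fun r => s r - A1 * w r) β1 σ := by
  refine hFree_holder h h0 h1 hβ hβ0 hβ1 ht0 ht1 (fun r => ?_) hσ
  have e1 : β * s r = ((1 - t) * β0 + t * β1) * s r := by rw [hb]
  have e2 : β * A * w r = ((1 - t) * (β0 * A0) + t * (β1 * A1)) * w r := by rw [hba]
  linear_combination e1 - e2

end Holder

section Crude

variable {y : ℝ → ℕ → ℝ}

lemma pSup_le_of_upper (h : TLHyp y) {C : ℝ}
    (hC : ∀ (L : ℝ) (n : ℕ), 0 < L → 1 ≤ n → y L n ≤ n * (C - Real.log (n / L ^ 3)))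
    {σ : ℝ} (hσ : 0 < σ) : pSup y σ ≤ C - Real.log σ := by
  refine csSup_le (tileVals_nonempty y σ) ?_
  rintro a ⟨ℓ, n, hℓ, hn, hd, rfl⟩
  have hℓ3 : (3 : ℝ) ≤ ℓ := by exact_mod_cast hℓ
  have hL : 0 < (ℓ : ℝ) - 2 := by linarith
  have hn' : (0 : ℝ) < n := by exact_mod_cast hn
  have h1 := hC ((ℓ : ℝ) - 2) n hL hn
  rw [div_le_iff₀ hn']
  have hσle : σ ≤ n / ((ℓ : ℝ) - 2) ^ 3 := by
    rw [le_div_iff₀ (by positivity)]
    have hpow : ((ℓ : ℝ) - 2) ^ 3 ≤ (ℓ : ℝ) ^ 3 := by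
      apply pow_le_pow_left₀ hL.le; linarith
    have := mul_le_mul_of_nonneg_left hpow hσ.le
    linarith
  have hlog : Real.log σ ≤ Real.log (n / ((ℓ : ℝ) - 2) ^ 3) := Real.log_le_log hσ hσle
  have := mul_le_mul_of_nonneg_left hlog hn'.le
  linarith

/-- Upper bound: `hFree ≤ σ (1 + β B - log σ)`. -/
theorem hFree_le {φ : ℝ → ℝ} {B : ℝ} (h : Adm φ B) {β : ℝ} (hβ : 0 ≤ β) {σ : ℝ} (hσ : 0 < σ) :
    hFree φ β σ ≤ σ * (1 + β * B - Real.log σ) := by
  unfold hFree hLim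
  refine mul_le_mul_of_nonneg_left ?_ hσ.le
  refine pSup_le_of_upper (tlHyp h hβ) (fun L n hL hn => ?_) hσ
  unfold logZ
  rw [partitionFn_eq_ZD]
  exact h.log_ZD_le hβ hL hn

/-- The one-particle partition function. -/
lemma partitionFn_one (φ : ℝ → ℝ) {L : ℝ} (hL : 0 ≤ L) (β : ℝ) :
    partitionFn φ L 1 β = L ^ 3 := by
  rw [partitionFn_eq_ZD]
  unfold ZD IZ
  have hen : ∀ x : Fin 1 → Pt, en2 φ x = 0 := fun x => by simp [en2]
  simp only [hen, mul_zero, Real.exp_zero, Nat.factorial_one, Nat.cast_one, div_one, one_mul]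
  rw [setIntegral_const, smul_eq_mul, mul_one, Measure.real, volume_pi_pi]
  simp [volume_cube, ENNReal.toReal_ofReal hL]

/-- Lower bound from the one-particle tile of side `ℓ`. -/
theorem hFree_ge_one_particle {φ : ℝ → ℝ} {B : ℝ} (h : Adm φ B) {β : ℝ} (hβ : 0 ≤ β) {σ : ℝ}
    (hσ : 0 < σ) {ℓ : ℕ} (hℓ : 3 ≤ ℓ) (hd : σ * (ℓ : ℝ) ^ 3 < 1) :
    σ * Real.log (((ℓ : ℝ) - 2) ^ 3) ≤ hFree φ β σ := by
  unfold hFree hLim
  refine mul_le_mul_of_nonneg_left ?_ hσ.le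
  have hℓ3 : (3 : ℝ) ≤ ℓ := by exact_mod_cast hℓ
  have := le_pSup (tlHyp h hβ) hσ hℓ (n := 1) le_rfl (by exact_mod_cast hd)
  have e : logZ φ β ((ℓ : ℝ) - 2) 1 = Real.log (((ℓ : ℝ) - 2) ^ 3) := by
    unfold logZ
    rw [partitionFn_one φ (by linarith)]
  rw [e] at this
  simpa using this

/-- At low density the limit is nonnegative (so `F ≤ 0`). -/
theorem hFree_nonneg_of_small {φ : ℝ → ℝ} {B : ℝ} (h : Adm φ B) {β : ℝ} (hβ : 0 ≤ β) {σ : ℝ}
    (hσ : 0 < σ) (hd : σ < 1 / 27) : 0 ≤ hFree φ β σ := by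
  have := hFree_ge_one_particle h hβ hσ (ℓ := 3) le_rfl (by push_cast; linarith)
  norm_num at this
  exact this

/-- `hFree → 0` as `σ → 0⁺`. -/
theorem tendsto_hFree_zero {φ : ℝ → ℝ} {B : ℝ} (h : Adm φ B) {β : ℝ} (hβ : 0 ≤ β) :
    Tendsto (hFree φ β) (𝓝[>] 0) (𝓝 0) := by
  have hup : Tendsto (fun σ : ℝ => σ * (1 + β * B) - σ * Real.log σ) (𝓝[>] 0) (𝓝 0) := by
    have h1 : Tendsto (fun σ : ℝ => σ * (1 + β * B)) (𝓝[>] 0) (𝓝 0) := by
      have : Tendsto (fun σ : ℝ => σ) (𝓝[>] 0) (𝓝 0) := nhdsWithin_le_nhds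
      simpa using this.mul_const (1 + β * B)
    have h2 : Tendsto (fun σ : ℝ => σ * Real.log σ) (𝓝[>] 0) (𝓝 0) := by
      have hc := Real.continuous_mul_log.tendsto 0
      simp only [zero_mul] at hc
      exact hc.mono_left nhdsWithin_le_nhds
    simpa using h1.sub h2
  refine tendsto_of_tendsto_of_tendsto_of_le_of_le' tendsto_const_nhds hup ?_ ?_
  · have : ∀ᶠ σ in 𝓝[>] (0 : ℝ), σ ∈ Ioo (0 : ℝ) (1 / 27) :=
      Ioo_mem_nhdsGT (by norm_num)
    filter_upwards [this] with σ hσ using hFree_nonneg_of_small h hβ hσ.1 hσ.2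
  · filter_upwards [self_mem_nhdsWithin] with σ hσ
    have := hFree_le h hβ (σ := σ) hσ
    linarith

/-- A line lying above `hFree` has nonnegative intercept; in terms of `F = -hFree`, a supporting
line `μ σ + c ≤ F σ` has `c ≤ 0`. -/
theorem intercept_nonpos {φ : ℝ → ℝ} {B : ℝ} (h : Adm φ B) {β : ℝ} (hβ : 0 ≤ β) {μ c : ℝ}
    (hsup : ∀ σ, 0 < σ → μ * σ + c ≤ - hFree φ β σ) : c ≤ 0 := by
  have hl : Tendsto (fun σ : ℝ => - hFree φ β σ - μ * σ) (𝓝[>] 0) (𝓝 (-0 - μ * 0)) := by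
    have h0 : Tendsto (fun σ : ℝ => σ) (𝓝[>] 0) (𝓝 0) := nhdsWithin_le_nhds
    exact (tendsto_hFree_zero h hβ).neg.sub (h0.const_mul μ)
  have : c ≤ -0 - μ * 0 := by
    refine ge_of_tendsto hl ?_
    filter_upwards [self_mem_nhdsWithin] with σ hσ
    have := hsup σ hσ
    linarith
  simpa using this

end Crude

end Crest.Agent.TL.Thermo
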