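import Crest.Agent.TL.Barrier
import Crest.Agent.TL.Pot
import Crest.Agent.TL.Rate
import Crest.Agent.TL.Stability
import Crest.Agent.TL.ThermoConvex
import Crest.Agent.TL.Packing

/-!
# Top level assembly of S0209/S0210: the concrete objects

`p` = packing density, `U = A₀ p - η₀`, `U₂ = 1024·2197·A_max`, `r₂ = δ = 2⁻⁹⁰`,
`s = U χ₁ + U₂ χ₂ + core`, `φ_A = s - A w`, `F(β,A,σ) = -hFree φ_A β σ`.
-/

set_option autoImplicit false

namespace Crest.Agent.TL.Asm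

open Crest.ProbabilityR.Continuum Real Set Filter Topology
open Crest.Agent.TL.Gauss Crest.Agent.TL.Series Crest.Agent.TL.Potential
open Crest.Agent.TL.Num (A0 Ap Amax beta2 betaT g1 r2 Uof)

/-- The packing density. -/
noncomputable def pp : ℝ := Packing.packingDensity

lemma pp_ge : 1 ≤ pp := Packing.one_le_packingDensity
lemma pp_le : pp ≤ 8 := Packing.packingDensity_le_eight
lemma pp_pos : 0 < pp := by linarith [pp_ge]

/-- `U₂`. -/
noncomputable def U₂ : ℝ := 1024 * 2197 * Amax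

/-- `U = A₀ p - η₀`. -/
noncomputable def Us : ℝ := Uof pp

lemma A0_pos : 0 < A0 := by unfold A0; positivity
lemma Ap_pos : 0 < Ap := by unfold Ap; have := A0_pos; positivity
lemma A0_lt_Ap : A0 < Ap := by unfold Ap; have : (0:ℝ) < 2 ^ 10 := by positivity
                               linarith
lemma Amax_pos : 0 < Amax := by unfold Amax; have := Ap_pos; positivity
lemma Ap_lt_Amax : Ap < Amax := by unfold Amax; have := Ap_pos; linarith
lemma U₂_pos : 0 < U₂ := by unfold U₂; have := Amax_pos; positivity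
lemma Us_pos : 0 < Us := by
  unfold Us Uof Num.eta0
  have h1 := pp_ge
  have h2 : A0 = (2:ℝ)^50 := rfl
  rw [h2]
  have h3 : (2:ℝ) ^ (-27 : ℤ) ≤ 1 := by norm_num
  nlinarith [show (1:ℝ) ≤ 2^50 by norm_num]
lemma r2_pos : 0 < r2 := by unfold r2; positivity
lemma r2_le_one : r2 ≤ 1 := by unfold r2; norm_num
lemma g1_pos : 0 < g1 := by unfold g1; positivity

/-- An admissible core. -/
structure CoreOK (core : ℝ → ℝ) : Prop where
  meas : Measurable core
  nonneg : ∀ r, 0 ≤ core r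
  far : ∀ r, r2 ≤ r → core r = 0
  bound : ∀ a, 0 < a → ∃ S, 0 ≤ S ∧ ∀ r, a ≤ r → core r ≤ S

lemma coreOK_zero : CoreOK (fun _ => 0) :=
  ⟨measurable_const, fun _ => le_rfl, fun _ _ => rfl, fun _ _ => ⟨0, le_rfl, fun _ _ => le_rfl⟩⟩

lemma coreOK_core : CoreOK (core r2) := by
  refine ⟨measurable_core, fun r => core_nonneg, fun r hr => core_eq_zero r2_pos hr, fun a ha => ?_⟩
  exact ⟨a⁻¹, by positivity, fun r hr => core_le_of_ge r2_pos ha hr⟩

/-- The short range part with a core. -/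
noncomputable def ss (cr : ℝ → ℝ) (r : ℝ) : ℝ := sr Us U₂ r2 r2 r + cr r

/-- The potential `φ_A`. -/
noncomputable def phiA (K0 : ℕ) (cr : ℝ → ℝ) (A r : ℝ) : ℝ := ss cr r - A * ww K0 r

/-- The free energy density `F(β,A,σ)`. -/
noncomputable def FF (K0 : ℕ) (cr : ℝ → ℝ) (β A σ : ℝ) : ℝ := -Thermo.hFree (phiA K0 cr A) β σ

section ss
variable {cr : ℝ → ℝ}

lemma ss_nonneg (hc : CoreOK cr) (r : ℝ) : 0 ≤ ss cr r :=
  add_nonneg (sr_nonneg Us_pos.le U₂_pos.le r) (hc.nonneg r)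

lemma ss_meas (hc : CoreOK cr) : Measurable (ss cr) :=
  continuous_sr.measurable.add hc.meas

lemma ss_far (hc : CoreOK cr) {r : ℝ} (hr : 1 + r2 ≤ r) : ss cr r = 0 := by
  unfold ss
  rw [sr_eq_zero r2_le_one r2_pos r2_pos hr, hc.far r (by linarith [r2_le_one, r2_pos])]
  ring

lemma ss_tail (hc : CoreOK cr) {r : ℝ} (hr : 2 ≤ r) : ss cr r ≤ 0 :=
  (ss_far hc (by linarith [r2_le_one])).le

lemma ss_ge_U (hc : CoreOK cr) {r : ℝ} (hr : r ≤ 1) : Us ≤ ss cr r := by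
  unfold ss
  have := sr_ge_U (U := Us) (r2 := r2) U₂_pos.le r2_pos hr
  linarith [hc.nonneg r]

lemma ss_ge_U₂ (hc : CoreOK cr) {r : ℝ} (hr : r ≤ r2 / 2 ∨ (3 * r2 ≤ r ∧ r ≤ 1)) : U₂ ≤ ss cr r := by
  unfold ss
  have := sr_ge_U2 (U := Us) (U2 := U₂) Us_pos.le r2_pos r2_pos hr
  linarith [hc.nonneg r]

lemma ss_eq_U_mid (hc : CoreOK cr) {r : ℝ} (h1 : r2 ≤ r) (h2 : r ≤ 2 * r2) : ss cr r = Us := by
  unfold ss
  have h3 : r ≤ 1 := by have : r2 ≤ 2⁻¹ := by { unfold r2; norm_num }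
                        linarith
  rw [sr_eq_U_mid r2_pos r2_pos h1 h2 h3, hc.far r h1, add_zero]

/-- The bound used by the crude lower bounds. -/
lemma ss_le (hc : CoreOK cr) {a : ℝ} (ha : 0 < a) : ∃ S, 0 ≤ S ∧ ∀ r, a ≤ r → ss cr r ≤ S := by
  obtain ⟨S, hS, h⟩ := hc.bound a ha
  refine ⟨Us + U₂ + S, by have := Us_pos; have := U₂_pos; positivity, fun r hr => ?_⟩
  unfold ss
  have := sr_le (r2 := r2) (δ := r2) Us_pos.le U₂_pos.le r
  linarith [h r hr]

end ss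

/-! ### Stability -/

section stability
open Crest.Agent.TL.Splitting

variable {K0 N : ℕ} {cr : ℝ → ℝ}

/-- The Gaussian series is controlled by the unit-cell count. -/
lemma energy_ww_le (hK : 1 ≤ K0) (τ : Fin 3 → ℝ) (x : Fin N → Pt) :
    energy (ww K0) x ≤ 64 * (sameCell (1 / 2) τ x : ℝ) := by
  have hQ : (0 : ℝ) ≤ (sameCell (1 / 2) τ x : ℝ) := Nat.cast_nonneg _
  rw [energy_ww hK]
  refine (summable_energy_term hK x).tsum_le_of_sum_le fun J => ?_
  have h1 := gauss_sum_le_sameCell (N := N) J (Ah K0) (RR K0) (fun j _ => (Ah_pos K0 j).le)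
    (fun j _ => RR_pos K0 j) τ x
  refine h1.trans ?_
  have h2 : ∑ j ∈ J, Ah K0 j * (1 + 1 / RR K0 j) ^ 3 ≤ ∑ j ∈ J, Ah K0 j * 8 := by
    refine Finset.sum_le_sum fun j _ => mul_le_mul_of_nonneg_left ?_ (Ah_pos K0 j).le
    have h3 : 1 / RR K0 j ≤ 1 := by
      rw [div_le_one (RR_pos K0 j)]; exact one_le_RR K0 j
    have h4 : 0 ≤ 1 / RR K0 j := (div_pos one_pos (RR_pos K0 j)).le
    calc (1 + 1 / RR K0 j) ^ 3 ≤ (1 + 1) ^ 3 := by gcongr
      _ = 8 := by norm_num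
  have h5 : ∑ j ∈ J, Ah K0 j ≤ 2 := by
    have h6 := (summable_Ah hK).sum_le_tsum J (fun j _ => (Ah_pos K0 j).le)
    have h7 := Series.Gam_le hK 0
    have h8 : Series.Gam K0 0 = ∑' j, Ah K0 j := by
      unfold Series.Gam; simp
    rw [h8, Ah_zero] at h7
    linarith
  rw [← Finset.sum_mul] at h2
  have h9 : ∑ j ∈ J, Ah K0 j * (1 + 1 / RR K0 j) ^ 3 ≤ 16 := by linarith
  nlinarith

/-- Stability, robustly: any `u ∈ [1/2,1]` and any `W ≤ energy w`. -/
theorem stable_u (hc : CoreOK cr) (hK : 1 ≤ K0) {A u W : ℝ} (hA : 0 ≤ A) (hA' : A ≤ Amax)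
    (hu : 1 / 2 ≤ u) (hu1 : u ≤ 1) (x : Fin N → Pt) (hW : W ≤ energy (ww K0) x) :
    -(U₂ / 2) * N ≤ u * energy (ss cr) x - A * W := by
  have hQ : (0 : ℝ) ≤ (sameCell (1 / 2) (0 : Fin 3 → ℝ) x : ℝ) := Nat.cast_nonneg _
  have h1 := energy_ge_sameCell (ss cr) U₂ r2 r2_pos U₂_pos.le (ss_nonneg hc)
    (fun r hr => ss_ge_U₂ hc hr) (0 : Fin 3 → ℝ) x
  have h2 := energy_ww_le hK (0 : Fin 3 → ℝ) x
  have h3 : 0 ≤ energy (ss cr) x := energy_nonneg_of_nonneg (ss_nonneg hc) x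
  set Q : ℝ := (sameCell (1 / 2) (0 : Fin 3 → ℝ) x : ℝ) with hQdef
  have hN : (0 : ℝ) ≤ N := Nat.cast_nonneg _
  have hAm := Amax_pos
  have h4 : A * W ≤ Amax * (64 * Q) := by
    have h5 : W ≤ 64 * Q := hW.trans h2
    calc A * W ≤ A * (64 * Q) := mul_le_mul_of_nonneg_left h5 hA
      _ ≤ Amax * (64 * Q) := mul_le_mul_of_nonneg_right hA' (by positivity)
  have h6 : (1 / 2) * energy (ss cr) x ≤ u * energy (ss cr) x :=
    mul_le_mul_of_nonneg_right hu h3
  have h7 : U₂ = 1024 * 2197 * Amax := rfl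
  have hU₂ := U₂_pos
  have h8 : U₂ / 2 * N * (1 / 2) ≤ U₂ / 2 * N := by
    have : 0 ≤ U₂ / 2 * N := by positivity
    linarith
  rw [h7] at h1 h8 ⊢
  have h9 : (1024 * 2197 * Amax) * (Q / (2 * 2197) - N / 2) = 256 * 2 * Amax * Q - (1024 * 2197 * Amax) / 2 * N := by
    ring
  rw [h9] at h1
  nlinarith

/-- The main stability statement. -/
theorem adm_phiA (hc : CoreOK cr) (hK : 1 ≤ K0) {A : ℝ} (hA : 0 ≤ A) (hA' : A ≤ Amax) :
    Thermo.Adm (phiA K0 cr A) (U₂ / 2) := by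
  refine ⟨(ss_meas hc).sub ((continuous_ww hK).measurable.const_mul A), fun N x => ?_, fun r hr => ?_⟩
  · have h := stable_u hc hK hA hA' (u := 1) (by norm_num) le_rfl x le_rfl
    have e : energy (phiA K0 cr A) x = 1 * energy (ss cr) x - A * energy (ww K0) x := by
      have : phiA K0 cr A = fun r => ss cr r - A * ww K0 r := rfl
      rw [this, energy_sub, energy_const_mul, one_mul]
    rw [e]
    exact h
  · have h1 := ss_tail hc hr
    have h2 : 0 ≤ A * ww K0 r := mul_nonneg hA (ww_nonneg r)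
    unfold phiA
    linarith

end stability

end Crest.Agent.TL.Asm
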