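/-
TL/Barrier: explicit numbers and the real-variable barrier inequalities (no physics, no measure theory).

`p` is the packing density, only `1 ≤ p ≤ 8` is used.  Tolerance hypotheses (`Tol`): `Γ, Γ₀ ∈ [1,1+2⁻⁴⁰⁰]`, `0 ≤ w₀ ≤ 2⁻⁴⁰⁰`, `p̃ ∈ [p, p(1+2⁻⁴⁰⁰)]`.
Level-0 function: `½βAΓ₀σ²+σ(1-log σ)-βU(kσ-p̃k(k+1)/2)`  with `U = A₀ p - η₀`.
Trial values: `t_s(y,b) = ½βAy²Γ + 3y log b - ½βAy w₀`, `t_d(y,b) = t_s(y,b) - ½βUy`.
-/
import Mathlib

set_option autoImplicit false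
namespace Crest.Agent.TL.Num
open Real

noncomputable def eta0 : ℝ := (2:ℝ) ^ (-27 : ℤ)
noncomputable def A0 : ℝ := (2:ℝ) ^ (50 : ℕ)
noncomputable def Ap : ℝ := A0 + (2:ℝ) ^ (10 : ℕ)
noncomputable def Amax : ℝ := 2 * Ap
noncomputable def beta2 : ℝ := (2:ℝ) ^ (40 : ℕ)
noncomputable def betaT : ℝ := beta2 + 1
noncomputable def g1 : ℝ := (2:ℝ) ^ (-100 : ℤ)
/-- `r₂ = δ` -/
noncomputable def r2 : ℝ := (2:ℝ) ^ (-90 : ℤ)
noncomputable def tolE : ℝ := (2:ℝ) ^ (-400 : ℤ)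
/-- `U = A₀p-η₀`. -/
noncomputable def Uof (p : ℝ) : ℝ := A0 * p - eta0
/-- `y_D = 2(p - η₀/(8A₀))`. -/
noncomputable def yD (p : ℝ) : ℝ := 2 * (p - eta0 / (8 * A0))
/-- box of the doubled trial -/
noncomputable def bD : ℝ := (2:ℝ) ^ (-92 : ℤ)
/-- near-close-packed trial -/
noncomputable def yT (p : ℝ) : ℝ := p * (1 - (2:ℝ) ^ (-50 : ℤ))
noncomputable def bT : ℝ := (2:ℝ) ^ (-55 : ℤ)
/-- window half width -/
noncomputable def wW : ℝ := (2:ℝ) ^ (-27 : ℤ)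

/-- Tolerances. -/
structure Tol (p ptil Γ Γ₀ w₀ : ℝ) : Prop where
  p1 : 1 ≤ p
  p8 : p ≤ 8
  ptil1 : p ≤ ptil
  ptil2 : ptil ≤ p * (1 + tolE)
  Γ1 : 1 ≤ Γ
  Γ2 : Γ ≤ 1 + tolE
  Γ₀1 : 1 ≤ Γ₀
  Γ₀2 : Γ₀ ≤ 1 + tolE
  w0 : 0 ≤ w₀
  w1 : w₀ ≤ tolE

/-- Trial value, singles. -/
noncomputable def ts (β A Γ w₀ y b : ℝ) : ℝ :=
  (1 / 2) * β * A * y ^ 2 * Γ + 3 * y * log b - (1 / 2) * β * A * y * w₀

/-- Trial value, doubled sites. -/
noncomputable def td (β A Γ w₀ U y b : ℝ) : ℝ :=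
  ts β A Γ w₀ y b - (1 / 2) * β * U * y

/-- Level 0 function with `k` layers of `U`. -/
noncomputable def Psi (β A Γ₀ U ptil σ : ℝ) (k : ℕ) : ℝ :=
  (1 / 2) * β * A * Γ₀ * σ ^ 2 + σ * (1 - log σ) - β * U * ((k : ℝ) * σ - ptil * (k * (k + 1) / 2))

/-! ### Numerics -/

lemma A0_eq : A0 = 1125899906842624 := by norm_num [A0]
lemma Ap_eq : Ap = A0 + 1024 := by norm_num [Ap]
lemma eta0_eq : eta0 = 1 / 134217728 := by
  unfold eta0; rw [zpow_neg]; norm_num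
lemma tolE_eq : tolE = 1 / 2 ^ 400 := by
  unfold tolE; rw [zpow_neg]; norm_num
lemma tolE_pos : 0 < tolE := by rw [tolE_eq]; positivity
lemma tolE_le : tolE ≤ 1 / 2 ^ 200 := by
  rw [tolE_eq]
  apply one_div_le_one_div_of_le (by positivity)
  exact pow_le_pow_right₀ (by norm_num) (by norm_num)
lemma g1_pos : 0 < g1 := by unfold g1; positivity
lemma yD_eq (p : ℝ) : yD p = 2 * p - 1 / 2 ^ 79 := by
  unfold yD; rw [eta0_eq, A0_eq]; norm_num; ring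

lemma log_01_ge : (-5 : ℝ) ≤ log 0.01 := by
  have h : (0.01:ℝ) = (100:ℝ)⁻¹ := by norm_num
  rw [h, Real.log_inv]
  have h2 : log 100 ≤ log ((2:ℝ) ^ 7) := Real.log_le_log (by norm_num) (by norm_num)
  rw [Real.log_pow] at h2
  have := Real.log_two_lt_d9
  push_cast at h2
  linarith

lemma log_001_ge : (-7 : ℝ) ≤ log 0.001 := by
  have h : (0.001:ℝ) = (1000:ℝ)⁻¹ := by norm_num
  rw [h, Real.log_inv]
  have h2 : log 1000 ≤ log ((2:ℝ) ^ 10) := Real.log_le_log (by norm_num) (by norm_num)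
  rw [Real.log_pow] at h2
  have := Real.log_two_lt_d9
  push_cast at h2
  linarith

lemma log_bD_ge : (-64 : ℝ) ≤ log bD := by
  unfold bD
  rw [Real.log_zpow]
  have := Real.log_two_lt_d9
  push_cast
  linarith

lemma log_bT_ge : (-39 : ℝ) ≤ log bT := by
  unfold bT
  rw [Real.log_zpow]
  have := Real.log_two_lt_d9
  push_cast
  linarith

lemma log_ge_of_g1 {σ : ℝ} (h : g1 / 2 ≤ σ) : (-71 : ℝ) ≤ log σ := by
  have h0 : (0 : ℝ) < g1 / 2 := by have := g1_pos; positivity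
  have h1 : log (g1 / 2) ≤ log σ := Real.log_le_log h0 h
  have h2 : g1 / 2 = (2:ℝ) ^ (-101 : ℤ) := by
    unfold g1
    rw [zpow_neg, zpow_neg]
    norm_num
  rw [h2, Real.log_zpow] at h1
  have := Real.log_two_lt_d9
  push_cast at h1
  linarith

/-- The chord between two trial values, expanded. -/
lemma chord_expand (β A Γ w₀ U y1 y2 b1 b2 σ θ : ℝ) (hθ : θ * (y2 - y1) = σ - y1) :
    ts β A Γ w₀ y1 b1 + θ * (td β A Γ w₀ U y2 b2 - ts β A Γ w₀ y1 b1) =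
      (1 / 2) * β * A * Γ * (σ * (y1 + y2) - y1 * y2)
        + 3 * ((1 - θ) * y1 * log b1 + θ * y2 * log b2)
        - (1 / 2) * β * A * w₀ * σ - (1 / 2) * β * U * θ * y2 := by
  unfold td ts
  linear_combination ((1 / 2) * β * A * Γ * (y1 + y2) - (1 / 2) * β * A * w₀) * hθ

/-- The chord from the origin to a doubled trial value. -/
lemma td_chord (β A Γ w₀ U y b σ : ℝ) (hy : y ≠ 0) :
    (σ / y) * td β A Γ w₀ U y b
      = σ * ((1 / 2) * β * (A * y * Γ - A * w₀ - U) + 3 * log b) := by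
  unfold td ts
  field_simp
  ring

/-- `σ (1 - log σ) ≤ 1`. -/
lemma mul_one_sub_log_le {σ : ℝ} (hσ : 0 < σ) : σ * (1 - log σ) ≤ 1 := by
  have h := Real.one_sub_inv_le_log_of_pos hσ
  have h2 : σ * σ⁻¹ = 1 := mul_inv_cancel₀ hσ.ne'
  nlinarith

/-- The low barrier core (no layer). -/
lemma M_low_core {β A Γ₀ σ Y : ℝ} (hσ : 0.49 ≤ σ)
    (hW : 197 ≤ (1 / 2) * β * (Y - A * Γ₀ * σ)) :
    (1 / 2) * β * A * Γ₀ * σ ^ 2 + σ * (1 - log σ)
      ≤ σ * ((1 / 2) * β * Y + 3 * log bD) - 1 := by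
  have h0 : 0 < σ := by linarith
  have h1 := mul_one_sub_log_le h0
  have h2 := log_bD_ge
  have h3 : 5 ≤ (1 / 2) * β * (Y - A * Γ₀ * σ) + 3 * log bD := by linarith
  have h4 : 0.49 * 5 ≤ σ * ((1 / 2) * β * (Y - A * Γ₀ * σ) + 3 * log bD) := by
    apply mul_le_mul hσ h3 (by norm_num) h0.le
  nlinarith

/-- The high barrier core (one layer). -/
lemma M_high_core {β A Γ₀ U ptil σ Y : ℝ} (hσ : 1 ≤ σ)
    (hH : 194 * σ ≤ β * ((1 / 2) * σ * (Y - A * Γ₀ * σ) + U * (σ - ptil))) :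
    (1 / 2) * β * A * Γ₀ * σ ^ 2 + σ * (1 - log σ) - β * U * (σ - ptil)
      ≤ σ * ((1 / 2) * β * Y + 3 * log bD) - 1 := by
  have h0 : 0 < σ := by linarith
  have h1 : 0 ≤ log σ := Real.log_nonneg hσ
  have h2 := log_bD_ge
  have h3 : σ * (1 - log σ) ≤ σ := by nlinarith
  have h4 : σ * (-64) ≤ σ * log bD := mul_le_mul_of_nonneg_left h2 h0.le
  nlinarith

/-- Common bound for the low part: `Y - A Γ₀ σ ≥ a p + 2⁻²⁹`. -/
lemma bracket_low {p ptil Γ Γ₀ w₀ σ a : ℝ} (T : Tol p ptil Γ Γ₀ w₀) (ha0 : 0 ≤ a) (ha : a ≤ 1024)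
    (hσ0 : 0 ≤ σ) (hσ2 : σ ≤ ptil) :
    a * p + 1 / 2 ^ 29 ≤
      ((A0 + a) * yD p * Γ - (A0 + a) * w₀ - Uof p) - (A0 + a) * Γ₀ * σ := by
  have hp := T.p1
  have hp8 := T.p8
  have hδ := tolE_le
  have hδ0 := tolE_pos
  have hA : A0 = 1125899906842624 := A0_eq
  have hη : eta0 = 1 / 134217728 := eta0_eq
  have hU : Uof p = A0 * p - eta0 := rfl
  have hy := yD_eq p
  obtain ⟨A, hAdef⟩ : ∃ A, A = A0 + a := ⟨_, rfl⟩
  rw [← hAdef]
  have hApos : 0 < A := by rw [hAdef, hA]; linarith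
  have hAle : A ≤ 1125899906842624 + 1024 := by rw [hAdef, hA]; linarith
  have hypos : 0 ≤ yD p := by rw [hy]; norm_num; linarith
  have h1 : A * yD p ≤ A * yD p * Γ :=
    le_mul_of_one_le_right (mul_nonneg hApos.le hypos) T.Γ1
  have h2 : A * w₀ ≤ A * tolE := mul_le_mul_of_nonneg_left T.w1 hApos.le
  have hΓσ : Γ₀ * σ ≤ p + 25 * tolE := by
    have h3 : Γ₀ * σ ≤ (1 + tolE) * ptil :=
      mul_le_mul T.Γ₀2 hσ2 hσ0 (by linarith)
    have h4 : (1 + tolE) * ptil ≤ (1 + tolE) * (p * (1 + tolE)) :=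
      mul_le_mul_of_nonneg_left T.ptil2 (by linarith)
    have h5 : tolE ≤ 1 := by
      refine hδ.trans ?_
      norm_num
    have h6 : (1 + tolE) * (p * (1 + tolE)) ≤ p + 25 * tolE := by
      have h7 : tolE * tolE ≤ tolE := by nlinarith
      have h8 : p * (tolE * tolE) ≤ 8 * tolE :=
        mul_le_mul hp8 h7 (by positivity) (by norm_num)
      have h9 : p * tolE ≤ 8 * tolE := mul_le_mul_of_nonneg_right hp8 hδ0.le
      have e : (1 + tolE) * (p * (1 + tolE)) = p + 2 * (p * tolE) + p * (tolE * tolE) := by ring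
      rw [e]
      linarith
    linarith
  have h7 : A * Γ₀ * σ ≤ A * (p + 25 * tolE) := by
    rw [mul_assoc]
    exact mul_le_mul_of_nonneg_left hΓσ hApos.le
  have h8 : A * tolE * 26 ≤ 1 / 2 ^ 100 := by
    have : A * tolE ≤ (1125899906842624 + 1024) * (1 / 2 ^ 200) :=
      mul_le_mul hAle hδ hδ0.le (by norm_num)
    norm_num at this ⊢
    linarith
  have h9 : A * yD p - Uof p - A * p = a * p + eta0 - A * (1 / 2 ^ 79) := by
    rw [hU, hy, hAdef]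
    ring
  have h10 : A * (1 / 2 ^ 79) ≤ 1 / 2 ^ 28 := by
    have : A * (1 / 2 ^ 79) ≤ (1125899906842624 + 1024) * (1 / 2 ^ 79) :=
      mul_le_mul_of_nonneg_right hAle (by norm_num)
    norm_num at this ⊢
    linarith
  have h11 : A * (p + 25 * tolE) = A * p + A * tolE * 25 := by ring
  have h12 : (0 : ℝ) ≤ A * tolE := by positivity
  have h13 : (1 : ℝ) / 2 ^ 29 + 1 / 2 ^ 100 + 1 / 2 ^ 28 ≤ eta0 := by
    rw [hη]; norm_num
  linarith

/-- Common bound for the high part. -/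
lemma H_high {p ptil Γ Γ₀ w₀ σ a : ℝ} (T : Tol p ptil Γ Γ₀ w₀) (ha0 : 0 ≤ a) (ha : a ≤ 1024)
    (hσ1 : ptil ≤ σ) (hσ2 : σ ≤ 1.26 * p) :
    (3 / 8) * eta0 * σ + 0.35 * a * σ - 1 / 2 ^ 100 ≤
      (1 / 2) * σ * (((A0 + a) * yD p * Γ - (A0 + a) * w₀ - Uof p) - (A0 + a) * Γ₀ * σ)
        + Uof p * (σ - ptil) := by
  have hp := T.p1
  have hp8 := T.p8
  have hδ := tolE_le
  have hδ0 := tolE_pos
  have hA : A0 = 1125899906842624 := A0_eq
  have hη : eta0 = 1 / 134217728 := eta0_eq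
  have hU : Uof p = A0 * p - eta0 := rfl
  have hy := yD_eq p
  have hσ0 : 1 ≤ σ := by linarith [T.ptil1]
  have hσ13 : σ ≤ 11 := by linarith
  obtain ⟨t, ht⟩ : ∃ t, t = σ - ptil := ⟨_, rfl⟩
  have ht0 : 0 ≤ t := by rw [ht]; linarith
  obtain ⟨d, hd⟩ : ∃ d, d = ptil - p := ⟨_, rfl⟩
  have hd0 : 0 ≤ d := by rw [hd]; linarith [T.ptil1]
  have hd1 : d ≤ 8 * tolE := by
    have : p * (1 + tolE) = p + p * tolE := by ring
    have h2 : p * tolE ≤ 8 * tolE := mul_le_mul_of_nonneg_right hp8 hδ0.le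
    have h3 := T.ptil2
    rw [hd]; linarith
  have hσeq : σ = p + d + t := by rw [ht, hd]; ring
  obtain ⟨A, hAdef⟩ : ∃ A, A = A0 + a := ⟨_, rfl⟩
  rw [← hAdef, ← ht]
  have hApos : 0 < A := by rw [hAdef, hA]; linarith
  have hAle : A ≤ 1125899906842624 + 1024 := by rw [hAdef, hA]; linarith
  have hypos : 0 ≤ yD p := by rw [hy]; norm_num; linarith
  have hσpos : 0 < σ := by linarith
  have h1 : A * yD p ≤ A * yD p * Γ :=
    le_mul_of_one_le_right (mul_nonneg hApos.le hypos) T.Γ1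
  have h2 : A * w₀ ≤ A * tolE := mul_le_mul_of_nonneg_left T.w1 hApos.le
  have h3 : A * Γ₀ * σ ≤ A * σ + A * tolE * σ := by
    have : Γ₀ * σ ≤ (1 + tolE) * σ := mul_le_mul_of_nonneg_right T.Γ₀2 hσpos.le
    have h5 := mul_le_mul_of_nonneg_left this hApos.le
    have e1 : A * (Γ₀ * σ) = A * Γ₀ * σ := by ring
    have e2 : A * ((1 + tolE) * σ) = A * σ + A * tolE * σ := by ring
    linarith
  -- the tolerance term
  have htol : A * tolE * (1 + σ) ≤ 1 / 2 ^ 130 := by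
    have h4 : A * tolE ≤ (1125899906842624 + 1024) * (1 / 2 ^ 200) :=
      mul_le_mul hAle hδ hδ0.le (by norm_num)
    have h5 : A * tolE * (1 + σ) ≤ (1125899906842624 + 1024) * (1 / 2 ^ 200) * 12 :=
      mul_le_mul h4 (by linarith) (by linarith) (by norm_num)
    refine h5.trans ?_
    norm_num
  -- the lower bound of the bracket
  have hbr : A0 * (p - σ) + (3 / 4) * eta0 + a * (yD p - σ) - A * tolE * (1 + σ)
      ≤ (A * yD p * Γ - A * w₀ - Uof p) - A * Γ₀ * σ := by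
    have e1 : A * yD p - Uof p - A * σ = A0 * (p - σ) + (3 / 4) * eta0 + a * (yD p - σ) := by
      rw [hU, hAdef, hy, hA, hη]
      norm_num
      ring
    have e2 : A * tolE * (1 + σ) = A * tolE + A * tolE * σ := by ring
    linarith
  have hb2 := mul_le_mul_of_nonneg_left hbr (by positivity : (0 : ℝ) ≤ (1 / 2) * σ)
  -- main term
  have hA0 : 0 ≤ A0 := by rw [hA]; norm_num
  have h6 : A0 * (0.37 * p * t) - A0 * (0.63 * p * d)
      ≤ (1 / 2) * σ * (A0 * (p - σ)) + A0 * p * t := by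
    have h7 : (1 / 2) * σ * (d + t) ≤ 0.63 * p * (d + t) := by
      apply mul_le_mul_of_nonneg_right _ (by linarith)
      linarith
    have e : p - σ = -(d + t) := by rw [hσeq]; ring
    have h8 : 0.37 * p * t - 0.63 * p * d ≤ (1 / 2) * σ * (p - σ) + p * t := by
      rw [e]
      linarith
    have h9 := mul_le_mul_of_nonneg_left h8 hA0
    linarith
  have h8 : eta0 * t ≤ A0 * (0.37 * p * t) := by
    have : eta0 ≤ A0 * (0.37 * p) := by
      rw [hη, hA]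
      norm_num
      linarith
    calc eta0 * t ≤ A0 * (0.37 * p) * t := mul_le_mul_of_nonneg_right this ht0
      _ = A0 * (0.37 * p * t) := by ring
  have h9 : A0 * (0.63 * p * d) ≤ 1 / 2 ^ 120 := by
    have h10 : p * d ≤ 8 * (8 * (1 / 2 ^ 200)) := by
      apply mul_le_mul hp8 (by linarith) hd0 (by norm_num)
    have h11 : A0 * (p * d) ≤ A0 * (8 * (8 * (1 / 2 ^ 200))) :=
      mul_le_mul_of_nonneg_left h10 hA0
    have e : A0 * (0.63 * p * d) = 0.63 * (A0 * (p * d)) := by ring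
    rw [e]
    rw [hA] at h11 ⊢
    norm_num at h11 ⊢
    linarith
  -- the `a` term
  have h12 : 0.35 * a * σ ≤ (1 / 2) * σ * (a * (yD p - σ)) := by
    have h13 : 0.7 ≤ yD p - σ := by
      rw [hy]
      norm_num at hσ2 ⊢
      linarith
    have h14 : a * 0.7 ≤ a * (yD p - σ) := mul_le_mul_of_nonneg_left h13 ha0
    have h15 := mul_le_mul_of_nonneg_left h14 (by positivity : (0 : ℝ) ≤ (1 / 2) * σ)
    linarith
  have h15 : (1 / 2) * σ * (A * tolE * (1 + σ)) ≤ 6 * (1 / 2 ^ 130) := by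
    have : (1 / 2) * σ ≤ 6 := by linarith
    exact mul_le_mul this htol (by positivity) (by norm_num)
  have hUt : Uof p * t = A0 * p * t - eta0 * t := by rw [hU]; ring
  have h16 : (6 : ℝ) * (1 / 2 ^ 130) + 1 / 2 ^ 120 ≤ 1 / 2 ^ 100 := by norm_num
  have e3 : (1 / 2) * σ * (A0 * (p - σ) + (3 / 4) * eta0 + a * (yD p - σ) - A * tolE * (1 + σ))
      = (1 / 2) * σ * (A0 * (p - σ)) + (3 / 8) * eta0 * σ + (1 / 2) * σ * (a * (yD p - σ))
        - (1 / 2) * σ * (A * tolE * (1 + σ)) := by ring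
  rw [e3] at hb2
  rw [hUt]
  have e4 : A0 * (0.37 * p * t) - A0 * (0.63 * p * d) - eta0 * t
      ≥ - (A0 * (0.63 * p * d)) := by linarith
  linarith

/-- The expression `Y` for `A = A₀ + a`. -/
lemma yD_ne {p : ℝ} (hp : 1 ≤ p) : yD p ≠ 0 := by
  rw [yD_eq]
  norm_num
  intro h
  have : p = 1 / 2 / 604462909807314587353088 := by linarith
  norm_num at this
  linarith

lemma beta2_eq : beta2 = 1099511627776 := by norm_num [beta2]

lemma Psi_zero (β A Γ₀ U ptil σ : ℝ) :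
    Psi β A Γ₀ U ptil σ 0 = (1 / 2) * β * A * Γ₀ * σ ^ 2 + σ * (1 - log σ) := by
  unfold Psi
  simp

lemma Psi_one (β A Γ₀ U ptil σ : ℝ) :
    Psi β A Γ₀ U ptil σ 1
      = (1 / 2) * β * A * Γ₀ * σ ^ 2 + σ * (1 - log σ) - β * U * (σ - ptil) := by
  unfold Psi
  simp only [Nat.cast_one]
  ring

/-- Barrier on `[g₁/2, 0.51p]` vs the chord from the origin to the `0.9p` trial; height `σ ≥ g₁/2`. -/
theorem barrier_L {p ptil Γ Γ₀ w₀ β A σ : ℝ} (T : Tol p ptil Γ Γ₀ w₀) (hβ : 1 ≤ β) (hA : A0 ≤ A)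
    (hσ1 : g1 / 2 ≤ σ) (hσ2 : σ ≤ 0.51 * p) :
    Psi β A Γ₀ (Uof p) ptil σ 0 ≤
      (σ / (0.9 * p)) * ts β A Γ w₀ (0.9 * p) 0.01 - g1 / 2 := by
  have hp := T.p1
  have hp8 := T.p8
  have hp0 : 0 < p := by linarith
  have hg := g1_pos
  have hσ0 : 0 < σ := lt_of_lt_of_le (by positivity) hσ1
  have hA' : (1125899906842624 : ℝ) ≤ A := by rw [← A0_eq]; exact hA
  have hβA : (1125899906842624 : ℝ) ≤ β * A := by nlinarith
  have hl1 := log_01_ge
  have hl2 := log_ge_of_g1 hσ1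
  have hδ : tolE ≤ 1 / 1000000 := tolE_le.trans (by norm_num)
  have hδ0 := tolE_pos
  have hΓ₀σ : Γ₀ * σ ≤ (1 + 1 / 1000000) * σ :=
    mul_le_mul_of_nonneg_right (by linarith [T.Γ₀2]) hσ0.le
  have hΓp : 0.9 * p ≤ 0.9 * p * Γ := le_mul_of_one_le_right (by positivity) T.Γ1
  have hX : 3 / 10 ≤ 0.9 * p * Γ - Γ₀ * σ - w₀ := by
    have := T.w1
    norm_num at *
    linarith
  have hY : (1 : ℝ) ≤ (1 / 2) * (β * A) * (0.9 * p * Γ - Γ₀ * σ - w₀) + 3 * log 0.01 - 1 + log σ := by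
    have h2 : (1125899906842624 : ℝ) * (3 / 10) ≤ (β * A) * (0.9 * p * Γ - Γ₀ * σ - w₀) :=
      mul_le_mul hβA hX (by norm_num) (by linarith)
    linarith
  have e : (σ / (0.9 * p)) * ts β A Γ w₀ (0.9 * p) 0.01
      = σ * ((1 / 2) * β * A * (0.9 * p) * Γ + 3 * log 0.01 - (1 / 2) * β * A * w₀) := by
    unfold ts
    field_simp
  rw [e, Psi_zero]
  have hg2 : g1 / 2 ≤ σ * ((1 / 2) * (β * A) * (0.9 * p * Γ - Γ₀ * σ - w₀) + 3 * log 0.01 - 1 + log σ) := by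
    calc g1 / 2 ≤ σ * 1 := by linarith
      _ ≤ _ := mul_le_mul_of_nonneg_left hY hσ0.le
  linarith [hg2]

set_option maxHeartbeats 1000000 in
/-- The energy gap for `barrier_R`. -/
lemma R_energy {p ptil Γ Γ₀ w₀ A σ θ y2 : ℝ} (T : Tol p ptil Γ Γ₀ w₀) (hA : A0 ≤ A) (hA' : A ≤ Ap)
    (hσ1 : 1.24 * p ≤ σ) (hσ2 : σ ≤ 1.76 * p) (hy2 : y2 = 2 * p - 1 / 2 ^ 79) (hθ0 : 0 ≤ θ)
    (hθ : θ * (y2 - 0.99 * p) = σ - 0.99 * p) :
    (35184372088832 : ℝ) ≤ (1 / 2) * A * Γ * (σ * (0.99 * p + y2) - 0.99 * p * y2)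
        - (1 / 2) * A * Γ₀ * σ ^ 2 + Uof p * (σ - ptil) - (1 / 2) * Uof p * θ * y2
        - (1 / 2) * A * w₀ * σ := by
  have hp := T.p1
  have hp8 := T.p8
  have hδ := tolE_le
  have hδ0 := tolE_pos
  have hA0 : A0 = 1125899906842624 := A0_eq
  have hApv : Ap = A0 + 1024 := Ap_eq
  have hAlo : (1125899906842624 : ℝ) ≤ A := by rw [← hA0]; exact hA
  have hAhi : A ≤ 1125899906842624 + 1024 := by rw [← hA0, ← hApv]; exact hA'
  have hApos : 0 < A := by linarith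
  have hη : eta0 = 1 / 134217728 := eta0_eq
  have hUdef : Uof p = A0 * p - eta0 := rfl
  have hU0 : 0 ≤ Uof p := by
    rw [hUdef, hη, hA0]; linarith
  have hUle : Uof p ≤ 1125899906842624 * p := by
    rw [hUdef, hη, hA0]; norm_num
  have hy2lo : 1.999 * p ≤ y2 := by
    rw [hy2]; norm_num; linarith
  have hy2hi : y2 ≤ 2 * p := by
    rw [hy2]; norm_num
  have hσpos : 0 < σ := by linarith
  have hσ15 : σ ≤ 15 := by linarith
  -- `D`
  set D := (σ - 0.99 * p) * (y2 - σ) with hD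
  have hD1 : 0.18 * p ^ 2 ≤ D := by
    have h1 : 0 ≤ (σ - 1.24 * p) * (1.76 * p - σ) :=
      mul_nonneg (by linarith) (by linarith)
    have h2 : (σ - 0.99 * p) * (1.999 * p) ≤ (σ - 0.99 * p) * y2 :=
      mul_le_mul_of_nonneg_left hy2lo (by linarith)
    have h3 : p * σ ≤ p * (1.76 * p) := mul_le_mul_of_nonneg_left hσ2 (by linarith)
    rw [hD]
    nlinarith
  have hD0 : 0 ≤ D := le_trans (by positivity) hD1
  have hpsq : 1 ≤ p ^ 2 := by nlinarith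
  -- the main quadratic term
  have h1 : (1 / 2) * A * Γ * (σ * (0.99 * p + y2) - 0.99 * p * y2) - (1 / 2) * A * Γ₀ * σ ^ 2
      = (1 / 2) * A * Γ * D + (1 / 2) * A * (Γ - Γ₀) * σ ^ 2 := by
    rw [hD]; ring
  have h2 : (1 / 2) * A * D ≤ (1 / 2) * A * Γ * D := by
    have : (1 / 2) * A * D * 1 ≤ (1 / 2) * A * D * Γ :=
      mul_le_mul_of_nonneg_left T.Γ1 (by positivity)
    linarith
  have h3 : (1 / 2) * 1125899906842624 * (0.18 * p ^ 2) ≤ (1 / 2) * A * D := by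
    apply mul_le_mul _ hD1 (by positivity) (by positivity)
    linarith
  -- tolerance
  have hAδ : A * tolE ≤ 1 / 2 ^ 140 := by
    have : A * tolE ≤ (1125899906842624 + 1024) * (1 / 2 ^ 200) :=
      mul_le_mul hAhi hδ hδ0.le (by norm_num)
    refine this.trans ?_
    norm_num
  have h4 : -(1 : ℝ) ≤ (1 / 2) * A * (Γ - Γ₀) * σ ^ 2 := by
    have h5 : -tolE ≤ Γ - Γ₀ := by linarith [T.Γ1, T.Γ₀2]
    have h6 : (1 / 2) * A * (-tolE) * σ ^ 2 ≤ (1 / 2) * A * (Γ - Γ₀) * σ ^ 2 := by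
      apply mul_le_mul_of_nonneg_right _ (by positivity)
      exact mul_le_mul_of_nonneg_left h5 (by positivity)
    have h7 : σ ^ 2 ≤ 225 := by nlinarith
    have h8 : (A * tolE) * σ ^ 2 ≤ (1 / 2 ^ 140) * 225 :=
      mul_le_mul hAδ h7 (by positivity) (by norm_num)
    have h9 : (1 / 2 ^ 140 : ℝ) * 225 ≤ 1 := by norm_num
    have e : (1 / 2) * A * (-tolE) * σ ^ 2 = -((1 / 2) * ((A * tolE) * σ ^ 2)) := by ring
    rw [e] at h6
    linarith
  have h5 : (1 / 2) * A * w₀ * σ ≤ 1 := by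
    have h6 : A * w₀ ≤ A * tolE := mul_le_mul_of_nonneg_left T.w1 hApos.le
    have h7 : (A * w₀) * σ ≤ (1 / 2 ^ 140) * 15 :=
      mul_le_mul (h6.trans hAδ) hσ15 hσpos.le (by norm_num)
    have h9 : (1 / 2 ^ 140 : ℝ) * 15 ≤ 1 := by norm_num
    have e : (1 / 2) * A * w₀ * σ = (1 / 2) * ((A * w₀) * σ) := by ring
    rw [e]
    linarith
  -- the `U` term
  have h6 : θ * y2 ≤ 1.9804 * (σ - 0.99 * p) := by
    have h7 : y2 ≤ 1.9804 * (y2 - 0.99 * p) := by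
      have : (1.9998 : ℝ) * p ≤ y2 := by
        rw [hy2]; norm_num; linarith
      linarith
    have h8 := mul_le_mul_of_nonneg_left h7 hθ0
    have e : θ * (1.9804 * (y2 - 0.99 * p)) = 1.9804 * (θ * (y2 - 0.99 * p)) := by ring
    rw [e, hθ] at h8
    exact h8
  have h7 : -(0.0076 * p) ≤ σ - ptil - (1 / 2) * θ * y2 := by
    have h8 : ptil ≤ p + p * tolE := by
      have := T.ptil2
      have e : p * (1 + tolE) = p + p * tolE := by ring
      linarith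
    have h9 : p * tolE ≤ 8 * (1 / 2 ^ 200) := mul_le_mul hp8 hδ hδ0.le (by norm_num)
    have h10 : (8 : ℝ) * (1 / 2 ^ 200) ≤ 0.0000001 := by norm_num
    have e : (1 / 2) * θ * y2 = (1 / 2) * (θ * y2) := by ring
    rw [e]
    linarith
  have h8 : -(1125899906842624 * p * (0.0076 * p)) ≤ Uof p * (σ - ptil - (1 / 2) * θ * y2) := by
    have h9 : Uof p * (-(0.0076 * p)) ≤ Uof p * (σ - ptil - (1 / 2) * θ * y2) :=
      mul_le_mul_of_nonneg_left h7 hU0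
    have h10 : Uof p * (0.0076 * p) ≤ 1125899906842624 * p * (0.0076 * p) :=
      mul_le_mul_of_nonneg_right hUle (by positivity)
    linarith
  have e2 : Uof p * (σ - ptil) - (1 / 2) * Uof p * θ * y2 = Uof p * (σ - ptil - (1 / 2) * θ * y2) := by
    ring
  have e3 : (1125899906842624 : ℝ) * p * (0.0076 * p) = 1125899906842624 * 0.0076 * p ^ 2 := by ring
  have e4 : (1 / 2) * (1125899906842624 : ℝ) * (0.18 * p ^ 2) = 1125899906842624 * 0.09 * p ^ 2 := by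
    ring
  rw [e3] at h8
  rw [e4] at h3
  have h9 : (35184372088832 : ℝ) + 2 ≤ (1125899906842624 * 0.09 - 1125899906842624 * 0.0076) * p ^ 2 := by
    have h10 : (1125899906842624 * 0.09 - 1125899906842624 * 0.0076 : ℝ) * 1
        ≤ (1125899906842624 * 0.09 - 1125899906842624 * 0.0076) * p ^ 2 :=
      mul_le_mul_of_nonneg_left hpsq (by norm_num)
    have h11 : (35184372088832 : ℝ) + 2 ≤ (1125899906842624 * 0.09 - 1125899906842624 * 0.0076) * 1 := by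
      norm_num
    linarith
  have e5 : (1125899906842624 * 0.09 - 1125899906842624 * 0.0076) * p ^ 2
      = 1125899906842624 * 0.09 * p ^ 2 - 1125899906842624 * 0.0076 * p ^ 2 := by ring
  rw [e5] at h9
  linarith

/-- Barrier on `[1.24p,1.76p]` vs the chord between the `0.99p` trial and the doubled trial. -/
theorem barrier_R {p ptil Γ Γ₀ w₀ β A σ : ℝ} (T : Tol p ptil Γ Γ₀ w₀) (hβ : 1 ≤ β) (hA : A0 ≤ A)
    (hA' : A ≤ Ap) (hσ1 : 1.24 * p ≤ σ) (hσ2 : σ ≤ 1.76 * p) :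
    Psi β A Γ₀ (Uof p) ptil σ 1 ≤
      ts β A Γ w₀ (0.99 * p) 0.001 + (σ - 0.99 * p) / (yD p - 0.99 * p) *
        (td β A Γ w₀ (Uof p) (yD p) bD - ts β A Γ w₀ (0.99 * p) 0.001) - 1 := by
  have hp := T.p1
  have hp8 := T.p8
  have hy := yD_eq p
  have hdpos : 0 < yD p - 0.99 * p := by
    rw [hy]; norm_num; linarith
  obtain ⟨θ, hθdef⟩ : ∃ θ, θ = (σ - 0.99 * p) / (yD p - 0.99 * p) := ⟨_, rfl⟩
  rw [← hθdef]
  have hθ : θ * (yD p - 0.99 * p) = σ - 0.99 * p := by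
    rw [hθdef]; field_simp
  have hθ0 : 0 ≤ θ := by
    rw [hθdef]; apply div_nonneg _ hdpos.le; linarith
  have hθ1 : θ ≤ 1 := by
    rw [hθdef, div_le_one hdpos]
    rw [hy]; norm_num at hσ2 ⊢; linarith
  rw [chord_expand _ _ _ _ _ _ _ _ _ _ _ hθ, Psi_one]
  have hE := R_energy T hA hA' hσ1 hσ2 hy hθ0 hθ
  have hσ1' : 1 ≤ σ := by linarith
  have hσpos : 0 < σ := by linarith
  have hlog0 : 0 ≤ log σ := Real.log_nonneg hσ1'
  have hl1 := log_001_ge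
  have hl2 := log_bD_ge
  have hy0 : 0 ≤ yD p := by linarith
  have hy16 : yD p ≤ 16 := by rw [hy]; norm_num; linarith
  -- entropy of the trial
  have h1 : -(7 * (0.99 * p)) ≤ (1 - θ) * (0.99 * p) * log 0.001 := by
    have h2 : (1 - θ) * (0.99 * p) * (-7) ≤ (1 - θ) * (0.99 * p) * log 0.001 :=
      mul_le_mul_of_nonneg_left hl1 (mul_nonneg (by linarith) (by positivity))
    have h3 : (1 - θ) * (0.99 * p) ≤ 0.99 * p := by
      have : 0 ≤ θ * (0.99 * p) := by positivity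
      nlinarith
    linarith
  have h2 : -(64 * 16) ≤ θ * yD p * log bD := by
    have h3 : θ * yD p * (-64) ≤ θ * yD p * log bD :=
      mul_le_mul_of_nonneg_left hl2 (mul_nonneg hθ0 hy0)
    have h4 : θ * yD p ≤ 16 := by nlinarith
    linarith
  have h3 : σ * (1 - log σ) ≤ σ := by nlinarith
  -- `β` times the energy gap
  have hE2 : (1 / 2) * A * Γ * (σ * (0.99 * p + yD p) - 0.99 * p * yD p)
        - (1 / 2) * A * Γ₀ * σ ^ 2 + Uof p * (σ - ptil) - (1 / 2) * Uof p * θ * yD p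
        - (1 / 2) * A * w₀ * σ
      ≤ β * ((1 / 2) * A * Γ * (σ * (0.99 * p + yD p) - 0.99 * p * yD p)
        - (1 / 2) * A * Γ₀ * σ ^ 2 + Uof p * (σ - ptil) - (1 / 2) * Uof p * θ * yD p
        - (1 / 2) * A * w₀ * σ) :=
    le_mul_of_one_le_left (by linarith) hβ
  have hσ15 : σ ≤ 15 := by linarith
  norm_num at h1 h2
  nlinarith

theorem barrier_M1_low {p ptil Γ Γ₀ w₀ σ : ℝ} (T : Tol p ptil Γ Γ₀ w₀)
    (hσ1 : 0.49 * p ≤ σ) (hσ2 : σ ≤ ptil) :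
    Psi beta2 A0 Γ₀ (Uof p) ptil σ 0 ≤
      (σ / yD p) * td beta2 A0 Γ w₀ (Uof p) (yD p) bD - 1 := by
  have hp := T.p1
  rw [td_chord _ _ _ _ _ _ _ _ (yD_ne hp), Psi_zero]
  have hσ : (0.49 : ℝ) ≤ σ := by linarith
  apply M_low_core hσ
  have h := bracket_low (a := 0) T le_rfl (by norm_num) (by linarith) hσ2
  simp only [add_zero, zero_mul, zero_add] at h
  rw [beta2_eq]
  have hv : (1 : ℝ) / 2 ^ 29 * (1 / 2 * 1099511627776) = 1024 := by norm_num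
  nlinarith

theorem barrier_M1_high {p ptil Γ Γ₀ w₀ σ : ℝ} (T : Tol p ptil Γ Γ₀ w₀)
    (hσ1 : ptil ≤ σ) (hσ2 : σ ≤ 1.26 * p) :
    Psi beta2 A0 Γ₀ (Uof p) ptil σ 1 ≤
      (σ / yD p) * td beta2 A0 Γ w₀ (Uof p) (yD p) bD - 1 := by
  have hp := T.p1
  rw [td_chord _ _ _ _ _ _ _ _ (yD_ne hp), Psi_one]
  have hσ : (1 : ℝ) ≤ σ := by linarith [T.ptil1]
  apply M_high_core hσ
  have h := H_high (a := 0) T le_rfl (by norm_num) hσ1 hσ2
  simp only [add_zero] at h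
  rw [beta2_eq]
  have hη := eta0_eq
  rw [hη] at h
  norm_num at h ⊢
  nlinarith

theorem barrier_M2_low {p ptil Γ Γ₀ w₀ β σ : ℝ} (T : Tol p ptil Γ Γ₀ w₀) (hβ : 1 ≤ β)
    (hσ1 : 0.49 * p ≤ σ) (hσ2 : σ ≤ ptil) :
    Psi β Ap Γ₀ (Uof p) ptil σ 0 ≤
      (σ / yD p) * td β Ap Γ w₀ (Uof p) (yD p) bD - 1 := by
  have hp := T.p1
  rw [td_chord _ _ _ _ _ _ _ _ (yD_ne hp), Psi_zero]
  have hσ : (0.49 : ℝ) ≤ σ := by linarith
  apply M_low_core hσ
  have h := bracket_low (a := 1024) T (by norm_num) le_rfl (by linarith) hσ2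
  rw [← Ap_eq] at h
  have h2 : (1024 : ℝ) ≤ Ap * yD p * Γ - Ap * w₀ - Uof p - Ap * Γ₀ * σ := by
    have : (0 : ℝ) < 1 / 2 ^ 29 := by positivity
    nlinarith
  have h3 : 1 * (1024 : ℝ) ≤ β * (Ap * yD p * Γ - Ap * w₀ - Uof p - Ap * Γ₀ * σ) :=
    mul_le_mul hβ h2 (by norm_num) (by linarith)
  linarith

theorem barrier_M2_high {p ptil Γ Γ₀ w₀ β σ : ℝ} (T : Tol p ptil Γ Γ₀ w₀) (hβ : 1 ≤ β)
    (hσ1 : ptil ≤ σ) (hσ2 : σ ≤ 1.26 * p) :
    Psi β Ap Γ₀ (Uof p) ptil σ 1 ≤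
      (σ / yD p) * td β Ap Γ w₀ (Uof p) (yD p) bD - 1 := by
  have hp := T.p1
  rw [td_chord _ _ _ _ _ _ _ _ (yD_ne hp), Psi_one]
  have hσ : (1 : ℝ) ≤ σ := by linarith [T.ptil1]
  apply M_high_core hσ
  have h := H_high (a := 1024) T (by norm_num) le_rfl hσ1 hσ2
  rw [← Ap_eq] at h
  have hη := eta0_eq
  have hηp : 0 < eta0 := by rw [hη]; norm_num
  have h3 : (0 : ℝ) ≤ (3 / 8) * eta0 * σ := by positivity
  have h4 : (1 : ℝ) / 2 ^ 100 ≤ 1 := by norm_num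
  have h5 : 194 * σ ≤ (1 / 2) * σ * (Ap * yD p * Γ - Ap * w₀ - Uof p - Ap * Γ₀ * σ)
      + Uof p * (σ - ptil) := by
    norm_num at h h4 ⊢
    linarith
  have h6 : 0 ≤ (1 / 2) * σ * (Ap * yD p * Γ - Ap * w₀ - Uof p - Ap * Γ₀ * σ)
      + Uof p * (σ - ptil) := by linarith
  exact h5.trans (le_mul_of_one_le_left h6 hβ)


/-- The cap on the number of layers. -/
noncomputable def rhoC (p : ℝ) : ℝ := 2512 * p + 1

lemma tolE_small : tolE ≤ 1 / 2 ^ 200 := tolE_le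
lemma A0_val : A0 = 2 ^ 50 := rfl
lemma A0_pos : 0 < A0 := by rw [A0_val]; positivity
lemma eta0_val : eta0 = 1 / 2 ^ 27 := by
  unfold eta0; rw [zpow_neg]; norm_cast; simp
lemma wW_val : wW = 1 / 2 ^ 27 := by
  unfold wW; rw [zpow_neg]; norm_cast; simp
lemma bT_log : log bT = -(55 * log 2) := by
  unfold bT
  rw [Real.log_zpow]
  push_cast
  ring

/-- The algebra of the egg crate. -/
lemma egg_window {p K σ x : ℝ} (hK : K ≠ 0) (hσ : σ = K * p + x) :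
    (1 / 2) * A0 * σ ^ 2 / K - Uof p * σ + Uof p * K * p / 2 =
      A0 * x ^ 2 / (2 * K) + eta0 * (K * p / 2 + x) := by
  unfold Uof
  subst hσ
  field_simp
  ring

lemma Uof_pos {p : ℝ} (hp : 1 ≤ p) : 0 < Uof p := by
  unfold Uof
  rw [A0_val, eta0_val]
  have h1 : (2:ℝ) ^ 50 * 1 ≤ 2 ^ 50 * p := mul_le_mul_of_nonneg_left hp (by positivity)
  have h2 : (1:ℝ) / 2 ^ 27 < 2 ^ 50 * 1 := by norm_num
  linarith

lemma Uof_le {p : ℝ} (_hp : 1 ≤ p) (hp8 : p ≤ 8) : Uof p ≤ 2 ^ 53 := by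
  unfold Uof
  rw [A0_val, eta0_val]
  have h1 : (2:ℝ) ^ 50 * p ≤ 2 ^ 50 * 8 := mul_le_mul_of_nonneg_left hp8 (by positivity)
  have h2 : (0:ℝ) < 1 / 2 ^ 27 := by norm_num
  have h3 : (2:ℝ) ^ 50 * 8 = 2 ^ 53 := by norm_num
  linarith

/-- **(S2)** window around `kp`. -/
theorem barrier_S2 {p ptil Γ Γ₀ w₀ σ x : ℝ} {k : ℕ} (T : Tol p ptil Γ Γ₀ w₀) (hk : 2 ≤ k)
    (hσ : σ = k * p + x) (hx : |x| ≤ wW) (hσ2 : σ ≤ rhoC p + 1) :
    ((k : ℝ) - 1) * ((1 / 2) * A0 * Γ₀ * σ ^ 2 / k - Uof p * σ + Uof p * k * ptil / 2) ≤ 0.07 * p := by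
  set K : ℝ := (k : ℝ) with hKdef
  have hK2 : (2:ℝ) ≤ K := by rw [hKdef]; exact_mod_cast hk
  have hK0 : 0 < K := by linarith
  have hp1 := T.p1
  have hp8 := T.p8
  have hp0 : 0 < p := by linarith
  have hw : wW = 1 / 2 ^ 27 := wW_val
  have hWs : (1:ℝ) / 2 ^ 27 ≤ 1 / 2 := by norm_num
  have hx1 : x ≤ 1 / 2 ^ 27 := by rw [← hw]; exact (le_abs_self x).trans hx
  have hx2 : -(1 / 2 ^ 27) ≤ x := by
    rw [← hw]; have := neg_abs_le x; linarith
  have hxsq : x ^ 2 ≤ (1 / 2 ^ 27) ^ 2 := by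
    apply sq_le_sq.mpr
    rw [abs_of_pos (by norm_num : (0:ℝ) < 1 / 2 ^ 27)]
    rw [← hw]; exact hx
  have hKp2 : 2 ≤ K * p := by nlinarith
  have hKp : K * p ≤ 2515 * p := by
    have h1 : K * p = σ - x := by rw [hσ]; ring
    rw [h1]
    unfold rhoC at hσ2
    linarith
  have hK3 : K ≤ 2515 := le_of_mul_le_mul_right hKp hp0
  have ht := tolE_small
  have ht0 := tolE_pos
  have hA := A0_val
  have hA0 := A0_pos
  have he := eta0_val
  have hU0 : 0 < Uof p := Uof_pos hp1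
  have hU1 : Uof p ≤ 2 ^ 53 := Uof_le hp1 hp8
  have hσpos : 0 ≤ σ := by rw [hσ]; linarith
  have hσ0 : σ ^ 2 ≤ (2 ^ 15) ^ 2 := by
    apply pow_le_pow_left₀ hσpos
    unfold rhoC at hσ2
    norm_num
    linarith
  -- the perturbation
  set t : ℝ := tolE
  have h1 : (1 / 2) * A0 * Γ₀ * σ ^ 2 / K ≤ (1 / 2) * A0 * (1 + t) * σ ^ 2 / K := by
    apply div_le_div_of_nonneg_right _ hK0.le
    apply mul_le_mul_of_nonneg_right _ (sq_nonneg σ)
    apply mul_le_mul_of_nonneg_left T.Γ₀2 (by positivity)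
  have h2 : Uof p * K * ptil / 2 ≤ Uof p * K * (p * (1 + t)) / 2 := by
    apply div_le_div_of_nonneg_right _ (by norm_num)
    apply mul_le_mul_of_nonneg_left T.ptil2 (by positivity)
  have h3 := egg_window (p := p) (K := K) (σ := σ) (x := x) hK0.ne' hσ
  have hE : (1 / 2) * A0 * σ ^ 2 / K + Uof p * K * p / 2 ≤ 2 ^ 90 := by
    have e1 : (1 / 2) * A0 * σ ^ 2 / K ≤ (1 / 2) * A0 * σ ^ 2 := by
      apply div_le_self (by positivity)
      linarith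
    have e2 : (1 / 2) * A0 * σ ^ 2 ≤ (1 / 2) * 2 ^ 50 * (2 ^ 15) ^ 2 := by
      rw [hA]
      apply mul_le_mul_of_nonneg_left hσ0 (by positivity)
    have e3 : Uof p * K * p / 2 ≤ 2 ^ 53 * 2515 * 8 / 2 := by
      apply div_le_div_of_nonneg_right _ (by norm_num)
      apply mul_le_mul _ hp8 hp0.le (by positivity)
      exact mul_le_mul hU1 hK3 hK0.le (by positivity)
    have e4 : (1 / 2) * (2:ℝ) ^ 50 * (2 ^ 15) ^ 2 + 2 ^ 53 * 2515 * 8 / 2 ≤ 2 ^ 90 := by norm_num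
    linarith
  have hbr : (1 / 2) * A0 * Γ₀ * σ ^ 2 / K - Uof p * σ + Uof p * K * ptil / 2 ≤
      A0 * x ^ 2 / (2 * K) + eta0 * (K * p / 2 + x) + 2 ^ 90 * t := by
    have e : (1 / 2) * A0 * (1 + t) * σ ^ 2 / K + Uof p * K * (p * (1 + t)) / 2 =
        (1 / 2) * A0 * σ ^ 2 / K + Uof p * K * p / 2
          + t * ((1 / 2) * A0 * σ ^ 2 / K + Uof p * K * p / 2) := by
      field_simp
    have e2 : t * ((1 / 2) * A0 * σ ^ 2 / K + Uof p * K * p / 2) ≤ 2 ^ 90 * t := by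
      rw [mul_comm]
      exact mul_le_mul_of_nonneg_right hE ht0.le
    linarith
  have hK1 : 0 ≤ K - 1 := by linarith
  have h4 := mul_le_mul_of_nonneg_left hbr hK1
  refine h4.trans ?_
  have e1 : (K - 1) * (A0 * x ^ 2 / (2 * K)) ≤ 1 / 32 := by
    have e2 : (K - 1) * (A0 * x ^ 2 / (2 * K)) = ((K - 1) / K) * (A0 * x ^ 2 / 2) := by
      field_simp
    rw [e2]
    have e3 : (K - 1) / K ≤ 1 := by
      rw [div_le_one hK0]; linarith
    have e4 : A0 * x ^ 2 / 2 ≤ 1 / 32 := by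
      rw [hA]
      have h5 : (2:ℝ) ^ 50 * x ^ 2 ≤ 2 ^ 50 * (1 / 2 ^ 27) ^ 2 :=
        mul_le_mul_of_nonneg_left hxsq (by positivity)
      have h6 : (2:ℝ) ^ 50 * (1 / 2 ^ 27) ^ 2 = 1 / 16 := by norm_num
      linarith
    have e5 : 0 ≤ A0 * x ^ 2 / 2 := div_nonneg (mul_nonneg hA0.le (sq_nonneg x)) (by norm_num)
    have e6 : 0 ≤ (K - 1) / K := div_nonneg hK1 hK0.le
    have e7 : (K - 1) / K * (A0 * x ^ 2 / 2) ≤ A0 * x ^ 2 / 2 := mul_le_of_le_one_left e5 e3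
    exact e7.trans e4
  have e2 : (K - 1) * (eta0 * (K * p / 2 + x)) ≤ 0.024 * p := by
    rw [he]
    have e3 : K * p / 2 + x ≤ 1258 * p := by linarith
    have e4 : (K - 1) * (K * p / 2 + x) ≤ 2514 * (1258 * p) :=
      mul_le_mul (by linarith) e3 (by linarith) (by norm_num)
    have e5 : (K - 1) * (1 / 2 ^ 27 * (K * p / 2 + x)) = (1 / 2 ^ 27) * ((K - 1) * (K * p / 2 + x)) := by
      ring
    rw [e5]
    have e6 : (1 / 2 ^ 27 : ℝ) * ((K - 1) * (K * p / 2 + x)) ≤ (1 / 2 ^ 27) * (2514 * (1258 * p)) :=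
      mul_le_mul_of_nonneg_left e4 (by norm_num)
    refine e6.trans ?_
    have e7 : (1 / 2 ^ 27 : ℝ) * (2514 * (1258 * p)) = ((1 / 2 ^ 27 : ℝ) * (2514 * 1258)) * p := by ring
    rw [e7]
    exact mul_le_mul_of_nonneg_right (by norm_num) hp0.le
  have e3 : (K - 1) * (2 ^ 90 * t) ≤ 1 / 100 := by
    have e4 : 2 ^ 90 * t ≤ 2 ^ 90 * (1 / 2 ^ 200) :=
      mul_le_mul_of_nonneg_left ht (by positivity)
    have e40 : 0 ≤ 2 ^ 90 * t := by positivity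
    have e41 : (0:ℝ) ≤ 2515 := by norm_num
    have e5 : (K - 1) * (2 ^ 90 * t) ≤ 2515 * (2 ^ 90 * (1 / 2 ^ 200)) :=
      mul_le_mul (by linarith) e4 e40 e41
    refine e5.trans ?_
    norm_num
  have e4 : (K - 1) * (A0 * x ^ 2 / (2 * K) + eta0 * (K * p / 2 + x) + 2 ^ 90 * t) =
      (K - 1) * (A0 * x ^ 2 / (2 * K)) + (K - 1) * (eta0 * (K * p / 2 + x)) + (K - 1) * (2 ^ 90 * t) := by
    ring
  rw [e4]
  have e8 : (0.07:ℝ) * p - 0.024 * p = 0.046 * p := by ring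
  have e9 : (0.046:ℝ) * 1 ≤ 0.046 * p := mul_le_mul_of_nonneg_left hp1 (by norm_num)
  norm_num at e1 e3 e8 e9 ⊢
  linarith

/-- The algebra of the energy barrier. -/
lemma egg_line {p K σ x : ℝ} (hσ : σ = K * p + x) :
    (1 / 2) * A0 * σ ^ 2 - Uof p * K * σ + Uof p * p * (K * (K + 1) / 2) =
      (1 / 2) * A0 * (x ^ 2 + p ^ 2 * K) + eta0 * (p * K * (K - 1) / 2 + K * x) := by
  unfold Uof
  subst hσ
  ring

lemma log_two_le' : log 2 ≤ 0.6932 := by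
  have := Real.log_two_lt_d9
  linarith

lemma zpow_neg_50 : (2:ℝ) ^ (-50 : ℤ) = 1 / 2 ^ 50 := by
  rw [zpow_neg]; norm_cast; simp

/-- Step C of S1: the trial value is linear. -/
lemma ts_lower {p Γ w₀ : ℝ} (hp1 : 1 ≤ p) (hΓ : 1 ≤ Γ) (hw : w₀ ≤ tolE) :
    yT p * ((1 / 2) * A0 * p - p / 2 - 115) ≤ ts 1 A0 Γ w₀ (yT p) bT := by
  have hA := A0_val
  have hp0 : 0 < p := by linarith
  have hye : yT p = p - p / 2 ^ 50 := by
    unfold yT; rw [zpow_neg_50]; ring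
  set y : ℝ := yT p with hy
  have hypos : 0 < y := by
    rw [hye]
    have : p / 2 ^ 50 = p * (1 / 2 ^ 50) := by ring
    rw [this]
    have h2 : p * (1 / 2 ^ 50) ≤ p * (1 / 2) :=
      mul_le_mul_of_nonneg_left (by norm_num) hp0.le
    linarith
  have hAy : (1 / 2) * A0 * y = (1 / 2) * A0 * p - p / 2 := by
    rw [hye, hA]; field_simp
  unfold ts
  rw [bT_log]
  have a1 : (1 / 2) * A0 * y ≤ (1 / 2) * A0 * y * Γ := by
    have h3 : 0 < (1 / 2) * A0 * y := by have := A0_pos; positivity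
    exact le_mul_of_one_le_right h3.le hΓ
  have a2 : (1 / 2) * A0 * w₀ ≤ 1 / 2 := by
    have a3 : w₀ ≤ 1 / 2 ^ 200 := hw.trans tolE_small
    rw [hA]
    have : (1 / 2) * (2:ℝ) ^ 50 * w₀ ≤ (1 / 2) * 2 ^ 50 * (1 / 2 ^ 200) :=
      mul_le_mul_of_nonneg_left a3 (by positivity)
    refine this.trans ?_
    norm_num
  have e : (1 / 2) * 1 * A0 * y ^ 2 * Γ + 3 * y * (-(55 * log 2)) - (1 / 2) * 1 * A0 * y * w₀ =
      y * ((1 / 2) * A0 * y * Γ - 165 * log 2 - (1 / 2) * A0 * w₀) := by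
    ring
  rw [e]
  apply mul_le_mul_of_nonneg_left _ hypos.le
  rw [hAy] at a1
  have a3 : 165 * log 2 ≤ 114.4 := by
    have h5 := log_two_le'
    have h6 : (165:ℝ) * log 2 ≤ 165 * 0.6932 := mul_le_mul_of_nonneg_left h5 (by norm_num)
    have h7 : (165:ℝ) * 0.6932 ≤ 114.4 := by norm_num
    linarith
  norm_num at a3 a2 ⊢
  rw [hAy] 
  linarith

/-- Step C of S1: from the trial value to the line. -/
lemma line_lower {S y μ c σ : ℝ} (hy : 1 / 2 ≤ y) (hσ : 0 < σ) (hyσ : y ≤ σ) (hc : -1 ≤ c)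
    (h : y * S + c ≤ -(μ * y)) : S * σ - 2 * σ ≤ -(μ * σ + c) := by
  have hypos : 0 < y := by linarith
  have b2 : S + c / y ≤ -μ := by
    have h1 : (S + c / y) * y ≤ -μ * y := by
      have h2 : (S + c / y) * y = y * S + c := by field_simp
      rw [h2]
      linarith
    exact le_of_mul_le_mul_right h1 hypos
  have b4 : (S + c / y) * σ ≤ -μ * σ := mul_le_mul_of_nonneg_right b2 hσ.le
  -- `c (σ/y - 1) ≥ -(σ/y - 1) ≥ -2σ`
  have b5 : 0 ≤ σ / y - 1 := by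
    rw [sub_nonneg, le_div_iff₀ hypos]; linarith
  have b6 : -(σ / y - 1) ≤ c * (σ / y - 1) := by
    have := mul_le_mul_of_nonneg_right hc b5
    linarith
  have b7 : σ / y ≤ 2 * σ := by
    rw [div_le_iff₀ hypos]
    nlinarith
  have b8 : (S + c / y) * σ = S * σ + c * (σ / y - 1) + c := by
    field_simp
    ring
  linarith

/-- **(S1)** energy barrier away from multiples of `p`, at `(1,A₀)`. -/
theorem barrier_S1 {p ptil Γ Γ₀ w₀ μ c σ x : ℝ} {k : ℕ} (T : Tol p ptil Γ Γ₀ w₀)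
    (hc : -1 ≤ c)
    (hμ : ts 1 A0 Γ w₀ (yT p) bT ≤ -(μ * yT p + c)) (hk : 1 ≤ k) (hσ : σ = k * p + x)
    (hx1 : wW ≤ x) (hx2 : x ≤ p - wW) (hσ2 : σ ≤ rhoC p) :
    Psi 1 A0 Γ₀ (Uof p) ptil σ k ≤ -(μ * σ + c) - 1 / 2 := by
  set K : ℝ := (k : ℝ) with hKdef
  have hK1 : (1:ℝ) ≤ K := by rw [hKdef]; exact_mod_cast hk
  have hK0 : 0 < K := by linarith
  have hp1 := T.p1
  have hp8 := T.p8
  have hp0 : 0 < p := by linarith
  have hw : wW = 1 / 2 ^ 27 := wW_val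
  rw [hw] at hx1 hx2
  have hx0 : 0 < x := lt_of_lt_of_le (by norm_num) hx1
  have hKpp : p ≤ K * p := le_mul_of_one_le_left hp0.le hK1
  have hσ1 : p ≤ σ := by rw [hσ]; linarith
  have hσ0 : 0 < σ := by linarith
  have hσ3 : σ ≤ 2513 * p := by
    unfold rhoC at hσ2; linarith
  have hKp : K * p ≤ 2513 * p := by
    have : K * p ≤ σ := by rw [hσ]; linarith
    linarith
  have hK3 : K ≤ 2513 := le_of_mul_le_mul_right hKp hp0
  have hlog : 0 ≤ log σ := Real.log_nonneg (by linarith)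
  have ht := tolE_small
  have ht0 := tolE_pos
  have hA := A0_val
  have hA0 := A0_pos
  have he := eta0_val
  have hU0 : 0 < Uof p := Uof_pos hp1
  have hU1 : Uof p ≤ 2 ^ 53 := Uof_le hp1 hp8
  set t : ℝ := tolE
  -- Step A : upper bound of `Psi`
  set E : ℝ := (1 / 2) * A0 * σ ^ 2 + Uof p * p * (K * (K + 1) / 2) with hE
  have hPsi : Psi 1 A0 Γ₀ (Uof p) ptil σ k ≤
      (1 / 2) * A0 * σ ^ 2 - Uof p * K * σ + Uof p * p * (K * (K + 1) / 2) + σ + t * E := by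
    unfold Psi
    have a1 : (1 / 2) * 1 * A0 * Γ₀ * σ ^ 2 ≤ (1 / 2) * A0 * (1 + t) * σ ^ 2 := by
      have : (1 / 2) * 1 * A0 * Γ₀ * σ ^ 2 = (1 / 2) * A0 * Γ₀ * σ ^ 2 := by ring
      rw [this]
      apply mul_le_mul_of_nonneg_right _ (sq_nonneg σ)
      apply mul_le_mul_of_nonneg_left T.Γ₀2 (by positivity)
    have a2 : Uof p * (ptil * (K * (K + 1) / 2)) ≤ Uof p * ((p * (1 + t)) * (K * (K + 1) / 2)) := by
      apply mul_le_mul_of_nonneg_left _ hU0.le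
      apply mul_le_mul_of_nonneg_right T.ptil2 (by positivity)
    have a3 : σ * (1 - log σ) ≤ σ := by
      have : σ * (1 - log σ) = σ - σ * log σ := by ring
      rw [this]
      have : 0 ≤ σ * log σ := mul_nonneg hσ0.le hlog
      linarith
    have a4 : t * E = t * ((1 / 2) * A0 * σ ^ 2) + t * (Uof p * p * (K * (K + 1) / 2)) := by
      rw [hE]; ring
    rw [a4]
    have a5 : (1 / 2) * A0 * (1 + t) * σ ^ 2 = (1 / 2) * A0 * σ ^ 2 + t * ((1 / 2) * A0 * σ ^ 2) := by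
      ring
    have a6 : Uof p * ((p * (1 + t)) * (K * (K + 1) / 2)) =
        Uof p * p * (K * (K + 1) / 2) + t * (Uof p * p * (K * (K + 1) / 2)) := by
      ring
    have a7 : 1 * Uof p * (K * σ - ptil * (K * (K + 1) / 2)) =
        Uof p * K * σ - Uof p * (ptil * (K * (K + 1) / 2)) := by
      ring
    rw [a7]
    linarith
  -- Step C : lower bound of the line
  have hye : yT p = p - p / 2 ^ 50 := by
    unfold yT; rw [zpow_neg_50]; ring
  have hy0 : 1 / 2 ≤ yT p := by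
    rw [hye]
    have : p / 2 ^ 50 = p * (1 / 2 ^ 50) := by ring
    rw [this]
    have h2 : p * (1 / 2 ^ 50) ≤ p * (1 / 4) :=
      mul_le_mul_of_nonneg_left (by norm_num) hp0.le
    linarith
  set S : ℝ := (1 / 2) * A0 * p - p / 2 - 115 with hS
  have hts : yT p * S ≤ ts 1 A0 Γ w₀ (yT p) bT := ts_lower hp1 T.Γ1 T.w1
  have hyleσ : yT p ≤ σ := by
    rw [hye]
    have : 0 < p / 2 ^ 50 := by positivity
    linarith
  have hline : S * σ - 2 * σ ≤ -(μ * σ + c) :=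
    line_lower hy0 hσ0 hyleσ hc (by linarith)
  -- Step D
  have hegg := egg_line (p := p) (K := K) (σ := σ) (x := x) hσ
  have hSσ : S * σ = (1 / 2) * A0 * (p ^ 2 * K) + (1 / 2) * A0 * p * x - (p / 2 + 115) * σ := by
    rw [hS]
    have h5 : (1 / 2 * A0 * p - p / 2 - 115) * σ = (1 / 2 * A0 * p) * σ - (p / 2 + 115) * σ := by ring
    rw [h5, hσ]
    ring
  -- the margin
  have hmain : 2 ^ 22 * p - 1 / 2 ^ 5 ≤ (1 / 2) * A0 * (x * (p - x)) := by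
    have d1 : (1 / 2 ^ 27) * (p - 1 / 2 ^ 27) ≤ x * (p - x) := by
      have d0 : 0 ≤ (x - 1 / 2 ^ 27) * (p - 1 / 2 ^ 27 - x) :=
        mul_nonneg (by linarith) (by linarith)
      have d00 : (x - 1 / 2 ^ 27) * (p - 1 / 2 ^ 27 - x) =
          x * (p - x) - (1 / 2 ^ 27) * (p - 1 / 2 ^ 27) := by ring
      linarith
    rw [hA]
    have d2 : (1 / 2) * (2:ℝ) ^ 50 * ((1 / 2 ^ 27) * (p - 1 / 2 ^ 27)) ≤
        (1 / 2) * (2:ℝ) ^ 50 * (x * (p - x)) :=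
      mul_le_mul_of_nonneg_left d1 (by positivity)
    have d3 : (1 / 2) * (2:ℝ) ^ 50 * ((1 / 2 ^ 27) * (p - 1 / 2 ^ 27)) = 2 ^ 22 * p - 1 / 2 ^ 5 := by
      norm_num
      ring
    linarith
  have hσbound : (p / 2 + 118) * σ ≤ 306600 * p := by
    have d1 : p / 2 + 118 ≤ 122 := by linarith
    have d2 : (p / 2 + 118) * σ ≤ 122 * (2513 * p) :=
      mul_le_mul d1 hσ3 hσ0.le (by norm_num)
    linarith
  have hetabound : eta0 * (p * K * (K - 1) / 2 + K * x) ≤ p := by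
    rw [he]
    have d1 : p * K * (K - 1) / 2 + K * x ≤ K * σ := by
      rw [hσ]
      have h6 : K * (K * p + x) - (p * K * (K - 1) / 2 + K * x) = p * K * (K + 1) / 2 := by ring
      have h7 : 0 ≤ p * K * (K + 1) / 2 := by positivity
      linarith
    have d2 : K * σ ≤ 2513 * (2513 * p) := mul_le_mul hK3 hσ3 hσ0.le (by norm_num)
    have d3 : (1 / 2 ^ 27 : ℝ) * (p * K * (K - 1) / 2 + K * x) ≤ (1 / 2 ^ 27) * (2513 * (2513 * p)) :=
      mul_le_mul_of_nonneg_left (d1.trans d2) (by norm_num)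
    refine d3.trans ?_
    have d4 : (1 / 2 ^ 27 : ℝ) * (2513 * (2513 * p)) = ((1 / 2 ^ 27 : ℝ) * (2513 * 2513)) * p := by ring
    rw [d4]
    exact mul_le_of_le_one_left hp0.le (by norm_num)
  have hEbound : t * E ≤ 1 := by
    have d0 : σ ≤ 2 ^ 15 := by
      have : (2513:ℝ) * p ≤ 2513 * 8 := mul_le_mul_of_nonneg_left hp8 (by norm_num)
      norm_num
      linarith
    have d1 : σ ^ 2 ≤ (2 ^ 15) ^ 2 := pow_le_pow_left₀ hσ0.le d0 2
    have d2 : (1 / 2) * A0 * σ ^ 2 ≤ (1 / 2) * 2 ^ 50 * (2 ^ 15) ^ 2 := by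
      rw [hA]
      exact mul_le_mul_of_nonneg_left d1 (by positivity)
    have d3 : K * (K + 1) / 2 ≤ 2513 * 2514 / 2 := by
      apply div_le_div_of_nonneg_right _ (by norm_num)
      exact mul_le_mul hK3 (by linarith) (by linarith) (by norm_num)
    have d4 : Uof p * p * (K * (K + 1) / 2) ≤ 2 ^ 53 * 8 * (2513 * 2514 / 2) := by
      apply mul_le_mul _ d3 (by positivity) (by positivity)
      exact mul_le_mul hU1 hp8 hp0.le (by positivity)
    have d5 : E ≤ 2 ^ 90 := by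
      rw [hE]
      have d7 : (1 / 2) * (2:ℝ) ^ 50 * (2 ^ 15) ^ 2 + 2 ^ 53 * 8 * (2513 * 2514 / 2) ≤ 2 ^ 90 := by
        norm_num
      linarith
    have d6 : t * E ≤ (1 / 2 ^ 200) * 2 ^ 90 :=
      mul_le_mul ht d5 (by rw [hE]; positivity) (by norm_num)
    refine d6.trans ?_
    norm_num
  -- conclusion
  have hfinal : (1 / 2) * A0 * (x ^ 2 + p ^ 2 * K) + eta0 * (p * K * (K - 1) / 2 + K * x) + σ + t * E
      ≤ S * σ - 2 * σ - 1 / 2 := by
    rw [hSσ]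
    have e : (1 / 2) * A0 * (x ^ 2 + p ^ 2 * K) =
        (1 / 2) * A0 * (p ^ 2 * K) + (1 / 2) * A0 * p * x - (1 / 2) * A0 * (x * (p - x)) := by
      ring
    rw [e]
    have e2 : 306600 * p + p + 1 + 1 / 2 ≤ (2:ℝ) ^ 22 * p - 1 / 2 ^ 5 := by
      have e3 : (2:ℝ) ^ 22 * p - 306601 * p = (2 ^ 22 - 306601) * p := by ring
      have e4 : ((2:ℝ) ^ 22 - 306601) * 1 ≤ (2 ^ 22 - 306601) * p :=
        mul_le_mul_of_nonneg_left hp1 (by norm_num)
      norm_num at e3 e4 ⊢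
      linarith
    have e5 : (p / 2 + 118) * σ = (p / 2 + 115) * σ + 3 * σ := by ring
    linarith
  calc Psi 1 A0 Γ₀ (Uof p) ptil σ k
      ≤ (1 / 2) * A0 * σ ^ 2 - Uof p * K * σ + Uof p * p * (K * (K + 1) / 2) + σ + t * E := hPsi
    _ = (1 / 2) * A0 * (x ^ 2 + p ^ 2 * K) + eta0 * (p * K * (K - 1) / 2 + K * x) + σ + t * E := by
        rw [hegg]
    _ ≤ S * σ - 2 * σ - 1 / 2 := hfinal
    _ ≤ _ := by linarith

/-- `log 2` beats the window errors. -/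
theorem barrier_S2' {p : ℝ} (hp : 1 ≤ p) : 0.07 * p - p * log 2 ≤ -(1 / 2) := by
  have := Real.log_two_gt_d9
  nlinarith

/-- **(S3)** above the cap. -/
theorem barrier_S3 {p ptil Γ Γ₀ w₀ U₂ σ P₁ β A: ℝ} (T : Tol p ptil Γ Γ₀ w₀) (hβ : 1 ≤ β) (hA0 : 0 ≤ A)
    (hA : A ≤ Ap) (hP₁ : p ≤ P₁) (hU₂ : 16 * 2197 * P₁ * Amax ≤ U₂) (hσ : 2511 * p ≤ σ) :
    (1 / 2) * β * A * Γ₀ * σ ^ 2 + σ * (1 - log σ)
        - β * U₂ * (σ ^ 2 / (2 * (2197 * ptil)) - σ / 2) ≤ -1 := by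
  have hp1 := T.p1
  have hσ1 : 2511 ≤ σ := by linarith
  have hσ0 : 0 < σ := by linarith
  have hlog : 0 ≤ log σ := Real.log_nonneg (by linarith)
  have ht := tolE_small
  have ht0 := tolE_pos
  have ht1 : tolE ≤ 1 / 1000 := by
    refine ht.trans ?_
    norm_num
  have hptil0 : 0 < ptil := by linarith [T.ptil1]
  have hptil : ptil ≤ p * (1 + 1 / 1000) := by
    refine T.ptil2.trans ?_
    have : 0 < p := by linarith
    apply mul_le_mul_of_nonneg_left _ this.le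
    linarith
  -- `σ / (2197 p̃) ≥ 1.14`
  have h1 : 1.14 * (2197 * ptil) ≤ σ := by
    have : 1.14 * (2197 * ptil) ≤ 1.14 * (2197 * (p * (1 + 1 / 1000))) := by
      apply mul_le_mul_of_nonneg_left _ (by norm_num)
      apply mul_le_mul_of_nonneg_left hptil (by norm_num)
    nlinarith
  set D : ℝ := 2197 * ptil with hD
  have hD0 : 0 < D := by positivity
  have h2 : σ ^ 2 / (2 * D) - σ / 2 ≥ (1 / 9) * (σ ^ 2 / (2 * D)) := by
    have e : σ ^ 2 / (2 * D) - σ / 2 - (1 / 9) * (σ ^ 2 / (2 * D)) =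
        (σ / (18 * D)) * (8 * σ - 9 * D) := by
      field_simp
      ring
    have h3 : 0 ≤ (σ / (18 * D)) * (8 * σ - 9 * D) := by
      apply mul_nonneg (by positivity)
      nlinarith
    linarith
  have hAp : 0 < Ap := by unfold Ap; have := A0_pos; positivity
  have hAmax : 0 < Amax := by unfold Amax; positivity
  have hP0 : 0 < P₁ := by linarith
  have hU0 : 0 < U₂ := by
    have : 0 < 16 * 2197 * P₁ * Amax := by positivity
    linarith
  -- `U₂/(2 D) ≥ 7 Amax`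
  have h3 : 7 * Amax ≤ U₂ / (2 * D) := by
    rw [le_div_iff₀ (by positivity)]
    have h4 : 7 * Amax * (2 * D) ≤ 16 * 2197 * P₁ * Amax := by
      rw [hD]
      have h5 : ptil ≤ P₁ * (1 + 1 / 1000) := by nlinarith
      have h6 : 14 * 2197 * ptil ≤ 16 * 2197 * P₁ := by nlinarith
      nlinarith
    linarith
  have hβ0 : 0 < β := by linarith
  have h4 : β * U₂ * (σ ^ 2 / (2 * D) - σ / 2) ≥ β * (7 * Amax) * ((1 / 9) * σ ^ 2) := by
    have e : σ ^ 2 / (2 * D) = σ ^ 2 * (1 / (2 * D)) := by ring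
    have e2 : U₂ * (1 / (2 * D)) = U₂ / (2 * D) := by ring
    have h5 : β * U₂ * ((1 / 9) * (σ ^ 2 / (2 * D))) = β * (U₂ / (2 * D)) * ((1 / 9) * σ ^ 2) := by
      field_simp
    have h6 : β * U₂ * (σ ^ 2 / (2 * D) - σ / 2) ≥ β * U₂ * ((1 / 9) * (σ ^ 2 / (2 * D))) :=
      mul_le_mul_of_nonneg_left h2 (by positivity)
    rw [h5] at h6
    have h7 : β * (7 * Amax) * ((1 / 9) * σ ^ 2) ≤ β * (U₂ / (2 * D)) * ((1 / 9) * σ ^ 2) := by
      apply mul_le_mul_of_nonneg_right _ (by positivity)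
      exact mul_le_mul_of_nonneg_left h3 hβ0.le
    linarith
  have h5 : (1 / 2) * β * A * Γ₀ * σ ^ 2 ≤ (1 / 2) * β * Ap * (1 + 1 / 1000) * σ ^ 2 := by
    have h6 : Γ₀ ≤ 1 + 1 / 1000 := by linarith [T.Γ₀2]
    have h7 : A * Γ₀ ≤ Ap * (1 + 1 / 1000) :=
      mul_le_mul hA h6 (by linarith [T.Γ₀1]) hAp.le
    have h8 : (1 / 2 * β) * (A * Γ₀) ≤ (1 / 2 * β) * (Ap * (1 + 1 / 1000)) :=
      mul_le_mul_of_nonneg_left h7 (by positivity)
    have h9 := mul_le_mul_of_nonneg_right h8 (sq_nonneg σ)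
    nlinarith
  have h6 : σ * (1 - log σ) ≤ σ := by nlinarith
  have hAmaxe : Amax = 2 * Ap := rfl
  have h7 : 1 ≤ Ap := by
    unfold Ap
    have : (1:ℝ) ≤ A0 := by rw [A0_val]; norm_num
    have : (0:ℝ) ≤ 2 ^ 10 := by norm_num
    linarith
  have hσ2 : 0 < σ ^ 2 := by positivity
  -- collect : `(1/2)(1.001) Ap - (14/9) Ap ≤ - Ap`
  have h8 : (1 / 2) * β * Ap * (1 + 1 / 1000) * σ ^ 2 - β * (7 * Amax) * ((1 / 9) * σ ^ 2) =
      - (β * Ap * σ ^ 2) * (14 / 9 - (1 / 2) * (1 + 1 / 1000)) := by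
    rw [hAmaxe]; ring
  have h9 : β * Ap * σ ^ 2 ≥ σ ^ 2 := by
    have : 1 ≤ β * Ap := by nlinarith
    nlinarith
  have h10 : σ ^ 2 ≥ σ + 1 := by nlinarith
  nlinarith

end Crest.Agent.TL.Num
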