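import Crest.Agent.TL.SplitZ

/-!
# B-c (i): the splitting barrier

Notation: `Am n := Z(s, ℓ, n, β) exp((1/2) κ n² / ℓ³)` (`κ = β A Γ`). If
`Am q ≤ exp (ℓ³ (-μ q/ℓ³ - c + o))` for all `q ≤ n`, the splitting inequality with `K = j + 2` colours
gives at `n` itself the better bound `barrier_split`, with the entropy `-(P/ℓ³) log 2` of the colourings.
-/

set_option autoImplicit false

namespace Crest.Agent.TL.BarrierSplit

open Finset MeasureTheory Crest.ProbabilityR.Continuum Crest.Agent.TL.Cells Crest.Agent.TL.Splitting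

/-- The number of occupation vectors. -/
lemma card_piAntidiag_le (K n : ℕ) :
    #(piAntidiag (univ : Finset (Fin K)) n) ≤ (n + 1) ^ K := by
  have hsub : piAntidiag (univ : Finset (Fin K)) n ⊆
      Fintype.piFinset (fun _ => Finset.range (n + 1)) := by
    intro f hf
    rw [mem_piAntidiag] at hf
    simp only [Fintype.mem_piFinset, Finset.mem_range]
    intro i
    have h1 : f i ≤ ∑ q, f q := Finset.single_le_sum (fun _ _ => Nat.zero_le _) (mem_univ i)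
    have h3 : f i ≤ n := hf.1 ▸ h1
    omega
  calc _ ≤ _ := Finset.card_le_card hsub
    _ = (n + 1) ^ K := by simp [Fintype.card_piFinset]

/-- Each term of the sum over the occupation vectors. -/
lemma prod_le_of_sum (K : ℕ) (hK : 0 < K) (n : ℕ) (Z : ℕ → ℝ) (hZ0 : ∀ q, 0 ≤ Z q)
    (κ' μ a : ℝ) (hκ : 0 ≤ κ')
    (hZ : ∀ q ≤ n, Z q ≤ Real.exp (-(μ * q) + a - κ' * (q : ℝ) ^ 2))
    (k : Fin K → ℕ) (hk : ∑ q, k q = n) :
    ∏ q, Z (k q) ≤ Real.exp (-(μ * n) + K * a - κ' * ((n : ℝ) ^ 2 / K)) := by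
  have hle : ∀ q, k q ≤ n := fun q => by
    rw [← hk]
    exact Finset.single_le_sum (fun _ _ => Nat.zero_le _) (mem_univ q)
  have h1 : ∏ q, Z (k q) ≤ ∏ q, Real.exp (-(μ * k q) + a - κ' * ((k q : ℝ)) ^ 2) :=
    Finset.prod_le_prod (fun q _ => hZ0 _) (fun q _ => hZ _ (hle q))
  refine h1.trans ?_
  rw [← Real.exp_sum]
  apply Real.exp_le_exp.2
  have hsum : ∑ q, (k q : ℝ) = n := by exact_mod_cast hk
  have hCS : (n : ℝ) ^ 2 ≤ K * ∑ q, ((k q : ℝ)) ^ 2 := by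
    have := sq_sum_le_card_mul_sum_sq (s := (univ : Finset (Fin K))) (f := fun q => (k q : ℝ))
    simpa [hsum] using this
  have hK' : (0 : ℝ) < K := by exact_mod_cast hK
  have hdiv : (n : ℝ) ^ 2 / K ≤ ∑ q, ((k q : ℝ)) ^ 2 := by
    rw [div_le_iff₀ hK']; linarith
  have h2 : ∑ q : Fin K, (-(μ * k q) + a - κ' * ((k q : ℝ)) ^ 2) =
      -(μ * ∑ q, (k q : ℝ)) + K * a - κ' * ∑ q, ((k q : ℝ)) ^ 2 := by
    rw [Finset.sum_sub_distrib, Finset.sum_add_distrib, Finset.sum_neg_distrib, Finset.mul_sum,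
      Finset.mul_sum]
    simp
  rw [h2, hsum]
  have := mul_le_mul_of_nonneg_left hdiv hκ
  linarith

/-- **The splitting barrier**, exponential form. `K = j + 2`, `P = packingNumber ℓ`,
`p̃ = P/ℓ³`, `σ = n/ℓ³`. -/
theorem barrier_split (s : ℝ → ℝ) (hsm : Measurable s) (U β ℓ : ℝ) (hs0 : ∀ r, 0 ≤ s r)
    (hsU : ∀ r, r < 1 → U ≤ s r) (hU : 0 ≤ U) (hβ : 0 ≤ β) (hlog : Real.log 2 ≤ β * U) (hℓ : 0 < ℓ)
    (κ μ c o : ℝ) (hκ : 0 ≤ κ) (n j : ℕ)
    (hAm : ∀ q ≤ n, partitionFn s ℓ q β * Real.exp (1 / 2 * κ * (q : ℝ) ^ 2 / ℓ ^ 3) ≤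
      Real.exp (ℓ ^ 3 * (-(μ * ((q : ℝ) / ℓ ^ 3)) - c + o))) :
    partitionFn s ℓ n β * Real.exp (1 / 2 * κ * (n : ℝ) ^ 2 / ℓ ^ 3) ≤
      Real.exp (ℓ ^ 3 * (-(μ * ((n : ℝ) / ℓ ^ 3) + c) - (j + 1) * c + (j + 2) * o
        + (j + 2) * Real.log (n + 1) / ℓ ^ 3 - (packingNumber ℓ / ℓ ^ 3) * Real.log 2
        + (j + 1) * (κ * ((n : ℝ) / ℓ ^ 3) ^ 2 / (2 * (j + 2))
          - β * U * ((n : ℝ) / ℓ ^ 3 - (j + 2) * (packingNumber ℓ / ℓ ^ 3) / 2)))) := by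
  classical
  have hℓ3 : 0 < ℓ ^ 3 := by positivity
  have hZ0 : ∀ q, 0 ≤ partitionFn s ℓ q β := fun q => partitionOn_nonneg s (cube ℓ) q β
  set K : ℕ := j + 2 with hKdef
  have hK : 0 < K := by omega
  set κ' : ℝ := 1 / 2 * κ / ℓ ^ 3 with hκ'
  have hκ'0 : 0 ≤ κ' := by positivity
  set a : ℝ := ℓ ^ 3 * (o - c) with ha
  -- the bound on each `Z q`
  have hZ : ∀ q ≤ n, partitionFn s ℓ q β ≤ Real.exp (-(μ * q) + a - κ' * (q : ℝ) ^ 2) := by
    intro q hq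
    have h := hAm q hq
    have hpos := Real.exp_pos (1 / 2 * κ * (q : ℝ) ^ 2 / ℓ ^ 3)
    have e : -(μ * q) + a - κ' * (q : ℝ) ^ 2 =
        ℓ ^ 3 * (-(μ * ((q : ℝ) / ℓ ^ 3)) - c + o) + -(1 / 2 * κ * (q : ℝ) ^ 2 / ℓ ^ 3) := by
      rw [ha, hκ']; field_simp; ring
    rw [e, Real.exp_add, Real.exp_neg, ← div_eq_mul_inv, le_div_iff₀ hpos]
    exact h
  -- splitting
  have hsplit := partitionFn_splitting_packing s hsm U β ℓ hs0 hsU hU hβ hlog n j
  set P : ℕ := packingNumber ℓ with hP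
  have hsum : ∑ k ∈ piAntidiag (univ : Finset (Fin K)) n, ∏ q, partitionFn s ℓ (k q) β ≤
      (n + 1 : ℝ) ^ K * Real.exp (-(μ * n) + K * a - κ' * ((n : ℝ) ^ 2 / K)) := by
    calc _ ≤ ∑ _k ∈ piAntidiag (univ : Finset (Fin K)) n,
          Real.exp (-(μ * n) + K * a - κ' * ((n : ℝ) ^ 2 / K)) := by
          apply Finset.sum_le_sum
          intro k hk
          exact prod_le_of_sum K hK n _ hZ0 κ' μ a hκ'0 hZ k (mem_piAntidiag.1 hk).1
      _ = #(piAntidiag (univ : Finset (Fin K)) n) *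
          Real.exp (-(μ * n) + K * a - κ' * ((n : ℝ) ^ 2 / K)) := by
          rw [Finset.sum_const, nsmul_eq_mul]
      _ ≤ _ := by
          apply mul_le_mul_of_nonneg_right _ (Real.exp_pos _).le
          exact_mod_cast card_piAntidiag_le K n
  have hpow2 : (1 / 2 : ℝ) ^ P = Real.exp (-(P * Real.log 2)) := by
    rw [one_div, inv_pow, ← Real.rpow_natCast, Real.rpow_def_of_pos (by norm_num : (0 : ℝ) < 2),
      ← Real.exp_neg]
    congr 1; ring
  have hpown : (n + 1 : ℝ) ^ K = Real.exp (K * Real.log (n + 1)) := by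
    rw [← Real.rpow_natCast, Real.rpow_def_of_pos (by positivity)]
    congr 1; ring
  have hK2 : ((K : ℕ) : ℝ) = (j : ℝ) + 2 := by rw [hKdef]; push_cast; ring
  have hK20 : (0 : ℝ) < (j : ℝ) + 2 := by positivity
  have hfin : partitionFn s ℓ n β ≤ Real.exp (-(P * Real.log 2) +
      (-β * U * ((j + 1) * n - P * ((j + 2) * (j + 1) / 2))) + K * Real.log (n + 1) +
      (-(μ * n) + K * a - κ' * ((n : ℝ) ^ 2 / K))) := by
    rw [Real.exp_add, Real.exp_add, Real.exp_add, ← hpow2, ← hpown]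
    refine hsplit.trans ?_
    rw [mul_assoc ((1 / 2 : ℝ) ^ P * Real.exp (-β * U * (((j : ℝ) + 1) * n - P * ((j + 2) * (j + 1) / 2))))]
    exact mul_le_mul_of_nonneg_left hsum (by positivity)
  calc partitionFn s ℓ n β * Real.exp (1 / 2 * κ * (n : ℝ) ^ 2 / ℓ ^ 3)
      ≤ Real.exp (-(P * Real.log 2) +
      (-β * U * ((j + 1) * n - P * ((j + 2) * (j + 1) / 2))) + K * Real.log (n + 1) +
      (-(μ * n) + K * a - κ' * ((n : ℝ) ^ 2 / K))) * Real.exp (1 / 2 * κ * (n : ℝ) ^ 2 / ℓ ^ 3) :=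
        mul_le_mul_of_nonneg_right hfin (Real.exp_pos _).le
    _ = _ := by
        rw [← Real.exp_add]
        congr 1
        rw [ha, hκ', hK2]
        field_simp
        ring

/-- The egg-crate identity: `κ σ²/(2K) - β U (σ - K p̃/2)` at `κ = β A Γ`, `U = A p - η`. -/
lemma egg_crate (β A Γ p pt η σ : ℝ) (K : ℝ) (hK : K ≠ 0) :
    (β * A * Γ) * σ ^ 2 / (2 * K) - β * (A * p - η) * (σ - K * pt / 2) =
      β * A * (σ - K * p) ^ 2 / (2 * K)
        + β * A * ((Γ - 1) * σ ^ 2 / (2 * K) + K * p * (pt - p) / 2)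
        + β * η * (σ - K * pt / 2) := by
  field_simp
  ring

end Crest.Agent.TL.BarrierSplit
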