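import Crest.Agent.TL.Cells
import Crest.Agent.TL.Gauss
import Crest.Agent.TL.Level

/-!
# Module C + X of S0209/S0210: concentration of the same-cell count and the no-contact lemma

All statements are generic in the data of the level system.

* `Qv h τ x`: normalized same-cell count `Q = #{(i,k) same cell} / h³`.
* `cellSet L h τ`, `lab`: finite system of the cells meeting the cube of side `L`.
* `tilted`: tilted Gibbs integrand of a level, `tilted_integral_le`: tilt lemma in cell form.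
* `cover_bound`: the pointwise covering argument.
-/

set_option autoImplicit false
set_option linter.unusedSectionVars false
set_option linter.unusedVariables false

namespace Crest.Agent.TL.Concentration

open MeasureTheory Finset Filter Topology
open Crest.ProbabilityR.Continuum
open Crest.Agent.TL.Gauss (cell sameCell)
open Crest.Agent.TL.Cells (fib sameEnergy)

noncomputable section

/-- Normalized same-cell count. -/
def Qv {N : ℕ} (h : ℝ) (τ : Fin 3 → ℝ) (x : Fin N → Pt) : ℝ := (sameCell h τ x : ℝ) / h ^ 3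

/-- The labels of the cells meeting the cube of side `L`. -/
def cellSet (L h : ℝ) (τ : Fin 3 → ℝ) : Finset (Fin 3 → ℤ) :=
  Fintype.piFinset fun a => Finset.Icc ⌊(0 - τ a) / h⌋ ⌊(L - τ a) / h⌋

lemma cell_mem_cellSet {L h : ℝ} (hh : 0 < h) (τ : Fin 3 → ℝ) {y : Pt} (hy : y ∈ cube L) :
    cell h τ y ∈ cellSet L h τ := by
  rw [cellSet, Fintype.mem_piFinset]
  intro a
  rw [Finset.mem_Icc]
  have h1 := hy a
  constructor
  · exact Int.floor_le_floor (div_le_div_of_nonneg_right (by linarith [h1.1]) hh.le)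
  · exact Int.floor_le_floor (div_le_div_of_nonneg_right (by linarith [h1.2]) hh.le)

/-- One side count of `cellSet`. -/
lemma side_le {L h : ℝ} (hh : 0 < h) (t : ℝ) :
    (((⌊(L - t) / h⌋ + 1 - ⌊(0 - t) / h⌋).toNat : ℕ) : ℝ) ≤ max 0 (L / h + 2) := by
  have h1 : (⌊(L - t) / h⌋ : ℝ) ≤ (L - t) / h := Int.floor_le _
  have h2 : (0 - t) / h < (⌊(0 - t) / h⌋ : ℝ) + 1 := Int.lt_floor_add_one _
  have h3 : (L - t) / h = L / h + (0 - t) / h := by ring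
  rcases le_or_gt 0 (⌊(L - t) / h⌋ + 1 - ⌊(0 - t) / h⌋) with h0 | h0
  · have h4 : (((⌊(L - t) / h⌋ + 1 - ⌊(0 - t) / h⌋).toNat : ℕ) : ℝ) =
        ((⌊(L - t) / h⌋ + 1 - ⌊(0 - t) / h⌋ : ℤ) : ℝ) := by
      have := Int.toNat_of_nonneg h0
      exact_mod_cast this
    rw [h4]
    push_cast
    refine le_trans ?_ (le_max_right _ _)
    linarith
  · have : (⌊(L - t) / h⌋ + 1 - ⌊(0 - t) / h⌋).toNat = 0 := by
      rw [Int.toNat_eq_zero]; exact h0.le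
    rw [this]
    simp

lemma le_side {L h : ℝ} (hL : 0 ≤ L) (hh : 0 < h) (t : ℝ) :
    L / h ≤ (((⌊(L - t) / h⌋ + 1 - ⌊(0 - t) / h⌋).toNat : ℕ) : ℝ) := by
  have h1 : (L - t) / h < (⌊(L - t) / h⌋ : ℝ) + 1 := Int.lt_floor_add_one _
  have h2 : (⌊(0 - t) / h⌋ : ℝ) ≤ (0 - t) / h := Int.floor_le _
  have h3 : (L - t) / h = L / h + (0 - t) / h := by ring
  have h4 : 0 ≤ L / h := by positivity
  have h0 : 0 ≤ ⌊(L - t) / h⌋ + 1 - ⌊(0 - t) / h⌋ := by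
    have : (0:ℝ) ≤ ((⌊(L - t) / h⌋ + 1 - ⌊(0 - t) / h⌋ : ℤ) : ℝ) := by
      push_cast; linarith
    exact_mod_cast this
  have h5 : (((⌊(L - t) / h⌋ + 1 - ⌊(0 - t) / h⌋).toNat : ℕ) : ℝ) =
      ((⌊(L - t) / h⌋ + 1 - ⌊(0 - t) / h⌋ : ℤ) : ℝ) := by
    have := Int.toNat_of_nonneg h0
    exact_mod_cast this
  rw [h5]
  push_cast
  linarith

lemma card_cellSet (L h : ℝ) (τ : Fin 3 → ℝ) :
    ((cellSet L h τ).card : ℝ) =
      ∏ a : Fin 3, (((⌊(L - τ a) / h⌋ + 1 - ⌊(0 - τ a) / h⌋).toNat : ℕ) : ℝ) := by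
  rw [cellSet, Fintype.card_piFinset]
  push_cast
  refine Finset.prod_congr rfl fun a _ => ?_
  rw [Int.card_Icc]

/-- Volume of the cells: upper bound. -/
lemma card_cellSet_mul_le {L h : ℝ} (hL : 0 ≤ L) (hh : 0 < h) (τ : Fin 3 → ℝ) :
    ((cellSet L h τ).card : ℝ) * h ^ 3 ≤ (L + 2 * h) ^ 3 := by
  have hpos : 0 ≤ L / h + 2 := by positivity
  have h1 : ((cellSet L h τ).card : ℝ) ≤ (L / h + 2) ^ 3 := by
    rw [card_cellSet]
    calc ∏ a : Fin 3, (((⌊(L - τ a) / h⌋ + 1 - ⌊(0 - τ a) / h⌋).toNat : ℕ) : ℝ)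
        ≤ ∏ _a : Fin 3, (L / h + 2) := by
          refine Finset.prod_le_prod (fun a _ => Nat.cast_nonneg _) fun a _ => ?_
          simpa [max_eq_right hpos] using side_le (L := L) hh (τ a)
      _ = (L / h + 2) ^ 3 := by simp
  have h2 : (L + 2 * h) ^ 3 = (L / h + 2) ^ 3 * h ^ 3 := by
    rw [← mul_pow]; congr 1; field_simp
  rw [h2]
  exact mul_le_mul_of_nonneg_right h1 (by positivity)

/-- Volume of the cells: lower bound. -/
lemma le_card_cellSet_mul {L h : ℝ} (hL : 0 ≤ L) (hh : 0 < h) (τ : Fin 3 → ℝ) :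
    L ^ 3 ≤ ((cellSet L h τ).card : ℝ) * h ^ 3 := by
  have hpos : 0 ≤ L / h := by positivity
  have h1 : (L / h) ^ 3 ≤ ((cellSet L h τ).card : ℝ) := by
    rw [card_cellSet]
    calc (L / h) ^ 3 = ∏ _a : Fin 3, (L / h) := by rw [Finset.prod_const]; simp
      _ ≤ _ := Finset.prod_le_prod (fun _ _ => hpos) fun a _ => le_side hL hh (τ a)
  have h2 : L ^ 3 = (L / h) ^ 3 * h ^ 3 := by
    rw [← mul_pow]; congr 1; field_simp
  rw [h2]
  exact mul_le_mul_of_nonneg_right h1 (by positivity)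

lemma zero_mem_cube {L : ℝ} (hL : 0 ≤ L) : (0 : Pt) ∈ cube L := fun k => by simpa using hL

/-- The label type. -/
abbrev Lab (L h : ℝ) (τ : Fin 3 → ℝ) : Type := { q : Fin 3 → ℤ // q ∈ cellSet L h τ }

open Classical in
/-- The cell label, clamped. -/
def lab {L h : ℝ} (hL : 0 ≤ L) (hh : 0 < h) (τ : Fin 3 → ℝ) (y : Pt) : Lab L h τ :=
  if hy : cell h τ y ∈ cellSet L h τ then ⟨cell h τ y, hy⟩
  else ⟨cell h τ 0, cell_mem_cellSet hh τ (zero_mem_cube hL)⟩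

lemma lab_val {L h : ℝ} (hL : 0 ≤ L) (hh : 0 < h) (τ : Fin 3 → ℝ) {y : Pt} (hy : y ∈ cube L) :
    (lab hL hh τ y : Fin 3 → ℤ) = cell h τ y := by
  have := cell_mem_cellSet hh τ hy
  simp [lab, this]

lemma lab_eq_iff {L h : ℝ} (hL : 0 ≤ L) (hh : 0 < h) (τ : Fin 3 → ℝ) {y z : Pt} (hy : y ∈ cube L)
    (hz : z ∈ cube L) : lab hL hh τ y = lab hL hh τ z ↔ cell h τ y = cell h τ z := by
  rw [Subtype.ext_iff, lab_val hL hh τ hy, lab_val hL hh τ hz]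

lemma measurable_cell (h : ℝ) (τ : Fin 3 → ℝ) : Measurable (cell h τ) := by
  refine measurable_pi_iff.2 fun a => ?_
  have : Measurable (fun y : Pt => (y a - τ a) / h) := by fun_prop
  exact Int.measurable_floor.comp this

lemma measurableSet_lab {L h : ℝ} (hL : 0 ≤ L) (hh : 0 < h) (τ : Fin 3 → ℝ) (q : Lab L h τ) :
    MeasurableSet ((lab hL hh τ) ⁻¹' {q}) := by
  classical
  have hS : MeasurableSet ((cell h τ) ⁻¹' (cellSet L h τ : Set (Fin 3 → ℤ))) :=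
    measurable_cell h τ (Finset.measurableSet _)
  have h1 : MeasurableSet ((cell h τ) ⁻¹' {(q : Fin 3 → ℤ)}) :=
    measurable_cell h τ (measurableSet_singleton _)
  have : (lab hL hh τ) ⁻¹' {q} = ((cell h τ) ⁻¹' {(q : Fin 3 → ℤ)} ∩
        ((cell h τ) ⁻¹' (cellSet L h τ : Set (Fin 3 → ℤ)))) ∪
      {y | y ∉ (cell h τ) ⁻¹' (cellSet L h τ : Set (Fin 3 → ℤ)) ∧
        (⟨cell h τ 0, cell_mem_cellSet hh τ (zero_mem_cube hL)⟩ : Lab L h τ) = q} := by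
    ext y
    by_cases hy : cell h τ y ∈ cellSet L h τ
    · simp [lab, hy, Subtype.ext_iff, eq_comm]
    · simp [lab, hy]
  rw [this]
  refine (h1.inter hS).union ?_
  by_cases hq : (⟨cell h τ 0, cell_mem_cellSet hh τ (zero_mem_cube hL)⟩ : Lab L h τ) = q
  · have h3 : {y | y ∉ (cell h τ) ⁻¹' (cellSet L h τ : Set (Fin 3 → ℤ)) ∧
        (⟨cell h τ 0, cell_mem_cellSet hh τ (zero_mem_cube hL)⟩ : Lab L h τ) = q} =
        ((cell h τ) ⁻¹' (cellSet L h τ : Set (Fin 3 → ℤ)))ᶜ := by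
      ext y; simp [hq]
    rw [h3]; exact hS.compl
  · simp [hq]

/-- A point of the grid cell with label `q`, translated, lies in the cube of side `h`. -/
lemma lab_fit {L h : ℝ} (hL : 0 ≤ L) (hh : 0 < h) (τ : Fin 3 → ℝ) (q : Lab L h τ) :
    ∃ v : Pt, ∀ x ∈ cube L ∩ (lab hL hh τ) ⁻¹' {q}, x + v ∈ cube h := by
  refine ⟨WithLp.toLp 2 (fun a => -(τ a) - ((q : Fin 3 → ℤ) a : ℝ) * h), ?_⟩
  rintro x ⟨hx, hxq⟩
  have hcell : cell h τ x = (q : Fin 3 → ℤ) := by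
    rw [← lab_val hL hh τ hx]
    exact congrArg Subtype.val hxq
  intro a
  have h1 : ⌊(x a - τ a) / h⌋ = (q : Fin 3 → ℤ) a := congrFun hcell a
  have h2 : (⌊(x a - τ a) / h⌋ : ℝ) ≤ (x a - τ a) / h := Int.floor_le _
  have h3 : (x a - τ a) / h < (⌊(x a - τ a) / h⌋ : ℝ) + 1 := Int.lt_floor_add_one _
  rw [h1] at h2 h3
  rw [le_div_iff₀ hh] at h2
  rw [div_lt_iff₀ hh] at h3
  simp only [PiLp.add_apply]
  constructor <;> nlinarith

/-- The total mass: the sum of the squares of the fibres counts the ordered pairs with equal label. -/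
lemma sum_fib_sq {Q : Type*} [Fintype Q] [DecidableEq Q] {N : ℕ} (a : Fin N → Q) :
    ∑ q, (fib a q) ^ 2 = (univ.filter (fun p : Fin N × Fin N => a p.1 = a p.2)).card := by
  classical
  have h1 : (univ.filter (fun p : Fin N × Fin N => a p.1 = a p.2)).card =
      ∑ q, ((univ.filter (fun p : Fin N × Fin N => a p.1 = a p.2)).filter
        (fun p => a p.1 = q)).card :=
    Finset.card_eq_sum_card_fiberwise (fun p _ => Finset.mem_univ _)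
  rw [h1]
  refine Finset.sum_congr rfl fun q _ => ?_
  have h2 : ((univ.filter (fun p : Fin N × Fin N => a p.1 = a p.2)).filter
      (fun p => a p.1 = q)) =
      (univ.filter (fun i => a i = q)) ×ˢ (univ.filter (fun i => a i = q)) := by
    ext p
    simp only [mem_filter, mem_univ, true_and, mem_product]
    constructor
    · rintro ⟨h1, h2⟩; exact ⟨h2, h1 ▸ h2⟩
    · rintro ⟨h1, h2⟩; exact ⟨h1.trans h2.symm, h1⟩
  rw [h2, Finset.card_product, sq]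
  rfl

/-- On the box, the same-cell count is the sum of squares of the occupation numbers. -/
lemma sameCell_eq_sum_fib {L h : ℝ} (hL : 0 ≤ L) (hh : 0 < h) (τ : Fin 3 → ℝ) {N : ℕ}
    {x : Fin N → Pt} (hx : ∀ i, x i ∈ cube L) :
    sameCell h τ x = ∑ q, (fib (fun i => lab hL hh τ (x i)) q) ^ 2 := by
  classical
  rw [sum_fib_sq, sameCell]
  congr 1
  ext p
  simp only [mem_filter, mem_univ, true_and]
  exact (lab_eq_iff hL hh τ (hx _) (hx _)).symm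

/-- On the box, the same-cell energy can be computed with the clamped labels. -/
lemma sameEnergy_lab {L h : ℝ} (hL : 0 ≤ L) (hh : 0 < h) (τ : Fin 3 → ℝ) {N : ℕ}
    {x : Fin N → Pt} (hx : ∀ i, x i ∈ cube L) (ψ : ℝ → ℝ) :
    sameEnergy ψ (fun i => lab hL hh τ (x i)) x = sameEnergy ψ (fun i => cell h τ (x i)) x := by
  classical
  unfold sameEnergy
  refine Finset.sum_congr rfl fun p _ => ?_
  by_cases hp : cell h τ (x p.1.1) = cell h τ (x p.1.2)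
  · rw [if_pos hp, if_pos ((lab_eq_iff hL hh τ (hx _) (hx _)).2 hp)]
  · rw [if_neg hp, if_neg (fun h' => hp ((lab_eq_iff hL hh τ (hx _) (hx _)).1 h'))]


/-! ### Tilted integrands -/

section Tilt

variable {Q : Type} [Fintype Q] [DecidableEq Q] {N : ℕ}

/-- The tilted Gibbs integrand of a level. -/
def tilted (β : ℝ) (ψ : ℝ → ℝ) (c : Pt → Q) (t : ℕ → ℝ) (x : Fin N → Pt) : ℝ :=
  Real.exp (-β * sameEnergy ψ (fun i => c (x i)) x + ∑ q, t (fib (fun i => c (x i)) q))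

lemma tilted_nonneg (β : ℝ) (ψ : ℝ → ℝ) (c : Pt → Q) (t : ℕ → ℝ) (x : Fin N → Pt) :
    0 ≤ tilted β ψ c t x := (Real.exp_pos _).le

lemma tilted_integrableOn {ψ : ℝ → ℝ} (hψ : Measurable ψ) {B : ℝ}
    (hst : ∀ (k : ℕ) (y : Fin k → Pt), -B * k ≤ energy ψ y) {β : ℝ} (hβ : 0 ≤ β)
    {D : Set Pt} (hD : MeasurableSet D) (hDf : volume D ≠ ⊤) (c : Pt → Q)
    (hc : ∀ q, MeasurableSet (c ⁻¹' {q})) (t : ℕ → ℝ) :
    IntegrableOn (tilted β ψ c t (N := N)) (Set.pi Set.univ (fun _ : Fin N => D)) := by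
  have hH : ∀ q k, IntegrableOn (fun y : Fin k → Pt => Real.exp (t k) * Real.exp (-β * energy ψ y))
      (Set.pi Set.univ (fun _ : Fin k => D ∩ c ⁻¹' {q})) := fun q k =>
    (Cells.integrableOn_gibbs hψ hst hβ
      (ne_top_of_le_ne_top hDf (measure_mono Set.inter_subset_left)) k).const_mul _
  refine (Cells.integral_cells (N := N) D hD c hc
    (fun q k y => Real.exp (t k) * Real.exp (-β * energy ψ y)) hH
    (tilted β ψ c t) ?_).1
  intro a x hx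
  have hca : (fun i => c (x i)) = a := (Cells.mem_box_iff.1 hx).2
  rw [tilted, hca, ← Cells.sum_energy_fibre, Finset.mul_sum, ← Finset.sum_add_distrib, Real.exp_sum]
  refine Finset.prod_congr rfl fun q _ => ?_
  rw [← Real.exp_add]
  ring_nf

/-- The tilt used at a level: the quadratic compensation `a k²/ℓ³`, the supporting line `μ k + c' ℓ³`
and an extra term `y k`. -/
def levelTilt (a μ c' ℓ : ℝ) (y : ℕ → ℝ) (k : ℕ) : ℝ :=
  a * ((k : ℝ) ^ 2 / ℓ ^ 3) + μ * k + c' * ℓ ^ 3 + y k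

lemma sum_levelTilt (a μ c' ℓ : ℝ) (y : ℕ → ℝ) (b : Fin N → Q) :
    ∑ q, levelTilt a μ c' ℓ y (fib b q) =
      a * ((∑ q, ((fib b q : ℕ) : ℝ) ^ 2) / ℓ ^ 3) + μ * N + c' * ℓ ^ 3 * (Fintype.card Q : ℝ) +
        ∑ q, y (fib b q) := by
  have h1 : ∑ q, ((fib b q : ℕ) : ℝ) = N := by exact_mod_cast Cells.sum_fib b
  simp only [levelTilt, Finset.sum_add_distrib, ← Finset.mul_sum, ← Finset.sum_div, h1]
  simp [Finset.card_univ]
  ring

end Tilt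

/-- The bound on the one-cell tilted sum. -/
def TiltBound (ψ : ℝ → ℝ) (ℓ β : ℝ) (t : ℕ → ℝ) (O : ℝ) : Prop :=
  ∀ n : ℕ, ∑ j ∈ Finset.range (n + 1), Real.exp (t j) * partitionFn ψ ℓ j β ≤ Real.exp (ℓ ^ 3 * O)

/-! ### Pointwise covering -/

section Cover

variable {N : ℕ}

/-- Covering: if each configuration of the box outside `T` is controlled by one of finitely many
integrands, the weight of the complement of `T` is at most the sum of the integrals. -/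
theorem cover_bound {ι : Type*} (I : Finset ι) {D : Set (Fin N → Pt)} (hD : MeasurableSet D)
    {e : (Fin N → Pt) → ℝ} (he0 : ∀ x, 0 ≤ e x) (hei : IntegrableOn e D)
    (g : ι → (Fin N → Pt) → ℝ) (hg0 : ∀ i x, 0 ≤ g i x) (hgi : ∀ i ∈ I, IntegrableOn (g i) D)
    (E : ι → ℝ) (hE : ∀ i, 0 ≤ E i)
    {T : Set (Fin N → Pt)} (hT : MeasurableSet T)
    (hcov : ∀ x ∈ D, x ∉ T → ∃ i ∈ I, e x ≤ E i * g i x) :
    ∫ x in D \ T, e x ≤ ∑ i ∈ I, E i * ∫ x in D, g i x := by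
  have hsum : IntegrableOn (fun x => ∑ i ∈ I, E i * g i x) D :=
    integrable_finsetSum _ fun i hi => (hgi i hi).const_mul _
  have hnn : ∀ x, 0 ≤ ∑ i ∈ I, E i * g i x :=
    fun x => Finset.sum_nonneg fun i _ => mul_nonneg (hE i) (hg0 i x)
  calc ∫ x in D \ T, e x ≤ ∫ x in D \ T, ∑ i ∈ I, E i * g i x := by
        refine setIntegral_mono_on (hei.mono_set Set.sdiff_subset) (hsum.mono_set Set.sdiff_subset)
          (hD.diff hT) ?_
        rintro x ⟨hxD, hxT⟩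
        obtain ⟨i, hi, hle⟩ := hcov x hxD hxT
        exact hle.trans (Finset.single_le_sum (f := fun i => E i * g i x)
          (fun j _ => mul_nonneg (hE j) (hg0 j x)) hi)
    _ ≤ ∫ x in D, ∑ i ∈ I, E i * g i x :=
        setIntegral_mono_set hsum (Filter.Eventually.of_forall hnn)
          (Set.sdiff_subset.eventuallyLE)
    _ = ∑ i ∈ I, E i * ∫ x in D, g i x := by
        rw [integral_finsetSum _ fun i hi => (hgi i hi).const_mul _]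
        exact Finset.sum_congr rfl fun i _ => integral_const_mul _ _

end Cover

/-! ### Positivity of the partition function -/

lemma box_pos {N : ℕ} {L : ℝ} (hL : 0 < L) :
    0 < volume (Set.pi Set.univ (fun _ : Fin N => cube L)) := by
  have hopen : IsOpen {x : Fin N → Pt | ∀ i k, 0 < x i k ∧ x i k < L} := by
    have : {x : Fin N → Pt | ∀ i k, 0 < x i k ∧ x i k < L} =
        ⋂ i, ⋂ k, ({x : Fin N → Pt | 0 < x i k} ∩ {x : Fin N → Pt | x i k < L}) := by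
      ext x; simp [Set.mem_iInter]
    rw [this]
    refine isOpen_iInter_of_finite fun i => isOpen_iInter_of_finite fun k => ?_
    have hc : Continuous (fun x : Fin N → Pt => x i k) := by fun_prop
    exact (isOpen_lt continuous_const hc).inter (isOpen_lt hc continuous_const)
  have hne : {x : Fin N → Pt | ∀ i k, 0 < x i k ∧ x i k < L}.Nonempty := by
    refine ⟨fun _ => WithLp.toLp 2 (fun _ => L / 2), fun i k => ?_⟩
    simp only
    constructor <;> linarith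
  refine (hopen.measure_pos volume hne).trans_le (measure_mono fun x hx i _ k => ?_)
  have := hx i k
  exact ⟨this.1.le, this.2.le⟩

lemma partitionFn_nonneg (ψ : ℝ → ℝ) (L : ℝ) (N : ℕ) (β : ℝ) : 0 ≤ partitionFn ψ L N β := by
  unfold partitionFn
  exact mul_nonneg (by positivity) (integral_nonneg fun _ => (Real.exp_pos _).le)

lemma partitionFn_pos {φ : ℝ → ℝ} (hφ : Measurable φ) {B : ℝ}
    (hst : ∀ (k : ℕ) (y : Fin k → Pt), -B * k ≤ energy φ y) {β : ℝ} (hβ : 0 ≤ β) {L : ℝ}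
    (hL : 0 < L) (N : ℕ) : 0 < partitionFn φ L N β := by
  unfold partitionFn
  refine mul_pos (by positivity) ?_
  have hi := Cells.integrableOn_gibbs (S := cube L) hφ hst hβ (Cells.volume_cube_ne_top L) N
  rw [setIntegral_pos_iff_support_of_nonneg_ae (Filter.Eventually.of_forall
    fun _ => (Real.exp_pos _).le) hi]
  have : Function.support (fun x : Fin N → Pt => Real.exp (-β * energy φ x)) = Set.univ := by
    ext x; simp [Real.exp_ne_zero]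
  rw [this, Set.univ_inter]
  exact box_pos hL

/-! ### Asymptotics of one term -/

lemma eventually_exp_le {ρ₀ : ℝ} (hρ₀ : 0 ≤ ρ₀) (L : ℕ → ℝ) (hLim : Tendsto L atTop atTop)
    {z : ℝ} (Zs : ℕ → ℝ) (hZpos : ∀ᶠ M in atTop, 0 < Zs M)
    (hZ : Tendsto (fun M => Real.log (Zs M) / (L M) ^ 3) atTop (𝓝 z))
    {p d r ℓ : ℝ} (hmargin : p * ρ₀ - d + r < z) {K : ℝ} (hK : 0 < K) :
    ∀ᶠ M in atTop,
      K * Real.exp (p * (⌊ρ₀ * (L M) ^ 3⌋₊ : ℝ) - d * (L M) ^ 3 + r * (L M + 2 * ℓ) ^ 3) ≤ Zs M := by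
  have hV : Tendsto (fun M => (L M) ^ 3) atTop atTop :=
    (tendsto_pow_atTop (by norm_num : (3 : ℕ) ≠ 0)).comp hLim
  have h1 : Tendsto (fun M => ((⌊ρ₀ * (L M) ^ 3⌋₊ : ℝ)) / (L M) ^ 3) atTop (𝓝 ρ₀) :=
    (tendsto_nat_floor_mul_div_atTop hρ₀).comp hV
  have h2 : Tendsto (fun M => (L M + 2 * ℓ) ^ 3 / (L M) ^ 3) atTop (𝓝 1) := by
    have h3 : Tendsto (fun M => 1 + 2 * ℓ / L M) atTop (𝓝 (1 + 0)) :=
      tendsto_const_nhds.add (tendsto_const_nhds.div_atTop hLim)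
    have h4 := h3.pow 3
    have h5 : (1 + 0 : ℝ) ^ 3 = 1 := by norm_num
    rw [h5] at h4
    refine h4.congr' ?_
    filter_upwards [hLim.eventually_gt_atTop 0] with M hM
    field_simp
  have h3 : Tendsto (fun M => (p * (⌊ρ₀ * (L M) ^ 3⌋₊ : ℝ) - d * (L M) ^ 3 +
      r * (L M + 2 * ℓ) ^ 3) / (L M) ^ 3) atTop (𝓝 (p * ρ₀ - d + r * 1)) := by
    have := ((h1.const_mul p).sub_const d).add (h2.const_mul r)
    refine this.congr' ?_
    filter_upwards [hV.eventually_gt_atTop 0] with M hM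
    rw [add_div, sub_div, mul_div_assoc, mul_div_assoc, mul_div_assoc, div_self hM.ne', mul_one]
  rw [mul_one] at h3
  set η := (z - (p * ρ₀ - d + r)) / 3 with hη
  have hηpos : 0 < η := by rw [hη]; linarith
  have e1 := h3.eventually (gt_mem_nhds (show p * ρ₀ - d + r < p * ρ₀ - d + r + η by linarith))
  have e2 := hZ.eventually (lt_mem_nhds (show z - η < z by linarith))
  have e3 := hV.eventually_ge_atTop (Real.log K / η)
  have e4 := hV.eventually_gt_atTop 0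
  filter_upwards [e1, e2, e3, e4, hZpos] with M h1' h2' h3' h4' h5'
  rw [div_lt_iff₀ h4'] at h1'
  rw [lt_div_iff₀ h4'] at h2'
  rw [div_le_iff₀ hηpos] at h3'
  have h6 : Real.log K + (p * (⌊ρ₀ * (L M) ^ 3⌋₊ : ℝ) - d * (L M) ^ 3 + r * (L M + 2 * ℓ) ^ 3) ≤
      Real.log (Zs M) := by
    have : z - η = (p * ρ₀ - d + r + η) + η := by rw [hη]; ring
    rw [this] at h2'
    nlinarith
  calc K * Real.exp _ = Real.exp (Real.log K + _) := by
        rw [Real.exp_add (Real.log K), Real.exp_log hK]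
    _ ≤ Real.exp (Real.log (Zs M)) := Real.exp_le_exp.2 h6
    _ = Zs M := Real.exp_log h5'


/-! ### One tilted term -/

/-- A tilted term: a potential and a grid with its tilt bound. -/
structure TiltTerm (β μ : ℝ) where
  /-- the potential on the cells -/
  ψ : ℝ → ℝ
  hψ : Measurable ψ
  B : ℝ
  hst : ∀ (k : ℕ) (y : Fin k → Pt), -B * k ≤ energy ψ y
  /-- the cell side -/
  ℓ : ℝ
  hℓ : 0 < ℓ
  /-- coefficient of `Q` -/
  a : ℝ
  /-- coefficient of `N` (error term) -/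
  ξ : ℝ
  /-- the tilt constant -/
  c' : ℝ
  hc' : c' ≤ 0
  /-- the extra tilt -/
  y : ℕ → ℝ
  /-- the tilt bound -/
  O : ℝ
  hO : 0 ≤ O
  hT : TiltBound ψ ℓ β (levelTilt a μ c' ℓ y) O
  /-- the saving per volume on the event -/
  d : ℝ

namespace TiltTerm

variable {β μ : ℝ} (t : TiltTerm β μ)

/-- The integrand of a term in a box with shift `τ`. -/
def g {L : ℝ} (hL : 0 ≤ L) (τ : Fin 3 → ℝ) {N : ℕ} (x : Fin N → Pt) : ℝ :=
  tilted β t.ψ (lab hL t.hℓ τ) (levelTilt t.a μ t.c' t.ℓ t.y) x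

/-- The prefactor of a term in a box with shift `τ`. -/
def E (L : ℝ) (τ : Fin 3 → ℝ) (N : ℕ) : ℝ :=
  Real.exp (-(μ * N + t.c' * t.ℓ ^ 3 * ((cellSet L t.ℓ τ).card : ℝ) - t.ξ * N + t.d * L ^ 3))

lemma E_nonneg (L : ℝ) (τ : Fin 3 → ℝ) (N : ℕ) : 0 ≤ t.E L τ N := (Real.exp_pos _).le

lemma g_nonneg {L : ℝ} (hL : 0 ≤ L) (τ : Fin 3 → ℝ) {N : ℕ} (x : Fin N → Pt) :
    0 ≤ t.g hL τ x := tilted_nonneg _ _ _ _ _

lemma g_integrableOn {L : ℝ} (hL : 0 ≤ L) (hβ : 0 ≤ β) (τ : Fin 3 → ℝ) {N : ℕ} :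
    IntegrableOn (t.g hL τ (N := N)) (Set.pi Set.univ (fun _ : Fin N => cube L)) :=
  tilted_integrableOn t.hψ t.hst hβ (Cells.measurableSet_cube L) (Cells.volume_cube_ne_top L) _
    (measurableSet_lab hL t.hℓ τ) _

/-- The pointwise domination. -/
lemma exp_le {φ : ℝ → ℝ} {L : ℝ} (hL : 0 ≤ L) (τ : Fin 3 → ℝ) {N : ℕ} {x : Fin N → Pt}
    (hx : ∀ i, x i ∈ cube L) {S S' : ℝ}
    (hlev : -β * energy φ x ≤ -β * sameEnergy t.ψ (fun i => cell t.ℓ τ (x i)) x +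
      t.a * Qv t.ℓ τ x + t.ξ * N - S)
    (hy : S' ≤ ∑ q, t.y (fib (fun i => lab hL t.hℓ τ (x i)) q))
    (hd : t.d * L ^ 3 ≤ S + S') :
    Real.exp (-β * energy φ x) ≤ t.E L τ N * t.g hL τ x := by
  rw [E, g, tilted, ← Real.exp_add]
  refine Real.exp_le_exp.2 ?_
  rw [sum_levelTilt, sameEnergy_lab hL t.hℓ τ hx]
  have h1 : (∑ q, ((fib (fun i => lab hL t.hℓ τ (x i)) q : ℕ) : ℝ) ^ 2) = (sameCell t.ℓ τ x : ℝ) := by
    rw [sameCell_eq_sum_fib hL t.hℓ τ hx]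
    push_cast
    rfl
  rw [h1]
  have h2 : (Fintype.card (Lab L t.ℓ τ) : ℝ) = ((cellSet L t.ℓ τ).card : ℝ) := by
    rw [Fintype.card_coe]
  rw [h2]
  unfold Qv at hlev
  linarith

/-- The integral bound for a term. -/
lemma E_mul_integral_le {L : ℝ} (hL : 0 ≤ L) (hβ : 0 ≤ β) (τ : Fin 3 → ℝ) (N : ℕ) :
    t.E L τ N * ((1 / (N.factorial : ℝ)) *
        ∫ x in Set.pi Set.univ (fun _ : Fin N => cube L), t.g hL τ x) ≤
      Real.exp ((t.ξ - μ) * N - t.d * L ^ 3 + (t.O - t.c') * (L + 2 * t.ℓ) ^ 3) := by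
  have h1 := Cells.tilt_le_pow (N := N) t.hψ t.hst hβ (Cells.measurableSet_cube L)
    (Cells.volume_cube_ne_top L) (lab hL t.hℓ τ) (measurableSet_lab hL t.hℓ τ)
    (lab_fit hL t.hℓ τ) (levelTilt t.a μ t.c' t.ℓ t.y)
  have h2 := t.hT N
  have h3 : 0 ≤ ∑ j ∈ Finset.range (N + 1),
      Real.exp (levelTilt t.a μ t.c' t.ℓ t.y j) * partitionFn t.ψ t.ℓ j β :=
    Finset.sum_nonneg fun j _ => mul_nonneg (Real.exp_pos _).le (partitionFn_nonneg _ _ _ _)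
  have h4 : (1 / (N.factorial : ℝ)) *
        ∫ x in Set.pi Set.univ (fun _ : Fin N => cube L), t.g hL τ x ≤
      Real.exp (t.ℓ ^ 3 * t.O) ^ (cellSet L t.ℓ τ).card := by
    refine le_trans h1 ?_
    rw [Fintype.card_coe]
    exact pow_le_pow_left₀ h3 h2 _
  rw [← Real.exp_nat_mul] at h4
  have h5 := mul_le_mul_of_nonneg_left h4 (t.E_nonneg L τ N)
  refine h5.trans ?_
  rw [E, ← Real.exp_add]
  refine Real.exp_le_exp.2 ?_
  have hV := card_cellSet_mul_le hL t.hℓ τ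
  have hr : 0 ≤ t.O - t.c' := by linarith [t.hO, t.hc']
  have := mul_le_mul_of_nonneg_left hV hr
  nlinarith

end TiltTerm

/-! ### The core covering theorem -/

/-- One stage of the core theorem. -/
theorem core_step {β μ : ℝ} (hβ : 0 ≤ β) {φ : ℝ → ℝ} (hφ : Measurable φ) {B : ℝ}
    (hst : ∀ (k : ℕ) (y : Fin k → Pt), -B * k ≤ energy φ y)
    {ι : Type*} (I : Finset ι) (t : ι → TiltTerm β μ)
    (shifts : Finset (Fin 3 → ℝ)) {N : ℕ} {L : ℝ} (hL : 0 ≤ L)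
    (htM : ∀ i ∈ I,
      (2 * (((shifts ×ˢ I).card : ℝ) + 1)) * Real.exp (((t i).ξ - μ) * (N : ℝ) - (t i).d * L ^ 3 +
        ((t i).O - (t i).c') * (L + 2 * (t i).ℓ) ^ 3) ≤ partitionFn φ L N β)
    (T : Set (Fin N → Pt)) (hT : MeasurableSet T)
    (hcov : ∀ x : Fin N → Pt, (∀ i, x i ∈ cube L) → x ∉ T →
        ∃ τ ∈ shifts, ∃ i ∈ I, ∃ S S' : ℝ,
          -β * energy φ x ≤ -β * sameEnergy (t i).ψ (fun k => cell (t i).ℓ τ (x k)) x +
            (t i).a * Qv (t i).ℓ τ x + (t i).ξ * (N : ℕ) - S ∧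
          S' ≤ ∑ q, (t i).y (fib (fun k => lab hL (t i).hℓ τ (x k)) q) ∧
          (t i).d * L ^ 3 ≤ S + S') :
    partitionFn φ L N β / 2 ≤
      (1 / (N.factorial : ℝ)) *
        ∫ x in Set.pi Set.univ (fun _ : Fin N => cube L) ∩ T, Real.exp (-β * energy φ x) := by
  classical
  set K : ℝ := 2 * (((shifts ×ˢ I).card : ℝ) + 1) with hKdef
  have hK : 0 < K := by rw [hKdef]; positivity
  have hZM : 0 ≤ partitionFn φ L N β := partitionFn_nonneg _ _ _ _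
  set D : Set (Fin N → Pt) := Set.pi Set.univ (fun _ : Fin N => cube L) with hD
  have hDm : MeasurableSet D := MeasurableSet.univ_pi fun _ => Cells.measurableSet_cube _
  have hei : IntegrableOn (fun x : Fin N → Pt => Real.exp (-β * energy φ x)) D :=
    Cells.integrableOn_gibbs hφ hst hβ (Cells.volume_cube_ne_top _) N
  have hcover := cover_bound (shifts ×ˢ I) hDm (e := fun x : Fin N → Pt => Real.exp (-β * energy φ x))
    (fun _ => (Real.exp_pos _).le) hei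
    (fun p x => (t p.2).g hL p.1 x) (fun p x => (t p.2).g_nonneg hL p.1 x)
    (fun p _ => (t p.2).g_integrableOn hL hβ p.1)
    (fun p => (t p.2).E L p.1 N) (fun p => (t p.2).E_nonneg _ _ _) hT ?_
  · -- summing up
    have hsplit : ∫ x in D, Real.exp (-β * energy φ x) =
        (∫ x in D ∩ T, Real.exp (-β * energy φ x)) + ∫ x in D \ T, Real.exp (-β * energy φ x) :=
      (integral_inter_add_sdiff hT hei).symm
    have hbound : (1 / (N.factorial : ℝ)) * ∫ x in D \ T, Real.exp (-β * energy φ x) ≤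
        partitionFn φ L N β / 2 := by
      have h1 := mul_le_mul_of_nonneg_left hcover
        (show (0 : ℝ) ≤ 1 / (N.factorial : ℝ) by positivity)
      refine h1.trans ?_
      rw [Finset.mul_sum]
      have h2 : ∀ p ∈ shifts ×ˢ I, (1 / (N.factorial : ℝ)) * ((t p.2).E L p.1 N *
          ∫ x in D, (t p.2).g hL p.1 x) ≤ partitionFn φ L N β / K := by
        intro p hp
        have hi : p.2 ∈ I := (Finset.mem_product.1 hp).2
        have h3 := (t p.2).E_mul_integral_le hL hβ p.1 N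
        have h4 := htM p.2 hi
        rw [le_div_iff₀ hK]
        calc _ = K * ((t p.2).E L p.1 N * ((1 / (N.factorial : ℝ)) *
                ∫ x in D, (t p.2).g hL p.1 x)) := by ring
          _ ≤ K * Real.exp (((t p.2).ξ - μ) * (N : ℝ) - (t p.2).d * L ^ 3 +
                ((t p.2).O - (t p.2).c') * (L + 2 * (t p.2).ℓ) ^ 3) :=
              mul_le_mul_of_nonneg_left h3 hK.le
          _ ≤ partitionFn φ L N β := h4
      refine (Finset.sum_le_sum h2).trans ?_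
      rw [Finset.sum_const, nsmul_eq_mul, hKdef]
      have hc : (0 : ℝ) ≤ ((shifts ×ˢ I).card : ℝ) := Nat.cast_nonneg _
      have : ((shifts ×ˢ I).card : ℝ) * (partitionFn φ L N β / (2 * (((shifts ×ˢ I).card : ℝ) + 1)))
          ≤ partitionFn φ L N β / 2 := by
        rw [mul_div_assoc', div_le_div_iff₀ (by positivity) (by norm_num)]
        nlinarith
      exact this
    have hZeq : partitionFn φ L N β = (1 / (N.factorial : ℝ)) *
        ∫ x in D, Real.exp (-β * energy φ x) := rfl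
    rw [hsplit] at hZeq
    nlinarith
  · intro x hxD hxT
    have hx : ∀ i, x i ∈ cube L := fun i => hxD i (Set.mem_univ _)
    obtain ⟨τ, hτ, i, hi, S, S', h1, h2, h3⟩ := hcov x hx hxT
    exact ⟨(τ, i), Finset.mk_mem_product hτ hi, (t i).exp_le hL τ hx h1 h2 h3⟩

/-- **Core.** Finitely many tilted terms with positive margins control the Gibbs measure: eventually
along the boxes, the weight of any measurable `T` whose complement is covered by the terms is at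
least half of the partition function. -/
theorem core {β μ c ρ₀ : ℝ} (hβ : 0 ≤ β) (hρ₀ : 0 ≤ ρ₀) {φ : ℝ → ℝ} (hφ : Measurable φ) {B : ℝ}
    (hst : ∀ (k : ℕ) (y : Fin k → Pt), -B * k ≤ energy φ y)
    {ι : Type*} (I : Finset ι) (t : ι → TiltTerm β μ)
    (hmargin : ∀ i ∈ I, (t i).O + c - (t i).c' + (t i).ξ * ρ₀ < (t i).d)
    (shifts : Finset (Fin 3 → ℝ))
    (L : ℕ → ℝ) (hLim : Tendsto L atTop atTop)
    (hZ : Tendsto (fun M => Real.log (partitionFn φ (L M) ⌊ρ₀ * (L M) ^ 3⌋₊ β) / (L M) ^ 3) atTop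
      (𝓝 (-(μ * ρ₀ + c)))) :
    ∀ᶠ M in atTop, ∀ (hL : 0 ≤ L M) (T : Set (Fin ⌊ρ₀ * (L M) ^ 3⌋₊ → Pt)), MeasurableSet T →
      (∀ x : Fin ⌊ρ₀ * (L M) ^ 3⌋₊ → Pt, (∀ i, x i ∈ cube (L M)) → x ∉ T →
        ∃ τ ∈ shifts, ∃ i ∈ I, ∃ S S' : ℝ,
          -β * energy φ x ≤ -β * sameEnergy (t i).ψ (fun k => cell (t i).ℓ τ (x k)) x +
            (t i).a * Qv (t i).ℓ τ x + (t i).ξ * (⌊ρ₀ * (L M) ^ 3⌋₊ : ℕ) - S ∧
          S' ≤ ∑ q, (t i).y (fib (fun k => lab hL (t i).hℓ τ (x k)) q) ∧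
          (t i).d * (L M) ^ 3 ≤ S + S') →
      partitionFn φ (L M) ⌊ρ₀ * (L M) ^ 3⌋₊ β / 2 ≤
        (1 / ((⌊ρ₀ * (L M) ^ 3⌋₊).factorial : ℝ)) *
          ∫ x in Set.pi Set.univ (fun _ : Fin ⌊ρ₀ * (L M) ^ 3⌋₊ => cube (L M)) ∩ T,
            Real.exp (-β * energy φ x) := by
  classical
  have hK : 0 < (2 * (((shifts ×ˢ I).card : ℝ) + 1)) := by positivity
  have hLpos : ∀ᶠ M in atTop, 0 < L M := hLim.eventually_gt_atTop 0
  have hZpos : ∀ᶠ M in atTop, 0 < partitionFn φ (L M) ⌊ρ₀ * (L M) ^ 3⌋₊ β := by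
    filter_upwards [hLpos] with M hM
    exact partitionFn_pos hφ hst hβ hM _
  have hterms : ∀ᶠ M in atTop, ∀ i ∈ I,
      (2 * (((shifts ×ˢ I).card : ℝ) + 1)) *
        Real.exp (((t i).ξ - μ) * (⌊ρ₀ * (L M) ^ 3⌋₊ : ℝ) - (t i).d * (L M) ^ 3 +
        ((t i).O - (t i).c') * (L M + 2 * (t i).ℓ) ^ 3) ≤
      partitionFn φ (L M) ⌊ρ₀ * (L M) ^ 3⌋₊ β := by
    rw [Filter.eventually_all_finset]
    intro i hi
    refine eventually_exp_le hρ₀ L hLim _ hZpos hZ ?_ hK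
    have := hmargin i hi
    nlinarith
  filter_upwards [hterms] with M htM hL T hT hcov
  exact core_step hβ hφ hst I t shifts hL htM T hT hcov

/-! ### Monotonicity of the same-cell count under refinement -/

lemma cell_mul (k : ℕ) (h : ℝ) (τ : Fin 3 → ℝ) (y : Pt) :
    cell ((k : ℝ) * h) τ y = fun a => cell h τ y a / (k : ℤ) := by
  funext a
  simp only [cell]
  rw [← Int.floor_div_natCast]
  congr 1
  rw [div_div, mul_comm]

lemma pairs_eq_sum {Q : Type*} [DecidableEq Q] {N : ℕ} (c : Fin N → Q) (P : Finset Q)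
    (hP : ∀ i, c i ∈ P) :
    (univ.filter (fun p : Fin N × Fin N => c p.1 = c p.2)).card =
      ∑ q ∈ P, (univ.filter (fun i => c i = q)).card ^ 2 := by
  have h1 : (univ.filter (fun p : Fin N × Fin N => c p.1 = c p.2)).card =
      ∑ q ∈ P, ((univ.filter (fun p : Fin N × Fin N => c p.1 = c p.2)).filter
        (fun p => c p.1 = q)).card :=
    Finset.card_eq_sum_card_fiberwise (fun p _ => hP p.1)
  rw [h1]
  refine Finset.sum_congr rfl fun q _ => ?_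
  have h2 : ((univ.filter (fun p : Fin N × Fin N => c p.1 = c p.2)).filter
      (fun p => c p.1 = q)) =
      (univ.filter (fun i => c i = q)) ×ˢ (univ.filter (fun i => c i = q)) := by
    ext p
    simp only [mem_filter, mem_univ, true_and, mem_product]
    constructor
    · rintro ⟨h1, h2⟩; exact ⟨h2, h1 ▸ h2⟩
    · rintro ⟨h1, h2⟩; exact ⟨h1.trans h2.symm, h1⟩
  rw [h2, Finset.card_product, sq]

/-- The fibres of the coarsening map have at most `k³` points. -/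
lemma card_coarse_le (k : ℕ) (hk : 0 < k) (P : Finset (Fin 3 → ℤ)) (C : Fin 3 → ℤ) :
    ((P.filter (fun q => (fun a => q a / (k : ℤ)) = C)).card : ℝ) ≤ (k : ℝ) ^ 3 := by
  have hk' : (0 : ℤ) < k := by exact_mod_cast hk
  have hsub : P.filter (fun q => (fun a => q a / (k : ℤ)) = C) ⊆
      Fintype.piFinset (fun a => Finset.Ico ((k : ℤ) * C a) ((k : ℤ) * C a + k)) := by
    intro q hq
    have hq' := (Finset.mem_filter.1 hq).2
    rw [Fintype.mem_piFinset]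
    intro a
    have h1 : q a / (k : ℤ) = C a := congrFun hq' a
    rw [Finset.mem_Ico]
    have h2 := Int.emod_add_mul_ediv (q a) k
    have h3 := Int.emod_nonneg (q a) hk'.ne'
    have h4 := Int.emod_lt_of_pos (q a) hk'
    rw [h1] at h2
    constructor <;> linarith
  have h1 := Finset.card_le_card hsub
  rw [Fintype.card_piFinset] at h1
  have h2 : ∏ a : Fin 3, (Finset.Ico ((k : ℤ) * C a) ((k : ℤ) * C a + k)).card = k ^ 3 := by
    simp [Int.card_Ico]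
  rw [h2] at h1
  exact_mod_cast h1

/-- Refinement: the normalized same-cell count decreases when the cells are merged. -/
lemma Qv_mul_le {N : ℕ} {k : ℕ} (hk : 0 < k) {h : ℝ} (hh : 0 < h) (τ : Fin 3 → ℝ)
    (x : Fin N → Pt) : Qv ((k : ℝ) * h) τ x ≤ Qv h τ x := by
  classical
  set c₁ : Fin N → (Fin 3 → ℤ) := fun i => cell h τ (x i) with hc₁
  set π : (Fin 3 → ℤ) → (Fin 3 → ℤ) := fun q a => q a / (k : ℤ) with hπ
  set c₂ : Fin N → (Fin 3 → ℤ) := fun i => π (c₁ i) with hc₂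
  set P₁ : Finset (Fin 3 → ℤ) := univ.image c₁ with hP₁
  set P₂ : Finset (Fin 3 → ℤ) := univ.image c₂ with hP₂
  have hs1 : (sameCell h τ x : ℝ) = ∑ q ∈ P₁, ((univ.filter (fun i => c₁ i = q)).card : ℝ) ^ 2 := by
    have := pairs_eq_sum c₁ P₁ (fun i => Finset.mem_image_of_mem _ (Finset.mem_univ i))
    rw [sameCell]
    exact_mod_cast this
  have hc₂eq : ∀ i, cell ((k : ℝ) * h) τ (x i) = c₂ i := fun i => cell_mul k h τ (x i)
  have hs2 : (sameCell ((k : ℝ) * h) τ x : ℝ) =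
      ∑ C ∈ P₂, ((univ.filter (fun i => c₂ i = C)).card : ℝ) ^ 2 := by
    have := pairs_eq_sum c₂ P₂ (fun i => Finset.mem_image_of_mem _ (Finset.mem_univ i))
    rw [sameCell]
    simp only [hc₂eq]
    exact_mod_cast this
  have hfib : ∀ C, ((univ.filter (fun i => c₂ i = C)).card : ℝ) =
      ∑ q ∈ P₁.filter (fun q => π q = C), ((univ.filter (fun i => c₁ i = q)).card : ℝ) := by
    intro C
    have h1 : (univ.filter (fun i => c₂ i = C)).card =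
        ∑ q ∈ P₁.filter (fun q => π q = C),
          ((univ.filter (fun i => c₂ i = C)).filter (fun i => c₁ i = q)).card :=
      Finset.card_eq_sum_card_fiberwise (fun i hi => by
        have hi' := (Finset.mem_filter.1 (Finset.mem_coe.1 hi)).2
        exact Finset.mem_coe.2 (Finset.mem_filter.2
          ⟨Finset.mem_image_of_mem _ (Finset.mem_univ i), hi'⟩))
    have h2 : ∀ q ∈ P₁.filter (fun q => π q = C),
        ((univ.filter (fun i => c₂ i = C)).filter (fun i => c₁ i = q)).card =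
          (univ.filter (fun i => c₁ i = q)).card := by
      intro q hq
      have hq' := (Finset.mem_filter.1 hq).2
      congr 1
      ext i
      simp only [mem_filter, mem_univ, true_and]
      constructor
      · exact fun h => h.2
      · intro h
        refine ⟨?_, h⟩
        simp only [hc₂, h, hq']
    rw [h1, Finset.sum_congr rfl h2]
    push_cast
    rfl
  have hCS : ∀ C, ((univ.filter (fun i => c₂ i = C)).card : ℝ) ^ 2 ≤
      (k : ℝ) ^ 3 * ∑ q ∈ P₁.filter (fun q => π q = C),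
        ((univ.filter (fun i => c₁ i = q)).card : ℝ) ^ 2 := by
    intro C
    rw [hfib]
    refine sq_sum_le_card_mul_sum_sq.trans ?_
    refine mul_le_mul_of_nonneg_right (card_coarse_le k hk P₁ C)
      (Finset.sum_nonneg fun _ _ => by positivity)
  have hsum : ∑ C ∈ P₂, ∑ q ∈ P₁.filter (fun q => π q = C),
      ((univ.filter (fun i => c₁ i = q)).card : ℝ) ^ 2 =
      ∑ q ∈ P₁, ((univ.filter (fun i => c₁ i = q)).card : ℝ) ^ 2 := by
    refine Finset.sum_fiberwise_of_maps_to (fun q hq => ?_) _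
    obtain ⟨i, _, rfl⟩ := Finset.mem_image.1 hq
    exact Finset.mem_image_of_mem _ (Finset.mem_univ i)
  have hmain : (sameCell ((k : ℝ) * h) τ x : ℝ) ≤ (k : ℝ) ^ 3 * (sameCell h τ x : ℝ) := by
    rw [hs1, hs2, ← hsum, Finset.mul_sum]
    exact Finset.sum_le_sum fun C _ => hCS C
  have hk' : (0 : ℝ) < k := by exact_mod_cast hk
  unfold Qv
  rw [mul_pow, div_le_div_iff₀ (by positivity) (by positivity)]
  nlinarith [pow_pos hh 3, pow_pos hk' 3]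

/-! ### Summing the one-cell bounds -/

lemma partitionFn_zero (ψ : ℝ → ℝ) (ℓ β : ℝ) (hℓ : 0 ≤ ℓ) : partitionFn ψ ℓ 0 β = 1 := by
  unfold partitionFn
  have h1 : Set.pi Set.univ (fun _ : Fin 0 => cube ℓ) = Set.univ := by
    ext x; simp
  rw [h1]
  simp [energy, Measure.real, MeasureTheory.volume_pi]

lemma exp_mul_le_of_log {t Z y : ℝ} (hZ : 0 ≤ Z) (h : t + Real.log Z ≤ y) :
    Real.exp t * Z ≤ Real.exp y := by
  rcases hZ.eq_or_lt with rfl | hZ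
  · simpa using (Real.exp_pos y).le
  · calc Real.exp t * Z = Real.exp (t + Real.log Z) := by
          rw [Real.exp_add, Real.exp_log hZ]
      _ ≤ Real.exp y := Real.exp_le_exp.2 h

/-- The tilt bound from the bounds on the summands. -/
theorem tiltBound_of_summands {ψ : ℝ → ℝ} {ℓ β ρm o : ℝ} {t : ℕ → ℝ} (hℓ : 0 < ℓ) (ho : 0 ≤ o)
    (hρ : 0 ≤ ρm)
    (h1 : ∀ j : ℕ, (j : ℝ) ≤ ρm * ℓ ^ 3 → t j + Real.log (partitionFn ψ ℓ j β) ≤ ℓ ^ 3 * o)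
    (h2 : ∀ j : ℕ, ρm * ℓ ^ 3 < j → t j + Real.log (partitionFn ψ ℓ j β) ≤ -(j : ℝ)) :
    TiltBound ψ ℓ β t (o + Real.log (ρm * ℓ ^ 3 + 3) / ℓ ^ 3) := by
  intro n
  set X := ρm * ℓ ^ 3 with hX
  have hX0 : 0 ≤ X := by positivity
  set A := Real.exp (ℓ ^ 3 * o) with hA
  have hA1 : 1 ≤ A := by
    rw [hA]; exact Real.one_le_exp (by positivity)
  have hterm : ∀ j ∈ Finset.range (n + 1), Real.exp (t j) * partitionFn ψ ℓ j β ≤
      (if (j : ℝ) ≤ X then A else 0) + (1 / (2 : ℝ)) ^ j := by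
    intro j _
    by_cases hj : (j : ℝ) ≤ X
    · rw [if_pos hj]
      have := exp_mul_le_of_log (partitionFn_nonneg ψ ℓ j β) (h1 j hj)
      have h3 : (0 : ℝ) ≤ (1 / 2) ^ j := by positivity
      linarith
    · rw [if_neg hj, zero_add]
      have := exp_mul_le_of_log (partitionFn_nonneg ψ ℓ j β) (h2 j (not_le.1 hj))
      refine this.trans ?_
      have h4 : Real.exp (-(j : ℝ)) = (Real.exp (-1)) ^ j := by
        rw [← Real.exp_nat_mul]; congr 1; ring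
      have h5 : Real.exp (-1) ≤ 1 / 2 := by
        rw [Real.exp_neg, one_div]
        exact inv_anti₀ (by norm_num) (by linarith [Real.add_one_le_exp (1 : ℝ)])
      rw [h4]
      exact pow_le_pow_left₀ (Real.exp_pos _).le h5 j
  have hcount : ((Finset.range (n + 1)).filter (fun j : ℕ => (j : ℝ) ≤ X)).card ≤ ⌊X⌋₊ + 1 := by
    have : (Finset.range (n + 1)).filter (fun j : ℕ => (j : ℝ) ≤ X) ⊆ Finset.range (⌊X⌋₊ + 1) := by
      intro j hj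
      have hj' := (Finset.mem_filter.1 hj).2
      rw [Finset.mem_range]
      have := Nat.le_floor hj'
      omega
    simpa using Finset.card_le_card this
  have hsum1 : ∑ j ∈ Finset.range (n + 1), (if (j : ℝ) ≤ X then A else 0) ≤ (X + 1) * A := by
    rw [← Finset.sum_filter, Finset.sum_const, nsmul_eq_mul]
    refine mul_le_mul_of_nonneg_right ?_ (by linarith)
    have h3 : (((Finset.range (n + 1)).filter (fun j : ℕ => (j : ℝ) ≤ X)).card : ℝ) ≤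
        (⌊X⌋₊ : ℝ) + 1 := by exact_mod_cast hcount
    have h4 := Nat.floor_le hX0
    linarith
  have hsum2 := sum_geometric_two_le (n + 1)
  have hfin : ∑ j ∈ Finset.range (n + 1), Real.exp (t j) * partitionFn ψ ℓ j β ≤ (X + 3) * A := by
    refine (Finset.sum_le_sum hterm).trans ?_
    rw [Finset.sum_add_distrib]
    nlinarith
  refine hfin.trans (le_of_eq ?_)
  have hℓ3 : ℓ ^ 3 ≠ 0 := by positivity
  have : ℓ ^ 3 * (o + Real.log (X + 3) / ℓ ^ 3) = ℓ ^ 3 * o + Real.log (X + 3) := by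
    field_simp
  rw [this, Real.exp_add, Real.exp_log (by linarith), hA]
  ring


/-! ### The level system -/

/-- The data of the concentration argument at fixed parameters: the full potential `φ`, the free
energy `F` with a supporting line `μ σ + c` touching at `ρ₀` and strictly below to the right, the
levels (cell sides `ℓ m`, potentials `ψ m`, coefficients `a m`, `κ m`, `ξ m`), the one-sided bound
`hOS` and the tail bound `hTail`, the level inequality `hLevel`, the margins. -/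
structure Conc where
  φ : ℝ → ℝ
  hφ : Measurable φ
  Bφ : ℝ
  hstφ : ∀ (k : ℕ) (y : Fin k → Pt), -Bφ * k ≤ energy φ y
  β : ℝ
  hβ : 0 ≤ β
  F : ℝ → ℝ
  hF : ConvexOn ℝ (Set.Ioi 0) F
  hF0 : F 0 ≤ 0
  ρ₀ : ℝ
  μ : ℝ
  c : ℝ
  hρ₀ : 0 < ρ₀
  hc : c ≤ 0
  hsupp : ∀ σ, 0 ≤ σ → μ * σ + c ≤ F σ
  htouch : F ρ₀ = μ * ρ₀ + c
  hright : ∀ σ, ρ₀ < σ → μ * σ + c < F σ
  hZ : Tendsto (fun L : ℝ => Real.log (partitionFn φ L ⌊ρ₀ * L ^ 3⌋₊ β) / L ^ 3) atTop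
    (𝓝 (-(F ρ₀)))
  ℓ : ℕ → ℝ
  hℓ : ∀ m, 0 < ℓ m
  hdiv : ∀ m, ∃ k : ℕ, 0 < k ∧ ℓ (m + 1) = k * ℓ m
  ψ : ℕ → ℝ → ℝ
  hψ : ∀ m, Measurable (ψ m)
  Bψ : ℕ → ℝ
  hstψ : ∀ m (k : ℕ) (y : Fin k → Pt), -Bψ m * k ≤ energy (ψ m) y
  a : ℕ → ℝ
  κ : ℕ → ℝ
  hκ : ∀ m, 0 ≤ κ m
  ξ : ℕ → ℝ
  lam3 : ℕ → ℝ
  hlam3pos : ∀ m, 0 < lam3 m
  hlam3le : ∀ m, lam3 m ≤ 1
  hlam3lim : Tendsto lam3 atTop (𝓝 1)
  o : ℕ → ℝ
  ho : ∀ m, 0 ≤ o m
  ρm : ℝ
  hρm : ρ₀ < ρm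
  χ : ℝ
  hχ : 0 < χ
  hOS : ∀ m (j : ℕ), 1 ≤ j → (j : ℝ) ≤ ρm * ℓ m ^ 3 →
    a m * ((j : ℝ) ^ 2 / ℓ m ^ 3) + Real.log (partitionFn (ψ m) (ℓ m) j β) ≤
      ℓ m ^ 3 * (-(F ((j : ℝ) / ℓ m ^ 3 * lam3 m)) / lam3 m + o m)
  hTail : ∀ m (j : ℕ), ρm * ℓ m ^ 3 < j →
    (a m + χ) * ((j : ℝ) ^ 2 / ℓ m ^ 3) + μ * j + c / lam3 m * ℓ m ^ 3 +
      Real.log (partitionFn (ψ m) (ℓ m) j β) ≤ -(j : ℝ)
  shifts : ℕ → Finset (Fin 3 → ℝ)
  hLevel : ∀ (J M : ℕ) (x : Fin ⌊ρ₀ * ((M : ℝ) * ℓ J) ^ 3⌋₊ → Pt),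
    (∀ i, x i ∈ cube ((M : ℝ) * ℓ J)) → ∃ τ ∈ shifts J, ∀ m ≤ J,
      -β * energy φ x ≤ -β * sameEnergy (ψ m) (fun i => cell (ℓ m) τ (x i)) x +
        a m * Qv (ℓ m) τ x - κ m * (Qv (ℓ m) τ x - Qv (ℓ (m + 1)) τ x) +
        ξ m * ((⌊ρ₀ * ((M : ℝ) * ℓ J) ^ 3⌋₊ : ℕ) : ℝ)
  v : ℕ → ℝ
  V₀ : ℝ
  hV₀ : ∀ J, ∑ m ∈ Finset.range J, v m ≤ V₀
  hmargin : ∀ m, o m + Real.log (ρm * ℓ m ^ 3 + 3) / ℓ m ^ 3 + c - c / lam3 m + ξ m * ρ₀ < κ m * v m
  hmarginlim : Tendsto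
    (fun m => o m + Real.log (ρm * ℓ m ^ 3 + 3) / ℓ m ^ 3 + c - c / lam3 m + ξ m * ρ₀) atTop (𝓝 0)

namespace Conc

variable (S : Conc)

/-- The gap of the free energy over the supporting line. -/
def ω (σ : ℝ) : ℝ := S.F σ - (S.μ * σ + S.c)

lemma ω_nonneg {σ : ℝ} (hσ : 0 ≤ σ) : 0 ≤ S.ω σ := by
  have := S.hsupp σ hσ
  unfold ω; linarith

lemma ω_pos {σ : ℝ} (hσ : S.ρ₀ < σ) : 0 < S.ω σ := by
  have := S.hright σ hσ
  unfold ω; linarith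

lemma ω_mono {w u : ℝ} (hw : S.ρ₀ < w) (hwu : w ≤ u) : S.ω w ≤ S.ω u := by
  rcases hwu.eq_or_lt with rfl | hlt
  · exact le_rfl
  have h0 : (0 : ℝ) < u - S.ρ₀ := by linarith
  have ht0 : 0 ≤ (w - S.ρ₀) / (u - S.ρ₀) := div_nonneg (by linarith) h0.le
  have ht1 : (w - S.ρ₀) / (u - S.ρ₀) ≤ 1 := by
    rw [div_le_one h0]; linarith
  set t := (w - S.ρ₀) / (u - S.ρ₀) with ht
  have hρ := S.hρ₀
  have h1 := S.hF.2 (show S.ρ₀ ∈ Set.Ioi (0:ℝ) from hρ)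
    (show u ∈ Set.Ioi (0:ℝ) from by simp only [Set.mem_Ioi]; linarith)
    (show 0 ≤ 1 - t by linarith) ht0 (by ring)
  simp only [smul_eq_mul] at h1
  have h2 : (1 - t) * S.ρ₀ + t * u = w := by
    rw [ht]; field_simp; ring
  rw [h2, S.htouch] at h1
  have h3 := S.ω_pos (show S.ρ₀ < u by linarith)
  unfold ω at *
  have h4 : t * (u - S.ρ₀) = w - S.ρ₀ := by
    rw [ht]; field_simp
  have h5 : t * (S.F u - (S.μ * u + S.c)) ≤ S.F u - (S.μ * u + S.c) := by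
    nlinarith
  have h6 : S.μ * w = S.μ * (1 - t) * S.ρ₀ + S.μ * t * u := by rw [← h2]; ring
  linarith

/-- The tilt constant at a level. -/
def c' (m : ℕ) : ℝ := S.c / S.lam3 m

lemma c'_nonpos (m : ℕ) : S.c' m ≤ 0 := div_nonpos_of_nonpos_of_nonneg S.hc (S.hlam3pos m).le

lemma c'_le_c (m : ℕ) : S.c' m ≤ S.c := by
  unfold c'
  rw [div_le_iff₀ (S.hlam3pos m)]
  nlinarith [S.hlam3le m, S.hc, S.hlam3pos m]

/-- The error of the tilt bound at a level. -/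
def Ostar (m : ℕ) : ℝ := S.o m + Real.log (S.ρm * S.ℓ m ^ 3 + 3) / S.ℓ m ^ 3

lemma ρm_pos : 0 < S.ρm := S.hρ₀.trans S.hρm

lemma Ostar_nonneg (m : ℕ) : 0 ≤ S.Ostar m := by
  have h1 := S.ho m
  have h2 := S.hℓ m
  have h3 := S.ρm_pos
  have h4 : 0 ≤ Real.log (S.ρm * S.ℓ m ^ 3 + 3) / S.ℓ m ^ 3 :=
    div_nonneg (Real.log_nonneg (by nlinarith [pow_pos h2 3, mul_pos h3 (pow_pos h2 3)]))
      (by positivity)
  unfold Ostar
  linarith

/-- The one-sided bound, including `j = 0`. -/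
lemma hOS' (m j : ℕ) (hj : (j : ℝ) ≤ S.ρm * S.ℓ m ^ 3) :
    S.a m * ((j : ℝ) ^ 2 / S.ℓ m ^ 3) + Real.log (partitionFn (S.ψ m) (S.ℓ m) j S.β) ≤
      S.ℓ m ^ 3 * (-(S.F ((j : ℝ) / S.ℓ m ^ 3 * S.lam3 m)) / S.lam3 m + S.o m) := by
  rcases Nat.eq_zero_or_pos j with rfl | hpos
  · have h2 := S.hℓ m
    rw [partitionFn_zero _ _ _ h2.le]
    simp only [Nat.cast_zero, ne_eq, OfNat.ofNat_ne_zero, not_false_eq_true, zero_pow, zero_div,
      mul_zero, Real.log_one, add_zero, zero_mul]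
    have h3 : 0 ≤ -(S.F 0) / S.lam3 m := div_nonneg (by linarith [S.hF0]) (S.hlam3pos m).le
    have h4 := S.ho m
    positivity
  · exact S.hOS m j hpos hj

/-- The summand bound in the low range. -/
lemma summand_low (m j : ℕ) (hj : (j : ℝ) ≤ S.ρm * S.ℓ m ^ 3) {y : ℕ → ℝ}
    (hy : y j ≤ S.ℓ m ^ 3 * (S.ω ((j : ℝ) / S.ℓ m ^ 3 * S.lam3 m) / S.lam3 m)) :
    levelTilt (S.a m) S.μ (S.c' m) (S.ℓ m) y j + Real.log (partitionFn (S.ψ m) (S.ℓ m) j S.β) ≤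
      S.ℓ m ^ 3 * S.o m := by
  have h1 := S.hOS' m j hj
  have hℓ := S.hℓ m
  have hl := S.hlam3pos m
  unfold levelTilt c'
  unfold ω at hy
  have hℓ3 : S.ℓ m ^ 3 ≠ 0 := by positivity
  have e1 : S.ℓ m ^ 3 * ((S.F ((j : ℝ) / S.ℓ m ^ 3 * S.lam3 m) -
      (S.μ * ((j : ℝ) / S.ℓ m ^ 3 * S.lam3 m) + S.c)) / S.lam3 m) =
      S.ℓ m ^ 3 * (S.F ((j : ℝ) / S.ℓ m ^ 3 * S.lam3 m) / S.lam3 m) - S.μ * j -
        S.c / S.lam3 m * S.ℓ m ^ 3 := by
    field_simp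
    ring
  rw [e1] at hy
  have e2 : S.ℓ m ^ 3 * (-(S.F ((j : ℝ) / S.ℓ m ^ 3 * S.lam3 m)) / S.lam3 m + S.o m) =
      - (S.ℓ m ^ 3 * (S.F ((j : ℝ) / S.ℓ m ^ 3 * S.lam3 m) / S.lam3 m)) + S.ℓ m ^ 3 * S.o m := by
    field_simp
  rw [e2] at h1
  linarith

/-- The tilt bound at a level with an extra tilt below the gap in the low range and below the
`χ`-term in the high range. -/
lemma tilt_of_extra (m : ℕ) {y : ℕ → ℝ}
    (hlow : ∀ j : ℕ, (j : ℝ) ≤ S.ρm * S.ℓ m ^ 3 →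
      y j ≤ S.ℓ m ^ 3 * (S.ω ((j : ℝ) / S.ℓ m ^ 3 * S.lam3 m) / S.lam3 m))
    (hhigh : ∀ j : ℕ, S.ρm * S.ℓ m ^ 3 < j → y j ≤ S.χ * ((j : ℝ) ^ 2 / S.ℓ m ^ 3)) :
    TiltBound (S.ψ m) (S.ℓ m) S.β (levelTilt (S.a m) S.μ (S.c' m) (S.ℓ m) y) (S.Ostar m) := by
  refine tiltBound_of_summands (S.hℓ m) (S.ho m) S.ρm_pos.le
    (fun j hj => S.summand_low m j hj (hlow j hj)) (fun j hj => ?_)
  have h1 := S.hTail m j hj
  have h2 := hhigh j hj
  unfold levelTilt c'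
  linarith

/-- Plain tilt term at a level. -/
lemma tilt_plain (m : ℕ) :
    TiltBound (S.ψ m) (S.ℓ m) S.β (levelTilt (S.a m) S.μ (S.c' m) (S.ℓ m) (fun _ => 0))
      (S.Ostar m) := by
  refine S.tilt_of_extra m (fun j hj => ?_) (fun j hj => ?_)
  · have hσ : 0 ≤ (j : ℝ) / S.ℓ m ^ 3 * S.lam3 m :=
      mul_nonneg (div_nonneg (Nat.cast_nonneg _) (pow_pos (S.hℓ m) 3).le) (S.hlam3pos m).le
    exact mul_nonneg (pow_pos (S.hℓ m) 3).le (div_nonneg (S.ω_nonneg hσ) (S.hlam3pos m).le)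
  · exact mul_nonneg S.hχ.le (div_nonneg (by positivity) (pow_pos (S.hℓ m) 3).le)

/-- The tilted term of a level. -/
def term (m : ℕ) (y : ℕ → ℝ)
    (hT : TiltBound (S.ψ m) (S.ℓ m) S.β (levelTilt (S.a m) S.μ (S.c' m) (S.ℓ m) y) (S.Ostar m))
    (d : ℝ) : TiltTerm S.β S.μ where
  ψ := S.ψ m
  hψ := S.hψ m
  B := S.Bψ m
  hst := S.hstψ m
  ℓ := S.ℓ m
  hℓ := S.hℓ m
  a := S.a m
  ξ := S.ξ m
  c' := S.c' m
  hc' := S.c'_nonpos m
  y := y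
  O := S.Ostar m
  hO := S.Ostar_nonneg m
  hT := hT
  d := d

/-- The level inequality without the saving. -/
lemma simple_level {N : ℕ} {x : Fin N → Pt} {τ : Fin 3 → ℝ} {J : ℕ}
    (hlev : ∀ m ≤ J, -S.β * energy S.φ x ≤
      -S.β * sameEnergy (S.ψ m) (fun i => cell (S.ℓ m) τ (x i)) x +
        S.a m * Qv (S.ℓ m) τ x - S.κ m * (Qv (S.ℓ m) τ x - Qv (S.ℓ (m + 1)) τ x) +
        S.ξ m * (N : ℝ)) (m : ℕ) (hm : m ≤ J) :
    -S.β * energy S.φ x ≤ -S.β * sameEnergy (S.ψ m) (fun i => cell (S.ℓ m) τ (x i)) x +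
        S.a m * Qv (S.ℓ m) τ x + S.ξ m * (N : ℝ) := by
  have h1 := hlev m hm
  obtain ⟨k, hk, hkeq⟩ := S.hdiv m
  have h2 : Qv (S.ℓ (m + 1)) τ x ≤ Qv (S.ℓ m) τ x := by
    rw [hkeq]; exact Qv_mul_le hk (S.hℓ m) τ x
  have h3 : 0 ≤ S.κ m * (Qv (S.ℓ m) τ x - Qv (S.ℓ (m + 1)) τ x) :=
    mul_nonneg (S.hκ m) (by linarith)
  linarith

/-- The same-cell count in terms of the occupation numbers. -/
lemma Qv_eq_sum {L h : ℝ} (hL : 0 ≤ L) (hh : 0 < h) (τ : Fin 3 → ℝ) {N : ℕ}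
    {x : Fin N → Pt} (hx : ∀ i, x i ∈ cube L) :
    Qv h τ x = ∑ q, ((fib (fun i => lab hL hh τ (x i)) q : ℕ) : ℝ) ^ 2 / h ^ 3 := by
  rw [Qv, sameCell_eq_sum_fib hL hh τ hx, ← Finset.sum_div]
  push_cast
  rfl

/-- Case analysis: at a configuration and a shift, either a level is bad, or the top level is
bad, or the same-cell count at level `0` is small. -/
lemma case_analysis {L : ℝ} (hL : 0 ≤ L) {N : ℕ} (hN : (N : ℝ) ≤ S.ρ₀ * L ^ 3) {x : Fin N → Pt}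
    (hx : ∀ i, x i ∈ cube L) (τ : Fin 3 → ℝ) (J : ℕ) {δ C γ : ℝ} (hδ : 0 ≤ δ) (hC : 0 < C)
    {xt : ℕ → ℝ}
    (htop : ∀ j : ℕ, (j : ℝ) ^ 2 / S.ℓ J ^ 3 ≤ (S.ρ₀ + δ) * j + C * xt j) :
    (∃ m < J, S.v m * L ^ 3 ≤ Qv (S.ℓ m) τ x - Qv (S.ℓ (m + 1)) τ x) ∨
    (γ * L ^ 3 ≤ ∑ q, xt (fib (fun i => lab hL (S.hℓ J) τ (x i)) q)) ∨
    Qv (S.ℓ 0) τ x ≤ L ^ 3 * (S.ρ₀ * (S.ρ₀ + δ) + C * γ + ∑ m ∈ Finset.range J, S.v m) := by
  by_cases h1 : ∃ m < J, S.v m * L ^ 3 ≤ Qv (S.ℓ m) τ x - Qv (S.ℓ (m + 1)) τ x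
  · exact Or.inl h1
  refine Or.inr ?_
  push Not at h1
  by_cases h2 : γ * L ^ 3 ≤ ∑ q, xt (fib (fun i => lab hL (S.hℓ J) τ (x i)) q)
  · exact Or.inl h2
  refine Or.inr ?_
  push Not at h2
  -- telescoping
  have htel : Qv (S.ℓ 0) τ x - Qv (S.ℓ J) τ x ≤ L ^ 3 * ∑ m ∈ Finset.range J, S.v m := by
    have h3 : ∑ m ∈ Finset.range J, (Qv (S.ℓ m) τ x - Qv (S.ℓ (m + 1)) τ x) =
        Qv (S.ℓ 0) τ x - Qv (S.ℓ J) τ x :=
      Finset.sum_range_sub' (fun m => Qv (S.ℓ m) τ x) J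
    rw [← h3, Finset.mul_sum]
    refine Finset.sum_le_sum fun m hm => ?_
    have := h1 m (Finset.mem_range.1 hm)
    linarith
  -- the top level
  have hQJ : Qv (S.ℓ J) τ x ≤ (S.ρ₀ + δ) * N +
      C * ∑ q, xt (fib (fun i => lab hL (S.hℓ J) τ (x i)) q) := by
    rw [Qv_eq_sum hL (S.hℓ J) τ hx]
    have hsumN : ∑ q, ((fib (fun i => lab hL (S.hℓ J) τ (x i)) q : ℕ) : ℝ) = N := by
      exact_mod_cast Cells.sum_fib (fun i => lab hL (S.hℓ J) τ (x i))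
    calc _ ≤ ∑ q, ((S.ρ₀ + δ) * ((fib (fun i => lab hL (S.hℓ J) τ (x i)) q : ℕ) : ℝ) +
            C * xt (fib (fun i => lab hL (S.hℓ J) τ (x i)) q)) :=
          Finset.sum_le_sum fun q _ => htop _
      _ = _ := by
          rw [Finset.sum_add_distrib, ← Finset.mul_sum, ← Finset.mul_sum, hsumN]
  have hρ := S.hρ₀
  have h5 : (S.ρ₀ + δ) * (N : ℝ) ≤ (S.ρ₀ + δ) * (S.ρ₀ * L ^ 3) :=
    mul_le_mul_of_nonneg_left hN (by linarith)
  have h6 : C * ∑ q, xt (fib (fun i => lab hL (S.hℓ J) τ (x i)) q) ≤ C * (γ * L ^ 3) :=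
    mul_le_mul_of_nonneg_left h2.le hC.le
  nlinarith

/-- The margin at a level. -/
def Om (m : ℕ) : ℝ := S.Ostar m + S.c - S.c' m + S.ξ m * S.ρ₀

lemma Om_lt (m : ℕ) : S.Om m < S.κ m * S.v m := S.hmargin m

/-- Box sides at stage `J`. -/
def side (J M : ℕ) : ℝ := (M : ℝ) * S.ℓ J

lemma side_tendsto (J : ℕ) : Tendsto (S.side J) atTop atTop :=
  tendsto_natCast_atTop_atTop.atTop_mul_const (S.hℓ J)

lemma hZ_side (J : ℕ) : Tendsto (fun M => Real.log (partitionFn S.φ (S.side J M)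
    ⌊S.ρ₀ * (S.side J M) ^ 3⌋₊ S.β) / (S.side J M) ^ 3) atTop (𝓝 (-(S.μ * S.ρ₀ + S.c))) := by
  rw [← S.htouch]
  exact S.hZ.comp (S.side_tendsto J)

lemma level_side (J M : ℕ) (x : Fin ⌊S.ρ₀ * (S.side J M) ^ 3⌋₊ → Pt)
    (hx : ∀ i, x i ∈ cube (S.side J M)) : ∃ τ ∈ S.shifts J, ∀ m ≤ J,
      -S.β * energy S.φ x ≤ -S.β * sameEnergy (S.ψ m) (fun i => cell (S.ℓ m) τ (x i)) x +
        S.a m * Qv (S.ℓ m) τ x - S.κ m * (Qv (S.ℓ m) τ x - Qv (S.ℓ (m + 1)) τ x) +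
        S.ξ m * ((⌊S.ρ₀ * (S.side J M) ^ 3⌋₊ : ℕ) : ℝ) := S.hLevel J M x hx

/-- The terms of the concentration theorem. -/
def concTerms (J : ℕ) (xt : ℕ → ℝ)
    (hT : TiltBound (S.ψ J) (S.ℓ J) S.β (levelTilt (S.a J) S.μ (S.c' J) (S.ℓ J) xt) (S.Ostar J))
    (γ : ℝ) : Option ℕ → TiltTerm S.β S.μ
  | none => S.term J xt hT γ
  | some m => S.term m (fun _ => 0) (S.tilt_plain m) (S.κ m * S.v m)

/-- Concentration at a stage `J` with a top tilt `xt`. -/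
theorem conc_at (J : ℕ) {δ C γ : ℝ} (hδ : 0 ≤ δ) (hC : 0 < C) {xt : ℕ → ℝ}
    (htop : ∀ j : ℕ, (j : ℝ) ^ 2 / S.ℓ J ^ 3 ≤ (S.ρ₀ + δ) * j + C * xt j)
    (hT : TiltBound (S.ψ J) (S.ℓ J) S.β (levelTilt (S.a J) S.μ (S.c' J) (S.ℓ J) xt) (S.Ostar J))
    (hm : S.Om J < γ) :
    ∀ᶠ M in atTop, ∀ T : Set (Fin ⌊S.ρ₀ * (S.side J M) ^ 3⌋₊ → Pt), MeasurableSet T →
      (∀ x : Fin ⌊S.ρ₀ * (S.side J M) ^ 3⌋₊ → Pt, (∀ i, x i ∈ cube (S.side J M)) →
        ∀ τ ∈ S.shifts J, Qv (S.ℓ 0) τ x ≤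
          (S.side J M) ^ 3 * (S.ρ₀ * (S.ρ₀ + δ) + C * γ + ∑ m ∈ Finset.range J, S.v m) → x ∈ T) →
      partitionFn S.φ (S.side J M) ⌊S.ρ₀ * (S.side J M) ^ 3⌋₊ S.β / 2 ≤
        (1 / ((⌊S.ρ₀ * (S.side J M) ^ 3⌋₊).factorial : ℝ)) *
          ∫ x in Set.pi Set.univ (fun _ : Fin ⌊S.ρ₀ * (S.side J M) ^ 3⌋₊ => cube (S.side J M)) ∩ T,
            Real.exp (-S.β * energy S.φ x) := by
  classical
  have hcore := core (c := S.c) S.hβ S.hρ₀.le S.hφ S.hstφ (Finset.insertNone (Finset.range J))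
    (S.concTerms J xt hT γ) (by
      intro i hi
      cases i with
      | none => exact hm
      | some m => exact S.hmargin m) (S.shifts J) (S.side J) (S.side_tendsto J) (S.hZ_side J)
  filter_upwards [hcore, (S.side_tendsto J).eventually_ge_atTop 0] with M hM hLM T hTm hTsub
  refine hM hLM T hTm fun x hx hxT => ?_
  obtain ⟨τ, hτ, hlev⟩ := S.level_side J M x hx
  have hN : ((⌊S.ρ₀ * (S.side J M) ^ 3⌋₊ : ℕ) : ℝ) ≤ S.ρ₀ * (S.side J M) ^ 3 :=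
    Nat.floor_le (mul_nonneg S.hρ₀.le (pow_nonneg hLM 3))
  have hsimple := S.simple_level hlev
  rcases S.case_analysis hLM hN hx τ J hδ hC htop (γ := γ) with ⟨m, hmJ, hbad⟩ | h2 | h3
  · refine ⟨τ, hτ, some m, Finset.some_mem_insertNone.2 (Finset.mem_range.2 hmJ),
      S.κ m * (Qv (S.ℓ m) τ x - Qv (S.ℓ (m + 1)) τ x), 0, ?_, ?_, ?_⟩
    · have := hlev m hmJ.le
      show -S.β * energy S.φ x ≤ -S.β * sameEnergy (S.ψ m) (fun k => cell (S.ℓ m) τ (x k)) x +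
        S.a m * Qv (S.ℓ m) τ x + S.ξ m * _ - _
      linarith
    · show (0 : ℝ) ≤ ∑ q, (0 : ℝ)
      simp
    · show S.κ m * S.v m * _ ≤ _
      have := mul_le_mul_of_nonneg_left hbad (S.hκ m)
      linarith
  · refine ⟨τ, hτ, none, Finset.none_mem_insertNone, 0, _, ?_, le_rfl, ?_⟩
    · have := hsimple J le_rfl
      show -S.β * energy S.φ x ≤ -S.β * sameEnergy (S.ψ J) (fun k => cell (S.ℓ J) τ (x k)) x +
        S.a J * Qv (S.ℓ J) τ x + S.ξ J * _ - _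
      linarith
    · show γ * _ ≤ _
      rw [zero_add]
      exact h2
  · exact absurd (hTsub x hx τ hτ h3) hxT

/-- Choice of the top level. -/
lemma exists_top {ζ : ℝ} (hζ : 0 < ζ) : ∃ (J : ℕ) (δ C γ : ℝ) (xt : ℕ → ℝ), 0 ≤ δ ∧ 0 < C ∧
    (∀ j : ℕ, (j : ℝ) ^ 2 / S.ℓ J ^ 3 ≤ (S.ρ₀ + δ) * j + C * xt j) ∧
    TiltBound (S.ψ J) (S.ℓ J) S.β (levelTilt (S.a J) S.μ (S.c' J) (S.ℓ J) xt) (S.Ostar J) ∧
    S.Om J < γ ∧ S.ρ₀ * (S.ρ₀ + δ) + C * γ ≤ S.ρ₀ ^ 2 + 2 * ζ / 3 := by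
  have hρ := S.hρ₀
  set δ := ζ / (3 * S.ρ₀) with hδdef
  have hδ : 0 < δ := by positivity
  have hδρ : S.ρ₀ * δ = ζ / 3 := by rw [hδdef]; field_simp
  set ω₁ := S.ω (S.ρ₀ + δ / 2) with hω₁
  have hω₁pos : 0 < ω₁ := S.ω_pos (by linarith)
  have hχ := S.hχ
  have hρm := S.ρm_pos
  set C := 2 * S.ρm ^ 2 / ω₁ + 1 / S.χ + 1 with hCdef
  have hC : 0 < C := by positivity
  set γ := ζ / (3 * C) with hγdef
  have hγ : 0 < γ := by positivity
  have hCγ : C * γ = ζ / 3 := by rw [hγdef]; field_simp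
  have ev1 : ∀ᶠ m in atTop, S.Om m < γ := by
    refine S.hmarginlim.eventually (gt_mem_nhds hγ)
  have ev2 : ∀ᶠ m in atTop, S.ρ₀ + δ / 2 ≤ (S.ρ₀ + δ) * S.lam3 m := by
    have h1 : Tendsto (fun m => (S.ρ₀ + δ) * S.lam3 m) atTop (𝓝 ((S.ρ₀ + δ) * 1)) :=
      S.hlam3lim.const_mul _
    rw [mul_one] at h1
    exact (h1.eventually (lt_mem_nhds (show S.ρ₀ + δ / 2 < S.ρ₀ + δ by linarith))).mono
      fun m hm => hm.le
  obtain ⟨J, hJ1, hJ2⟩ := (ev1.and ev2).exists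
  have hℓ := S.hℓ J
  have hℓ3 : 0 < S.ℓ J ^ 3 := pow_pos hℓ 3
  have hl := S.hlam3pos J
  have hl1 := S.hlam3le J
  classical
  refine ⟨J, δ, C, γ, fun j => if (j : ℝ) ≤ S.ρm * S.ℓ J ^ 3 then
      (1 / 2) * (S.ℓ J ^ 3 * (S.ω ((j : ℝ) / S.ℓ J ^ 3 * S.lam3 J) / S.lam3 J))
    else S.χ * ((j : ℝ) ^ 2 / S.ℓ J ^ 3), hδ.le, hC, ?_, ?_, hJ1, ?_⟩
  · intro j
    have hσ0 : 0 ≤ (j : ℝ) / S.ℓ J ^ 3 := by positivity
    have hjeq : (j : ℝ) = (j : ℝ) / S.ℓ J ^ 3 * S.ℓ J ^ 3 := by field_simp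
    set σ := (j : ℝ) / S.ℓ J ^ 3 with hσ
    have hj2 : (j : ℝ) ^ 2 / S.ℓ J ^ 3 = σ ^ 2 * S.ℓ J ^ 3 := by
      rw [hσ]; field_simp
    rw [hj2]
    by_cases hlow : (j : ℝ) ≤ S.ρm * S.ℓ J ^ 3
    · simp only [if_pos hlow]
      have hσm : σ ≤ S.ρm := by
        rw [hσ, div_le_iff₀ hℓ3]; exact hlow
      have hωnn : 0 ≤ S.ω (σ * S.lam3 J) := S.ω_nonneg (by positivity)
      have hωl : S.ω (σ * S.lam3 J) ≤ S.ω (σ * S.lam3 J) / S.lam3 J := by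
        rw [le_div_iff₀ hl]
        nlinarith
      by_cases hcase : σ ≤ S.ρ₀ + δ
      · have h1 : σ ^ 2 * S.ℓ J ^ 3 ≤ (S.ρ₀ + δ) * (σ * S.ℓ J ^ 3) := by
          have : σ * σ ≤ (S.ρ₀ + δ) * σ := mul_le_mul_of_nonneg_right hcase hσ0
          nlinarith
        rw [← hjeq] at h1
        have h2 : 0 ≤ C * ((1 / 2) * (S.ℓ J ^ 3 * (S.ω (σ * S.lam3 J) / S.lam3 J))) := by
          positivity
        linarith
      · have hcase' : S.ρ₀ + δ < σ := not_le.1 hcase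
        have hu : S.ρ₀ + δ / 2 ≤ σ * S.lam3 J := by
          have : (S.ρ₀ + δ) * S.lam3 J ≤ σ * S.lam3 J :=
            mul_le_mul_of_nonneg_right hcase'.le hl.le
          linarith
        have hωu : ω₁ ≤ S.ω (σ * S.lam3 J) := S.ω_mono (by linarith) hu
        have hx1 : (1 / 2) * (S.ℓ J ^ 3 * ω₁) ≤
            (1 / 2) * (S.ℓ J ^ 3 * (S.ω (σ * S.lam3 J) / S.lam3 J)) := by
          have : ω₁ ≤ S.ω (σ * S.lam3 J) / S.lam3 J := hωu.trans hωl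
          nlinarith
        have hC1 : 2 * S.ρm ^ 2 / ω₁ ≤ C := by
          rw [hCdef]
          have : 0 < 1 / S.χ := by positivity
          linarith
        have hfin : S.ρm ^ 2 * S.ℓ J ^ 3 ≤ C * ((1 / 2) * (S.ℓ J ^ 3 * ω₁)) := by
          have h3 : (2 * S.ρm ^ 2 / ω₁) * ((1 / 2) * (S.ℓ J ^ 3 * ω₁)) = S.ρm ^ 2 * S.ℓ J ^ 3 := by
            field_simp
          rw [← h3]
          exact mul_le_mul_of_nonneg_right hC1 (by positivity)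
        have hs2 : σ ^ 2 * S.ℓ J ^ 3 ≤ S.ρm ^ 2 * S.ℓ J ^ 3 := by
          refine mul_le_mul_of_nonneg_right ?_ hℓ3.le
          exact pow_le_pow_left₀ hσ0 hσm 2
        have h5 : 0 ≤ (S.ρ₀ + δ) * (j : ℝ) := by positivity
        have h6 := mul_le_mul_of_nonneg_left hx1 hC.le
        linarith
    · simp only [if_neg hlow]
      rw [hj2]
      have hC1 : 1 / S.χ ≤ C := by
        rw [hCdef]
        have : 0 < 2 * S.ρm ^ 2 / ω₁ := by positivity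
        linarith
      have h3 : σ ^ 2 * S.ℓ J ^ 3 = (1 / S.χ) * (S.χ * (σ ^ 2 * S.ℓ J ^ 3)) := by
        field_simp
      have h4 : (1 / S.χ) * (S.χ * (σ ^ 2 * S.ℓ J ^ 3)) ≤ C * (S.χ * (σ ^ 2 * S.ℓ J ^ 3)) :=
        mul_le_mul_of_nonneg_right hC1 (by positivity)
      have h5 : 0 ≤ (S.ρ₀ + δ) * (j : ℝ) := by positivity
      linarith
  · refine S.tilt_of_extra J (fun j hj => ?_) (fun j hj => ?_)
    · simp only [if_pos hj]
      have hσ : 0 ≤ (j : ℝ) / S.ℓ J ^ 3 * S.lam3 J := by positivity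
      have h1 : 0 ≤ S.ℓ J ^ 3 * (S.ω ((j : ℝ) / S.ℓ J ^ 3 * S.lam3 J) / S.lam3 J) :=
        mul_nonneg hℓ3.le (div_nonneg (S.ω_nonneg hσ) hl.le)
      linarith
    · simp only [if_neg (not_le.2 hj)]
      exact le_rfl
  · rw [hCγ]
    nlinarith

/-- **Concentration** (module C of S0209/S0210). For every `ζ > 0` there is a level `J` such that,
for all large `M`, on the box of side `M ℓ_J` with `N = ⌊ρ₀ V⌋`, the configurations with
same-cell count at most `V (ρ₀² + V₀ + ζ)` for one of the shifts carry at least half of the partition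
function. -/
theorem concentration {ζ : ℝ} (hζ : 0 < ζ) : ∃ J : ℕ, ∀ᶠ M in atTop,
    ∀ T : Set (Fin ⌊S.ρ₀ * (S.side J M) ^ 3⌋₊ → Pt), MeasurableSet T →
      (∀ x : Fin ⌊S.ρ₀ * (S.side J M) ^ 3⌋₊ → Pt, (∀ i, x i ∈ cube (S.side J M)) →
        ∀ τ ∈ S.shifts J, Qv (S.ℓ 0) τ x ≤
          (S.side J M) ^ 3 * (S.ρ₀ ^ 2 + S.V₀ + ζ) → x ∈ T) →
      partitionFn S.φ (S.side J M) ⌊S.ρ₀ * (S.side J M) ^ 3⌋₊ S.β / 2 ≤
        (1 / ((⌊S.ρ₀ * (S.side J M) ^ 3⌋₊).factorial : ℝ)) *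
          ∫ x in Set.pi Set.univ (fun _ : Fin ⌊S.ρ₀ * (S.side J M) ^ 3⌋₊ => cube (S.side J M)) ∩ T,
            Real.exp (-S.β * energy S.φ x) := by
  obtain ⟨J, δ, C, γ, xt, hδ, hC, htop, hT, hm, hb⟩ := S.exists_top hζ
  refine ⟨J, ?_⟩
  filter_upwards [S.conc_at J hδ hC htop hT hm, (S.side_tendsto J).eventually_ge_atTop 0]
    with M hM hLM T hTm hTsub
  refine hM T hTm fun x hx τ hτ hQ => hTsub x hx τ hτ (hQ.trans ?_)
  refine mul_le_mul_of_nonneg_left ?_ (pow_nonneg hLM 3)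
  have := S.hV₀ J
  linarith

/-! ### The no-contact lemma -/

/-- The extra tilt on the cells of density near `ρ₀`. -/
def nearTilt (ℓ ρ₀ ε₀ b₁ : ℝ) (j : ℕ) : ℝ :=
  if |(j : ℝ) / ℓ ^ 3 - ρ₀| < ε₀ then b₁ * ℓ ^ 3 else 0

/-- Chebyshev: the near tilt summed over the cells. -/
lemma near_sum {Q : Type} [Fintype Q] [DecidableEq Q] {N : ℕ} (b : Fin N → Q) {ℓ ρ₀ ε₀ b₁ : ℝ}
    (hℓ : 0 < ℓ) (hε₀ : 0 < ε₀) (hb₁ : 0 ≤ b₁) :
    b₁ * ((Fintype.card Q : ℝ) * ℓ ^ 3 - ((∑ q, ((fib b q : ℕ) : ℝ) ^ 2 / ℓ ^ 3) - 2 * ρ₀ * N +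
        ρ₀ ^ 2 * ((Fintype.card Q : ℝ) * ℓ ^ 3)) / ε₀ ^ 2) ≤
      ∑ q, nearTilt ℓ ρ₀ ε₀ b₁ (fib b q) := by
  have hℓ3 : 0 < ℓ ^ 3 := pow_pos hℓ 3
  have hε2 : 0 < ε₀ ^ 2 := pow_pos hε₀ 2
  have hpt : ∀ j : ℕ, b₁ * (ℓ ^ 3 - ((j : ℝ) ^ 2 / ℓ ^ 3 - 2 * ρ₀ * j + ρ₀ ^ 2 * ℓ ^ 3) / ε₀ ^ 2) ≤
      nearTilt ℓ ρ₀ ε₀ b₁ j := by
    intro j
    have hid : (j : ℝ) ^ 2 / ℓ ^ 3 - 2 * ρ₀ * j + ρ₀ ^ 2 * ℓ ^ 3 =
        ℓ ^ 3 * ((j : ℝ) / ℓ ^ 3 - ρ₀) ^ 2 := by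
      field_simp
      ring
    rw [hid]
    unfold nearTilt
    split_ifs with hnear
    · refine mul_le_mul_of_nonneg_left ?_ hb₁
      have : 0 ≤ ℓ ^ 3 * ((j : ℝ) / ℓ ^ 3 - ρ₀) ^ 2 / ε₀ ^ 2 := by positivity
      linarith
    · have hfar : ε₀ ^ 2 ≤ ((j : ℝ) / ℓ ^ 3 - ρ₀) ^ 2 := by
        rw [← sq_abs ((j : ℝ) / ℓ ^ 3 - ρ₀)]
        exact pow_le_pow_left₀ hε₀.le (not_lt.1 hnear) 2
      have h1 : ℓ ^ 3 ≤ ℓ ^ 3 * ((j : ℝ) / ℓ ^ 3 - ρ₀) ^ 2 / ε₀ ^ 2 := by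
        rw [le_div_iff₀ hε2]
        exact mul_le_mul_of_nonneg_left hfar hℓ3.le
      have h2 : ℓ ^ 3 - ℓ ^ 3 * ((j : ℝ) / ℓ ^ 3 - ρ₀) ^ 2 / ε₀ ^ 2 ≤ 0 := by linarith
      exact mul_nonpos_of_nonneg_of_nonpos hb₁ h2
  refine le_trans (le_of_eq ?_) (Finset.sum_le_sum fun q _ => hpt (fib b q))
  have hN : ∑ q, ((fib b q : ℕ) : ℝ) = N := by exact_mod_cast Cells.sum_fib b
  have e : ∀ q, b₁ * (ℓ ^ 3 - (((fib b q : ℕ) : ℝ) ^ 2 / ℓ ^ 3 - 2 * ρ₀ * ((fib b q : ℕ) : ℝ) +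
      ρ₀ ^ 2 * ℓ ^ 3) / ε₀ ^ 2) = b₁ * ℓ ^ 3 - b₁ / ε₀ ^ 2 * (((fib b q : ℕ) : ℝ) ^ 2 / ℓ ^ 3) +
      b₁ / ε₀ ^ 2 * (2 * ρ₀) * ((fib b q : ℕ) : ℝ) - b₁ / ε₀ ^ 2 * (ρ₀ ^ 2 * ℓ ^ 3) := by
    intro q; ring
  simp only [e]
  have h1 : ∑ q, b₁ / ε₀ ^ 2 * (2 * ρ₀) * ((fib b q : ℕ) : ℝ) = b₁ / ε₀ ^ 2 * (2 * ρ₀) * N := by
    rw [← Finset.mul_sum, hN]
  have h2 : ∑ q, b₁ / ε₀ ^ 2 * (((fib b q : ℕ) : ℝ) ^ 2 / ℓ ^ 3) =
      b₁ / ε₀ ^ 2 * ∑ q, ((fib b q : ℕ) : ℝ) ^ 2 / ℓ ^ 3 := by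
    rw [Finset.mul_sum]
  rw [Finset.sum_sub_distrib, Finset.sum_add_distrib, Finset.sum_sub_distrib, h1, h2]
  simp only [Finset.sum_const, Finset.card_univ, nsmul_eq_mul]
  ring

/-- The arithmetic of the near volume. -/
lemma near_arith {V V' W Q' n ρ₀ ε₀ : ℝ} (hρ₀ : 0 ≤ ρ₀) (hε₀ : 0 < ε₀) (h1 : V ≤ V') (h2 : V' ≤ W)
    (h3 : Q' ≤ V * (ρ₀ ^ 2 + ε₀ ^ 2 / 4)) (h4 : ρ₀ * V - 1 ≤ n)
    (h5 : (2 * ρ₀ + ρ₀ ^ 2 * (W - V)) / ε₀ ^ 2 ≤ V / 4) :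
    V / 2 ≤ V' - (Q' - 2 * ρ₀ * n + ρ₀ ^ 2 * V') / ε₀ ^ 2 := by
  have hε2 : 0 < ε₀ ^ 2 := pow_pos hε₀ 2
  have h6 : Q' - 2 * ρ₀ * n + ρ₀ ^ 2 * V' ≤ V * (ε₀ ^ 2 / 4) + (2 * ρ₀ + ρ₀ ^ 2 * (W - V)) := by
    have h7 : ρ₀ * (ρ₀ * V - 1) ≤ ρ₀ * n := mul_le_mul_of_nonneg_left h4 hρ₀
    have h8 : ρ₀ ^ 2 * V' ≤ ρ₀ ^ 2 * W := mul_le_mul_of_nonneg_left h2 (by positivity)
    nlinarith
  have h9 : (Q' - 2 * ρ₀ * n + ρ₀ ^ 2 * V') / ε₀ ^ 2 ≤ V / 4 + V / 4 := by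
    calc _ ≤ (V * (ε₀ ^ 2 / 4) + (2 * ρ₀ + ρ₀ ^ 2 * (W - V))) / ε₀ ^ 2 :=
          div_le_div_of_nonneg_right h6 hε2.le
      _ = V / 4 + (2 * ρ₀ + ρ₀ ^ 2 * (W - V)) / ε₀ ^ 2 := by
          rw [add_div]; congr 1; field_simp
      _ ≤ _ := by linarith
  linarith

lemma eventually_near {ρ₀ ε₀ ℓ : ℝ} (hε₀ : 0 < ε₀) (L : ℕ → ℝ) (hLim : Tendsto L atTop atTop) :
    ∀ᶠ M in atTop, (2 * ρ₀ + ρ₀ ^ 2 * ((L M + 2 * ℓ) ^ 3 - (L M) ^ 3)) / ε₀ ^ 2 ≤ (L M) ^ 3 / 4 := by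
  have hV : Tendsto (fun M => (L M) ^ 3) atTop atTop :=
    (tendsto_pow_atTop (by norm_num : (3 : ℕ) ≠ 0)).comp hLim
  have h2 : Tendsto (fun M => (L M + 2 * ℓ) ^ 3 / (L M) ^ 3) atTop (𝓝 1) := by
    have h3 : Tendsto (fun M => 1 + 2 * ℓ / L M) atTop (𝓝 (1 + 0)) :=
      tendsto_const_nhds.add (tendsto_const_nhds.div_atTop hLim)
    have h4 := h3.pow 3
    have h5 : (1 + 0 : ℝ) ^ 3 = 1 := by norm_num
    rw [h5] at h4
    refine h4.congr' ?_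
    filter_upwards [hLim.eventually_gt_atTop 0] with M hM
    field_simp
  have h3 : Tendsto (fun M => (2 * ρ₀ + ρ₀ ^ 2 * ((L M + 2 * ℓ) ^ 3 - (L M) ^ 3)) / ε₀ ^ 2 /
      (L M) ^ 3) atTop (𝓝 ((0 + ρ₀ ^ 2 * (1 - 1)) / ε₀ ^ 2)) := by
    have h4 : Tendsto (fun M => 2 * ρ₀ / (L M) ^ 3) atTop (𝓝 0) :=
      tendsto_const_nhds.div_atTop hV
    have h5 := (h4.add ((h2.sub_const 1).const_mul (ρ₀ ^ 2))).div_const (ε₀ ^ 2)
    refine h5.congr' ?_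
    filter_upwards [hV.eventually_gt_atTop 0] with M hM
    generalize (L M + 2 * ℓ) ^ 3 = W
    generalize (L M) ^ 3 = V at hM ⊢
    have hne : V ≠ 0 := hM.ne'
    field_simp
  have h4 : (0 + ρ₀ ^ 2 * (1 - 1)) / ε₀ ^ 2 = 0 := by simp
  rw [h4] at h3
  filter_upwards [h3.eventually (gt_mem_nhds (show (0 : ℝ) < 1 / 4 by norm_num)),
    hV.eventually_gt_atTop 0] with M h5 h6
  rw [div_lt_iff₀ h6] at h5
  linarith

/-- The tilt bound with the near tilt. -/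
lemma tilt_near {ε₀ b : ℝ} (hb : 0 ≤ b) (hε : S.ρ₀ + ε₀ ≤ S.ρm)
    (hnear : ∀ j : ℕ, |(j : ℝ) / S.ℓ 0 ^ 3 - S.ρ₀| < ε₀ →
      S.a 0 * ((j : ℝ) ^ 2 / S.ℓ 0 ^ 3) + Real.log (partitionFn (S.ψ 0) (S.ℓ 0) j S.β) ≤
        S.ℓ 0 ^ 3 * (-(S.μ * ((j : ℝ) / S.ℓ 0 ^ 3) + S.c) - b)) :
    TiltBound (S.ψ 0) (S.ℓ 0) S.β
      (levelTilt (S.a 0) S.μ (S.c' 0) (S.ℓ 0) (nearTilt (S.ℓ 0) S.ρ₀ ε₀ (b / 2))) (S.Ostar 0) := by
  have hℓ := S.hℓ 0
  have hℓ3 : 0 < S.ℓ 0 ^ 3 := pow_pos hℓ 3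
  refine tiltBound_of_summands hℓ (S.ho 0) S.ρm_pos.le (fun j hj => ?_) (fun j hj => ?_)
  · by_cases hn : |(j : ℝ) / S.ℓ 0 ^ 3 - S.ρ₀| < ε₀
    · have h1 := hnear j hn
      have hjeq : (j : ℝ) = (j : ℝ) / S.ℓ 0 ^ 3 * S.ℓ 0 ^ 3 := by field_simp
      unfold levelTilt nearTilt
      rw [if_pos hn]
      have h2 := S.c'_le_c 0
      have h3 : S.μ * (j : ℝ) = S.ℓ 0 ^ 3 * (S.μ * ((j : ℝ) / S.ℓ 0 ^ 3)) := by
        field_simp
      have h4 : 0 ≤ S.ℓ 0 ^ 3 * S.o 0 := mul_nonneg hℓ3.le (S.ho 0)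
      have h5 : S.ℓ 0 ^ 3 * (S.c' 0 - S.c - b / 2) ≤ 0 :=
        mul_nonpos_of_nonneg_of_nonpos hℓ3.le (by linarith)
      nlinarith
    · refine S.summand_low 0 j hj ?_
      unfold nearTilt
      rw [if_neg hn]
      have hσ : 0 ≤ (j : ℝ) / S.ℓ 0 ^ 3 * S.lam3 0 :=
        mul_nonneg (div_nonneg (Nat.cast_nonneg _) hℓ3.le) (S.hlam3pos 0).le
      exact mul_nonneg hℓ3.le (div_nonneg (S.ω_nonneg hσ) (S.hlam3pos 0).le)
  · have h1 := S.hTail 0 j hj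
    have hn : ¬ |(j : ℝ) / S.ℓ 0 ^ 3 - S.ρ₀| < ε₀ := by
      intro hn
      have h2 := (abs_lt.1 hn).2
      have h3 : S.ρm < (j : ℝ) / S.ℓ 0 ^ 3 := by
        rw [lt_div_iff₀ hℓ3]; exact hj
      linarith
    unfold levelTilt nearTilt c'
    rw [if_neg hn]
    have h4 : 0 ≤ S.χ * ((j : ℝ) ^ 2 / S.ℓ 0 ^ 3) :=
      mul_nonneg S.hχ.le (div_nonneg (by positivity) hℓ3.le)
    linarith

/-- The terms of the no-contact lemma. -/
def xTerms (J : ℕ) (xt : ℕ → ℝ)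
    (hT : TiltBound (S.ψ J) (S.ℓ J) S.β (levelTilt (S.a J) S.μ (S.c' J) (S.ℓ J) xt) (S.Ostar J))
    (γ : ℝ) (y : ℕ → ℝ)
    (hY : TiltBound (S.ψ 0) (S.ℓ 0) S.β (levelTilt (S.a 0) S.μ (S.c' 0) (S.ℓ 0) y) (S.Ostar 0))
    (d : ℝ) : Option (Option ℕ) → TiltTerm S.β S.μ
  | none => S.term 0 y hY d
  | some none => S.term J xt hT γ
  | some (some m) => S.term m (fun _ => 0) (S.tilt_plain m) (S.κ m * S.v m)

/-- **No contact** (module X of S0209/S0210). If the level-`0` amplitudes are below the supporting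
line by a margin `b` for the densities near `ρ₀`, then `ρ₀` cannot be a contact point. -/
theorem no_contact {ε₀ b : ℝ} (hε₀ : 0 < ε₀) (hb : 0 < b) (hε : S.ρ₀ + ε₀ ≤ S.ρm)
    (hV : S.V₀ ≤ ε₀ ^ 2 / 8)
    (hnear : ∀ j : ℕ, |(j : ℝ) / S.ℓ 0 ^ 3 - S.ρ₀| < ε₀ →
      S.a 0 * ((j : ℝ) ^ 2 / S.ℓ 0 ^ 3) + Real.log (partitionFn (S.ψ 0) (S.ℓ 0) j S.β) ≤
        S.ℓ 0 ^ 3 * (-(S.μ * ((j : ℝ) / S.ℓ 0 ^ 3) + S.c) - b))
    (hm0 : S.Om 0 < b / 4) : False := by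
  classical
  have hζ : 0 < ε₀ ^ 2 / 16 := by positivity
  obtain ⟨J, δ, C, γ, xt, hδ, hC, htop, hT, hm, hb'⟩ := S.exists_top hζ
  have hY := S.tilt_near hb.le hε hnear
  have hcore := core (c := S.c) S.hβ S.hρ₀.le S.hφ S.hstφ
    (Finset.insertNone (Finset.insertNone (Finset.range J)))
    (S.xTerms J xt hT γ _ hY (b / 4)) (by
      intro i hi
      match i with
      | none => exact hm0
      | some none => exact hm
      | some (some m) => exact S.hmargin m) (S.shifts J) (S.side J) (S.side_tendsto J) (S.hZ_side J)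
  have hρ₀ := S.hρ₀
  have hℓ0 := S.hℓ 0
  obtain ⟨M, hM, hsmall, hLM⟩ := (hcore.and ((eventually_near (ρ₀ := S.ρ₀) (ℓ := S.ℓ 0) hε₀
    (S.side J) (S.side_tendsto J)).and ((S.side_tendsto J).eventually_gt_atTop 0))).exists
  have hZpos := partitionFn_pos S.hφ S.hstφ S.hβ hLM ⌊S.ρ₀ * (S.side J M) ^ 3⌋₊
  have h := hM hLM.le ∅ MeasurableSet.empty (fun x hx _ => ?_)
  · rw [Set.inter_empty] at h
    simp only [Measure.restrict_empty, integral_zero_measure, mul_zero] at h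
    linarith
  · obtain ⟨τ, hτ, hlev⟩ := S.level_side J M x hx
    have hN : ((⌊S.ρ₀ * (S.side J M) ^ 3⌋₊ : ℕ) : ℝ) ≤ S.ρ₀ * (S.side J M) ^ 3 :=
      Nat.floor_le (mul_nonneg hρ₀.le (pow_nonneg hLM.le 3))
    have hN' : S.ρ₀ * (S.side J M) ^ 3 - 1 ≤ ((⌊S.ρ₀ * (S.side J M) ^ 3⌋₊ : ℕ) : ℝ) := by
      have := Nat.lt_floor_add_one (S.ρ₀ * (S.side J M) ^ 3)
      linarith
    have hsimple := S.simple_level hlev
    rcases S.case_analysis hLM.le hN hx τ J hδ hC htop (γ := γ) with ⟨m, hmJ, hbad⟩ | h2 | h3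
    · refine ⟨τ, hτ, some (some m), Finset.some_mem_insertNone.2
        (Finset.some_mem_insertNone.2 (Finset.mem_range.2 hmJ)),
        S.κ m * (Qv (S.ℓ m) τ x - Qv (S.ℓ (m + 1)) τ x), 0, ?_, ?_, ?_⟩
      · have := hlev m hmJ.le
        show -S.β * energy S.φ x ≤ -S.β * sameEnergy (S.ψ m) (fun k => cell (S.ℓ m) τ (x k)) x +
          S.a m * Qv (S.ℓ m) τ x + S.ξ m * _ - _
        linarith
      · show (0 : ℝ) ≤ ∑ q, (0 : ℝ)
        simp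
      · show S.κ m * S.v m * _ ≤ _
        have := mul_le_mul_of_nonneg_left hbad (S.hκ m)
        linarith
    · refine ⟨τ, hτ, some none, Finset.some_mem_insertNone.2 Finset.none_mem_insertNone,
        0, _, ?_, le_rfl, ?_⟩
      · have := hsimple J le_rfl
        show -S.β * energy S.φ x ≤ -S.β * sameEnergy (S.ψ J) (fun k => cell (S.ℓ J) τ (x k)) x +
          S.a J * Qv (S.ℓ J) τ x + S.ξ J * _ - _
        linarith
      · show γ * _ ≤ _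
        rw [zero_add]
        exact h2
    · refine ⟨τ, hτ, none, Finset.none_mem_insertNone, 0, _, ?_, le_rfl, ?_⟩
      · have := hsimple 0 (Nat.zero_le _)
        show -S.β * energy S.φ x ≤ -S.β * sameEnergy (S.ψ 0) (fun k => cell (S.ℓ 0) τ (x k)) x +
          S.a 0 * Qv (S.ℓ 0) τ x + S.ξ 0 * _ - _
        linarith
      · show b / 4 * _ ≤ _
        rw [zero_add]
        have hns := near_sum (Q := Lab (S.side J M) (S.ℓ 0) τ) (fun k => lab hLM.le hℓ0 τ (x k))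
          (ρ₀ := S.ρ₀) hℓ0 hε₀ (show 0 ≤ b / 2 by positivity)
        rw [← Qv_eq_sum hLM.le hℓ0 τ hx] at hns
        refine le_trans ?_ hns
        have hcard : (Fintype.card (Lab (S.side J M) (S.ℓ 0) τ) : ℝ) =
            ((cellSet (S.side J M) (S.ℓ 0) τ).card : ℝ) := by rw [Fintype.card_coe]
        rw [hcard]
        have hQ' : Qv (S.ℓ 0) τ x ≤ (S.side J M) ^ 3 * (S.ρ₀ ^ 2 + ε₀ ^ 2 / 4) := by
          refine h3.trans (mul_le_mul_of_nonneg_left ?_ (pow_nonneg hLM.le 3))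
          have := S.hV₀ J
          nlinarith
        have harith := near_arith (V := (S.side J M) ^ 3)
          (V' := ((cellSet (S.side J M) (S.ℓ 0) τ).card : ℝ) * S.ℓ 0 ^ 3)
          (W := (S.side J M + 2 * S.ℓ 0) ^ 3) hρ₀.le hε₀
          (le_card_cellSet_mul hLM.le hℓ0 τ) (card_cellSet_mul_le hLM.le hℓ0 τ) hQ' hN' hsmall
        have := mul_le_mul_of_nonneg_left harith (show 0 ≤ b / 2 by positivity)
        nlinarith

/-- The concentration theorem in the shape `hC` of `U4.u4b`. -/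
theorem hC {ζ : ℝ} (hζ : 0 < ζ) :
    ∃ᶠ L : ℝ in atTop, ∃ G : Set (Fin ⌊S.ρ₀ * L ^ 3⌋₊ → Pt), MeasurableSet G ∧
      (∀ x ∈ G, ∃ τ : Fin 3 → ℝ, (sameCell (S.ℓ 0) τ x : ℝ) / S.ℓ 0 ^ 3 ≤
        L ^ 3 * (S.ρ₀ ^ 2 + (S.V₀ + ζ))) ∧
      partitionFn S.φ L ⌊S.ρ₀ * L ^ 3⌋₊ S.β / 2 ≤
        (1 / ((⌊S.ρ₀ * L ^ 3⌋₊).factorial : ℝ)) *
          ∫ x in (Set.pi Set.univ fun _ : Fin ⌊S.ρ₀ * L ^ 3⌋₊ => cube L) ∩ G,
            Real.exp (-S.β * energy S.φ x) := by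
  obtain ⟨J, hJ⟩ := S.concentration hζ
  refine (S.side_tendsto J).frequently (Filter.Eventually.frequently ?_)
  filter_upwards [hJ] with M hM
  set G : Set (Fin ⌊S.ρ₀ * (S.side J M) ^ 3⌋₊ → Pt) :=
    ⋃ τ ∈ S.shifts J, {x | (sameCell (S.ℓ 0) τ x : ℝ) / S.ℓ 0 ^ 3 ≤
      (S.side J M) ^ 3 * (S.ρ₀ ^ 2 + S.V₀ + ζ)} with hG
  have hGm : MeasurableSet G := by
    refine Finset.measurableSet_biUnion _ fun τ _ => ?_
    exact measurableSet_le ((Level.measurable_sameCell (S.ℓ 0) τ).div_const _) measurable_const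
  refine ⟨G, hGm, ?_, ?_⟩
  · intro x hx
    obtain ⟨τ, _, hτ⟩ := Set.mem_iUnion₂.1 hx
    refine ⟨τ, hτ.trans (le_of_eq ?_)⟩
    ring
  · refine hM G hGm fun x hx τ hτ hQ => ?_
    exact Set.mem_iUnion₂.2 ⟨τ, hτ, hQ⟩

end Conc

end

end Crest.Agent.TL.Concentration
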