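import Crest.Agent.TL.Rate
import Crest.Agent.TL.Cells
import Crest.Agent.TL.Concentration

/-!
# S0209/S0210: the field `hLevel` of `Concentration.Conc`

At every configuration there is a shift good at all levels `≤ J`, and at that shift all the level
inequalities hold, multiplied by `-β`.
-/

set_option autoImplicit false

namespace Crest.Agent.TL.LevelWire

open Finset Filter
open Crest.ProbabilityR.Continuum
open Crest.Agent.TL.Gauss (cell sameCell g)
open Crest.Agent.TL.Cells (sameEnergy)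
open Crest.Agent.TL.Concentration (Qv)
open Crest.Agent.TL.Level

section Generic

variable (ell : ℕ → ℕ)

/-- The shifts of the top level `J`. -/
noncomputable def shifts (J : ℕ) : Finset (Fin 3 → ℝ) :=
  (univ : Finset (Fin 3 → Fin (ell J))).image Level.shift

variable {ell}

lemma dvd_of_le (hdvd : ∀ m, ell m ∣ ell (m + 1)) {m J : ℕ} (h : m ≤ J) : ell m ∣ ell J := by
  induction J, h using Nat.le_induction with
  | base => exact dvd_rfl
  | succ J _ ih => exact ih.trans (hdvd J)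

variable {Ahat R : ℕ → ℝ}

open scoped Classical in
/-- A shift good at all levels `≤ J` exists. -/
theorem exists_good (s : ℝ → ℝ) (U : ℝ) (hU : 0 < U) (hs : ∀ r, 0 ≤ s r)
    (hsU : ∀ r, 0 ≤ r → r < 1 → U ≤ s r)
    (hA : ∀ j, 0 ≤ Ahat j) (hR : ∀ j, 1 ≤ R j) (hell : ∀ j, 0 < ell j)
    (hdvd : ∀ m, ell m ∣ ell (m + 1)) (J : ℕ) {N : ℕ} (x : Fin N → Pt) :
    ∃ τ : Fin 3 → Fin (ell J), ∀ m ≤ J, Good s U Ahat R ell m τ x := by
  have h := card_good_ge (Ahat := Ahat) (R := R) (ell := ell) s U hU hs hsU hA hR (J + 1) (ell J)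
    (hell J) (fun m _ => hell m) (fun m hm => dvd_of_le hdvd (Nat.lt_succ_iff.mp hm)) x
  have hT : (0 : ℝ) < (ell J : ℝ) ^ 3 := by
    have : (0 : ℝ) < ell J := by exact_mod_cast hell J
    positivity
  have hpos : (0 : ℝ) <
      ((univ.filter fun τ : Fin 3 → Fin (ell J) =>
        ∀ m < J + 1, Good s U Ahat R ell m τ x).card : ℝ) := by
    linarith
  have hpos' : 0 < (univ.filter fun τ : Fin 3 → Fin (ell J) =>
        ∀ m < J + 1, Good s U Ahat R ell m τ x).card := by exact_mod_cast hpos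
  obtain ⟨τ, hτ⟩ := Finset.card_pos.mp hpos'
  simp only [mem_filter, mem_univ, true_and] at hτ
  exact ⟨τ, fun m hm => hτ m (Nat.lt_succ_iff.mpr hm)⟩

/-- `cellEnergy` is Cells' `sameEnergy`. -/
lemma cellEnergy_eq_sameEnergy (φ : ℝ → ℝ) (h : ℝ) (τ : Fin 3 → ℝ) {N : ℕ} (x : Fin N → Pt) :
    cellEnergy φ h τ x = sameEnergy φ (fun i => cell h τ (x i)) x := by
  unfold cellEnergy sameEnergy
  refine Finset.sum_congr rfl fun p _ => ?_
  congr

/-- **The level inequality at a good shift, multiplied by `-β`.** -/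
theorem hLevel_generic (s : ℝ → ℝ) (U A β : ℝ) (hU : 0 < U) (hA' : 0 ≤ A) (hβ : 0 ≤ β)
    (hs : ∀ r, 0 ≤ s r) (hsU : ∀ r, 0 ≤ r → r < 1 → U ≤ s r)
    (hA : ∀ j, 0 ≤ Ahat j) (hR : ∀ j, 1 ≤ R j) (hell : ∀ j, 0 < ell j)
    (hdvd : ∀ m, ell m ∣ ell (m + 1))
    (hsum : ∀ r, Summable fun j => Ahat j * g (R j) r)
    (hsum2 : ∀ m, Summable fun j =>
      Ahat (m + 1 + j) * (1 + 2 * (ell (m + 1) : ℝ) / R (m + 1 + j)) ^ 3)
    (hum : ∀ m, 0 ≤ um Ahat R ell A U m)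
    (J : ℕ) {N : ℕ} (x : Fin N → Pt) :
    ∃ τ ∈ shifts ell J, ∀ m ≤ J,
      -β * energy (fun r => s r - A * wAll Ahat R r) x ≤
        -β * sameEnergy (fun r => um Ahat R ell A U m * s r - A * wlt Ahat R m r)
            (fun i => cell (ell m) τ (x i)) x
          + ((1 / 2) * β * A * Gam Ahat R ell m) * Qv (ell m) τ x
          - ((1 / 2) * β * A * Level.Gpp Ahat R ell m) * (Qv (ell m) τ x - Qv (ell (m + 1)) τ x)
          + (β * A * (Mm m * Xi Ahat R ell m)) * (N : ℝ) := by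
  obtain ⟨τ, hτ⟩ := exists_good (Ahat := Ahat) (R := R) s U hU hs hsU hA hR hell hdvd J x
  refine ⟨Level.shift τ, Finset.mem_image_of_mem _ (Finset.mem_univ τ), fun m hm => ?_⟩
  have hR0 : ∀ j, 0 < R j := fun j => by linarith [hR j]
  have h := level_good s U A hU hA' hs hA hR0 hell hsum hsum2 m (hum m) τ x (hτ m hm)
  have h2 := mul_le_mul_of_nonneg_left h hβ
  rw [← cellEnergy_eq_sameEnergy]
  have e : ∀ (h : ℝ), Qv h (Level.shift τ) x = Q h (Level.shift τ) x := fun _ => rfl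
  simp only [e]
  linarith

end Generic

section Concrete

open Crest.Agent.TL.Series Crest.Agent.TL.Rate

variable {K0 e0 : ℕ}

/-- `1 - u_m ≤ ε_m Â_{m+1}`. -/
theorem um_ge (hK : e0 + 1 ≤ K0) {A U : ℝ} (hA : 0 ≤ A) (hU : 0 < U)
    (hKc : (2 * A / U) * 2 ^ (2 * e0 + 16) ≤ 2 ^ K0) (m : ℕ) :
    1 - eps e0 m * Ah K0 (m + 1) ≤ um (Ah K0) (RR K0) (ell K0 e0) A U m := by
  have h := Mm_Xi_le (Kc := 2 * A / U) hK (by positivity) hKc m
  unfold um
  have e : 2 * A * Mm m * Xi (Ah K0) (RR K0) (ell K0 e0) m / U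
      = Mm m * (2 * A / U) * Xi (Ah K0) (RR K0) (ell K0 e0) m := by
    field_simp
  rw [e]
  linarith

/-- `u_m ≤ 1`. -/
theorem um_le_one {A U : ℝ} (hA : 0 ≤ A) (hU : 0 < U) (m : ℕ) :
    um (Ah K0) (RR K0) (ell K0 e0) A U m ≤ 1 := by
  unfold um
  have hX : 0 ≤ Xi (Ah K0) (RR K0) (ell K0 e0) m :=
    Xi_nonneg (fun j => (Ah_pos K0 j).le) (fun j => one_le_RR K0 j) m
  have hM : 0 ≤ Mm m := by unfold Mm; positivity
  have : 0 ≤ 2 * A * Mm m * Xi (Ah K0) (RR K0) (ell K0 e0) m / U := by positivity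
  linarith

/-- **`hLevel` on the concrete scales.** -/
theorem hLevel_concrete (hK : e0 + 1 ≤ K0) (s : ℝ → ℝ) (U A β : ℝ) (hU : 0 < U) (hA' : 0 ≤ A)
    (hβ : 0 ≤ β) (hs : ∀ r, 0 ≤ s r) (hsU : ∀ r, 0 ≤ r → r < 1 → U ≤ s r)
    (hum : ∀ m, 0 ≤ um (Ah K0) (RR K0) (ell K0 e0) A U m)
    (J : ℕ) {N : ℕ} (x : Fin N → Pt) :
    ∃ τ ∈ shifts (ell K0 e0) J, ∀ m ≤ J,
      -β * energy (fun r => s r - A * ww K0 r) x ≤
        -β * sameEnergy (fun r => um (Ah K0) (RR K0) (ell K0 e0) A U m * s r - A * wlo K0 m r)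
            (fun i => cell (ell K0 e0 m) τ (x i)) x
          + ((1 / 2) * β * A * GamL K0 e0 m) * Qv (ell K0 e0 m) τ x
          - ((1 / 2) * β * A * Rate.Gpp K0 e0 m) *
              (Qv (ell K0 e0 m) τ x - Qv (ell K0 e0 (m + 1)) τ x)
          + (β * A * (Mm m * Xi (Ah K0) (RR K0) (ell K0 e0) m)) * (N : ℝ) := by
  have hK1 : 1 ≤ K0 := by omega
  exact hLevel_generic (Ahat := Ah K0) (R := RR K0) (ell := ell K0 e0) s U A β hU hA' hβ hs hsU
    (fun j => (Ah_pos K0 j).le) (fun j => one_le_RR K0 j) (fun j => ell_pos K0 e0 j)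
    (fun m => ell_dvd_succ hK m) (fun r => summable_term hK1 r) (fun m => summable_Gpp hK m) hum J x

end Concrete

end Crest.Agent.TL.LevelWire
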