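import Crest.Agent.TL.AsmChain
import Crest.Agent.TL.Concentration
import Crest.Agent.TL.LevelWire
import Crest.Agent.TL.OSConcrete
import Crest.Agent.TL.TailWire

/-!
# S0209/S0210, wiring W7: the structure `Concentration.Conc` for the concrete potential

`Wire K0 e0 cr eE Kg S Cv` bundles the numerical hypotheses (budget `hmargin`, tail `hTail`, smallness
of `e₀`); `Wire.nc` and `Wire.u4c` are exactly the fields `nc` and `u4c` of `Inputs`.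
-/

set_option autoImplicit false
set_option linter.unusedSectionVars false
set_option linter.unusedVariables false

namespace Crest.Agent.TL.Asm

open Crest.ProbabilityR.Continuum Real Set Filter Topology
open Crest.Agent.TL.Gauss Crest.Agent.TL.Series Crest.Agent.TL.Potential
open Crest.Agent.TL.Num (A0 Ap Amax beta2 betaT g1 r2 Uof)
open Crest.Agent.TL.Cells (sameEnergy)
open Crest.Agent.TL.OSConcrete (oOS)
open Crest.Agent.TL.Concentration (Qv Conc)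

variable {K0 e0 : ℕ} {cr : ℝ → ℝ}

/-! ### The scales -/

lemma tendsto_ell (hK : 1 ≤ K0) (e0 : ℕ) : Tendsto (fun m => (ell K0 e0 m : ℝ)) atTop atTop := by
  have h1 : ∀ m : ℕ, ((m : ℝ) - e0) ≤ (ell K0 e0 m : ℝ) := by
    intro m
    have h2 : m + 1 ≤ 2 ^ m := Nat.lt_two_pow_self
    have h3 : m ≤ 31 * aa K0 m - m := by
      unfold aa
      have h4 : 2 ^ m ≤ K0 * 2 ^ m := Nat.le_mul_of_pos_left _ (by omega)
      omega
    have h5 : m - e0 ≤ 31 * aa K0 m - m - e0 := by omega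
    have h6 : m - e0 < 2 ^ (m - e0) := Nat.lt_two_pow_self
    have h7 : 2 ^ (m - e0) ≤ ell K0 e0 m := by
      unfold ell
      exact Nat.pow_le_pow_right (by norm_num) h5
    have h8 : m - e0 ≤ ell K0 e0 m := by omega
    have h9 : (m : ℝ) ≤ (ell K0 e0 m : ℝ) + e0 := by
      have : m ≤ ell K0 e0 m + e0 := by omega
      exact_mod_cast this
    linarith
  refine tendsto_atTop_mono h1 ?_
  exact tendsto_atTop_add_const_right _ _ tendsto_natCast_atTop_atTop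

lemma lam_pos (K0 e0 m : ℕ) : 0 < Rate.lam K0 e0 m := by
  unfold Rate.lam
  have := Rate.ell_pos' K0 e0 m
  positivity

lemma lam3_tendsto (hK : 1 ≤ K0) (e0 : ℕ) :
    Tendsto (fun m => Rate.lam K0 e0 m ^ 3) atTop (𝓝 1) := by
  have h1 : Tendsto (fun m => 1 - 6 / (ell K0 e0 m : ℝ)) atTop (𝓝 (1 - 0)) :=
    tendsto_const_nhds.sub (tendsto_const_nhds.div_atTop (tendsto_ell hK e0))
  rw [sub_zero] at h1
  refine tendsto_of_tendsto_of_tendsto_of_le_of_le h1 tendsto_const_nhds (fun m => ?_) (fun m => ?_)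
  · have := Rate.lam_bound (K0 := K0) (e0 := e0) m
    simp only
    linarith
  · exact pow_le_one₀ (lam_pos K0 e0 m).le (Rate.lam_le_one m)

/-! ### The potentials of the levels -/

/-- `u_m`. -/
noncomputable def uu (K0 e0 : ℕ) (A : ℝ) (m : ℕ) : ℝ := Level.um (Ah K0) (RR K0) (ell K0 e0) A Us m

/-- `ψ_m = u_m s - A w_{<m}`. -/
noncomputable def psiM (K0 e0 : ℕ) (cr : ℝ → ℝ) (A : ℝ) (m : ℕ) (r : ℝ) : ℝ :=
  uu K0 e0 A m * ss cr r - A * wlo K0 m r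

lemma uu_zero (K0 e0 : ℕ) (A : ℝ) : uu K0 e0 A 0 = 1 := by
  simp [uu, Level.um, Level.Xi]

lemma psiM_zero (K0 e0 : ℕ) (cr : ℝ → ℝ) (A : ℝ) : psiM K0 e0 cr A 0 = ss cr := by
  funext r
  simp [psiM, uu_zero, wlo]

lemma stable_trunc (hc : CoreOK cr) (hK : 1 ≤ K0) {A v : ℝ} (hA : 0 ≤ A) (hA' : A ≤ Amax)
    (hv : 1 / 2 ≤ v) (hv1 : v ≤ 1) (m : ℕ) {N : ℕ} (x : Fin N → Pt) :
    -(U₂ / 2) * N ≤ energy (fun r => v * ss cr r - A * wlo K0 m r) x := by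
  have h1 : energy (wlo K0 m) x ≤ energy (ww K0) x := by
    refine energy_mono (fun r => ?_) x
    rw [ww_eq_add hK m r]
    linarith [whi_nonneg K0 m r]
  have h2 := stable_u hc hK hA hA' hv hv1 x h1
  have e : energy (fun r => v * ss cr r - A * wlo K0 m r) x =
      v * energy (ss cr) x - A * energy (wlo K0 m) x := by
    rw [energy_sub, energy_const_mul, energy_const_mul]
  rw [e]
  exact h2

lemma measurable_psi (hc : CoreOK cr) (v A : ℝ) (m : ℕ) :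
    Measurable (fun r => v * ss cr r - A * wlo K0 m r) :=
  ((ss_meas hc).const_mul v).sub ((continuous_wlo K0 m).measurable.const_mul A)

/-- The numerical budget at level `m`. -/
noncomputable def mLHS (K0 e0 : ℕ) (C10 β A c ρ₀ : ℝ) (m : ℕ) : ℝ :=
  oOS K0 e0 A β ρmax C10 (uu K0 e0 A m) m +
    Real.log (ρmax * (ell K0 e0 m : ℝ) ^ 3 + 3) / (ell K0 e0 m : ℝ) ^ 3 +
    c - c / Rate.lam K0 e0 m ^ 3 +
    (β * A * (Level.Mm m * Level.Xi (Ah K0) (RR K0) (ell K0 e0) m)) * ρ₀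

/-- The wiring hypotheses. `Kg`, `S`: crude bound on the short range part for `r ≥ 1/(2 Kg)`;
`Cv`: the constant of `v m = Cv * eps e0 m`. -/
structure Wire (K0 e0 : ℕ) (cr : ℝ → ℝ) (eE : ℝ) (Kg : ℕ) (S Cv : ℝ) : Prop where
  hK : e0 + 1 ≤ K0
  hc : CoreOK cr
  hKg : 0 < Kg
  hS : 0 ≤ S
  hsS : ∀ r, 1 / (2 * (Kg : ℝ)) ≤ r → ss cr r ≤ S
  hρK : ρmax ≤ (Kg : ℝ) ^ 3
  hum : ∀ A, A0 ≤ A → A ≤ Ap → (4 * A / Us) * 2 ^ (2 * e0 + 16) ≤ 2 ^ K0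
  hCv : 0 ≤ Cv
  hV : Cv * (2 / 2 ^ e0) ≤ g1 ^ 2 / 32
  hV' : Cv * (2 / 2 ^ e0) < eE
  hmargin : ∀ β A c ρ₀, 1 ≤ β → β ≤ beta2 → A0 ≤ A → A ≤ Ap → -cbar ≤ c → c ≤ 0 → 0 < ρ₀ →
    ρ₀ ≤ ρmax → ∀ m, mLHS K0 e0 (Crude.C10 ρmax beta2 (U₂ / 2) S Kg) β A c ρ₀ m <
      ((1 / 2) * β * A * Rate.Gpp K0 e0 m) * (Cv * eps e0 m)
  hmarginlim : ∀ β A c ρ₀, 1 ≤ β → β ≤ beta2 → A0 ≤ A → A ≤ Ap → -cbar ≤ c → c ≤ 0 → 0 < ρ₀ →
    ρ₀ ≤ ρmax → Tendsto (mLHS K0 e0 (Crude.C10 ρmax beta2 (U₂ / 2) S Kg) β A c ρ₀) atTop (𝓝 0)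
  hm0 : ∀ β A c ρ₀, 1 ≤ β → β ≤ beta2 → A0 ≤ A → A ≤ Ap → -cbar ≤ c → c ≤ 0 → 0 < ρ₀ →
    ρ₀ ≤ ρmax → mLHS K0 e0 (Crude.C10 ρmax beta2 (U₂ / 2) S Kg) β A c ρ₀ 0 < g1 / 8
  hTail : ∀ β A μ c, 1 ≤ β → β ≤ beta2 → A0 ≤ A → A ≤ Ap → |μ| ≤ Mμ → -cbar ≤ c → c ≤ 0 →
    ∀ (m j : ℕ), ρmax * (ell K0 e0 m : ℝ) ^ 3 < j →
      ((1 / 2) * β * A * Rate.GamL K0 e0 m + β * Ap / 16) * ((j : ℝ) ^ 2 / (ell K0 e0 m : ℝ) ^ 3) +
        μ * j + c / Rate.lam K0 e0 m ^ 3 * (ell K0 e0 m : ℝ) ^ 3 +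
        Real.log (partitionFn (psiM K0 e0 cr A m) (ell K0 e0 m : ℝ) j β) ≤ -(j : ℝ)

section wire

variable {eE : ℝ} {Kg : ℕ} {S Cv : ℝ} (W : Wire K0 e0 cr eE Kg S Cv)
include W

lemma Wire.hK1 : 1 ≤ K0 := by have := W.hK; omega

lemma Wire.um_mem {A : ℝ} (h1 : A0 ≤ A) (h2 : A ≤ Ap) (m : ℕ) :
    1 / 2 ≤ uu K0 e0 A m ∧ uu K0 e0 A m ≤ 1 :=
  OSConcrete.um_mem W.hK (A0_pos.le.trans h1) Us_pos (W.hum A h1 h2) m

lemma Wire.C10_nonneg : 0 ≤ Crude.C10 ρmax beta2 (U₂ / 2) S Kg := by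
  unfold Crude.C10
  have h1 : 0 ≤ ρmax := (Real.exp_pos _).le
  have h2 : (0:ℝ) ≤ beta2 := by unfold beta2; positivity
  have h3 := U₂_pos
  have h4 := W.hS
  have h5 : 0 ≤ Real.log (2 * (Kg : ℝ)) := by
    refine Real.log_nonneg ?_
    have : (1 : ℝ) ≤ Kg := by exact_mod_cast W.hKg
    linarith
  positivity

lemma Wire.oOS_nonneg {β A : ℝ} (hβ : 0 ≤ β) (h1 : A0 ≤ A) (h2 : A ≤ Ap) (m : ℕ) :
    0 ≤ oOS K0 e0 A β ρmax (Crude.C10 ρmax beta2 (U₂ / 2) S Kg) (uu K0 e0 A m) m := by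
  have hA : 0 ≤ A := A0_pos.le.trans h1
  have hρ : 0 ≤ ρmax := (Real.exp_pos _).le
  have h3 : 0 ≤ Gam K0 m := tsum_nonneg fun j => (Ah_pos K0 _).le
  have h4 := Rate.Gam_le_GamL W.hK m
  have h5 : Rate.lam K0 e0 m ^ 3 ≤ 1 := pow_le_one₀ (lam_pos K0 e0 m).le (Rate.lam_le_one m)
  have h6 : 0 ≤ Rate.GamL K0 e0 m - Rate.lam K0 e0 m ^ 3 * Gam K0 m := by nlinarith
  have h7 := whi_nonneg K0 m 0
  have h8 := (W.um_mem h1 h2 m).2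
  have h9 := W.C10_nonneg
  have h10 : 0 ≤ 1 - uu K0 e0 A m := by linarith
  unfold oOS
  positivity

/-- The concrete instance of `Conc`. -/
noncomputable def Wire.conc {β A μ c ρ₀ : ℝ} (h1 : 1 ≤ β) (h2 : β ≤ beta2) (h3 : A0 ≤ A) (h4 : A ≤ Ap)
    (hC : Contact K0 cr β A μ c ρ₀) (hg : g1 ≤ ρ₀) (hρ : ρ₀ + g1 ≤ ρmax) (hμ : |μ| ≤ Mμ)
    (hc1 : -cbar ≤ c) (hc2 : c ≤ 0) : Conc where
  φ := phiA K0 cr A
  hφ := (adm_phiA W.hc W.hK1 (A0_pos.le.trans h3) (h4.trans Ap_lt_Amax.le)).meas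
  Bφ := U₂ / 2
  hstφ := (adm_phiA W.hc W.hK1 (A0_pos.le.trans h3) (h4.trans Ap_lt_Amax.le)).stable
  β := β
  hβ := by linarith
  F := FF K0 cr β A
  hF := (Thermo.hFree_concave (adm_phiA W.hc W.hK1 (A0_pos.le.trans h3) (h4.trans Ap_lt_Amax.le))
    (by linarith)).neg
  hF0 := by simp [FF, Thermo.hFree, Thermo.hLim]
  ρ₀ := ρ₀
  μ := μ
  c := c
  hρ₀ := g1_pos.trans_le hg
  hc := hc2
  hsupp := by
    intro σ hσ
    rcases hσ.eq_or_lt with rfl | hσ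
    · simpa [FF, Thermo.hFree, Thermo.hLim] using hc2
    · exact hC.supp σ hσ
  htouch := hC.touch
  hright := hC.right
  hZ := by
    have := Thermo.tendsto_logZ (adm_phiA W.hc W.hK1 (A0_pos.le.trans h3) (h4.trans Ap_lt_Amax.le))
      (by linarith : (0:ℝ) ≤ β) (g1_pos.trans_le hg)
    simpa [FF] using this
  ℓ := fun m => (ell K0 e0 m : ℝ)
  hℓ := fun m => Rate.ell_pos' K0 e0 m
  hdiv := by
    intro m
    obtain ⟨k, hk⟩ := ell_dvd_succ W.hK m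
    refine ⟨k, Nat.pos_of_ne_zero ?_, ?_⟩
    · rintro rfl
      have := ell_pos K0 e0 (m + 1)
      omega
    · rw [hk]; push_cast; ring
  ψ := psiM K0 e0 cr A
  hψ := fun m => measurable_psi W.hc _ A m
  Bψ := fun _ => U₂ / 2
  hstψ := fun m k y => stable_trunc W.hc W.hK1 (A0_pos.le.trans h3) (h4.trans Ap_lt_Amax.le)
    (W.um_mem h3 h4 m).1 (W.um_mem h3 h4 m).2 m y
  a := fun m => (1 / 2) * β * A * Rate.GamL K0 e0 m
  κ := fun m => (1 / 2) * β * A * Rate.Gpp K0 e0 m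
  hκ := by
    intro m
    have hA : 0 ≤ A := A0_pos.le.trans h3
    have hβ : 0 ≤ β := by linarith
    have h5 := (Ah_pos K0 (m + 1)).le.trans (Rate.Ah_le_Gpp W.hK m)
    positivity
  ξ := fun m => β * A * (Level.Mm m * Level.Xi (Ah K0) (RR K0) (ell K0 e0) m)
  lam3 := fun m => Rate.lam K0 e0 m ^ 3
  hlam3pos := fun m => pow_pos (lam_pos K0 e0 m) 3
  hlam3le := fun m => pow_le_one₀ (lam_pos K0 e0 m).le (Rate.lam_le_one m)
  hlam3lim := lam3_tendsto W.hK1 e0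
  o := fun m => oOS K0 e0 A β ρmax (Crude.C10 ρmax beta2 (U₂ / 2) S Kg) (uu K0 e0 A m) m
  ho := fun m => W.oOS_nonneg (by linarith) h3 h4 m
  ρm := ρmax
  hρm := by linarith [g1_pos]
  χ := β * Ap / 16
  hχ := by have := Ap_pos; have : 0 < β := by linarith
           positivity
  hOS := by
    intro m j hj hjm
    have h := OSConcrete.hOS_of W.hK (ss_meas W.hc) (ss_nonneg W.hc) (fun r hr => ss_tail W.hc hr)
      W.hKg W.hS W.hsS (A := A) (β := β) (βm := beta2) (B := U₂ / 2) (B' := U₂ / 2) (ρ := ρmax)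
      (u := uu K0 e0 A m) (A0_pos.le.trans h3) (by linarith) h2 (by have := U₂_pos; positivity)
      (Real.exp_pos _).le W.hρK m
      (fun v hv hv1 N x => stable_trunc W.hc W.hK1 (A0_pos.le.trans h3) (h4.trans Ap_lt_Amax.le)
        hv hv1 m x)
      (adm_phiA W.hc W.hK1 (A0_pos.le.trans h3) (h4.trans Ap_lt_Amax.le)).stable
      (W.um_mem h3 h4 m).1 (W.um_mem h3 h4 m).2 hj hjm
    simp only [FF, neg_neg]
    exact h
  hTail := W.hTail β A μ c h1 h2 h3 h4 hμ hc1 hc2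
  shifts := LevelWire.shifts (ell K0 e0)
  hLevel := by
    intro J M x hx
    exact LevelWire.hLevel_concrete W.hK (ss cr) Us A β Us_pos (A0_pos.le.trans h3) (by linarith)
      (ss_nonneg W.hc) (fun r hr0 hr1 => ss_ge_U W.hc hr1.le)
      (fun m => by
        have := (W.um_mem h3 h4 m).1
        unfold uu at this
        linarith) J x
  v := fun m => Cv * eps e0 m
  V₀ := Cv * (2 / 2 ^ e0)
  hV₀ := by
    intro J
    rw [← Finset.mul_sum]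
    exact mul_le_mul_of_nonneg_left (Rate.sum_eps_le e0 J) W.hCv
  hmargin := W.hmargin β A c ρ₀ h1 h2 h3 h4 hc1 hc2 (g1_pos.trans_le hg)
    (by linarith [g1_pos])
  hmarginlim := W.hmarginlim β A c ρ₀ h1 h2 h3 h4 hc1 hc2 (g1_pos.trans_le hg)
    (by linarith [g1_pos])

/-- **`Inputs.nc`.** -/
theorem Wire.nc : ∀ β A μ c ρ₀ b, 1 ≤ β → β ≤ beta2 → A0 ≤ A → A ≤ Ap → Contact K0 cr β A μ c ρ₀ →
    g1 ≤ ρ₀ → ρ₀ + g1 ≤ ρmax → |μ| ≤ Mμ → -cbar ≤ c → c ≤ 0 → g1 / 2 ≤ b →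
    (∀ k : ℕ, |sg0 K0 e0 k - ρ₀| < g1 / 2 →
      Lev0 K0 e0 cr β A k ≤ ℓ0 K0 e0 ^ 3 * (-(μ * sg0 K0 e0 k + c) - b)) → False := by
  intro β A μ c ρ₀ b h1 h2 h3 h4 hC hg hρ hμ hc1 hc2 hb hnear
  have hg1 := g1_pos
  set Sc := W.conc h1 h2 h3 h4 hC hg hρ hμ hc1 hc2 with hSc
  refine Sc.no_contact (ε₀ := g1 / 2) (b := b) (by positivity) (by linarith)
    (by show ρ₀ + g1 / 2 ≤ ρmax; linarith) ?_ ?_ ?_
  · show Cv * (2 / 2 ^ e0) ≤ (g1 / 2) ^ 2 / 8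
    have := W.hV
    nlinarith
  · intro j hj
    have h := hnear j hj
    show (1 / 2) * β * A * Rate.GamL K0 e0 0 * ((j : ℝ) ^ 2 / (ell K0 e0 0 : ℝ) ^ 3) +
      Real.log (partitionFn (psiM K0 e0 cr A 0) (ell K0 e0 0 : ℝ) j β) ≤ _
    rw [psiM_zero]
    exact h
  · have h5 := W.hm0 β A c ρ₀ h1 h2 h3 h4 hc1 hc2 (hg1.trans_le hg) (by linarith)
    have h6 : Sc.Om 0 = mLHS K0 e0 (Crude.C10 ρmax beta2 (U₂ / 2) S Kg) β A c ρ₀ 0 := rfl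
    rw [h6]
    linarith

/-- **`Inputs.u4c`.** -/
theorem Wire.u4c : ∀ β A₁ A₂ μ c ρ₀, 1 ≤ β → β ≤ beta2 → A0 ≤ A₁ → A₁ < A₂ → A₂ ≤ Ap →
    Contact K0 cr β A₂ μ c ρ₀ → g1 ≤ ρ₀ → ρ₀ + g1 ≤ ρmax → |μ| ≤ Mμ → -cbar ≤ c → c ≤ 0 →
    FF K0 cr β A₁ ρ₀ ≤ FF K0 cr β A₂ ρ₀ +
      (1 / 2) * β * (A₂ - A₁) * (Rate.GamHat K0 e0 * (ρ₀ ^ 2 + eE)) := by
  intro β A₁ A₂ μ c ρ₀ h1 h2 h3 h4 h5 hC hg hρ hμ hc1 hc2
  have hg1 := g1_pos
  have hρ₀ : 0 < ρ₀ := hg1.trans_le hg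
  have hβ0 : 0 ≤ β := by linarith
  have hA10 : 0 ≤ A₁ := A0_pos.le.trans h3
  have hA1m : A₁ ≤ Amax := (h4.le.trans h5).trans Ap_lt_Amax.le
  have hA20 : 0 ≤ A₂ := hA10.trans h4.le
  have hA2m : A₂ ≤ Amax := h5.trans Ap_lt_Amax.le
  set Sc := W.conc (by linarith) h2 (h3.trans h4.le) h5 hC hg hρ hμ hc1 hc2 with hSc
  have hVeq : Sc.V₀ = Cv * (2 / 2 ^ e0) := rfl
  have hV' := W.hV'
  set ζ := (eE - Cv * (2 / 2 ^ e0)) / 2 with hζdef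
  have hζ : 0 < ζ := by rw [hζdef]; linarith
  have hser : U4.Series (Ah K0) (RR K0) 1 :=
    ⟨one_pos, fun j => (Ah_pos K0 j).le, summable_Ah W.hK1, fun j => one_le_RR K0 j⟩
  have hu4 := U4.u4b hser (s := ss cr) (ss_meas W.hc) (A1 := A₁) (A2 := A₂) (β := β) (ρ := ρ₀)
    (e := Sc.V₀ + ζ) (h := (ell K0 e0 0 : ℝ)) (B := U₂ / 2)
    (H1 := Thermo.hFree (phiA K0 cr A₁) β ρ₀) (H2 := Thermo.hFree (phiA K0 cr A₂) β ρ₀)
    h4.le hβ0 (Rate.ell_pos' K0 e0 0) (adm_phiA W.hc W.hK1 hA20 hA2m).stable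
    (Thermo.tendsto_logZ (adm_phiA W.hc W.hK1 hA10 hA1m) hβ0 hρ₀)
    (Thermo.tendsto_logZ (adm_phiA W.hc W.hK1 hA20 hA2m) hβ0 hρ₀)
    (Sc.hC hζ)
  have hΓ : 0 ≤ Rate.GamHat K0 e0 := tsum_nonneg fun j =>
    mul_nonneg (Ah_pos K0 j).le (by have := Rate.ell_pos' K0 e0 0; have := RR_pos K0 j; positivity)
  have hΓeq : U4.GamHat (Ah K0) (RR K0) (ell K0 e0 0 : ℝ) = Rate.GamHat K0 e0 := rfl
  rw [hΓeq] at hu4
  have he : Rate.GamHat K0 e0 * (ρ₀ ^ 2 + (Sc.V₀ + ζ)) ≤ Rate.GamHat K0 e0 * (ρ₀ ^ 2 + eE) := by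
    refine mul_le_mul_of_nonneg_left ?_ hΓ
    rw [hVeq, hζdef]
    linarith
  have hK' : 0 ≤ (1 / 2) * β * (A₂ - A₁) := by
    have : 0 ≤ A₂ - A₁ := by linarith
    positivity
  have := mul_le_mul_of_nonneg_left he hK'
  unfold FF
  linarith

end wire

/-- The field `hTail` of `Wire`. -/
theorem hTail_field (hK : e0 + 1 ≤ K0) (hc : CoreOK cr)
    (hum : ∀ A, A0 ≤ A → A ≤ Ap → (4 * A / Us) * 2 ^ (2 * e0 + 16) ≤ 2 ^ K0) :
    ∀ β A μ c, 1 ≤ β → β ≤ beta2 → A0 ≤ A → A ≤ Ap → |μ| ≤ Mμ → -cbar ≤ c → c ≤ 0 →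
    ∀ (m j : ℕ), ρmax * (ell K0 e0 m : ℝ) ^ 3 < j →
      ((1 / 2) * β * A * Rate.GamL K0 e0 m + β * Ap / 16) * ((j : ℝ) ^ 2 / (ell K0 e0 m : ℝ) ^ 3) +
        μ * j + c / Rate.lam K0 e0 m ^ 3 * (ell K0 e0 m : ℝ) ^ 3 +
        Real.log (partitionFn (psiM K0 e0 cr A m) (ell K0 e0 m : ℝ) j β) ≤ -(j : ℝ) := by
  intro β A μ c h1 h2 h3 h4 hμ hc1 hc2 m j hj
  have hum' := OSConcrete.um_mem hK (A0_pos.le.trans h3) Us_pos (hum A h3 h4) m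
  have hU := U₂_pos
  have hg := g1_pos
  have hMμ : 0 ≤ Mμ := by
    unfold Mμ Fm
    positivity
  have hb2 : (0:ℝ) < beta2 := by unfold beta2; positivity
  set x := Mμ + 4 + beta2 * (U₂ / 2) with hx
  have hx0 : 0 ≤ x := by positivity
  have hρ : ρmax = Real.exp x := rfl
  have hρ1 : 1 ≤ ρmax := by rw [hρ]; exact Real.one_le_exp hx0
  have hρ2 : x ≤ ρmax := by rw [hρ]; linarith [Real.add_one_le_exp x]
  have hβU : β * U₂ / 2 ≤ beta2 * (U₂ / 2) := by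
    have := mul_le_mul_of_nonneg_right h2 (show 0 ≤ U₂ / 2 by positivity)
    linarith
  have hAp : (16 : ℝ) ≤ Ap := by
    have h5 : A0 = (2:ℝ) ^ 50 := rfl
    have h6 : A0 < Ap := A0_lt_Ap
    rw [h5] at h6
    norm_num at h6
    linarith
  have hβAp : (16 : ℝ) ≤ β * Ap := by nlinarith
  have hbig : 16 * (|μ| + 2 + β * U₂ / 2) ≤ β * Ap * ρmax := by
    have h7 : |μ| + 2 + β * U₂ / 2 ≤ ρmax := by linarith
    have h8 : 0 ≤ ρmax := by linarith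
    nlinarith
  exact hTail_of hK hc hum'.1 hum'.2 (by linarith) (A0_pos.le.trans h3) h4 hc2
    (pow_pos (lam_pos K0 e0 m) 3) hρ1 hbig m j hj

end Crest.Agent.TL.Asm
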