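import Crest.Agent.TL.OneSided
import Crest.Agent.TL.Thermo

/-!
# Crude two-sided bounds for `log Z` on a cube at bounded density (`C10` of the blueprint, module OS)

`|log Z(u s - A wl, cube ℓ, n, β)| ≤ C10 ℓ³` for `n ≤ ρ ℓ³`:
* upper bound from stability (`Thermo.Adm.log_ZD_le`),
* lower bound from `u s - A wl ≤ s` and a trial in tiny boxes around a grid of mesh `1/K0`.
-/

set_option autoImplicit false

namespace Crest.Agent.TL.Crude

open Crest.ProbabilityR.Continuum MeasureTheory Filter Topology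
open Crest.Agent.TL.OneSided (abs_coord_le_dist energy_eq_pairSum pairSum_eq integral_tile_le
  integrableOn_boltzmann volume_dom_lt_top measurable_energy partitionFn_pos)

/-- The shift of the small cell `c`. -/
noncomputable def smallShift (K0 : ℕ) {K : ℕ} (c : Fin 3 → Fin K) : Pt :=
  WithLp.toLp 2 (fun k => -(((c k : ℕ) : ℝ) / K0))

/-- The small cell `c`: a translate of the cube of side `1/(2 K0)`. -/
def small (K0 : ℕ) {K : ℕ} (c : Fin 3 → Fin K) : Set Pt :=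
  (fun x : Pt => x + smallShift K0 c) ⁻¹' cube (1 / (2 * (K0 : ℝ)))

lemma mem_small {K0 K : ℕ} {c : Fin 3 → Fin K} {x : Pt} :
    x ∈ small K0 c ↔ ∀ k, ((c k : ℕ) : ℝ) / K0 ≤ x k ∧
      x k ≤ ((c k : ℕ) : ℝ) / K0 + 1 / (2 * (K0 : ℝ)) := by
  simp only [small, Set.mem_preimage, cube, Set.mem_ofPred_eq, smallShift]
  refine forall_congr' (fun k => ?_)
  simp only [PiLp.add_apply]
  constructor
  · rintro ⟨h1, h2⟩; constructor <;> linarith
  · rintro ⟨h1, h2⟩; constructor <;> linarith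

lemma measurableSet_small (K0 : ℕ) {K : ℕ} (c : Fin 3 → Fin K) : MeasurableSet (small K0 c) :=
  (measurable_add_const _) (OneSided.measurableSet_cube _)

lemma volume_small {K0 K : ℕ} (c : Fin 3 → Fin K) :
    volume (small K0 c) = ENNReal.ofReal (1 / (2 * (K0 : ℝ))) ^ 3 := by
  unfold small
  rw [(measurePreserving_add_right (volume : Measure Pt) (smallShift K0 c)).measure_preimage
    (OneSided.measurableSet_cube _).nullMeasurableSet, Thermo.volume_cube]

lemma small_subset_cube {K0 ell : ℕ} (hK0 : 0 < K0) (c : Fin 3 → Fin (K0 * ell)) :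
    small K0 c ⊆ cube (ell : ℝ) := by
  intro x hx k
  obtain ⟨h1, h2⟩ := mem_small.1 hx k
  have hK : (0 : ℝ) < K0 := by exact_mod_cast hK0
  have hc : ((c k : ℕ) : ℝ) + 1 ≤ (K0 : ℝ) * ell := by exact_mod_cast (c k).2
  have hc0 : (0 : ℝ) ≤ ((c k : ℕ) : ℝ) / K0 := by positivity
  constructor
  · linarith
  · have h3 : ((c k : ℕ) : ℝ) / K0 + 1 / (K0 : ℝ) ≤ ell := by
      rw [← add_div, div_le_iff₀ hK]; linarith
    have h4 : 1 / (2 * (K0 : ℝ)) ≤ 1 / (K0 : ℝ) := by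
      rw [div_le_div_iff₀ (by positivity) hK]; linarith
    linarith

lemma coord_sep {K0 K : ℕ} (hK0 : 0 < K0) {c c' : Fin 3 → Fin K} {x y : Pt}
    (hx : x ∈ small K0 c) (hy : y ∈ small K0 c') (k : Fin 3) (hk : c k ≠ c' k) :
    1 / (2 * (K0 : ℝ)) ≤ |x k - y k| := by
  have hK : (0 : ℝ) < K0 := by exact_mod_cast hK0
  obtain ⟨hx1, hx2⟩ := mem_small.1 hx k
  obtain ⟨hy1, hy2⟩ := mem_small.1 hy k
  have hhalf : 1 / (K0 : ℝ) = 2 * (1 / (2 * (K0 : ℝ))) := by field_simp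
  rcases lt_or_gt_of_ne (fun h => hk (Fin.ext h) : ((c k : ℕ)) ≠ (c' k : ℕ)) with h | h
  · have h' : ((c k : ℕ) : ℝ) + 1 ≤ ((c' k : ℕ) : ℝ) := by exact_mod_cast h
    have : ((c k : ℕ) : ℝ) / K0 + 1 / (K0 : ℝ) ≤ ((c' k : ℕ) : ℝ) / K0 := by
      rw [← add_div]; exact div_le_div_of_nonneg_right h' hK.le
    have h3 := neg_abs_le (x k - y k)
    linarith
  · have h' : ((c' k : ℕ) : ℝ) + 1 ≤ ((c k : ℕ) : ℝ) := by exact_mod_cast h
    have : ((c' k : ℕ) : ℝ) / K0 + 1 / (K0 : ℝ) ≤ ((c k : ℕ) : ℝ) / K0 := by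
      rw [← add_div]; exact div_le_div_of_nonneg_right h' hK.le
    have h4 := le_abs_self (x k - y k)
    linarith

lemma dist_small_ge {K0 K : ℕ} (hK0 : 0 < K0) {c c' : Fin 3 → Fin K} (hcc : c ≠ c') {x y : Pt}
    (hx : x ∈ small K0 c) (hy : y ∈ small K0 c') : 1 / (2 * (K0 : ℝ)) ≤ dist x y := by
  obtain ⟨k, hk⟩ := Function.ne_iff.1 hcc
  exact (coord_sep hK0 hx hy k hk).trans (abs_coord_le_dist x y k)

lemma small_disjoint {K0 K : ℕ} (hK0 : 0 < K0) :
    Pairwise (Function.onFun Disjoint (fun c : Fin 3 → Fin K => small K0 c)) := by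
  intro c c' hcc
  refine Set.disjoint_left.2 (fun x hx hx' => ?_)
  have hK : (0 : ℝ) < K0 := by exact_mod_cast hK0
  have := dist_small_ge hK0 hcc hx hx'
  rw [dist_self] at this
  have h2 : (0 : ℝ) < 1 / (2 * (K0 : ℝ)) := by positivity
  linarith

/-- If two points of small cells are at distance `< 2` the cell coordinates differ by at most `2 K0`. -/
lemma coord_close {K0 K : ℕ} (hK0 : 0 < K0) {c c' : Fin 3 → Fin K} {x y : Pt}
    (hx : x ∈ small K0 c) (hy : y ∈ small K0 c') (hd : dist x y < 2) (k : Fin 3) :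
    |((c k : ℕ) : ℤ) - ((c' k : ℕ) : ℤ)| ≤ 2 * (K0 : ℤ) := by
  have hK : (0 : ℝ) < K0 := by exact_mod_cast hK0
  obtain ⟨hx1, hx2⟩ := mem_small.1 hx k
  obtain ⟨hy1, hy2⟩ := mem_small.1 hy k
  have hle := (abs_coord_le_dist x y k).trans_lt hd
  have habs := abs_lt.1 hle
  have hhalf : (1 / (2 * (K0 : ℝ))) * K0 = 1 / 2 := by field_simp
  have e1 : ((c k : ℕ) : ℝ) = ((c k : ℕ) : ℝ) / K0 * K0 := by field_simp
  have e2 : ((c' k : ℕ) : ℝ) = ((c' k : ℕ) : ℝ) / K0 * K0 := by field_simp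
  have h1 : ((c k : ℕ) : ℝ) - ((c' k : ℕ) : ℝ) < 2 * K0 + 1 / 2 := by
    rw [e1, e2]; nlinarith
  have h2 : ((c' k : ℕ) : ℝ) - ((c k : ℕ) : ℝ) < 2 * K0 + 1 / 2 := by
    rw [e1, e2]; nlinarith
  rw [abs_le]
  constructor
  · have : ((c' k : ℕ) : ℤ) - ((c k : ℕ) : ℤ) < 2 * (K0 : ℤ) + 1 := by
      have h3 : (((c' k : ℕ) : ℤ) - ((c k : ℕ) : ℤ) : ℝ) < (2 * (K0 : ℤ) + 1 : ℤ) := by
        push_cast; linarith
      exact_mod_cast h3
    omega
  · have : ((c k : ℕ) : ℤ) - ((c' k : ℕ) : ℤ) < 2 * (K0 : ℤ) + 1 := by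
      have h3 : (((c k : ℕ) : ℤ) - ((c' k : ℕ) : ℤ) : ℝ) < (2 * (K0 : ℤ) + 1 : ℤ) := by
        push_cast; linarith
      exact_mod_cast h3
    omega

/-- A cell has at most `(4 K0 + 1)³` neighbour cells. -/
lemma card_close_le {K0 K : ℕ} (c0 : Fin 3 → Fin K) :
    (Finset.univ.filter (fun c : Fin 3 → Fin K =>
      ∀ k, |((c k : ℕ) : ℤ) - ((c0 k : ℕ) : ℤ)| ≤ 2 * (K0 : ℤ))).card ≤ (4 * K0 + 1) ^ 3 := by
  classical
  have hsub : (Finset.univ.filter (fun c : Fin 3 → Fin K =>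
      ∀ k, |((c k : ℕ) : ℤ) - ((c0 k : ℕ) : ℤ)| ≤ 2 * (K0 : ℤ)))
      ⊆ Fintype.piFinset (fun k => Finset.univ.filter (fun i : Fin K =>
        |((i : ℕ) : ℤ) - ((c0 k : ℕ) : ℤ)| ≤ 2 * (K0 : ℤ))) := by
    intro c hc
    simp only [Finset.mem_filter, Finset.mem_univ, true_and] at hc
    simp only [Fintype.mem_piFinset, Finset.mem_filter, Finset.mem_univ, true_and]
    exact hc
  refine (Finset.card_le_card hsub).trans ?_
  rw [Fintype.card_piFinset]
  have h1 : ∀ k : Fin 3, (Finset.univ.filter (fun i : Fin K =>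
      |((i : ℕ) : ℤ) - ((c0 k : ℕ) : ℤ)| ≤ 2 * (K0 : ℤ))).card ≤ 4 * K0 + 1 := by
    intro k
    have hinj : Set.InjOn (fun i : Fin K => ((i : ℕ) : ℤ))
        (Finset.univ.filter (fun i : Fin K =>
          |((i : ℕ) : ℤ) - ((c0 k : ℕ) : ℤ)| ≤ 2 * (K0 : ℤ)) : Finset (Fin K)) := by
      intro a _ b _ hab
      have hab' : ((a : ℕ) : ℤ) = ((b : ℕ) : ℤ) := hab
      exact Fin.ext (by exact_mod_cast hab')
    have hmaps : ∀ i ∈ (Finset.univ.filter (fun i : Fin K =>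
          |((i : ℕ) : ℤ) - ((c0 k : ℕ) : ℤ)| ≤ 2 * (K0 : ℤ))),
        ((i : ℕ) : ℤ) ∈ Finset.Icc (((c0 k : ℕ) : ℤ) - 2 * K0) (((c0 k : ℕ) : ℤ) + 2 * K0) := by
      intro i hi
      have := (Finset.mem_filter.1 hi).2
      rw [abs_le] at this
      rw [Finset.mem_Icc]
      constructor <;> linarith [this.1, this.2]
    have := Finset.card_le_card_of_injOn _ hmaps hinj
    rw [Int.card_Icc] at this
    have h2 : (((c0 k : ℕ) : ℤ) + 2 * K0 + 1 - (((c0 k : ℕ) : ℤ) - 2 * K0)).toNat = 4 * K0 + 1 := by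
      have : ((c0 k : ℕ) : ℤ) + 2 * K0 + 1 - (((c0 k : ℕ) : ℤ) - 2 * K0) = ((4 * K0 + 1 : ℕ) : ℤ) := by
        push_cast; ring
      rw [this, Int.toNat_natCast]
    omega
  calc ∏ k : Fin 3, _ ≤ ∏ _k : Fin 3, (4 * K0 + 1) := Finset.prod_le_prod' (fun k _ => h1 k)
    _ = (4 * K0 + 1) ^ 3 := by simp

/-- The energy on the trial set. -/
lemma energy_trial_le {K0 K n : ℕ} (hK0 : 0 < K0) {s : ℝ → ℝ} {S : ℝ} (hS : 0 ≤ S)
    (hsS : ∀ r, 1 / (2 * (K0 : ℝ)) ≤ r → s r ≤ S) (hs2 : ∀ r, 2 ≤ r → s r ≤ 0)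
    (a0 : Fin n → (Fin 3 → Fin K)) (ha0 : Function.Injective a0) (x : Fin n → Pt)
    (hx : ∀ i, x i ∈ small K0 (a0 i)) :
    energy s x ≤ (1 / 2) * ((n : ℝ) * (((4 * K0 + 1) ^ 3 : ℕ) * S)) := by
  classical
  rw [energy_eq_pairSum, pairSum_eq]
  refine mul_le_mul_of_nonneg_left ?_ (by norm_num)
  have hrow : ∀ a : Fin n, ∑ b, (if a = b then 0 else s (dist (x a) (x b)))
      ≤ ((4 * K0 + 1) ^ 3 : ℕ) * S := by
    intro a
    have h1 : ∀ b, (if a = b then 0 else s (dist (x a) (x b)))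
        ≤ if (∀ k, |((a0 b k : ℕ) : ℤ) - ((a0 a k : ℕ) : ℤ)| ≤ 2 * (K0 : ℤ)) then S else 0 := by
      intro b
      by_cases hab : a = b
      · subst hab
        simp only [if_true]
        split_ifs <;> simp [hS]
      · rw [if_neg hab]
        have hne : a0 a ≠ a0 b := fun h => hab (ha0 h)
        have hsep := dist_small_ge hK0 hne (hx a) (hx b)
        by_cases hd : dist (x a) (x b) < 2
        · rw [if_pos]
          · exact hsS _ hsep
          · intro k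
            have := coord_close hK0 (hx b) (hx a) (by rwa [dist_comm]) k
            exact this
        · have h0 := hs2 _ (not_lt.1 hd)
          split_ifs
          · linarith
          · exact h0
    refine (Finset.sum_le_sum (fun b _ => h1 b)).trans ?_
    rw [← Finset.sum_filter, Finset.sum_const, nsmul_eq_mul]
    refine mul_le_mul_of_nonneg_right ?_ hS
    have hcard : (Finset.univ.filter (fun b : Fin n =>
        ∀ k, |((a0 b k : ℕ) : ℤ) - ((a0 a k : ℕ) : ℤ)| ≤ 2 * (K0 : ℤ))).card ≤ (4 * K0 + 1) ^ 3 := by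
      refine le_trans ?_ (card_close_le (K0 := K0) (a0 a))
      refine Finset.card_le_card_of_injOn a0 ?_ ha0.injOn
      intro b hb
      have := (Finset.mem_filter.1 hb).2
      exact Finset.mem_filter.2 ⟨Finset.mem_univ _, this⟩
    exact_mod_cast hcard
  calc ∑ a, ∑ b, (if a = b then 0 else s (dist (x a) (x b)))
      ≤ ∑ _a : Fin n, (((4 * K0 + 1) ^ 3 : ℕ) * S) := Finset.sum_le_sum (fun a _ => hrow a)
    _ = (n : ℝ) * (((4 * K0 + 1) ^ 3 : ℕ) * S) := by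
      rw [Finset.sum_const, Finset.card_univ, Fintype.card_fin, nsmul_eq_mul]

/-- **Crude lower bound** for a nonnegative short range potential, at density `≤ K0³`. -/
theorem crude_lower {s : ℝ → ℝ} (hs : Measurable s) (hs0 : ∀ r, 0 ≤ s r) {K0 ell n : ℕ}
    (hK0 : 0 < K0) (hell : 0 < ell) {S β : ℝ} (hS : 0 ≤ S) (hβ : 0 ≤ β)
    (hsS : ∀ r, 1 / (2 * (K0 : ℝ)) ≤ r → s r ≤ S) (hs2 : ∀ r, 2 ≤ r → s r ≤ 0)
    (hn : n ≤ (K0 * ell) ^ 3) :
    -((n : ℝ) * (3 * Real.log (2 * (K0 : ℝ)) + (β / 2) * (((4 * K0 + 1) ^ 3 : ℕ) * S)))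
      ≤ Real.log (partitionFn s ell n β) := by
  classical
  have hKR : (0 : ℝ) < K0 := by exact_mod_cast hK0
  have hellR : (0 : ℝ) < ell := by exact_mod_cast hell
  let Q := Fin 3 → Fin (K0 * ell)
  have hcardQ : Fintype.card (Fin n) ≤ Fintype.card Q := by
    simp only [Fintype.card_fin, Q, Fintype.card_fun, Fintype.card_fin]
    exact hn
  obtain ⟨a0⟩ := Function.Embedding.nonempty_of_card_le hcardQ
  have ha0 : Function.Injective a0 := a0.injective
  let Sm : Q → Set Pt := fun c => small K0 c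
  let F : (Fin n → Pt) → ℝ := fun x => Real.exp (-β * energy s x)
  have hB : ∀ x : Fin n → Pt, (0 : ℝ) ≤ energy s x := fun x => Finset.sum_nonneg (fun _ _ => hs0 _)
  have hF0 : ∀ x, 0 ≤ F x := fun _ => (Real.exp_pos _).le
  have hFsymm : ∀ (σ : Equiv.Perm (Fin n)) x, F (x ∘ σ) = F x := by
    intro σ x
    simp only [F, OneSided.energy_comp_perm]
  have hFint : IntegrableOn F (Set.pi Set.univ (fun _ => cube (ell : ℝ))) :=
    integrableOn_boltzmann hs hβ n hB (volume_dom_lt_top _ n)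
  have hc1 := integral_tile_le (fun i => a0 i) Sm (cube (ell : ℝ)) (fun c => measurableSet_small K0 c)
    (OneSided.measurableSet_cube _) (fun c => small_subset_cube hK0 c) (small_disjoint hK0) F hF0 hFsymm hFint
  have hstab : Fintype.card {g : Equiv.Perm (Fin n) // (fun i => a0 i) ∘ g = fun i => a0 i} = 1 := by
    rw [Fintype.card_eq_one_iff]
    refine ⟨⟨1, rfl⟩, ?_⟩
    rintro ⟨g, hg⟩
    apply Subtype.ext
    ext i
    have := congrFun hg i
    simp only [Function.comp] at this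
    have := ha0 this
    simp [this]
  rw [hstab, Nat.cast_one, one_mul] at hc1
  have hfac : (0 : ℝ) < Nat.factorial n := by positivity
  have hI : ∫ x in Set.pi Set.univ (fun _ : Fin n => cube (ell : ℝ)), F x
      = (Nat.factorial n : ℝ) * partitionFn s ell n β := by
    unfold partitionFn
    rw [← mul_assoc, mul_one_div_cancel hfac.ne', one_mul]
  rw [hI] at hc1
  have hc2 : ∫ x in Set.pi Set.univ (fun i => Sm (a0 i)), F x ≤ partitionFn s ell n β :=
    le_of_mul_le_mul_left hc1 hfac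
  -- lower bound on the box
  set Emax : ℝ := (1 / 2) * ((n : ℝ) * (((4 * K0 + 1) ^ 3 : ℕ) * S)) with hEmax
  have hbox : Real.exp (-β * Emax) * (1 / (2 * (K0 : ℝ))) ^ (3 * n)
      ≤ ∫ x in Set.pi Set.univ (fun i => Sm (a0 i)), F x := by
    have hB0m : MeasurableSet (Set.pi Set.univ (fun i => Sm (a0 i))) :=
      MeasurableSet.univ_pi (fun i => measurableSet_small K0 _)
    have hvol : (volume (Set.pi Set.univ (fun i => Sm (a0 i)))).toReal
        = (1 / (2 * (K0 : ℝ))) ^ (3 * n) := by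
      rw [volume_pi, Measure.pi_pi]
      simp only [Sm, volume_small]
      rw [Finset.prod_const, Finset.card_univ, Fintype.card_fin, ENNReal.toReal_pow,
        ENNReal.toReal_pow, ENNReal.toReal_ofReal (by positivity), ← pow_mul]
    have hfin : volume (Set.pi Set.univ (fun i => Sm (a0 i))) < ⊤ := by
      rw [volume_pi, Measure.pi_pi]
      refine ENNReal.prod_lt_top (fun i _ => ?_)
      simp only [Sm, volume_small]
      exact ENNReal.pow_lt_top ENNReal.ofReal_lt_top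
    have hle : ∫ _x in Set.pi Set.univ (fun i => Sm (a0 i)), Real.exp (-β * Emax)
        ≤ ∫ x in Set.pi Set.univ (fun i => Sm (a0 i)), F x := by
      refine setIntegral_mono_on (integrableOn_const hfin.ne) ?_ hB0m ?_
      · exact hFint.mono_set (by
          intro x hx i hi
          exact small_subset_cube hK0 _ (hx i hi))
      · intro x hx
        have hE := energy_trial_le hK0 hS hsS hs2 (fun i => a0 i) ha0 x
          (fun i => hx i (Set.mem_univ i))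
        exact Real.exp_le_exp.2 (by nlinarith)
    rw [setIntegral_const, measureReal_def, hvol, smul_eq_mul, mul_comm] at hle
    exact hle
  have hZpos : 0 < partitionFn s ell n β := partitionFn_pos hs hβ hellR n hB
  have h3 := Real.log_le_log (by positivity) (hbox.trans hc2)
  rw [Real.log_mul (Real.exp_pos _).ne' (by positivity), Real.log_exp, Real.log_pow,
    one_div, Real.log_inv] at h3
  refine le_trans (le_of_eq ?_) h3
  rw [hEmax]
  push_cast
  ring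

/-- The crude constant. -/
noncomputable def C10 (ρ βm B S : ℝ) (K0 : ℕ) : ℝ :=
  ρ * (3 * Real.log (2 * (K0 : ℝ)) + (βm / 2) * (((4 * K0 + 1) ^ 3 : ℕ) * S)) + ρ * (1 + βm * B) + 1

/-- **Crude upper bound** from stability, at density `≤ ρ`. -/
theorem crude_upper {φ : ℝ → ℝ} {B β ρ : ℝ} (h : Thermo.Adm φ B) (hβ : 0 ≤ β) (hB : 0 ≤ B) (hρ : 0 ≤ ρ)
    {ell n : ℕ} (hell : 0 < ell) (hn : (n : ℝ) ≤ ρ * (ell : ℝ) ^ 3) :
    Real.log (partitionFn φ ell n β) ≤ (ρ * (1 + β * B) + 1) * (ell : ℝ) ^ 3 := by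
  have hellR : (0 : ℝ) < ell := by exact_mod_cast hell
  have hL3 : (0 : ℝ) < (ell : ℝ) ^ 3 := by positivity
  have hbB : 0 ≤ β * B := mul_nonneg hβ hB
  rcases Nat.eq_zero_or_pos n with rfl | hn0
  · rw [Thermo.partitionFn_eq_ZD, Thermo.ZD_zero, Real.log_one]
    positivity
  · rw [Thermo.partitionFn_eq_ZD]
    refine (h.log_ZD_le hβ hellR hn0).trans ?_
    have hnR : (0 : ℝ) < n := by exact_mod_cast hn0
    set σ : ℝ := (n : ℝ) / (ell : ℝ) ^ 3 with hσ
    have hσpos : 0 < σ := by positivity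
    have hnσ : (n : ℝ) = σ * (ell : ℝ) ^ 3 := by rw [hσ]; field_simp
    have hσρ : σ ≤ ρ := by
      rw [hσ, div_le_iff₀ hL3]; exact hn
    have hlog : -(σ * Real.log σ) ≤ 1 := by
      have h1 : Real.log σ⁻¹ ≤ σ⁻¹ - 1 := Real.log_le_sub_one_of_pos (by positivity)
      rw [Real.log_inv] at h1
      have h2 := mul_le_mul_of_nonneg_left h1 hσpos.le
      have h3 : σ * (σ⁻¹ - 1) = 1 - σ := by field_simp
      rw [h3] at h2
      nlinarith
    have h4 : σ * (1 + β * B) ≤ ρ * (1 + β * B) := mul_le_mul_of_nonneg_right hσρ (by positivity)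
    calc (n : ℝ) * ((1 + β * B) - Real.log σ)
        = (σ * (1 + β * B) - σ * Real.log σ) * (ell : ℝ) ^ 3 := by rw [hnσ]; ring
      _ ≤ (ρ * (1 + β * B) + 1) * (ell : ℝ) ^ 3 :=
        mul_le_mul_of_nonneg_right (by linarith) hL3.le

/-- Comparison: a pointwise smaller stable potential has a larger partition function. -/
theorem partitionFn_le_of_le {φ ψ : ℝ → ℝ} (hφ : Measurable φ) (hψ : Measurable ψ) (hle : ∀ r, ψ r ≤ φ r)
    {β L : ℝ} (hβ : 0 ≤ β) (n : ℕ) {B : ℝ} (hB : ∀ x : Fin n → Pt, B ≤ energy ψ x) :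
    partitionFn φ L n β ≤ partitionFn ψ L n β := by
  unfold partitionFn
  refine mul_le_mul_of_nonneg_left ?_ (by positivity)
  have hBφ : ∀ x : Fin n → Pt, B ≤ energy φ x := fun x =>
    (hB x).trans (Finset.sum_le_sum (fun _ _ => hle _))
  refine setIntegral_mono (integrableOn_boltzmann hφ hβ n hBφ (volume_dom_lt_top L n))
    (integrableOn_boltzmann hψ hβ n hB (volume_dom_lt_top L n)) (fun x => ?_)
  refine Real.exp_le_exp.2 ?_
  have : energy ψ x ≤ energy φ x := Finset.sum_le_sum (fun _ _ => hle _)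
  nlinarith

/-- **Crude two-sided bound** `|log Z(u s - A wl, cube ℓ, n, β)| ≤ C10 ℓ³` at density `≤ ρ ≤ K0³`;
`C10` only depends on `ρ`, `βm ≥ β`, the stability constant `B`, the bound `S` of `s` on `r ≥ 1/(2 K0)`
and `K0`. This is what `OneSided.os_am` asks for. -/
theorem crude_abs {s wl : ℝ → ℝ} (hs : Measurable s) (hwl : Measurable wl) (hs0 : ∀ r, 0 ≤ s r)
    (hwl0 : ∀ r, 0 ≤ wl r) {K0 ell n : ℕ} {ρ S β βm A u B : ℝ} (hK0 : 0 < K0) (hell : 0 < ell)
    (hS : 0 ≤ S) (hβ : 0 ≤ β) (hβm : β ≤ βm) (hA : 0 ≤ A) (hu0 : 0 ≤ u) (hu1 : u ≤ 1) (hB : 0 ≤ B)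
    (hρ : 0 ≤ ρ) (hρK : ρ ≤ (K0 : ℝ) ^ 3)
    (hsS : ∀ r, 1 / (2 * (K0 : ℝ)) ≤ r → s r ≤ S) (hs2 : ∀ r, 2 ≤ r → s r ≤ 0)
    (hn : (n : ℝ) ≤ ρ * (ell : ℝ) ^ 3)
    (hst : ∀ (N : ℕ) (x : Fin N → Pt), -B * N ≤ energy (fun r => u * s r - A * wl r) x) :
    |Real.log (partitionFn (fun r => u * s r - A * wl r) ell n β)| ≤ C10 ρ βm B S K0 * (ell : ℝ) ^ 3 := by
  have hellR : (0 : ℝ) < ell := by exact_mod_cast hell
  have hL3 : (0 : ℝ) < (ell : ℝ) ^ 3 := by positivity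
  have hβm0 : 0 ≤ βm := hβ.trans hβm
  have hφ : Measurable (fun r => u * s r - A * wl r) := by fun_prop
  have hAdm : Thermo.Adm (fun r => u * s r - A * wl r) B :=
    ⟨hφ, hst, fun r hr => by
      have h1 := mul_nonneg hA (hwl0 r)
      have h2 := hs2 r hr
      have h3 := mul_le_mul_of_nonneg_left h2 hu0
      linarith⟩
  have hK1 : (1 : ℝ) ≤ K0 := by exact_mod_cast hK0
  have hlog2 : 0 ≤ Real.log (2 * (K0 : ℝ)) := Real.log_nonneg (by linarith)
  have hcount : (0 : ℝ) ≤ (((4 * K0 + 1) ^ 3 : ℕ) : ℝ) := by positivity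
  have hmainpos : 0 ≤ 3 * Real.log (2 * (K0 : ℝ)) + (βm / 2) * (((4 * K0 + 1) ^ 3 : ℕ) * S) := by
    positivity
  have hmono : 3 * Real.log (2 * (K0 : ℝ)) + (β / 2) * (((4 * K0 + 1) ^ 3 : ℕ) * S)
      ≤ 3 * Real.log (2 * (K0 : ℝ)) + (βm / 2) * (((4 * K0 + 1) ^ 3 : ℕ) * S) := by
    have : (0 : ℝ) ≤ ((4 * K0 + 1) ^ 3 : ℕ) * S := by positivity
    nlinarith
  have hup := crude_upper hAdm hβ hB hρ hell hn
  have hup2 : ρ * (1 + β * B) + 1 ≤ C10 ρ βm B S K0 := by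
    unfold C10
    have : ρ * (1 + β * B) ≤ ρ * (1 + βm * B) :=
      mul_le_mul_of_nonneg_left (by nlinarith) hρ
    have h0 := mul_nonneg hρ hmainpos
    linarith
  have hZs : 0 < partitionFn s ell n β := by
    refine partitionFn_pos (B := 0) hs hβ hellR n (fun x => Finset.sum_nonneg (fun _ _ => hs0 _))
  have hnK : n ≤ (K0 * ell) ^ 3 := by
    have h1 : (n : ℝ) ≤ ((K0 * ell) ^ 3 : ℕ) := by
      push_cast
      calc (n : ℝ) ≤ ρ * (ell : ℝ) ^ 3 := hn
        _ ≤ (K0 : ℝ) ^ 3 * (ell : ℝ) ^ 3 := mul_le_mul_of_nonneg_right hρK hL3.le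
        _ = ((K0 : ℝ) * ell) ^ 3 := by ring
    exact_mod_cast h1
  have hlow := crude_lower hs hs0 hK0 hell hS hβ hsS hs2 hnK
  have hcmp : partitionFn s ell n β ≤ partitionFn (fun r => u * s r - A * wl r) ell n β := by
    refine partitionFn_le_of_le hs hφ (fun r => ?_) hβ n (B := -B * n) (hst n)
    have h1 := mul_nonneg hA (hwl0 r)
    have h2 : u * s r ≤ 1 * s r := mul_le_mul_of_nonneg_right hu1 (hs0 r)
    linarith
  have hlow2 := (hlow.trans (Real.log_le_log hZs hcmp))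
  rw [abs_le]
  constructor
  · refine le_trans ?_ hlow2
    have h1 : (n : ℝ) * (3 * Real.log (2 * (K0 : ℝ)) + (β / 2) * (((4 * K0 + 1) ^ 3 : ℕ) * S))
        ≤ (ρ * (ell : ℝ) ^ 3) * (3 * Real.log (2 * (K0 : ℝ)) + (βm / 2) * (((4 * K0 + 1) ^ 3 : ℕ) * S)) := by
      refine mul_le_mul hn hmono ?_ (by positivity)
      have : (0 : ℝ) ≤ ((4 * K0 + 1) ^ 3 : ℕ) * S := by positivity
      positivity
    have h2 : (ρ * (ell : ℝ) ^ 3) * (3 * Real.log (2 * (K0 : ℝ)) + (βm / 2) * (((4 * K0 + 1) ^ 3 : ℕ) * S))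
        ≤ C10 ρ βm B S K0 * (ell : ℝ) ^ 3 := by
      unfold C10
      have : 0 ≤ (ρ * (1 + βm * B) + 1) * (ell : ℝ) ^ 3 := by positivity
      nlinarith
    linarith
  · exact hup.trans (mul_le_mul_of_nonneg_right hup2 hL3.le)

end Crest.Agent.TL.Crude
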