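/-
S0209/S0210, module K (helper76): abstract selection of `(β*, A*)` and the propagation of the
kink.  No reference to the potential: everything is stated for abstract real functions, so the
assembly just instantiates it.
-/
import Mathlib

set_option autoImplicit false

namespace Crest.Agent.TL.Select

open Set Filter Topology

/-! ### Selection -/

/-- **Selection.**  `d ≥ 0` continuous on the rectangle, vanishing on the top side `A = A₊`,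
with the rate property; positive at the corner `(b₁, A₀)`, zero at the corner `(b₂, A₀)`.
Then some `(bs, As)` with `bs > b₁` has `d bs As = 0` and `d b As ≥ c (bs - b)` to the left. -/
theorem exists_selection
    (d : ℝ → ℝ → ℝ) {b₁ b₂ A₀ Ap c₀ : ℝ} (hb : b₁ < b₂) (hA : A₀ ≤ Ap) (hc₀ : 0 < c₀)
    (hcont : ContinuousOn (Function.uncurry d) (Icc b₁ b₂ ×ˢ Icc A₀ Ap))
    (hnn : ∀ b ∈ Icc b₁ b₂, ∀ A ∈ Icc A₀ Ap, 0 ≤ d b A)
    (htop : ∀ b ∈ Icc b₁ b₂, d b Ap = 0)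
    (hrate : ∀ b ∈ Icc b₁ b₂, ∀ A₁ ∈ Icc A₀ Ap, ∀ A₂ ∈ Icc A₀ Ap, A₁ < A₂ → 0 < d b A₂ →
      c₀ * (A₂ - A₁) ≤ d b A₁)
    (hleft : 0 < d b₁ A₀) (hright : d b₂ A₀ = 0) :
    ∃ bs ∈ Ioc b₁ b₂, ∃ As ∈ Icc A₀ Ap, d bs As = 0 ∧
      ∃ c > 0, ∀ b ∈ Ico b₁ bs, c * (bs - b) ≤ d b As := by
  classical
  set R : Set (ℝ × ℝ) := Icc b₁ b₂ ×ˢ Icc A₀ Ap with hR
  have hb₁R : (b₁, A₀) ∈ R := ⟨⟨le_rfl, hb.le⟩, ⟨le_rfl, hA⟩⟩
  -- a neighbourhood of `A₀` on which `d b₁ · > 0`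
  obtain ⟨δ, hδ, hδpos⟩ : ∃ δ > 0, ∀ A ∈ Icc A₀ Ap, A < A₀ + δ → 0 < d b₁ A := by
    have h1 : ContinuousWithinAt (Function.uncurry d) R (b₁, A₀) := hcont _ hb₁R
    have h2 : ∀ᶠ x in 𝓝[R] (b₁, A₀), 0 < Function.uncurry d x :=
      h1.eventually (lt_mem_nhds hleft)
    rw [eventually_nhdsWithin_iff, Metric.eventually_nhds_iff] at h2
    obtain ⟨δ, hδ, h⟩ := h2
    refine ⟨δ, hδ, fun A hAm hAlt => ?_⟩
    have hm : (b₁, A) ∈ R := ⟨⟨le_rfl, hb.le⟩, hAm⟩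
    have hdist : dist (b₁, A) (b₁, A₀) < δ := by
      rw [Prod.dist_eq]
      simp only [dist_self]
      rw [max_lt_iff]
      refine ⟨hδ, ?_⟩
      rw [Real.dist_eq, abs_of_nonneg (by linarith [hAm.1])]
      linarith
    exact h hdist hm
  have hbpos : 0 < b₂ - b₁ := by linarith
  set κ : ℝ := δ / (2 * (b₂ - b₁)) with hκdef
  have hκ : 0 < κ := by positivity
  have hκb : κ * (b₂ - b₁) = δ / 2 := by
    rw [hκdef]; field_simp
  -- the zero set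
  set Z : Set (ℝ × ℝ) := R ∩ (Function.uncurry d) ⁻¹' {0} with hZdef
  have hRcompact : IsCompact R := isCompact_Icc.prod isCompact_Icc
  have hZcompact : IsCompact Z := by
    have : IsClosed Z := by
      have := hcont.preimage_isClosed_of_isClosed hRcompact.isClosed (isClosed_singleton (x := (0:ℝ)))
      exact this
    exact hRcompact.of_isClosed_subset this Set.inter_subset_left
  have hZne : (b₂, A₀) ∈ Z := ⟨⟨⟨hb.le, le_rfl⟩, ⟨le_rfl, hA⟩⟩, by simpa [Function.uncurry] using hright⟩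
  have hgcont : ContinuousOn (fun x : ℝ × ℝ => x.2 + κ * x.1) Z := by fun_prop
  obtain ⟨⟨bs, As⟩, hsZ, hsmin⟩ := hZcompact.exists_isMinOn ⟨_, hZne⟩ hgcont
  have hsR : (bs, As) ∈ R := hsZ.1
  have hsd : d bs As = 0 := by simpa [Function.uncurry] using hsZ.2
  have hmin : ∀ x ∈ Z, As + κ * bs ≤ x.2 + κ * x.1 := fun x hx => hsmin hx
  have hb1 : b₁ ≤ bs := hsR.1.1
  have hA1 : A₀ ≤ As := hsR.2.1
  have hA2 : As ≤ Ap := hsR.2.2
  have hb2 : bs ≤ b₂ := hsR.1.2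
  -- `bs ≠ b₁`
  have hbs : b₁ < bs := by
    refine lt_of_le_of_ne hb1 fun hEq => ?_
    have hAsδ : A₀ + δ ≤ As := by
      by_contra hlt
      push Not at hlt
      have := hδpos As ⟨hA1, hA2⟩ hlt
      rw [← hEq] at hsd
      linarith
    have := hmin _ hZne
    simp only at this
    rw [← hEq] at this
    nlinarith
  refine ⟨bs, ⟨hbs, hb2⟩, As, ⟨hA1, hA2⟩, hsd, c₀ * κ, by positivity, ?_⟩
  intro b hbm
  have hbI : b ∈ Icc b₁ b₂ := ⟨hbm.1, by linarith [hbm.2]⟩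
  have hgap : 0 < bs - b := by linarith [hbm.2]
  set Ab : ℝ := As + κ * (bs - b) with hAb
  have hAbgt : As < Ab := by
    rw [hAb]; have : 0 < κ * (bs - b) := by positivity
    linarith
  -- `Ab ≤ Ap`: the top side lies in the zero set
  have hAbAp : Ab ≤ Ap := by
    have hmem : (b, Ap) ∈ Z := ⟨⟨hbI, ⟨hA, le_rfl⟩⟩, by simpa [Function.uncurry] using htop b hbI⟩
    have := hmin _ hmem
    simp only at this
    rw [hAb]; nlinarith
  -- for `A₂ ∈ (As, Ab)`, `d b A₂ > 0`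
  have hpos : ∀ A₂, As < A₂ → A₂ < Ab → 0 < d b A₂ := by
    intro A₂ h1 h2
    have hm : A₂ ∈ Icc A₀ Ap := ⟨by linarith, by linarith⟩
    refine lt_of_le_of_ne (hnn b hbI A₂ hm) fun h0 => ?_
    have hmem : (b, A₂) ∈ Z := ⟨⟨hbI, hm⟩, by simpa [Function.uncurry] using h0.symm⟩
    have := hmin _ hmem
    simp only at this
    rw [hAb] at h2
    nlinarith
  have hkey : ∀ A₂, As < A₂ → A₂ < Ab → c₀ * (A₂ - As) ≤ d b As := by
    intro A₂ h1 h2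
    exact hrate b hbI As ⟨hA1, hA2⟩ A₂ ⟨by linarith, by linarith⟩ h1 (hpos A₂ h1 h2)
  -- pass to the limit `A₂ → Ab`
  have hlim : c₀ * (Ab - As) ≤ d b As := by
    refine le_of_forall_pos_le_add fun ε hε => ?_
    -- take `A₂ = max (Ab - ε / c₀) ((As + Ab) / 2)`
    set A₂ : ℝ := max (Ab - ε / c₀) ((As + Ab) / 2) with hA₂
    have h1 : As < A₂ := lt_of_lt_of_le (by linarith) (le_max_right _ _)
    have h2 : A₂ < Ab := by
      apply max_lt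
      · have : 0 < ε / c₀ := by positivity
        linarith
      · linarith
    have h3 := hkey A₂ h1 h2
    have h4 : Ab - ε / c₀ ≤ A₂ := le_max_left _ _
    have h5 : c₀ * (Ab - As) ≤ c₀ * (A₂ - As) + ε := by
      have : c₀ * (ε / c₀) = ε := by field_simp
      nlinarith
    linarith
  have : c₀ * κ * (bs - b) = c₀ * (Ab - As) := by rw [hAb]; ring
  rw [this]
  exact hlim

/-! ### One-sided derivatives of concave functions -/

/-- A concave function has one-sided derivatives at an interior point, right `≤` left. -/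
theorem ConcaveOn.exists_oneSided {S : Set ℝ} {F : ℝ → ℝ} (hF : ConcaveOn ℝ S F) {x : ℝ}
    (hx : x ∈ interior S) :
    ∃ l r : ℝ, HasDerivWithinAt F l (Iio x) x ∧ HasDerivWithinAt F r (Ioi x) x ∧ r ≤ l := by
  have hG : ConvexOn ℝ S (-F) := hF.neg
  have h1 := hG.hasDerivWithinAt_leftDeriv_of_mem_interior hx
  have h2 := hG.hasDerivWithinAt_rightDeriv_of_mem_interior hx
  have h3 := hG.leftDeriv_le_rightDeriv_of_mem_interior hx
  refine ⟨-(derivWithin (-F) (Iio x) x), -(derivWithin (-F) (Ioi x) x), ?_, ?_, ?_⟩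
  · simpa using h1.neg
  · simpa using h2.neg
  · exact neg_le_neg h3

/-- If the four-point combination of concave functions has a "kink from the left", then one of
the concave functions is not differentiable at `bs`.  Abstract form: `D` has a left slope `≤ -c`
and right slope `≥ 0`, hence `D` is not differentiable at `bs`. -/
theorem not_differentiableAt_of_kink {D : ℝ → ℝ} {bs c : ℝ} (hc : 0 < c) {l r : ℝ} (hlr : l < bs)
    (hbr : bs < r) (h0 : D bs = 0)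
    (hleft : ∀ b ∈ Ioo l bs, c * (bs - b) ≤ D b) (hright : ∀ b ∈ Ioo bs r, 0 ≤ D b) :
    ¬ DifferentiableAt ℝ D bs := by
  intro hd
  have hD := hd.hasDerivAt
  set D' := deriv D bs
  -- right side: `D' ≥ 0`
  have h1 : 0 ≤ D' := by
    have hs : HasDerivWithinAt D D' (Ioi bs) bs := hD.hasDerivWithinAt
    have ht := (hasDerivWithinAt_iff_tendsto_slope' (by simp)).1 hs
    refine ge_of_tendsto ht ?_
    filter_upwards [Ioo_mem_nhdsGT hbr] with b hb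
    rw [slope_def_field, h0, sub_zero]
    exact div_nonneg (hright b hb) (by linarith [hb.1])
  have h2 : D' ≤ -c := by
    have hs : HasDerivWithinAt D D' (Iio bs) bs := hD.hasDerivWithinAt
    have ht := (hasDerivWithinAt_iff_tendsto_slope' (by simp)).1 hs
    refine le_of_tendsto ht ?_
    filter_upwards [Ioo_mem_nhdsLT hlr] with b hb
    rw [slope_def_field, h0, sub_zero]
    have hneg : b - bs < 0 := by linarith [hb.2]
    rw [div_le_iff_of_neg hneg]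
    have := hleft b hb
    nlinarith
  linarith

/-- A function with equal one-sided derivatives is differentiable. -/
theorem differentiableAt_of_oneSided_eq {F : ℝ → ℝ} {x l : ℝ}
    (h1 : HasDerivWithinAt F l (Iio x) x) (h2 : HasDerivWithinAt F l (Ioi x) x) :
    DifferentiableAt ℝ F x := by
  have : HasDerivWithinAt F l (Iio x ∪ Ioi x) x := h1.union h2
  have hu : Iio x ∪ Ioi x ∈ 𝓝[≠] x := by
    rw [Iio_union_Ioi]; exact self_mem_nhdsWithin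
  have h3 : HasDerivAt F l x := by
    rw [hasDerivAt_iff_tendsto_slope]
    have h4 := (hasDerivWithinAt_iff_tendsto_slope' (by simp)).1 this
    rwa [Iio_union_Ioi] at h4
  exact h3.differentiableAt

/-- The `kink` predicate for a function of one variable: one-sided derivatives exist with
`r < l`. -/
def Kink (F : ℝ → ℝ) (x : ℝ) : Prop :=
  ∃ l r : ℝ, HasDerivWithinAt F l (Iio x) x ∧ HasDerivWithinAt F r (Ioi x) x ∧ r < l

/-- A concave function not differentiable at an interior point has a kink there. -/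
theorem ConcaveOn.kink_of_not_differentiableAt {S : Set ℝ} {F : ℝ → ℝ} (hF : ConcaveOn ℝ S F)
    {x : ℝ} (hx : x ∈ interior S) (hnd : ¬ DifferentiableAt ℝ F x) : Kink F x := by
  obtain ⟨l, r, h1, h2, h3⟩ := ConcaveOn.exists_oneSided hF hx
  refine ⟨l, r, h1, h2, lt_of_le_of_ne h3 fun h => hnd ?_⟩
  subst h
  exact differentiableAt_of_oneSided_eq h1 h2

/-- **One of the four concave functions has a kink.**  Here `D b = ∑ i, a i * F i b`, each `F i`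
concave near `bs`. If `D` has the kink behaviour of `exists_selection`, one of the `F i`
with `a i ≠ 0` has a kink at `bs`. -/
theorem exists_kink_of_sum {ι : Type*} [Fintype ι] (F : ι → ℝ → ℝ) (a : ι → ℝ)
    {S : Set ℝ} (hF : ∀ i, ConcaveOn ℝ S (F i)) {bs c : ℝ} (hbs : bs ∈ interior S) (hc : 0 < c)
    {l r : ℝ} (hlr : l < bs) (hbr : bs < r) (h0 : ∑ i, a i * F i bs = 0)
    (hleft : ∀ b ∈ Ioo l bs, c * (bs - b) ≤ ∑ i, a i * F i b)
    (hright : ∀ b ∈ Ioo bs r, 0 ≤ ∑ i, a i * F i b) :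
    ∃ i, Kink (F i) bs := by
  by_contra hno
  push Not at hno
  have hdiff : ∀ i, DifferentiableAt ℝ (F i) bs := by
    intro i
    by_contra hnd
    exact hno i (ConcaveOn.kink_of_not_differentiableAt (hF i) hbs hnd)
  have hsum : DifferentiableAt ℝ (fun b => ∑ i, a i * F i b) bs := by
    apply DifferentiableAt.fun_sum
    intro i _
    exact (hdiff i).const_mul _
  exact not_differentiableAt_of_kink hc hlr hbr h0 hleft hright hsum

/-! ### Propagation of the kink along an affine piece -/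

/-- **Gap propagation.** `F β ρ`: concave in `β` on `I`, convex in `ρ` on the open interval `J`;
at `β = b` affine in `ρ` on `J`.  A kink at one `ρ₀ ∈ J` gives a kink at every `ρ ∈ J`. -/
theorem kink_propagates {F : ℝ → ℝ → ℝ} {I : Set ℝ} {J : Set ℝ} {b : ℝ}
    (hb : b ∈ interior I) (hJo : IsOpen J)
    (hconc : ∀ ρ ∈ J, ConcaveOn ℝ I (fun β => F β ρ))
    (hconv : ∀ β ∈ I, ConvexOn ℝ J (F β))
    (haff : ∀ ρ₁ ∈ J, ∀ ρ₂ ∈ J, ∀ t ∈ Icc (0:ℝ) 1,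
      F b ((1 - t) * ρ₁ + t * ρ₂) = (1 - t) * F b ρ₁ + t * F b ρ₂)
    {ρ₀ : ℝ} (hρ₀ : ρ₀ ∈ J) (hk : Kink (fun β => F β ρ₀) b) {ρ : ℝ} (hρ : ρ ∈ J) :
    Kink (fun β => F β ρ) b := by
  by_cases hEq : ρ = ρ₀
  · subst hEq; exact hk
  -- choose `ρ'` beyond `ρ`, `ρ = (1 - t) ρ₀ + t ρ'` with `t < 1`
  obtain ⟨ρ', hρ'J, t, ht0, ht1', hcomb⟩ : ∃ ρ' ∈ J, ∃ t : ℝ, 0 ≤ t ∧ t < 1 ∧ ρ = (1 - t) * ρ₀ + t * ρ' := by
    obtain ⟨ε, hε, hball⟩ := Metric.isOpen_iff.1 hJo ρ hρ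
    have hne : ρ - ρ₀ ≠ 0 := sub_ne_zero.2 hEq
    have habs : 0 < |ρ - ρ₀| := abs_pos.2 hne
    set η : ℝ := ε / (2 * |ρ - ρ₀|) with hη
    have hηpos : 0 < η := by positivity
    refine ⟨ρ + η * (ρ - ρ₀), hball ?_, 1 / (1 + η), by positivity, ?_, ?_⟩
    · rw [Metric.mem_ball, Real.dist_eq]
      have : ρ + η * (ρ - ρ₀) - ρ = η * (ρ - ρ₀) := by ring
      rw [this, abs_mul, abs_of_pos hηpos, hη]
      have : ε / (2 * |ρ - ρ₀|) * |ρ - ρ₀| = ε / 2 := by field_simp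
      rw [this]; linarith
    · rw [div_lt_one (by linarith)]; linarith
    · have h1η : (1 + η) ≠ 0 := by positivity
      field_simp
      ring
  have htI : t ∈ Icc (0:ℝ) 1 := ⟨ht0, ht1'.le⟩
  have ht1pos : 0 < 1 - t := by linarith
  -- the one-sided derivatives
  have hb' : b ∈ I := interior_subset hb
  obtain ⟨l, r, hl, hr, hrl⟩ := ConcaveOn.exists_oneSided (hconc ρ hρ) hb
  obtain ⟨l₀, r₀, hl₀, hr₀, hrl₀⟩ := hk
  obtain ⟨l', r', hl', hr', hrl'⟩ := ConcaveOn.exists_oneSided (hconc ρ' hρ'J) hb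
  -- near `b` all `β` lie in `I`
  have hIn : I ∈ 𝓝 b := mem_interior_iff_mem_nhds.1 hb
  have hvalue : F b ρ = (1 - t) * F b ρ₀ + t * F b ρ' := by
    conv_lhs => rw [hcomb]
    exact haff ρ₀ hρ₀ ρ' hρ'J t htI
  have hβle : ∀ β ∈ I, F β ρ ≤ (1 - t) * F β ρ₀ + t * F β ρ' := by
    intro β hβ
    have h := (hconv β hβ).2 hρ₀ hρ'J ht1pos.le htI.1 (by ring)
    simp only [smul_eq_mul] at h
    rwa [← hcomb] at h
  -- right: `r ≤ (1 - t) r₀ + t r'`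
  have hR : r ≤ (1 - t) * r₀ + t * r' := by
    have h1 := (hasDerivWithinAt_iff_tendsto_slope' (by simp)).1 hr
    have h2 := (hasDerivWithinAt_iff_tendsto_slope' (by simp)).1 hr₀
    have h3 := (hasDerivWithinAt_iff_tendsto_slope' (by simp)).1 hr'
    have h4 := (h2.const_mul (1 - t)).add (h3.const_mul t)
    refine le_of_tendsto_of_tendsto h1 h4 ?_
    have hmem : ∀ᶠ β in 𝓝[>] b, β ∈ I := nhdsWithin_le_nhds hIn
    filter_upwards [hmem, self_mem_nhdsWithin] with β hβ hβgt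
    have hpos : 0 < β - b := by simpa using hβgt
    simp only [slope_def_field]
    have := hβle β hβ
    rw [← mul_div_assoc, ← mul_div_assoc, ← add_div]
    apply div_le_div_of_nonneg_right _ hpos.le
    nlinarith
  have hL : (1 - t) * l₀ + t * l' ≤ l := by
    have h1 := (hasDerivWithinAt_iff_tendsto_slope' (by simp)).1 hl
    have h2 := (hasDerivWithinAt_iff_tendsto_slope' (by simp)).1 hl₀
    have h3 := (hasDerivWithinAt_iff_tendsto_slope' (by simp)).1 hl'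
    have h4 := (h2.const_mul (1 - t)).add (h3.const_mul t)
    refine le_of_tendsto_of_tendsto h4 h1 ?_
    have hmem : ∀ᶠ β in 𝓝[<] b, β ∈ I := nhdsWithin_le_nhds hIn
    filter_upwards [hmem, self_mem_nhdsWithin] with β hβ hβlt
    have hneg : β - b < 0 := by simpa using hβlt
    simp only [slope_def_field]
    have := hβle β hβ
    rw [← mul_div_assoc, ← mul_div_assoc, ← add_div]
    apply div_le_div_of_nonpos_of_le hneg.le
    nlinarith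
  refine ⟨l, r, hl, hr, ?_⟩
  have : (1 - t) * r₀ < (1 - t) * l₀ := mul_lt_mul_of_pos_left hrl₀ ht1pos
  have h' : t * r' ≤ t * l' := mul_le_mul_of_nonneg_left hrl' htI.1
  linarith

/-! ### Affine on the hull -/

/-- A convex function affine with slope `μ` on two subintervals is affine on the hull, provided
that the slopes coincide: `F ρ = F ρ₁ + μ (ρ - ρ₁)` for `ρ ∈ [ρ₁, ρ₄]`. -/
theorem affine_on_hull {J : Set ℝ} {F : ℝ → ℝ} (hF : ConvexOn ℝ J F) {ρ₁ ρ₂ ρ₃ ρ₄ μ : ℝ}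
    (h₁ : ρ₁ ∈ J) (h₄ : ρ₄ ∈ J) (h12 : ρ₁ < ρ₂) (h23 : ρ₂ ≤ ρ₃) (h34 : ρ₃ < ρ₄)
    (hL : F ρ₂ = F ρ₁ + μ * (ρ₂ - ρ₁)) (hR : F ρ₄ = F ρ₃ + μ * (ρ₄ - ρ₃))
    {ρ : ℝ} (hρ1 : ρ₁ ≤ ρ) (hρ4 : ρ ≤ ρ₄) : F ρ = F ρ₁ + μ * (ρ - ρ₁) := by
  have hsub : OrdConnected J := hF.1.ordConnected
  have hmem : ∀ x, ρ₁ ≤ x → x ≤ ρ₄ → x ∈ J := fun x h1 h2 => hsub.out h₁ h₄ ⟨h1, h2⟩
  -- `F x ≥ ℓ x` for `x ≥ ρ₂`
  have hlow : ∀ x, ρ₂ ≤ x → x ≤ ρ₄ → F ρ₁ + μ * (x - ρ₁) ≤ F x := by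
    intro x h1 h2
    rcases eq_or_lt_of_le h1 with rfl | hlt
    · rw [hL]
    have hs := hF.slope_mono_adjacent h₁ (hmem x (by linarith) h2) h12 hlt
    have hd : 0 < ρ₂ - ρ₁ := by linarith
    have e : F ρ₂ - F ρ₁ = μ * (ρ₂ - ρ₁) := by rw [hL]; ring
    rw [e, mul_div_assoc, div_self hd.ne', mul_one, le_div_iff₀ (by linarith)] at hs
    nlinarith
  -- `F x ≥ ℓ' x` for `x ≤ ρ₃`
  have hup : ∀ x, ρ₁ ≤ x → x ≤ ρ₃ → F ρ₄ - μ * (ρ₄ - x) ≤ F x := by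
    intro x h1 h2
    rcases eq_or_lt_of_le h2 with rfl | hlt
    · rw [hR]; linarith
    have hs := hF.slope_mono_adjacent (hmem x h1 (by linarith)) h₄ hlt h34
    have hd : 0 < ρ₄ - ρ₃ := by linarith
    have e : F ρ₄ - F ρ₃ = μ * (ρ₄ - ρ₃) := by rw [hR]; ring
    rw [e, mul_div_assoc, div_self hd.ne', mul_one, div_le_iff₀ (by linarith)] at hs
    rw [hR]
    nlinarith
  have hρ₄val : F ρ₄ = F ρ₁ + μ * (ρ₄ - ρ₁) := by
    have h1 := hlow ρ₄ (by linarith) le_rfl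
    have h2 := hup ρ₁ le_rfl (by linarith)
    linarith
  apply le_antisymm
  · -- chord
    have hd : 0 < ρ₄ - ρ₁ := by linarith
    have ha : 0 ≤ (ρ₄ - ρ) / (ρ₄ - ρ₁) := div_nonneg (by linarith) hd.le
    have hb : 0 ≤ (ρ - ρ₁) / (ρ₄ - ρ₁) := div_nonneg (by linarith) hd.le
    have hab : (ρ₄ - ρ) / (ρ₄ - ρ₁) + (ρ - ρ₁) / (ρ₄ - ρ₁) = 1 := by
      rw [← add_div, div_eq_one_iff_eq hd.ne']; ring
    have hc := hF.2 h₁ h₄ ha hb hab
    simp only [smul_eq_mul] at hc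
    have hx : (ρ₄ - ρ) / (ρ₄ - ρ₁) * ρ₁ + (ρ - ρ₁) / (ρ₄ - ρ₁) * ρ₄ = ρ := by
      field_simp; ring
    rw [hx, hρ₄val] at hc
    have hy : (ρ₄ - ρ) / (ρ₄ - ρ₁) * F ρ₁ + (ρ - ρ₁) / (ρ₄ - ρ₁) * (F ρ₁ + μ * (ρ₄ - ρ₁))
        = F ρ₁ + μ * (ρ - ρ₁) := by
      field_simp; ring
    rwa [hy] at hc
  · rcases le_total ρ₂ ρ with h | h
    · exact hlow ρ h hρ4
    · have := hup ρ hρ1 (by linarith)
      rw [hρ₄val] at this
      linarith

/-! ### From the kink in `F` to the statement -/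

/-- **Final wrap.**  If `F` is concave near `bs > 0` with a kink at `bs`, the function
`β ↦ F (β * bs) / β` has one-sided derivatives at `β = 1`, right `<` left. -/
theorem deriv_jump {F : ℝ → ℝ} {bs : ℝ} (hbs : 0 < bs) (hk : Kink F bs) :
    ∃ Dl Dr : ℝ, HasDerivWithinAt (fun β => F (β * bs) / β) Dl (Iio 1) 1 ∧
      HasDerivWithinAt (fun β => F (β * bs) / β) Dr (Ioi 1) 1 ∧ Dr < Dl := by
  obtain ⟨l, r, hl, hr, hrl⟩ := hk
  have hmulI : HasDerivAt (fun β : ℝ => β * bs) bs 1 := by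
    simpa using (hasDerivAt_id (1:ℝ)).mul_const bs
  have hcomp : ∀ (s t : Set ℝ) (d : ℝ), HasDerivWithinAt F d t bs → MapsTo (fun β : ℝ => β * bs) s t →
      HasDerivWithinAt (fun β => F (β * bs) / β) (d * bs - F bs) s 1 := by
    intro s t d hd hmap
    have h1' : HasDerivWithinAt F d t ((1:ℝ) * bs) := by simpa using hd
    have h1 : HasDerivWithinAt (fun β => F (β * bs)) (d * bs) s 1 :=
      h1'.comp (1:ℝ) hmulI.hasDerivWithinAt hmap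
    have h2 : HasDerivWithinAt (fun β : ℝ => β) 1 s 1 := hasDerivWithinAt_id _ _
    have h3 : HasDerivWithinAt (fun β => F (β * bs) / β)
        ((d * bs * 1 - F (1 * bs) * 1) / 1 ^ 2) s 1 := h1.fun_div h2 (by norm_num)
    have e : (d * bs * 1 - F (1 * bs) * 1) / 1 ^ 2 = d * bs - F bs := by simp
    rwa [e] at h3
  refine ⟨l * bs - F bs, r * bs - F bs, hcomp _ _ _ hl ?_, hcomp _ _ _ hr ?_, ?_⟩
  · intro β hβ
    have : β < 1 := hβ
    show β * bs < bs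
    nlinarith
  · intro β hβ
    have : 1 < β := hβ
    show bs < β * bs
    nlinarith
  · have : r * bs < l * bs := mul_lt_mul_of_pos_right hrl hbs
    linarith

/-! ### The whole module K -/

/-- The slope gap at the four points. -/
noncomputable def gap (F : ℝ → ℝ → ℝ → ℝ) (ρ₁ ρ₂ ρ₃ ρ₄ : ℝ) (β A : ℝ) : ℝ :=
  (F β A ρ₄ - F β A ρ₃) / (ρ₄ - ρ₃) - (F β A ρ₂ - F β A ρ₁) / (ρ₂ - ρ₁)

/-- **Module K.**  `F β A ρ` (free energy): concave in `β`, convex in `ρ`, affine in `ρ` on the two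
gaps `G_L = (g₁, g₂)`, `G_R = (g₃, g₄)`, for `(β, A)` in the rectangle; `d = gap` is continuous,
vanishes at `A = Ap`, obeys the rate property, is positive at `(b₁, A₀)` and zero at `(b₂, A₀)`.
Then there is `(bs, As)` such that `F · As ρ` has a kink at `bs` for *every* `ρ ∈ (g₁, g₄)`. -/
theorem exists_kink_all
    (F : ℝ → ℝ → ℝ → ℝ) {b₁ b₂ b₃ A₀ Ap c₀ g₁ g₂ g₃ g₄ ρ₁ ρ₂ ρ₃ ρ₄ : ℝ}
    (hb : b₁ < b₂) (hb₃ : b₂ < b₃) (hA : A₀ ≤ Ap) (hc₀ : 0 < c₀)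
    (h1 : ρ₁ ∈ Ioo g₁ g₂) (h2 : ρ₂ ∈ Ioo g₁ g₂) (h12 : ρ₁ < ρ₂) (h23 : g₂ ≤ g₃)
    (h3 : ρ₃ ∈ Ioo g₃ g₄) (h4 : ρ₄ ∈ Ioo g₃ g₄) (h34 : ρ₃ < ρ₄)
    (hconc : ∀ A ∈ Icc A₀ Ap, ∀ ρ ∈ Ioo g₁ g₄, ConcaveOn ℝ (Ico b₁ b₃) (fun β => F β A ρ))
    (hconv : ∀ β ∈ Ico b₁ b₃, ∀ A ∈ Icc A₀ Ap, ConvexOn ℝ (Ioo g₁ g₄) (F β A))
    (hGL : ∀ β ∈ Icc b₁ b₂, ∀ A ∈ Icc A₀ Ap, ∀ ρ ∈ Ioo g₁ g₂,
      F β A ρ = F β A ρ₁ + (F β A ρ₂ - F β A ρ₁) / (ρ₂ - ρ₁) * (ρ - ρ₁))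
    (hGR : ∀ β ∈ Icc b₁ b₂, ∀ A ∈ Icc A₀ Ap, ∀ ρ ∈ Ioo g₃ g₄,
      F β A ρ = F β A ρ₃ + (F β A ρ₄ - F β A ρ₃) / (ρ₄ - ρ₃) * (ρ - ρ₃))
    (hcont : ContinuousOn (Function.uncurry (gap F ρ₁ ρ₂ ρ₃ ρ₄)) (Icc b₁ b₂ ×ˢ Icc A₀ Ap))
    (htop : ∀ b ∈ Icc b₁ b₂, gap F ρ₁ ρ₂ ρ₃ ρ₄ b Ap = 0)
    (hrate : ∀ b ∈ Icc b₁ b₂, ∀ A₁ ∈ Icc A₀ Ap, ∀ A₂ ∈ Icc A₀ Ap, A₁ < A₂ →
      0 < gap F ρ₁ ρ₂ ρ₃ ρ₄ b A₂ → c₀ * (A₂ - A₁) ≤ gap F ρ₁ ρ₂ ρ₃ ρ₄ b A₁)
    (hleft : 0 < gap F ρ₁ ρ₂ ρ₃ ρ₄ b₁ A₀) (hright : gap F ρ₁ ρ₂ ρ₃ ρ₄ b₂ A₀ = 0) :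
    ∃ bs ∈ Ioc b₁ b₂, ∃ As ∈ Icc A₀ Ap, ∀ ρ ∈ Ioo g₁ g₄, Kink (fun β => F β As ρ) bs := by
  have hm1 : ρ₁ ∈ Ioo g₁ g₄ := ⟨h1.1, by linarith [h1.2, h3.1, h3.2]⟩
  have hm2 : ρ₂ ∈ Ioo g₁ g₄ := ⟨h2.1, by linarith [h2.2, h3.1, h3.2]⟩
  have hm3 : ρ₃ ∈ Ioo g₁ g₄ := ⟨by linarith [h1.1, h1.2, h3.1], h3.2⟩
  have hm4 : ρ₄ ∈ Ioo g₁ g₄ := ⟨by linarith [h1.1, h1.2, h4.1], h4.2⟩
  have h23' : ρ₂ < ρ₃ := by linarith [h2.2, h3.1]
  have hd21 : 0 < ρ₂ - ρ₁ := by linarith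
  have hd43 : 0 < ρ₄ - ρ₃ := by linarith
  -- `gap ≥ 0` on the extended strip
  have hnn : ∀ b ∈ Ico b₁ b₃, ∀ A ∈ Icc A₀ Ap, 0 ≤ gap F ρ₁ ρ₂ ρ₃ ρ₄ b A := by
    intro b hbm A hAm
    have hc := hconv b hbm A hAm
    have hs1 := hc.slope_mono_adjacent hm1 hm3 h12 h23'
    have hs2 := hc.slope_mono_adjacent hm2 hm4 h23' h34
    unfold gap
    linarith
  obtain ⟨bs, hbs, As, hAs, hzero, c, hc, hlow⟩ :=
    exists_selection (gap F ρ₁ ρ₂ ρ₃ ρ₄) hb hA hc₀ hcont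
      (fun b hbm A hAm => hnn b ⟨hbm.1, by linarith [hbm.2]⟩ A hAm) htop hrate hleft hright
  have hbsI : bs ∈ Icc b₁ b₂ := ⟨hbs.1.le, hbs.2⟩
  refine ⟨bs, hbs, As, hAs, ?_⟩
  -- interior
  have hint : bs ∈ interior (Ico b₁ b₃) := by
    rw [interior_Ico]
    exact ⟨hbs.1, by linarith [hbs.2]⟩
  -- a kink at one of the four points
  have hkink : ∃ i : Fin 4, Kink (fun β => F β As (![ρ₁, ρ₂, ρ₃, ρ₄] i)) bs := by
    have hsum : ∀ b, ∑ i : Fin 4, (![1 / (ρ₂ - ρ₁), -(1 / (ρ₂ - ρ₁)), -(1 / (ρ₄ - ρ₃)), 1 / (ρ₄ - ρ₃)] i)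
        * (fun β => F β As (![ρ₁, ρ₂, ρ₃, ρ₄] i)) b = gap F ρ₁ ρ₂ ρ₃ ρ₄ b As := by
      intro b
      simp only [Fin.sum_univ_four, gap]
      simp
      field_simp
      ring
    refine exists_kink_of_sum (fun i β => F β As (![ρ₁, ρ₂, ρ₃, ρ₄] i))
      ![1 / (ρ₂ - ρ₁), -(1 / (ρ₂ - ρ₁)), -(1 / (ρ₄ - ρ₃)), 1 / (ρ₄ - ρ₃)]
      (S := Ico b₁ b₃) ?_ hint hc hbs.1 (show bs < b₃ by linarith [hbs.2]) ?_ ?_ ?_
    · intro i
      apply hconc As hAs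
      fin_cases i
      · exact hm1
      · exact hm2
      · exact hm3
      · exact hm4
    · rw [hsum]; exact hzero
    · intro b hbm
      rw [hsum]
      exact hlow b ⟨hbm.1.le, hbm.2⟩
    · intro b hbm
      rw [hsum]
      exact hnn b ⟨by linarith [hbm.1, hbs.1], hbm.2⟩ As hAs
  obtain ⟨i, hi⟩ := hkink
  have hρi : ![ρ₁, ρ₂, ρ₃, ρ₄] i ∈ Ioo g₁ g₄ := by
    fin_cases i
    · exact hm1
    · exact hm2
    · exact hm3
    · exact hm4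
  -- the line
  set μ : ℝ := (F bs As ρ₂ - F bs As ρ₁) / (ρ₂ - ρ₁) with hμ
  have hμ' : (F bs As ρ₄ - F bs As ρ₃) / (ρ₄ - ρ₃) = μ := by
    have : gap F ρ₁ ρ₂ ρ₃ ρ₄ bs As = 0 := hzero
    unfold gap at this
    linarith
  have hline : ∀ ρ ∈ Ioo g₁ g₄, F bs As ρ = F bs As ρ₁ + μ * (ρ - ρ₁) := by
    intro ρ hρ
    obtain ⟨a', ha'1, ha'2⟩ : ∃ a', g₁ < a' ∧ a' < min ρ ρ₁ :=
      exists_between (lt_min hρ.1 h1.1)
    obtain ⟨e', he'1, he'2⟩ : ∃ e', max ρ ρ₄ < e' ∧ e' < g₄ :=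
      exists_between (max_lt hρ.2 h4.2)
    have ha'ρ : a' < ρ := lt_of_lt_of_le ha'2 (min_le_left _ _)
    have ha'ρ₁ : a' < ρ₁ := lt_of_lt_of_le ha'2 (min_le_right _ _)
    have he'ρ : ρ < e' := lt_of_le_of_lt (le_max_left _ _) he'1
    have he'ρ₄ : ρ₄ < e' := lt_of_le_of_lt (le_max_right _ _) he'1
    have ha'G : a' ∈ Ioo g₁ g₂ := ⟨ha'1, by linarith [h1.2]⟩
    have he'G : e' ∈ Ioo g₃ g₄ := ⟨by linarith [h4.1], he'2⟩
    have hL1 := hGL bs hbsI As hAs a' ha'G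
    have hR1 := hGR bs hbsI As hAs e' he'G
    rw [← hμ] at hL1
    rw [hμ'] at hR1
    have hρ₂val : F bs As ρ₂ = F bs As ρ₁ + μ * (ρ₂ - ρ₁) := by
      rw [hμ]; field_simp; ring
    have hkey := affine_on_hull (hconv bs ⟨hbs.1.le, by linarith [hbs.2]⟩ As hAs)
      (ρ₁ := a') (ρ₂ := ρ₂) (ρ₃ := ρ₃) (ρ₄ := e') (μ := μ) (ρ := ρ)
      ⟨ha'1, by linarith [ha'G.2, h3.2, h3.1]⟩ ⟨by linarith [he'G.1, h1.1, h1.2], he'2⟩
      (by linarith) h23'.le (by linarith)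
      (by rw [hρ₂val, hL1]; ring) hR1 ha'ρ.le he'ρ.le
    rw [hkey, hL1]; ring
  intro ρ hρ
  refine kink_propagates (F := fun β ρ => F β As ρ) (I := Ico b₁ b₃) (J := Ioo g₁ g₄) (b := bs)
    hint isOpen_Ioo (fun ρ hρ => hconc As hAs ρ hρ) (fun β hβ => hconv β hβ As hAs) ?_ hρi hi hρ
  intro x hx y hy t ht
  have hcomb : (1 - t) * x + t * y ∈ Ioo g₁ g₄ := by
    have := (convex_Ioo g₁ g₄) hx hy (by linarith [ht.2] : 0 ≤ 1 - t) ht.1 (by ring)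
    simpa using this
  rw [hline _ hcomb, hline x hx, hline y hy]
  ring

end Crest.Agent.TL.Select
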