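import Crest.Agent.TL.Gauss

/-!
# The explicit series of the S0209/S0210 blueprint

`w = ∑_j Â_j g(R_j, ·)`, `a_m = K₀ 2^m`, `R_m = 2^(32 a_m)`, `Â_m = 2^(K₀ - a_m)`.
Decay `r^(-3-1/32)`, continuity, integrability of `r² w` at infinity, `r³ w → 0`.
-/

set_option autoImplicit false

namespace Crest.Agent.TL.Series

open Real MeasureTheory Finset Filter
open Crest.ProbabilityR.Continuum
open Crest.Agent.TL.Gauss

/-- `a_m = K₀ 2^m`. -/
def aa (K0 m : ℕ) : ℕ := K0 * 2 ^ m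

/-- `R_m = 2^(32 a_m)`. -/
noncomputable def RR (K0 m : ℕ) : ℝ := 2 ^ (32 * aa K0 m)

/-- `Â_m = 2^(K₀ - a_m)`. -/
noncomputable def Ah (K0 m : ℕ) : ℝ := 2 ^ K0 / 2 ^ aa K0 m

/-- The series `w = ∑_j Â_j g(R_j, ·)`. -/
noncomputable def ww (K0 : ℕ) (r : ℝ) : ℝ := ∑' j, Ah K0 j * g (RR K0 j) r

lemma RR_pos (K0 m : ℕ) : 0 < RR K0 m := by unfold RR; positivity

lemma one_le_RR (K0 m : ℕ) : 1 ≤ RR K0 m := by
  unfold RR; exact one_le_pow₀ (by norm_num)

lemma Ah_pos (K0 m : ℕ) : 0 < Ah K0 m := by unfold Ah; positivity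

lemma Ah_zero {K0 : ℕ} : Ah K0 0 = 1 := by
  unfold Ah aa; simp

lemma aa_succ (K0 m : ℕ) : aa K0 (m + 1) = 2 * aa K0 m := by
  unfold aa; ring

/-- The design relation `Â_{m+1}/Â_m = 2^(-a_m)`. -/
lemma Ah_succ (K0 m : ℕ) : Ah K0 (m + 1) = Ah K0 m / 2 ^ aa K0 m := by
  unfold Ah
  rw [aa_succ, two_mul, pow_add]
  field_simp

lemma aa_ge {K0 : ℕ} (hK : 1 ≤ K0) (j : ℕ) : j + 1 ≤ aa K0 j := by
  unfold aa
  have h1 : j < 2 ^ j := Nat.lt_two_pow_self
  calc j + 1 ≤ 2 ^ j := h1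
    _ = 1 * 2 ^ j := by ring
    _ ≤ K0 * 2 ^ j := Nat.mul_le_mul_right _ hK

lemma RR_lacunary (K0 m : ℕ) (hK : 1 ≤ K0) : 2 * RR K0 m ≤ RR K0 (m + 1) := by
  unfold RR
  rw [← pow_succ']
  apply pow_le_pow_right₀ (by norm_num)
  rw [aa_succ]
  have := aa_ge hK m
  omega

lemma Ah_le {K0 : ℕ} (hK : 1 ≤ K0) (j : ℕ) : Ah K0 j ≤ 2 ^ K0 * (1 / 2) ^ (j + 1) := by
  unfold Ah
  rw [div_eq_mul_inv]
  apply mul_le_mul_of_nonneg_left _ (by positivity)
  rw [one_div, inv_pow]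
  apply inv_anti₀ (by positivity)
  exact pow_le_pow_right₀ (by norm_num) (aa_ge hK j)

lemma summable_Ah {K0 : ℕ} (hK : 1 ≤ K0) : Summable (Ah K0) := by
  refine Summable.of_nonneg_of_le (fun j => (Ah_pos K0 j).le) (Ah_le hK) ?_
  apply Summable.mul_left
  exact (summable_nat_add_iff 1).mpr (summable_geometric_of_lt_one (by norm_num) (by norm_num))

lemma g_le_g_one {R : ℝ} (hR : 1 ≤ R) (r : ℝ) : g R r ≤ g 1 0 := by
  have hR0 : 0 < R := by linarith
  refine (g_le_zero hR0 r).trans ?_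
  rw [g_zero, g_zero]
  apply pow_le_pow_left₀ (by positivity)
  apply inv_anti₀ (by positivity)
  have : 0 < √(2 * π) := by positivity
  nlinarith

lemma summable_term {K0 : ℕ} (hK : 1 ≤ K0) (r : ℝ) :
    Summable (fun j => Ah K0 j * g (RR K0 j) r) := by
  refine Summable.of_nonneg_of_le
    (fun j => mul_nonneg (Ah_pos K0 j).le (g_nonneg (RR_pos K0 j) r))
    (fun j => mul_le_mul_of_nonneg_left (g_le_g_one (one_le_RR K0 j) r) (Ah_pos K0 j).le)
    ((summable_Ah hK).mul_right _)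

lemma ww_nonneg {K0 : ℕ} (r : ℝ) : 0 ≤ ww K0 r :=
  tsum_nonneg fun j => mul_nonneg (Ah_pos K0 j).le (g_nonneg (RR_pos K0 j) r)

lemma ww_pos {K0 : ℕ} (hK : 1 ≤ K0) (r : ℝ) : 0 < ww K0 r :=
  (summable_term hK r).tsum_pos (fun j => mul_nonneg (Ah_pos K0 j).le (g_nonneg (RR_pos K0 j) r)) 0
    (mul_pos (Ah_pos K0 0) (g_pos (RR_pos K0 0) r))

lemma ww_le_zero {K0 : ℕ} (hK : 1 ≤ K0) (r : ℝ) : ww K0 r ≤ ww K0 0 :=
  (summable_term hK r).tsum_le_tsum
    (fun j => mul_le_mul_of_nonneg_left (g_le_zero (RR_pos K0 j) r) (Ah_pos K0 j).le)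
    (summable_term hK 0)

lemma continuous_ww {K0 : ℕ} (hK : 1 ≤ K0) : Continuous (ww K0) := by
  refine continuous_tsum (u := fun j => Ah K0 j * g 1 0) ?_ ((summable_Ah hK).mul_right _) ?_
  · intro j
    exact continuous_const.mul continuous_g
  · intro j r
    rw [Real.norm_eq_abs, abs_of_nonneg (mul_nonneg (Ah_pos K0 j).le (g_nonneg (RR_pos K0 j) r))]
    exact mul_le_mul_of_nonneg_left (g_le_g_one (one_le_RR K0 j) r) (Ah_pos K0 j).le

lemma ww_bounded {K0 : ℕ} (hK : 1 ≤ K0) : ∃ M, ∀ r, |ww K0 r| ≤ M :=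
  ⟨ww K0 0, fun r => by rw [abs_of_nonneg (ww_nonneg r)]; exact ww_le_zero hK r⟩

/-! ### A lacunary sum -/

/-- Partial sums of `min (R j / r) (r / R j)` along a lacunary sequence are at most `4`. -/
lemma lacunary_sum {R : ℕ → ℝ} (h0 : ∀ j, 0 < R j) (hlac : ∀ j, 2 * R j ≤ R (j + 1)) {r : ℝ}
    (hr : 0 < r) (n : ℕ) : ∑ j ∈ Finset.range n, min (R j / r) (r / R j) ≤ 4 := by
  classical
  have hgrow : ∀ j k, 2 ^ k * R j ≤ R (j + k) := by
    intro j k
    induction k with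
    | zero => simp
    | succ k ih =>
      have := hlac (j + k)
      rw [pow_succ, ← add_assoc]
      nlinarith
  have hmono : ∀ j k, R j ≤ R (j + k) := by
    intro j k
    have h1 := hgrow j k
    have h2 : (1:ℝ) ≤ 2 ^ k := one_le_pow₀ (by norm_num)
    nlinarith [h0 j]
  have hex : ∃ j, r < R j := by
    obtain ⟨k, hk⟩ := pow_unbounded_of_one_lt (r / R 0) (by norm_num : (1:ℝ) < 2)
    refine ⟨0 + k, lt_of_lt_of_le ?_ (hgrow 0 k)⟩
    rw [div_lt_iff₀ (h0 0)] at hk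
    exact hk
  set J := Nat.find hex with hJ
  have hJ1 : r < R J := Nat.find_spec hex
  have hJ2 : ∀ j, j < J → R j ≤ r := fun j hj => not_lt.mp (Nat.find_min hex hj)
  -- lower part
  have hsumR : ∀ m, ∑ j ∈ Finset.range m, R j ≤ R m := by
    intro m
    induction m with
    | zero => simpa using (h0 0).le
    | succ m ih =>
      rw [Finset.sum_range_succ]
      have := hlac m
      linarith
  have hlow : ∑ j ∈ Finset.range J, min (R j / r) (r / R j) ≤ 2 := by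
    have h1 : ∑ j ∈ Finset.range J, min (R j / r) (r / R j) ≤ ∑ j ∈ Finset.range J, R j / r :=
      Finset.sum_le_sum fun j _ => min_le_left _ _
    refine h1.trans ?_
    rw [← Finset.sum_div, div_le_iff₀ hr]
    rcases Nat.eq_zero_or_pos J with h | h
    · rw [h]; simp; positivity
    · obtain ⟨m, hm⟩ : ∃ m, J = m + 1 := ⟨J - 1, by omega⟩
      rw [hm, Finset.sum_range_succ]
      have h2 := hsumR m
      have h3 := hJ2 m (by omega)
      linarith
  have hhigh : ∀ m, ∑ k ∈ Finset.range m, min (R (J + k) / r) (r / R (J + k)) ≤ 2 := by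
    intro m
    have h1 : ∀ k ∈ Finset.range m, min (R (J + k) / r) (r / R (J + k)) ≤ (1 / 2) ^ k := by
      intro k _
      refine (min_le_right _ _).trans ?_
      have h2 := hgrow J k
      have h3 : (2:ℝ) ^ k * r ≤ R (J + k) := by
        have : (2:ℝ) ^ k * r ≤ 2 ^ k * R J :=
          mul_le_mul_of_nonneg_left hJ1.le (by positivity)
        linarith
      rw [div_le_iff₀ (h0 _), one_div, inv_pow]
      have h4 : (0:ℝ) < 2 ^ k := by positivity
      rw [← div_eq_inv_mul, le_div_iff₀ h4]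
      linarith
    refine (Finset.sum_le_sum h1).trans ?_
    have := (summable_geometric_of_lt_one (r := (1:ℝ) / 2) (by norm_num) (by norm_num)).sum_le_tsum
      (Finset.range m) (fun k _ => by positivity)
    rw [tsum_geometric_of_lt_one (by norm_num) (by norm_num)] at this
    norm_num at this ⊢
    linarith
  have hnn : ∀ j, 0 ≤ min (R j / r) (r / R j) := fun j =>
    le_min (div_nonneg (h0 j).le hr.le) (div_nonneg hr.le (h0 j).le)
  have h5 : ∑ j ∈ Finset.range n, min (R j / r) (r / R j) ≤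
      ∑ j ∈ Finset.range (J + n), min (R j / r) (r / R j) :=
    Finset.sum_le_sum_of_subset_of_nonneg (Finset.range_subset_range.mpr (by omega))
      fun j _ _ => hnn j
  refine h5.trans ?_
  rw [Finset.sum_range_add]
  have := hhigh n
  linarith

/-- `y^α exp(-y²/2) ≤ 48 min y (1/y)` with `α = 3+1/32`. -/
lemma profile_bound {y : ℝ} (hy : 0 < y) :
    y ^ (3 + 1 / 32 : ℝ) * exp (-y ^ 2 / 2) ≤ 48 * min y (1 / y) := by
  have hE : exp (-y ^ 2 / 2) ≤ 1 := by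
    rw [Real.exp_le_one_iff]
    have : 0 ≤ y ^ 2 := by positivity
    linarith
  have hEpos : 0 < exp (-y ^ 2 / 2) := exp_pos _
  rcases le_total y 1 with h | h
  · have h1 : y ^ (3 + 1 / 32 : ℝ) ≤ y ^ (1:ℝ) :=
      Real.rpow_le_rpow_of_exponent_ge hy h (by norm_num)
    rw [Real.rpow_one] at h1
    have h2 : y ≤ 1 / y := by
      rw [le_div_iff₀ hy]; nlinarith
    rw [min_eq_left h2]
    calc y ^ (3 + 1 / 32 : ℝ) * exp (-y ^ 2 / 2) ≤ y * 1 :=
          mul_le_mul h1 hE hEpos.le hy.le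
      _ ≤ 48 * y := by linarith
  · have h1 : y ^ (3 + 1 / 32 : ℝ) ≤ y ^ (4:ℝ) :=
      Real.rpow_le_rpow_of_exponent_le h (by norm_num)
    have h1' : y ^ (4:ℝ) = y ^ 4 := by norm_cast
    rw [h1'] at h1
    have h2 : 1 / y ≤ y := by
      rw [div_le_iff₀ hy]; nlinarith
    rw [min_eq_right h2]
    -- `exp (y²/2) ≥ (y²/2)³/3!`
    have h3 : (y ^ 2 / 2) ^ 3 / (Nat.factorial 3 : ℝ) ≤ exp (y ^ 2 / 2) :=
      Real.pow_div_factorial_le_exp _ (by positivity) 3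
    have h4 : exp (-y ^ 2 / 2) = (exp (y ^ 2 / 2))⁻¹ := by
      rw [← Real.exp_neg]; congr 1; ring
    rw [h4]
    have hp : 0 < exp (y ^ 2 / 2) := exp_pos _
    have h5 : y ^ 5 ≤ 48 * exp (y ^ 2 / 2) := by
      have : (Nat.factorial 3 : ℝ) = 6 := by norm_num [Nat.factorial]
      rw [this] at h3
      have h6 : y ^ 5 ≤ y ^ 6 := pow_le_pow_right₀ h (by norm_num)
      have h7 : (y ^ 2 / 2) ^ 3 / 6 = y ^ 6 / 48 := by ring
      rw [h7] at h3
      linarith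
    calc y ^ (3 + 1 / 32 : ℝ) * (exp (y ^ 2 / 2))⁻¹ ≤ y ^ 4 * (exp (y ^ 2 / 2))⁻¹ :=
          mul_le_mul_of_nonneg_right h1 (by positivity)
      _ ≤ 48 * (1 / y) := by
          rw [← div_eq_mul_inv, div_le_iff₀ hp]
          have : 48 * (1 / y) * exp (y ^ 2 / 2) = (48 * exp (y ^ 2 / 2)) / y := by
            field_simp
          rw [this, le_div_iff₀ hy]
          calc y ^ 4 * y = y ^ 5 := by ring
            _ ≤ _ := h5

/-- Rewriting a term of the series. -/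
lemma term_eq (K0 j : ℕ) (r : ℝ) :
    Ah K0 j * g (RR K0 j) r =
      2 ^ K0 * ((√(2 * π))⁻¹) ^ 3 * ((RR K0 j) ^ (-(3 + 1 / 32 : ℝ)) *
        exp (-r ^ 2 / (2 * (RR K0 j) ^ 2))) := by
  have ht := RR_pos K0 j
  have h1 : (RR K0 j) ^ (-(3 + 1 / 32 : ℝ)) = ((RR K0 j) ^ 3)⁻¹ * (2 ^ aa K0 j)⁻¹ := by
    rw [neg_add, Real.rpow_add ht]
    congr 1
    · rw [Real.rpow_neg ht.le]; norm_cast
    · rw [Real.rpow_neg ht.le]
      congr 1
      unfold RR
      rw [← Real.rpow_natCast, ← Real.rpow_mul (by norm_num)]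
      push_cast
      rw [show (32 * (aa K0 j : ℝ) * (1 / 32)) = (aa K0 j : ℝ) by ring, Real.rpow_natCast]
  rw [h1]
  unfold Ah g
  rw [mul_inv, mul_pow, inv_pow (RR K0 j)]
  ring

/-- Each term against the scale `r`. -/
lemma term_le {K0 : ℕ} {r : ℝ} (hr : 0 < r) (j : ℕ) :
    Ah K0 j * g (RR K0 j) r ≤
      2 ^ K0 * ((√(2 * π))⁻¹) ^ 3 * (r ^ (-(3 + 1 / 32 : ℝ)) *
        (48 * min (RR K0 j / r) (r / RR K0 j))) := by
  rw [term_eq]
  apply mul_le_mul_of_nonneg_left _ (by positivity)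
  have ht := RR_pos K0 j
  set t := RR K0 j
  set y := r / t with hy
  have hy0 : 0 < y := by positivity
  have h1 : t ^ (-(3 + 1 / 32 : ℝ)) = r ^ (-(3 + 1 / 32 : ℝ)) * y ^ (3 + 1 / 32 : ℝ) := by
    have e : t = r / y := by rw [hy]; field_simp
    conv_lhs => rw [e]
    rw [Real.div_rpow hr.le hy0.le, Real.rpow_neg hy0.le]
    field_simp
  have h2 : exp (-r ^ 2 / (2 * t ^ 2)) = exp (-y ^ 2 / 2) := by
    congr 1; rw [hy]; field_simp
  rw [h1, h2, mul_assoc]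
  apply mul_le_mul_of_nonneg_left _ (by positivity)
  have h3 := profile_bound hy0
  have h4 : t / r = 1 / y := by rw [hy]; field_simp
  rw [h4, min_comm]
  exact h3

/-- **Decay**: `w(r) ≤ C r^(-3-1/32)` for all `r > 0`. -/
theorem ww_decay {K0 : ℕ} (hK : 1 ≤ K0) {r : ℝ} (hr : 0 < r) :
    ww K0 r ≤ (2 ^ K0 * ((√(2 * π))⁻¹) ^ 3 * 192) * r ^ (-(3 + 1 / 32 : ℝ)) := by
  refine (summable_term hK r).tsum_le_of_sum_range_le fun n => ?_
  have h1 : ∑ j ∈ Finset.range n, Ah K0 j * g (RR K0 j) r ≤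
      ∑ j ∈ Finset.range n, 2 ^ K0 * ((√(2 * π))⁻¹) ^ 3 * (r ^ (-(3 + 1 / 32 : ℝ)) *
        (48 * min (RR K0 j / r) (r / RR K0 j))) :=
    Finset.sum_le_sum fun j _ => term_le hr j
  refine h1.trans ?_
  rw [← Finset.mul_sum, ← Finset.mul_sum, ← Finset.mul_sum]
  have h2 := lacunary_sum (R := RR K0) (RR_pos K0) (fun j => RR_lacunary K0 j hK) hr n
  have h3 : 0 < r ^ (-(3 + 1 / 32 : ℝ)) := by positivity
  have h4 : (0:ℝ) < 2 ^ K0 * ((√(2 * π))⁻¹) ^ 3 := by positivity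
  calc 2 ^ K0 * ((√(2 * π))⁻¹) ^ 3 * (r ^ (-(3 + 1 / 32 : ℝ)) *
        (48 * ∑ j ∈ Finset.range n, min (RR K0 j / r) (r / RR K0 j)))
      ≤ 2 ^ K0 * ((√(2 * π))⁻¹) ^ 3 * (r ^ (-(3 + 1 / 32 : ℝ)) * (48 * 4)) := by
        apply mul_le_mul_of_nonneg_left _ h4.le
        apply mul_le_mul_of_nonneg_left _ h3.le
        linarith
    _ = _ := by ring

/-- The decay constant. -/
noncomputable def Cdecay (K0 : ℕ) : ℝ := 2 ^ K0 * ((√(2 * π))⁻¹) ^ 3 * 192

lemma Cdecay_pos (K0 : ℕ) : 0 < Cdecay K0 := by unfold Cdecay; positivity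

/-- `r² w(r)` is integrable at infinity. -/
theorem integrableOn_sq_ww {K0 : ℕ} (hK : 1 ≤ K0) {R0 : ℝ} (hR0 : 0 < R0) :
    IntegrableOn (fun r : ℝ => r ^ 2 * |ww K0 r|) (Set.Ioi R0) := by
  have hdom : IntegrableOn (fun r : ℝ => Cdecay K0 * r ^ (-(1 + 1 / 32) : ℝ)) (Set.Ioi R0) :=
    (integrableOn_Ioi_rpow_of_lt (by norm_num) hR0).const_mul _
  refine Integrable.mono' hdom ?_ ?_
  · exact (((continuous_pow 2).mul (continuous_ww hK).abs).aestronglyMeasurable).restrict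
  · refine (ae_restrict_iff' measurableSet_Ioi).mpr (Eventually.of_forall fun r hr => ?_)
    have hr0 : 0 < r := lt_trans hR0 hr
    have h1 := ww_decay hK hr0
    rw [Real.norm_eq_abs, abs_of_nonneg (by positivity), abs_of_nonneg (ww_nonneg r)]
    have h2 : r ^ 2 * r ^ (-(3 + 1 / 32 : ℝ)) = r ^ (-(1 + 1 / 32) : ℝ) := by
      rw [← Real.rpow_natCast r 2, ← Real.rpow_add hr0]
      norm_num
    calc r ^ 2 * ww K0 r ≤ r ^ 2 * (Cdecay K0 * r ^ (-(3 + 1 / 32 : ℝ))) :=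
          mul_le_mul_of_nonneg_left h1 (by positivity)
      _ = Cdecay K0 * (r ^ 2 * r ^ (-(3 + 1 / 32 : ℝ))) := by ring
      _ = _ := by rw [h2]

/-- `r³ w(r) → 0`. -/
theorem tendsto_cube_ww {K0 : ℕ} (hK : 1 ≤ K0) :
    Tendsto (fun r : ℝ => r ^ 3 * ww K0 r) atTop (nhds 0) := by
  have h1 : Tendsto (fun r : ℝ => Cdecay K0 * r ^ (-(1 / 32 : ℝ))) atTop (nhds 0) := by
    have := (tendsto_rpow_neg_atTop (y := 1 / 32) (by norm_num)).const_mul (Cdecay K0)
    simpa using this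
  refine tendsto_of_tendsto_of_tendsto_of_le_of_le' tendsto_const_nhds h1 ?_ ?_
  · filter_upwards [eventually_ge_atTop (0:ℝ)] with r hr
    exact mul_nonneg (by positivity) (ww_nonneg r)
  · filter_upwards [eventually_gt_atTop (0:ℝ)] with r hr
    have h2 := ww_decay hK hr
    have h3 : r ^ 3 * r ^ (-(3 + 1 / 32 : ℝ)) = r ^ (-(1 / 32 : ℝ)) := by
      rw [← Real.rpow_natCast r 3, ← Real.rpow_add hr]
      norm_num
    calc r ^ 3 * ww K0 r ≤ r ^ 3 * (Cdecay K0 * r ^ (-(3 + 1 / 32 : ℝ))) :=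
          mul_le_mul_of_nonneg_left h2 (by positivity)
      _ = Cdecay K0 * (r ^ 3 * r ^ (-(3 + 1 / 32 : ℝ))) := by ring
      _ = _ := by rw [h3]

/-! ### Linearity of the energy -/

lemma energy_add {N : ℕ} (f h : ℝ → ℝ) (x : Fin N → Pt) :
    energy (fun r => f r + h r) x = energy f x + energy h x := by
  unfold energy
  rw [Finset.sum_add_distrib]

lemma energy_sub {N : ℕ} (f h : ℝ → ℝ) (x : Fin N → Pt) :
    energy (fun r => f r - h r) x = energy f x - energy h x := by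
  unfold energy
  rw [Finset.sum_sub_distrib]

lemma energy_const_mul {N : ℕ} (c : ℝ) (f : ℝ → ℝ) (x : Fin N → Pt) :
    energy (fun r => c * f r) x = c * energy f x := by
  unfold energy
  rw [Finset.mul_sum]

lemma energy_nonneg_of_nonneg {N : ℕ} {f : ℝ → ℝ} (hf : ∀ r, 0 ≤ f r) (x : Fin N → Pt) :
    0 ≤ energy f x :=
  Finset.sum_nonneg fun _ _ => hf _

lemma energy_mono {N : ℕ} {f h : ℝ → ℝ} (hf : ∀ r, f r ≤ h r) (x : Fin N → Pt) :
    energy f x ≤ energy h x :=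
  Finset.sum_le_sum fun _ _ => hf _

lemma summable_energy_term {K0 N : ℕ} (hK : 1 ≤ K0) (x : Fin N → Pt) :
    Summable (fun j => Ah K0 j * energy (g (RR K0 j)) x) := by
  have h : (fun j => Ah K0 j * energy (g (RR K0 j)) x) = fun j =>
      ∑ p : {p : Fin N × Fin N // p.1 < p.2}, Ah K0 j * g (RR K0 j) (dist (x p.1.1) (x p.1.2)) := by
    funext j
    unfold energy
    rw [Finset.mul_sum]
  rw [h]
  exact summable_sum fun p _ => summable_term hK _

/-- The energy of the series is the series of the energies. -/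
theorem energy_ww {K0 N : ℕ} (hK : 1 ≤ K0) (x : Fin N → Pt) :
    energy (ww K0) x = ∑' j, Ah K0 j * energy (g (RR K0 j)) x := by
  have h : (fun j => Ah K0 j * energy (g (RR K0 j)) x) = fun j =>
      ∑ p : {p : Fin N × Fin N // p.1 < p.2}, Ah K0 j * g (RR K0 j) (dist (x p.1.1) (x p.1.2)) := by
    funext j
    unfold energy
    rw [Finset.mul_sum]
  rw [h, Summable.tsum_finsetSum (fun p _ => summable_term hK _)]
  rfl

/-! ### Lower and upper parts -/

/-- `w_{<m}`. -/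
noncomputable def wlo (K0 m : ℕ) (r : ℝ) : ℝ := ∑ j ∈ Finset.range m, Ah K0 j * g (RR K0 j) r

/-- `w_{≥m}`. -/
noncomputable def whi (K0 m : ℕ) (r : ℝ) : ℝ := ∑' j, Ah K0 (m + j) * g (RR K0 (m + j)) r

/-- `Γ^true_m = ∑_{j ≥ m} Â_j`. -/
noncomputable def Gam (K0 m : ℕ) : ℝ := ∑' j, Ah K0 (m + j)

lemma summable_term_shift {K0 : ℕ} (hK : 1 ≤ K0) (m : ℕ) (r : ℝ) :
    Summable (fun j => Ah K0 (m + j) * g (RR K0 (m + j)) r) := by
  have := (summable_nat_add_iff (f := fun j => Ah K0 j * g (RR K0 j) r) m).mpr (summable_term hK r)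
  simpa [add_comm] using this

lemma summable_Ah_shift {K0 : ℕ} (hK : 1 ≤ K0) (m : ℕ) : Summable (fun j => Ah K0 (m + j)) := by
  have := (summable_nat_add_iff (f := fun j => Ah K0 j) m).mpr (summable_Ah hK)
  simpa [add_comm] using this

lemma ww_eq_add {K0 : ℕ} (hK : 1 ≤ K0) (m : ℕ) (r : ℝ) : ww K0 r = wlo K0 m r + whi K0 m r := by
  unfold ww wlo whi
  have := (summable_term hK r).sum_add_tsum_nat_add m
  simp only [add_comm _ m] at this
  exact this.symm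

lemma wlo_nonneg (K0 m : ℕ) (r : ℝ) : 0 ≤ wlo K0 m r :=
  Finset.sum_nonneg fun j _ => mul_nonneg (Ah_pos K0 j).le (g_nonneg (RR_pos K0 j) r)

lemma whi_nonneg (K0 m : ℕ) (r : ℝ) : 0 ≤ whi K0 m r :=
  tsum_nonneg fun _ => mul_nonneg (Ah_pos _ _).le (g_nonneg (RR_pos _ _) r)

lemma continuous_wlo (K0 m : ℕ) : Continuous (wlo K0 m) := by
  unfold wlo
  exact continuous_finsetSum _ fun j _ => continuous_const.mul continuous_g

lemma continuous_whi {K0 : ℕ} (hK : 1 ≤ K0) (m : ℕ) : Continuous (whi K0 m) := by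
  have h : whi K0 m = fun r => ww K0 r - wlo K0 m r := by
    funext r
    rw [ww_eq_add hK m r]; ring
  rw [h]
  exact (continuous_ww hK).sub (continuous_wlo K0 m)

lemma Gam_pos {K0 : ℕ} (hK : 1 ≤ K0) (m : ℕ) : 0 < Gam K0 m :=
  (summable_Ah_shift hK m).tsum_pos (fun _ => (Ah_pos K0 _).le) 0 (Ah_pos K0 _)

lemma Gam_eq {K0 : ℕ} (hK : 1 ≤ K0) (m : ℕ) : Gam K0 m = Ah K0 m + Gam K0 (m + 1) := by
  unfold Gam
  have h := (summable_Ah_shift hK m).sum_add_tsum_nat_add 1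
  simp only [Finset.sum_range_one, add_zero] at h
  rw [← h]
  congr 1
  exact tsum_congr fun j => by congr 1; omega

/-- Tail of the amplitudes: `∑_{j>m} Â_j ≤ 2 Â_{m+1}` -/
lemma Gam_le {K0 : ℕ} (hK : 1 ≤ K0) (m : ℕ) : Gam K0 m ≤ 2 * Ah K0 m := by
  have hstep : ∀ j, Ah K0 (m + j) ≤ Ah K0 m * (1 / 2) ^ j := by
    intro j
    induction j with
    | zero => simp
    | succ j ih =>
      rw [← add_assoc, Ah_succ, pow_succ, ← mul_assoc]
      have h2 : (2:ℝ) ≤ 2 ^ aa K0 (m + j) := by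
        calc (2:ℝ) = 2 ^ 1 := by norm_num
          _ ≤ _ := pow_le_pow_right₀ (by norm_num) (by have := aa_ge hK (m + j); omega)
      rw [div_le_iff₀ (by positivity)]
      have hA := Ah_pos K0 (m + j)
      have h3 : Ah K0 m * (1 / 2) ^ j * (1 / 2) * 2 ^ aa K0 (m + j) ≥ Ah K0 m * (1 / 2) ^ j := by
        have h4 : 0 ≤ Ah K0 m * (1 / 2) ^ j := by have := Ah_pos K0 m; positivity
        nlinarith
      linarith
  have h1 := (summable_Ah_shift hK m).tsum_le_tsum hstep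
    ((summable_geometric_of_lt_one (r := (1:ℝ) / 2) (by norm_num) (by norm_num)).mul_left _)
  unfold Gam
  refine h1.trans (le_of_eq ?_)
  rw [tsum_mul_left, tsum_geometric_of_lt_one (by norm_num) (by norm_num)]
  norm_num
  ring

/-! ### The lengths `ℓ_m` -/

/-- `ℓ_m = 2^(31 a_m - m - e₀)`. -/
def ell (K0 e0 m : ℕ) : ℕ := 2 ^ (31 * aa K0 m - m - e0)

/-- `ε_m = 2^(-m-e₀)`. -/
noncomputable def eps (e0 m : ℕ) : ℝ := 1 / 2 ^ (m + e0)

lemma ell_pos (K0 e0 m : ℕ) : 0 < ell K0 e0 m := by unfold ell; positivity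

/-- No truncation in the natural subtraction once `K₀` beats `e₀`. -/
lemma ell_exp_ok {K0 e0 : ℕ} (hK : e0 + 1 ≤ K0) (m : ℕ) : m + e0 ≤ 31 * aa K0 m := by
  have h1 : K0 ≤ aa K0 m := by
    unfold aa
    exact Nat.le_mul_of_pos_right _ (by positivity)
  have h2 := aa_ge (K0 := K0) (by omega) m
  omega

lemma ell_dvd_succ {K0 e0 : ℕ} (hK : e0 + 1 ≤ K0) (m : ℕ) :
    ell K0 e0 m ∣ ell K0 e0 (m + 1) := by
  unfold ell
  apply pow_dvd_pow
  have h1 := ell_exp_ok hK m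
  have h2 := ell_exp_ok hK (m + 1)
  rw [aa_succ] at h2 ⊢
  have h3 := aa_ge (K0 := K0) (by omega) m
  omega

/-- **Design relation** `ℓ_m / R_m = ε_m Â_{m+1} / Â_m`. -/
theorem ell_div_RR {K0 e0 : ℕ} (hK : e0 + 1 ≤ K0) (m : ℕ) :
    (ell K0 e0 m : ℝ) / RR K0 m = eps e0 m * (Ah K0 (m + 1) / Ah K0 m) := by
  have h1 := ell_exp_ok hK m
  have hA := Ah_pos K0 m
  rw [Ah_succ]
  have h2 : Ah K0 m / 2 ^ aa K0 m / Ah K0 m = 1 / 2 ^ aa K0 m := by
    field_simp
  rw [h2]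
  unfold ell RR eps
  push_cast
  rw [div_mul_div_comm, one_mul, div_eq_div_iff (by positivity) (by positivity),
    one_mul, ← pow_add, ← pow_add]
  congr 1
  omega

end Crest.Agent.TL.Series
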