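import Crest.Agent.TL.Splitting
import Crest.Agent.TL.Cells
import Crest.Agent.TL.Packing

set_option autoImplicit false

namespace Crest.Agent.TL.Splitting

open Finset MeasureTheory Crest.ProbabilityR.Continuum Crest.Agent.TL.Cells

variable {N : ℕ}

lemma monoE_eq_sameEnergy (s : ℝ → ℝ) {q : ℕ} (x : Fin N → Pt) (col : Fin N → Fin q) :
    monoE s x col = sameEnergy s col x := rfl

lemma measurable_sameEnergy {s : ℝ → ℝ} (hs : Measurable s) {q : ℕ} (col : Fin N → Fin q) :
    Measurable (fun x : Fin N → Pt => sameEnergy s col x) := by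
  unfold sameEnergy
  refine Finset.measurable_sum _ fun p _ => ?_
  by_cases h : col p.1.1 = col p.1.2
  · simp only [h, if_true]
    exact hs.comp ((measurable_pi_apply _).dist (measurable_pi_apply _))
  · simp only [h, if_false]
    exact measurable_const

lemma sameEnergy_nonneg {s : ℝ → ℝ} (hs0 : ∀ r, 0 ≤ s r) {q : ℕ} (col : Fin N → Fin q)
    (x : Fin N → Pt) : 0 ≤ sameEnergy s col x := by
  unfold sameEnergy
  refine Finset.sum_nonneg fun p _ => ?_
  split_ifs
  · exact hs0 _
  · exact le_rfl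

lemma energy_nonneg' {s : ℝ → ℝ} (hs0 : ∀ r, 0 ≤ s r) {k : ℕ} (y : Fin k → Pt) :
    0 ≤ energy s y := Finset.sum_nonneg fun _ _ => hs0 _

lemma indep_le_of_packing (L : ℝ) (P : ℕ)
    (hP : ∀ X : Finset Pt, (∀ x ∈ X, x ∈ cube L) → (∀ x ∈ X, ∀ y ∈ X, x ≠ y → 1 ≤ dist x y) → #X ≤ P)
    (x : Fin N → Pt) (hx : ∀ i, x i ∈ cube L) (I : Finset (Fin N))
    (hI : ∀ a ∈ I, ∀ b ∈ I, a ≠ b → ¬ dist (x a) (x b) < 1) : #I ≤ P := by
  classical
  have hinj : Set.InjOn x (I : Set (Fin N)) := by
    intro a ha b hb hab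
    by_contra hne
    have := hI a ha b hb hne
    rw [hab, dist_self] at this
    exact this one_pos
  rw [← Finset.card_image_of_injOn hinj]
  apply hP
  · intro y hy
    obtain ⟨a, _, rfl⟩ := mem_image.1 hy
    exact hx a
  · intro y hy z hz hyz
    obtain ⟨a, ha, rfl⟩ := mem_image.1 hy
    obtain ⟨b, hb, rfl⟩ := mem_image.1 hz
    have hab : a ≠ b := fun h => hyz (by rw [h])
    exact not_lt.1 (hI a ha b hb hab)

/-- **Splitting**, the integrated form: `Z_N ≤ 2^{-P} exp(-β U ((j+1) N - P (j+2)(j+1)/2)) ∑ ∏ Z_{n_q}`,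
the sum over the occupation numbers `n : Fin (j+2) → ℕ` with total `N`. -/
theorem partitionFn_splitting (s : ℝ → ℝ) (hsm : Measurable s) (U β L : ℝ) (hs0 : ∀ r, 0 ≤ s r)
    (hsU : ∀ r, r < 1 → U ≤ s r) (hU : 0 ≤ U) (hβ : 0 ≤ β) (hlog : Real.log 2 ≤ β * U) (P : ℕ)
    (hP : ∀ X : Finset Pt, (∀ x ∈ X, x ∈ cube L) → (∀ x ∈ X, ∀ y ∈ X, x ≠ y → 1 ≤ dist x y) → #X ≤ P)
    (N j : ℕ) :
    partitionFn s L N β ≤
      (1 / 2 : ℝ) ^ P * Real.exp (-β * U * ((j + 1) * N - P * ((j + 2) * (j + 1) / 2))) *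
        ∑ k ∈ piAntidiag (univ : Finset (Fin (j + 2))) N, ∏ q, partitionFn s L (k q) β := by
  classical
  set pre : ℝ := (1 / 2 : ℝ) ^ P * Real.exp (-β * U * ((j + 1) * N - P * ((j + 2) * (j + 1) / 2)))
    with hpre
  have hpre0 : 0 ≤ pre := by positivity
  have hDm : MeasurableSet (Set.pi Set.univ (fun _ : Fin N => cube L)) :=
    MeasurableSet.univ_pi fun _ => measurableSet_cube L
  have hfin : volume (Set.pi Set.univ (fun _ : Fin N => cube L)) ≠ ⊤ := by
    rw [volume_pi, Measure.pi_pi]
    exact ENNReal.prod_ne_top fun _ _ => volume_cube_ne_top L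
  have hst : ∀ (k : ℕ) (y : Fin k → Pt), -(0:ℝ) * k ≤ energy s y := by
    intro k y
    simpa using energy_nonneg' hs0 y
  have hint1 : IntegrableOn (fun x : Fin N → Pt => Real.exp (-β * energy s x))
      (Set.pi Set.univ (fun _ : Fin N => cube L)) :=
    integrableOn_gibbs hsm hst hβ (volume_cube_ne_top L) N
  have hintc : ∀ col : Fin N → Fin (j + 2),
      IntegrableOn (fun x : Fin N → Pt => Real.exp (-β * sameEnergy s col x))
        (Set.pi Set.univ (fun _ : Fin N => cube L)) := by
    intro col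
    refine Measure.integrableOn_of_bounded (M := 1) hfin ?_ ?_
    · exact (Real.measurable_exp.comp
        ((measurable_sameEnergy hsm col).const_mul (-β))).aestronglyMeasurable
    · refine Filter.Eventually.of_forall fun y => ?_
      rw [Real.norm_eq_abs, abs_of_pos (Real.exp_pos _)]
      apply Real.exp_le_one_iff.2
      have := sameEnergy_nonneg hs0 col y
      nlinarith
  have hint2 : IntegrableOn (fun x : Fin N → Pt =>
      pre * ∑ col : Fin N → Fin (j + 2), Real.exp (-β * sameEnergy s col x))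
      (Set.pi Set.univ (fun _ : Fin N => cube L)) := by
    apply Integrable.const_mul
    exact integrable_finsetSum _ (fun col _ => hintc col)
  have hmono : ∫ x in Set.pi Set.univ (fun _ : Fin N => cube L), Real.exp (-β * energy s x) ≤
      ∫ x in Set.pi Set.univ (fun _ : Fin N => cube L),
        pre * ∑ col : Fin N → Fin (j + 2), Real.exp (-β * sameEnergy s col x) := by
    refine setIntegral_mono_on hint1 hint2 hDm ?_
    intro x hx
    have hx' : ∀ i, x i ∈ cube L := fun i => hx i (Set.mem_univ _)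
    have := exp_energy_le s U β hs0 hsU hU hβ hlog x P j
      (fun I hI => indep_le_of_packing L P hP x hx' I hI)
    simpa only [monoE_eq_sameEnergy] using this
  have hmaster := master (N := N) (fun _ : Fin (j + 2) => cube L)
    (fun _ => measurableSet_cube L) (fun _ k y => Real.exp (-β * energy s y))
  have hprod : ∀ (a : Fin N → Fin (j + 2)) (x : Fin N → Pt),
      ∏ q, Real.exp (-β * energy s (fun i => x (emb a q i))) =
        Real.exp (-β * sameEnergy s a x) := by
    intro a x
    rw [← Real.exp_sum, ← Finset.mul_sum, sum_energy_fibre]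
  simp_rw [hprod] at hmaster
  unfold partitionFn
  have h2 : (∫ x in Set.pi Set.univ (fun _ : Fin N => cube L),
        pre * ∑ col : Fin N → Fin (j + 2), Real.exp (-β * sameEnergy s col x)) =
      pre * ∑ col : Fin N → Fin (j + 2),
        ∫ x in Set.pi Set.univ (fun _ : Fin N => cube L), Real.exp (-β * sameEnergy s col x) := by
    rw [integral_const_mul, integral_finsetSum _ (fun col _ => hintc col)]
  calc (1 / (N.factorial : ℝ)) * ∫ x in Set.pi Set.univ (fun _ : Fin N => cube L),
        Real.exp (-β * energy s x)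
      ≤ (1 / (N.factorial : ℝ)) * (pre * ∑ col : Fin N → Fin (j + 2),
        ∫ x in Set.pi Set.univ (fun _ : Fin N => cube L), Real.exp (-β * sameEnergy s col x)) := by
        apply mul_le_mul_of_nonneg_left _ (by positivity)
        rw [← h2]
        exact hmono
    _ = pre * ((1 / (N.factorial : ℝ)) * ∑ col : Fin N → Fin (j + 2),
        ∫ x in Set.pi Set.univ (fun _ : Fin N => cube L), Real.exp (-β * sameEnergy s col x)) := by
        ring
    _ = _ := by rw [hmaster]

/-- **Splitting** with `P = packingNumber L`. -/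
theorem partitionFn_splitting_packing (s : ℝ → ℝ) (hsm : Measurable s) (U β L : ℝ)
    (hs0 : ∀ r, 0 ≤ s r) (hsU : ∀ r, r < 1 → U ≤ s r) (hU : 0 ≤ U) (hβ : 0 ≤ β)
    (hlog : Real.log 2 ≤ β * U) (N j : ℕ) :
    partitionFn s L N β ≤
      (1 / 2 : ℝ) ^ packingNumber L *
        Real.exp (-β * U * ((j + 1) * N - packingNumber L * ((j + 2) * (j + 1) / 2))) *
        ∑ k ∈ piAntidiag (univ : Finset (Fin (j + 2))) N, ∏ q, partitionFn s L (k q) β :=
  partitionFn_splitting s hsm U β L hs0 hsU hU hβ hlog (packingNumber L)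
    (fun X hX hsep => Crest.Agent.TL.Packing.le_packingNumber ⟨X, rfl, hX, hsep⟩) N j

end Crest.Agent.TL.Splitting
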