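import Mathlib
import Crest.Prelude.Def_PairPotential

/-!
# Turan layers and the splitting colourings (module S of the S0209/S0210 blueprint)

Combinatorics of a symmetric relation `G` on `Fin N` all of whose independent sets have at most `P`
elements:

* `turan_layers`: `k N - P k (k+1) / 2 ≤ #edges`;
* `exists_colourings`: for `j + 2` colours there are `c ≤ P` and `2 ^ c` colourings with
  `(j+1) N - P j (j+3) / 2 - c` bichromatic edges each.
-/

set_option autoImplicit false

namespace Crest.Agent.TL.Splitting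

open Finset

variable {N : ℕ}

/-- Pairs `a < b` inside `S` with `G a b` and `Q a b`. -/
def cnt (G Q : Fin N → Fin N → Prop) [DecidableRel G] [DecidableRel Q] (S : Finset (Fin N)) : ℕ :=
  #{p ∈ S ×ˢ S | p.1 < p.2 ∧ G p.1 p.2 ∧ Q p.1 p.2}

/-- Maximal independent subset. -/
lemma exists_maximal_indep (G : Fin N → Fin N → Prop) (hs : ∀ a b, G a b → G b a)
    (S : Finset (Fin N)) :
    ∃ I ⊆ S, (∀ a ∈ I, ∀ b ∈ I, a ≠ b → ¬ G a b) ∧ ∀ v ∈ S, v ∉ I → ∃ u ∈ I, G v u := by
  classical
  induction S using Finset.induction_on with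
  | empty => exact ⟨∅, by simp, by simp, by simp⟩
  | insert w S hw ih =>
    obtain ⟨I, hIS, hind, hmax⟩ := ih
    by_cases h : ∃ u ∈ I, G w u
    · refine ⟨I, hIS.trans (subset_insert _ _), hind, ?_⟩
      intro v hv hvI
      rcases mem_insert.1 hv with rfl | hv
      · exact h
      · exact hmax v hv hvI
    · push Not at h
      refine ⟨insert w I, insert_subset_insert _ hIS, ?_, ?_⟩
      · intro a ha b hb hab
        rcases mem_insert.1 ha with ha' | ha' <;> rcases mem_insert.1 hb with hb' | hb'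
        · exact absurd (ha'.trans hb'.symm) hab
        · rw [ha']; exact h b hb'
        · rw [hb']; exact fun hG => h a ha' (hs _ _ hG)
        · exact hind a ha' b hb' hab
      · intro v hv hvI
        rcases mem_insert.1 hv with rfl | hv
        · exact absurd (mem_insert_self _ _) hvI
        · have : v ∉ I := fun hh => hvI (mem_insert_of_mem hh)
          obtain ⟨u, hu, huv⟩ := hmax v hv this
          exact ⟨u, mem_insert_of_mem hu, huv⟩

/-- The pair `(a,b)` sorted. -/
def srt (a b : Fin N) : Fin N × Fin N := if a < b then (a, b) else (b, a)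

/-- The star count: `v ↦ {v, par v}` is injective on the vertices outside `I`. -/
lemma star_step (G Q : Fin N → Fin N → Prop) [DecidableRel G] [DecidableRel Q]
    (hs : ∀ a b, G a b → G b a) (hQ : ∀ a b, Q a b → Q b a)
    (S I : Finset (Fin N)) (hI : I ⊆ S) (par : Fin N → Fin N)
    (hpar : ∀ v ∈ S, v ∉ I → par v ∈ I ∧ G v (par v) ∧ Q v (par v) ∧ v ≠ par v) :
    #(S \ I) + cnt G Q (S \ I) ≤ cnt G Q S := by
  classical
  set A : Finset (Fin N × Fin N) := {p ∈ S ×ˢ S | p.1 < p.2 ∧ G p.1 p.2 ∧ Q p.1 p.2 ∧ (p.1 ∈ I ∨ p.2 ∈ I)}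
  have h1 : #(S \ I) ≤ #A := by
    refine Finset.card_le_card_of_injOn (fun v => srt v (par v)) ?_ ?_
    · intro v hv
      have hv' := mem_sdiff.1 (by simpa using hv)
      obtain ⟨hp, hG, hq, hne⟩ := hpar v hv'.1 hv'.2
      have hpS := hI hp
      simp only [A, srt, coe_filter, Set.mem_ofPred_eq, mem_product]
      split_ifs with hlt
      · exact ⟨⟨hv'.1, hpS⟩, hlt, hG, hq, Or.inr hp⟩
      · have : par v < v := lt_of_le_of_ne (not_lt.1 hlt) (Ne.symm hne)
        exact ⟨⟨hpS, hv'.1⟩, this, hs _ _ hG, hQ _ _ hq, Or.inl hp⟩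
    · intro v hv v' hv' heq
      have hv1 := mem_sdiff.1 (by simpa using hv)
      have hv2 := mem_sdiff.1 (by simpa using hv')
      obtain ⟨hp, -, -, -⟩ := hpar v hv1.1 hv1.2
      obtain ⟨hp', -, -, -⟩ := hpar v' hv2.1 hv2.2
      simp only [srt] at heq
      split_ifs at heq with h1 h2 h2 <;> simp only [Prod.mk.injEq] at heq
      · exact heq.1
      · exact absurd (heq.1 ▸ hp') hv1.2
      · exact absurd (heq.1 ▸ hp) hv2.2
      · exact heq.2
  have h2 : Disjoint A ({p ∈ (S \ I) ×ˢ (S \ I) | p.1 < p.2 ∧ G p.1 p.2 ∧ Q p.1 p.2}) := by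
    rw [Finset.disjoint_left]
    intro p hp hp'
    simp only [A, mem_filter, mem_product, mem_sdiff] at hp hp'
    rcases hp.2.2.2.2 with h | h
    · exact hp'.1.1.2 h
    · exact hp'.1.2.2 h
  have h3 : A ∪ ({p ∈ (S \ I) ×ˢ (S \ I) | p.1 < p.2 ∧ G p.1 p.2 ∧ Q p.1 p.2}) ⊆
      ({p ∈ S ×ˢ S | p.1 < p.2 ∧ G p.1 p.2 ∧ Q p.1 p.2}) := by
    intro p hp
    simp only [A, mem_union, mem_filter, mem_product, mem_sdiff] at hp ⊢
    rcases hp with hp | hp
    · exact ⟨hp.1, hp.2.1, hp.2.2.1, hp.2.2.2.1⟩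
    · exact ⟨⟨hp.1.1.1, hp.1.2.1⟩, hp.2⟩
  have h4 := Finset.card_le_card h3
  rw [Finset.card_union_of_disjoint h2] at h4
  unfold cnt
  omega

/-- **Turan layers**: if independent sets have at most `P` elements then
`2 k |S| ≤ 2 e(S) + P k (k+1)`. -/
theorem turan_layers (G : Fin N → Fin N → Prop) [DecidableRel G] (hs : ∀ a b, G a b → G b a)
    (P : ℕ) (hP : ∀ I : Finset (Fin N), (∀ a ∈ I, ∀ b ∈ I, a ≠ b → ¬ G a b) → #I ≤ P) (k : ℕ) :
    ∀ S : Finset (Fin N),
      2 * k * #S ≤ 2 * cnt G (fun _ _ => True) S + P * (k * (k + 1)) := by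
  classical
  induction k with
  | zero => intro S; simp
  | succ k ih =>
    intro S
    obtain ⟨I, hIS, hind, hmax⟩ := exists_maximal_indep G hs S
    have hpar : ∀ v, ∃ u, v ∈ S → v ∉ I → u ∈ I ∧ G v u := by
      intro v
      by_cases h : v ∈ S ∧ v ∉ I
      · obtain ⟨u, hu, hG⟩ := hmax v h.1 h.2
        exact ⟨u, fun _ _ => ⟨hu, hG⟩⟩
      · exact ⟨v, fun h1 h2 => absurd ⟨h1, h2⟩ h⟩
    choose par hpar using hpar
    have hstep := star_step G (fun _ _ => True) hs (fun _ _ _ => trivial) S I hIS par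
      (fun v hv hvI => ⟨(hpar v hv hvI).1, (hpar v hv hvI).2, trivial,
        fun h => hvI (h ▸ (hpar v hv hvI).1)⟩)
    have hcard := hP I hind
    have hih := ih (S \ I)
    have hsd : #(S \ I) + #I = #S := by
      rw [Finset.card_sdiff_of_subset hIS]
      exact Nat.sub_add_cancel (Finset.card_le_card hIS)
    have hS : #S ≤ #(S \ I) + P := by omega
    have hm : 2 * (k + 1) * #S ≤ 2 * (k + 1) * (#(S \ I) + P) := Nat.mul_le_mul_left _ hS
    nlinarith

/-- **Colourings**: with `j + 2` colours. `c ≤ P`, and `2 ^ c` colourings, vanishing outside `S`,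
each having at least `(j+1) |S| - c - P j (j+3) / 2` bichromatic edges inside `S`. -/
theorem exists_colourings (G : Fin N → Fin N → Prop) [DecidableRel G] (hs : ∀ a b, G a b → G b a)
    (P : ℕ) (hP : ∀ I : Finset (Fin N), (∀ a ∈ I, ∀ b ∈ I, a ≠ b → ¬ G a b) → #I ≤ P) (j : ℕ) :
    ∀ S : Finset (Fin N), ∃ c, c ≤ P ∧ ∃ Cs : Finset (Fin N → Fin (j + 2)), #Cs = 2 ^ c ∧
      ∀ col ∈ Cs, (∀ v, v ∉ S → col v = 0) ∧
        2 * (j + 1) * #S ≤ 2 * cnt G (fun a b => col a ≠ col b) S + 2 * c + P * (j * (j + 3)) := by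
  classical
  induction j with
  | zero =>
    intro S
    obtain ⟨I, hIS, hind, hmax⟩ := exists_maximal_indep G hs S
    have hpar : ∀ v, ∃ u, v ∈ S → v ∉ I → u ∈ I ∧ G v u := by
      intro v
      by_cases h : v ∈ S ∧ v ∉ I
      · obtain ⟨u, hu, hG⟩ := hmax v h.1 h.2
        exact ⟨u, fun _ _ => ⟨hu, hG⟩⟩
      · exact ⟨v, fun h1 h2 => absurd ⟨h1, h2⟩ h⟩
    choose par hpar using hpar
    let f : Finset (Fin N) → Fin N → Fin 2 := fun W v =>
      if v ∈ S then
        (if v ∈ I then (if v ∈ W then 1 else 0) else (if par v ∈ W then 0 else 1))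
      else 0
    have hf : Set.InjOn f (I.powerset : Set (Finset (Fin N))) := by
      intro W hW W' hW' h
      have hW1 : W ⊆ I := by simpa using hW
      have hW2 : W' ⊆ I := by simpa using hW'
      have key : ∀ v ∈ I, (v ∈ W ↔ v ∈ W') := by
        intro v hv
        have := congrFun h v
        simp only [f, hIS hv, hv, if_true] at this
        by_cases h1 : v ∈ W <;> by_cases h2 : v ∈ W' <;> simp_all
      ext v
      constructor
      · intro hv; exact (key v (hW1 hv)).1 hv
      · intro hv; exact (key v (hW2 hv)).2 hv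
    refine ⟨#I, hP I hind, I.powerset.image f, ?_, ?_⟩
    · rw [Finset.card_image_of_injOn hf, Finset.card_powerset]
    · intro col hcol
      obtain ⟨W, hW, rfl⟩ := mem_image.1 hcol
      refine ⟨fun v hv => by simp [f, hv], ?_⟩
      have hstep := star_step G (fun a b => f W a ≠ f W b) hs (fun a b h => Ne.symm h) S I hIS par
        (fun v hv hvI => by
          have hh := hpar v hv hvI
          refine ⟨hh.1, hh.2, ?_, fun h => hvI (h ▸ hh.1)⟩
          simp only [f, hv, hvI, hh.1, hIS hh.1, if_true, if_false]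
          by_cases h1 : par v ∈ W <;> simp [h1])
      have hsd : #(S \ I) + #I = #S := by
        rw [Finset.card_sdiff_of_subset hIS]
        exact Nat.sub_add_cancel (Finset.card_le_card hIS)
      omega
  | succ j ih =>
    intro S
    obtain ⟨I, hIS, hind, hmax⟩ := exists_maximal_indep G hs S
    have hpar : ∀ v, ∃ u, v ∈ S → v ∉ I → u ∈ I ∧ G v u := by
      intro v
      by_cases h : v ∈ S ∧ v ∉ I
      · obtain ⟨u, hu, hG⟩ := hmax v h.1 h.2
        exact ⟨u, fun _ _ => ⟨hu, hG⟩⟩
      · exact ⟨v, fun h1 h2 => absurd ⟨h1, h2⟩ h⟩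
    choose par hpar using hpar
    obtain ⟨c, hc, Cs, hCs, hCol⟩ := ih (S \ I)
    let f : (Fin N → Fin (j + 2)) → Fin N → Fin (j + 1 + 2) := fun col v =>
      if v ∈ I then Fin.last _ else (col v).castSucc
    have hf : Set.InjOn f (Cs : Set (Fin N → Fin (j + 2))) := by
      intro a ha b hb hab
      funext v
      by_cases hv : v ∈ I
      · have hv' : v ∉ S \ I := fun h => (mem_sdiff.1 h).2 hv
        rw [(hCol a ha).1 v hv', (hCol b hb).1 v hv']
      · have := congrFun hab v
        simp only [f, hv, if_false] at this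
        exact Fin.castSucc_injective _ this
    refine ⟨c, hc, Cs.image f, ?_, ?_⟩
    · rw [Finset.card_image_of_injOn hf, hCs]
    · intro col hcol
      obtain ⟨a, ha, rfl⟩ := mem_image.1 hcol
      obtain ⟨ha0, hab⟩ := hCol a ha
      refine ⟨?_, ?_⟩
      · intro v hv
        have hvI : v ∉ I := fun h => hv (hIS h)
        have hv' : v ∉ S \ I := fun h => hv (mem_sdiff.1 h).1
        simp only [f, hvI, if_false, ha0 v hv']
        rfl
      · have hstep := star_step G (fun x y => f a x ≠ f a y) hs (fun _ _ h => Ne.symm h) S I hIS par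
          (fun v hv hvI => by
            have hh := hpar v hv hvI
            refine ⟨hh.1, hh.2, ?_, fun h => hvI (h ▸ hh.1)⟩
            simp only [f, hvI, hh.1, if_true, if_false]
            exact ne_of_lt (Fin.castSucc_lt_last _))
        have hcnt : cnt G (fun x y => f a x ≠ f a y) (S \ I) ≥
            cnt G (fun x y => a x ≠ a y) (S \ I) := by
          apply Finset.card_le_card
          intro p hp
          simp only [mem_filter, mem_product, mem_sdiff] at hp ⊢
          refine ⟨hp.1, hp.2.1, hp.2.2.1, ?_⟩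
          simp only [f, hp.1.1.2, hp.1.2.2, if_false]
          intro h
          exact hp.2.2.2 (Fin.castSucc_injective _ h)
        have hcard := hP I hind
        have hsd : #(S \ I) + #I = #S := by
          rw [Finset.card_sdiff_of_subset hIS]
          exact Nat.sub_add_cancel (Finset.card_le_card hIS)
        have hS : #S ≤ #(S \ I) + P := by omega
        have hm : 2 * (j + 1 + 1) * #S ≤ 2 * (j + 1 + 1) * (#(S \ I) + P) :=
          Nat.mul_le_mul_left _ hS
        nlinarith

/-! ### The pointwise splitting inequality -/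

open Crest.ProbabilityR.Continuum

/-- The energy of the monochromatic pairs of a colouring. -/
noncomputable def monoE (s : ℝ → ℝ) {q : ℕ} (x : Fin N → Pt) (col : Fin N → Fin q) : ℝ :=
  ∑ p : {p : Fin N × Fin N // p.1 < p.2},
    if col p.1.1 = col p.1.2 then s (dist (x p.1.1) (x p.1.2)) else 0

/-- The closeness graph of a configuration. -/
def closeG (x : Fin N → Pt) (a b : Fin N) : Prop := dist (x a) (x b) < 1

lemma closeG_symm (x : Fin N → Pt) (a b : Fin N) (h : closeG x a b) : closeG x b a := by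
  unfold closeG at *; rwa [dist_comm]

/-- Separating the energy: monochromatic part plus at least `U` per bichromatic close pair. -/
lemma energy_ge_monoE (s : ℝ → ℝ) (U : ℝ) (hs0 : ∀ r, 0 ≤ s r) (hsU : ∀ r, r < 1 → U ≤ s r)
    (hU : 0 ≤ U) {q : ℕ} (x : Fin N → Pt) (col : Fin N → Fin q) :
    monoE s x col + U * (cnt (fun a b => dist (x a) (x b) < 1) (fun a b => col a ≠ col b) univ : ℕ)
      ≤ energy s x := by
  classical
  have hcnt : (cnt (fun a b => dist (x a) (x b) < 1) (fun a b => col a ≠ col b) univ : ℕ) =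
      ∑ p : {p : Fin N × Fin N // p.1 < p.2},
        (if dist (x p.1.1) (x p.1.2) < 1 ∧ col p.1.1 ≠ col p.1.2 then 1 else 0) := by
    unfold cnt
    rw [← Finset.card_filter]
    symm
    refine Finset.card_bij (fun p _ => p.1) ?_ ?_ ?_
    · intro p hp
      simp only [mem_filter, mem_univ, true_and] at hp
      simp only [mem_filter, mem_product, mem_univ, true_and]
      exact ⟨p.2, hp.1, hp.2⟩
    · intro a _ b _ h
      exact Subtype.ext h
    · intro p hp
      simp only [mem_filter, mem_product, mem_univ, true_and] at hp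
      exact ⟨⟨p, hp.1⟩, by simp [hp.2.1, hp.2.2], rfl⟩
  unfold energy monoE
  rw [hcnt]
  push_cast
  rw [Finset.mul_sum, ← Finset.sum_add_distrib]
  apply Finset.sum_le_sum
  intro p _
  by_cases h1 : col p.1.1 = col p.1.2
  · simp [h1]
  · by_cases h2 : dist (x p.1.1) (x p.1.2) < 1
    · simp [h1, h2, hsU _ h2]
    · simp [h1, h2, hs0]

/-- **Pointwise splitting**. -/
theorem exp_energy_le (s : ℝ → ℝ) (U β : ℝ) (hs0 : ∀ r, 0 ≤ s r) (hsU : ∀ r, r < 1 → U ≤ s r)
    (hU : 0 ≤ U) (hβ : 0 ≤ β) (hlog : Real.log 2 ≤ β * U) (x : Fin N → Pt) (P j : ℕ)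
    (hP : ∀ I : Finset (Fin N), (∀ a ∈ I, ∀ b ∈ I, a ≠ b → ¬ dist (x a) (x b) < 1) → #I ≤ P) :
    Real.exp (-β * energy s x) ≤
      (1 / 2 : ℝ) ^ P * Real.exp (-β * U * ((j + 1) * N - P * ((j + 2) * (j + 1) / 2))) *
        ∑ col : Fin N → Fin (j + 2), Real.exp (-β * monoE s x col) := by
  classical
  obtain ⟨c, hcP, Cs, hCs, hCol⟩ := exists_colourings (fun a b => dist (x a) (x b) < 1)
    (fun a b h => by rwa [dist_comm]) P hP j univ
  have hbU : 0 ≤ β * U := mul_nonneg hβ hU
  set pre : ℝ := Real.exp (-β * U * ((j + 1) * N - P * ((j + 2) * (j + 1) / 2))) with hpre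
  have hprepos : 0 < pre := Real.exp_pos _
  -- each colouring of the family
  have h1 : ∀ col ∈ Cs, Real.exp (-β * energy s x) ≤
      Real.exp (β * U * (c - P)) * pre * Real.exp (-β * monoE s x col) := by
    intro col hcol
    have hE := energy_ge_monoE s U hs0 hsU hU x col
    have hC := (hCol col hcol).2
    simp only [card_univ, Fintype.card_fin] at hC
    have hC' : (2 * (j + 1) * N : ℝ) ≤
        2 * (cnt (fun a b => dist (x a) (x b) < 1) (fun a b => col a ≠ col b) univ : ℕ)
          + 2 * c + P * (j * (j + 3)) := by exact_mod_cast hC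
    rw [hpre, ← Real.exp_add, ← Real.exp_add]
    apply Real.exp_le_exp.2
    have key : ((j + 1) * N - P * ((j + 2) * (j + 1) / 2) + P - c : ℝ) ≤
        (cnt (fun a b => dist (x a) (x b) < 1) (fun a b => col a ≠ col b) univ : ℕ) := by
      nlinarith
    have h3 : β * (monoE s x col + U * (cnt (fun a b => dist (x a) (x b) < 1) (fun a b => col a ≠ col b) univ : ℕ))
        ≤ β * energy s x := mul_le_mul_of_nonneg_left hE hβ
    have h4 : (β * U) * ((j + 1) * N - P * ((j + 2) * (j + 1) / 2) + P - c : ℝ) ≤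
        (β * U) * (cnt (fun a b => dist (x a) (x b) < 1) (fun a b => col a ≠ col b) univ : ℕ) :=
      mul_le_mul_of_nonneg_left key hbU
    nlinarith
  -- sum over the family
  have h2 : (2 : ℝ) ^ c * Real.exp (-β * energy s x) ≤
      Real.exp (β * U * (c - P)) * pre *
        ∑ col : Fin N → Fin (j + 2), Real.exp (-β * monoE s x col) := by
    calc (2 : ℝ) ^ c * Real.exp (-β * energy s x)
        = ∑ _col ∈ Cs, Real.exp (-β * energy s x) := by
          rw [Finset.sum_const, hCs, nsmul_eq_mul]; push_cast; ring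
      _ ≤ ∑ col ∈ Cs, (Real.exp (β * U * (c - P)) * pre * Real.exp (-β * monoE s x col)) :=
          Finset.sum_le_sum h1
      _ = Real.exp (β * U * (c - P)) * pre * ∑ col ∈ Cs, Real.exp (-β * monoE s x col) := by
          rw [Finset.mul_sum]
      _ ≤ _ := by
          apply mul_le_mul_of_nonneg_left _ (by positivity)
          exact Finset.sum_le_sum_of_subset_of_nonneg (Finset.subset_univ _)
            (fun _ _ _ => (Real.exp_pos _).le)
  -- the power of two
  have h3 : Real.exp (β * U * (c - P)) ≤ (1 / 2 : ℝ) ^ (P - c) := by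
    have hcP' : ((P - c : ℕ) : ℝ) = (P : ℝ) - c := by
      rw [Nat.cast_sub hcP]
    have : (1 / 2 : ℝ) ^ (P - c) = Real.exp (-(Real.log 2) * ((P - c : ℕ) : ℝ)) := by
      rw [one_div, inv_pow, ← Real.rpow_natCast]
      rw [Real.rpow_def_of_pos (by norm_num : (0 : ℝ) < 2), ← Real.exp_neg]
      congr 1; ring
    rw [this, hcP']
    apply Real.exp_le_exp.2
    have hh : (0 : ℝ) ≤ (P : ℝ) - c := by
      rw [← hcP']; positivity
    nlinarith
  have hS : 0 ≤ ∑ col : Fin N → Fin (j + 2), Real.exp (-β * monoE s x col) :=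
    Finset.sum_nonneg (fun _ _ => (Real.exp_pos _).le)
  have h4 : (1 / 2 : ℝ) ^ c * (1 / 2 : ℝ) ^ (P - c) = (1 / 2 : ℝ) ^ P := by
    rw [← pow_add, Nat.add_sub_cancel' hcP]
  have h2c : (0 : ℝ) < 2 ^ c := by positivity
  have h5 : Real.exp (-β * energy s x) ≤
      (1 / 2 : ℝ) ^ c * (Real.exp (β * U * (c - P)) * pre *
        ∑ col : Fin N → Fin (j + 2), Real.exp (-β * monoE s x col)) := by
    rw [one_div, inv_pow, ← div_eq_inv_mul, le_div_iff₀ h2c]
    linarith
  calc Real.exp (-β * energy s x) ≤ _ := h5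
    _ ≤ (1 / 2 : ℝ) ^ c * ((1 / 2 : ℝ) ^ (P - c) * pre *
        ∑ col : Fin N → Fin (j + 2), Real.exp (-β * monoE s x col)) := by
        apply mul_le_mul_of_nonneg_left _ (by positivity)
        apply mul_le_mul_of_nonneg_right _ hS
        exact mul_le_mul_of_nonneg_right h3 hprepos.le
    _ = ((1 / 2 : ℝ) ^ c * (1 / 2 : ℝ) ^ (P - c)) * pre *
        ∑ col : Fin N → Fin (j + 2), Real.exp (-β * monoE s x col) := by ring
    _ = _ := by rw [h4]

open MeasureTheory

/-- **Convex Turan**: `N²/(2P) - N/2 ≤ e`. -/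
theorem turan_convex (G : Fin N → Fin N → Prop) [DecidableRel G] (hs : ∀ a b, G a b → G b a)
    (P : ℕ) (hP0 : 0 < P) (hP : ∀ I : Finset (Fin N), (∀ a ∈ I, ∀ b ∈ I, a ≠ b → ¬ G a b) → #I ≤ P)
    (S : Finset (Fin N)) :
    ((#S : ℝ) ^ 2 / (2 * P) - #S / 2) ≤ (cnt G (fun _ _ => True) S : ℕ) := by
  have hT := turan_layers G hs P hP (#S / P) S
  set k := #S / P with hk
  set r := #S % P with hr
  have hdiv : P * k + r = #S := Nat.div_add_mod _ _
  have hrlt : r < P := Nat.mod_lt _ hP0
  have hT' : (2 * k * #S : ℝ) ≤ 2 * (cnt G (fun _ _ => True) S : ℕ) + P * (k * (k + 1)) := by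
    exact_mod_cast hT
  have hdiv' : (P * k + r : ℝ) = #S := by exact_mod_cast hdiv
  have hrlt' : (r : ℝ) ≤ P := by exact_mod_cast hrlt.le
  have hP0' : (0 : ℝ) < P := by exact_mod_cast hP0
  have hr0 : (0 : ℝ) ≤ r := by positivity
  rw [← hdiv'] at hT' ⊢
  have key : ((P * k + r : ℝ)) ^ 2 / (2 * P) - (P * k + r) / 2 =
      (k * (P * k + r) - P * (k * (k + 1)) / 2) - (r * (P - r)) / (2 * P) := by
    field_simp
    ring
  rw [key]
  have h1 : 0 ≤ (r * (P - r) : ℝ) / (2 * P) := by
    apply div_nonneg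
    · exact mul_nonneg hr0 (by linarith)
    · positivity
  nlinarith

/-- A finite set of points pairwise more than `2 ρ` apart inside a ball of radius `R` around `c`:
at most `((R + ρ) / ρ)^3` points. -/
lemma card_le_of_sep (X : Finset Pt) (c : Pt) (ρ R : ℝ) (hρ : 0 < ρ) (hR : 0 < R)
    (hin : ∀ x ∈ X, dist x c < R) (hsep : ∀ x ∈ X, ∀ y ∈ X, x ≠ y → 2 * ρ ≤ dist x y) :
    (#X : ℝ) * ρ ^ 3 ≤ (R + ρ) ^ 3 := by
  classical
  have hfr : Module.finrank ℝ Pt = 3 := by simp
  have hvol : ∀ (z : Pt) (r : ℝ), 0 < r →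
      volume (Metric.ball z r) = ENNReal.ofReal (r ^ 3) * volume (Metric.ball (0 : Pt) 1) := by
    intro z r hr
    rw [Measure.addHaar_ball_of_pos volume z hr, hfr]
  have hdisj : (↑X : Set Pt).PairwiseDisjoint (fun x => Metric.ball x ρ) := by
    intro x hx y hy hxy
    refine Metric.ball_disjoint_ball ?_
    have := hsep x hx y hy hxy
    linarith
  have hsub : (⋃ x ∈ X, Metric.ball x ρ) ⊆ Metric.ball c (R + ρ) := by
    intro z hz
    simp only [Set.mem_iUnion] at hz
    obtain ⟨x, hx, hzx⟩ := hz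
    have h1 := hin x hx
    have h2 : dist z x < ρ := hzx
    simp only [Metric.mem_ball]
    calc dist z c ≤ dist z x + dist x c := dist_triangle _ _ _
      _ < R + ρ := by linarith
  have hm : ∑ x ∈ X, volume (Metric.ball x ρ) ≤ volume (Metric.ball c (R + ρ)) := by
    rw [← measure_biUnion_finset hdisj (fun x _ => Metric.isOpen_ball.measurableSet)]
    exact measure_mono hsub
  have hb0 : volume (Metric.ball (0 : Pt) 1) ≠ 0 :=
    (Metric.measure_ball_pos volume _ one_pos).ne'
  have hbt : volume (Metric.ball (0 : Pt) 1) ≠ ⊤ := measure_ball_lt_top.ne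
  simp_rw [hvol _ _ hρ] at hm
  rw [hvol _ _ (by linarith : 0 < R + ρ), Finset.sum_const, nsmul_eq_mul, ← mul_assoc] at hm
  have hm2 := (ENNReal.mul_le_mul_iff_left hb0 hbt).1 hm
  have h3 : ENNReal.ofReal ((#X : ℝ) * ρ ^ 3) ≤ ENNReal.ofReal ((R + ρ) ^ 3) := by
    rw [ENNReal.ofReal_mul (by positivity)]
    simpa using hm2
  exact (ENNReal.ofReal_le_ofReal_iff (by positivity)).1 h3

/-- **The KEY lemma**: independent sets of the graph `{r ≤ r₂/2} ∪ {3 r₂ ≤ r ≤ 1}` have at most `2197 P`
elements, when 1-separated subsets of the domain have at most `P` elements (no dependence on `r₂`). -/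
theorem indep_chi2_card_le (r₂ : ℝ) (hr₂ : 0 < r₂) (D : Set Pt) (P : ℕ)
    (hP : ∀ X : Finset Pt, (∀ x ∈ X, x ∈ D) → (∀ x ∈ X, ∀ y ∈ X, x ≠ y → 1 ≤ dist x y) → #X ≤ P)
    (x : Fin N → Pt) (I : Finset (Fin N)) (hx : ∀ i ∈ I, x i ∈ D)
    (hI : ∀ a ∈ I, ∀ b ∈ I, a ≠ b →
      ¬ (dist (x a) (x b) ≤ r₂ / 2 ∨ (3 * r₂ ≤ dist (x a) (x b) ∧ dist (x a) (x b) ≤ 1))) :
    #I ≤ 2197 * P := by
  classical
  -- the maximal `3 r₂`-separated subset
  obtain ⟨R, hRI, hRind, hRmax⟩ := exists_maximal_indep (fun a b => dist (x a) (x b) < 3 * r₂)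
    (fun a b h => by rwa [dist_comm]) I
  -- its points are `1`-separated
  have hR1 : ∀ a ∈ R, ∀ b ∈ R, a ≠ b → 1 < dist (x a) (x b) := by
    intro a ha b hb hab
    have h1 := hRind a ha b hb hab
    have h2 := hI a (hRI ha) b (hRI hb) hab
    push Not at h1 h2
    by_contra h3
    push Not at h3
    exact absurd h3 (not_le.2 (h2.2 h1))
  have hRcard : #R ≤ P := by
    have hinj : Set.InjOn x (R : Set (Fin N)) := by
      intro a ha b hb hab
      by_contra hne
      have := hR1 a ha b hb hne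
      rw [hab, dist_self] at this
      linarith
    rw [← Finset.card_image_of_injOn hinj]
    apply hP
    · intro y hy
      obtain ⟨a, ha, rfl⟩ := mem_image.1 hy
      exact hx a (hRI ha)
    · intro y hy z hz hyz
      obtain ⟨a, ha, rfl⟩ := mem_image.1 hy
      obtain ⟨b, hb, rfl⟩ := mem_image.1 hz
      have hab : a ≠ b := fun h => hyz (by rw [h])
      exact (hR1 a ha b hb hab).le
  -- the fibres
  have hfib : ∀ u ∈ R, #(I.filter (fun v => dist (x v) (x u) < 3 * r₂)) ≤ 2197 := by
    intro u _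
    set F := I.filter (fun v => dist (x v) (x u) < 3 * r₂) with hF
    have hinj : Set.InjOn x (F : Set (Fin N)) := by
      intro a ha b hb hab
      by_contra hne
      have h1 := hI a (mem_filter.1 ha).1 b (mem_filter.1 hb).1 hne
      rw [hab, dist_self] at h1
      exact h1 (Or.inl (by positivity))
    have h := card_le_of_sep (F.image x) (x u) (r₂ / 4) (3 * r₂) (by positivity) (by positivity)
      (by
        intro y hy
        obtain ⟨a, ha, rfl⟩ := mem_image.1 hy
        exact (mem_filter.1 ha).2)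
      (by
        intro y hy z hz hyz
        obtain ⟨a, ha, rfl⟩ := mem_image.1 hy
        obtain ⟨b, hb, rfl⟩ := mem_image.1 hz
        have hab : a ≠ b := fun h => hyz (by rw [h])
        have h1 := hI a (mem_filter.1 ha).1 b (mem_filter.1 hb).1 hab
        push Not at h1
        linarith [h1.1])
    rw [Finset.card_image_of_injOn hinj] at h
    have h2 : (#F : ℝ) * (r₂ / 4) ^ 3 ≤ 2197 * (r₂ / 4) ^ 3 := by
      calc (#F : ℝ) * (r₂ / 4) ^ 3 ≤ (3 * r₂ + r₂ / 4) ^ 3 := h
        _ = _ := by ring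
    have h3 : (#F : ℝ) ≤ 2197 := le_of_mul_le_mul_right h2 (by positivity)
    exact_mod_cast h3
  -- cover
  have hcover : I ⊆ R.biUnion (fun u => I.filter (fun v => dist (x v) (x u) < 3 * r₂)) := by
    intro v hv
    by_cases hvR : v ∈ R
    · refine mem_biUnion.2 ⟨v, hvR, mem_filter.2 ⟨hv, ?_⟩⟩
      rw [dist_self]; positivity
    · obtain ⟨u, hu, huv⟩ := hRmax v hv hvR
      exact mem_biUnion.2 ⟨u, hu, mem_filter.2 ⟨hv, huv⟩⟩
  calc #I ≤ #(R.biUnion (fun u => I.filter (fun v => dist (x v) (x u) < 3 * r₂))) :=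
        Finset.card_le_card hcover
    _ ≤ ∑ u ∈ R, #(I.filter (fun v => dist (x v) (x u) < 3 * r₂)) := Finset.card_biUnion_le
    _ ≤ ∑ _u ∈ R, 2197 := Finset.sum_le_sum hfib
    _ = #R * 2197 := by simp
    _ ≤ 2197 * P := by omega

end Crest.Agent.TL.Splitting
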