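import Crest.Agent.TL.AsmChain
import Crest.Agent.TL.Level0Bridge
import Crest.Agent.TL.BarrierSplit
import Crest.Agent.TL.OSConcrete
import Crest.Agent.TL.Concentration

/-!
# B-c: the window at `(β, A) = (1, A₀)`

At `(1, A₀)`, for a line `L σ = μ σ + c` with `μ ≤ 0`, `-2⁻²⁰ ≤ c ≤ 0` which lies below the trial value at
`yT`, and with the level-0 weight below `-L + o` (one-sided bound), the level-0 weight is below
`-L - 1/4` for all `σ ≥ 1.7 p`. Three regimes: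

* `σ ≥ 2511 p`: `barrier_S3`;
* `σ = k p + x`, `w ≤ x ≤ p - w`: `barrier_S1`;
* `σ = k p + x`, `|x| ≤ w`, `k ≥ 2`: splitting + `barrier_S2`, `barrier_S2'`.
-/

set_option autoImplicit false

namespace Crest.Agent.TL.Asm

open Crest.ProbabilityR.Continuum Real Set Filter Topology
open Crest.Agent.TL.Gauss Crest.Agent.TL.Series Crest.Agent.TL.Potential
open Crest.Agent.TL.Num (A0 Ap Amax beta2 betaT g1 r2 Uof Tol ts td Psi yD bD yT bT tolE wW rhoC)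

section window

variable {cr : ℝ → ℝ}

/-- The level-0 weight at `(1, A₀)`. -/
local notation "WW" => fun (ℓ Γ₀ : ℝ) (n : ℕ) =>
  (1 / 2) * 1 * A0 * Γ₀ * ((n : ℝ) ^ 2 / ℓ ^ 3) + Real.log (partitionFn (ss cr) ℓ n 1)

lemma log_tilt_eq' (hc : CoreOK cr) {ℓ : ℝ} (hℓ : 0 < ℓ) (Γ₀ : ℝ) (n : ℕ) :
    (1 / 2) * 1 * A0 * Γ₀ * ((n : ℝ) ^ 2 / ℓ ^ 3) + Real.log (partitionFn (ss cr) ℓ n 1)
      = Real.log (Real.exp ((1 / 2) * 1 * A0 * Γ₀ * (n : ℝ) ^ 2 / ℓ ^ 3) * partitionFn (ss cr) ℓ n 1) := by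
  rw [Real.log_mul (Real.exp_pos _).ne' (partitionFn_ss_pos hc zero_le_one hℓ n).ne', Real.log_exp]
  ring

/-- Case `σ ≥ 2511 p`. -/
lemma window_high (hc : CoreOK cr) {ℓ Γ Γ₀ w₀ μ c : ℝ} (hℓ : 0 < ℓ)
    (T : Tol pp ((packingNumber ℓ : ℝ) / ℓ ^ 3) Γ Γ₀ w₀) (hc0 : c ≤ 0) (hμ0 : μ ≤ 0) {n : ℕ}
    (hn : 2511 * pp ≤ (n : ℝ) / ℓ ^ 3) :
    (1 / 2) * 1 * A0 * Γ₀ * ((n : ℝ) ^ 2 / ℓ ^ 3) + Real.log (partitionFn (ss cr) ℓ n 1)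
      ≤ ℓ ^ 3 * (-(μ * ((n : ℝ) / ℓ ^ 3) + c) - 1 / 4) := by
  have hL3 : 0 < ℓ ^ 3 := by positivity
  have hp := pp_ge
  have hσ0 : 0 < (n : ℝ) / ℓ ^ 3 := by nlinarith
  have hn1 : 1 ≤ n := by
    rcases Nat.eq_zero_or_pos n with h | h
    · rw [h] at hσ0; simp at hσ0
    · exact h
  have h1 := level0_le_S3 hc (β := 1) A0 Γ₀ zero_le_one hℓ hn1
  have h2 := Crest.Agent.TL.Num.barrier_S3 (β := 1) (A := A0) (P₁ := 64) (U₂ := U₂) T le_rfl A0_pos.le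
    A0_lt_Ap.le (by linarith [pp_le]) (by unfold U₂; norm_num [mul_comm, mul_assoc, mul_left_comm]) hn
  rw [log_tilt_eq' hc hℓ, ← Real.log_exp (ℓ ^ 3 * _)]
  have h3 := h1.trans h2
  rw [div_le_iff₀ hL3] at h3
  have h4 : -1 * ℓ ^ 3 ≤ ℓ ^ 3 * (-(μ * ((n : ℝ) / ℓ ^ 3) + c) - 1 / 4) := by
    have : 0 ≤ -(μ * ((n : ℝ) / ℓ ^ 3)) := by nlinarith
    nlinarith
  rw [Real.log_exp]
  linarith

/-- Case `w ≤ x ≤ p - w`. -/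
lemma window_mid (hc : CoreOK cr) {ℓ Γ Γ₀ w₀ μ c x : ℝ} (hℓ : 0 < ℓ)
    (T : Tol pp ((packingNumber ℓ : ℝ) / ℓ ^ 3) Γ Γ₀ w₀) (hc1 : -1 ≤ c)
    (hμ : ts 1 A0 Γ w₀ (yT pp) bT ≤ -(μ * yT pp + c)) {n k : ℕ} (hn : 1 ≤ n) (hk : 1 ≤ k)
    (hσ : (n : ℝ) / ℓ ^ 3 = k * pp + x) (hx1 : wW ≤ x) (hx2 : x ≤ pp - wW)
    (hσ2 : (n : ℝ) / ℓ ^ 3 ≤ rhoC pp) :
    (1 / 2) * 1 * A0 * Γ₀ * ((n : ℝ) ^ 2 / ℓ ^ 3) + Real.log (partitionFn (ss cr) ℓ n 1)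
      ≤ ℓ ^ 3 * (-(μ * ((n : ℝ) / ℓ ^ 3) + c) - 1 / 4) := by
  have hL3 : 0 < ℓ ^ 3 := by positivity
  have h1 := level0_le_Psi hc (β := 1) A0 Γ₀ zero_le_one hℓ hn k
  have h2 := Crest.Agent.TL.Num.barrier_S1 T hc1 hμ hk hσ hx1 hx2 hσ2
  have h3 : Real.log (Real.exp ((1 / 2) * 1 * A0 * Γ₀ * (n : ℝ) ^ 2 / ℓ ^ 3) * partitionFn (ss cr) ℓ n 1)
      / ℓ ^ 3 ≤ -(μ * ((n : ℝ) / ℓ ^ 3) + c) - 1 / 2 := h1.trans h2
  rw [div_le_iff₀ hL3] at h3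
  rw [log_tilt_eq' hc hℓ]
  nlinarith

/-- Case `|x| ≤ w`, `k ≥ 2`: splitting. -/
lemma window_split (hc : CoreOK cr) {ℓ Γ Γ₀ w₀ μ c x o : ℝ} (hℓ : 0 < ℓ)
    (T : Tol pp ((packingNumber ℓ : ℝ) / ℓ ^ 3) Γ Γ₀ w₀) (hc0 : c ≤ 0) (hc1 : -(1 / 2 ^ 20) ≤ c)
    (ho : 2512 * o ≤ 1 / 16) (ho0 : 0 ≤ o)
    (hlog : ∀ q : ℕ, (q : ℝ) / ℓ ^ 3 ≤ rhoC pp + 1 → 2512 * (Real.log ((q : ℝ) + 1) / ℓ ^ 3) ≤ 1 / 16)
    (hOS : ∀ q : ℕ, 1 ≤ q → (q : ℝ) / ℓ ^ 3 ≤ rhoC pp + 1 →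
      (1 / 2) * 1 * A0 * Γ₀ * ((q : ℝ) ^ 2 / ℓ ^ 3) + Real.log (partitionFn (ss cr) ℓ q 1)
        ≤ ℓ ^ 3 * (-(μ * ((q : ℝ) / ℓ ^ 3) + c) + o))
    {n k : ℕ} (hk : 2 ≤ k) (hk' : k ≤ 2512)
    (hσ : (n : ℝ) / ℓ ^ 3 = k * pp + x) (hx : |x| ≤ wW)
    (hσ2 : (n : ℝ) / ℓ ^ 3 ≤ rhoC pp + 1) :
    (1 / 2) * 1 * A0 * Γ₀ * ((n : ℝ) ^ 2 / ℓ ^ 3) + Real.log (partitionFn (ss cr) ℓ n 1)
      ≤ ℓ ^ 3 * (-(μ * ((n : ℝ) / ℓ ^ 3) + c) - 1 / 4) := by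
  have hL3 : 0 < ℓ ^ 3 := by positivity
  have hp1 := pp_ge
  have hp8 := pp_le
  obtain ⟨j, rfl⟩ : ∃ j, k = j + 2 := ⟨k - 2, by omega⟩
  have hj' : (j : ℝ) + 2 ≤ 2512 := by exact_mod_cast hk'
  have hj0 : (0 : ℝ) ≤ j := Nat.cast_nonneg j
  have hΓ₀ : 0 ≤ Γ₀ := by linarith [T.Γ₀1]
  have hκ : 0 ≤ A0 * Γ₀ := mul_nonneg A0_pos.le hΓ₀
  have hlog2 : Real.log 2 ≤ 1 * Us := by
    have h1 : Real.log 2 ≤ 1 := by
      have := Real.log_two_lt_d9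
      linarith
    have h2 : (1 : ℝ) ≤ Us := by
      unfold Us Uof Crest.Agent.TL.Num.eta0
      have h2 : A0 = (2:ℝ)^50 := rfl
      rw [h2]
      have h3 : (2:ℝ) ^ (-27 : ℤ) ≤ 1 := by norm_num
      nlinarith [show (2:ℝ) ≤ 2^50 by norm_num]
    linarith
  have hAm : ∀ q ≤ n, partitionFn (ss cr) ℓ q 1 * Real.exp (1 / 2 * (A0 * Γ₀) * (q : ℝ) ^ 2 / ℓ ^ 3) ≤
      Real.exp (ℓ ^ 3 * (-(μ * ((q : ℝ) / ℓ ^ 3)) - c + o)) := by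
    intro q hq
    rcases Nat.eq_zero_or_pos q with h | h
    · subst h
      have hZ0 : partitionFn (ss cr) ℓ 0 1 = 1 := Crest.Agent.TL.Concentration.partitionFn_zero _ _ _ hℓ.le
      rw [hZ0]
      simp only [Nat.cast_zero, ne_eq, OfNat.ofNat_ne_zero, not_false_eq_true, zero_pow, mul_zero,
        zero_div, Real.exp_zero, mul_one]
      apply Real.one_le_exp
      have : 0 ≤ -c + o := by linarith
      nlinarith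
    · have hqσ : (q : ℝ) / ℓ ^ 3 ≤ rhoC pp + 1 := by
        refine le_trans ?_ hσ2
        apply div_le_div_of_nonneg_right _ hL3.le
        exact_mod_cast hq
      have h1 := hOS q h hqσ
      rw [log_tilt_eq' hc hℓ, Real.log_le_iff_le_exp (mul_pos (Real.exp_pos _)
        (partitionFn_ss_pos hc zero_le_one hℓ q))] at h1
      have e : (1 / 2) * 1 * A0 * Γ₀ * (q : ℝ) ^ 2 / ℓ ^ 3 = 1 / 2 * (A0 * Γ₀) * (q : ℝ) ^ 2 / ℓ ^ 3 := by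
        ring
      rw [e, mul_comm] at h1
      refine h1.trans (le_of_eq ?_)
      congr 1
      ring
  have hsplit := BarrierSplit.barrier_split (ss cr) (ss_meas hc) Us 1 ℓ (ss_nonneg hc)
    (fun r hr => ss_ge_U hc hr.le) Us_pos.le zero_le_one hlog2 hℓ (A0 * Γ₀) μ c o hκ n j hAm
  rw [log_tilt_eq' hc hℓ, ← Real.log_exp (ℓ ^ 3 * _), mul_comm (Real.exp _)]
  have e : (1 / 2) * 1 * A0 * Γ₀ * (n : ℝ) ^ 2 / ℓ ^ 3 = 1 / 2 * (A0 * Γ₀) * (n : ℝ) ^ 2 / ℓ ^ 3 := by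
    ring
  rw [e]
  apply Real.log_le_log (mul_pos (partitionFn_ss_pos hc zero_le_one hℓ n) (Real.exp_pos _))
  refine hsplit.trans ?_
  apply Real.exp_le_exp.2
  apply mul_le_mul_of_nonneg_left _ hL3.le
  set σ : ℝ := (n : ℝ) / ℓ ^ 3 with hσdef
  set pt : ℝ := (packingNumber ℓ : ℝ) / ℓ ^ 3 with hpt
  -- the window estimate
  have hS2 := Crest.Agent.TL.Num.barrier_S2 (k := j + 2) T (by omega) hσ hx hσ2
  push_cast at hS2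
  have hS2' := Crest.Agent.TL.Num.barrier_S2' hp1
  have hptp : pp ≤ pt := T.ptil1
  have hl2 : 0 < Real.log 2 := Real.log_pos (by norm_num)
  have hpt2 : pp * Real.log 2 ≤ pt * Real.log 2 := mul_le_mul_of_nonneg_right hptp hl2.le
  -- log of the number of occupation vectors
  have hlogn : (j + 2) * Real.log (n + 1) / ℓ ^ 3 ≤ 1 / 16 := by
    have hlog0 : 0 ≤ Real.log ((n : ℝ) + 1) := by
      apply Real.log_nonneg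
      have : (0 : ℝ) ≤ n := Nat.cast_nonneg n
      linarith
    have hlog1 := hlog n hσ2
    calc (j + 2) * Real.log (n + 1) / ℓ ^ 3
        ≤ 2512 * Real.log ((n : ℝ) + 1) / ℓ ^ 3 := by
          apply div_le_div_of_nonneg_right _ hL3.le
          exact mul_le_mul_of_nonneg_right hj' hlog0
      _ = 2512 * (Real.log ((n : ℝ) + 1) / ℓ ^ 3) := by ring
      _ ≤ 1 / 16 := hlog1
  have hco : ((j : ℝ) + 2) * o ≤ 1 / 16 := by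
    have : ((j : ℝ) + 2) * o ≤ 2512 * o := mul_le_mul_of_nonneg_right hj' ho0
    linarith
  have hcc : -(((j : ℝ) + 1) * c) ≤ 1 / 400 := by
    have h1 : -c ≤ 1 / 2 ^ 20 := by linarith
    have h2 : 0 ≤ -c := by linarith
    have h3 : ((j : ℝ) + 1) * -c ≤ 2511 * (1 / 2 ^ 20) := by
      apply mul_le_mul _ h1 h2 (by norm_num)
      linarith
    have h4 : (2511 : ℝ) * (1 / 2 ^ 20) ≤ 1 / 400 := by norm_num
    linarith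
  have hquad : ((j : ℝ) + 1) * (A0 * Γ₀ * σ ^ 2 / (2 * (j + 2)) - 1 * Us * (σ - (j + 2) * pt / 2))
      ≤ 0.07 * pp := by
    have hJ : (0 : ℝ) < (j : ℝ) + 2 := by positivity
    refine le_trans (le_of_eq ?_) hS2
    have e1 : ((j : ℝ) + 2 - 1) = (j : ℝ) + 1 := by ring
    rw [e1]
    have hUs : Us = Uof pp := rfl
    rw [hUs]
    field_simp
    ring
  linarith

/-- **The window**, abstract form. -/
theorem window_core (hc : CoreOK cr) {ℓ Γ Γ₀ w₀ μ c o : ℝ} (hℓ : 0 < ℓ)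
    (T : Tol pp ((packingNumber ℓ : ℝ) / ℓ ^ 3) Γ Γ₀ w₀) (hc0 : c ≤ 0) (hc1 : -(1 / 2 ^ 20) ≤ c)
    (hμ0 : μ ≤ 0) (hμ : ts 1 A0 Γ w₀ (yT pp) bT ≤ -(μ * yT pp + c))
    (ho : 2512 * o ≤ 1 / 16) (ho0 : 0 ≤ o)
    (hlog : ∀ q : ℕ, (q : ℝ) / ℓ ^ 3 ≤ rhoC pp + 1 → 2512 * (Real.log ((q : ℝ) + 1) / ℓ ^ 3) ≤ 1 / 16)
    (hOS : ∀ q : ℕ, 1 ≤ q → (q : ℝ) / ℓ ^ 3 ≤ rhoC pp + 1 →
      (1 / 2) * 1 * A0 * Γ₀ * ((q : ℝ) ^ 2 / ℓ ^ 3) + Real.log (partitionFn (ss cr) ℓ q 1)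
        ≤ ℓ ^ 3 * (-(μ * ((q : ℝ) / ℓ ^ 3) + c) + o))
    {n : ℕ} (hn : 1.7 * pp ≤ (n : ℝ) / ℓ ^ 3) :
    (1 / 2) * 1 * A0 * Γ₀ * ((n : ℝ) ^ 2 / ℓ ^ 3) + Real.log (partitionFn (ss cr) ℓ n 1)
      ≤ ℓ ^ 3 * (-(μ * ((n : ℝ) / ℓ ^ 3) + c) - 1 / 4) := by
  have hL3 : 0 < ℓ ^ 3 := by positivity
  have hp1 := pp_ge
  have hp8 := pp_le
  have hp0 : 0 < pp := pp_pos
  set σ : ℝ := (n : ℝ) / ℓ ^ 3 with hσdef
  have hσ0 : 0 < σ := by nlinarith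
  have hn1 : 1 ≤ n := by
    rcases Nat.eq_zero_or_pos n with h | h
    · rw [hσdef, h] at hσ0; simp at hσ0
    · exact h
  have hw : wW = 1 / 2 ^ 27 := Crest.Agent.TL.Num.wW_val
  have hc1' : -1 ≤ c := by
    have : (1 : ℝ) / 2 ^ 20 ≤ 1 := by norm_num
    linarith
  by_cases hhigh : 2511 * pp ≤ σ
  · exact window_high hc hℓ T hc0 hμ0 hhigh
  push Not at hhigh
  -- the decomposition
  set k : ℕ := ⌊σ / pp⌋₊ with hk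
  have hk1 : (k : ℝ) ≤ σ / pp := Nat.floor_le (by positivity)
  have hk2 : σ / pp < k + 1 := Nat.lt_floor_add_one _
  rw [le_div_iff₀ hp0] at hk1
  rw [div_lt_iff₀ hp0] at hk2
  have hk3 : 1 ≤ k := by
    apply Nat.le_floor
    rw [le_div_iff₀ hp0]
    push_cast
    nlinarith
  have hk4 : (k : ℝ) ≤ 2511 := by
    have : (k : ℝ) * pp < 2511 * pp := by linarith
    exact (lt_of_mul_lt_mul_right this hp0.le).le
  have hk5 : k ≤ 2511 := by exact_mod_cast hk4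
  have hρ : rhoC pp = 2512 * pp + 1 := rfl
  set x : ℝ := σ - k * pp with hx
  have hσx : σ = k * pp + x := by rw [hx]; ring
  have hx0 : 0 ≤ x := by rw [hx]; linarith
  have hx1 : x < pp := by rw [hx]; nlinarith
  by_cases h1 : x < wW
  · -- `k ≥ 2`
    have hk6 : 2 ≤ k := by
      by_contra hcon
      have : k = 1 := by omega
      rw [this] at hσx
      push_cast at hσx
      rw [hw] at h1
      have h2 : (1 : ℝ) / 2 ^ 27 ≤ 1 / 2 := by norm_num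
      nlinarith
    refine window_split hc hℓ T hc0 hc1 ho ho0 hlog hOS hk6 (by omega) hσx ?_ (by rw [hρ]; nlinarith)
    rw [abs_of_nonneg hx0]
    exact h1.le
  by_cases h2 : x ≤ pp - wW
  · exact window_mid hc hℓ T hc1' hμ hn1 hk3 hσx (not_lt.1 h1) h2 (by rw [hρ]; nlinarith)
  · push Not at h2
    have hw0 : 0 < wW := by rw [hw]; positivity
    refine window_split (k := k + 1) (x := x - pp) hc hℓ T hc0 hc1 ho ho0 hlog hOS (by omega) (by omega)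
      (by push_cast; show σ = _; rw [hσx]; ring) ?_ (by rw [hρ]; nlinarith)
    rw [abs_le]
    constructor <;> linarith

end window

end Crest.Agent.TL.Asm
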